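import Crest.Agent.R234.Swb1_159

/-!
# Row 234, F6-BLOCK (helper159), part 2: the height functional in two frames
-/

set_option autoImplicit false
set_option linter.unusedSectionVars false

open MeasureTheory Set Metric Filter Topology
open Crest.GeometryTopology.Submanifold
open Crest.Agent.R234.Vf_884 Crest.Agent.R234.Ar_870 Crest.Agent.R234.Cy_870
open Crest.Agent.R234.GL_394
open scoped ENNReal NNReal InnerProductSpace

noncomputable section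

namespace Crest.Agent.R234.Swb_159

variable {m k : ℕ}

local notation "adj" => ContinuousLinearMap.adjoint

/-- normalised quadratic forms at two close vectors. -/
theorem quad_close {v w : Euc m} (hv : v ≠ 0) (hw : w ≠ 0) {B : L m} {c η : ℝ}
    (hB : ‖B‖ ≤ c * ‖v‖) (hη : ‖w - v‖ ≤ η) :
    |⟪w, B w⟫_ℝ / ‖w‖ ^ 2 - ⟪v, B v⟫_ℝ / ‖v‖ ^ 2| ≤ 4 * c * η := by
  have nv : 0 < ‖v‖ := norm_pos_iff.2 hv
  have nw : 0 < ‖w‖ := norm_pos_iff.2 hw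
  have hη0 : 0 ≤ η := (norm_nonneg _).trans hη
  set a := ‖v‖⁻¹ • v with ha
  set b := ‖w‖⁻¹ • w with hb
  have na : ‖a‖ = 1 := by rw [ha, norm_smul, norm_inv, norm_norm, inv_mul_cancel₀ nv.ne']
  have nb : ‖b‖ = 1 := by rw [hb, norm_smul, norm_inv, norm_norm, inv_mul_cancel₀ nw.ne']
  have e1 : ⟪w, B w⟫_ℝ / ‖w‖ ^ 2 = ⟪b, B b⟫_ℝ := by
    rw [hb, map_smul, inner_smul_left, inner_smul_right]
    simp only [conj_trivial]
    field_simp
  have e2 : ⟪v, B v⟫_ℝ / ‖v‖ ^ 2 = ⟪a, B a⟫_ℝ := by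
    rw [ha, map_smul, inner_smul_left, inner_smul_right]
    simp only [conj_trivial]
    field_simp
  have hab : ‖b - a‖ ≤ 2 * η / ‖v‖ := by
    have e : b - a = ‖v‖⁻¹ • (w - v) + (‖w‖⁻¹ - ‖v‖⁻¹) • w := by
      rw [hb, ha]; module
    rw [e]
    refine (norm_add_le _ _).trans ?_
    rw [norm_smul, norm_smul, norm_inv, norm_norm, Real.norm_eq_abs]
    have h1 : |‖w‖⁻¹ - ‖v‖⁻¹| * ‖w‖ = |‖v‖ - ‖w‖| / ‖v‖ := by
      rw [← abs_of_pos nw, ← abs_mul, abs_of_pos nw]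
      have : (‖w‖⁻¹ - ‖v‖⁻¹) * ‖w‖ = (‖v‖ - ‖w‖) / ‖v‖ := by field_simp
      rw [this, abs_div, abs_of_pos nv]
    rw [h1]
    have h2 : |‖v‖ - ‖w‖| ≤ η := by
      rw [abs_sub_comm]; exact (abs_norm_sub_norm_le _ _).trans hη
    have h3 : |‖v‖ - ‖w‖| / ‖v‖ ≤ η / ‖v‖ := by gcongr
    have h4 : ‖v‖⁻¹ * ‖w - v‖ ≤ η / ‖v‖ := by
      rw [inv_mul_eq_div]; gcongr
    have h5 : 2 * η / ‖v‖ = η / ‖v‖ + η / ‖v‖ := by ring
    linarith
  rw [e1, e2]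
  have e : ⟪b, B b⟫_ℝ - ⟪a, B a⟫_ℝ = ⟪b - a, B b⟫_ℝ + ⟪a, B (b - a)⟫_ℝ := by
    rw [inner_sub_left, map_sub, inner_sub_right]; ring
  rw [e]
  have hc : 0 ≤ c * ‖v‖ := (norm_nonneg _).trans hB
  have t1 : |⟪b - a, B b⟫_ℝ| ≤ (2 * η / ‖v‖) * (c * ‖v‖) := by
    refine (abs_real_inner_le_norm _ _).trans (mul_le_mul hab ?_ (norm_nonneg _) (by positivity))
    refine (B.le_opNorm b).trans ?_
    rw [nb, mul_one]; exact hB
  have t2 : |⟪a, B (b - a)⟫_ℝ| ≤ (c * ‖v‖) * (2 * η / ‖v‖) := by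
    refine (abs_real_inner_le_norm _ _).trans ?_
    rw [na, one_mul]
    exact (B.le_opNorm _).trans (mul_le_mul hB hab (norm_nonneg _) hc)
  have t3 : (2 * η / ‖v‖) * (c * ‖v‖) = 2 * c * η := by field_simp
  have t4 : (c * ‖v‖) * (2 * η / ‖v‖) = 2 * c * η := by field_simp
  rw [t3] at t1
  rw [t4] at t2
  exact (abs_add_le _ _).trans (by linarith)

/-- transformation of `⟪v, G v⟫ / |v|²` under a linear map close to the identity and a small shift. -/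
theorem mu_pt {v w : Euc m} {G A : L m} {a b σ c η : ℝ} (hσ0 : 0 ≤ σ) (hσ1 : σ ≤ 1 / 4)
    (hA : ‖A - ContinuousLinearMap.id ℝ (Euc m)‖ ≤ σ)
    (hG : ‖G - ContinuousLinearMap.id ℝ (Euc m)‖ ≤ c * ‖v‖)
    (hG1 : ‖G - ContinuousLinearMap.id ℝ (Euc m)‖ ≤ 1 / 2) (hc : 0 ≤ c)
    (hη : ‖w - v‖ ≤ η)
    (ha : ⟪v, G v⟫_ℝ = a * ‖v‖ ^ 2) (ha0 : v = 0 → a = 1)
    (hb : ⟪w, (A ∘L G ∘L adj A) w⟫_ℝ = b * ‖w‖ ^ 2) (hb0 : w = 0 → b = 1) :
    |b - a| ≤ 4 * σ + 4 * c * η := by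
  have hη0 : 0 ≤ η := (norm_nonneg _).trans hη
  set I := ContinuousLinearMap.id ℝ (Euc m) with hI
  set B := G - I with hB
  have hcη : 0 ≤ c * η := mul_nonneg hc hη0
  -- `a - 1`
  have a1 : v ≠ 0 → a - 1 = ⟪v, B v⟫_ℝ / ‖v‖ ^ 2 := by
    intro hv
    have nv : 0 < ‖v‖ := norm_pos_iff.2 hv
    have : ⟪v, B v⟫_ℝ = ⟪v, G v⟫_ℝ - ‖v‖ ^ 2 := by
      rw [hB, _root_.sub_apply, inner_sub_right, hI, ContinuousLinearMap.id_apply,
        real_inner_self_eq_norm_sq]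
    rw [this, ha]; field_simp
  have hadj : ‖adj A - I‖ ≤ σ := by
    have : adj A - I = adj (A - I) := by rw [map_sub, hI, ContinuousLinearMap.adjoint_id]
    rw [this, LinearIsometryEquiv.norm_map]; exact hA
  have hI1 : ‖I‖ ≤ 1 := ContinuousLinearMap.norm_id_le
  have hGn : ‖G‖ ≤ 3 / 2 := by
    have : G = B + I := by rw [hB]; abel
    rw [this]; exact (norm_add_le _ _).trans (by linarith)
  have hadjn : ‖adj A‖ ≤ 5 / 4 := by
    have : adj A = (adj A - I) + I := by abel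
    rw [this]; exact (norm_add_le _ _).trans (by linarith)
  have hC : ‖A ∘L G ∘L adj A - G‖ ≤ 4 * σ := by
    have e : A ∘L G ∘L adj A - G = (A - I) ∘L (G ∘L adj A) + G ∘L (adj A - I) := by
      rw [ContinuousLinearMap.sub_comp, ContinuousLinearMap.comp_sub, hI,
        ContinuousLinearMap.id_comp, ContinuousLinearMap.comp_id]
      abel
    rw [e]
    refine (norm_add_le _ _).trans ?_
    have t1 : ‖(A - I) ∘L (G ∘L adj A)‖ ≤ σ * (3 / 2 * (5 / 4)) := by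
      refine (ContinuousLinearMap.opNorm_comp_le _ _).trans
        (mul_le_mul hA ?_ (norm_nonneg _) hσ0)
      exact (ContinuousLinearMap.opNorm_comp_le _ _).trans
        (mul_le_mul hGn hadjn (norm_nonneg _) (by norm_num))
    have t2 : ‖G ∘L (adj A - I)‖ ≤ 3 / 2 * σ :=
      (ContinuousLinearMap.opNorm_comp_le _ _).trans
        (mul_le_mul hGn hadj (norm_nonneg _) (by norm_num))
    linarith
  by_cases hw : w = 0
  · rw [hb0 hw]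
    by_cases hv : v = 0
    · rw [ha0 hv, sub_self, abs_zero]; linarith
    · have nv : 0 < ‖v‖ := norm_pos_iff.2 hv
      rw [abs_sub_comm, a1 hv, abs_div, abs_of_pos (by positivity : (0:ℝ) < ‖v‖ ^ 2)]
      have h1 : |⟪v, B v⟫_ℝ| ≤ (c * ‖v‖) * ‖v‖ ^ 2 := by
        refine (abs_real_inner_le_norm _ _).trans ?_
        calc ‖v‖ * ‖B v‖ ≤ ‖v‖ * ((c * ‖v‖) * ‖v‖) := mul_le_mul_of_nonneg_left
              ((B.le_opNorm v).trans (mul_le_mul_of_nonneg_right hG nv.le)) nv.le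
          _ = _ := by ring
      have h2 : |⟪v, B v⟫_ℝ| / ‖v‖ ^ 2 ≤ c * ‖v‖ := by
        rw [div_le_iff₀ (by positivity)]; exact h1
      have h3 : ‖v‖ ≤ η := by rw [hw, zero_sub, norm_neg] at hη; exact hη
      have h4 : c * ‖v‖ ≤ c * η := mul_le_mul_of_nonneg_left h3 hc
      linarith
  · have nw : 0 < ‖w‖ := norm_pos_iff.2 hw
    have b1 : b - 1 = ⟪w, B w⟫_ℝ / ‖w‖ ^ 2 + ⟪w, (A ∘L G ∘L adj A - G) w⟫_ℝ / ‖w‖ ^ 2 := by
      have : ⟪w, B w⟫_ℝ + ⟪w, (A ∘L G ∘L adj A - G) w⟫_ℝ = b * ‖w‖ ^ 2 - ‖w‖ ^ 2 := by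
        rw [← hb, hB, _root_.sub_apply, _root_.sub_apply, inner_sub_right, inner_sub_right, hI,
          ContinuousLinearMap.id_apply, real_inner_self_eq_norm_sq]
        ring
      rw [← add_div, this]; field_simp
    have h5 : |⟪w, (A ∘L G ∘L adj A - G) w⟫_ℝ / ‖w‖ ^ 2| ≤ 4 * σ := by
      rw [abs_div, abs_of_pos (by positivity : (0:ℝ) < ‖w‖ ^ 2), div_le_iff₀ (by positivity)]
      refine (abs_real_inner_le_norm _ _).trans ?_
      calc ‖w‖ * ‖(A ∘L G ∘L adj A - G) w‖ ≤ ‖w‖ * ((4 * σ) * ‖w‖) :=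
            mul_le_mul_of_nonneg_left ((ContinuousLinearMap.le_opNorm _ w).trans
              (mul_le_mul_of_nonneg_right hC nw.le)) nw.le
        _ = _ := by ring
    by_cases hv : v = 0
    · have hB0 : B = 0 := by
        rw [hv, norm_zero, mul_zero] at hG
        exact norm_le_zero_iff.1 hG
      rw [ha0 hv, b1, hB0]
      simp only [_root_.zero_apply, inner_zero_right, zero_div, zero_add]
      linarith
    · have h6 := quad_close hv hw hG hη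
      have e : b - a = (⟪w, B w⟫_ℝ / ‖w‖ ^ 2 - ⟪v, B v⟫_ℝ / ‖v‖ ^ 2) +
          ⟪w, (A ∘L G ∘L adj A - G) w⟫_ℝ / ‖w‖ ^ 2 := by
        have h7 := a1 hv
        linarith
      rw [e]
      exact (abs_add_le _ _).trans (by linarith)

/-- the metric data of the two charts -/
structure BlkG (c1 c2 : Ch m k) (O : Euc m ≃ₗᵢ[ℝ] Euc m) (θ : Euc m → Euc m) (dθ : Euc m → L m)
    (R c : ℝ) : Prop where
  c0 : 0 ≤ c
  gi : ∀ v ∈ closedBall (0 : Euc m) R, ∀ u : Euc m, ⟪O u, c2.gi (O (θ v)) (O u)⟫_ℝ =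
    ⟪u, (dθ v ∘L c1.gi v ∘L adj (dθ v)) u⟫_ℝ
  gsub : ∀ v ∈ closedBall (0 : Euc m) R, ‖c1.gi v - ContinuousLinearMap.id ℝ (Euc m)‖ ≤ c * ‖v‖
  ghalf : ∀ v ∈ closedBall (0 : Euc m) R, ‖c1.gi v - ContinuousLinearMap.id ℝ (Euc m)‖ ≤ 1 / 2
  mu1 : ∀ v, ⟪v, c1.gi v v⟫_ℝ = c1.mu v * ‖v‖ ^ 2
  mu2 : ∀ v, ⟪v, c2.gi v v⟫_ℝ = c2.mu v * ‖v‖ ^ 2
  mu10 : c1.mu 0 = 1
  mu20 : c2.mu 0 = 1

namespace Blk

variable {c1 c2 : Ch m k} {O : Euc m ≃ₗᵢ[ℝ] Euc m} {θ : Euc m → Euc m} {dθ : Euc m → L m}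
  {R σ c : ℝ} {V : Measure (Euc k × L k)} (h : Blk c1 c2 O θ dθ R σ V)
  (hg : BlkG c1 c2 O θ dθ R c)
include h hg

theorem abs_mu_sub {l : ℝ} (hb : ‖θ 0‖ ≤ σ * Real.exp l) (hc : c * Real.exp l ≤ 1) {v : Euc m}
    (hv : v ∈ closedBall (0 : Euc m) R) (hvl : ‖v‖ ≤ 7 / 4 * Real.exp l) :
    |c2.mu (O (θ v)) - c1.mu v| ≤ 16 * σ := by
  have hs0 := h.s0
  have he := Real.exp_pos l
  have hcl := h.close hb hv
  have h2 := hg.mu2 (O (θ v))
  rw [hg.gi v hv (θ v), LinearIsometryEquiv.norm_map] at h2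
  have h3 := mu_pt h.s0 h.s1 (h.near v hv) (hg.gsub v hv) (hg.ghalf v hv) hg.c0 hcl
    (hg.mu1 v) (fun h0 => by rw [h0]; exact hg.mu10) h2
    (fun h0 => by rw [h0, map_zero]; exact hg.mu20)
  refine h3.trans ?_
  have h4 : c * (Real.exp l + ‖v‖) ≤ 11 / 4 := by
    calc c * (Real.exp l + ‖v‖) ≤ c * (11 / 4 * Real.exp l) :=
          mul_le_mul_of_nonneg_left (by linarith) hg.c0
      _ = 11 / 4 * (c * Real.exp l) := by ring
      _ ≤ _ := by linarith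
  have e : 4 * c * (σ * (Real.exp l + ‖v‖)) = 4 * σ * (c * (Real.exp l + ‖v‖)) := by ring
  rw [e]
  have := mul_le_mul_of_nonneg_left h4 (by positivity : 0 ≤ 4 * σ)
  linarith

theorem abs_mu1_le {v : Euc m} (hv : v ∈ closedBall (0 : Euc m) R) : |c1.mu v| ≤ 3 / 2 := by
  by_cases h0 : v = 0
  · rw [h0, hg.mu10]; norm_num
  have nv : 0 < ‖v‖ := norm_pos_iff.2 h0
  have h1 : |c1.mu v * ‖v‖ ^ 2| ≤ 3 / 2 * ‖v‖ ^ 2 := by
    rw [← hg.mu1 v]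
    refine (abs_real_inner_le_norm _ _).trans ?_
    have h2 : ‖c1.gi v‖ ≤ 3 / 2 := by
      have e : c1.gi v = (c1.gi v - ContinuousLinearMap.id ℝ (Euc m)) +
        ContinuousLinearMap.id ℝ (Euc m) := by abel
      rw [e]
      refine (norm_add_le _ _).trans ?_
      have h3 := hg.ghalf v hv
      have h4 : ‖ContinuousLinearMap.id ℝ (Euc m)‖ ≤ 1 := ContinuousLinearMap.norm_id_le
      linarith
    calc ‖v‖ * ‖c1.gi v v‖ ≤ ‖v‖ * (3 / 2 * ‖v‖) := mul_le_mul_of_nonneg_left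
          ((ContinuousLinearMap.le_opNorm _ v).trans (mul_le_mul_of_nonneg_right h2 nv.le)) nv.le
      _ = _ := by ring
  rw [abs_mul, abs_of_pos (by positivity : (0:ℝ) < ‖v‖ ^ 2)] at h1
  exact le_of_mul_le_mul_right h1 (by positivity)

/-- **(I): pointwise comparison of the kernels.** -/
theorem abs_ker_sub {g1 g2 : ℝ → ℝ} (hq : Ker g1 g2) {G1 G2 : ℝ}
    (hG1 : ∀ t, 0 ≤ t → |g1 t| ≤ G1) (hG2 : ∀ t, 0 ≤ t → |g2 t| ≤ G2) {l : ℝ}
    (hb : ‖θ 0‖ ≤ σ * Real.exp l) (hc : c * Real.exp l ≤ 1) {v : Euc m}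
    (hv : v ∈ closedBall (0 : Euc m) R) :
    |c2.mu (O (θ v)) * (-4 * g1 (Real.exp (-2 * l) * ‖θ v‖ ^ 2)) -
      c1.mu v * (-4 * g1 (Real.exp (-2 * l) * ‖v‖ ^ 2))| ≤ (64 * G1 + 72 * G2) * σ := by
  have hs0 := h.s0
  have hs1 := h.s1
  have he := Real.exp_pos l
  have hG10 : 0 ≤ G1 := (abs_nonneg _).trans (hG1 0 le_rfl)
  have hG20 : 0 ≤ G2 := (abs_nonneg _).trans (hG2 0 le_rfl)
  by_cases hbig : (1 + 3 * σ) * Real.exp l ≤ ‖v‖
  · obtain ⟨h1, h2⟩ := h.big hb hv hbig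
    rw [ker_zero hq h1, ker_zero hq h2]
    simp only [mul_zero, sub_zero, abs_zero]
    positivity
  push Not at hbig
  have hvl : ‖v‖ ≤ 7 / 4 * Real.exp l := hbig.le.trans (by nlinarith)
  have h1 := h.abs_mu_sub hg hb hc hv hvl
  have h2 := h.abs_dl_le hq hG2 hb v
  rw [dl, indicator_of_mem hv] at h2
  have h3 := hG1 (Real.exp (-2 * l) * ‖θ v‖ ^ 2) (by positivity)
  have h4 := h.abs_mu1_le hg hv
  set a := g1 (Real.exp (-2 * l) * ‖θ v‖ ^ 2)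
  set b := g1 (Real.exp (-2 * l) * ‖v‖ ^ 2)
  have e : c2.mu (O (θ v)) * (-4 * a) - c1.mu v * (-4 * b) =
      -4 * ((c2.mu (O (θ v)) - c1.mu v) * a + c1.mu v * (a - b)) := by ring
  rw [e, abs_mul]
  have e4 : |(-4:ℝ)| = 4 := by norm_num
  rw [e4]
  have h5 : |(c2.mu (O (θ v)) - c1.mu v) * a| ≤ (16 * σ) * G1 := by
    rw [abs_mul]; exact mul_le_mul h1 h3 (abs_nonneg _) (by positivity)
  have h6 : |c1.mu v * (a - b)| ≤ 3 / 2 * (12 * G2 * σ) := by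
    rw [abs_mul]; exact mul_le_mul h4 h2 (abs_nonneg _) (by norm_num)
  have h7 := abs_add_le ((c2.mu (O (θ v)) - c1.mu v) * a) (c1.mu v * (a - b))
  calc 4 * |(c2.mu (O (θ v)) - c1.mu v) * a + c1.mu v * (a - b)| ≤
      4 * ((16 * σ) * G1 + 3 / 2 * (12 * G2 * σ)) := by linarith
    _ = _ := by ring

/-- **(I), estimate.** -/
theorem II_sub_le {g1 g2 : ℝ → ℝ} (hq : Ker g1 g2) {G1 G2 : ℝ}
    (hG1 : ∀ t, 0 ≤ t → |g1 t| ≤ G1) (hG2 : ∀ t, 0 ≤ t → |g2 t| ≤ G2) {l : ℝ}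
    (hb : ‖θ 0‖ ≤ σ * Real.exp l) (hc : c * Real.exp l ≤ 1)
    (hl : (1 + 3 * σ) * Real.exp l ≤ R)
    (m1 : AEMeasurable (fun p : Euc k × L k => c1.x p.1) V)
    (i1 : Integrable (fun p => (c1.f p.1 * c1.mu (c1.x p.1)) *
      (-4 * g1 (Real.exp (-2 * l) * ‖c1.x p.1‖ ^ 2))) V)
    (i2 : Integrable (fun p => (c2.f p.1 * c2.mu (c2.x p.1)) *
      (-4 * g1 (Real.exp (-2 * l) * ‖c2.x p.1‖ ^ 2))) V)
    (hf0 : ∀ p : Euc k × L k, 0 ≤ c1.f p.1)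
    (hfi : IntegrableOn (fun p => c1.f p.1) {p | ‖c1.x p.1‖ ≤ (1 + 3 * σ) * Real.exp l} V) :
    |II c2 V g1 l - II c1 V g1 l| ≤ (64 * G1 + 72 * G2) * σ * (Real.exp (-m * l) *
      ∫ p in {p | ‖c1.x p.1‖ ≤ (1 + 3 * σ) * Real.exp l}, c1.f p.1 ∂V) := by
  have hs0 := h.s0
  have hG10 : 0 ≤ G1 := (abs_nonneg _).trans (hG1 0 le_rfl)
  have hG20 : 0 ≤ G2 := (abs_nonneg _).trans (hG2 0 le_rfl)
  have he := Real.exp_pos l
  set r := (1 + 3 * σ) * Real.exp l with hr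
  have hset : NullMeasurableSet {p : Euc k × L k | ‖c1.x p.1‖ ≤ r} V :=
    m1.norm.nullMeasurable measurableSet_Iic
  -- pointwise
  have hpt : ∀ᵐ p ∂V, |(c2.f p.1 * c2.mu (c2.x p.1)) *
      (-4 * g1 (Real.exp (-2 * l) * ‖c2.x p.1‖ ^ 2)) - (c1.f p.1 * c1.mu (c1.x p.1)) *
      (-4 * g1 (Real.exp (-2 * l) * ‖c1.x p.1‖ ^ 2))| ≤
      {p : Euc k × L k | ‖c1.x p.1‖ ≤ r}.indicator
        (fun p => (64 * G1 + 72 * G2) * σ * c1.f p.1) p := by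
    filter_upwards [h.rel] with p hp
    have hfp := hf0 p
    rcases hp with ⟨h1, h2, h3⟩ | ⟨h1, h2⟩
    · have hB : c1.x p.1 ∈ closedBall (0 : Euc m) R := mem_closedBall_zero_iff.2 h1
      by_cases hcr : ‖c1.x p.1‖ ≤ r
      · rw [indicator_of_mem (show p ∈ {p : Euc k × L k | ‖c1.x p.1‖ ≤ r} from hcr), h3, h2,
          LinearIsometryEquiv.norm_map]
        have h4 := h.abs_ker_sub hg hq hG1 hG2 hb hc hB
        have e : (c1.f p.1 * c2.mu (O (θ (c1.x p.1)))) *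
            (-4 * g1 (Real.exp (-2 * l) * ‖θ (c1.x p.1)‖ ^ 2)) - (c1.f p.1 * c1.mu (c1.x p.1)) *
            (-4 * g1 (Real.exp (-2 * l) * ‖c1.x p.1‖ ^ 2)) = c1.f p.1 *
            (c2.mu (O (θ (c1.x p.1))) * (-4 * g1 (Real.exp (-2 * l) * ‖θ (c1.x p.1)‖ ^ 2)) -
              c1.mu (c1.x p.1) * (-4 * g1 (Real.exp (-2 * l) * ‖c1.x p.1‖ ^ 2))) := by ring
        rw [e, abs_mul, abs_of_nonneg hfp, mul_comm]
        exact mul_le_mul_of_nonneg_right h4 hfp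
      · rw [indicator_of_notMem (show p ∉ {p : Euc k × L k | ‖c1.x p.1‖ ≤ r} from hcr)]
        push Not at hcr
        obtain ⟨h4, h5⟩ := h.big hb hB hcr.le
        rw [h2, LinearIsometryEquiv.norm_map, ker_zero hq h4, ker_zero hq h5]
        simp
    · have h4 : Real.exp l ≤ ‖c1.x p.1‖ := by nlinarith
      have h5 : Real.exp l ≤ ‖c2.x p.1‖ := by nlinarith
      rw [ker_zero hq h4, ker_zero hq h5]
      simp only [mul_zero, sub_zero, abs_zero]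
      by_cases hcr : ‖c1.x p.1‖ ≤ r
      · rw [indicator_of_mem (show p ∈ {p : Euc k × L k | ‖c1.x p.1‖ ≤ r} from hcr)]
        positivity
      · rw [indicator_of_notMem (show p ∉ {p : Euc k × L k | ‖c1.x p.1‖ ≤ r} from hcr)]
  have hint : |∫ p, ((c2.f p.1 * c2.mu (c2.x p.1)) *
      (-4 * g1 (Real.exp (-2 * l) * ‖c2.x p.1‖ ^ 2)) - (c1.f p.1 * c1.mu (c1.x p.1)) *
      (-4 * g1 (Real.exp (-2 * l) * ‖c1.x p.1‖ ^ 2))) ∂V| ≤ (64 * G1 + 72 * G2) * σ *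
      ∫ p in {p | ‖c1.x p.1‖ ≤ r}, c1.f p.1 ∂V := by
    rw [← integral_const_mul, ← integral_indicator₀ hset, ← Real.norm_eq_abs]
    refine norm_integral_le_of_norm_le ?_ ?_
    · exact IntegrableOn.integrable_indicator₀ (hfi.const_mul _) hset
    · filter_upwards [hpt] with p hp
      rw [Real.norm_eq_abs]; exact hp
  rw [integral_sub i2 i1] at hint
  have e : II c2 V g1 l - II c1 V g1 l = Real.exp (-m * l) *
      ((∫ p, (c2.f p.1 * c2.mu (c2.x p.1)) *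
      (-4 * g1 (Real.exp (-2 * l) * ‖c2.x p.1‖ ^ 2)) ∂V) - ∫ p, (c1.f p.1 * c1.mu (c1.x p.1)) *
      (-4 * g1 (Real.exp (-2 * l) * ‖c1.x p.1‖ ^ 2)) ∂V) := by
    unfold II; ring
  rw [e, abs_mul, abs_of_pos (Real.exp_pos _)]
  calc _ ≤ Real.exp (-m * l) * ((64 * G1 + 72 * G2) * σ *
      ∫ p in {p | ‖c1.x p.1‖ ≤ r}, c1.f p.1 ∂V) :=
        mul_le_mul_of_nonneg_left hint (Real.exp_pos _).le
    _ = _ := by ring

end Blk

/-! ### restriction -/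

/-- kernels do not see the part of the measure beyond `e^l`. -/
theorem setIntegral_ker_eq {c : Ch m k} {V : Measure (Euc k × L k)} {S1 S2 : Set (Euc k × L k)}
    (h1 : MeasurableSet S1) (h2 : MeasurableSet S2) {q q' : ℝ → ℝ} (hq : Ker q q') {l : ℝ}
    (F : Euc k × L k → ℝ) (a : ℝ)
    (h : ∀ᵐ p ∂V, p ∈ S1 → p ∉ S2 → Real.exp l ≤ ‖c.x p.1‖) :
    ∫ p in S1, F p * (a * q (Real.exp (-2 * l) * ‖c.x p.1‖ ^ 2)) ∂V =
      ∫ p in S1 ∩ S2, F p * (a * q (Real.exp (-2 * l) * ‖c.x p.1‖ ^ 2)) ∂V := by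
  rw [← integral_indicator h1, ← integral_indicator (h1.inter h2)]
  refine integral_congr_ae ?_
  filter_upwards [h] with p hp
  by_cases p1 : p ∈ S1
  · by_cases p2 : p ∈ S2
    · rw [indicator_of_mem p1, indicator_of_mem (show p ∈ S1 ∩ S2 from ⟨p1, p2⟩)]
    · rw [indicator_of_mem p1, indicator_of_notMem (fun hc => p2 hc.2), ker_zero hq (hp p1 p2),
        mul_zero, mul_zero]
  · rw [indicator_of_notMem p1, indicator_of_notMem (fun hc => p1 hc.1)]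

theorem EE_restrict {c : Ch m k} {V : Measure (Euc k × L k)} {S1 S2 : Set (Euc k × L k)}
    (h1 : MeasurableSet S1) (h2 : MeasurableSet S2) {q q' : ℝ → ℝ} (hq : Ker q q') {l : ℝ}
    (h : ∀ᵐ p ∂V, p ∈ S1 → p ∉ S2 → Real.exp l ≤ ‖c.x p.1‖) (Q : ℝ) :
    GL_394.EE c (V.restrict S1) q Q l = GL_394.EE c (V.restrict (S1 ∩ S2)) q Q l := by
  have := setIntegral_ker_eq h1 h2 hq (fun _ => 1) 1 h
  simp only [one_mul] at this
  unfold GL_394.EE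
  simp only [one_mul]
  rw [this]

theorem II_restrict {c : Ch m k} {V : Measure (Euc k × L k)} {S1 S2 : Set (Euc k × L k)}
    (h1 : MeasurableSet S1) (h2 : MeasurableSet S2) {q q' : ℝ → ℝ} (hq : Ker q q') {l : ℝ}
    (h : ∀ᵐ p ∂V, p ∈ S1 → p ∉ S2 → Real.exp l ≤ ‖c.x p.1‖) :
    II c (V.restrict S1) q l = II c (V.restrict (S1 ∩ S2)) q l := by
  have := setIntegral_ker_eq h1 h2 hq (fun p => c.f p.1 * c.mu (c.x p.1)) (-4) h
  unfold II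
  rw [this]

end Crest.Agent.R234.Swb_159
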