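import Crest.Agent.R234.Sw14_733
import Crest.Agent.R234.Swb2_159
import Crest.Agent.R234.Lr1_456

/-! # Row 234, VF-F6 (helper733), part 15: the inputs of the switch for a reference, geometry -/

set_option autoImplicit false
set_option linter.unusedSectionVars false
set_option linter.unusedVariables false

open MeasureTheory Set Metric Filter Topology
open scoped ENNReal NNReal ContDiff InnerProductSpace
open Crest.GeometryTopology.Submanifold
open Crest.Agent.R234.Ell1_3 Crest.Agent.R234.Fm_209 Crest.Agent.R234.Cy_870 Crest.Agent.R234.Vf_884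
open Crest.Agent.R234.Main_456 (Frame hgt)
open Crest.Agent.R234.Stp_518 (Mo GrB)
open Crest.Agent.R234.Gi_456 (Lo Loi giB jB muG Gr tube)

noncomputable section

namespace Crest.Agent.R234.Sw_733

variable {m n k : ℕ}

local notation "adj" => ContinuousLinearMap.adjoint

/-- the cylinder of base radius `A`, height one, in block units. -/
def Zc (M : Mo m n k) (x : Euc k) (A : ℝ) : Set (Euc k) :=
  {z | ‖M.π (z - x)‖ ≤ M.S * A ∧ ‖M.ρ (z - x)‖ ≤ M.S}

theorem isClosed_Zc (M : Mo m n k) (x : Euc k) (A : ℝ) : IsClosed (Zc M x A) := by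
  have h1 : IsClosed {z : Euc k | ‖M.π (z - x)‖ ≤ M.S * A} :=
    isClosed_le (by fun_prop) continuous_const
  have h2 : IsClosed {z : Euc k | ‖M.ρ (z - x)‖ ≤ M.S} :=
    isClosed_le (by fun_prop) continuous_const
  exact h1.inter h2

theorem measurableSet_Zc (M : Mo m n k) (x : Euc k) (A : ℝ) :
    MeasurableSet (Zc M x A ×ˢ (univ : Set (Vf_884.L k))) :=
  (isClosed_Zc M x A).measurableSet.prod MeasurableSet.univ

/-- the level in block units. -/
def R0 (M : Mo m n k) (l : ℝ) : ℝ := Real.exp (l - M.lb)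

theorem R0_pos (M : Mo m n k) (l : ℝ) : 0 < R0 M l := Real.exp_pos _

theorem S_R0 (M : Mo m n k) (l : ℝ) : M.S * R0 M l = Real.exp l := by
  rw [Mo.S, R0, ← Real.exp_add]; congr 1; ring

/-- **the V-level inputs of the switch** for the reference `M` at the level `l`. -/
structure Pk (U : Set (Euc k)) (D : VarifoldData m k) (Q : ℕ) (x : Euc k) (M : Mo m n k)
    (ε Λ l K b η h T B : ℝ) : Prop where
  sit : Stp_518.Sit U D Q x M ε Λ
  gr : GrB M b
  hε : ε ≤ 1 / 16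
  hb : b ≤ 1 / 16
  K32 : 32 ≤ K
  hl : l ≤ M.lb
  du0 : ‖fderiv ℝ M.u 0‖ ≤ 1 / (64 * K)
  h0 : 0 ≤ h
  hη : η ≤ R0 M l / (512 * K)
  hhs : h ≤ R0 M l / (512 * K)
  fine : ∀ᵐ p ∂(VD D), p.1 ∈ M.reg x → ‖(M.ch x).x p.1‖ ≤ Real.exp l * (1 + 1 / (4 * K)) →
    ‖hgt M.π M.ρ x M.S M.u p.1‖ ≤ M.S * η
  shp : ∀ᵐ p ∂(VD D), ‖M.π (p.1 - x)‖ ≤ Real.exp l * (1 + 1 / (2 * K)) → ‖M.ρ (p.1 - x)‖ ≤ M.S →
    ‖hgt M.π M.ρ x M.S M.u p.1‖ ≤ M.S * h
  tilt : ∫ p in {p : Euc k × Vf_884.L k | ‖(M.ch x).x p.1‖ ≤ Real.exp l * (1 + 1 / (4 * K))},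
    (M.ch x).tau p.1 p.2 ∂(M.VM x (VD D)) ≤ M.S ^ m * T
  tv : ∀ (F : Euc m → ℝ) (s : ℝ), Measurable F → (∀ v, |F v| ≤ s) →
    (∀ v, Real.exp l * (1 + 1 / (8 * K)) < ‖v‖ → F v = 0) →
    |∫ p, F ((M.ch x).x p.1) ∂(M.VM x (VD D)) - Q * ∫ v, F v * (M.ch x).j v| ≤ s * (M.S ^ m * B)

namespace Pk

variable {U : Set (Euc k)} {D : VarifoldData m k} {Q : ℕ} {x : Euc k} {M N : Mo m n k}
  {ε Λ l K b η h T B : ℝ}

theorem hu (H : Pk U D Q x M ε Λ l K b η h T B) : Differentiable ℝ M.u :=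
  H.gr.cu.differentiable (by norm_num)

theorem R0_le (H : Pk U D Q x M ε Λ l K b η h T B) : R0 M l ≤ 1 :=
  Real.exp_le_one_iff.2 (by linarith [H.hl])

theorem dK (H : Pk U D Q x M ε Λ l K b η h T B) : 0 < 1 / K ∧ 1 / K ≤ 1 / 32 :=
  ⟨by have := H.K32; positivity, one_div_le_one_div_of_le (by norm_num) H.K32⟩

/-- the chart coordinate against the foot in block units. -/
theorem x_le (H : Pk U D Q x M ε Λ l K b η h T B) (z : Euc k) :
    ‖(M.ch x).x z‖ ≤ (1 + 1 / (64 * K)) * (M.S * ‖St.X M x z‖) := by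
  have hS := M.S_pos
  have h1 := Gr.x_le_foot (π := M.π) (ρ := M.ρ) (x := x) (S := M.S) (w := M.w)
    (κ := 1 / (64 * K)) (by rw [St.fd_w0 H.hu]; exact H.du0) z
  rw [← St.S_smul_X, norm_smul, Real.norm_of_nonneg hS.le] at h1
  exact h1

theorem le_x (H : Pk U D Q x M ε Λ l K b η h T B) (z : Euc k) :
    M.S * ‖St.X M x z‖ ≤ ‖(M.ch x).x z‖ := by
  have hS := M.S_pos
  have h1 := Gr.foot_le_x (π := M.π) (ρ := M.ρ) (x := x) (S := M.S) (w := M.w) z
  rw [← St.S_smul_X, norm_smul, Real.norm_of_nonneg hS.le] at h1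
  exact h1

/-- in the tube, block units. -/
theorem tube_bd (hg : Gr M.S M.w) {z : Euc k} (hz : z ∈ tube M.π M.ρ x M.S M.w) {t : ℝ}
    (ht : ‖hgt M.π M.ρ x M.S M.u z‖ ≤ M.S * t) :
    ‖St.X M x z - St.a M x z‖ ≤ t / 4 ∧ ‖St.Y M x z‖ ≤ 9 / 8 * t := by
  have hS := M.S_pos
  have ht' : ‖M.ρ (z - x) - M.w (M.π (z - x))‖ ≤ M.S * t := ht
  have h1 := hg.norm_foot_sub hz
  have h2 := hg.norm_yy_le hz
  refine ⟨?_, ?_⟩
  · have e : St.X M x z - St.a M x z =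
        M.S⁻¹ • (Gi_456.foot M.π M.ρ x M.S M.w z - M.π (z - x)) := by
      rw [St.X, St.a, smul_sub]
    rw [e, norm_smul, norm_inv, Real.norm_of_nonneg hS.le, inv_mul_le_iff₀ hS]
    linarith
  · rw [St.Y, norm_smul, norm_inv, Real.norm_of_nonneg hS.le, inv_mul_le_iff₀ hS]
    linarith

theorem norm_a (z : Euc k) : M.S * ‖St.a M x z‖ = ‖M.π (z - x)‖ := by
  have hS := M.S_pos
  rw [St.a, norm_smul, norm_inv, Real.norm_of_nonneg hS.le, ← mul_assoc,
    mul_inv_cancel₀ hS.ne', one_mul]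

/-- **points of the cylinder.** -/
theorem onZ (H : Pk U D Q x M ε Λ l K b η h T B) {A : ℝ} (hA : A ≤ R0 M l * (1 + 1 / (16 * K))) :
    ∀ᵐ p ∂(VD D), p.1 ∈ Zc M x A → p.1 ∈ M.reg x ∧ p.1 ∈ tube M.π M.ρ x M.S M.w ∧
      ‖hgt M.π M.ρ x M.S M.u p.1‖ ≤ M.S * h ∧ ‖M.ρ (p.1 - x)‖ ≤ M.S / 16 ∧
      ‖St.a M x p.1‖ ≤ A ∧
      ‖St.X M x p.1 - St.a M x p.1‖ ≤ h / 4 ∧ ‖St.Y M x p.1‖ ≤ 9 / 8 * h ∧
      ‖(M.ch x).x p.1‖ ≤ Real.exp l * (1 + 1 / (4 * K)) := by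
  have hS := M.S_pos
  have hR := R0_pos M l
  have hR1 := H.R0_le
  obtain ⟨k0, k1⟩ := H.dK
  have hK0 : 0 < K := by linarith [H.K32]
  have e16 : 1 / (16 * K) = 1 / K / 16 := by field_simp
  have e2 : 1 / (2 * K) = 1 / K / 2 := by field_simp
  have e4 : 1 / (4 * K) = 1 / K / 4 := by field_simp
  have e64 : 1 / (64 * K) = 1 / K / 64 := by field_simp
  have e512 : R0 M l / (512 * K) = R0 M l * (1 / K) / 512 := by field_simp
  have hSR := S_R0 M l
  have hhs := H.hhs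
  rw [e512] at hhs
  set δ := 1 / K with hδ
  have hfr := H.sit.pack.frame
  filter_upwards [H.shp, H.sit.pack.supae] with p h1 h2 hz
  obtain ⟨z1, z2⟩ := hz
  have z1' : ‖M.π (p.1 - x)‖ ≤ M.S * (R0 M l * (1 + δ / 16)) := by
    rw [e16] at hA
    exact z1.trans (mul_le_mul_of_nonneg_left hA hS.le)
  have z3 : ‖M.π (p.1 - x)‖ ≤ Real.exp l * (1 + 1 / (2 * K)) := by
    rw [e2, ← hSR]
    refine z1'.trans ?_
    rw [mul_assoc]
    refine mul_le_mul_of_nonneg_left (mul_le_mul_of_nonneg_left (by linarith) hR.le) hS.le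
  have z4 := h1 z3 z2
  have zb : ‖M.π (p.1 - x)‖ ≤ M.S * (3 / 2) := by
    refine z1'.trans (mul_le_mul_of_nonneg_left ?_ hS.le)
    nlinarith
  have z5 : p.1 ∈ Metric.ball x (4 * M.S) := by
    rw [Metric.mem_ball, dist_eq_norm]
    have h4 := Stp_518.norm_vec (M := M) hfr (p.1 - x)
    have h6 := norm_nonneg (M.π (p.1 - x))
    have h7 := norm_nonneg (M.ρ (p.1 - x))
    nlinarith [norm_nonneg (p.1 - x)]
  have z6 : ‖M.ρ (p.1 - x)‖ ≤ M.S / 16 := by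
    refine (h2 z5).trans ?_
    have : ε * M.S ≤ 1 / 16 * M.S := mul_le_mul_of_nonneg_right H.hε hS.le
    linarith
  have z7 : p.1 ∈ M.reg x :=
    Stp_518.mem_reg H.gr (by linarith [H.hb]) hfr zb (by linarith)
  have z8 : p.1 ∈ tube M.π M.ρ x M.S M.w := by
    have : M.reg x ⊆ tube M.π M.ρ x M.S M.w := H.gr.gr.Kc_subset hfr 0 (by linarith)
    exact this z7
  obtain ⟨z9, z10⟩ := tube_bd H.gr.gr z8 z4
  have z11 : ‖St.a M x p.1‖ ≤ A := by
    have := norm_a (M := M) (x := x) p.1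
    have h3 : M.S * ‖St.a M x p.1‖ ≤ M.S * A := by rw [this]; exact z1
    exact le_of_mul_le_mul_left h3 hS
  refine ⟨z7, z8, z4, z6, z11, z9, z10, ?_⟩
  have z12 : ‖St.X M x p.1‖ ≤ R0 M l * (1 + δ / 16) + h / 4 := by
    have : St.X M x p.1 = (St.X M x p.1 - St.a M x p.1) + St.a M x p.1 := by abel
    rw [this]
    refine (norm_add_le _ _).trans ?_
    rw [e16] at hA
    linarith
  refine (H.x_le p.1).trans ?_
  rw [e64, ← hSR, e4, mul_assoc M.S]
  rw [mul_left_comm]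
  refine mul_le_mul_of_nonneg_left ?_ hS.le
  have z13 : ‖St.X M x p.1‖ ≤ R0 M l * (1 + δ / 8) := by
    refine z12.trans ?_
    nlinarith
  calc (1 + δ / 64) * ‖St.X M x p.1‖ ≤ (1 + δ / 64) * (R0 M l * (1 + δ / 8)) :=
        mul_le_mul_of_nonneg_left z13 (by linarith)
    _ = R0 M l * ((1 + δ / 64) * (1 + δ / 8)) := by ring
    _ ≤ R0 M l * (1 + δ / 4) := mul_le_mul_of_nonneg_left (by nlinarith) hR.le

/-- **points with foot near the ball lie in the cylinder.** -/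
theorem inZX (H : Pk U D Q x M ε Λ l K b η h T B) :
    ∀ᵐ p ∂(VD D), p.1 ∈ M.reg x → ‖St.X M x p.1‖ ≤ R0 M l * (1 + 1 / (256 * K)) →
      p.1 ∈ Zc M x (R0 M l * (1 + 1 / (128 * K))) := by
  have hS := M.S_pos
  have hR := R0_pos M l
  obtain ⟨k0, k1⟩ := H.dK
  have hK0 : 0 < K := by linarith [H.K32]
  have e4 : 1 / (4 * K) = 1 / K / 4 := by field_simp
  have e64 : 1 / (64 * K) = 1 / K / 64 := by field_simp
  have e256 : 1 / (256 * K) = 1 / K / 256 := by field_simp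
  have e128 : 1 / (128 * K) = 1 / K / 128 := by field_simp
  have e512 : R0 M l / (512 * K) = R0 M l * (1 / K) / 512 := by field_simp
  have hSR := S_R0 M l
  have hη := H.hη
  rw [e512] at hη
  have hE := Real.exp_pos l
  have hfr := H.sit.pack.frame
  filter_upwards [H.fine] with p h1 hr hx
  have h3 := H.x_le p.1
  rw [e256] at hx
  rw [e4] at h1
  rw [e64] at h3
  set δ := 1 / K with hδ
  have h2 := h1 hr (by
    refine h3.trans ?_
    rw [← hSR, mul_assoc M.S, mul_left_comm]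
    refine mul_le_mul_of_nonneg_left ?_ hS.le
    calc (1 + δ / 64) * ‖St.X M x p.1‖ ≤ (1 + δ / 64) * (R0 M l * (1 + δ / 256)) :=
          mul_le_mul_of_nonneg_left hx (by linarith)
      _ = R0 M l * ((1 + δ / 64) * (1 + δ / 256)) := by ring
      _ ≤ R0 M l * (1 + δ / 4) := mul_le_mul_of_nonneg_left (by nlinarith) hR.le)
  have z8 : p.1 ∈ tube M.π M.ρ x M.S M.w := by
    have : M.reg x ⊆ tube M.π M.ρ x M.S M.w := H.gr.gr.Kc_subset hfr 0 (by linarith)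
    exact this hr
  obtain ⟨z9, z10⟩ := tube_bd H.gr.gr z8 h2
  refine ⟨?_, Stp_518.rho_le_of_reg H.gr (by linarith [H.hb]) hfr hr⟩
  rw [← norm_a (M := M) (x := x) p.1]
  refine mul_le_mul_of_nonneg_left ?_ hS.le
  have h5 : ‖St.a M x p.1‖ ≤ ‖St.X M x p.1‖ + ‖St.X M x p.1 - St.a M x p.1‖ :=
    norm_le_norm_add_norm_sub _ _
  rw [e128]
  nlinarith

/-- **points of the chart ball lie in the cylinder.** -/
theorem inZ (H : Pk U D Q x M ε Λ l K b η h T B) :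
    ∀ᵐ p ∂(VD D), p.1 ∈ M.reg x → ‖(M.ch x).x p.1‖ ≤ Real.exp l * (1 + 1 / (256 * K)) →
      p.1 ∈ Zc M x (R0 M l * (1 + 1 / (128 * K))) := by
  have hS := M.S_pos
  filter_upwards [H.inZX] with p h1 hr hx
  refine h1 hr ?_
  have : M.S * ‖St.X M x p.1‖ ≤ M.S * (R0 M l * (1 + 1 / (256 * K))) := by
    rw [← mul_assoc, S_R0]; exact (H.le_x p.1).trans hx
  exact le_of_mul_le_mul_left this hS

end Pk

/-- the second reference. -/
structure Pn (M N : Mo m n k) (l K b σ τ : ℝ) : Prop where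
  hπ : N.π = M.π
  hρ : N.ρ = M.ρ
  hlb : N.lb = M.lb
  gr : GrB N b
  σ0 : 0 ≤ σ
  hσ : σ ≤ R0 M l / (512 * K)
  g0 : ∀ X, ‖N.u X - M.u X‖ ≤ σ
  g1 : ∀ X, ‖fderiv ℝ N.u X - fderiv ℝ M.u X‖ ≤ σ
  g2 : ∀ X, ‖fderiv ℝ (fderiv ℝ N.u) X - fderiv ℝ (fderiv ℝ M.u) X‖ ≤ σ
  τ0 : 0 ≤ τ
  τ1 : τ ≤ 1
  t0 : ∀ X ∈ ball (0 : Euc m) (R0 M l * (1 + 1 / (64 * K))), ‖N.u X - M.u X‖ ≤ τ
  t1 : ∀ X ∈ ball (0 : Euc m) (R0 M l * (1 + 1 / (64 * K))),
    ‖fderiv ℝ N.u X - fderiv ℝ M.u X‖ ≤ τ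
  t2 : ∀ X ∈ ball (0 : Euc m) (R0 M l * (1 + 1 / (64 * K))),
    ‖fderiv ℝ (fderiv ℝ N.u) X - fderiv ℝ (fderiv ℝ M.u) X‖ ≤ τ

namespace Pk

variable {U : Set (Euc k)} {D : VarifoldData m k} {Q : ℕ} {x : Euc k} {M N : Mo m n k}
  {ε Λ l K b η h T B σ τ : ℝ}

theorem hS' (P : Pn M N l K b σ τ) : N.S = M.S := by unfold Mo.S; rw [P.hlb]

theorem a_eq (P : Pn M N l K b σ τ) (z : Euc k) : St.a N x z = St.a M x z := by
  rw [St.a, St.a, P.hπ, hS' P]

theorem b_eq (P : Pn M N l K b σ τ) (z : Euc k) : St.b N x z = St.b M x z := by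
  rw [St.b, St.b, P.hρ, hS' P]

theorem hu' (P : Pn M N l K b σ τ) : Differentiable ℝ N.u :=
  P.gr.cu.differentiable (by norm_num)

theorem cd2 (g : GrB M b) : ContDiff ℝ 2 M.u := g.cu.of_le (by norm_num)

theorem b0 (g : GrB M b) : 0 ≤ b := (norm_nonneg _).trans (g.b0 0)

/-- the two references, globally. -/
theorem cl_glob (H : Pk U D Q x M ε Λ l K b η h T B) (P : Pn M N l K b σ τ) :
    Cl M.u N.u univ b σ where
  conv := convex_univ
  cu := cd2 H.gr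
  cu' := cd2 P.gr
  κ0 := b0 H.gr
  κ1 := by linarith [H.hb]
  τ0 := P.σ0
  τ1 := by
    have h1 := P.hσ
    have h2 := H.R0_le
    have h3 := H.K32
    have h4 : R0 M l / (512 * K) ≤ 1 := by
      rw [div_le_one (by linarith)]
      linarith
    linarith
  d1 := fun X _ => H.gr.b1 X
  d1' := fun X _ => P.gr.b1 X
  d2 := fun X _ => H.gr.b2 X
  w0 := fun X _ => P.g0 X
  w1 := fun X _ => P.g1 X
  w2 := fun X _ => P.g2 X

/-- the two references, near the origin. -/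
theorem cl_loc (H : Pk U D Q x M ε Λ l K b η h T B) (P : Pn M N l K b σ τ) :
    Cl M.u N.u (ball 0 (R0 M l * (1 + 1 / (64 * K)))) b τ where
  conv := convex_ball _ _
  cu := cd2 H.gr
  cu' := cd2 P.gr
  κ0 := b0 H.gr
  κ1 := by linarith [H.hb]
  τ0 := P.τ0
  τ1 := P.τ1
  d1 := fun X _ => H.gr.b1 X
  d1' := fun X _ => P.gr.b1 X
  d2 := fun X _ => H.gr.b2 X
  w0 := P.t0
  w1 := P.t1
  w2 := P.t2

/-- a crude bound in the ball `4 S`. -/
theorem crude (H : Pk U D Q x M ε Λ l K b η h T B) (P : Pn M N l K b σ τ) :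
    ∀ᵐ p ∂(VD D), p.1 ∈ Metric.ball x (4 * M.S) → ‖hgt M.π M.ρ x M.S M.u p.1‖ ≤ M.S * (1 / 8) ∧
      ‖hgt N.π N.ρ x N.S N.u p.1‖ ≤ M.S * (1 / 8) ∧ ‖M.ρ (p.1 - x)‖ ≤ M.S := by
  have hS := M.S_pos
  filter_upwards [H.sit.pack.supae] with p h1 hb
  have h2 := h1 hb
  have h3 : ε * M.S ≤ 1 / 16 * M.S := mul_le_mul_of_nonneg_right H.hε hS.le
  have h4 := H.gr.w0 (M.π (p.1 - x))
  have h5 := P.gr.w0 (N.π (p.1 - x))
  rw [hS' P] at h5
  have h6 : M.S * b ≤ M.S * (1 / 16) := mul_le_mul_of_nonneg_left H.hb hS.le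
  refine ⟨?_, ?_, by linarith⟩
  · rw [Mo.hgt_eq]
    refine (norm_sub_le _ _).trans ?_
    linarith
  · rw [Mo.hgt_eq]
    refine (norm_sub_le _ _).trans ?_
    rw [P.hρ]
    linarith

theorem reg_ball (g : GrB M b) (hb : b ≤ 1 / 16) (hf : Frame M.π M.ρ) :
    M.reg x ⊆ Metric.ball x (4 * M.S) := by
  have hS := M.S_pos
  have h1 : ‖M.w 0‖ ≤ 1 / 8 * M.S := by
    refine (g.w0 0).trans ?_
    nlinarith
  refine (Mono_757.reg_subset_ball g.gr hf h1).trans (closedBall_subset_ball (by linarith))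

/-- **points of the second region outside the cylinder are far in the second chart.** -/
theorem far (H : Pk U D Q x M ε Λ l K b η h T B) (P : Pn M N l K b σ τ) :
    ∀ᵐ p ∂(VD D), p.1 ∈ N.reg x → p.1 ∉ Zc M x (R0 M l * (1 + 1 / (128 * K))) →
      Real.exp l ≤ ‖(N.ch x).x p.1‖ := by
  have hS := M.S_pos
  have hR := R0_pos M l
  have hR1 := H.R0_le
  obtain ⟨k0, k1⟩ := H.dK
  have hK0 : 0 < K := by linarith [H.K32]
  have e4 : 1 / (4 * K) = 1 / K / 4 := by field_simp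
  have e64 : 1 / (64 * K) = 1 / K / 64 := by field_simp
  have e128 : 1 / (128 * K) = 1 / K / 128 := by field_simp
  have e512 : R0 M l / (512 * K) = R0 M l * (1 / K) / 512 := by field_simp
  have hSR := S_R0 M l
  have hη := H.hη
  have hσ := P.hσ
  rw [e512] at hη hσ
  have hfr := H.sit.pack.frame
  have hfr' : Frame N.π N.ρ := by rw [P.hπ, P.hρ]; exact hfr
  filter_upwards [H.crude P, H.fine] with p h1 h2 hr hZ
  by_contra hc
  push Not at hc
  apply hZ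
  have r1 : p.1 ∈ Metric.ball x (4 * M.S) := by
    have := reg_ball P.gr H.hb hfr' hr
    rwa [hS' P] at this
  obtain ⟨c1, c2, c3⟩ := h1 r1
  have t1 : p.1 ∈ tube M.π M.ρ x M.S M.w := by
    show ‖hgt M.π M.ρ x M.S M.u p.1‖ < M.S
    linarith
  have t2 : p.1 ∈ tube N.π N.ρ x N.S N.w := by
    show ‖hgt N.π N.ρ x N.S N.u p.1‖ < N.S
    have := hS' P
    linarith
  have f1 := St.isFoot (x := x) H.hu H.gr.gr t1
  have f2 := St.isFoot (x := x) (hu' P) P.gr.gr t2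
  rw [a_eq P, b_eq P] at f2
  obtain ⟨m1, m2⟩ := tube_bd H.gr.gr t1 c1
  obtain ⟨n1, -, -⟩ := (H.cl_glob P).foot_close f1 f2 (mem_univ _) (mem_univ _) (by linarith)
  have q1 : ‖St.X N x p.1‖ ≤ R0 M l := by
    have h3 := Gr.foot_le_x (π := N.π) (ρ := N.ρ) (x := x) (S := N.S) (w := N.w) p.1
    rw [← St.S_smul_X, norm_smul, Real.norm_of_nonneg N.S_pos.le] at h3
    have h4 : M.S * ‖St.X N x p.1‖ ≤ M.S * R0 M l := by
      rw [hSR]
      have e := hS' P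
      calc M.S * ‖St.X N x p.1‖ = N.S * ‖St.X N x p.1‖ := by rw [e]
        _ ≤ _ := h3.trans hc.le
    exact le_of_mul_le_mul_left h4 hS
  have q2 : ‖St.X M x p.1‖ ≤ R0 M l + σ := by
    have : St.X M x p.1 = St.X N x p.1 - (St.X N x p.1 - St.X M x p.1) := by abel
    rw [this]
    refine (norm_sub_le _ _).trans ?_
    linarith
  have q3 : ‖St.X M x p.1‖ ≤ R0 M l * (1 + 1 / K / 512) := by
    refine q2.trans ?_
    nlinarith
  have q4 : p.1 ∈ M.reg x := by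
    unfold Mo.reg
    rw [H.gr.gr.mem_Kc hfr (by linarith)]
    refine ⟨t1, ?_, ?_⟩
    · rw [sub_zero, ← St.S_smul_X, norm_smul, Real.norm_of_nonneg hS.le, mul_comm 2]
      refine mul_le_mul_of_nonneg_left (q3.trans ?_) hS.le
      nlinarith
    · rw [← St.S_smul_Y, norm_smul, Real.norm_of_nonneg hS.le]
      have := mul_le_mul_of_nonneg_left m2 hS.le
      linarith
  have q5 : ‖(M.ch x).x p.1‖ ≤ Real.exp l * (1 + 1 / (4 * K)) := by
    refine (H.x_le p.1).trans ?_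
    rw [e64, e4, ← hSR, mul_assoc M.S, mul_left_comm]
    refine mul_le_mul_of_nonneg_left ?_ hS.le
    calc (1 + 1 / K / 64) * ‖St.X M x p.1‖ ≤ (1 + 1 / K / 64) * (R0 M l * (1 + 1 / K / 512)) :=
          mul_le_mul_of_nonneg_left q3 (by linarith)
      _ = R0 M l * ((1 + 1 / K / 64) * (1 + 1 / K / 512)) := by ring
      _ ≤ R0 M l * (1 + 1 / K / 4) := mul_le_mul_of_nonneg_left (by nlinarith) hR.le
  have q6 := h2 q4 q5
  obtain ⟨m3, m4⟩ := tube_bd H.gr.gr t1 q6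
  refine ⟨?_, c3⟩
  rw [← norm_a (M := M) (x := x) p.1]
  refine mul_le_mul_of_nonneg_left ?_ hS.le
  have h5 : ‖St.a M x p.1‖ ≤ ‖St.X M x p.1‖ + ‖St.X M x p.1 - St.a M x p.1‖ :=
    norm_le_norm_add_norm_sub _ _
  rw [e128]
  nlinarith

/-- **points of the cylinder, second reference.** -/
theorem onZ' (H : Pk U D Q x M ε Λ l K b η h T B) (P : Pn M N l K b σ τ) {A : ℝ}
    (hA : A ≤ R0 M l * (1 + 1 / (16 * K))) :
    ∀ᵐ p ∂(VD D), p.1 ∈ Zc M x A → p.1 ∈ N.reg x ∧ p.1 ∈ tube N.π N.ρ x N.S N.w ∧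
      ‖St.X N x p.1 - St.X M x p.1‖ ≤ σ := by
  have hS := M.S_pos
  have hR := R0_pos M l
  have hR1 := H.R0_le
  obtain ⟨k0, k1⟩ := H.dK
  have hK0 : 0 < K := by linarith [H.K32]
  have e16 : 1 / (16 * K) = 1 / K / 16 := by field_simp
  have e512 : R0 M l / (512 * K) = R0 M l * (1 / K) / 512 := by field_simp
  have hSR := S_R0 M l
  have hhs := H.hhs
  rw [e512] at hhs
  rw [e16] at hA
  have hfr := H.sit.pack.frame
  have hfr' : Frame N.π N.ρ := by rw [P.hπ, P.hρ]; exact hfr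
  filter_upwards [H.onZ (A := A) (by rw [e16]; exact hA), H.crude P] with p h1 h2 hz
  obtain ⟨z1, z2, z3, z4, z5, z6, z7, z8⟩ := h1 hz
  have r1 : p.1 ∈ Metric.ball x (4 * M.S) := reg_ball H.gr H.hb hfr z1
  obtain ⟨c1, c2, c3⟩ := h2 r1
  have y1 : p.1 ∈ N.reg x := by
    refine Stp_518.mem_reg P.gr (by linarith [H.hb]) hfr' ?_ ?_
    · rw [P.hπ, hS' P]
      refine hz.1.trans (mul_le_mul_of_nonneg_left ?_ hS.le)
      refine hA.trans ?_
      nlinarith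
    · rw [P.hρ, hS' P]
      linarith
  have t2 : p.1 ∈ tube N.π N.ρ x N.S N.w := by
    show ‖hgt N.π N.ρ x N.S N.u p.1‖ < N.S
    have := hS' P
    linarith
  have f1 := St.isFoot (x := x) H.hu H.gr.gr z2
  have f2 := St.isFoot (x := x) (hu' P) P.gr.gr t2
  rw [a_eq P, b_eq P] at f2
  obtain ⟨n1, -, -⟩ := (H.cl_glob P).foot_close f1 f2 (mem_univ _) (mem_univ _) (by nlinarith)
  exact ⟨y1, t2, n1⟩

/-! ### the functionals over the cylinder -/

/-- the restricted varifold. -/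
def VZ (M : Mo m n k) (x : Euc k) (V : Measure (Euc k × Vf_884.L k)) (A : ℝ) :
    Measure (Euc k × Vf_884.L k) := V.restrict (Zc M x A ×ˢ univ)

theorem reg_meas (g : GrB M b) : MeasurableSet (M.reg x ×ˢ (univ : Set (Vf_884.L k))) :=
  (g.gr.isCompact_Kc 0 _ _).isClosed.measurableSet.prod MeasurableSet.univ

/-- restriction to the cylinder, general form. -/
theorem EI_congr {V : Measure (Euc k × Vf_884.L k)} (g : GrB N b) {A y : ℝ}
    (h1 : ∀ᵐ p ∂V, p.1 ∈ N.reg x → p.1 ∉ Zc M x A → Real.exp y ≤ ‖(N.ch x).x p.1‖)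
    (h2 : ∀ᵐ p ∂V, p.1 ∈ Zc M x A → p.1 ∈ N.reg x) {q q' : ℝ → ℝ} (hq : Ker q q') (Q : ℝ) :
    GL_394.EE (N.ch x) (N.VM x V) q Q y = GL_394.EE (N.ch x) (VZ M x V A) q Q y ∧
    GL_394.II (N.ch x) (N.VM x V) q y = GL_394.II (N.ch x) (VZ M x V A) q y := by
  have e1 : V.restrict ((N.reg x ×ˢ univ) ∩ (Zc M x A ×ˢ univ)) =
      V.restrict (Zc M x A ×ˢ (univ : Set (Vf_884.L k))) := by
    refine Measure.restrict_congr_set ?_
    filter_upwards [h2] with p hp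
    exact propext ⟨fun h => h.2, fun h => ⟨⟨hp h.1, mem_univ _⟩, h⟩⟩
  have h3 : ∀ᵐ p ∂V, p ∈ N.reg x ×ˢ (univ : Set (Vf_884.L k)) →
      p ∉ Zc M x A ×ˢ (univ : Set (Vf_884.L k)) → Real.exp y ≤ ‖(N.ch x).x p.1‖ := by
    filter_upwards [h1] with p hp a1 a2
    exact hp a1.1 (fun hc => a2 ⟨hc, mem_univ _⟩)
  constructor
  · have := Swb_159.EE_restrict (c := N.ch x) (reg_meas g) (measurableSet_Zc M x A) hq h3 Q
    rw [e1] at this
    exact this
  · have := Swb_159.II_restrict (c := N.ch x) (reg_meas g) (measurableSet_Zc M x A) hq h3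
    rw [e1] at this
    exact this

/-- **the functionals of the first reference.** -/
theorem EI_M (H : Pk U D Q x M ε Λ l K b η h T B) {y : ℝ} (hy : y ≤ l) {q q' : ℝ → ℝ}
    (hq : Ker q q') (Q' : ℝ) :
    GL_394.EE (M.ch x) (M.VM x (VD D)) q Q' y =
      GL_394.EE (M.ch x) (VZ M x (VD D) (R0 M l * (1 + 1 / (128 * K)))) q Q' y ∧
    GL_394.II (M.ch x) (M.VM x (VD D)) q y =
      GL_394.II (M.ch x) (VZ M x (VD D) (R0 M l * (1 + 1 / (128 * K)))) q y := by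
  have hK0 : 0 < K := by linarith [H.K32]
  refine EI_congr H.gr ?_ ?_ hq Q'
  · filter_upwards [H.inZ] with p h1 hr hz
    by_contra hc
    push Not at hc
    refine hz (h1 hr (hc.le.trans ?_))
    have h2 : Real.exp y ≤ Real.exp l := Real.exp_le_exp.2 hy
    have h3 : 0 < 1 / (256 * K) := by positivity
    have := Real.exp_pos l
    nlinarith
  · filter_upwards [H.onZ (A := R0 M l * (1 + 1 / (128 * K))) (by
      refine mul_le_mul_of_nonneg_left ?_ (R0_pos M l).le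
      have : 1 / (128 * K) ≤ 1 / (16 * K) := by
        rw [div_le_div_iff₀ (by positivity) (by positivity)]; linarith
      linarith)] with p h1 hz
    exact (h1 hz).1

/-- **the functionals of the second reference.** -/
theorem EI_N (H : Pk U D Q x M ε Λ l K b η h T B) (P : Pn M N l K b σ τ) {y : ℝ} (hy : y ≤ l)
    {q q' : ℝ → ℝ} (hq : Ker q q') (Q' : ℝ) :
    GL_394.EE (N.ch x) (N.VM x (VD D)) q Q' y =
      GL_394.EE (N.ch x) (VZ M x (VD D) (R0 M l * (1 + 1 / (128 * K)))) q Q' y ∧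
    GL_394.II (N.ch x) (N.VM x (VD D)) q y =
      GL_394.II (N.ch x) (VZ M x (VD D) (R0 M l * (1 + 1 / (128 * K)))) q y := by
  have hK0 : 0 < K := by linarith [H.K32]
  refine EI_congr P.gr ?_ ?_ hq Q'
  · filter_upwards [H.far P] with p h1 hr hz
    exact (Real.exp_le_exp.2 hy).trans (h1 hr hz)
  · filter_upwards [H.onZ' P (A := R0 M l * (1 + 1 / (128 * K))) (by
      refine mul_le_mul_of_nonneg_left ?_ (R0_pos M l).le
      have : 1 / (128 * K) ≤ 1 / (16 * K) := by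
        rw [div_le_div_iff₀ (by positivity) (by positivity)]; linarith
      linarith)] with p h1 hz
    exact (h1 hz).1

end Pk

end Crest.Agent.R234.Sw_733
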