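import Crest.Agent.R234.Sw15_733
import Crest.Agent.R234.Gs7_685

/-! # Row 234, VF-F6 (helper733), part 16: the switch for two references -/

set_option autoImplicit false
set_option linter.unusedSectionVars false
set_option linter.unusedVariables false

open MeasureTheory Set Metric Filter Topology
open scoped ENNReal NNReal ContDiff InnerProductSpace
open Crest.GeometryTopology.Submanifold
open Crest.Agent.R234.Ell1_3 Crest.Agent.R234.Fm_209 Crest.Agent.R234.Cy_870 Crest.Agent.R234.Vf_884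
open Crest.Agent.R234.Main_456 (Frame hgt)
open Crest.Agent.R234.Stp_518 (Mo GrB)
open Crest.Agent.R234.Gi_456 (Lo Loi giB jB muG Gr tube)
open Crest.Agent.R234.GI_640 (g3 g31 g32 ker3 ker31)

noncomputable section

namespace Crest.Agent.R234.Sw_733

variable {m n k : ℕ}

local notation "adj" => ContinuousLinearMap.adjoint

/-- change of variables for the base integral. -/
theorem St.integral_F {M : Mo m n k} {x : Euc k} (hu : Differentiable ℝ M.u) (F : Euc m → ℝ) :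
    ∫ v : Euc m, F v * (M.ch x).j v =
      M.S ^ m * ∫ v, F (Lo (fderiv ℝ M.u 0) (M.S • v)) * dns (fderiv ℝ M.u v) := by
  have hS := M.S_pos
  set q0 := fderiv ℝ M.w 0 with hq0
  set T : L m := Lo q0 ∘L (M.S • ContinuousLinearMap.id ℝ (Euc m)) with hT
  have hdet : LinearMap.det (T : Euc m →ₗ[ℝ] Euc m) = M.S ^ m * (Lo q0).det := by
    have e1 : (T : Euc m →ₗ[ℝ] Euc m) = M.S • (Lo q0 : Euc m →ₗ[ℝ] Euc m) := by
      ext v : 1
      show Lo q0 (M.S • v) = M.S • Lo q0 v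
      rw [map_smul]
    rw [e1, LinearMap.det_smul, finrank_euclideanSpace_fin]
  have hd0 := Gi_456.det_Lo_pos q0
  have hne : LinearMap.det (T : Euc m →ₗ[ℝ] Euc m) ≠ 0 := by rw [hdet]; positivity
  have key : ∫ v : Euc m, F (T v) * (M.ch x).j (T v) =
      |(LinearMap.det (T : Euc m →ₗ[ℝ] Euc m))⁻¹| * ∫ v : Euc m, F v * (M.ch x).j v := by
    have h1 : Measure.map T (volume : Measure (Euc m)) =
        ENNReal.ofReal |(LinearMap.det (T : Euc m →ₗ[ℝ] Euc m))⁻¹| • volume :=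
      Measure.map_linearMap_addHaar_eq_smul_addHaar volume hne
    have h2 : MeasurableEmbedding T := by
      have h3 : IsUnit (LinearMap.det (T : Euc m →ₗ[ℝ] Euc m)) := isUnit_iff_ne_zero.2 hne
      set e := LinearEquiv.ofIsUnitDet (f := (T : Euc m →ₗ[ℝ] Euc m)) (v := Module.finBasis ℝ (Euc m))
        (v' := Module.finBasis ℝ (Euc m)) (by
          rw [LinearMap.det_toMatrix]; exact h3) with he
      have h4 : (T : Euc m → Euc m) = e.toContinuousLinearEquiv.toHomeomorph := by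
        ext v : 1
        rfl
      rw [h4]
      exact e.toContinuousLinearEquiv.toHomeomorph.measurableEmbedding
    have h5 := h2.integral_map (μ := volume) (fun v : Euc m => F v * (M.ch x).j v)
    rw [← h5, h1, integral_smul_measure, ENNReal.toReal_ofReal (abs_nonneg _), smul_eq_mul]
  have e2 : ∀ v : Euc m, F (T v) * (M.ch x).j (T v) =
      (Lo q0).det⁻¹ * (F (Lo (fderiv ℝ M.u 0) (M.S • v)) * dns (fderiv ℝ M.u v)) := by
    intro v
    have e3 : T v = Lo q0 (M.S • v) := rfl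
    have e4 : (M.ch x).j (T v) = dns (fderiv ℝ M.u v) / (Lo q0).det := by
      show dns (fderiv ℝ M.w (Gi_456.pt M.w 0 (T v))) / (Lo (fderiv ℝ M.w 0)).det = _
      rw [Gi_456.pt, e3, ← hq0, Gi_456.Loi_Lo, zero_add, Mo.fderiv_w hu]
      simp only
      rw [smul_smul, inv_mul_cancel₀ hS.ne', one_smul]
    rw [e4, e3, hq0, St.fd_w0 hu]
    field_simp
  simp only [e2] at key
  rw [integral_const_mul, hdet, abs_of_pos (by positivity)] at key
  have h6 : ∫ v : Euc m, F v * (M.ch x).j v =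
      (M.S ^ m * (Lo q0).det) * ((M.S ^ m * (Lo q0).det)⁻¹ *
        ∫ v : Euc m, F v * (M.ch x).j v) := by
    field_simp
  rw [h6, ← key]
  field_simp

/-- the zoomed cylinder. -/
theorem map_mu (M : Mo m n k) (x : Euc k) (V : Measure (Euc k × Vf_884.L k)) (A : ℝ) :
    (St.mu (M := M) (Pk.VZ M x V A)).map (Vc_164.hom x M.S) =
      Top_395.wz m V x M.S M.π M.ρ A := by
  have hS := M.S_pos
  have hCm : MeasurableSet (Cy_870.cyl M.π M.ρ 0 A 1 ×ˢ (univ : Set (Vf_884.L k))) :=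
    (Cy_870.isClosed_cyl M.π M.ρ 0 A 1).measurableSet.prod MeasurableSet.univ
  have e1 : Vc_164.hom x M.S ⁻¹' (Cy_870.cyl M.π M.ρ 0 A 1 ×ˢ univ) =
      Zc M x A ×ˢ (univ : Set (Vf_884.L k)) := by
    ext p
    have g1 : p ∈ Vc_164.hom x M.S ⁻¹' (Cy_870.cyl M.π M.ρ 0 A 1 ×ˢ univ) ↔
        ‖M.π (M.S⁻¹ • (p.1 - x)) - 0‖ ≤ A ∧ ‖M.ρ (M.S⁻¹ • (p.1 - x))‖ ≤ 1 := by
      rw [mem_preimage, mem_prod]
      exact ⟨fun h => h.1, fun h => ⟨h, mem_univ _⟩⟩
    rw [g1, sub_zero, map_smul, map_smul, norm_smul, norm_smul, norm_inv,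
      Real.norm_of_nonneg hS.le, inv_mul_le_iff₀ hS, inv_mul_le_iff₀ hS, mul_one, mem_prod]
    exact ⟨fun h => ⟨h, mem_univ _⟩, fun h => h.1⟩
  unfold St.mu Pk.VZ Top_395.wz Vc_164.resc
  rw [Measure.map_smul, Measure.restrict_smul, ← e1,
    ← Measure.restrict_map (Vc_164.measurable_hom x M.S) hCm]

namespace Pk

variable {U : Set (Euc k)} {D : VarifoldData m k} {Q : ℕ} {x : Euc k} {M N : Mo m n k}
  {ε Λ l K b η h T B σ τ : ℝ}

/-- radius of the cylinder. -/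
def A1 (M : Mo m n k) (l K : ℝ) : ℝ := R0 M l * (1 + 1 / (128 * K))

/-- the measure. -/
def mz (M : Mo m n k) (x : Euc k) (V : Measure (Euc k × Vf_884.L k)) (l K : ℝ) :
    Measure (Euc k × Vf_884.L k) := St.mu (M := M) (VZ M x V (A1 M l K))

theorem A1_le (H : Pk U D Q x M ε Λ l K b η h T B) : A1 M l K ≤ R0 M l * (1 + 1 / (16 * K)) := by
  have hK0 : 0 < K := by linarith [H.K32]
  refine mul_le_mul_of_nonneg_left ?_ (R0_pos M l).le
  have : 1 / (128 * K) ≤ 1 / (16 * K) := by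
    rw [div_le_div_iff₀ (by positivity) (by positivity)]; linarith
  linarith

theorem A1_le2 (H : Pk U D Q x M ε Λ l K b η h T B) : A1 M l K ≤ 2 := by
  have hK0 : 0 < K := by linarith [H.K32]
  have h1 := H.R0_le
  have h2 := R0_pos M l
  have h3 : 1 / (128 * K) ≤ 1 := by
    rw [div_le_one (by positivity)]; linarith [H.K32]
  have h4 : 0 < 1 / (128 * K) := by positivity
  unfold A1
  nlinarith

theorem ae_mu {V : Measure (Euc k × Vf_884.L k)} {p : Euc k × Vf_884.L k → Prop}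
    (h : ∀ᵐ q ∂V, p q) : ∀ᵐ q ∂(St.mu (M := M) V), p q :=
  Measure.ae_smul_measure h _

theorem ae_mz {V : Measure (Euc k × Vf_884.L k)} {p : Euc k × Vf_884.L k → Prop}
    (h : ∀ᵐ q ∂V, q.1 ∈ Zc M x (A1 M l K) → p q) : ∀ᵐ q ∂(mz M x V l K), p q := by
  refine ae_mu ?_
  unfold VZ
  rw [ae_restrict_iff' (measurableSet_Zc M x _)]
  filter_upwards [h] with q hq hq2
  exact hq hq2.1

theorem mz_univ (H : Pk U D Q x M ε Λ l K b η h T B) :
    (mz M x (VD D) l K) univ ≤ ENNReal.ofReal Λ := by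
  have h1 := H.sit.pack.mass_le (A1 M l K) H.A1_le2
  rw [← map_mu, Measure.map_apply (Vc_164.measurable_hom x M.S) MeasurableSet.univ] at h1
  exact h1

theorem VZ_eq (H : Pk U D Q x M ε Λ l K b η h T B) :
    VZ M x (VD D) (A1 M l K) =
      (M.VM x (VD D)).restrict (Zc M x (A1 M l K) ×ˢ (univ : Set (Vf_884.L k))) := by
  unfold VZ Mo.VM GL_394.VK
  rw [Measure.restrict_restrict (measurableSet_Zc M x _)]
  refine Measure.restrict_congr_set ?_
  filter_upwards [H.onZ H.A1_le] with p hp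
  exact propext ⟨fun h => ⟨h, (hp h.1).1, mem_univ _⟩, fun h => h.1⟩

theorem reg_tube (H : Pk U D Q x M ε Λ l K b η h T B) : M.reg x ⊆ tube M.π M.ρ x M.S M.w :=
  Stp_518.Mo.reg_subset_tube H.gr.gr H.sit.pack.frame

theorem ok (H : Pk U D Q x M ε Λ l K b η h T B) : GL_394.Ok (M.ch x) (M.reg x) univ :=
  Stp_518.Mo.ok H.gr.gr H.sit.pack.frame

theorem isOn (H : Pk U D Q x M ε Λ l K b η h T B) : GL_394.On (M.VM x (VD D)) m (M.reg x) := by
  have hS := M.S_pos
  refine Stp_518.Mo.on_of_subset H.gr.gr (stat_VD H.sit.int H.sit.st) ?_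
  refine (reg_ball H.gr H.hb H.sit.pack.frame).trans ?_
  exact (ball_subset_closedBall.trans (closedBall_subset_closedBall (by linarith))).trans H.sit.sub

theorem tau_nonneg (H : Pk U D Q x M ε Λ l K b η h T B) {p : Euc k × Vf_884.L k}
    (h1 : p.1 ∈ tube M.π M.ρ x M.S M.w) (h2 : p.2 ∈ G m k) : 0 ≤ (M.ch x).tau p.1 p.2 :=
  GLK_128.tau0_nonneg (Gi_456.frame_fr H.sit.pack.frame)
    (H.gr.gr.inv (Gi_456.foot M.π M.ρ x M.S M.w p.1) (Y := Gi_456.yy M.π M.ρ x M.S M.w p.1)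
      (H.gr.gr.norm_yy_lt h1).le) (Gv_685.pj_of_G h2)

theorem tau_int (H : Pk U D Q x M ε Λ l K b η h T B) :
    Integrable (fun p : Euc k × Vf_884.L k => (M.ch x).tau p.1 p.2) (M.VM x (VD D)) :=
  H.isOn.integrable H.ok.cpt H.ok.ctau

/-- **the tilt against the block.** -/
theorem tl_pt (H : Pk U D Q x M ε Λ l K b η h T B) {p : Euc k × Vf_884.L k}
    (h1 : p.1 ∈ tube M.π M.ρ x M.S M.w) (h2 : p.2 ∈ G m k) :
    ‖Kb M.π M.ρ p.2 - KT (fderiv ℝ M.u (St.X M x p.1))‖ ^ 2 ≤ 2 * (M.ch x).tau p.1 p.2 := by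
  have hP := Gv_685.pj_of_G h2
  have h3 := norm_block_sq_le (Gi_456.frame_fr H.sit.pack.frame)
    (H.gr.gr.inv (Gi_456.foot M.π M.ρ x M.S M.w p.1) (Y := Gi_456.yy M.π M.ρ x M.S M.w p.1)
      (H.gr.gr.norm_yy_lt h1).le) hP.idem hP.sa hP.tr
  rw [ContinuousLinearMap.adjoint_adjoint] at h3
  have e1 : Kb M.π M.ρ p.2 - KT (fderiv ℝ M.u (St.X M x p.1)) =
      M.π ∘L p.2 ∘L adj M.ρ - ginv (fderiv ℝ M.w (Gi_456.foot M.π M.ρ x M.S M.w p.1)) ∘L
        adj (fderiv ℝ M.w (Gi_456.foot M.π M.ρ x M.S M.w p.1)) := by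
    rw [St.fd_w H.hu]
    rfl
  rw [e1]
  exact h3

theorem aem_X (g : GrB M b) {V : Measure (Euc k × Vf_884.L k)} (hf : Frame M.π M.ρ)
    (h : ∀ᵐ p ∂V, p.1 ∈ tube M.π M.ρ x M.S M.w) : AEMeasurable (fun p => St.X M x p.1) V := by
  have hS := M.S_pos
  have h1 : ContinuousOn (fun p : Euc k × Vf_884.L k => St.X M x p.1)
      (tube M.π M.ρ x M.S M.w ×ˢ univ) := by
    have h2 := g.gr.continuousOn_foot (x := x) hf
    have h3 : ContinuousOn (fun p : Euc k × Vf_884.L k =>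
        Gi_456.foot M.π M.ρ x M.S M.w p.1) (tube M.π M.ρ x M.S M.w ×ˢ univ) :=
      h2.comp continuousOn_fst (fun p hp => hp.1)
    exact h3.const_smul (M.S⁻¹)
  have hm : MeasurableSet (tube M.π M.ρ x M.S M.w ×ˢ (univ : Set (Vf_884.L k))) :=
    (g.gr.isOpen_tube).measurableSet.prod MeasurableSet.univ
  have h4 := h1.aemeasurable (μ := V) hm
  have h5 : V.restrict (tube M.π M.ρ x M.S M.w ×ˢ univ) = V :=
    Measure.restrict_eq_self_of_ae_mem (by filter_upwards [h] with p hp; exact ⟨hp, mem_univ _⟩)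
  rwa [h5] at h4

/-- **the stationarity over the cylinder.** -/
theorem st (H : Pk U D Q x M ε Λ l K b η h T B) (w : Euc m → Euc n) (hw : ContDiff ℝ 2 w)
    (h0 : ∀ v, A1 M l K ≤ ‖v‖ → w v = 0) :
    ∫ p, trc (Euc n) (fderiv ℝ w (St.a M x p.1) ∘L Kb M.π M.ρ p.2) ∂(mz M x (VD D) l K) = 0 := by
  have hS := M.S_pos
  have hst := (H.sit.pack.cyl (A1 M l K) H.A1_le2).stat (fun z => adj M.ρ (w (M.π z)))
    ((adj M.ρ).contDiff.comp ((hw.of_le (by norm_num)).comp M.π.contDiff)) (by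
      intro p hp
      rw [sub_zero] at hp
      rw [h0 _ hp, map_zero])
  unfold Cy_870.FV at hst
  have e0 : ∀ p : Euc k × Vf_884.L k,
      tr (fderiv ℝ (fun z => adj M.ρ (w (M.π z))) p.1 ∘L p.2) =
        trc (Euc n) (fderiv ℝ w (M.π p.1) ∘L Kb M.π M.ρ p.2) := by
    intro p
    have := tr_cmp (π := M.π) (ρ := M.ρ) (x₀ := (0 : Euc k)) (ξ := w) (z := p.1)
      ((hw.differentiable (by norm_num)) _) p.2
    simpa only [sub_zero] using this
  simp only [e0] at hst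
  have hcont : Continuous fun p : Euc k × Vf_884.L k =>
      trc (Euc n) (fderiv ℝ w (M.π p.1) ∘L Kb M.π M.ρ p.2) := by
    have hc1 : Continuous (fderiv ℝ w) := hw.continuous_fderiv (by norm_num)
    exact (trc (Euc n)).continuous.comp ((hc1.comp (M.π.continuous.comp
      continuous_fst)).clm_comp (continuous_Kb.comp continuous_snd))
  have h1 : ∫ p, trc (Euc n) (fderiv ℝ w (M.π p.1) ∘L Kb M.π M.ρ p.2)
        ∂((mz M x (VD D) l K).map (Vc_164.hom x M.S)) =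
      ∫ p, trc (Euc n) (fderiv ℝ w (M.π (Vc_164.hom x M.S p).1) ∘L
        Kb M.π M.ρ (Vc_164.hom x M.S p).2) ∂(mz M x (VD D) l K) :=
    integral_map (Vc_164.measurable_hom x M.S).aemeasurable hcont.aestronglyMeasurable
  rw [mz, map_mu, hst] at h1
  rw [mz, h1]
  refine integral_congr_ae (Eventually.of_forall fun p => ?_)
  have e2 : M.π (Vc_164.hom x M.S p).1 = St.a M x p.1 := by
    show M.π (M.S⁻¹ • (p.1 - x)) = M.S⁻¹ • M.π (p.1 - x)
    rw [map_smul]
  have e3 : (Vc_164.hom x M.S p).2 = p.2 := rfl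
  simp only
  rw [e2, e3]

/-- **the total variation in block units.** -/
theorem tvb (H : Pk U D Q x M ε Λ l K b η h T B) {f : Euc m → ℝ} {s : ℝ} (hf : Measurable f)
    (hs : ∀ v, |f v| ≤ s) (h0 : ∀ v, R0 M l * (1 + 1 / (16 * K)) < ‖v‖ → f v = 0) :
    |(M.S ^ m)⁻¹ * ∫ p, f (St.X M x p.1) ∂(M.VM x (VD D)) -
      Q * ∫ v, f v * dns (fderiv ℝ M.u v)| ≤ s * B := by
  have hS := M.S_pos
  have hR := R0_pos M l
  obtain ⟨k0, k1⟩ := H.dK
  have hK0 : 0 < K := by linarith [H.K32]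
  have hSR := S_R0 M l
  set q0 := fderiv ℝ M.u 0 with hq0
  have hF := H.tv (fun v => f (M.S⁻¹ • Loi q0 v)) s
    (hf.comp ((continuous_const_smul M.S⁻¹).comp (Loi q0).continuous).measurable)
    (fun v => hs _) (fun v hv => by
      refine h0 _ ?_
      have h1 : ‖v‖ ≤ (1 + 1 / (64 * K)) * ‖Loi q0 v‖ := by
        have h2 := Gi_456.norm_Lo_sq q0 (Loi q0 v)
        rw [Gi_456.Lo_Loi] at h2
        have h3 : ‖q0 (Loi q0 v)‖ ≤ 1 / (64 * K) * ‖Loi q0 v‖ :=
          (ContinuousLinearMap.le_opNorm _ _).trans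
            (mul_le_mul_of_nonneg_right H.du0 (norm_nonneg _))
        have h4 : ‖q0 (Loi q0 v)‖ ^ 2 ≤ (1 / (64 * K) * ‖Loi q0 v‖) ^ 2 :=
          pow_le_pow_left₀ (norm_nonneg _) h3 2
        have h5 : 0 < 1 / (64 * K) := by positivity
        refine abs_le_of_sq_le_sq' ?_ (by positivity) |>.2
        rw [h2]
        have := mul_nonneg h5.le (sq_nonneg ‖Loi q0 v‖)
        nlinarith
      rw [norm_smul, norm_inv, Real.norm_of_nonneg hS.le]
      have e64 : 1 / (64 * K) = 1 / K / 64 := by field_simp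
      have e16 : 1 / (16 * K) = 1 / K / 16 := by field_simp
      have e8 : 1 / (8 * K) = 1 / K / 8 := by field_simp
      rw [e64] at h1
      rw [e16]
      rw [e8] at hv
      set δ := 1 / K with hδ
      rw [← hSR] at hv
      rw [lt_inv_mul_iff₀ hS]
      by_contra hc
      push Not at hc
      have h6 : ‖v‖ ≤ (1 + δ / 64) * (M.S * (R0 M l * (1 + δ / 16))) :=
        h1.trans (mul_le_mul_of_nonneg_left hc (by linarith))
      have h7 : (1 + δ / 64) * (M.S * (R0 M l * (1 + δ / 16))) ≤ M.S * R0 M l * (1 + δ / 8) := by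
        have e : (1 + δ / 64) * (M.S * (R0 M l * (1 + δ / 16))) =
            M.S * R0 M l * ((1 + δ / 64) * (1 + δ / 16)) := by ring
        rw [e]
        refine mul_le_mul_of_nonneg_left ?_ (by positivity)
        nlinarith
      linarith)
  have e1 : ∀ z : Euc k, M.S⁻¹ • Loi q0 ((M.ch x).x z) = St.X M x z := by
    intro z
    have e2 : (M.ch x).x z = Lo q0 (Gi_456.foot M.π M.ρ x M.S M.w z) := by
      show Lo (fderiv ℝ M.w 0) (Gi_456.foot M.π M.ρ x M.S M.w z - 0) = _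
      rw [sub_zero, St.fd_w0 H.hu]
    rw [e2, Gi_456.Loi_Lo]
    rfl
  simp only [e1] at hF
  rw [St.integral_F H.hu] at hF
  have e3 : ∀ v : Euc m, M.S⁻¹ • Loi q0 (Lo (fderiv ℝ M.u 0) (M.S • v)) = v := by
    intro v
    rw [← hq0, Gi_456.Loi_Lo, smul_smul, inv_mul_cancel₀ hS.ne', one_smul]
  simp only [e3] at hF
  have e4 : (M.S ^ m)⁻¹ * ∫ p, f (St.X M x p.1) ∂(M.VM x (VD D)) -
      Q * ∫ v, f v * dns (fderiv ℝ M.u v) = (M.S ^ m)⁻¹ *
      (∫ p, f (St.X M x p.1) ∂(M.VM x (VD D)) -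
        Q * (M.S ^ m * ∫ v, f v * dns (fderiv ℝ M.u v))) := by
    field_simp
  rw [e4, abs_mul, abs_of_pos (by positivity)]
  calc (M.S ^ m)⁻¹ * |∫ p, f (St.X M x p.1) ∂(M.VM x (VD D)) -
        Q * (M.S ^ m * ∫ v, f v * dns (fderiv ℝ M.u v))| ≤ (M.S ^ m)⁻¹ * (s * (M.S ^ m * B)) :=
        mul_le_mul_of_nonneg_left hF (by positivity)
    _ = s * B := by field_simp

/-- integrals of functions of the foot over the region and over the cylinder. -/
theorem int_X (H : Pk U D Q x M ε Λ l K b η h T B) {f : Euc m → ℝ}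
    (h0 : ∀ v, R0 M l * (1 + 1 / (256 * K)) < ‖v‖ → f v = 0) :
    ∫ p, f (St.X M x p.1) ∂(mz M x (VD D) l K) =
      (M.S ^ m)⁻¹ * ∫ p, f (St.X M x p.1) ∂(M.VM x (VD D)) := by
  rw [mz, St.integral_mu, H.VZ_eq]
  congr 1
  rw [← integral_indicator (measurableSet_Zc M x _)]
  refine integral_congr_ae ?_
  have h1 : ∀ᵐ p ∂(M.VM x (VD D)), p.1 ∈ M.reg x := by
    unfold Mo.VM GL_394.VK
    filter_upwards [ae_restrict_mem (reg_meas H.gr)] with p hp
    exact hp.1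
  have h2 := ae_restrict_of_ae (s := M.reg x ×ˢ (univ : Set (Vf_884.L k))) H.inZX
  have h2' : ∀ᵐ p ∂(M.VM x (VD D)), p.1 ∈ M.reg x → ‖St.X M x p.1‖ ≤ R0 M l * (1 + 1 / (256 * K)) →
      p.1 ∈ Zc M x (R0 M l * (1 + 1 / (128 * K))) := h2
  filter_upwards [h1, h2'] with p a1 a2
  by_cases hZ : p ∈ Zc M x (A1 M l K) ×ˢ (univ : Set (Vf_884.L k))
  · rw [indicator_of_mem hZ]
  · rw [indicator_of_notMem hZ]
    refine (h0 _ ?_).symm
    by_contra hc
    push Not at hc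
    exact hZ ⟨a2 a1 hc, mem_univ _⟩

end Pk

end Crest.Agent.R234.Sw_733
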