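import Crest.Agent.R234.Sw16_733

/-! # Row 234, VF-F6 (helper733), part 17: **the switch for two references** -/

set_option autoImplicit false
set_option linter.unusedSectionVars false
set_option linter.unusedVariables false

open MeasureTheory Set Metric Filter Topology
open scoped ENNReal NNReal ContDiff InnerProductSpace
open Crest.GeometryTopology.Submanifold
open Crest.Agent.R234.Ell1_3 Crest.Agent.R234.Fm_209 Crest.Agent.R234.Cy_870 Crest.Agent.R234.Vf_884
open Crest.Agent.R234.Main_456 (Frame hgt)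
open Crest.Agent.R234.Stp_518 (Mo GrB)
open Crest.Agent.R234.Gi_456 (Lo Loi giB jB muG Gr tube)
open Crest.Agent.R234.GI_640 (g3 g31 g32 ker3 ker31)

noncomputable section

namespace Crest.Agent.R234.Sw_733

variable {m n k : ℕ}

local notation "adj" => ContinuousLinearMap.adjoint

namespace Pk

variable {U : Set (Euc k)} {D : VarifoldData m k} {Q : ℕ} {x : Euc k} {M N : Mo m n k}
  {ε Λ l K b η h T B σ τ : ℝ}

theorem exp_le_R0 {y : ℝ} (hy : y ≤ l) : Real.exp (y - M.lb) ≤ R0 M l :=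
  Real.exp_le_exp.2 (by linarith)

/-- **the data of the switch.** -/
theorem se (H : Pk U D Q x M ε Λ l K b η h T B) (P : Pn M N l K b σ τ) {y Λ' : ℝ} (hy : y ≤ l)
    (hΛ : Λ ≤ Λ') (hΛ1 : 1 ≤ Λ') (hQ : (Q : ℝ) ≤ Λ') :
    SE (mz M x (VD D) l K) (fun p => St.a M x p.1) (fun p => St.b M x p.1)
      (fun p => Kb M.π M.ρ p.2) M.u N.u (fun p => St.X M x p.1) (fun p => St.X N x p.1)
      (fun p => St.Y M x p.1) (fun p => St.Y N x p.1) 0 (fun p => (M.ch x).tau p.1 p.2) Q
      (y - M.lb) b τ (R0 M l * (1 + 1 / (64 * K)) - Real.exp (y - M.lb)) (9 / 8 * h) T B Λ' := by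
  have hS := M.S_pos
  have hR := R0_pos M l
  have hR1 := H.R0_le
  obtain ⟨k0, k1⟩ := H.dK
  have hK0 : 0 < K := by linarith [H.K32]
  have hfr := H.sit.pack.frame
  have hfr' : Frame N.π N.ρ := by rw [P.hπ, P.hρ]; exact hfr
  have e64 : 1 / (64 * K) = 1 / K / 64 := by field_simp
  have e128 : 1 / (128 * K) = 1 / K / 128 := by field_simp
  have e256 : 1 / (256 * K) = 1 / K / 256 := by field_simp
  have e16 : 1 / (16 * K) = 1 / K / 16 := by field_simp
  have e512 : R0 M l / (512 * K) = R0 M l * (1 / K) / 512 := by field_simp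
  have hhs := H.hhs
  have hσ := P.hσ
  rw [e512] at hhs hσ
  have hye := exp_le_R0 (M := M) hy
  have hball : Real.exp (y - M.lb) + (R0 M l * (1 + 1 / (64 * K)) - Real.exp (y - M.lb)) =
      R0 M l * (1 + 1 / (64 * K)) := by ring
  have hRK : 0 < R0 M l * (1 / K) := by positivity
  have o1 := ae_mz (M := M) (x := x) (l := l) (K := K) (H.onZ H.A1_le)
  have o2 := ae_mz (M := M) (x := x) (l := l) (K := K) (H.onZ' P H.A1_le)
  have opl : ∀ᵐ p ∂(mz M x (VD D) l K), p.2 ∈ G m k :=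
    ae_mz (by filter_upwards [(stat_VD H.sit.int H.sit.st).conc] with p hp _; exact hp)
  have hA1 : A1 M l K = R0 M l * (1 + 1 / K / 128) := by rw [A1, e128]
  refine
    { fin := H.mz_univ.trans (ENNReal.ofReal_le_ofReal hΛ)
      L1 := hΛ1
      hQ := by rw [abs_of_nonneg (Nat.cast_nonneg _)]; exact hQ
      mα := ?_
      mβ := ?_
      mK := (continuous_Kb.comp continuous_snd).aestronglyMeasurable
      nK := by filter_upwards [opl] with p hp; exact norm_Kb_le hfr hp
      cl := by rw [hball]; exact H.cl_loc P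
      eps := by nlinarith
      mX := aem_X H.gr hfr (by filter_upwards [o1] with p hp; exact hp.2.1)
      mX' := aem_X P.gr hfr' (by filter_upwards [o2] with p hp; exact hp.2.1)
      foot := by filter_upwards [o1] with p hp; exact St.isFoot H.hu H.gr.gr hp.2.1
      foot' := ?_
      ina := ?_
      inX := ?_
      inX' := ?_
      hh := by filter_upwards [o1] with p hp; exact hp.2.2.2.2.2.2.1
      h4 := by nlinarith
      st := ?_
      tl := by filter_upwards [o1, opl] with p hp h2; exact H.tl_pt hp.2.1 h2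
      ti := ?_
      tT := ?_
      tv := ?_ }
  · have hc : Continuous fun p : Euc k × Vf_884.L k => St.a M x p.1 := by
      unfold St.a
      exact (M.π.continuous.comp (continuous_fst.sub continuous_const)).const_smul (M.S⁻¹)
    exact hc.measurable.aemeasurable
  · have hc : Continuous fun p : Euc k × Vf_884.L k => St.b M x p.1 := by
      unfold St.b
      exact (M.ρ.continuous.comp (continuous_fst.sub continuous_const)).const_smul (M.S⁻¹)
    exact hc.measurable.aemeasurable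
  · filter_upwards [o2] with p hp
    have := St.isFoot (x := x) (hu' P) P.gr.gr hp.2.1
    rwa [a_eq P, b_eq P] at this
  · filter_upwards [o1] with p hp
    rw [hball, mem_ball_zero_iff]
    have h1 := hp.2.2.2.2.1
    rw [hA1] at h1
    rw [e64]
    nlinarith
  · filter_upwards [o1] with p hp
    rw [hball, mem_ball_zero_iff]
    have h1 := hp.2.2.2.2.1
    have h2 := hp.2.2.2.2.2.1
    rw [hA1] at h1
    rw [e64]
    have h3 : ‖St.X M x p.1‖ ≤ ‖St.a M x p.1‖ + ‖St.X M x p.1 - St.a M x p.1‖ :=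
      norm_le_norm_add_norm_sub' _ _
    nlinarith
  · filter_upwards [o1, o2] with p hp hp2
    rw [hball, mem_ball_zero_iff]
    have h1 := hp.2.2.2.2.1
    have h2 := hp.2.2.2.2.2.1
    rw [hA1] at h1
    rw [e64]
    have h3 : ‖St.X M x p.1‖ ≤ ‖St.a M x p.1‖ + ‖St.X M x p.1 - St.a M x p.1‖ :=
      norm_le_norm_add_norm_sub' _ _
    have h4 : ‖St.X N x p.1‖ ≤ ‖St.X M x p.1‖ + ‖St.X N x p.1 - St.X M x p.1‖ :=
      norm_le_norm_add_norm_sub' _ _
    have h5 := hp2.2.2
    nlinarith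
  · intro w hw h0
    refine H.st w hw fun v hv => h0 v ?_
    rw [sub_zero]
    rw [hA1] at hv
    nlinarith
  · have h1 := H.tau_int
    have h2 : Integrable (fun p : Euc k × Vf_884.L k => (M.ch x).tau p.1 p.2)
        (VZ M x (VD D) (A1 M l K)) := by
      rw [H.VZ_eq]
      exact h1.restrict
    exact h2.smul_measure ENNReal.ofReal_ne_top
  · rw [mz, St.integral_mu, H.VZ_eq]
    have h1 : ∫ p in Zc M x (A1 M l K) ×ˢ univ, (M.ch x).tau p.1 p.2 ∂(M.VM x (VD D)) ≤
        ∫ p in {p : Euc k × Vf_884.L k | ‖(M.ch x).x p.1‖ ≤ Real.exp l * (1 + 1 / (4 * K))},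
          (M.ch x).tau p.1 p.2 ∂(M.VM x (VD D)) := by
      refine setIntegral_mono_set H.tau_int.integrableOn ?_ ?_
      · refine ae_restrict_of_ae ?_
        filter_upwards [H.isOn.mem] with p hp
        exact H.tau_nonneg (H.reg_tube hp.1) hp.2
      · have h2 := ae_restrict_of_ae (s := M.reg x ×ˢ (univ : Set (Vf_884.L k))) (H.onZ H.A1_le)
        have h2' : ∀ᵐ p ∂(M.VM x (VD D)), p.1 ∈ Zc M x (A1 M l K) →
            ‖(M.ch x).x p.1‖ ≤ Real.exp l * (1 + 1 / (4 * K)) := by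
          filter_upwards [h2] with p hp hz
          exact (hp hz).2.2.2.2.2.2.2
        filter_upwards [h2'] with p hp hz
        exact hp hz.1
    calc (M.S ^ m)⁻¹ * ∫ p in Zc M x (A1 M l K) ×ˢ univ, (M.ch x).tau p.1 p.2 ∂(M.VM x (VD D)) ≤
          (M.S ^ m)⁻¹ * (M.S ^ m * T) :=
          mul_le_mul_of_nonneg_left (h1.trans H.tilt) (by positivity)
      _ = T := by field_simp
  · intro f s hf hs h0
    rw [H.int_X (f := f) (fun v hv => h0 v (by
      rw [sub_zero]
      rw [e256] at hv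
      nlinarith))]
    exact H.tvb hf.measurable hs (fun v hv => h0 v (by
      rw [sub_zero]
      rw [e16] at hv
      nlinarith))

theorem mu_eq (P : Pn M N l K b σ τ) (V : Measure (Euc k × Vf_884.L k)) :
    St.mu (M := N) V = St.mu (M := M) V := by
  unfold St.mu
  rw [hS' P]

end Pk

variable (m n) in
/-- **SWITCH** for two references. -/
theorem exists_switch (T₀ Λ' : ℝ) (h1 : 1 ≤ Λ') :
    ∃ C : ℝ, 0 ≤ C ∧ ∀ (k : ℕ) (U : Set (Euc k)) (D : VarifoldData m k) (Q : ℕ) (x : Euc k)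
      (M N : Mo m n k) (ε Λ l K b η h T B σ τ : ℝ), Pk U D Q x M ε Λ l K b η h T B →
      Pn M N l K b σ τ → Λ ≤ Λ' → (Q : ℝ) ≤ Λ' → ∀ y, y ≤ l → M.lb - T₀ ≤ y →
      |N.E x (VD D) Q y - M.E x (VD D) Q y| ≤
        M.S ^ 2 * (C * τ * (τ + h + Real.sqrt T + B)) ∧
      |N.I x (VD D) y - M.I x (VD D) y| ≤ M.S ^ 2 * (C * τ * (τ + h)) := by
  obtain ⟨CE, hCE, HE⟩ := exists_Eg_switch m n ker3 ker31 (Real.exp T₀) Λ'
  obtain ⟨CI, hCI, HI⟩ := exists_Ig_switch m n ker3 ker31 (Real.exp T₀) Λ'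
  refine ⟨2 * (CE + CI), by positivity, ?_⟩
  intro k U D Q x M N ε Λ l K b η h T B σ τ H P hΛ hQ y hy hyT
  have hS := M.S_pos
  have hfr := H.sit.pack.frame
  have hfr' : Frame N.π N.ρ := by rw [P.hπ, P.hρ]; exact hfr
  have hse := H.se P hy hΛ h1 hQ
  have hl0 : y - M.lb ≤ 0 := by linarith [H.hl]
  have hb0 : Real.exp (-(y - M.lb)) ≤ Real.exp T₀ := Real.exp_le_exp.2 (by linarith)
  have hh0 : 0 ≤ 9 / 8 * h := by linarith [H.h0]
  have k1 := HE _ _ _ _ _ _ _ _ _ _ _ _ _ _ _ _ _ _ _ _ _ hse hl0 hb0 hh0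
  have k2 := HI _ _ _ _ _ _ _ _ _ _ _ _ _ _ _ _ _ _ _ _ _ hse hl0 hb0 hh0
  have a1 := (H.EI_M hy ker3 (Q : ℝ)).1.trans (St.EE_eq H.hu _ _ _ _)
  have a2 := (H.EI_M hy ker31 (Q : ℝ)).2.trans (St.II_eq H.hu hfr _ _ _)
  have b1 := (H.EI_N P hy ker3 (Q : ℝ)).1.trans (St.EE_eq (Pk.hu' P) _ _ _ _)
  have b2 := (H.EI_N P hy ker31 (Q : ℝ)).2.trans (St.II_eq (Pk.hu' P) hfr' _ _ _)
  rw [Pk.mu_eq P, Pk.hS' P, P.hlb] at b1 b2
  have hτ := P.τ0
  have hh := H.h0
  have hsT := Real.sqrt_nonneg T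
  constructor
  · have e : N.E x (VD D) Q y - M.E x (VD D) Q y =
        M.S ^ 2 * (Eg (Pk.mz M x (VD D) l K) (fun p => St.X N x p.1) N.u g3 0 Q (y - M.lb) -
          Eg (Pk.mz M x (VD D) l K) (fun p => St.X M x p.1) M.u g3 0 Q (y - M.lb)) := by
      rw [mul_sub]
      exact congrArg₂ _ b1 a1
    have hB : 0 ≤ τ * B := by
      rcases eq_or_lt_of_le hτ with h0 | h0
      · rw [← h0, zero_mul]
      · refine mul_nonneg hτ ?_
        have h2 := H.tv (fun _ => 0) 1 measurable_const (fun v => by simp) (fun _ _ => rfl)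
        simp only [integral_zero, zero_mul, mul_zero, sub_zero, abs_zero, one_mul] at h2
        exact (mul_nonneg_iff_of_pos_left (by positivity)).1 h2
    rw [e, abs_mul, abs_of_pos (by positivity)]
    refine mul_le_mul_of_nonneg_left (k1.trans ?_) (by positivity)
    have e1 : 2 * (CE + CI) * τ * (τ + h + √T + B) =
        2 * (CE + CI) * (τ * (τ + h + √T) + τ * B) := by ring
    have e2 : CE * τ * (τ + 9 / 8 * h + √T + B) =
        CE * (τ * (τ + 9 / 8 * h + √T) + τ * B) := by ring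
    rw [e1, e2]
    have e3 : τ * (τ + 9 / 8 * h + √T) ≤ 2 * (τ * (τ + h + √T)) := by
      have : 0 ≤ τ * (τ + h + √T) := by positivity
      have : τ * (τ + 9 / 8 * h + √T) ≤ τ * (2 * (τ + h + √T)) :=
        mul_le_mul_of_nonneg_left (by linarith) hτ
      linarith
    have e4 : 0 ≤ τ * (τ + h + √T) := by positivity
    nlinarith [mul_nonneg hCE hB, mul_nonneg hCI hB, mul_nonneg hCE e4, mul_nonneg hCI e4,
      mul_le_mul_of_nonneg_left e3 hCE]
  · have e : N.I x (VD D) y - M.I x (VD D) y =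
        M.S ^ 2 * (Ig (Pk.mz M x (VD D) l K) (fun p => St.X N x p.1) (fun p => St.Y N x p.1)
          N.u g31 0 (y - M.lb) -
          Ig (Pk.mz M x (VD D) l K) (fun p => St.X M x p.1) (fun p => St.Y M x p.1)
            M.u g31 0 (y - M.lb)) := by
      rw [mul_sub]
      exact congrArg₂ _ b2 a2
    rw [e, abs_mul, abs_of_pos (by positivity)]
    refine mul_le_mul_of_nonneg_left (k2.trans ?_) (by positivity)
    have e4 : 0 ≤ τ * (τ + h) := by positivity
    have e3 : τ * (τ + 9 / 8 * h) ≤ 2 * (τ * (τ + h)) := by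
      have : τ * (τ + 9 / 8 * h) ≤ τ * (2 * (τ + h)) :=
        mul_le_mul_of_nonneg_left (by linarith) hτ
      linarith
    have e1 : 2 * (CE + CI) * τ * (τ + h) = 2 * (CE + CI) * (τ * (τ + h)) := by ring
    have e2 : CI * τ * (τ + 9 / 8 * h) = CI * (τ * (τ + 9 / 8 * h)) := by ring
    rw [e1, e2]
    nlinarith [mul_nonneg hCE e4, mul_nonneg hCI e4, mul_le_mul_of_nonneg_left e3 hCI]

end Crest.Agent.R234.Sw_733
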