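import Crest.Agent.R234.Stp2_518

/-!
# Row 234, F6-BLOCK (helper159), part 12: the open input `TotP` (290 / 618)

Tilt energy and the measure of the mass comparison at one level, bounded by `I` a little above.
-/

set_option autoImplicit false
set_option linter.unusedVariables false

open MeasureTheory Filter Topology Set
open scoped ENNReal NNReal ContDiff
open Crest.GeometryTopology.Submanifold Crest.Agent.R234.Vf_884
open Crest.Agent.R234.MG_570 (MG)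
open Crest.Agent.R234.Stp_518

noncomputable section

namespace Crest.Agent.R234.Swb_159

variable {m n k : ℕ}

/-- data of the mass comparison at the radius `s`: clause (i) of `TV` + finiteness. -/
structure Tot (M : Mo m n k) (x : Euc k) (V : Measure (Euc k × L k)) (Q s b : ℝ)
    (e2 : Measure (Euc m)) : Prop where
  fin : e2 (Metric.closedBall 0 s) ≠ ⊤
  abs : ∀ f : Euc m → ℝ, Measurable f → (∃ C, ∀ v, |f v| ≤ C) →
    (∀ v ∉ Metric.closedBall (0 : Euc m) s, f v = 0) →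
    |∫ p, f ((M.ch x).x p.1) * (1 - (M.ch x).tau p.1 p.2 / 2) ∂(M.VM x V) -
      Q * ∫ v, f v * (M.ch x).j v| ≤ ∫ v, |f v| ∂e2
  pos : ∀ᵐ p ∂(M.VM x V), 0 ≤ (M.ch x).tau p.1 p.2
  le : e2.real (Metric.closedBall 0 s) +
    ∫ p in {p | ‖(M.ch x).x p.1‖ ≤ s}, (M.ch x).tau p.1 p.2 ∂(M.VM x V) ≤ b

/-- **TOT** (open; 290 / 618): total tilt and mass defect below `e^(cT - 1/K)`. -/
def TotP : Prop := ∀ (m n Q : ℕ), 3 ≤ m → 1 ≤ n → 1 ≤ Q → ∃ N₀ : ℕ, ∀ N : ℕ, N₀ ≤ N →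
  ∀ T Λ : ℝ, ∃ (C : ℝ) (p : ℕ), 0 ≤ C ∧ ∃ κ₀ ε L₁ : ℝ, 0 < κ₀ ∧ 0 < ε ∧
    ∀ (U : Set (Euc (m + n))) (D : VarifoldData m (m + n)) (x : Euc (m + n))
      (M : Mo m n (m + n)) (cT K : ℝ),
      Sit U D Q x M ε Λ → 0 ≤ M.κ → M.κ ≤ κ₀ → MG N M.κ (Real.exp (cT - M.lb)) M.u →
      ‖fderiv ℝ M.u 0‖ ≤ κ₀ / K → 4 ≤ K → M.lb - T ≤ cT - 1 → cT ≤ M.lb →
      0 < M.I x (VD D) cT → L₁ ≤ lam (M.I x (VD D)) cT → K ≤ lam (M.I x (VD D)) cT ^ 3 →
      ∃ e2 : Measure (Euc m), Tot M x (VD D) Q (Real.exp (cT - 1 / K))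
        (C * K ^ p * (Real.exp ((m - 2) * cT) * M.I x (VD D) cT)) e2

end Crest.Agent.R234.Swb_159
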