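import Crest.Agent.R234.Sw17_733
import Crest.Agent.R234.Swb12_159

/-! # Row 234, VF-F6 (helper733), part 18: total variation input from 159's `Tot` -/

set_option autoImplicit false
set_option linter.unusedSectionVars false
set_option linter.unusedVariables false

open MeasureTheory Set Metric Filter Topology
open scoped ENNReal NNReal ContDiff InnerProductSpace
open Crest.GeometryTopology.Submanifold
open Crest.Agent.R234.Ell1_3 Crest.Agent.R234.Fm_209 Crest.Agent.R234.Cy_870 Crest.Agent.R234.Vf_884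
open Crest.Agent.R234.Main_456 (Frame hgt)
open Crest.Agent.R234.Stp_518 (Mo GrB)
open Crest.Agent.R234.Gi_456 (Lo Loi giB jB muG Gr tube)

noncomputable section

namespace Crest.Agent.R234.Sw_733

variable {m n k : ℕ}

theorem integral_abs_le {e2 : Measure (Euc m)} {s r : ℝ} {F : Euc m → ℝ} (hF : Measurable F)
    (hs : ∀ v, |F v| ≤ s) (h0 : ∀ v ∉ closedBall (0 : Euc m) r, F v = 0)
    (hfin : e2 (closedBall 0 r) ≠ ⊤) :
    ∫ v, |F v| ∂e2 ≤ s * e2.real (closedBall 0 r) := by
  have h1 : ∫ v, |F v| ∂e2 = ∫ v in closedBall 0 r, |F v| ∂e2 := by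
    refine (setIntegral_eq_integral_of_forall_compl_eq_zero fun v hv => ?_).symm
    rw [h0 v hv, abs_zero]
  rw [h1]
  have : IsFiniteMeasure (e2.restrict (closedBall 0 r)) :=
    ⟨by rw [Measure.restrict_apply_univ]; exact hfin.lt_top⟩
  calc ∫ v in closedBall 0 r, |F v| ∂e2 ≤ ∫ v in closedBall 0 r, s ∂e2 := by
        refine integral_mono ?_ (integrable_const _) hs
        refine Integrable.mono' (integrable_const s) hF.abs.aestronglyMeasurable
          (Eventually.of_forall fun v => ?_)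
        rw [Real.norm_eq_abs, abs_abs]
        exact hs v
    _ = s * e2.real (closedBall 0 r) := by
        rw [setIntegral_const, smul_eq_mul, mul_comm]

/-- **the total variation from `Tot`.** -/
theorem tv_of_tot {M : Mo m n k} {x : Euc k} {V : Measure (Euc k × Vf_884.L k)} {Q s b : ℝ}
    {e2 : Measure (Euc m)} (h : Swb_159.Tot M x V Q s b e2)
    (hok : GL_394.Ok (M.ch x) (M.reg x) univ) (hon : GL_394.On (M.VM x V) m (M.reg x))
    {F : Euc m → ℝ} {t : ℝ} (hF : Measurable F) (ht : ∀ v, |F v| ≤ t)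
    (h0 : ∀ v ∉ closedBall (0 : Euc m) s, F v = 0) :
    |∫ p, F ((M.ch x).x p.1) ∂(M.VM x V) - Q * ∫ v, F v * (M.ch x).j v| ≤ t * b := by
  have hfinm := hon.fin
  have ht0 : 0 ≤ t := (abs_nonneg _).trans (ht 0)
  have hS : MeasurableSet (M.reg x ×ˢ G m k) := hok.cpt.isClosed.measurableSet.prod
    (measurableSet_G m k)
  have hmx : AEMeasurable (fun p : Euc k × Vf_884.L k => (M.ch x).x p.1) (M.VM x V) := by
    have h1 : ContinuousOn (fun p : Euc k × Vf_884.L k => (M.ch x).x p.1)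
        (M.reg x ×ˢ G m k) := by
      have h2 : ContinuousOn (M.ch x).x (M.reg x) := fun z hz =>
        (hok.hx z hz).continuousAt.continuousWithinAt
      exact h2.comp continuousOn_fst (fun p hp => hp.1)
    have h3 := h1.aemeasurable (μ := M.VM x V) hS
    rwa [Measure.restrict_eq_self_of_ae_mem hon.mem] at h3
  have hmF : AEStronglyMeasurable (fun p : Euc k × Vf_884.L k => F ((M.ch x).x p.1))
      (M.VM x V) := (hF.comp_aemeasurable hmx).aestronglyMeasurable
  have iF : Integrable (fun p : Euc k × Vf_884.L k => F ((M.ch x).x p.1)) (M.VM x V) :=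
    Integrable.mono' (integrable_const t) hmF (Eventually.of_forall fun p => ht _)
  have iτ : Integrable (fun p : Euc k × Vf_884.L k => (M.ch x).tau p.1 p.2) (M.VM x V) :=
    hon.integrable hok.cpt hok.ctau
  have iFτ : Integrable (fun p : Euc k × Vf_884.L k => F ((M.ch x).x p.1) *
      (M.ch x).tau p.1 p.2) (M.VM x V) := by
    refine iτ.bdd_mul (c := t) hmF ?_
    exact Eventually.of_forall fun p => ht _
  have e1 : ∫ p, F ((M.ch x).x p.1) * (1 - (M.ch x).tau p.1 p.2 / 2) ∂(M.VM x V) =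
      ∫ p, F ((M.ch x).x p.1) ∂(M.VM x V) -
        1 / 2 * ∫ p, F ((M.ch x).x p.1) * (M.ch x).tau p.1 p.2 ∂(M.VM x V) := by
    rw [← integral_const_mul, ← integral_sub iF (iFτ.const_mul _)]
    refine integral_congr_ae (Eventually.of_forall fun p => ?_)
    simp only
    ring
  have h1 := h.abs F hF ⟨t, ht⟩ h0
  rw [e1] at h1
  have h2 := integral_abs_le hF ht h0 h.fin
  set Sr : Set (Euc k × Vf_884.L k) := {p | ‖(M.ch x).x p.1‖ ≤ s} with hSr
  have h3 : |∫ p, F ((M.ch x).x p.1) * (M.ch x).tau p.1 p.2 ∂(M.VM x V)| ≤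
      t * ∫ p in Sr, (M.ch x).tau p.1 p.2 ∂(M.VM x V) := by
    have e2 : ∫ p, F ((M.ch x).x p.1) * (M.ch x).tau p.1 p.2 ∂(M.VM x V) =
        ∫ p in Sr, F ((M.ch x).x p.1) * (M.ch x).tau p.1 p.2 ∂(M.VM x V) := by
      refine (setIntegral_eq_integral_of_forall_compl_eq_zero fun p hp => ?_).symm
      rw [h0 _ (fun hc => hp (mem_closedBall_zero_iff.1 hc)), zero_mul]
    rw [e2, ← integral_const_mul, ← Real.norm_eq_abs]
    refine norm_integral_le_of_norm_le ((iτ.const_mul t).integrableOn) ?_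
    filter_upwards [ae_restrict_of_ae (s := Sr) h.pos] with p hp
    rw [norm_mul, Real.norm_of_nonneg hp, Real.norm_eq_abs]
    exact mul_le_mul_of_nonneg_right (ht _) hp
  have h4 : 0 ≤ ∫ p in Sr, (M.ch x).tau p.1 p.2 ∂(M.VM x V) :=
    integral_nonneg_of_ae (ae_restrict_of_ae h.pos)
  have h5 := h.le
  set I1 := ∫ p, F ((M.ch x).x p.1) ∂(M.VM x V)
  set I2 := ∫ p, F ((M.ch x).x p.1) * (M.ch x).tau p.1 p.2 ∂(M.VM x V)
  set I3 := ∫ v, F v * (M.ch x).j v
  set I4 := ∫ p in Sr, (M.ch x).tau p.1 p.2 ∂(M.VM x V)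
  have e3 : I1 - Q * I3 = (I1 - 1 / 2 * I2 - Q * I3) + 1 / 2 * I2 := by ring
  rw [e3]
  refine (abs_add_le _ _).trans ?_
  have h6 : |1 / 2 * I2| ≤ 1 / 2 * (t * I4) := by
    rw [abs_mul, abs_of_pos (by norm_num : (0:ℝ) < 1 / 2)]
    exact mul_le_mul_of_nonneg_left h3 (by norm_num)
  have h7 : t * (e2.real (closedBall 0 s) + I4) ≤ t * b := mul_le_mul_of_nonneg_left h5 ht0
  have h8 : 0 ≤ t * I4 := mul_nonneg ht0 h4
  nlinarith

theorem GrB.mono {M : Mo m n k} {b b' : ℝ} (h : GrB M b) (hb : b ≤ b') : GrB M b' := by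
  have hS := M.S_pos
  exact ⟨h.gr, h.cu, fun X => (h.b0 X).trans hb, fun X => (h.b1 X).trans hb,
    fun X => (h.b2 X).trans hb, h.dw,
    fun X => (h.w0 X).trans (mul_le_mul_of_nonneg_left hb hS.le)⟩

end Crest.Agent.R234.Sw_733
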