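import Crest.Agent.R234.Tv10_618
import Crest.Agent.R234.Ng5_290

/-!
# Row 234, F3-TV, part 11 (helper618)

The field `tv` of 290's `Gl` for a general chart, at the scale `sN cT N`, collar `eN N`.
-/

set_option autoImplicit false

open Set Filter Topology MeasureTheory Metric Function
open Crest.GeometryTopology.Submanifold
open Crest.Agent.R234.Vf_884 Crest.Agent.R234.Ar_870 Crest.Agent.R234.GL_394
open scoped ENNReal NNReal ContDiff InnerProductSpace

noncomputable section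

namespace Crest.Agent.R234.Tv_618

open Crest.Agent.R234.Ng_290 (sN eN tN Sr eN_pos eN_le sN_pos sN_mul)

variable {m k : ℕ}

section mono
variable {c : Ch m k} {K : Set (Euc k)} {D : Set (Euc m)} {V : Measure (Euc k × L k)}

theorem f_nonneg' (h : Ok c K D) {z : Euc k} (hz : z ∈ K) : 0 ≤ c.f z := by
  have := h.nusq z hz
  have := sq_nonneg ‖c.nu z‖
  linarith

/-- integrability of `φ(x) (tau + a 2f)` -/
theorem int_tq (h : Ok c K D) (hV : On V m K) {φ : Euc m → ℝ} (hφ : Continuous φ) (a : ℝ) :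
    Integrable (fun p : Euc k × L k => φ (c.x p.1) * (c.tau p.1 p.2 + a * (2 * c.f p.1))) V := by
  have cF : ContinuousOn (fun p : Euc k × L k => φ (c.x p.1)) (K ×ˢ G m k) := by
    refine hφ.comp_continuousOn ?_
    intro p hp
    exact ((h.hx p.1 hp.1).continuousAt.comp continuousAt_fst).continuousWithinAt
  have cf : ContinuousOn (fun p : Euc k × L k => c.f p.1) (K ×ˢ G m k) := by
    intro p hp
    exact ((h.hf p.1 hp.1).continuousAt.comp continuousAt_fst).continuousWithinAt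
  exact hV.integrable h.cpt (cF.mul (h.ctau.add (continuousOn_const.mul
    (continuousOn_const.mul cf))))

/-- change of constants in `TV` -/
theorem TV_mono (h : Ok c K D) (hV : On V m K)
    (htau : ∀ p ∈ K ×ˢ G m k, 0 ≤ c.tau p.1 p.2) {Q ρ C1 C2 Ca kq sig sig' : ℝ} {e2 : Measure (Euc m)}
    (hCa : 1 ≤ Ca) (hC1 : 0 ≤ C1) (hC2 : C1 * Ca ≤ C2) (hkq : 0 ≤ kq) (hsig : sig ≤ sig')
    (hT : TV c V Q ρ C1 (Ca * kq) sig e2) : TV c V Q ρ C2 kq sig' e2 where
  fin := hT.fin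
  i := hT.i
  iii := by
    intro F Lf hF hL hF0
    refine (hT.iii F Lf hF hL hF0).trans ?_
    have hi := int_tq h hV hL.continuous
    have h1 : ∫ p, F (c.x p.1) * (c.tau p.1 p.2 + Ca * kq * (2 * c.f p.1)) ∂V ≤
        Ca * ∫ p, F (c.x p.1) * (c.tau p.1 p.2 + kq * (2 * c.f p.1)) ∂V := by
      rw [← integral_const_mul]
      refine integral_mono_ae (hi _) ((hi _).const_mul _) ?_
      filter_upwards [hV.mem] with p hp
      have h2 := hF (c.x p.1)
      have h3 := htau p hp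
      have h4 := f_nonneg' h hp.1
      have h5 : c.tau p.1 p.2 ≤ Ca * c.tau p.1 p.2 := le_mul_of_one_le_left h3 hCa
      calc F (c.x p.1) * (c.tau p.1 p.2 + Ca * kq * (2 * c.f p.1)) ≤
            F (c.x p.1) * (Ca * c.tau p.1 p.2 + Ca * kq * (2 * c.f p.1)) := by gcongr
        _ = _ := by ring
    have h0 : 0 ≤ ∫ p, F (c.x p.1) * (c.tau p.1 p.2 + kq * (2 * c.f p.1)) ∂V := by
      refine integral_nonneg_of_ae ?_
      filter_upwards [hV.mem] with p hp
      have h2 := hF (c.x p.1)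
      have h3 := htau p hp
      have h4 := f_nonneg' h hp.1
      show 0 ≤ F (c.x p.1) * (c.tau p.1 p.2 + kq * (2 * c.f p.1))
      positivity
    have h6 : C1 * ∫ p, F (c.x p.1) * (c.tau p.1 p.2 + Ca * kq * (2 * c.f p.1)) ∂V ≤
        C2 * ∫ p, F (c.x p.1) * (c.tau p.1 p.2 + kq * (2 * c.f p.1)) ∂V := by
      calc C1 * ∫ p, F (c.x p.1) * (c.tau p.1 p.2 + Ca * kq * (2 * c.f p.1)) ∂V
          ≤ C1 * (Ca * ∫ p, F (c.x p.1) * (c.tau p.1 p.2 + kq * (2 * c.f p.1)) ∂V) := by gcongr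
        _ = C1 * Ca * ∫ p, F (c.x p.1) * (c.tau p.1 p.2 + kq * (2 * c.f p.1)) ∂V := by ring
        _ ≤ _ := by gcongr
    have h7 : (Lf : ℝ) * sig ≤ Lf * sig' := mul_le_mul_of_nonneg_left hsig Lf.2
    linarith

theorem tN_nonneg' (h : Ok c K D) (hV : On V m K)
    (htau : ∀ p ∈ K ×ˢ G m k, 0 ≤ c.tau p.1 p.2) {cT N κ : ℝ} (hN : 1 ≤ N) (hκ : 0 ≤ κ) :
    0 ≤ tN c V cT N κ := by
  have hs := sN_pos hN (cT := cT)
  unfold tN
  refine mul_nonneg (by positivity) ?_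
  refine integral_nonneg_of_ae ?_
  filter_upwards [ae_restrict_of_ae hV.mem] with p hp
  have h3 := htau p hp
  have h4 := f_nonneg' h hp.1
  show 0 ≤ c.tau p.1 p.2 + κ * (2 * c.f p.1 / (sN cT N) ^ 2)
  positivity

/-- my normalised energy is bounded by 290's -/
theorem ttot_le (h : Ok c K D) (hV : On (VK V K) m K)
    (htau : ∀ p ∈ K ×ˢ G m k, 0 ≤ c.tau p.1 p.2) {cT N κ Ca : ℝ} (hN : 1 ≤ N) (hκ : 0 ≤ κ)
    (hCa : 1 ≤ Ca) :
    0 ≤ ttot c V K (Ca * κ) (sN cT N) (1 + eN N) ∧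
      ttot c V K (Ca * κ) (sN cT N) (1 + eN N) ≤ Ca * tN c (VK V K) cT N κ := by
  have hs := sN_pos hN (cT := cT)
  set s := sN cT N with hsdef
  have hKm : MeasurableSet (K ×ˢ (univ : Set (L k))) :=
    h.cpt.isClosed.measurableSet.prod MeasurableSet.univ
  have hxK : ContinuousOn c.x K := fun z hz => (h.hx z hz).continuousAt.continuousWithinAt
  have hWm : MeasurableSet (Wr c K ((1 + eN N) * s) ×ˢ (univ : Set (L k))) :=
    (measurableSet_Wr h.cpt hxK _).prod MeasurableSet.univ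
  have hsub : Wr c K ((1 + eN N) * s) ×ˢ (univ : Set (L k)) ⊆ K ×ˢ univ :=
    prod_mono (fun z hz => hz.1) subset_rfl
  -- as integrals over `VK V K`
  have e1 : V.restrict (Wr c K ((1 + eN N) * s) ×ˢ univ) =
      (VK V K).restrict (Wr c K ((1 + eN N) * s) ×ˢ univ) := by
    unfold VK
    rw [Measure.restrict_restrict hWm, inter_eq_left.2 hsub]
  have hint : ∀ a : ℝ, Integrable
      (fun p : Euc k × L k => c.tau p.1 p.2 + a * (2 * c.f p.1 / s ^ 2)) (VK V K) := by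
    intro a
    have := int_tq h hV (φ := fun _ => 1) continuous_const (a / s ^ 2)
    refine this.congr (Eventually.of_forall fun p => ?_)
    simp only
    ring
  have hae := hV.mem
  have hnn : ∀ a : ℝ, 0 ≤ a → ∀ᵐ p ∂(VK V K),
      0 ≤ c.tau p.1 p.2 + a * (2 * c.f p.1 / s ^ 2) := by
    intro a ha
    filter_upwards [hae] with p hp
    have h3 := htau p hp
    have h4 := f_nonneg' h hp.1
    positivity
  have hCa0 : 0 ≤ Ca := by linarith
  unfold ttot tN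
  rw [e1]
  constructor
  · refine mul_nonneg (by positivity) ?_
    exact integral_nonneg_of_ae (ae_restrict_of_ae (hnn _ (by positivity)))
  · rw [inv_pow]
    have k1 : ∫ p in Wr c K ((1 + eN N) * s) ×ˢ univ,
        (c.tau p.1 p.2 + Ca * κ * (2 * c.f p.1 / s ^ 2)) ∂(VK V K) ≤
        ∫ p in Wr c K ((1 + eN N) * s) ×ˢ univ,
          Ca * (c.tau p.1 p.2 + κ * (2 * c.f p.1 / s ^ 2)) ∂(VK V K) := by
      refine integral_mono_ae (hint _).integrableOn ((hint _).const_mul _).integrableOn ?_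
      filter_upwards [ae_restrict_of_ae hae] with p hp
      have h3 := htau p hp
      have h5 : c.tau p.1 p.2 ≤ Ca * c.tau p.1 p.2 := le_mul_of_one_le_left h3 hCa
      rw [mul_add, ← mul_assoc]
      linarith
    have k2 : ∫ p in Wr c K ((1 + eN N) * s) ×ˢ univ,
          Ca * (c.tau p.1 p.2 + κ * (2 * c.f p.1 / s ^ 2)) ∂(VK V K) ≤
        Ca * ∫ p in Sr c (Real.exp (cT - 3 / (4 * N))),
          (c.tau p.1 p.2 + κ * (2 * c.f p.1 / s ^ 2)) ∂(VK V K) := by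
      rw [integral_const_mul]
      refine mul_le_mul_of_nonneg_left ?_ hCa0
      refine setIntegral_mono_set (hint _).integrableOn (ae_restrict_of_ae (hnn _ hκ)) ?_
      refine Eventually.of_forall fun p hp => ?_
      have h6 : ‖c.x p.1‖ < (1 + eN N) * s := hp.1.2
      rw [hsdef, sN_mul hN] at h6
      exact h6.le
    calc (s ^ m)⁻¹ * _ ≤ (s ^ m)⁻¹ * _ :=
          mul_le_mul_of_nonneg_left (k1.trans k2) (by positivity)
      _ = _ := by ring

end mono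

/-- **the total variation input of 290's `Gl` at one level** -/
theorem htv_gen (hm : 1 ≤ m) (Q : ℕ) {C₀ : ℝ} (hC : 0 ≤ C₀) {Λ : ℝ} (hΛ : 0 ≤ Λ) {Ca : ℝ}
    (hCa : 1 ≤ Ca) :
    ∃ κ₁ : ℝ, 0 < κ₁ ∧ ∃ Ct : ℝ, 0 ≤ Ct ∧ ∀ κ : ℝ, 0 ≤ κ → κ ≤ κ₁ → ∀ N : ℝ, 1 ≤ N → ∀ cT : ℝ,
      ∀ {k : ℕ} {U W K : Set (Euc k)} {D : Set (Euc m)} {Dd : VarifoldData m k} {c : Ch m k}
        {Lv : ℝ}, IsIntegralVarifoldIn U Dd → Reg c W D → Loc c U W K (VD Dd) Lv → Ok c K D →
        (∀ p ∈ K ×ˢ G m k, 0 ≤ c.tau p.1 p.2) →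
        cT - 3 / (4 * N) ≤ Lv → ball 0 (Real.exp (cT - 3 / (4 * N))) ⊆ D →
        KT c K (sN cT N) (Real.exp (cT - 3 / (4 * N))) C₀ (Ca * κ) →
        (VD Dd).real (Wr c K (Real.exp (cT - 3 / (4 * N))) ×ˢ univ) ≤ Λ * sN cT N ^ m →
        |(VD Dd).real (Wr c K (1 / 4 * sN cT N) ×ˢ univ) -
            Q * volume.real (ball (0 : Euc m) (1 / 4 * sN cT N))| ≤
          1 / 4 * volume.real (ball (0 : Euc m) (1 / 4 * sN cT N)) →
        ∃ (e2 : Measure (Euc m)) (sig : ℝ),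
          TV c (VK (VD Dd) K) Q ((1 + eN N / 2) * sN cT N) Ct (κ / (sN cT N) ^ 2) sig e2 ∧
          0 ≤ sig ∧
          sig ≤ Ct * ((eN N)⁻¹) ^ (2 * m + 2) * (sN cT N) ^ (m + 1) *
            (tN c (VK (VD Dd) K) cT N κ * tN c (VK (VD Dd) K) cT N κ ^ (1 / (m : ℝ))) ∧
          e2.real (closedBall 0 ((1 + eN N / 2) * sN cT N)) ≤
            Ct * ((eN N)⁻¹) ^ (2 * m) * (sN cT N) ^ m * tN c (VK (VD Dd) K) cT N κ := by
  obtain ⟨κ₀, hκ₀, C1, hC1, C2, hC2, h⟩ := tv_gl (m := m) hm Q hC hΛ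
  have hCa0 : 0 < Ca := by linarith
  refine ⟨κ₀ / Ca, by positivity, C1 * Ca + C2 * Ca ^ 2, by positivity, ?_⟩
  intro κ hκ0 hκ1 N hN cT k U W K D Dd c Lv hD hR hL hOk htau hLv hBD hT hM1 hM2
  have he := eN_pos hN
  have he1 : eN N ≤ 1 := (eN_le hN).trans (by norm_num)
  have hs := sN_pos hN (cT := cT)
  have hmul := sN_mul hN (cT := cT)
  obtain ⟨e, hTV, hmass⟩ := h (eN N) he he1 (Ca * κ) (by positivity)
    (by rw [le_div_iff₀ hCa0] at hκ1; linarith) hs hD hR hL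
    (by rw [hmul]; exact Real.exp_le_exp.2 hLv) (by rw [hmul]; exact hBD)
    (by rw [hmul]; exact hT) (by rw [hmul]; exact hM1) hM2
  obtain ⟨t0, t1⟩ := ttot_le hOk hL.toOn htau (cT := cT) hN hκ0 hCa
  set t := ttot c (VD Dd) K (Ca * κ) (sN cT N) (1 + eN N) with ht
  set T := tN c (VK (VD Dd) K) cT N κ with hTdef
  have hT0 : 0 ≤ T := tN_nonneg' hOk hL.toOn htau hN hκ0
  set s := sN cT N with hsdef
  have hm1 : (1 : ℝ) ≤ m := by exact_mod_cast hm
  have hpow : t * t ^ (1 / (m : ℝ)) ≤ Ca ^ 2 * (T * T ^ (1 / (m : ℝ))) := by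
    have h1 : t ^ (1 / (m : ℝ)) ≤ Ca * T ^ (1 / (m : ℝ)) := by
      calc t ^ (1 / (m : ℝ)) ≤ (Ca * T) ^ (1 / (m : ℝ)) :=
            Real.rpow_le_rpow t0 t1 (by positivity)
        _ = Ca ^ (1 / (m : ℝ)) * T ^ (1 / (m : ℝ)) := Real.mul_rpow hCa0.le hT0
        _ ≤ Ca * T ^ (1 / (m : ℝ)) := by
            refine mul_le_mul_of_nonneg_right ?_ (Real.rpow_nonneg hT0 _)
            calc Ca ^ (1 / (m : ℝ)) ≤ Ca ^ (1 : ℝ) :=
                  Real.rpow_le_rpow_of_exponent_le hCa (by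
                    rw [div_le_one (by linarith)]; exact hm1)
              _ = Ca := Real.rpow_one _
    calc t * t ^ (1 / (m : ℝ)) ≤ (Ca * T) * (Ca * T ^ (1 / (m : ℝ))) :=
          mul_le_mul t1 h1 (Real.rpow_nonneg t0 _) (by positivity)
      _ = _ := by ring
  have hti : 0 ≤ t ^ (1 / (m : ℝ)) := Real.rpow_nonneg t0 _
  have hTi : 0 ≤ T ^ (1 / (m : ℝ)) := Real.rpow_nonneg hT0 _
  have hsig : C2 * (s ^ (m + 1) * (t * t ^ (1 / (m : ℝ)))) / eN N ^ (2 * m + 2) ≤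
      C2 * (s ^ (m + 1) * (Ca ^ 2 * (T * T ^ (1 / (m : ℝ))))) / eN N ^ (2 * m + 2) := by
    gcongr
  refine ⟨e, C2 * (s ^ (m + 1) * (Ca ^ 2 * (T * T ^ (1 / (m : ℝ))))) / eN N ^ (2 * m + 2),
    ?_, by positivity, ?_, ?_⟩
  · refine TV_mono hOk hL.toOn htau hCa hC1 ?_ (by positivity) hsig (kq := κ / s ^ 2) ?_
    · have : 0 ≤ C2 * Ca ^ 2 := by positivity
      linarith
    · rw [← mul_div_assoc]
      exact hTV
  · rw [inv_pow]
    calc C2 * (s ^ (m + 1) * (Ca ^ 2 * (T * T ^ (1 / (m : ℝ))))) / eN N ^ (2 * m + 2)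
        = C2 * Ca ^ 2 * (eN N ^ (2 * m + 2))⁻¹ * s ^ (m + 1) * (T * T ^ (1 / (m : ℝ))) := by ring
      _ ≤ _ := by
          gcongr
          have : 0 ≤ C1 * Ca := by positivity
          linarith
  · refine hmass.trans ?_
    have e1 : ∫ p in Wr c K ((1 + eN N) * s) ×ˢ univ,
        (c.tau p.1 p.2 + Ca * κ * (2 * c.f p.1 / s ^ 2)) ∂(VD Dd) = s ^ m * t := by
      rw [ht]
      unfold ttot
      rw [← mul_assoc, mul_inv_cancel₀ (by positivity), one_mul]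
    rw [e1, inv_pow]
    calc C2 / eN N ^ (2 * m) * (s ^ m * t) ≤ C2 / eN N ^ (2 * m) * (s ^ m * (Ca * T)) := by gcongr
      _ = C2 * Ca * (eN N ^ (2 * m))⁻¹ * s ^ m * T := by ring
      _ ≤ _ := by
          gcongr
          have h1 : 0 ≤ C1 * Ca := by positivity
          have h2 : Ca ≤ Ca ^ 2 := by nlinarith
          have h3 : C2 * Ca ≤ C2 * Ca ^ 2 := by gcongr
          linarith

end Crest.Agent.R234.Tv_618
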