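import Crest.Agent.R234.Ng9_290
import Crest.Agent.R234.Tv11_618
import Crest.Agent.R234.Swb12_159
import Crest.Agent.R234.GL7_394

/-!
# Row 234 (helper128): `TotP` (159 #9343)

Total tilt and mass defect of a reference below `e^(cT - 1/K)`, from 618's `htv_gen`, 290's `Cd1`,
`masses`, `tot_le`.
-/

set_option autoImplicit false
set_option linter.unusedVariables false

open MeasureTheory Set Function Filter Topology Metric
open Crest.GeometryTopology.Submanifold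
open Crest.Agent.R234.Vf_884 Crest.Agent.R234.Ar_870
open Crest.Agent.R234.Main_456 (Frame Msys)
open Crest.Agent.R234.Gi_456
open Crest.Agent.R234.GL_394
open Crest.Agent.R234.MG_570 (MG)
open Crest.Agent.R234.Stp_518
open Crest.Agent.R234.Tv_618 (KT Wr ttot)
open Crest.Agent.R234.Ng_290
open scoped ENNReal NNReal InnerProductSpace ContDiff

noncomputable section

namespace Crest.Agent.R234.Tot_128

section sc

variable {cT N : ℝ} (hN : 1 ≤ N)
include hN

theorem sc1 : Real.exp (cT - 3 / (4 * N)) ≤ 2 * sN cT N ∧ sN cT N ≤ Real.exp (cT - 3 / (4 * N)) := by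
  have hs := sN_pos hN (cT := cT)
  have he0 := eN_pos hN
  have he1 := eN_le hN
  rw [← sN_mul hN (cT := cT)]
  constructor <;> nlinarith

theorem sc2 : Real.exp (cT - 3 / (4 * N)) ≤ Real.exp (cT - 1 / (4 * N)) := by
  refine Real.exp_le_exp.2 ?_
  have : 1 / (4 * N) ≤ 3 / (4 * N) := by gcongr; norm_num
  linarith

theorem sc3 {T lb : ℝ} (h : lb - T ≤ cT - 1) :
    Real.exp (-(max T 0 + 1)) * Real.exp lb ≤ sN cT N := by
  refine le_trans ?_ (sN_ge hN)
  rw [← Real.exp_add]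
  have h2 : -(max T 0 + 1) + lb ≤ (cT - 1) + -1 := by
    have := le_max_left T 0
    linarith
  have h3 : Real.exp (-1) ≤ 1 / 2 := by
    rw [Real.exp_neg, inv_le_comm₀ (Real.exp_pos _) (by norm_num)]
    have := Real.exp_one_gt_d9
    linarith
  calc Real.exp (-(max T 0 + 1) + lb) ≤ Real.exp ((cT - 1) + -1) := Real.exp_le_exp.2 h2
    _ = Real.exp (cT - 1) * Real.exp (-1) := Real.exp_add _ _
    _ ≤ Real.exp (cT - 1) * (1 / 2) := by gcongr
    _ = _ := by ring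

theorem sc4 {lb : ℝ} (h : cT ≤ lb) : Real.exp (cT - 3 / (4 * N)) ≤ Real.exp lb := by
  refine Real.exp_le_exp.2 ?_
  have : 0 < 3 / (4 * N) := by positivity
  linarith

end sc

/-- smallness of the heights from `Λ` large -/
theorem sm_num {P L K : ℝ} (m : ℕ) (hK0 : 0 < K) (h : P * 64 ^ (m + 2) * K ^ (m + 4) * Real.exp (-L) ≤ 1) :
    P * K ^ 2 * Real.exp (-L) ≤ ((64 * K)⁻¹) ^ (m + 2) := by
  rw [inv_pow, ← one_div, le_div_iff₀ (by positivity)]
  calc P * K ^ 2 * Real.exp (-L) * (64 * K) ^ (m + 2) =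
      P * 64 ^ (m + 2) * K ^ (m + 4) * Real.exp (-L) := by rw [mul_pow]; ring
    _ ≤ 1 := h

/-- **total tilt and mass defect, one chart** -/
theorem tot_cd (m n Q : ℕ) (hm : 1 ≤ m) {Λ : ℝ} (hΛ : 0 ≤ Λ) : ∃ κ₀ : ℝ, 0 < κ₀ ∧
    ∃ Ct : ℝ, 0 ≤ Ct ∧ ∀ {k : ℕ} {U : Set (Euc k)} {D : VarifoldData m k} {K : Set (Euc k)}
      {π : Euc k →L[ℝ] Euc m} {ρ : Euc k →L[ℝ] Euc n} {x : Euc k} {r : ℝ} {w : Euc m → Euc n}
      {X0 : Euc m} {Lv κ cT N h1 : ℝ} {g g1 g2 : ℝ → ℝ} {B bl : ℝ},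
      Cd1 U (VD D) K π ρ x r w X0 Lv κ cT N →
      IsIntegralVarifoldIn U D → κ ≤ κ₀ → κ ≤ 1 → 0 ≤ h1 → h1 ≤ Real.exp cT / (32 * N) →
      Pf g g1 g2 B → 0 < bl → (∀ a t, 0 ≤ t → t ≤ a → a ≤ 1 → bl * (1 - a) ^ 2 ≤ -g1 t) →
      (∀ᵐ p ∂(VK (VD D) K), ‖(ch π ρ x r w X0).x p.1‖ ≤
        Real.exp (cT - 1 / (4 * N)) → 2 * (ch π ρ x r w X0).f p.1 ≤ h1 ^ 2) →
      (VD D).real (Wr (ch π ρ x r w X0) (K1 π ρ x r w X0 K h1 cT N)
        (Real.exp (cT - 3 / (4 * N))) ×ˢ univ) ≤ Λ * sN cT N ^ m →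
      |(VD D).real (Wr (ch π ρ x r w X0) (K1 π ρ x r w X0 K h1 cT N) (1 / 4 * sN cT N) ×ˢ univ) -
          Q * volume.real (ball (0 : Euc m) (1 / 4 * sN cT N))| ≤
        1 / 4 * volume.real (ball (0 : Euc m) (1 / 4 * sN cT N)) →
      ∃ e2 : Measure (Euc m), IsFiniteMeasure e2 ∧
        (∀ f : Euc m → ℝ, Measurable f → (∃ C, ∀ v, |f v| ≤ C) →
          (∀ v ∉ Metric.closedBall (0 : Euc m) (Real.exp (cT - 1 / N)), f v = 0) →
          |∫ p, f ((ch π ρ x r w X0).x p.1) * (1 - (ch π ρ x r w X0).tau p.1 p.2 / 2)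
              ∂(VK (VD D) K) - Q * ∫ v, f v * (ch π ρ x r w X0).j v| ≤ ∫ v, |f v| ∂e2) ∧
        e2.real (Metric.closedBall 0 (Real.exp (cT - 1 / N))) +
          ∫ p in {p | ‖(ch π ρ x r w X0).x p.1‖ ≤ Real.exp (cT - 1 / N)},
            (ch π ρ x r w X0).tau p.1 p.2 ∂(VK (VD D) K) ≤
          (Ct * 4 ^ (2 * m) + 1) * Ng_290.Pt m (C1s m) bl * N ^ (2 * m + 4) *
            (Real.exp ((m - 2) * cT) * II (ch π ρ x r w X0) (VK (VD D) K) g1 cT) := by
  have hCa := one_le_Ca m n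
  obtain ⟨κ₁, hκ₁, Ct, hCt, H⟩ := Tv_618.htv_gen hm Q (Cn_nonneg m) hΛ hCa
  refine ⟨κ₁, hκ₁, Ct, hCt, ?_⟩
  intro k U D K π ρ x r w X0 Lv κ cT N h1 g g1 g2 B bl h hint hκ hκ1' h10 h11 hp hbl hlow hae
    hm1 hm2
  have hN := h.hN
  have hN0 : 0 < N := by linarith
  have hE := Real.exp_pos cT
  obtain ⟨hl, hsub⟩ := h.loc1 hae
  have hsup := h.sup1 hm h10 h11 hae
  have hR : Reg (ch π ρ x r w X0) (tube π ρ x r w) univ := h.hw.reg h.hf X0
  have hok := h.ok
  have hmu := h.mu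
  set c := ch π ρ x r w X0 with hc
  set Kf := K1 π ρ x r w X0 K h1 cT N with hKf
  have hs := sN_pos hN (cT := cT)
  have he0 := eN_pos hN
  have he1 := eN_le hN
  have hsm := sN_mul hN (cT := cT)
  have hKK : Kf ⊆ K := fun z hz => hz.1
  have hokf : Ok c Kf univ := hR.ok hl.cpt (hl.sub.trans inter_subset_left)
  have h34 : cT - 3 / (4 * N) < cT := by
    have : 0 < 3 / (4 * N) := by positivity
    linarith
  have hse : Real.exp (cT - 3 / (4 * N)) ≤ 2 * sN cT N := by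
    rw [← hsm]; nlinarith
  have hse' : sN cT N ≤ Real.exp (cT - 3 / (4 * N)) := by
    rw [← hsm]; nlinarith
  have hEs : Real.exp cT ≤ 8 * sN cT N := by
    have h3 := sN_ge hN (cT := cT)
    rw [Real.exp_sub] at h3
    have h4 := Real.exp_one_lt_d9
    have h5 : Real.exp cT / Real.exp 1 / 2 * (2 * Real.exp 1) = Real.exp cT := by
      field_simp
    have h6 : Real.exp cT / Real.exp 1 / 2 * (2 * Real.exp 1) ≤ sN cT N * (2 * Real.exp 1) :=
      mul_le_mul_of_nonneg_right h3 (by positivity)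
    nlinarith
  have hkt : KT c Kf (sN cT N) (Real.exp (cT - 3 / (4 * N))) (GLK_128.Cn m) (Ca m n * κ) := by
    refine h.kt hKK (hb := 1 / 2) h34 hs hse' hse le_rfl (by norm_num) (by norm_num) ?_
    intro z hz hz2
    have h3 : ‖c.nu z‖ ^ 2 ≤ h1 ^ 2 := by
      have h4 := hokf.nusq z hz
      rw [h4]; exact hz.2.1
    have h4 : ‖c.nu z‖ ≤ h1 := (pow_le_pow_iff_left₀ (norm_nonneg _) h10 two_ne_zero).1 h3
    refine h4.trans (h11.trans ?_)
    have h5 : Real.exp cT / (32 * N) ≤ Real.exp cT / 32 :=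
      div_le_div_of_nonneg_left hE.le (by norm_num) (by linarith)
    linarith
  have hlv : cT - 3 / (4 * N) ≤ cT - 1 / (4 * N) := by
    have : 1 / (4 * N) ≤ 3 / (4 * N) := by gcongr; norm_num
    linarith
  have htau : ∀ p ∈ Kf ×ˢ G m k, 0 ≤ c.tau p.1 p.2 := fun p hp => h.tau0 p ⟨hKK hp.1, hp.2⟩
  obtain ⟨e2, sig, hT, -, -, he2⟩ := H κ h.κ0 hκ N hN cT hint hR hl hokf htau hlv (subset_univ _)
    hkt hm1 hm2
  have hV := hl.toOn
  have hN0' : (0:ℝ) ≤ N := hN0.le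
  have := hT.fin
  -- radii
  have hr1 : Real.exp (cT - 1 / N) ≤ (1 + eN N / 2) * sN cT N := sN_half_ge hN
  have hr2 : Real.exp (cT - 1 / N) ≤ Real.exp (cT - 1 / (4 * N)) := by
    refine Real.exp_le_exp.2 ?_
    have : 1 / (4 * N) ≤ 1 / N := by
      rw [div_le_div_iff₀ (by positivity) hN0]; linarith
    linarith
  have hr3 : Real.exp (cT - 1 / N) ≤ Real.exp (cT - 3 / (4 * N)) := by
    refine Real.exp_le_exp.2 ?_
    have : 3 / (4 * N) ≤ 1 / N := by
      rw [div_le_div_iff₀ (by positivity) hN0]; linarith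
    linarith
  -- the total
  set I := II c (VK (VD D) K) g1 cT with hI
  have hIf : II c (VK (VD D) Kf) g1 cT ≤ I := II_sub_le hok h.isOn hp hl.cpt hKK cT
  have htot := tot_le hokf hV hp hbl hlow hN hmu hsup (sN_ge hN) h.κ0 hκ1'
  have htN : tN c (VK (VD D) Kf) cT N κ ≤
      Ng_290.Pt m (C1s m) bl * N ^ 4 * (Real.exp (-2 * cT) * I) := by
    refine htot.trans ?_
    have hPt : 0 ≤ Ng_290.Pt m (C1s m) bl := by
      unfold Ng_290.Pt
      have := C1s_nonneg m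
      positivity
    gcongr
  have htN0 : 0 ≤ tN c (VK (VD D) Kf) cT N κ := tN_nonneg hokf hV htau hN0' h.κ0
  refine ⟨e2, hT.fin, ?_, ?_⟩
  · intro f hf hfb hf0
    have h3 := hT.i f hf hfb (fun v hv => hf0 v fun hv2 => hv (by
      rw [mem_closedBall_zero_iff] at hv2 ⊢; exact hv2.trans hr1))
    have h4 : ∫ p, f (c.x p.1) * (1 - c.tau p.1 p.2 / 2) ∂(VK (VD D) Kf) =
        ∫ p, f (c.x p.1) * (1 - c.tau p.1 p.2 / 2) ∂(VK (VD D) K) := by
      refine hsub.int_eq (t := Real.exp (cT - 1 / N)) hr2 fun p hp => ?_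
      rw [hf0 _ (by rw [mem_closedBall_zero_iff]; exact hp), zero_mul]
    rw [h4] at h3
    exact h3
  · have h3 : e2.real (Metric.closedBall 0 (Real.exp (cT - 1 / N))) ≤
        Ct * ((eN N)⁻¹) ^ (2 * m) * (sN cT N) ^ m * tN c (VK (VD D) Kf) cT N κ := by
      refine le_trans ?_ he2
      exact measureReal_mono (closedBall_subset_closedBall hr1)
    have h4 : ∫ p in {p | ‖c.x p.1‖ ≤ Real.exp (cT - 1 / N)}, c.tau p.1 p.2 ∂(VK (VD D) K) ≤
        (sN cT N) ^ m * tN c (VK (VD D) Kf) cT N κ := by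
      have h5 : ∫ p in {p | ‖c.x p.1‖ ≤ Real.exp (cT - 1 / N)}, c.tau p.1 p.2 ∂(VK (VD D) K) =
          ∫ p in Sr c (Real.exp (cT - 1 / N)), c.tau p.1 p.2 ∂(VK (VD D) Kf) := by
        rw [hsub.res hr2]; rfl
      rw [h5]
      unfold tN
      rw [← mul_assoc, ← mul_pow, mul_inv_cancel₀ hs.ne', one_pow, one_mul]
      have hpos : ∀ p ∈ Kf ×ˢ G m k, 0 ≤ c.tau p.1 p.2 + κ * (2 * c.f p.1 / sN cT N ^ 2) :=
        fun p hp => by
          have h6 := htau p hp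
          have h7 := f_nonneg hokf hp.1
          have h8 := h.κ0
          positivity
      have hint1 : Integrable (fun p : Euc k × Vf_884.L k =>
          c.tau p.1 p.2 + κ * (2 * c.f p.1 / sN cT N ^ 2)) (VK (VD D) Kf) := by
        refine (tN_int hokf hV (κ * (sN cT N ^ 2)⁻¹)).congr (Eventually.of_forall fun p => ?_)
        show c.tau p.1 p.2 + κ * (sN cT N ^ 2)⁻¹ * (2 * c.f p.1) = _
        ring
      have hint2 : Integrable (fun p : Euc k × Vf_884.L k => c.tau p.1 p.2) (VK (VD D) Kf) := by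
        refine (tN_int hokf hV 0).congr (Eventually.of_forall fun p => ?_)
        show c.tau p.1 p.2 + 0 * (2 * c.f p.1) = _
        ring
      have hmem := hV.mem
      calc ∫ p in Sr c (Real.exp (cT - 1 / N)), c.tau p.1 p.2 ∂(VK (VD D) Kf)
          ≤ ∫ p in Sr c (Real.exp (cT - 3 / (4 * N))), c.tau p.1 p.2 ∂(VK (VD D) Kf) := by
            refine setIntegral_mono_set hint2.integrableOn ?_ (Eventually.of_forall ?_)
            · have h9 := ae_restrict_of_ae (s := Sr c (Real.exp (cT - 3 / (4 * N)))) hmem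
              filter_upwards [h9] with p hp
              exact htau p hp
            · intro p hp
              exact le_trans (show ‖c.x p.1‖ ≤ Real.exp (cT - 1 / N) from hp) hr3
        _ ≤ _ := by
            refine setIntegral_mono_ae_restrict hint2.integrableOn hint1.integrableOn ?_
            have h9 := ae_restrict_of_ae (s := Sr c (Real.exp (cT - 3 / (4 * N)))) hmem
            filter_upwards [h9] with p hp
            have h7 := f_nonneg hokf hp.1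
            have h8 := h.κ0
            have : 0 ≤ κ * (2 * c.f p.1 / sN cT N ^ 2) := by positivity
            simpa using this
    have h6 : (eN N)⁻¹ = 4 * N := eN_inv
    have hsE : sN cT N ^ m ≤ Real.exp cT ^ m := pow_le_pow_left₀ hs.le (sN_le hN) m
    have hI0 : 0 ≤ I := II_nonneg hok h.isOn hp.pr.anti cT
    have hPt : 0 ≤ Ng_290.Pt m (C1s m) bl := by
      unfold Ng_290.Pt
      have := C1s_nonneg m
      positivity
    have h7 : Real.exp cT ^ m * Real.exp (-2 * cT) = Real.exp ((m - 2) * cT) := by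
      rw [← Real.exp_nat_mul, ← Real.exp_add]; congr 1; ring
    have h8 : (1:ℝ) ≤ N ^ (2 * m) := one_le_pow₀ hN
    calc e2.real (Metric.closedBall 0 (Real.exp (cT - 1 / N))) +
          ∫ p in {p | ‖c.x p.1‖ ≤ Real.exp (cT - 1 / N)}, c.tau p.1 p.2 ∂(VK (VD D) K)
        ≤ Ct * (4 * N) ^ (2 * m) * (sN cT N) ^ m * tN c (VK (VD D) Kf) cT N κ +
          (sN cT N) ^ m * tN c (VK (VD D) Kf) cT N κ := by rw [← h6]; exact add_le_add h3 h4
      _ = (Ct * 4 ^ (2 * m) * N ^ (2 * m) + 1) * ((sN cT N) ^ m * tN c (VK (VD D) Kf) cT N κ) := by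
          rw [mul_pow]; ring
      _ ≤ (Ct * 4 ^ (2 * m) * N ^ (2 * m) + N ^ (2 * m)) * (Real.exp cT ^ m *
          (Ng_290.Pt m (C1s m) bl * N ^ 4 * (Real.exp (-2 * cT) * I))) := by gcongr
      _ = (Ct * 4 ^ (2 * m) + 1) * Ng_290.Pt m (C1s m) bl * N ^ (2 * m + 4) *
          ((Real.exp cT ^ m * Real.exp (-2 * cT)) * I) := by ring
      _ = _ := by rw [h7]

set_option maxHeartbeats 1000000 in
/-- **TOT**, literally 159's `TotP` -/
theorem totP : Swb_159.TotP := by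
  intro m n Q hm3 hn hQ
  refine ⟨2, fun N hN T Λ => ?_⟩
  have hm : 1 ≤ m := by omega
  set T' : ℝ := max T 0 + 1 with hT'
  have hT'0 : 0 ≤ T' := by have := le_max_right T 0; linarith
  obtain ⟨C, hC, HF⟩ := mg_facts m n N hN
  obtain ⟨δ, hδ, hδ1, HM⟩ := masses m Q hm T' hT'0
  have hΛ' : (0:ℝ) ≤ (Q + 1) * (ome m * 3 ^ m) := by have := ome_pos m; positivity
  obtain ⟨κ₁, hκ₁, Ct, hCt, HT⟩ := tot_cd m n Q hm hΛ'
  have hC1s := C1s_nonneg m
  have hCd : 0 < Cd m 3 := Cd_pos (by norm_num)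
  obtain ⟨L0, hL0, HL⟩ := beat2 (P := Cd m 3 * 64 ^ (m + 2)) (A := 1) (θ := 1) (by positivity)
    (by norm_num) one_pos (m + 4) 3 0
  have hC0 : 0 < C := by linarith
  set κ₀ : ℝ := min (min (δ / C) (κ₁ / C)) (min (1 / (64 * C)) (1 / (m * C))) with hκ₀
  have hm0 : (0:ℝ) < m := by exact_mod_cast (by omega : 0 < m)
  refine ⟨(Ct * 4 ^ (2 * m) + 1) * Ng_290.Pt m (C1s m) 3, 2 * m + 4, ?_, κ₀, δ, L0, ?_, hδ, ?_⟩
  · unfold Ng_290.Pt; positivity
  · rw [hκ₀]; positivity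
  intro U D x M cT K hsit hM0 hM1 hMG _ hK hlo hcT hI0 hL hKL
  have k1 : C * M.κ ≤ δ := by
    have : M.κ ≤ δ / C := hM1.trans ((min_le_left _ _).trans (min_le_left _ _))
    rwa [le_div_iff₀ hC0, mul_comm] at this
  have k2 : C * M.κ ≤ κ₁ := by
    have : M.κ ≤ κ₁ / C := hM1.trans ((min_le_left _ _).trans (min_le_right _ _))
    rwa [le_div_iff₀ hC0, mul_comm] at this
  have k3 : C * M.κ ≤ 1 / 64 := k1.trans hδ1
  have k4 : m * (C * M.κ) ≤ 1 := by
    have : M.κ ≤ 1 / (m * C) := hM1.trans ((min_le_right _ _).trans (min_le_right _ _))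
    rw [le_div_iff₀ (by positivity)] at this
    linarith
  have k8 : 8 * (C * M.κ) ≤ 1 := by linarith
  have hS : 0 < M.S := M.S_pos
  have hF : MgF m n C M.κ (Real.exp (cT - M.lb)) M.S M.u M.w := HF _ _ _ hMG hM0 k8 M.S hS
  have hK1 : 1 ≤ K := by linarith
  have hK0 : 0 < K := by linarith
  have hcd := cd1_of_sit hm hsit (by linarith) hC hM0 k8 k4 hF hK1 hcT
  have hfb := fb_of_sit hsit hδ.le (by linarith) k3 hF
  set κ' : ℝ := C * (M.κ * Real.exp (cT - M.lb)) with hκ'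
  have hX1 : Real.exp (cT - M.lb) ≤ 1 := Real.exp_le_one_iff.2 (by linarith)
  have hκ'le : κ' ≤ C * M.κ := by
    rw [hκ']
    calc C * (M.κ * Real.exp (cT - M.lb)) = C * M.κ * Real.exp (cT - M.lb) := by ring
      _ ≤ C * M.κ * 1 := mul_le_mul_of_nonneg_left hX1 (by positivity)
      _ = C * M.κ := mul_one _
  -- smallness
  have hII : II (ch M.π M.ρ x M.S M.w 0) (VK (VD D) (M.reg x)) GI_640.g31 cT =
      M.I x (VD D) cT := rfl
  have hH : Real.exp (-2 * cT) * II (ch M.π M.ρ x M.S M.w 0) (VK (VD D) (M.reg x)) GI_640.g31 cT =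
      Real.exp (-(lam (M.I x (VD D)) cT)) := by
    rw [hII]
    unfold lam
    rw [neg_sub, Real.exp_sub, Real.exp_log hI0, neg_mul, Real.exp_neg]
    field_simp
  set L := lam (M.I x (VD D)) cT with hLd
  have hbt := HL L K (Real.exp (-L)) hL hK0.le (by rw [one_mul]; exact hKL) (Real.exp_pos _).le
    (by rw [one_mul])
  rw [pow_zero, inv_one, Real.rpow_one] at hbt
  have hsm : Cd m 3 * K ^ 2 * (Real.exp (-2 * cT) *
      II (ch M.π M.ρ x M.S M.w 0) (VK (VD D) (M.reg x)) GI_640.g31 cT) ≤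
      ((64 * K)⁻¹) ^ (m + 2) := by
    rw [hH]
    exact sm_num m hK0 hbt
  have hfine := hcd.fine hm pf_cubic (by norm_num : (0:ℝ) < 3)
    (fun a t _ h2 h3 => GI_640.g31_lower' h3 h2) hsm
  set h1 := hf1 m 3 cT K (Real.exp (-2 * cT) *
    II (ch M.π M.ρ x M.S M.w 0) (VK (VD D) (M.reg x)) GI_640.g31 cT) with hh1
  have hHn : 0 ≤ Real.exp (-2 * cT) *
      II (ch M.π M.ρ x M.S M.w 0) (VK (VD D) (M.reg x)) GI_640.g31 cT := by
    rw [hH]; exact (Real.exp_pos _).le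
  have h10 : 0 ≤ h1 := hf1_nonneg (by norm_num) hHn
  have h11 : h1 ≤ Real.exp cT / (32 * K) := hf1_le (by norm_num) hHn hK1 hsm
  obtain ⟨hl, -⟩ := hcd.loc1 hfine
  -- masses
  have hSe : M.S = Real.exp M.lb := rfl
  obtain ⟨hr1, hr0⟩ := sc1 hK1 (cT := cT)
  have h34 := sc2 hK1 (cT := cT)
  have hs1 : Real.exp (-T') * M.S ≤ sN cT K := sc3 hK1 hlo
  have hs2 : sN cT K ≤ M.S := (sN_le hK1).trans (by rw [hSe]; exact Real.exp_le_exp.2 hcT)
  have hr2 : Real.exp (cT - 3 / (4 * K)) ≤ M.S := sc4 hK1 hcT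
  have hs0 := sN_pos hK1 (cT := cT)
  have hr4 : sN cT K / 4 ≤ Real.exp (cT - 1 / (4 * K)) :=
    le_trans (by linarith) (hr0.trans h34)
  obtain ⟨m1, m2⟩ := HM hfb hsit.opn le_rfl k1 le_rfl hl (sN cT K) hs1 hs2
    (Real.exp (cT - 3 / (4 * K))) hr1 hr2 h34 hr4
  obtain ⟨e2, hfin, ha, hb⟩ := HT hcd hsit.int (hκ'le.trans k2)
    ((hκ'le.trans k3).trans (by norm_num)) h10 h11 pf_cubic (by norm_num : (0:ℝ) < 3)
    (fun a t _ h2 h3 => GI_640.g31_lower' h3 h2) hfine m1 m2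
  refine ⟨e2, ⟨measure_ne_top e2 _, ha, ?_, hb⟩⟩
  have hmem := hcd.isOn.mem
  filter_upwards [hmem] with p hp
  exact hcd.tau0 p hp

end Crest.Agent.R234.Tot_128
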