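import Crest.Agent.R234.Sw18_733
import Crest.Agent.R234.Tot1_128
import Crest.Agent.R234.Sp2_685
import Crest.Agent.R234.Stp4_518
import Crest.Agent.R234.Mono2_757
import Crest.Agent.R234.GL7_394

/-! # Row 234, VF-F6 (helper733), part 19: the `V`-level inputs from the leaves (`exists_pk`)

`weak_fine` (290's fine heights), `supP` (685), `totP` (128), `mono_sit` (757), `gr_of` (518). -/

set_option autoImplicit false
set_option linter.unusedSectionVars false
set_option linter.unusedVariables false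

open MeasureTheory Set Metric Filter Topology
open scoped ENNReal NNReal ContDiff InnerProductSpace
open Crest.GeometryTopology.Submanifold
open Crest.Agent.R234.Ell1_3 Crest.Agent.R234.Fm_209 Crest.Agent.R234.Cy_870 Crest.Agent.R234.Vf_884
open Crest.Agent.R234.Main_456 (Frame hgt)
open Crest.Agent.R234.Stp_518 (Mo GrB SupLe lam)
open Crest.Agent.R234.Gi_456 (Lo Loi giB jB muG Gr tube)
open Crest.Agent.R234.MG_570 (MG)

noncomputable section

namespace Crest.Agent.R234.Sw_733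

variable {m n k : ℕ}

/-- **weak fine heights** in the situation `Sit`. -/
theorem weak_fine (m n Q N : ℕ) (hm : 3 ≤ m) (hN : 2 ≤ N) : ∃ κ₀ L₁ : ℝ, 0 < κ₀ ∧
    ∀ (U : Set (Euc (m + n))) (D : VarifoldData m (m + n)) (x : Euc (m + n))
      (M : Mo m n (m + n)) (ε Λ cT K : ℝ), Stp_518.Sit U D Q x M ε Λ → ε ≤ 1 / 16 → 0 ≤ M.κ → M.κ ≤ κ₀ →
      MG N M.κ (Real.exp (cT - M.lb)) M.u → 1 ≤ K → cT ≤ M.lb → 0 < M.I x (VD D) cT →
      L₁ ≤ lam (M.I x (VD D)) cT → K ≤ lam (M.I x (VD D)) cT ^ 3 →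
      ∀ᵐ p ∂(VD D), p.1 ∈ M.reg x → ‖(M.ch x).x p.1‖ ≤ Real.exp (cT - 1 / (4 * K)) →
        ‖hgt M.π M.ρ x M.S M.u p.1‖ ≤ Real.exp cT / (16 * K) := by
  obtain ⟨C, hC, HF⟩ := Ng_290.mg_facts m n N hN
  have hCd : 0 < Ng_290.Cd m 3 := Ng_290.Cd_pos (by norm_num)
  obtain ⟨L0, hL0, HL⟩ := Ng_290.beat2 (P := Ng_290.Cd m 3 * 64 ^ (m + 2)) (A := 1) (θ := 1)
    (by positivity) (by norm_num) one_pos (m + 4) 3 0
  have hC0 : 0 < C := by linarith
  have hm0 : (0:ℝ) < m := by exact_mod_cast (by omega : 0 < m)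
  refine ⟨min (1 / (64 * C)) (1 / (m * C)), L0, by positivity, ?_⟩
  intro U D x M ε Λ cT K hsit hε hM0 hM1 hMG hK hcT hI0 hL hKL
  have k3 : C * M.κ ≤ 1 / 64 := by
    have h := hM1.trans (min_le_left _ _)
    rw [le_div_iff₀ (by positivity)] at h
    linarith
  have k4 : m * (C * M.κ) ≤ 1 := by
    have h := hM1.trans (min_le_right _ _)
    rw [le_div_iff₀ (by positivity)] at h
    linarith
  have k8 : 8 * (C * M.κ) ≤ 1 := by linarith
  have hS : 0 < M.S := M.S_pos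
  have hF : Ng_290.MgF m n C M.κ (Real.exp (cT - M.lb)) M.S M.u M.w :=
    HF _ _ _ hMG hM0 k8 M.S hS
  have hK0 : 0 < K := by linarith
  have hcd := Ng_290.cd1_of_sit (by omega : 1 ≤ m) hsit (by linarith) hC hM0 k8 k4 hF hK hcT
  have hII : GL_394.II (Gi_456.ch M.π M.ρ x M.S M.w 0) (GL_394.VK (VD D) (M.reg x)) GI_640.g31
      cT = M.I x (VD D) cT := rfl
  have hH : Real.exp (-2 * cT) * GL_394.II (Gi_456.ch M.π M.ρ x M.S M.w 0)
      (GL_394.VK (VD D) (M.reg x)) GI_640.g31 cT =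
      Real.exp (-(lam (M.I x (VD D)) cT)) := by
    rw [hII]
    unfold Stp_518.lam
    rw [neg_sub, Real.exp_sub, Real.exp_log hI0, neg_mul, Real.exp_neg]
    field_simp
  set L := lam (M.I x (VD D)) cT with hLd
  have hbt := HL L K (Real.exp (-L)) hL hK0.le (by rw [one_mul]; exact hKL) (Real.exp_pos _).le
    (by rw [one_mul])
  rw [pow_zero, inv_one, Real.rpow_one] at hbt
  have hsm : Ng_290.Cd m 3 * K ^ 2 * (Real.exp (-2 * cT) *
      GL_394.II (Gi_456.ch M.π M.ρ x M.S M.w 0) (GL_394.VK (VD D) (M.reg x)) GI_640.g31 cT) ≤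
      ((64 * K)⁻¹) ^ (m + 2) := by
    rw [hH]
    exact Tot_128.sm_num m hK0 hbt
  have hfine := hcd.fine (by omega : 1 ≤ m) GL_394.pf_cubic (by norm_num : (0:ℝ) < 3)
    (fun a t _ h2 h3 => GI_640.g31_lower' h3 h2) hsm
  have hHn : 0 ≤ Real.exp (-2 * cT) * GL_394.II (Gi_456.ch M.π M.ρ x M.S M.w 0)
      (GL_394.VK (VD D) (M.reg x)) GI_640.g31 cT := by
    rw [hH]; exact (Real.exp_pos _).le
  have h10 := Ng_290.hf1_nonneg (m := m) (bl := 3) (cT := cT) (N := K) (by norm_num) hHn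
  have h11 := Ng_290.hf1_le (m := m) (bl := 3) (cT := cT) (N := K) (by norm_num) hHn hK hsm
  have hfr := hsit.pack.frame
  have hreg : IsClosed (M.reg x) := hcd.ok.cpt.isClosed
  have hmr : MeasurableSet (M.reg x ×ˢ (univ : Set (Vf_884.L (m + n)))) :=
    hreg.measurableSet.prod MeasurableSet.univ
  unfold GL_394.VK at hfine
  rw [ae_restrict_iff' hmr] at hfine
  filter_upwards [hfine] with p hp h1 h2
  have h3 := hp ⟨h1, mem_univ _⟩ h2
  have h4 : p.1 ∈ tube M.π M.ρ x M.S M.w := by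
    have : M.reg x ⊆ tube M.π M.ρ x M.S M.w := hF.gr.Kc_subset hfr 0 (by linarith)
    exact this h1
  have h5 := Sp_685.hgt_sq_le (X0 := 0) hfr hF.gr h4
  have h6 : ‖hgt M.π M.ρ x M.S M.u p.1‖ ^ 2 ≤ (Real.exp cT / (16 * K)) ^ 2 := by
    have e1 : ‖hgt M.π M.ρ x M.S M.u p.1‖ = ‖M.ρ (p.1 - x) - M.w (M.π (p.1 - x))‖ := rfl
    rw [e1]
    refine h5.trans ?_
    have h7 : (Ng_290.hf1 m 3 cT K (Real.exp (-2 * cT) *
        GL_394.II (Gi_456.ch M.π M.ρ x M.S M.w 0) (GL_394.VK (VD D) (M.reg x)) GI_640.g31 cT)) ^ 2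
        ≤ (Real.exp cT / (32 * K)) ^ 2 := pow_le_pow_left₀ h10 h11 2
    have h8 : (Real.exp cT / (16 * K)) ^ 2 = 4 * (Real.exp cT / (32 * K)) ^ 2 := by
      have : Real.exp cT / (16 * K) = 2 * (Real.exp cT / (32 * K)) := by
        field_simp; ring
      rw [this]; ring
    rw [h8]
    have h9 : 0 ≤ (Real.exp cT / (32 * K)) ^ 2 := sq_nonneg _
    have h12 := h3.trans h7
    linarith
  exact (pow_le_pow_iff_left₀ (norm_nonneg _) (by positivity) two_ne_zero).1 h6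

/-- the fine region lies in the cylinder. -/
theorem fine_of_shp {M : Mo m n k} {x : Euc k} {l K h t : ℝ} (hg : GrB M (1 / 16))
    (hf : Frame M.π M.ρ) (hK : 32 ≤ K) (hl : l ≤ M.lb) (ht : t ≤ R0 M l / (512 * K)) {z : Euc k}
    (hz : z ∈ M.reg x) (hx : ‖(M.ch x).x z‖ ≤ Real.exp l * (1 + 1 / (4 * K)))
    (h1 : ‖hgt M.π M.ρ x M.S M.u z‖ ≤ M.S * t)
    (h2 : ‖M.π (z - x)‖ ≤ Real.exp l * (1 + 1 / (2 * K)) → ‖M.ρ (z - x)‖ ≤ M.S →
      ‖hgt M.π M.ρ x M.S M.u z‖ ≤ M.S * h) : ‖hgt M.π M.ρ x M.S M.u z‖ ≤ M.S * h := by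
  have hS := M.S_pos
  have hK0 : 0 < K := by linarith
  have hR := R0_pos M l
  have hR1 : R0 M l ≤ 1 := Real.exp_le_one_iff.2 (by linarith)
  have hSR := S_R0 M l
  have e512 : R0 M l / (512 * K) = R0 M l * (1 / K) / 512 := by field_simp
  have e2 : 1 / (2 * K) = 1 / K / 2 := by field_simp
  have e4 : 1 / (4 * K) = 1 / K / 4 := by field_simp
  have k1 : 1 / K ≤ 1 / 32 := one_div_le_one_div_of_le (by norm_num) hK
  have k0 : 0 < 1 / K := by positivity
  rw [e512] at ht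
  set δ := 1 / K with hδ
  have hzt : z ∈ tube M.π M.ρ x M.S M.w := by
    have : M.reg x ⊆ tube M.π M.ρ x M.S M.w := hg.gr.Kc_subset hf 0 (by linarith)
    exact this hz
  have ht1 : t ≤ 1 / 512 := by nlinarith
  obtain ⟨z1, z2⟩ := Pk.tube_bd hg.gr hzt h1
  have z3 : M.S * ‖St.X M x z‖ ≤ ‖(M.ch x).x z‖ := by
    have h3 := Gr.foot_le_x (π := M.π) (ρ := M.ρ) (x := x) (S := M.S) (w := M.w) z
    rw [← St.S_smul_X, norm_smul, Real.norm_of_nonneg hS.le] at h3
    exact h3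
  refine h2 ?_ ?_
  · rw [← Pk.norm_a, ← hSR, e2]
    rw [← hSR, e4] at hx
    have z4 : ‖St.a M x z‖ ≤ ‖St.X M x z‖ + t / 4 := by
      have : St.a M x z = St.X M x z - (St.X M x z - St.a M x z) := by abel
      rw [this]
      exact (norm_sub_le _ _).trans (by linarith)
    have z5 : M.S * ‖St.a M x z‖ ≤ M.S * (‖St.X M x z‖ + t / 4) :=
      mul_le_mul_of_nonneg_left z4 hS.le
    have z6 : M.S * (t / 4) ≤ M.S * (R0 M l * δ / 2048) :=
      mul_le_mul_of_nonneg_left (by linarith) hS.le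
    have z7 : M.S * R0 M l * (1 + δ / 4) + M.S * (R0 M l * δ / 2048) ≤
        M.S * R0 M l * (1 + δ / 2) := by
      have : 0 ≤ M.S * R0 M l * δ := by positivity
      nlinarith
    linarith
  · have e1 : M.ρ (z - x) = (M.ρ (z - x) - M.w (M.π (z - x))) + M.w (M.π (z - x)) := by abel
    have h3 : ‖M.ρ (z - x) - M.w (M.π (z - x))‖ ≤ M.S * t := h1
    have h4 := hg.w0 (M.π (z - x))
    rw [e1]
    refine (norm_add_le _ _).trans ?_
    have h5 : M.S * t ≤ M.S * (1 / 512) := mul_le_mul_of_nonneg_left ht1 hS.le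
    linarith

/-- the polynomial size of the total variation. -/
theorem tot_size {S lb Ct G I Ic L K l cT : ℝ} {pt m : ℕ} (hm : 2 ≤ m) (hCt : 0 ≤ Ct)
    (hS : S = Real.exp lb) (hI : I = Real.exp (2 * l - L)) (hIc : Ic ≤ Real.exp G * I)
    (hIc0 : 0 ≤ Ic) (hl : l ≤ cT) (hcT : cT ≤ lb) (hK0 : 0 ≤ K) (hK : K ≤ 4 * L ^ 2) :
    Ct * (2 * K) ^ pt * (Real.exp ((m - 2) * cT) * Ic) ≤
      S ^ m * (Ct * 8 ^ pt * Real.exp G * L ^ (2 * pt) * Real.exp (-L)) := by
  have h1 : (2 * K) ^ pt ≤ 8 ^ pt * L ^ (2 * pt) := by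
    calc (2 * K) ^ pt ≤ (8 * L ^ 2) ^ pt := pow_le_pow_left₀ (by positivity) (by linarith) _
      _ = 8 ^ pt * L ^ (2 * pt) := by rw [mul_pow, ← pow_mul]
  have h2 : Real.exp ((m - 2) * cT) * Ic ≤ S ^ m * (Real.exp G * Real.exp (-L)) := by
    have h3 : Real.exp ((m - 2) * cT) * Real.exp (2 * l) ≤ S ^ m := by
      rw [hS, ← Real.exp_nat_mul, ← Real.exp_add]
      refine Real.exp_le_exp.2 ?_
      have hm2 : (2:ℝ) ≤ m := by exact_mod_cast hm
      nlinarith
    calc Real.exp ((m - 2) * cT) * Ic ≤ Real.exp ((m - 2) * cT) * (Real.exp G * I) :=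
          mul_le_mul_of_nonneg_left hIc (Real.exp_pos _).le
      _ = (Real.exp ((m - 2) * cT) * Real.exp (2 * l)) * (Real.exp G * Real.exp (-L)) := by
          have e : Real.exp (2 * l - L) = Real.exp (2 * l) * Real.exp (-L) := by
            rw [← Real.exp_add]; congr 1
          rw [hI, e]; ring
      _ ≤ S ^ m * (Real.exp G * Real.exp (-L)) :=
          mul_le_mul_of_nonneg_right h3 (by positivity)
  have h4 : 0 ≤ Real.exp ((m - 2) * cT) * Ic := by positivity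
  have hL2 : 0 ≤ L ^ (2 * pt) := by rw [pow_mul]; positivity
  calc Ct * (2 * K) ^ pt * (Real.exp ((m - 2) * cT) * Ic)
      ≤ Ct * (8 ^ pt * L ^ (2 * pt)) * (S ^ m * (Real.exp G * Real.exp (-L))) := by
        refine mul_le_mul (mul_le_mul_of_nonneg_left h1 hCt) h2 h4 (by positivity)
    _ = _ := by ring

/-- **the `V`-level inputs of the switch from the leaves.** -/
theorem exists_pk (m n Q : ℕ) (hm : 3 ≤ m) (hn : 1 ≤ n) (hQ : 1 ≤ Q) : ∃ N₀ : ℕ, 2 ≤ N₀ ∧
    ∀ N : ℕ, N₀ ≤ N → ∀ T Λ G : ℝ, ∃ (C : ℝ) (p : ℕ) (κ₀ ε L₁ : ℝ), 1 ≤ C ∧ 0 < κ₀ ∧ 0 < ε ∧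
    ∀ (U : Set (Euc (m + n))) (D : VarifoldData m (m + n)) (x : Euc (m + n))
      (M : Mo m n (m + n)) (l K L : ℝ), L = lam (M.I x (VD D)) l →
      Stp_518.Sit U D Q x M ε Λ → 0 ≤ M.κ → M.κ ≤ κ₀ →
      MG N M.κ (Real.exp (l + 1 / K - M.lb)) M.u → 32 ≤ K → K ≤ 4 * L ^ 2 →
      M.lb - T ≤ l → l + 1 / K ≤ M.lb → 0 < M.I x (VD D) l → L₁ ≤ L →
      Real.log (M.I x (VD D) (l + 3 / (4 * K))) ≤ Real.log (M.I x (VD D) l) + G →
      ‖fderiv ℝ M.u 0‖ ≤ κ₀ / K →
      SupLe M x (VD D) (Real.exp (l + 1 / (2 * K) - M.lb)) (Real.exp (-(L / 8))) →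
      Pk U D Q x M (1 / 16) Λ l K (1 / 16) (C * L ^ p * Real.exp (-(L / 2)))
        (C * L ^ p * Real.exp (-(L / 2))) (C * L ^ p * Real.exp (-L))
        (C * L ^ p * Real.exp (-L)) := by
  obtain ⟨N1, Hsup⟩ := Sp_685.supP m n Q hm hn hQ
  obtain ⟨N2, Htot⟩ := Tot_128.totP m n Q hm hn hQ
  refine ⟨max 2 (max N1 N2), le_max_left _ _, fun N hN T Λ G => ?_⟩
  have hN0 : 2 ≤ N := (le_max_left _ _).trans hN
  have hN1 : N1 ≤ N := ((le_max_left _ _).trans (le_max_right _ _)).trans hN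
  have hN2 : N2 ≤ N := ((le_max_right _ _).trans (le_max_right _ _)).trans hN
  obtain ⟨Cs, κs, εs, hCs, hκs, hεs, Hsup⟩ := Hsup N hN1 (T + 1) Λ
  obtain ⟨Ct, pt, hCt, κt, εt, Lt, hκt, hεt, Htot⟩ := Htot N hN2 (T + 1) Λ
  obtain ⟨κf, Lf, hκf, Hfine⟩ := weak_fine m n Q N hm hN0
  obtain ⟨κg, Cg, hκg, hCg, -, Hgr⟩ := Stp_518.gr_of m n N hN0
  obtain ⟨κm, hκm, Hmono⟩ := Mono_757.mono_sit m n N hN0
  set Dd := √(Cs * Real.exp G) * 4 ^ (m + 2) with hDd
  have hDd0 : 0 ≤ Dd := by positivity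
  set Cb := Ct * 8 ^ pt * Real.exp G with hCb
  have hCb0 : 0 ≤ Cb := by positivity
  set C := 1 + Dd + Cb with hC
  have hC1 : 1 ≤ C := by rw [hC]; linarith
  set p := m + 2 + 2 * pt with hp
  -- thresholds
  have hev : ∀ᶠ L : ℝ in atTop, 16 * L ^ 2 * Real.exp (-(1 / 8 * L)) ≤ κs ∧
      (C * 2048) * L ^ (p + 2) * Real.exp (-(1 / 2 * L)) ≤ Real.exp (-T) ∧
      1 ≤ L ∧ max Lt Lf + |G| ≤ L ∧ 2 * |G| ≤ L ∧ 2048 ≤ L := by
    filter_upwards [Stp_518.ev_exp 16 (1 / 8) 2 (by norm_num) hκs,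
      Stp_518.ev_exp (C * 2048) (1 / 2) (p + 2) (by norm_num) (Real.exp_pos (-T)),
      eventually_ge_atTop 1, eventually_ge_atTop (max Lt Lf + |G|), eventually_ge_atTop (2 * |G|),
      eventually_ge_atTop 2048] with L h1 h2 h3 h4 h5 h6
    exact ⟨h1, h2, h3, h4, h5, h6⟩
  obtain ⟨L₁, hL₁⟩ := eventually_atTop.1 hev
  refine ⟨C, p, min (min (κs / 4) (κt / 2)) (min (min κf κg) (min (1 / (16 * Cg)) (min κm (1 / 64)))),
    min (1 / 16) (min εs εt), L₁, hC1, by positivity, by positivity, ?_⟩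
  intro U D x M l K L hLdef hs hκ0 hκ hMG hK hKL hT hlb hI hL hgr hdu hsup
  obtain ⟨t1, t2, t3, t4, t5, t6⟩ := hL₁ L hL
  set κ₀ := min (min (κs / 4) (κt / 2)) (min (min κf κg) (min (1 / (16 * Cg)) (min κm (1 / 64)))) with hκ₀
  have k1' : κ₀ ≤ κs / 4 := (min_le_left _ _).trans (min_le_left _ _)
  have k1 : κ₀ ≤ κs := by linarith
  have k2 : κ₀ ≤ κt / 2 := (min_le_left _ _).trans (min_le_right _ _)
  have k3 : κ₀ ≤ κf := (min_le_right _ _).trans ((min_le_left _ _).trans (min_le_left _ _))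
  have k4 : κ₀ ≤ κg := (min_le_right _ _).trans ((min_le_left _ _).trans (min_le_right _ _))
  have k5 : κ₀ ≤ 1 / (16 * Cg) :=
    (min_le_right _ _).trans ((min_le_right _ _).trans (min_le_left _ _))
  have k6 : κ₀ ≤ κm := (min_le_right _ _).trans ((min_le_right _ _).trans
    ((min_le_right _ _).trans (min_le_left _ _)))
  have k7 : κ₀ ≤ 1 / 64 := (min_le_right _ _).trans ((min_le_right _ _).trans
    ((min_le_right _ _).trans (min_le_right _ _)))
  have hε1 : min (1 / 16) (min εs εt) ≤ 1 / 16 := min_le_left _ _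
  have hε2 : min (1 / 16) (min εs εt) ≤ εs := (min_le_right _ _).trans (min_le_left _ _)
  have hε3 : min (1 / 16) (min εs εt) ≤ εt := (min_le_right _ _).trans (min_le_right _ _)
  have hK0 : 0 < K := by linarith
  have hS := M.S_pos
  have hL0 : 0 < L := by linarith
  have eh8 : Real.exp (-(1 / 8 * L)) = Real.exp (-(L / 8)) := by congr 1; ring
  have eh2 : Real.exp (-(1 / 2 * L)) = Real.exp (-(L / 2)) := by congr 1; ring
  rw [eh8] at t1
  rw [eh2] at t2
  set E := Real.exp (-(L / 2)) with hE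
  have hE0 : 0 < E := Real.exp_pos _
  have hIe := Stp_518.le_exp_of_log hI hgr
  -- arithmetic of levels
  have q1 : 0 < 1 / K := by positivity
  have q2 : 1 / (2 * K) = 1 / K / 2 := by field_simp
  have q3 : 3 / (4 * K) = 3 * (1 / K) / 4 := by field_simp
  have q4 : 1 / (4 * K) = 1 / K / 4 := by field_simp
  have q8 : 1 / (8 * K) = 1 / K / 8 := by field_simp
  have q256 : 1 / (4 * (64 * K)) = 1 / K / 256 := by field_simp; ring
  have q32 : 1 / K ≤ 1 / 32 := one_div_le_one_div_of_le (by norm_num) hK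
  set cT := l + 3 / (4 * K) with hcTd
  have hcT : cT ≤ M.lb := by rw [hcTd, q3]; linarith
  have hMGc : MG N M.κ (Real.exp (cT - M.lb)) M.u :=
    hMG.mono le_rfl (Real.exp_le_exp.2 (by rw [hcTd, q3]; linarith))
  have hgrB : GrB M (1 / 16) := by
    refine GrB.mono (Hgr (m + n) M _ hκ0 (hκ.trans k4) hMG) ?_
    have h1 := hκ.trans k5
    rw [le_div_iff₀ (by positivity)] at h1
    linarith
  -- the mass above
  obtain ⟨hon, hI0, hmono⟩ := Hmono (m + n) U D Q x M _ Λ _ hs (hκ.trans k6) hMG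
  obtain ⟨hIc, -⟩ := (hmono l cT (by rw [hcTd, q3]; linarith)).2 hI
  have hLc : L - G ≤ lam (M.I x (VD D)) cT := by
    rw [hLdef]
    unfold Stp_518.lam
    have : l ≤ cT := by rw [hcTd, q3]; linarith
    linarith
  have hG1 := le_abs_self G
  have hLG : L / 2 ≤ L - G := by linarith
  have hcube : 256 * L ^ 2 ≤ lam (M.I x (VD D)) cT ^ 3 := by
    have h1 : (L / 2) ^ 3 ≤ lam (M.I x (VD D)) cT ^ 3 :=
      pow_le_pow_left₀ (by positivity) (hLG.trans hLc) 3
    refine le_trans ?_ h1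
    have : 2048 * L ^ 2 ≤ L * L ^ 2 := mul_le_mul_of_nonneg_right t6 (by positivity)
    nlinarith
  have hLt : Lt ≤ lam (M.I x (VD D)) cT := by
    have := le_max_left Lt Lf
    linarith
  have hLf : Lf ≤ lam (M.I x (VD D)) cT := by
    have := le_max_right Lt Lf
    linarith
  -- sharp sup
  have hLd : lam (M.I x (VD D)) l = L := hLdef.symm
  have hsup1 := Hsup U D x M cT (4 * K) (hs.mono hε2) hκ0 (hκ.trans k1) hMGc (by linarith)
    (by rw [hcTd, q3]; linarith) hcT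
    (hdu.trans (by
      rw [div_le_div_iff₀ (by positivity) (by positivity)]
      have := mul_le_mul_of_nonneg_right k1' (by positivity : 0 ≤ 4 * K)
      linarith))
    (hsup.mono (Real.exp_le_exp.2 (by rw [hcTd, q3, q4, q2]; linarith)) (by
      rw [le_div_iff₀ (by positivity)]
      have : Real.exp (-(L / 8)) * (4 * K) ≤ Real.exp (-(L / 8)) * (16 * L ^ 2) :=
        mul_le_mul_of_nonneg_left (by linarith) (Real.exp_pos _).le
      linarith))
  set I := M.I x (VD D) l with hIdef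
  set h := C * L ^ p * E with hh
  have hh0 : 0 ≤ h := by positivity
  have hsqI : √I = Real.exp (l - L / 2) := by
    have h0 : √I = Real.exp (l - lam (M.I x (VD D)) l / 2) :=
      Stp_518.sqrt_I (I := M.I x (VD D)) hI
    rw [h0, ← hLdef]
  have h1le : Real.exp l * (1 + 1 / (2 * K)) ≤ Real.exp (cT - 1 / (4 * K)) := by
    have e1 : cT - 1 / (4 * K) = l + 1 / (2 * K) := by rw [hcTd, q3, q4, q2]; ring
    rw [e1, Real.exp_add]
    refine mul_le_mul_of_nonneg_left ?_ (Real.exp_pos _).le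
    linarith [Real.add_one_le_exp (1 / (2 * K))]
  have h2le : Real.exp l * (1 + 1 / (4 * K)) ≤ Real.exp (cT - 1 / (2 * K)) := by
    have e1 : cT - 1 / (2 * K) = l + 1 / (4 * K) := by rw [hcTd, q3, q4, q2]; ring
    rw [e1, Real.exp_add]
    refine mul_le_mul_of_nonneg_left ?_ (Real.exp_pos _).le
    linarith [Real.add_one_le_exp (1 / (4 * K))]
  have h3le : Real.exp (cT - 1 / (4 * K)) ≤ Real.exp (cT - 1 / (4 * (64 * K))) :=
    Real.exp_le_exp.2 (by rw [q4, q256]; linarith)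
  have h4le : Real.exp l * (1 + 1 / (4 * K)) ≤ Real.exp (cT - 1 / (4 * (64 * K))) := by
    refine le_trans ?_ (h1le.trans h3le)
    refine mul_le_mul_of_nonneg_left ?_ (Real.exp_pos _).le
    rw [q4, q2]; linarith
  have h5le : Real.exp l * (1 + 1 / (8 * K)) ≤ Real.exp (cT - 1 / (2 * K)) := by
    refine le_trans ?_ h2le
    refine mul_le_mul_of_nonneg_left ?_ (Real.exp_pos _).le
    rw [q8, q4]; linarith
  have hshp : ∀ᵐ p ∂(VD D), ‖M.π (p.1 - x)‖ ≤ Real.exp l * (1 + 1 / (2 * K)) →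
      ‖M.ρ (p.1 - x)‖ ≤ M.S → ‖hgt M.π M.ρ x M.S M.u p.1‖ ≤ M.S * h := by
    filter_upwards [hsup1] with z hz h1 h2
    have h3 := hz (h1.trans h1le) h2
    have h4 : ‖hgt M.π M.ρ x M.S M.u z.1‖ ≤ √(Cs * Real.exp G * (4 * K) ^ (m + 2) * I) := by
      refine Real.le_sqrt_of_sq_le (h3.trans ?_)
      have h5 : Cs * (4 * K) ^ (m + 2) * M.I x (VD D) cT ≤
          Cs * (4 * K) ^ (m + 2) * (Real.exp G * I) := mul_le_mul_of_nonneg_left hIe (by positivity)
      refine h5.trans (le_of_eq ?_)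
      ring
    have h6 : √(Cs * Real.exp G * (4 * K) ^ (m + 2) * I) ≤ Dd * L ^ (m + 2) * √I :=
      Stp_518.sqrt_le_of m (by positivity) hI.le hL0.le hK0.le hKL
    have h7 : √I ≤ M.S * E := by
      rw [hsqI, hE]
      unfold Mo.S
      rw [← Real.exp_add]
      exact Real.exp_le_exp.2 (by linarith)
    refine h4.trans (h6.trans ?_)
    calc Dd * L ^ (m + 2) * √I ≤ Dd * L ^ (m + 2) * (M.S * E) :=
          mul_le_mul_of_nonneg_left h7 (by positivity)
      _ ≤ C * L ^ p * (M.S * E) := by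
          refine mul_le_mul_of_nonneg_right ?_ (by positivity)
          exact mul_le_mul (by rw [hC]; linarith) (pow_le_pow_right₀ t3 (by omega))
            (by positivity) (by positivity)
      _ = M.S * h := by rw [hh]; ring
  have hR0 : R0 M l / (512 * K) = Real.exp (l - M.lb) / (512 * K) := rfl
  have hhR : h ≤ R0 M l / (512 * K) := by
    rw [le_div_iff₀ (by positivity)]
    have h1 : Real.exp (-T) ≤ R0 M l := Real.exp_le_exp.2 (by linarith)
    refine le_trans ?_ h1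
    refine le_trans ?_ t2
    calc h * (512 * K) ≤ h * (512 * (4 * L ^ 2)) :=
          mul_le_mul_of_nonneg_left (by linarith) hh0
      _ = C * 2048 * L ^ (p + 2) * E := by rw [hh, pow_add L p 2]; ring
  -- fine heights
  have hK64 : 64 * K ≤ lam (M.I x (VD D)) cT ^ 3 := by
    refine le_trans ?_ hcube
    linarith
  have hfine1 := Hfine U D x M _ Λ cT (64 * K) (hs.mono hε1) le_rfl hκ0 (hκ.trans k3) hMGc
    (by linarith) hcT hIc hLf hK64
  have hecT : Real.exp cT ≤ 2 * Real.exp l := by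
    have h1 : Real.exp cT = Real.exp l * Real.exp (3 / (4 * K)) := by
      rw [hcTd, Real.exp_add]
    have h2 : Real.exp (3 / (4 * K)) ≤ 2 := by
      have h3 : 3 / (4 * K) ≤ 3 / 128 := by rw [q3]; linarith
      have h4 := Real.exp_bound_div_one_sub_of_interval (x := 3 / (4 * K)) (by positivity)
        (by linarith)
      refine h4.trans ?_
      rw [div_le_iff₀ (by linarith)]
      linarith
    rw [h1, mul_comm (2:ℝ)]
    exact mul_le_mul_of_nonneg_left h2 (Real.exp_pos l).le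
  have hSR := S_R0 M l
  have hfine : ∀ᵐ p ∂(VD D), p.1 ∈ M.reg x → ‖(M.ch x).x p.1‖ ≤ Real.exp l * (1 + 1 / (4 * K)) →
      ‖hgt M.π M.ρ x M.S M.u p.1‖ ≤ M.S * h := by
    filter_upwards [hfine1, hshp] with z hz1 hz2 h1 h2
    refine fine_of_shp hgrB hs.pack.frame hK (by linarith) le_rfl h1 h2 ?_ hz2
    refine (hz1 h1 (h2.trans h4le)).trans ?_
    have e1 : M.S * (R0 M l / (512 * K)) = Real.exp l / (512 * K) := by
      rw [← hSR]; ring
    rw [e1, div_le_div_iff₀ (by positivity) (by positivity)]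
    have h3 : Real.exp cT * (512 * K) ≤ 2 * Real.exp l * (512 * K) :=
      mul_le_mul_of_nonneg_right hecT (by positivity)
    refine h3.trans (le_of_eq ?_)
    ring
  -- total variation
  obtain ⟨e2, htot⟩ := Htot U D x M cT (2 * K) (hs.mono hε3) hκ0 (hκ.trans (k2.trans (by linarith)))
    hMGc (hdu.trans (by
      rw [div_le_div_iff₀ (by positivity) (by positivity)]
      have := mul_le_mul_of_nonneg_right k2 (by positivity : 0 ≤ 2 * K)
      linarith)) (by linarith) (by rw [hcTd, q3]; linarith) hcT hIc hLt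
    (le_trans (by linarith) hcube)
  have hIexp : I = Real.exp (2 * l - L) := by
    have h1 : I = √I * √I := (Real.mul_self_sqrt hI.le).symm
    rw [h1, hsqI, ← Real.exp_add]
    congr 1; ring
  have hb : Ct * (2 * K) ^ pt * (Real.exp ((m - 2) * cT) * M.I x (VD D) cT) ≤
      M.S ^ m * (C * L ^ p * Real.exp (-L)) := by
    refine (tot_size (m := m) (by omega) hCt (rfl : M.S = Real.exp M.lb) hIexp hIe hIc.le
      (by rw [hcTd, q3]; linarith) hcT hK0.le hKL).trans ?_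
    refine mul_le_mul_of_nonneg_left (mul_le_mul_of_nonneg_right ?_ (Real.exp_pos _).le)
      (by positivity)
    exact mul_le_mul (by rw [hC, ← hCb]; linarith) (pow_le_pow_right₀ t3 (by omega))
      (by positivity) (by positivity)
  have hgr' := hgrB.gr
  have hfr := hs.pack.frame
  have hok : GL_394.Ok (M.ch x) (M.reg x) univ := Stp_518.Mo.ok hgrB.gr hfr
  have iτ : Integrable (fun p : Euc (m + n) × Vf_884.L (m + n) => (M.ch x).tau p.1 p.2)
      (M.VM x (VD D)) := hon.integrable hok.cpt hok.ctau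
  refine ⟨hs.mono hε1, hgrB, le_rfl, le_rfl, hK, by linarith, ?_, hh0, hhR, hhR, hfine, hshp,
    ?_, ?_⟩
  · refine hdu.trans ?_
    rw [div_le_div_iff₀ (by positivity) (by positivity)]
    have := mul_le_mul_of_nonneg_right k7 (by positivity : 0 ≤ 64 * K)
    linarith
  · refine le_trans ?_ (htot.le.trans hb)
    have h1 : ∫ p in {p : Euc (m + n) × Vf_884.L (m + n) |
        ‖(M.ch x).x p.1‖ ≤ Real.exp l * (1 + 1 / (4 * K))}, (M.ch x).tau p.1 p.2 ∂(M.VM x (VD D)) ≤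
        ∫ p in {p : Euc (m + n) × Vf_884.L (m + n) |
        ‖(M.ch x).x p.1‖ ≤ Real.exp (cT - 1 / (2 * K))}, (M.ch x).tau p.1 p.2 ∂(M.VM x (VD D)) := by
      refine setIntegral_mono_set iτ.integrableOn (ae_restrict_of_ae htot.pos) ?_
      exact Eventually.of_forall fun p hp => le_trans hp h2le
    have h2 : 0 ≤ e2.real (Metric.closedBall 0 (Real.exp (cT - 1 / (2 * K)))) :=
      measureReal_nonneg
    linarith
  · intro F s hF hsF h0
    have hs0 : 0 ≤ s := (abs_nonneg _).trans (hsF 0)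
    refine (tv_of_tot htot hok hon hF hsF ?_).trans (mul_le_mul_of_nonneg_left hb hs0)
    intro v hv
    refine h0 v ?_
    rw [mem_closedBall_zero_iff, not_le] at hv
    exact lt_of_le_of_lt h5le hv

end Crest.Agent.R234.Sw_733
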