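import Crest.Agent.R234.Swc1_395
import Crest.Agent.R234.Mx17_397

/-!
# Row 234 (helper395), SWITCH: two references with small means are close (2)

* `exists_Pn` : 733's `Pn` (closeness in `C²` by `L^(-q) exp (-L/2)`) from the means.
* `sqrt_I` : `√I = exp (l - Λ/2)`.
-/

set_option autoImplicit false
set_option linter.unusedSectionVars false
set_option linter.unusedVariables false

open MeasureTheory Set Metric Filter Topology
open scoped ENNReal NNReal ContDiff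
open Crest.GeometryTopology.Submanifold
open Crest.Agent.R234.Ell1_3 Crest.Agent.R234.Vf_884
open Crest.Agent.R234.Main_456 (Frame hgt)
open Crest.Agent.R234.Stp_518 (Mo GrB)
open Crest.Agent.R234.Sw_733
open Crest.Agent.R234.MG_570 (MG bar)

noncomputable section

namespace Crest.Agent.R234.Swc_395

variable {m n k : ℕ}

theorem sqrt_I {I : ℝ → ℝ} {l : ℝ} (h : 0 < I l) :
    Real.sqrt (I l) = Real.exp (l - Stp_518.lam I l / 2) := by
  have e : I l = Real.exp (l - Stp_518.lam I l / 2) ^ 2 := by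
    rw [← Real.exp_nat_mul]
    unfold Stp_518.lam
    push_cast
    rw [show 2 * (l - (2 * l - Real.log (I l)) / 2) = Real.log (I l) by ring, Real.exp_log h]
  nth_rewrite 1 [e]
  exact Real.sqrt_sq (Real.exp_pos _).le

theorem rt_two {y : ℝ} (hy : 0 ≤ y) : rt (y ^ 4) 2 = y := by
  show Real.sqrt (Real.sqrt (y ^ 4)) = y
  rw [show y ^ 4 = (y ^ 2) ^ 2 by ring, Real.sqrt_sq (by positivity), Real.sqrt_sq hy]

/-- values and two derivatives of a difference. -/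
theorem d012 {u v : Euc m → Euc n} (hu : ContDiff ℝ 4 u) (hv : ContDiff ℝ 4 v) (X : Euc m) {s : ℝ}
    (h : ∀ j ≤ 2, ‖iteratedFDeriv ℝ j (fun y => u y - v y) X‖ ≤ s) :
    ‖u X - v X‖ ≤ s ∧ ‖fderiv ℝ u X - fderiv ℝ v X‖ ≤ s ∧
      ‖fderiv ℝ (fderiv ℝ u) X - fderiv ℝ (fderiv ℝ v) X‖ ≤ s := by
  have du : Differentiable ℝ u := hu.differentiable (by norm_num)
  have dv : Differentiable ℝ v := hv.differentiable (by norm_num)
  have du1 : Differentiable ℝ (fderiv ℝ u) :=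
    (hu.fderiv_right (m := 3) (by norm_num)).differentiable (by norm_num)
  have dv1 : Differentiable ℝ (fderiv ℝ v) :=
    (hv.fderiv_right (m := 3) (by norm_num)).differentiable (by norm_num)
  have e1 : fderiv ℝ (fun y => u y - v y) = fun y => fderiv ℝ u y - fderiv ℝ v y := by
    funext y
    exact fderiv_fun_sub (du y) (dv y)
  have e2 : fderiv ℝ (fderiv ℝ (fun y => u y - v y)) X =
      fderiv ℝ (fderiv ℝ u) X - fderiv ℝ (fderiv ℝ v) X := by
    rw [e1]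
    exact fderiv_fun_sub (du1 X) (dv1 X)
  refine ⟨?_, ?_, ?_⟩
  · have := h 0 (by norm_num)
    rwa [norm_iteratedFDeriv_zero] at this
  · have := h 1 (by norm_num)
    rw [norm_iteratedFDeriv_one, e1] at this
    exact this
  · have := h 2 le_rfl
    rw [← norm_iteratedFDeriv_fderiv, norm_iteratedFDeriv_one, e2] at this
    exact this

/-- the numbers. -/
theorem pn_num (m p₀ : ℕ) (C C₀ T : ℝ) (hC : 1 ≤ C) (hC₀ : 1 ≤ C₀) : ∃ L₁ : ℝ, 2 ≤ L₁ ∧
    ∀ L : ℝ, L₁ ≤ L → 64 * Real.exp T ≤ L ∧ 2 * 4 ^ m / ome m ≤ L ∧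
      4 * C₀ * C * Real.exp T ≤ L ∧
      C * (L ^ p₀ * Real.exp (-(L / 2))) * (2048 * L ^ 2 * Real.exp T) ≤ 1 := by
  have t1 : Tendsto (fun L : ℝ => C * (L ^ p₀ * Real.exp (-(L / 2))) *
      (2048 * L ^ 2 * Real.exp T)) atTop (𝓝 0) := by
    have h1 : Tendsto (fun y : ℝ => y ^ (p₀ + 2) * Real.exp (-y)) atTop (𝓝 0) :=
      Real.tendsto_pow_mul_exp_neg_atTop_nhds_zero (p₀ + 2)
    have h2 : Tendsto (fun L : ℝ => (L / 2) ^ (p₀ + 2) * Real.exp (-(L / 2))) atTop (𝓝 0) :=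
      h1.comp (tendsto_id.atTop_div_const (by norm_num))
    have h3 := h2.const_mul (C * 2048 * Real.exp T * 2 ^ (p₀ + 2))
    rw [mul_zero] at h3
    refine h3.congr fun L => ?_
    rw [div_pow]
    field_simp
    ring
  have hev : ∀ᶠ L : ℝ in atTop, 2 ≤ L ∧ 64 * Real.exp T ≤ L ∧ 2 * 4 ^ m / ome m ≤ L ∧
      4 * C₀ * C * Real.exp T ≤ L ∧
      C * (L ^ p₀ * Real.exp (-(L / 2))) * (2048 * L ^ 2 * Real.exp T) ≤ 1 := by
    filter_upwards [eventually_ge_atTop 2, eventually_ge_atTop (64 * Real.exp T),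
      eventually_ge_atTop (2 * 4 ^ m / ome m), eventually_ge_atTop (4 * C₀ * C * Real.exp T),
      t1.eventually (gt_mem_nhds one_pos)] with L a1 a2 a3 a4 a5
    exact ⟨a1, a2, a3, a4, a5.le⟩
  obtain ⟨L₁, h⟩ := eventually_atTop.1 hev
  exact ⟨max L₁ 2, le_max_right _ _, fun L hL => (h L ((le_max_left _ _).trans hL)).2⟩

set_option maxHeartbeats 1000000 in
/-- **closeness of two references with small means**, in the form `Pn`. -/
theorem exists_Pn (m n N₀ Ks p₀ q : ℕ) (hN : 1 ≤ N₀) (T : ℝ) :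
    ∃ (q₁ a : ℕ) (C L₁ : ℝ), 1 ≤ C ∧ ∀ (k : ℕ) (U : Set (Euc k)) (D : VarifoldData m k) (Q : ℕ)
      (x : Euc k) (M N : Mo m n k) (ε Λ l K b η h T' B A L : ℝ),
      Pk U D Q x M ε Λ l K b η h T' B → N.π = M.π → N.ρ = M.ρ → N.lb = M.lb → GrB N b →
      MG N₀ A 0 (fun y => N.u y - M.u y) → A ≤ L ^ p₀ * Real.exp (-(L / 2)) →
      K ≤ 4 * L ^ 2 → M.lb - T ≤ l → L₁ ≤ L → h ≤ (L ^ a)⁻¹ → B ≤ (L ^ a)⁻¹ →
      Stp_518.MeanK Ks M x (VD D) (Real.exp (l - M.lb) * (1 + 1 / (8 * K)))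
        ((L ^ q₁)⁻¹ * Real.exp (l - L / 2)) →
      Stp_518.MeanK Ks N x (VD D) (Real.exp (l - M.lb) * (1 + 1 / (8 * K)))
        ((L ^ q₁)⁻¹ * Real.exp (l - L / 2)) →
      Pn M N l K b (C * A) ((L ^ q)⁻¹ * Real.exp (-(L / 2))) := by
  obtain ⟨Cb, hCb, Hb⟩ := Mx17_397.bdP m n N₀
  obtain ⟨C₀, hC₀, HC⟩ := close_core m n Ks 2
  set C : ℝ := max Cb 1 with hC
  have hC1 : 1 ≤ C := le_max_right _ _
  obtain ⟨L₁, hL₁, HL⟩ := pn_num m p₀ C C₀ T hC1 hC₀
  set s := 3 + p₀ + q with hs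
  set a₀ := 4 * s with ha₀
  refine ⟨a₀ * (m + Ks + 1) + 1, a₀ * m + a₀ + 1, C, L₁, hC1, ?_⟩
  intro k U D Q x M N ε Λ l K b η h T' B A L H hπ hρ hlb gN hMG hA hK hl hL hh hB hM hN'
  obtain ⟨n1, n2, n3, n4⟩ := HL L hL
  have hL2 : 2 ≤ L := hL₁.trans hL
  have hL0 : 0 < L := by linarith
  have hL1 : 1 ≤ L := by linarith
  have hS := M.S_pos
  have hR := R0_pos M l
  have hR1 := H.R0_le
  have hK32 := H.K32
  have hK0 : 0 < K := by linarith
  have ho := ome_pos m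
  have hET := Real.exp_pos T
  have hEL := Real.exp_pos (-(L / 2))
  have hRT : (Real.exp T)⁻¹ ≤ R0 M l := by
    rw [← Real.exp_neg]
    exact Real.exp_le_exp.2 (by linarith)
  have hA0 : 0 ≤ A := by
    obtain ⟨α, -, h2, -⟩ := hMG
    exact (norm_nonneg _).trans h2
  obtain ⟨hcd, hbd⟩ := Hb A 0 _ hMG
  have hCA : Cb * A ≤ C * A := mul_le_mul_of_nonneg_right (le_max_left _ _) hA0
  have hCA' : C * A ≤ C * (L ^ p₀ * Real.exp (-(L / 2))) :=
    mul_le_mul_of_nonneg_left hA (by linarith)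
  set A' := C * (L ^ p₀ * Real.exp (-(L / 2))) with hA'
  have hA'0 : 0 ≤ A' := by positivity
  have hA'1 : Real.exp (-(L / 2)) ≤ A' := by
    have h1 : 1 ≤ L ^ p₀ := one_le_pow₀ hL1
    have h2 : Real.exp (-(L / 2)) ≤ L ^ p₀ * Real.exp (-(L / 2)) :=
      le_mul_of_one_le_left hEL.le h1
    refine h2.trans (le_mul_of_one_le_left (by positivity) hC1)
  -- the collar
  have hRK : (L ^ 3)⁻¹ ≤ R0 M l / (16 * K) := by
    rw [inv_le_comm₀ (by positivity) (by positivity), inv_div, div_le_iff₀ hR]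
    calc 16 * K ≤ 16 * (4 * L ^ 2) := by gcongr
      _ = (64 * Real.exp T) * L ^ 2 * (Real.exp T)⁻¹ := by field_simp; norm_num
      _ ≤ L * L ^ 2 * (Real.exp T)⁻¹ := by gcongr
      _ = L ^ 3 * (Real.exp T)⁻¹ := by ring
      _ ≤ L ^ 3 * R0 M l := by gcongr
  have hRK' : K / R0 M l ≤ 4 * L ^ 2 * Real.exp T := by
    rw [div_le_iff₀ hR]
    calc K ≤ 4 * L ^ 2 := hK
      _ = 4 * L ^ 2 * Real.exp T * (Real.exp T)⁻¹ := by field_simp
      _ ≤ 4 * L ^ 2 * Real.exp T * R0 M l := by gcongr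
  have hσ : C * A ≤ R0 M l / (512 * K) := by
    rw [le_div_iff₀ (by positivity)]
    calc C * A * (512 * K) ≤ A' * (512 * (4 * L ^ 2)) := by gcongr
      _ = A' * (2048 * L ^ 2 * Real.exp T) * (Real.exp T)⁻¹ := by field_simp; ring
      _ ≤ 1 * (Real.exp T)⁻¹ := by gcongr
      _ ≤ R0 M l := by rw [one_mul]; exact hRT
  -- the scale
  set y := (L ^ s)⁻¹ with hy
  have hy0 : 0 < y := by positivity
  have hρe : y ^ 4 = (L ^ a₀)⁻¹ := by
    rw [hy, inv_pow, ← pow_mul, ha₀, mul_comm s 4]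
  have hρ0 : 0 < y ^ 4 := by positivity
  have hdec : ∀ i j : ℕ, i ≤ j → (L ^ j)⁻¹ ≤ (L ^ i)⁻¹ := fun i j hij =>
    inv_anti₀ (by positivity) (pow_le_pow_right₀ hL1 hij)
  have hmain := HC k U D Q x M N ε Λ l K b η h T' B A' (M.S⁻¹ * ((L ^ (a₀ * (m + Ks + 1) + 1))⁻¹ *
    Real.exp (l - L / 2))) (y ^ 4) H hπ hρ hlb gN (hcd.of_le (by
      exact_mod_cast (show 2 + 1 ≤ N₀ + 2 by omega))) hA'0
    (fun j hj z => ((hbd j (by omega) z).trans hCA).trans hCA') hρ0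
    (by rw [hρe]; exact (hdec 3 a₀ (by omega)).trans hRK)
    (by rw [hρe]; exact hh.trans (hdec _ _ (by omega))) ?_ ?_ ?_ ?_
  · -- the conclusion
    have hfin : ∀ j ≤ 2, ∀ z ∈ ball (0 : Euc m) (R0 M l * (1 + 1 / (64 * K))),
        ‖iteratedFDeriv ℝ j (fun y => N.u y - M.u y) z‖ ≤ (L ^ q)⁻¹ * Real.exp (-(L / 2)) := by
      intro j hj z hz
      refine (hmain j hj z hz).trans ?_
      rw [rt_two hy0.le]
      calc C₀ * (K / R0 M l) * y * A' ≤ C₀ * (4 * L ^ 2 * Real.exp T) * y * A' := by gcongr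
        _ = (4 * C₀ * C * Real.exp T) * (L ^ (2 + p₀) * y) * Real.exp (-(L / 2)) := by
            rw [hA', pow_add]; ring
        _ ≤ L * (L ^ (2 + p₀) * y) * Real.exp (-(L / 2)) := by gcongr
        _ = (L ^ q)⁻¹ * Real.exp (-(L / 2)) := by
            congr 1
            rw [hy, hs]
            have : L ^ (3 + p₀ + q) = L * L ^ (2 + p₀) * L ^ q := by ring
            rw [this]
            field_simp
    have g := fun X => d012 gN.cu H.gr.cu X (s := C * A)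
      (fun j hj => (hbd j (by omega) X).trans hCA)
    have t := fun X (hX : X ∈ ball (0 : Euc m) (R0 M l * (1 + 1 / (64 * K)))) =>
      d012 gN.cu H.gr.cu X (fun j hj => hfin j hj X hX)
    exact
      { hπ := hπ, hρ := hρ, hlb := hlb, gr := gN, σ0 := by positivity, hσ := hσ
        g0 := fun X => (g X).1, g1 := fun X => (g X).2.1, g2 := fun X => (g X).2.2
        τ0 := by positivity
        τ1 := by
          have h1 : (L ^ q)⁻¹ ≤ 1 := inv_le_one_of_one_le₀ (one_le_pow₀ hL1)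
          have h2 : Real.exp (-(L / 2)) ≤ 1 := Real.exp_le_one_iff.2 (by linarith)
          exact mul_le_one₀ h1 hEL.le h2
        t0 := fun X hX => (t X hX).1, t1 := fun X hX => (t X hX).2.1
        t2 := fun X hX => (t X hX).2.2 }
  · -- total variation
    refine hB.trans ?_
    have e1 : ome m / 2 * (y ^ 4 / 4) ^ m = (L ^ (a₀ * m))⁻¹ * (ome m / (2 * 4 ^ m)) := by
      rw [hρe, div_pow, inv_pow, ← pow_mul]
      field_simp
    rw [e1]
    calc (L ^ (a₀ * m + a₀ + 1))⁻¹ ≤ (L ^ (a₀ * m + 1))⁻¹ := hdec _ _ (by omega)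
      _ = (L ^ (a₀ * m))⁻¹ * L⁻¹ := by rw [pow_succ, mul_inv]
      _ ≤ (L ^ (a₀ * m))⁻¹ * (ome m / (2 * 4 ^ m)) := by
          refine mul_le_mul_of_nonneg_left ?_ (by positivity)
          rw [inv_le_comm₀ hL0 (by positivity), inv_div]
          exact n2
  · -- mean of `M`
    have e : M.S * (M.S⁻¹ * ((L ^ (a₀ * (m + Ks + 1) + 1))⁻¹ * Real.exp (l - L / 2))) =
        (L ^ (a₀ * (m + Ks + 1) + 1))⁻¹ * Real.exp (l - L / 2) := by field_simp
    rw [e]
    exact hM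
  · have e : M.S * (M.S⁻¹ * ((L ^ (a₀ * (m + Ks + 1) + 1))⁻¹ * Real.exp (l - L / 2))) =
        (L ^ (a₀ * (m + Ks + 1) + 1))⁻¹ * Real.exp (l - L / 2) := by field_simp
    rw [e]
    exact hN'
  · -- the means against the a priori bound
    have e1 : M.S⁻¹ * Real.exp (l - L / 2) = R0 M l * Real.exp (-(L / 2)) := by
      unfold Mo.S R0
      rw [← Real.exp_neg, ← Real.exp_add, ← Real.exp_add]
      congr 1
      ring
    have e2 : M.S⁻¹ * ((L ^ (a₀ * (m + Ks + 1) + 1))⁻¹ * Real.exp (l - L / 2)) =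
        (L ^ (a₀ * (m + Ks + 1) + 1))⁻¹ * (R0 M l * Real.exp (-(L / 2))) := by
      rw [← e1]; ring
    rw [e2, hρe, inv_pow, ← pow_mul, pow_succ, mul_inv]
    calc 2 * ((L ^ (a₀ * (m + Ks + 1)))⁻¹ * L⁻¹ * (R0 M l * Real.exp (-(L / 2))))
        = (2 * L⁻¹) * ((L ^ (a₀ * (m + Ks + 1)))⁻¹ * (R0 M l * Real.exp (-(L / 2)))) := by ring
      _ ≤ 1 * ((L ^ (a₀ * (m + Ks + 1)))⁻¹ * (1 * A')) := by
          have h1 : 2 * L⁻¹ ≤ 1 := by
            rw [← div_eq_mul_inv, div_le_one hL0]; exact hL2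
          gcongr
      _ = (L ^ (a₀ * (m + Ks + 1)))⁻¹ * A' := by ring

end Crest.Agent.R234.Swc_395
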