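import Crest.Agent.R234.Sw19_733
import Crest.Agent.R234.Swc2_395

/-! # Row 234, VF-F6 (helper733), part 20: `swP : Stp_518.SwP`

`exists_pk` (Sw19), `exists_Pn` (395), `exists_switch` (Sw17). -/

set_option autoImplicit false
set_option linter.unusedSectionVars false
set_option linter.unusedVariables false

open MeasureTheory Set Metric Filter Topology
open scoped ENNReal NNReal ContDiff InnerProductSpace
open Crest.GeometryTopology.Submanifold
open Crest.Agent.R234.Ell1_3 Crest.Agent.R234.Fm_209 Crest.Agent.R234.Cy_870 Crest.Agent.R234.Vf_884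
open Crest.Agent.R234.Main_456 (Frame hgt)
open Crest.Agent.R234.Stp_518 (Mo GrB SupLe lam)
open Crest.Agent.R234.Gi_456 (Lo Loi giB jB muG Gr tube)
open Crest.Agent.R234.MG_570 (MG)

noncomputable section

namespace Crest.Agent.R234.Sw_733

/-- the numbers of the switch. -/
theorem sw_num {S lb T G l L I Iy C Cp τ h s B : ℝ} {p q q' : ℕ} (hq' : q' = q + p + 1)
    (hS : S = Real.exp lb) (hI : I = Real.exp (2 * l - L)) (hT : lb - T ≤ l)
    (hIy : I ≤ Real.exp G * Iy) (hIy0 : 0 ≤ Iy) (hC : 0 ≤ C) (hCp : 1 ≤ Cp) (hL : 1 ≤ L)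
    (hLC : 4 * C * Cp * Real.exp (2 * T + G) ≤ L)
    (hτ : τ = (L ^ q')⁻¹ * Real.exp (-(L / 2))) (hs0 : 0 ≤ s)
    (hs : s ≤ 4 * (Cp * L ^ p * Real.exp (-(L / 2)))) :
    S ^ 2 * (C * τ * s) ≤ (L ^ q)⁻¹ * Iy := by
  have hL0 : 0 < L := by linarith
  have h1 : S ^ 2 * Real.exp (-L) ≤ Real.exp (2 * T + G) * Iy := by
    have e1 : S ^ 2 * Real.exp (-L) ≤ Real.exp (2 * T) * I := by
      rw [hS, hI, ← Real.exp_nat_mul, ← Real.exp_add, ← Real.exp_add]
      exact Real.exp_le_exp.2 (by push_cast; linarith)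
    refine e1.trans ?_
    calc Real.exp (2 * T) * I ≤ Real.exp (2 * T) * (Real.exp G * Iy) :=
          mul_le_mul_of_nonneg_left hIy (Real.exp_pos _).le
      _ = _ := by rw [Real.exp_add]; ring
  have h2 : C * τ * s ≤ C * τ * (4 * (Cp * L ^ p * Real.exp (-(L / 2)))) := by
    have : 0 ≤ τ := by rw [hτ]; positivity
    exact mul_le_mul_of_nonneg_left hs (by positivity)
  have hE : Real.exp (-(L / 2)) * Real.exp (-(L / 2)) = Real.exp (-L) := by
    rw [← Real.exp_add]; congr 1; ring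
  calc S ^ 2 * (C * τ * s) ≤ S ^ 2 * (C * τ * (4 * (Cp * L ^ p * Real.exp (-(L / 2))))) :=
        mul_le_mul_of_nonneg_left h2 (by positivity)
    _ = (4 * C * Cp) * ((L ^ q')⁻¹ * L ^ p) *
        (S ^ 2 * (Real.exp (-(L / 2)) * Real.exp (-(L / 2)))) := by rw [hτ]; ring
    _ = (4 * C * Cp) * ((L ^ q')⁻¹ * L ^ p) * (S ^ 2 * Real.exp (-L)) := by rw [hE]
    _ ≤ (4 * C * Cp) * ((L ^ q')⁻¹ * L ^ p) * (Real.exp (2 * T + G) * Iy) :=
        mul_le_mul_of_nonneg_left h1 (by positivity)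
    _ = (4 * C * Cp * Real.exp (2 * T + G)) * ((L ^ q')⁻¹ * L ^ p) * Iy := by ring
    _ ≤ L * ((L ^ q')⁻¹ * L ^ p) * Iy :=
        mul_le_mul_of_nonneg_right (mul_le_mul_of_nonneg_right hLC (by positivity)) hIy0
    _ = (L ^ q)⁻¹ * Iy := by
        congr 1
        rw [hq', pow_add, pow_add, pow_one]
        field_simp

/-- **SWITCH**, literally 518's `SwP`. -/
theorem swP : Stp_518.SwP := by
  intro m n Q hm hn hQ
  obtain ⟨N₀, hN₀, Hpk⟩ := exists_pk m n Q hm hn hQ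
  refine ⟨N₀, fun N hN Ks p₀ q T Λ G => ?_⟩
  obtain ⟨Cp, p, κp, εp, Lp, hCp, hκp, hεp, Hpk⟩ := Hpk N hN T Λ G
  obtain ⟨q₁, a, Cn, Ln, hCn, HPn⟩ := Swc_395.exists_Pn m n N Ks p₀ (q + p + 1) (by omega) T
  obtain ⟨κg, Cg, hκg, hCg, -, Hgr⟩ := Stp_518.gr_of m n N (hN₀.trans hN)
  obtain ⟨Cs, hCs, Hsw⟩ := exists_switch m n (T + 1) (max 1 (max Λ Q)) (le_max_left _ _)
  have hev : ∀ᶠ L : ℝ in atTop, Cp * L ^ (p + a) * Real.exp (-(1 / 2 * L)) ≤ 1 ∧
      4 * Cs * Cp * Real.exp (2 * T + G) ≤ L ∧ 1 ≤ L ∧ Lp ≤ L ∧ Ln ≤ L := by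
    filter_upwards [Stp_518.ev_exp Cp (1 / 2) (p + a) (by norm_num) one_pos,
      eventually_ge_atTop (4 * Cs * Cp * Real.exp (2 * T + G)),
      eventually_ge_atTop 1, eventually_ge_atTop Lp, eventually_ge_atTop Ln] with L h1 h2 h3 h4 h5
    exact ⟨h1, h2, h3, h4, h5⟩
  obtain ⟨L₁, hL₁⟩ := eventually_atTop.1 hev
  refine ⟨q₁, min κp (min κg (1 / (16 * Cg))), εp, L₁, by positivity, hεp, ?_⟩
  intro U D x M M' l K A hs hπ hρ hlb hκ0 hκ hκ0' hκ' hMG hMG' hMGA hA hK hKL hT hl hI hL hgr hgd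
    hdu hsup hmean hmean'
  obtain ⟨t1, t2, t3, t4, t5⟩ := hL₁ _ hL
  set L := lam (M.I x (VD D)) l with hLd
  set I := M.I x (VD D) l with hId
  have hK0 : 0 < K := by linarith
  have hL0 : 0 < L := by linarith
  have eh2 : Real.exp (-(1 / 2 * L)) = Real.exp (-(L / 2)) := by congr 1; ring
  rw [eh2] at t1
  set E := Real.exp (-(L / 2)) with hE
  have hE0 : 0 < E := Real.exp_pos _
  have hE1 : E ≤ 1 := Real.exp_le_one_iff.2 (by linarith)
  have hsqI : √I = Real.exp (l - L / 2) := Stp_518.sqrt_I (I := M.I x (VD D)) hI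
  have hIexp : I = Real.exp (2 * l - L) := by
    have h1 : I = √I * √I := (Real.mul_self_sqrt hI.le).symm
    rw [h1, hsqI, ← Real.exp_add]
    congr 1; ring
  have H := Hpk U D x M l K L hLd hs hκ0 (hκ.trans (min_le_left _ _)) hMG hK hKL hT hl hI t4 hgr
    (hdu.trans (div_le_div_of_nonneg_right (min_le_left _ _) hK0.le)) hsup
  have hgrN : GrB M' (1 / 16) := by
    have k1 := hκ'.trans ((min_le_right _ _).trans (min_le_left _ _))
    have k2 := hκ'.trans ((min_le_right _ _).trans (min_le_right _ _))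
    refine GrB.mono (Hgr (m + n) M' _ hκ0' k1 hMG') ?_
    rw [le_div_iff₀ (by positivity)] at k2
    linarith
  set h := Cp * L ^ p * E with hh
  have hEL : Real.exp (-L) = E * E := by
    rw [hE, ← Real.exp_add]; congr 1; ring
  have hB : Cp * L ^ p * Real.exp (-L) ≤ h := by
    rw [hEL, hh]
    refine mul_le_mul_of_nonneg_left ?_ (by positivity)
    nlinarith
  have hha : h ≤ (L ^ a)⁻¹ := by
    rw [le_inv_comm₀ (by positivity) (by positivity), ← one_div, le_div_iff₀ (by positivity)]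
    calc L ^ a * h = Cp * L ^ (p + a) * E := by rw [hh, pow_add]; ring
      _ ≤ 1 := t1
  rw [hsqI] at hmean hmean'
  have P := HPn (m + n) U D Q x M M' (1 / 16) Λ l K (1 / 16) h h _ _ A L H hπ hρ hlb hgrN hMGA
    hA hKL hT t5 hha (hB.trans hha) hmean hmean'
  have hΛ : Λ ≤ max 1 (max Λ (Q : ℝ)) := (le_max_left _ _).trans (le_max_right _ _)
  have hQ' : (Q : ℝ) ≤ max 1 (max Λ (Q : ℝ)) := (le_max_right _ _).trans (le_max_right _ _)
  intro y hy
  have k2K : 2 / K ≤ 1 := by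
    rw [div_le_one hK0]; linarith
  obtain ⟨r1, r2⟩ := Hsw (m + n) U D Q x M M' (1 / 16) Λ l K (1 / 16) h h _ _ _ _ H P hΛ hQ' y
    hy.2 (by linarith [hy.1])
  have hIy := hgd y hy
  have hIy0 : 0 ≤ M.I x (VD D) y := by
    by_contra hneg
    push Not at hneg
    have h5 : Real.exp G * M.I x (VD D) y ≤ 0 :=
      mul_nonpos_of_nonneg_of_nonpos (Real.exp_pos _).le hneg.le
    linarith
  have hLp : 1 ≤ L ^ p := one_le_pow₀ t3
  have hh0 : 0 ≤ h := by positivity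
  have hτh : (L ^ (q + p + 1))⁻¹ * E ≤ h := by
    have h1 : (L ^ (q + p + 1))⁻¹ ≤ 1 := inv_le_one_of_one_le₀ (one_le_pow₀ t3)
    have h2 : 1 ≤ Cp * L ^ p := by nlinarith
    calc (L ^ (q + p + 1))⁻¹ * E ≤ 1 * E := mul_le_mul_of_nonneg_right h1 hE0.le
      _ ≤ Cp * L ^ p * E := mul_le_mul_of_nonneg_right h2 hE0.le
  have hsT : √(Cp * L ^ p * Real.exp (-L)) ≤ h := by
    refine Real.sqrt_le_iff.2 ⟨hh0, ?_⟩
    have h2 : 1 ≤ Cp * L ^ p := by nlinarith
    calc Cp * L ^ p * Real.exp (-L) = (Cp * L ^ p) * 1 * (E * E) := by rw [hEL]; ring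
      _ ≤ (Cp * L ^ p) * (Cp * L ^ p) * (E * E) := by
          refine mul_le_mul_of_nonneg_right ?_ (by positivity)
          exact mul_le_mul_of_nonneg_left h2 (by positivity)
      _ = h ^ 2 := by rw [hh]; ring
  have hτ0 : 0 ≤ (L ^ (q + p + 1))⁻¹ * E := by positivity
  have hsq0 := Real.sqrt_nonneg (Cp * L ^ p * Real.exp (-L))
  have hB0 : 0 ≤ Cp * L ^ p * Real.exp (-L) := by positivity
  constructor
  · refine r2.trans ?_
    exact sw_num (p := p) (q := q) (q' := q + p + 1) (T := T) (τ := (L ^ (q + p + 1))⁻¹ * E)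
      (h := h) (B := 0) rfl (rfl : M.S = Real.exp M.lb) hIexp hT hIy hIy0 hCs hCp t3 t2 rfl
      (by positivity) (by rw [← hE, ← hh]; linarith)
  · refine r1.trans ?_
    exact sw_num (p := p) (q := q) (q' := q + p + 1) (T := T) (τ := (L ^ (q + p + 1))⁻¹ * E)
      (h := h) (B := 0) rfl (rfl : M.S = Real.exp M.lb) hIexp hT hIy hIy0 hCs hCp t3 t2 rfl
      (by positivity) (by rw [← hE, ← hh]; linarith)

end Crest.Agent.R234.Sw_733
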