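import Crest.Agent.R234.Ell1_3
import Crest.Agent.R234.Fm1_209

/-! # Row 234, VF-F6 (helper733), part 2: first order expansion of the area density

`dns q = √det (1 + qᵀ q)`; `D dns(q)[B] = dns q · tr (B ∘ g⁻¹ ∘ qᵀ)` and the quadratic remainder. -/

set_option autoImplicit false
set_option linter.unusedSectionVars false

open MeasureTheory Set Metric Filter Topology
open scoped ENNReal NNReal ContDiff
open Crest.Agent.R234.Ell1_3 Crest.Agent.R234.Fm_209

noncomputable section

namespace Crest.Agent.R234.Sw_733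

section Det

variable {E : Type*} [NormedAddCommGroup E] [InnerProductSpace ℝ E] [FiniteDimensional ℝ E]

theorem hasDerivAt_det_line (N : E →L[ℝ] E) :
    HasDerivAt (fun t : ℝ => (1 + t • N).det) (trc E N) 0 := by
  classical
  set b := stdOrthonormalBasis ℝ E with hb
  set M := LinearMap.toMatrix b.toBasis b.toBasis (N : E →ₗ[ℝ] E) with hM
  have h1 : ∀ t : ℝ, (1 + t • N).det = (1 + t • M).det := by
    intro t
    have e1 : (1 + t • N).det =
        (LinearMap.toMatrix b.toBasis b.toBasis ((1 + t • N : E →L[ℝ] E) : E →ₗ[ℝ] E)).det :=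
      (LinearMap.det_toMatrix b.toBasis _).symm
    have e2 : ((1 + t • N : E →L[ℝ] E) : E →ₗ[ℝ] E) = LinearMap.id + t • (N : E →ₗ[ℝ] E) := rfl
    rw [e1, e2, map_add, LinearMap.toMatrix_id, map_smul]
  have h2 : trc E N = M.trace := by
    rw [trc_apply, hM, LinearMap.trace_eq_matrix_trace ℝ b.toBasis]
  have h3 : (fun t : ℝ => (1 + t • N).det) = fun t : ℝ => 1 + M.trace * t +
      (Matrix.det (1 + (Polynomial.X : Polynomial ℝ) • M.map Polynomial.C)).divX.divX.eval t *
        t ^ 2 := by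
    funext t
    rw [h1, Matrix.det_one_add_smul]
  rw [h3, h2]
  set P := (Matrix.det (1 + (Polynomial.X : Polynomial ℝ) • M.map Polynomial.C)).divX.divX
  have h4 : HasDerivAt (fun t : ℝ => P.eval t * t ^ 2)
      (P.derivative.eval 0 * 0 ^ 2 + P.eval 0 * (2 * 0 ^ 1)) 0 := by
    have h5 : HasDerivAt (fun t : ℝ => t ^ 2) (2 * (0:ℝ) ^ 1) 0 := by
      have := hasDerivAt_pow 2 (0:ℝ)
      simpa using this
    exact (P.hasDerivAt 0).mul h5
  have h6 : HasDerivAt (fun t : ℝ => 1 + M.trace * t) M.trace 0 := by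
    have := ((hasDerivAt_id (0:ℝ)).const_mul M.trace).const_add 1
    simpa using this
  have h7 := h6.add h4
  refine h7.congr_deriv ?_
  simp

theorem hasFDerivAt_det_one :
    HasFDerivAt (fun A : E →L[ℝ] E => (1 + A).det) (trc E) 0 := by
  have hd : DifferentiableAt ℝ (fun A : E →L[ℝ] E => (1 + A).det) 0 := by
    have : ContDiff ℝ 1 (fun A : E →L[ℝ] E => (1 + A).det) :=
      (contDiff_det.of_le le_top).comp (contDiff_const.add contDiff_id)
    exact (this.differentiable one_ne_zero) 0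
  have h1 : fderiv ℝ (fun A : E →L[ℝ] E => (1 + A).det) 0 = trc E := by
    ext N
    have h2 : HasDerivAt (fun t : ℝ => t • N) N 0 := by
      simpa using (hasDerivAt_id (0:ℝ)).smul_const N
    have h3 : HasFDerivAt (fun A : E →L[ℝ] E => (1 + A).det)
        (fderiv ℝ (fun A : E →L[ℝ] E => (1 + A).det) 0) ((fun t : ℝ => t • N) 0) := by
      simpa using hd.hasFDerivAt
    have h4 : HasDerivAt (fun t : ℝ => (1 + t • N).det)
        (fderiv ℝ (fun A : E →L[ℝ] E => (1 + A).det) 0 N) 0 :=
      HasFDerivAt.comp_hasDerivAt (f := fun t : ℝ => t • N)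
        (l := fun A : E →L[ℝ] E => (1 + A).det) (0:ℝ) h3 h2
    exact h4.unique (hasDerivAt_det_line N)
  rw [← h1]
  exact hd.hasFDerivAt

/-- Jacobi's formula at an invertible operator. -/
theorem hasFDerivAt_det (A X : E →L[ℝ] E) (h : A ∘L X = 1) :
    HasFDerivAt (fun B : E →L[ℝ] E => B.det)
      (A.det • (trc E ∘L ContinuousLinearMap.compL ℝ E E E X)) A := by
  have hdet : A.det * X.det = 1 := by
    have h1 : (A ∘L X).det = A.det * X.det := by
      simp only [ContinuousLinearMap.det, ContinuousLinearMap.toLinearMap_comp]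
      exact LinearMap.det_comp _ _
    rw [← h1, h]
    exact det_one
  have h1 : (fun B : E →L[ℝ] E => B.det) = fun B : E →L[ℝ] E =>
      A.det * (1 + X ∘L (B - A)).det := by
    funext B
    have h2 : X ∘L A = 1 := by
      have h3 : (X : E →ₗ[ℝ] E) ∘ₗ (A : E →ₗ[ℝ] E) = LinearMap.id := by
        have h4 : (A : E →ₗ[ℝ] E) ∘ₗ (X : E →ₗ[ℝ] E) = LinearMap.id :=
          congrArg (fun T : E →L[ℝ] E => (T : E →ₗ[ℝ] E)) h
        exact (LinearMap.comp_eq_id_comm ℝ E).1 h4
      ext v
      exact congrArg (fun T : E →ₗ[ℝ] E => T v) h3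
    have h3 : 1 + X ∘L (B - A) = X ∘L B := by
      rw [ContinuousLinearMap.comp_sub, h2]
      abel
    rw [h3]
    have h4 : (X ∘L B).det = X.det * B.det := by
      simp only [ContinuousLinearMap.det, ContinuousLinearMap.toLinearMap_comp]
      exact LinearMap.det_comp _ _
    rw [h4, ← mul_assoc, hdet, one_mul]
  rw [h1]
  have h5 : HasFDerivAt (fun B : E →L[ℝ] E => X ∘L (B - A))
      (ContinuousLinearMap.compL ℝ E E E X) A := by
    have h6 : HasFDerivAt (fun B : E →L[ℝ] E => B - A) (ContinuousLinearMap.id ℝ (E →L[ℝ] E)) A :=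
      (hasFDerivAt_id A).sub_const A
    exact (ContinuousLinearMap.compL ℝ E E E X).hasFDerivAt.comp A h6
  have h7 : HasFDerivAt (fun A : E →L[ℝ] E => (1 + A).det) (trc E)
      ((fun B : E →L[ℝ] E => X ∘L (B - A)) A) := by
    simp only [sub_self, ContinuousLinearMap.comp_zero]
    exact hasFDerivAt_det_one
  exact (h7.comp A h5).const_mul A.det

end Det

variable {F V : Type} [NormedAddCommGroup F] [InnerProductSpace ℝ F] [FiniteDimensional ℝ F]
  [NormedAddCommGroup V] [InnerProductSpace ℝ V] [FiniteDimensional ℝ V]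

theorem hasFDerivAt_gop (q : F →L[ℝ] V) : HasFDerivAt (gop : (F →L[ℝ] V) → (F →L[ℝ] F))
    (ContinuousLinearMap.compL ℝ F V F (adjL q) +
      (ContinuousLinearMap.compL ℝ F V F).flip q ∘L adjL) q := by
  have h1 : HasFDerivAt (fun q : F →L[ℝ] V => adjL q) (adjL (F := F) (V := V)) q :=
    (adjL (F := F) (V := V)).hasFDerivAt
  have h2 := h1.clm_comp (hasFDerivAt_id q)
  have h3 := h2.const_add (ContinuousLinearMap.id ℝ F)
  exact h3

theorem trc_adjoint (A : F →L[ℝ] F) : trc F (ContinuousLinearMap.adjoint A) = trc F A := by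
  rw [trc_apply, trc_apply, LinearMap.trace_eq_sum_inner _ (stdOrthonormalBasis ℝ F),
    LinearMap.trace_eq_sum_inner _ (stdOrthonormalBasis ℝ F)]
  refine Finset.sum_congr rfl fun i _ => ?_
  simp only [ContinuousLinearMap.coe_coe]
  rw [ContinuousLinearMap.adjoint_inner_right, real_inner_comm]

theorem ginv_symm (q : F →L[ℝ] V) : ContinuousLinearMap.adjoint (ginv q) = ginv q := by
  have h1 : ContinuousLinearMap.adjoint (gop q) = gop q := by
    rw [gop, map_add, ContinuousLinearMap.adjoint_comp, ContinuousLinearMap.adjoint_adjoint,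
      ContinuousLinearMap.adjoint_id]
  have h2 := congrArg ContinuousLinearMap.adjoint (gop_ginv q)
  rw [ContinuousLinearMap.adjoint_comp, h1, ContinuousLinearMap.adjoint_id] at h2
  calc ContinuousLinearMap.adjoint (ginv q) =
      ContinuousLinearMap.adjoint (ginv q) ∘L (gop q ∘L ginv q) := by
        rw [gop_ginv, ContinuousLinearMap.comp_id]
    _ = (ContinuousLinearMap.adjoint (ginv q) ∘L gop q) ∘L ginv q := rfl
    _ = ginv q := by rw [h2, ContinuousLinearMap.id_comp]

/-- the first variation of the area density. -/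
def ddns (q : F →L[ℝ] V) : (F →L[ℝ] V) →L[ℝ] ℝ :=
  dns q • (trc F ∘L ContinuousLinearMap.compL ℝ F V F (ginv q ∘L adjL q))

theorem ddns_apply (q B : F →L[ℝ] V) :
    ddns q B = dns q * trc F ((ginv q ∘L adjL q) ∘L B) := rfl

theorem hasFDerivAt_dns (q : F →L[ℝ] V) :
    HasFDerivAt (dns : (F →L[ℝ] V) → ℝ) (ddns q) q := by
  have h1 := (hasFDerivAt_det (gop q) (ginv q) (gop_ginv q)).comp q (hasFDerivAt_gop q)
  have h2 : HasFDerivAt (gdet : (F →L[ℝ] V) → ℝ) (((gop q).det •
      (trc F ∘L ContinuousLinearMap.compL ℝ F F F (ginv q))) ∘L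
      (ContinuousLinearMap.compL ℝ F V F (adjL q) +
      (ContinuousLinearMap.compL ℝ F V F).flip q ∘L adjL)) q := h1
  have h3 := h2.sqrt (gdet_pos q).ne'
  have h4 : (gop q).det = gdet q := rfl
  refine h3.congr_fderiv ?_
  ext B
  have hs : 0 < dns q := dns_pos q
  have hsq : gdet q = dns q * dns q := (Real.mul_self_sqrt (gdet_pos q).le).symm
  have h5 : trc F (ginv q ∘L (adjL B ∘L q)) = trc F (ginv q ∘L (adjL q ∘L B)) := by
    have e1 : ginv q ∘L (adjL B ∘L q) =
        ContinuousLinearMap.adjoint ((adjL q ∘L B) ∘L ginv q) := by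
      rw [ContinuousLinearMap.adjoint_comp, ContinuousLinearMap.adjoint_comp, ginv_symm]
      simp only [adjL_apply, ContinuousLinearMap.adjoint_adjoint]
    rw [e1, trc_adjoint, trc_comp_comm]
  change (1 / (2 * Real.sqrt (gdet q))) * ((gop q).det * trc F (ginv q ∘L (adjL q ∘L B +
    adjL B ∘L q))) = dns q * trc F ((ginv q ∘L adjL q) ∘L B)
  rw [ContinuousLinearMap.comp_add, map_add, h5, h4, hsq]
  have h6 : Real.sqrt (dns q * dns q) = dns q := Real.sqrt_mul_self hs.le
  have h7 : (ginv q ∘L adjL q) ∘L B = ginv q ∘L (adjL q ∘L B) := rfl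
  rw [h6, h7]
  field_simp
  ring

/-- quadratic Taylor remainder of a smooth function on a ball, uniform. -/
theorem exists_taylor {E₁ E₂ : Type*} [NormedAddCommGroup E₁] [NormedSpace ℝ E₁]
    [FiniteDimensional ℝ E₁] [NormedAddCommGroup E₂] [NormedSpace ℝ E₂] {f : E₁ → E₂}
    (hf : ContDiff ℝ 2 f) (R : ℝ) :
    ∃ C : ℝ, 0 ≤ C ∧ ∀ x ∈ closedBall (0 : E₁) R, ∀ y ∈ closedBall (0 : E₁) R,
      ‖f y - f x - fderiv ℝ f x (y - x)‖ ≤ C * ‖y - x‖ ^ 2 ∧
      ‖fderiv ℝ f y - fderiv ℝ f x‖ ≤ C * ‖y - x‖ ∧ ‖f y - f x‖ ≤ C * ‖y - x‖ ∧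
      ‖fderiv ℝ f x‖ ≤ C ∧ ‖f x‖ ≤ C := by
  have hprop : ProperSpace E₁ := FiniteDimensional.proper_real E₁
  have hf1 : ContDiff ℝ 1 (fderiv ℝ f) := hf.fderiv_right (by norm_num)
  obtain ⟨C0, hC0⟩ := (isCompact_closedBall (0 : E₁) R).exists_bound_of_continuousOn
    hf.continuous.continuousOn
  obtain ⟨C1, hC1⟩ := (isCompact_closedBall (0 : E₁) R).exists_bound_of_continuousOn
    hf1.continuous.continuousOn
  obtain ⟨C2, hC2⟩ := (isCompact_closedBall (0 : E₁) R).exists_bound_of_continuousOn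
    (hf1.continuous_fderiv one_ne_zero).continuousOn
  refine ⟨|C0| + |C1| + |C2|, by positivity, fun x hx y hy => ?_⟩
  have hle0 : C0 ≤ |C0| + |C1| + |C2| := by
    have := le_abs_self C0; have := abs_nonneg C1; have := abs_nonneg C2; linarith
  have hle1 : C1 ≤ |C0| + |C1| + |C2| := by
    have := le_abs_self C1; have := abs_nonneg C0; have := abs_nonneg C2; linarith
  have hle2 : C2 ≤ |C0| + |C1| + |C2| := by
    have := le_abs_self C2; have := abs_nonneg C0; have := abs_nonneg C1; linarith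
  set C := |C0| + |C1| + |C2| with hC
  have hfd : ∀ z ∈ closedBall (0 : E₁) R, ∀ z' ∈ closedBall (0 : E₁) R,
      ‖fderiv ℝ f z' - fderiv ℝ f z‖ ≤ C * ‖z' - z‖ := fun z hz z' hz' =>
    (convex_closedBall (0 : E₁) R).norm_image_sub_le_of_norm_fderiv_le (𝕜 := ℝ)
      (fun v _ => (hf1.differentiable one_ne_zero) v) (fun v hv => (hC2 v hv).trans hle2) hz hz'
  refine ⟨?_, hfd x hx y hy, ?_, (hC1 x hx).trans hle1, (hC0 x hx).trans hle0⟩
  · have hseg : segment ℝ x y ⊆ closedBall (0 : E₁) R := (convex_closedBall _ _).segment_subset hx hy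
    have := (convex_segment x y).norm_image_sub_le_of_norm_hasFDerivWithin_le'
      (f := f) (f' := fun z => fderiv ℝ f z) (φ := fderiv ℝ f x) (C := C * ‖y - x‖)
      (fun z _ => ((hf.differentiable (by norm_num)) z).hasFDerivAt.hasFDerivWithinAt)
      (fun z hz => ?_) (left_mem_segment ℝ x y) (right_mem_segment ℝ x y)
    · refine this.trans (le_of_eq ?_)
      ring
    · refine (hfd x hx z (hseg hz)).trans ?_
      refine mul_le_mul_of_nonneg_left ?_ (by positivity)
      obtain ⟨a, b, ha, hb, hab, rfl⟩ := hz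
      have e : a • x + b • y - x = b • (y - x) := by
        have : a = 1 - b := by linarith
        rw [this]; module
      rw [e, norm_smul, Real.norm_of_nonneg hb]
      have : b ≤ 1 := by linarith
      exact mul_le_of_le_one_left (norm_nonneg _) this
  · exact (convex_closedBall (0 : E₁) R).norm_image_sub_le_of_norm_fderiv_le (𝕜 := ℝ)
      (fun v _ => (hf.differentiable (by norm_num)) v) (fun v hv => (hC1 v hv).trans hle1) hx hy

end Crest.Agent.R234.Sw_733
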