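import Crest.Agent.R234.Sw2_733

/-! # Row 234, VF-F6 (helper733), part 3: pointwise comparison of two normal charts -/

set_option autoImplicit false
set_option linter.unusedSectionVars false

open MeasureTheory Set Metric Filter Topology
open scoped ENNReal NNReal ContDiff
open Crest.Agent.R234.Ell1_3 Crest.Agent.R234.Fm_209

noncomputable section

namespace Crest.Agent.R234.Sw_733

variable {F V : Type} [NormedAddCommGroup F] [InnerProductSpace ℝ F] [FiniteDimensional ℝ F]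
  [NormedAddCommGroup V] [InnerProductSpace ℝ V] [FiniteDimensional ℝ V]

/-- the point with coordinates `(a, b)` is `(x - Du(x)ᵀ y, u(x) + y)`. -/
def Foot (u : F → V) (a : F) (b : V) (x : F) (y : V) : Prop :=
  a = x - adjL (fderiv ℝ u x) y ∧ b = u x + y

/-- two graphs with small slopes, `τ`-close in `C²` on `D`. -/
structure Cl (u u' : F → V) (D : Set F) (κ τ : ℝ) : Prop where
  conv : Convex ℝ D
  cu : ContDiff ℝ 2 u
  cu' : ContDiff ℝ 2 u'
  κ0 : 0 ≤ κ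
  κ1 : κ ≤ 1 / 4
  τ0 : 0 ≤ τ
  τ1 : τ ≤ 1
  d1 : ∀ x ∈ D, ‖fderiv ℝ u x‖ ≤ κ
  d1' : ∀ x ∈ D, ‖fderiv ℝ u' x‖ ≤ κ
  d2 : ∀ x ∈ D, ‖fderiv ℝ (fderiv ℝ u) x‖ ≤ κ
  w0 : ∀ x ∈ D, ‖u' x - u x‖ ≤ τ
  w1 : ∀ x ∈ D, ‖fderiv ℝ u' x - fderiv ℝ u x‖ ≤ τ
  w2 : ∀ x ∈ D, ‖fderiv ℝ (fderiv ℝ u') x - fderiv ℝ (fderiv ℝ u) x‖ ≤ τ

theorem norm_adjL (q : F →L[ℝ] V) : ‖adjL q‖ = ‖q‖ := by
  rw [adjL_apply]
  exact LinearIsometryEquiv.norm_map _ q

theorem norm_ginv_le (q : F →L[ℝ] V) : ‖ginv q‖ ≤ 1 := by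
  refine ContinuousLinearMap.opNorm_le_bound _ zero_le_one fun v => ?_
  set w := ginv q v with hw
  have h1 : gop q w = v := congrArg (fun T : F →L[ℝ] F => T v) (gop_ginv q)
  have h2 := gop_inner q w w
  rw [h1, real_inner_self_eq_norm_sq, real_inner_self_eq_norm_sq] at h2
  have h3 : inner ℝ w v ≤ ‖w‖ * ‖v‖ := real_inner_le_norm w v
  have h4 : ‖w‖ ^ 2 ≤ ‖w‖ * ‖v‖ := by nlinarith [sq_nonneg ‖q w‖]
  rw [one_mul]
  rcases eq_or_lt_of_le (norm_nonneg w) with h5 | h5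
  · rw [← h5]; exact norm_nonneg v
  · rw [sq] at h4
    exact le_of_mul_le_mul_left h4 h5

/-- horizontal part of the vertical vectors projected to the tangent space. -/
def KT (q : F →L[ℝ] V) : V →L[ℝ] F := ginv q ∘L adjL q

theorem norm_KT_le {q : F →L[ℝ] V} {κ : ℝ} (h : ‖q‖ ≤ κ) : ‖KT q‖ ≤ κ := by
  refine (ContinuousLinearMap.opNorm_comp_le _ _).trans ?_
  rw [norm_adjL]
  calc ‖ginv q‖ * ‖q‖ ≤ 1 * κ := mul_le_mul (norm_ginv_le q) h (norm_nonneg _) zero_le_one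
    _ = κ := one_mul κ

namespace Cl

variable {u u' : F → V} {D : Set F} {κ τ : ℝ}

theorem diff_u (h : Cl u u' D κ τ) (x : F) : DifferentiableAt ℝ u x :=
  (h.cu.differentiable (by norm_num)) x

theorem diff_u' (h : Cl u u' D κ τ) (x : F) : DifferentiableAt ℝ u' x :=
  (h.cu'.differentiable (by norm_num)) x

theorem diff_du (h : Cl u u' D κ τ) (x : F) : DifferentiableAt ℝ (fderiv ℝ u) x :=
  ((h.cu.fderiv_right (m := 1) (by norm_num)).differentiable one_ne_zero) x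

theorem diff_du' (h : Cl u u' D κ τ) (x : F) : DifferentiableAt ℝ (fderiv ℝ u') x :=
  ((h.cu'.fderiv_right (m := 1) (by norm_num)).differentiable one_ne_zero) x

theorem u_lip (h : Cl u u' D κ τ) {x z : F} (hx : x ∈ D) (hz : z ∈ D) :
    ‖u z - u x‖ ≤ κ * ‖z - x‖ :=
  h.conv.norm_image_sub_le_of_norm_fderiv_le (𝕜 := ℝ) (fun v _ => h.diff_u v) h.d1 hx hz

theorem du_lip (h : Cl u u' D κ τ) {x z : F} (hx : x ∈ D) (hz : z ∈ D) :
    ‖fderiv ℝ u z - fderiv ℝ u x‖ ≤ κ * ‖z - x‖ :=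
  h.conv.norm_image_sub_le_of_norm_fderiv_le (𝕜 := ℝ) (fun v _ => h.diff_du v) h.d2 hx hz

theorem w_lip (h : Cl u u' D κ τ) {x z : F} (hx : x ∈ D) (hz : z ∈ D) :
    ‖(u' z - u z) - (u' x - u x)‖ ≤ τ * ‖z - x‖ := by
  refine h.conv.norm_image_sub_le_of_norm_hasFDerivWithin_le (f := fun v => u' v - u v)
    (f' := fun v => fderiv ℝ u' v - fderiv ℝ u v)
    (fun v _ => ((h.diff_u' v).hasFDerivAt.sub (h.diff_u v).hasFDerivAt).hasFDerivWithinAt)
    h.w1 hx hz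

theorem dw_lip (h : Cl u u' D κ τ) {x z : F} (hx : x ∈ D) (hz : z ∈ D) :
    ‖(fderiv ℝ u' z - fderiv ℝ u z) - (fderiv ℝ u' x - fderiv ℝ u x)‖ ≤ τ * ‖z - x‖ := by
  refine h.conv.norm_image_sub_le_of_norm_hasFDerivWithin_le
    (f := fun v => fderiv ℝ u' v - fderiv ℝ u v)
    (f' := fun v => fderiv ℝ (fderiv ℝ u') v - fderiv ℝ (fderiv ℝ u) v)
    (fun v _ => ((h.diff_du' v).hasFDerivAt.sub (h.diff_du v).hasFDerivAt).hasFDerivWithinAt)
    h.w2 hx hz

/-- first order Taylor on a convex set. -/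
theorem _root_.Crest.Agent.R234.Sw_733.taylor1 {G : Type*} [NormedAddCommGroup G] [NormedSpace ℝ G]
    {f : F → G} {D : Set F} (hD : Convex ℝ D) {C : ℝ} (hC : 0 ≤ C)
    (hf : ∀ x ∈ D, DifferentiableAt ℝ f x)
    (hl : ∀ x ∈ D, ∀ z ∈ D, ‖fderiv ℝ f z - fderiv ℝ f x‖ ≤ C * ‖z - x‖) {x z : F}
    (hx : x ∈ D) (hz : z ∈ D) : ‖f z - f x - fderiv ℝ f x (z - x)‖ ≤ C * ‖z - x‖ ^ 2 := by
  have hseg : segment ℝ x z ⊆ D := hD.segment_subset hx hz
  have := (convex_segment x z).norm_image_sub_le_of_norm_hasFDerivWithin_le'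
    (f := f) (f' := fun v => fderiv ℝ f v) (φ := fderiv ℝ f x) (C := C * ‖z - x‖)
    (fun v hv => (hf v (hseg hv)).hasFDerivAt.hasFDerivWithinAt)
    (fun v hv => ?_) (left_mem_segment ℝ x z) (right_mem_segment ℝ x z)
  · refine this.trans (le_of_eq ?_)
    ring
  · refine (hl x hx v (hseg hv)).trans ?_
    refine mul_le_mul_of_nonneg_left ?_ hC
    obtain ⟨a, b, ha, hb, hab, rfl⟩ := hv
    have e : a • x + b • z - x = b • (z - x) := by
      have : a = 1 - b := by linarith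
      rw [this]; module
    rw [e, norm_smul, Real.norm_of_nonneg hb]
    have : b ≤ 1 := by linarith
    exact mul_le_of_le_one_left (norm_nonneg _) this

/-- **the feet are `τ`-close.** -/
theorem foot_close (h : Cl u u' D κ τ) {a : F} {b : V} {x x' : F} {y y' : V}
    (hf : Foot u a b x y) (hf' : Foot u' a b x' y') (hx : x ∈ D) (hx' : x' ∈ D)
    (hy : ‖y‖ ≤ 1 / 4) :
    ‖x' - x‖ ≤ τ ∧ ‖y' - y‖ ≤ 2 * τ ∧ ‖fderiv ℝ u' x' - fderiv ℝ u x‖ ≤ 2 * τ := by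
  have hκ0 := h.κ0
  have hκ1 := h.κ1
  have hτ0 := h.τ0
  set d := x' - x with hd
  have e1 : y' - y = -(u' x' - u x') - (u x' - u x) := by
    have h1 := hf.2; have h2 := hf'.2
    have h3 : u x + y = u' x' + y' := by rw [← h1, ← h2]
    have h4 : y' = u x + y - u' x' := by rw [h3]; abel
    rw [h4]; abel
  have n1 : ‖y' - y‖ ≤ τ + κ * ‖d‖ := by
    rw [e1]
    refine (norm_sub_le _ _).trans ?_
    rw [norm_neg]
    exact add_le_add (h.w0 x' hx') (h.u_lip hx hx')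
  have n2 : ‖fderiv ℝ u' x' - fderiv ℝ u x‖ ≤ τ + κ * ‖d‖ := by
    have e : fderiv ℝ u' x' - fderiv ℝ u x = (fderiv ℝ u' x' - fderiv ℝ u x') +
        (fderiv ℝ u x' - fderiv ℝ u x) := by abel
    rw [e]
    exact (norm_add_le _ _).trans (add_le_add (h.w1 x' hx') (h.du_lip hx hx'))
  have e2 : d = adjL (fderiv ℝ u' x') (y' - y) + adjL (fderiv ℝ u' x' - fderiv ℝ u x) y := by
    have h1 := hf.1; have h2 := hf'.1
    have h3 : x' = x - adjL (fderiv ℝ u x) y + adjL (fderiv ℝ u' x') y' := by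
      rw [← h1, h2]; abel
    rw [hd]
    conv_lhs => rw [h3]
    simp only [map_sub, sub_apply]
    abel
  have n3 : ‖d‖ ≤ κ * (τ + κ * ‖d‖) + (τ + κ * ‖d‖) * (1 / 4) := by
    calc ‖d‖ = ‖adjL (fderiv ℝ u' x') (y' - y) + adjL (fderiv ℝ u' x' - fderiv ℝ u x) y‖ := by
          rw [← e2]
      _ ≤ ‖adjL (fderiv ℝ u' x') (y' - y)‖ + ‖adjL (fderiv ℝ u' x' - fderiv ℝ u x) y‖ :=
          norm_add_le _ _
      _ ≤ κ * (τ + κ * ‖d‖) + (τ + κ * ‖d‖) * (1 / 4) := by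
          refine add_le_add ?_ ?_
          · refine ((adjL (fderiv ℝ u' x')).le_opNorm _).trans ?_
            rw [norm_adjL]
            exact mul_le_mul (h.d1' x' hx') n1 (norm_nonneg _) hκ0
          · refine ((adjL (fderiv ℝ u' x' - fderiv ℝ u x)).le_opNorm _).trans ?_
            rw [norm_adjL]
            exact mul_le_mul n2 hy (norm_nonneg _) ((norm_nonneg _).trans n2)
  have hd0 := norm_nonneg d
  have hκd : κ * ‖d‖ ≤ 1 / 4 * ‖d‖ := mul_le_mul_of_nonneg_right hκ1 hd0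
  have n4 : ‖d‖ ≤ τ := by
    have h5 : κ * (τ + κ * ‖d‖) ≤ 1 / 4 * (τ + κ * ‖d‖) :=
      mul_le_mul_of_nonneg_right hκ1 (by positivity)
    nlinarith
  have n5 : κ * ‖d‖ ≤ τ := by nlinarith
  exact ⟨n4, by linarith, by linarith⟩

/-- **first order expansion of the foot.** -/
theorem foot_expand (h : Cl u u' D κ τ) {a : F} {b : V} {x x' : F} {y y' : V}
    (hf : Foot u a b x y) (hf' : Foot u' a b x' y') (hx : x ∈ D) (hx' : x' ∈ D)
    (hy : ‖y‖ ≤ 1 / 4) :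
    ‖(x' - x) + KT (fderiv ℝ u x) (u' x - u x)‖ ≤ 5 * τ ^ 2 + 2 * τ * ‖y‖ := by
  obtain ⟨n4, n5, n6⟩ := h.foot_close hf hf' hx hx' hy
  have hκ0 := h.κ0
  have hκ1 := h.κ1
  have hτ0 := h.τ0
  set q := fderiv ℝ u x with hq
  set d := x' - x with hd
  set w := u' x - u x with hw
  have hd0 := norm_nonneg d
  have hqn : ‖q‖ ≤ κ := h.d1 x hx
  -- E1
  set E1 : V := (y' - y) + w + q d with hE1
  have hE1n : ‖E1‖ ≤ 2 * τ ^ 2 := by
    have e1 : E1 = -((u' x' - u x') - (u' x - u x)) - (u x' - u x - q d) := by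
      have h1 := hf.2; have h2 := hf'.2
      have h3 : u x + y = u' x' + y' := by rw [← h1, ← h2]
      have h4 : y' = u x + y - u' x' := by rw [h3]; abel
      rw [hE1, h4, hw]; abel
    rw [e1]
    have t1 := h.w_lip hx hx'
    have t2 := taylor1 h.conv hκ0 (fun v _ => h.diff_u v) (fun v hv z hz => h.du_lip hv hz) hx hx'
    refine (norm_sub_le _ _).trans ?_
    rw [norm_neg]
    have t3 : τ * ‖d‖ ≤ τ * τ := mul_le_mul_of_nonneg_left n4 hτ0
    have t4 : κ * ‖d‖ ^ 2 ≤ 1 * τ ^ 2 := by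
      refine mul_le_mul (by linarith) (pow_le_pow_left₀ hd0 n4 2) (by positivity) zero_le_one
    have : ‖u x' - u x - q d‖ ≤ κ * ‖d‖ ^ 2 := t2
    nlinarith
  set E2 : F := adjL (fderiv ℝ u' x' - q) (y' - y) + adjL (fderiv ℝ u' x' - q) y with hE2
  have hE2n : ‖E2‖ ≤ 4 * τ ^ 2 + 2 * τ * ‖y‖ := by
    rw [hE2]
    refine (norm_add_le _ _).trans (add_le_add ?_ ?_)
    · refine ((adjL (fderiv ℝ u' x' - q)).le_opNorm _).trans ?_
      rw [norm_adjL]
      calc ‖fderiv ℝ u' x' - q‖ * ‖y' - y‖ ≤ (2 * τ) * (2 * τ) :=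
            mul_le_mul n6 n5 (norm_nonneg _) (by positivity)
        _ = 4 * τ ^ 2 := by ring
    · refine ((adjL (fderiv ℝ u' x' - q)).le_opNorm _).trans ?_
      rw [norm_adjL]
      exact mul_le_mul_of_nonneg_right n6 (norm_nonneg _)
  have e2 : gop q d = -(adjL q w) + adjL q E1 + E2 := by
    have h1 := hf.1; have h2 := hf'.1
    have h3 : x' = x - adjL (fderiv ℝ u x) y + adjL (fderiv ℝ u' x') y' := by
      rw [← h1, h2]; abel
    have h4 : d = adjL (fderiv ℝ u' x') y' - adjL q y := by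
      rw [hd]
      conv_lhs => rw [h3]
      abel
    have h5 : gop q d = d + adjL q (q d) := rfl
    have h6 : adjL q E1 = adjL q y' - adjL q y + adjL q w + adjL q (q d) := by
      rw [hE1]; simp only [map_sub, map_add]
    have h7 : E2 = adjL (fderiv ℝ u' x') y' - adjL q y' := by
      rw [hE2]
      simp only [map_sub, sub_apply]
      abel
    rw [h5, h6, h7]
    generalize adjL q (q d) = W
    rw [h4]
    abel
  have e3 : d + KT q w = ginv q (adjL q E1 + E2) := by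
    have h6 : ginv q (gop q d) = d := congrArg (fun T : F →L[ℝ] F => T d) (ginv_gop q)
    have h7 : KT q w = ginv q (adjL q w) := rfl
    calc d + KT q w = ginv q (gop q d) + ginv q (adjL q w) := by rw [h6, h7]
      _ = ginv q (gop q d + adjL q w) := (map_add _ _ _).symm
      _ = ginv q (adjL q E1 + E2) := by rw [e2]; congr 1; abel
  rw [e3]
  refine ((ginv q).le_opNorm _).trans ?_
  have n7 : ‖adjL q E1 + E2‖ ≤ 5 * τ ^ 2 + 2 * τ * ‖y‖ := by
    refine (norm_add_le _ _).trans ?_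
    have h8 : ‖adjL q E1‖ ≤ (1 / 4) * (2 * τ ^ 2) := by
      refine ((adjL q).le_opNorm _).trans ?_
      rw [norm_adjL]
      exact mul_le_mul (hqn.trans hκ1) hE1n (norm_nonneg _) (by norm_num)
    nlinarith [sq_nonneg τ]
  calc ‖ginv q‖ * ‖adjL q E1 + E2‖ ≤ 1 * (5 * τ ^ 2 + 2 * τ * ‖y‖) :=
        mul_le_mul (norm_ginv_le q) n7 (norm_nonneg _) zero_le_one
    _ = _ := one_mul _

end Cl

end Crest.Agent.R234.Sw_733
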