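import Crest.Agent.R234.Sw3_733

/-! # Row 234, VF-F6 (helper733), part 4: pointwise comparison of the test functions -/

set_option autoImplicit false
set_option linter.unusedSectionVars false

open MeasureTheory Set Metric Filter Topology
open scoped ENNReal NNReal ContDiff
open Crest.Agent.R234.Ell1_3 Crest.Agent.R234.Fm_209

noncomputable section

namespace Crest.Agent.R234.Sw_733

variable {F V : Type} [NormedAddCommGroup F] [InnerProductSpace ℝ F] [FiniteDimensional ℝ F]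
  [NormedAddCommGroup V] [InnerProductSpace ℝ V] [FiniteDimensional ℝ V]

/-- a `C²` test function with explicit bounds. -/
structure Tst (χ : F → ℝ) (c : ℝ) : Prop where
  cd : ContDiff ℝ 2 χ
  c0 : 0 ≤ c
  b0 : ∀ v, |χ v| ≤ c
  b1 : ∀ v, ‖fderiv ℝ χ v‖ ≤ c
  b2 : ∀ v, ‖fderiv ℝ (fderiv ℝ χ) v‖ ≤ c

namespace Tst

variable {χ : F → ℝ} {c : ℝ}

theorem diff (h : Tst χ c) (v : F) : DifferentiableAt ℝ χ v :=
  (h.cd.differentiable (by norm_num)) v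

theorem diff1 (h : Tst χ c) (v : F) : DifferentiableAt ℝ (fderiv ℝ χ) v :=
  ((h.cd.fderiv_right (m := 1) (by norm_num)).differentiable one_ne_zero) v

theorem lip (h : Tst χ c) (v z : F) : |χ z - χ v| ≤ c * ‖z - v‖ := by
  have := convex_univ.norm_image_sub_le_of_norm_fderiv_le (𝕜 := ℝ) (f := χ) (C := c)
    (fun v _ => h.diff v) (fun v _ => h.b1 v) (mem_univ v) (mem_univ z)
  rwa [Real.norm_eq_abs] at this

theorem lip1 (h : Tst χ c) (v z : F) : ‖fderiv ℝ χ z - fderiv ℝ χ v‖ ≤ c * ‖z - v‖ :=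
  convex_univ.norm_image_sub_le_of_norm_fderiv_le (𝕜 := ℝ)
    (fun v _ => h.diff1 v) (fun v _ => h.b2 v) (mem_univ v) (mem_univ z)

theorem taylor (h : Tst χ c) (v z : F) : |χ z - χ v - fderiv ℝ χ v (z - v)| ≤ c * ‖z - v‖ ^ 2 := by
  have := taylor1 (f := χ) convex_univ h.c0 (fun v _ => h.diff v) (fun v _ z _ => h.lip1 v z)
    (mem_univ v) (mem_univ z)
  rwa [Real.norm_eq_abs] at this

end Tst

/-- derivative of `χ • w`. -/
theorem fderiv_test {χ : F → ℝ} {w : F → V} {a : F} (hχ : DifferentiableAt ℝ χ a)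
    (hw : DifferentiableAt ℝ w a) :
    fderiv ℝ (fun v => χ v • w v) a = χ a • fderiv ℝ w a + (fderiv ℝ χ a).smulRight (w a) :=
  (hχ.hasFDerivAt.smul hw.hasFDerivAt).fderiv

theorem trc_smulRight (ℓ : F →L[ℝ] ℝ) (w : V) (K : V →L[ℝ] F) :
    trc V ((ℓ.smulRight w) ∘L K) = ℓ (K w) := by
  have h1 : (ℓ.smulRight w) ∘L K = (ℓ ∘L K).smulRight w := by
    ext v; simp
  rw [h1, trc_apply]
  have h2 : ((ℓ ∘L K).smulRight w : V →L[ℝ] V) =
      (((ℓ ∘L K : V →L[ℝ] ℝ) : V →ₗ[ℝ] ℝ).smulRight w : V →ₗ[ℝ] V) := rfl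
  rw [h2, LinearMap.trace_smulRight]
  rfl

/-- **pointwise comparison of the test functions.** -/
theorem Cl.test_pt {u u' : F → V} {D : Set F} {κ τ : ℝ} (h : Cl u u' D κ τ) {χ : F → ℝ} {c : ℝ}
    (hχ : Tst χ c) {a : F} {b : V} {x x' : F} {y y' : V} {K : V →L[ℝ] F}
    (hf : Foot u a b x y) (hf' : Foot u' a b x' y') (ha : a ∈ D) (hx : x ∈ D) (hx' : x' ∈ D)
    (hy : ‖y‖ ≤ 1 / 4) (hK : ‖K‖ ≤ 1) :
    |χ x' - χ x + trc V (fderiv ℝ (fun v => χ v • (u' v - u v)) a ∘L K) -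
      χ x * trc F (KT (fderiv ℝ u x) ∘L (fderiv ℝ u' x - fderiv ℝ u x))| ≤
      (6 + 3 * ‖trc V‖) * c * (τ ^ 2 + τ * ‖y‖ + τ * ‖K - KT (fderiv ℝ u x)‖) := by
  obtain ⟨n1, n2, n3⟩ := h.foot_close hf hf' hx hx' hy
  have n4 := h.foot_expand hf hf' hx hx' hy
  have hκ0 := h.κ0
  have hκ1 := h.κ1
  have hτ0 := h.τ0
  have hτ1 := h.τ1
  have hc0 := hχ.c0
  have ht0 : 0 ≤ ‖trc V‖ := (trc V).opNorm_nonneg
  have hy0 : 0 ≤ ‖y‖ := norm_nonneg _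
  have hk0 : 0 ≤ ‖K - KT (fderiv ℝ u x)‖ := norm_nonneg _
  set q := fderiv ℝ u x with hq
  set w : F → V := fun v => u' v - u v with hw
  have hwd : ∀ v, HasFDerivAt w (fderiv ℝ u' v - fderiv ℝ u v) v := fun v =>
    (h.diff_u' v).hasFDerivAt.sub (h.diff_u v).hasFDerivAt
  have hwf : fderiv ℝ w a = fderiv ℝ u' a - fderiv ℝ u a := (hwd a).fderiv
  have hax : ‖a - x‖ ≤ ‖y‖ := by
    have h1 : a - x = -(adjL q y) := by rw [hf.1]; abel
    rw [h1, norm_neg]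
    refine ((adjL q).le_opNorm _).trans ?_
    rw [norm_adjL]
    exact mul_le_of_le_one_left hy0 ((h.d1 x hx).trans (by linarith))
  rw [fderiv_test (hχ.diff a) (hwd a).differentiableAt, hwf, ContinuousLinearMap.add_comp, map_add,
    trc_smulRight]
  have e0 : (χ a • (fderiv ℝ u' a - fderiv ℝ u a)) ∘L K =
      χ a • ((fderiv ℝ u' a - fderiv ℝ u a) ∘L K) := rfl
  rw [e0, map_smul, smul_eq_mul]
  set Wa := fderiv ℝ u' a - fderiv ℝ u a with hWa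
  set Wx := fderiv ℝ u' x - q with hWx
  have e1 : trc F (KT q ∘L Wx) = trc V (Wx ∘L KT q) := trc_comp_comm _ _
  rw [e1]
  set d := x' - x with hd
  -- the pieces
  have p1 : |χ x' - χ x - fderiv ℝ χ x d| ≤ c * τ ^ 2 := by
    refine (hχ.taylor x x').trans ?_
    exact mul_le_mul_of_nonneg_left (pow_le_pow_left₀ (norm_nonneg _) n1 2) hc0
  have p2 : |fderiv ℝ χ x (d + KT q (w x))| ≤ c * (5 * τ ^ 2 + 2 * τ * ‖y‖) := by
    rw [← Real.norm_eq_abs]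
    refine ((fderiv ℝ χ x).le_opNorm _).trans ?_
    exact mul_le_mul (hχ.b1 x) n4 (norm_nonneg _) hc0
  have hwa : ‖w a‖ ≤ τ := h.w0 a ha
  have hwx : ‖w x‖ ≤ τ := h.w0 x hx
  have hwax : ‖w a - w x‖ ≤ τ * ‖y‖ :=
    (h.w_lip hx ha).trans (mul_le_mul_of_nonneg_left hax hτ0)
  have hWax : ‖Wa - Wx‖ ≤ τ * ‖y‖ :=
    (h.dw_lip hx ha).trans (mul_le_mul_of_nonneg_left hax hτ0)
  have hWan : ‖Wa‖ ≤ τ := h.w1 a ha
  have hWxn : ‖Wx‖ ≤ τ := h.w1 x hx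
  have p3 : |(fderiv ℝ χ a - fderiv ℝ χ x) (K (w a))| ≤ c * (τ * ‖y‖) := by
    rw [← Real.norm_eq_abs]
    refine ((fderiv ℝ χ a - fderiv ℝ χ x).le_opNorm _).trans ?_
    have h1 : ‖K (w a)‖ ≤ τ := (K.le_opNorm _).trans ((mul_le_mul hK hwa (norm_nonneg _)
      zero_le_one).trans (by rw [one_mul]))
    calc ‖fderiv ℝ χ a - fderiv ℝ χ x‖ * ‖K (w a)‖ ≤ (c * ‖y‖) * τ :=
          mul_le_mul ((hχ.lip1 x a).trans (mul_le_mul_of_nonneg_left hax hc0)) h1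
            (norm_nonneg _) (by positivity)
      _ = c * (τ * ‖y‖) := by ring
  have p4 : |fderiv ℝ χ x (K (w a - w x))| ≤ c * (τ * ‖y‖) := by
    rw [← Real.norm_eq_abs]
    refine ((fderiv ℝ χ x).le_opNorm _).trans ?_
    refine mul_le_mul (hχ.b1 x) ?_ (norm_nonneg _) hc0
    exact (K.le_opNorm _).trans ((mul_le_mul hK hwax (norm_nonneg _) zero_le_one).trans
      (by rw [one_mul]))
  have p5 : |fderiv ℝ χ x ((K - KT q) (w x))| ≤ c * (τ * ‖K - KT q‖) := by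
    rw [← Real.norm_eq_abs]
    refine ((fderiv ℝ χ x).le_opNorm _).trans ?_
    refine mul_le_mul (hχ.b1 x) ?_ (norm_nonneg _) hc0
    refine ((K - KT q).le_opNorm _).trans ?_
    rw [mul_comm]
    exact mul_le_mul_of_nonneg_right hwx hk0
  have hcomp1 : ‖Wa ∘L K‖ ≤ τ := (ContinuousLinearMap.opNorm_comp_le _ _).trans
    ((mul_le_mul hWan hK (norm_nonneg _) hτ0).trans (by rw [mul_one]))
  have p6 : |(χ a - χ x) * trc V (Wa ∘L K)| ≤ ‖trc V‖ * c * (τ * ‖y‖) := by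
    rw [abs_mul]
    calc |χ a - χ x| * |trc V (Wa ∘L K)| ≤ (c * ‖y‖) * (‖trc V‖ * τ) :=
          mul_le_mul ((hχ.lip x a).trans (mul_le_mul_of_nonneg_left hax hc0))
            ((abs_trc_le _).trans (mul_le_mul_of_nonneg_left hcomp1 ht0)) (abs_nonneg _)
            (by positivity)
      _ = _ := by ring
  have p7 : |χ x * trc V ((Wa - Wx) ∘L K)| ≤ ‖trc V‖ * c * (τ * ‖y‖) := by
    rw [abs_mul]
    have h1 : ‖(Wa - Wx) ∘L K‖ ≤ τ * ‖y‖ := (ContinuousLinearMap.opNorm_comp_le _ _).trans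
      ((mul_le_mul hWax hK (norm_nonneg _) (by positivity)).trans (by rw [mul_one]))
    calc |χ x| * |trc V ((Wa - Wx) ∘L K)| ≤ c * (‖trc V‖ * (τ * ‖y‖)) :=
          mul_le_mul (hχ.b0 x) ((abs_trc_le _).trans (mul_le_mul_of_nonneg_left h1 ht0))
            (abs_nonneg _) hc0
      _ = _ := by ring
  have p8 : |χ x * trc V (Wx ∘L (K - KT q))| ≤ ‖trc V‖ * c * (τ * ‖K - KT q‖) := by
    rw [abs_mul]
    have h1 : ‖Wx ∘L (K - KT q)‖ ≤ τ * ‖K - KT q‖ :=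
      (ContinuousLinearMap.opNorm_comp_le _ _).trans (mul_le_mul_of_nonneg_right hWxn hk0)
    calc |χ x| * |trc V (Wx ∘L (K - KT q))| ≤ c * (‖trc V‖ * (τ * ‖K - KT q‖)) :=
          mul_le_mul (hχ.b0 x) ((abs_trc_le _).trans (mul_le_mul_of_nonneg_left h1 ht0))
            (abs_nonneg _) hc0
      _ = _ := by ring
  -- the identity
  have e2 : χ x' - χ x + (χ a * trc V (Wa ∘L K) + fderiv ℝ χ a (K (w a))) -
      χ x * trc V (Wx ∘L KT q) =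
      (χ x' - χ x - fderiv ℝ χ x d) + fderiv ℝ χ x (d + KT q (w x)) +
      (fderiv ℝ χ a - fderiv ℝ χ x) (K (w a)) + fderiv ℝ χ x (K (w a - w x)) +
      fderiv ℝ χ x ((K - KT q) (w x)) + (χ a - χ x) * trc V (Wa ∘L K) +
      χ x * trc V ((Wa - Wx) ∘L K) + χ x * trc V (Wx ∘L (K - KT q)) := by
    have f1 : trc V ((Wa - Wx) ∘L K) = trc V (Wa ∘L K) - trc V (Wx ∘L K) := by
      rw [ContinuousLinearMap.sub_comp, map_sub]
    have f2 : trc V (Wx ∘L (K - KT q)) = trc V (Wx ∘L K) - trc V (Wx ∘L KT q) := by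
      rw [ContinuousLinearMap.comp_sub, map_sub]
    rw [f1, f2]
    simp only [map_add, map_sub, sub_apply]
    ring
  rw [e2]
  have t1 := abs_add_le ((χ x' - χ x - fderiv ℝ χ x d) + fderiv ℝ χ x (d + KT q (w x)) +
      (fderiv ℝ χ a - fderiv ℝ χ x) (K (w a)) + fderiv ℝ χ x (K (w a - w x)) +
      fderiv ℝ χ x ((K - KT q) (w x)) + (χ a - χ x) * trc V (Wa ∘L K) +
      χ x * trc V ((Wa - Wx) ∘L K)) (χ x * trc V (Wx ∘L (K - KT q)))
  have t2 := abs_add_le ((χ x' - χ x - fderiv ℝ χ x d) + fderiv ℝ χ x (d + KT q (w x)) +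
      (fderiv ℝ χ a - fderiv ℝ χ x) (K (w a)) + fderiv ℝ χ x (K (w a - w x)) +
      fderiv ℝ χ x ((K - KT q) (w x)) + (χ a - χ x) * trc V (Wa ∘L K))
      (χ x * trc V ((Wa - Wx) ∘L K))
  have t3 := abs_add_le ((χ x' - χ x - fderiv ℝ χ x d) + fderiv ℝ χ x (d + KT q (w x)) +
      (fderiv ℝ χ a - fderiv ℝ χ x) (K (w a)) + fderiv ℝ χ x (K (w a - w x)) +
      fderiv ℝ χ x ((K - KT q) (w x))) ((χ a - χ x) * trc V (Wa ∘L K))
  have t4 := abs_add_le ((χ x' - χ x - fderiv ℝ χ x d) + fderiv ℝ χ x (d + KT q (w x)) +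
      (fderiv ℝ χ a - fderiv ℝ χ x) (K (w a)) + fderiv ℝ χ x (K (w a - w x)))
      (fderiv ℝ χ x ((K - KT q) (w x)))
  have t5 := abs_add_le ((χ x' - χ x - fderiv ℝ χ x d) + fderiv ℝ χ x (d + KT q (w x)) +
      (fderiv ℝ χ a - fderiv ℝ χ x) (K (w a))) (fderiv ℝ χ x (K (w a - w x)))
  have t6 := abs_add_le ((χ x' - χ x - fderiv ℝ χ x d) + fderiv ℝ χ x (d + KT q (w x)))
      ((fderiv ℝ χ a - fderiv ℝ χ x) (K (w a)))
  have t7 := abs_add_le (χ x' - χ x - fderiv ℝ χ x d) (fderiv ℝ χ x (d + KT q (w x)))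
  have s1 : 0 ≤ c * (τ * ‖y‖) := by positivity
  have s2 : 0 ≤ c * (τ * ‖K - KT q‖) := by positivity
  have s3 : 0 ≤ c * τ ^ 2 := by positivity
  have s4 : 0 ≤ ‖trc V‖ * (c * (τ * ‖y‖)) := by positivity
  have s5 : 0 ≤ ‖trc V‖ * (c * (τ * ‖K - KT q‖)) := by positivity
  have s6 : 0 ≤ ‖trc V‖ * (c * τ ^ 2) := by positivity
  have e4 : (6 + 3 * ‖trc V‖) * c * (τ ^ 2 + τ * ‖y‖ + τ * ‖K - KT q‖) =
      6 * (c * τ ^ 2) + 6 * (c * (τ * ‖y‖)) + 6 * (c * (τ * ‖K - KT q‖)) +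
      3 * (‖trc V‖ * (c * τ ^ 2)) + 3 * (‖trc V‖ * (c * (τ * ‖y‖))) +
      3 * (‖trc V‖ * (c * (τ * ‖K - KT q‖))) := by ring
  rw [e4]
  have e5 : c * (5 * τ ^ 2 + 2 * τ * ‖y‖) = 5 * (c * τ ^ 2) + 2 * (c * (τ * ‖y‖)) := by ring
  rw [e5] at p2
  have e6 : ∀ r : ℝ, ‖trc V‖ * c * r = ‖trc V‖ * (c * r) := fun r => by ring
  rw [e6] at p6 p7 p8
  linarith

end Crest.Agent.R234.Sw_733
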