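import Crest.Agent.R234.Sw5_733

/-! # Row 234, VF-F6 (helper733), part 6: the height changes little when the reference is switched -/

set_option autoImplicit false
set_option linter.unusedSectionVars false

open MeasureTheory Set Metric Filter Topology
open scoped ENNReal NNReal ContDiff
open Crest.Agent.R234.Ell1_3 Crest.Agent.R234.Fm_209

noncomputable section

namespace Crest.Agent.R234.Sw_733

variable {F V : Type} [NormedAddCommGroup F] [InnerProductSpace ℝ F] [FiniteDimensional ℝ F]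
  [NormedAddCommGroup V] [InnerProductSpace ℝ V] [FiniteDimensional ℝ V]
  [MeasurableSpace F] [BorelSpace F]

/-- half of the squared distance in the normal chart: `(|qᵀ y|² + |y|²) / 2`. -/
def hf (q : F →L[ℝ] V) (y : V) : ℝ := (‖adjL q y‖ ^ 2 + ‖y‖ ^ 2) / 2

theorem hf_nonneg (q : F →L[ℝ] V) (y : V) : 0 ≤ hf q y := by unfold hf; positivity

theorem hf_le {q : F →L[ℝ] V} (hq : ‖q‖ ≤ 1 / 4) (y : V) : hf q y ≤ ‖y‖ ^ 2 := by
  have h1 : ‖adjL q y‖ ≤ ‖y‖ := ((adjL q).le_opNorm _).trans (by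
    rw [norm_adjL]; exact mul_le_of_le_one_left (norm_nonneg _) (hq.trans (by norm_num)))
  have h2 : ‖adjL q y‖ ^ 2 ≤ ‖y‖ ^ 2 := pow_le_pow_left₀ (norm_nonneg _) h1 2
  unfold hf; linarith

/-- pointwise comparison of the heights. -/
theorem Cl.hf_pt {u u' : F → V} {D : Set F} {κ τ : ℝ} (h : Cl u u' D κ τ)
    {a : F} {b : V} {x x' : F} {y y' : V}
    (hf1 : Foot u a b x y) (hf1' : Foot u' a b x' y') (hx : x ∈ D) (hx' : x' ∈ D)
    (hy : ‖y‖ ≤ 1 / 4) :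
    |hf (fderiv ℝ u' x') y' - hf (fderiv ℝ u x) y| ≤ 3 * (τ * ‖y‖ + τ ^ 2) := by
  obtain ⟨n1, n2, n3⟩ := h.foot_close hf1 hf1' hx hx' hy
  have hκ1 := h.κ1
  have hτ0 := h.τ0
  have hy0 := norm_nonneg y
  have hy0' := norm_nonneg y'
  set q := fderiv ℝ u x
  set q' := fderiv ℝ u' x'
  have hq : ‖q‖ ≤ 1 / 4 := (h.d1 x hx).trans hκ1
  have hq' : ‖q'‖ ≤ 1 / 4 := (h.d1' x' hx').trans hκ1
  have a1 : ‖y'‖ ≤ ‖y‖ + 2 * τ := by
    have : ‖y'‖ ≤ ‖y' - y‖ + ‖y‖ := by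
      calc ‖y'‖ = ‖(y' - y) + y‖ := by rw [sub_add_cancel]
        _ ≤ _ := norm_add_le _ _
    linarith
  have a2 : |‖y'‖ - ‖y‖| ≤ 2 * τ := (abs_norm_sub_norm_le _ _).trans n2
  have a3 : ‖adjL q' y' - adjL q y‖ ≤ τ := by
    have e : adjL q' y' - adjL q y = adjL q' (y' - y) + adjL (q' - q) y := by
      simp only [map_sub, sub_apply]; abel
    rw [e]
    refine (norm_add_le _ _).trans ?_
    have b1 : ‖adjL q' (y' - y)‖ ≤ 1 / 4 * (2 * τ) := ((adjL q').le_opNorm _).trans (by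
      rw [norm_adjL]; exact mul_le_mul hq' n2 (norm_nonneg _) (by norm_num))
    have b2 : ‖adjL (q' - q) y‖ ≤ (2 * τ) * (1 / 4) := ((adjL (q' - q)).le_opNorm _).trans (by
      rw [norm_adjL]; exact mul_le_mul n3 hy (norm_nonneg _) (by positivity))
    linarith
  have a4 : |‖adjL q' y'‖ - ‖adjL q y‖| ≤ τ := (abs_norm_sub_norm_le _ _).trans a3
  have a5 : ‖adjL q y‖ ≤ 1 / 4 * ‖y‖ := ((adjL q).le_opNorm _).trans (by
    rw [norm_adjL]; exact mul_le_mul_of_nonneg_right hq hy0)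
  have a6 : ‖adjL q' y'‖ ≤ 1 / 4 * ‖y'‖ := ((adjL q').le_opNorm _).trans (by
    rw [norm_adjL]; exact mul_le_mul_of_nonneg_right hq' hy0')
  have b0 := norm_nonneg (adjL q y)
  have b0' := norm_nonneg (adjL q' y')
  have e1 : hf q' y' - hf q y = ((‖adjL q' y'‖ - ‖adjL q y‖) * (‖adjL q' y'‖ + ‖adjL q y‖) +
      (‖y'‖ - ‖y‖) * (‖y'‖ + ‖y‖)) / 2 := by unfold hf; ring
  rw [e1, abs_div, abs_two]
  have c1 : |(‖adjL q' y'‖ - ‖adjL q y‖) * (‖adjL q' y'‖ + ‖adjL q y‖)| ≤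
      τ * (1 / 4 * (2 * ‖y‖ + 2 * τ)) := by
    rw [abs_mul, abs_of_nonneg (add_nonneg b0' b0)]
    exact mul_le_mul a4 (by linarith) (by positivity) hτ0
  have c2 : |(‖y'‖ - ‖y‖) * (‖y'‖ + ‖y‖)| ≤ (2 * τ) * (2 * ‖y‖ + 2 * τ) := by
    rw [abs_mul, abs_of_nonneg (add_nonneg hy0' hy0)]
    exact mul_le_mul a2 (by linarith) (by positivity) (by positivity)
  have c3 := abs_add_le ((‖adjL q' y'‖ - ‖adjL q y‖) * (‖adjL q' y'‖ + ‖adjL q y‖))
    ((‖y'‖ - ‖y‖) * (‖y'‖ + ‖y‖))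
  have c4 : 0 ≤ τ * ‖y‖ := by positivity
  rw [div_le_iff₀ (by norm_num)]
  nlinarith [sq_nonneg τ]

/-- **pointwise comparison of the height kernels** `f μ(x) ψ(x)`. -/
theorem Cl.I_pt {u u' : F → V} {D : Set F} {κ τ : ℝ} (h : Cl u u' D κ τ)
    {a : F} {b : V} {x x' : F} {y y' : V}
    (hf1 : Foot u a b x y) (hf1' : Foot u' a b x' y') (hx : x ∈ D) (hx' : x' ∈ D)
    (hy : ‖y‖ ≤ 1 / 4) {ψ M M' : F → ℝ} {c e : ℝ} (hc : 0 ≤ c) (he : 0 ≤ e)
    (ψ0 : ∀ v, |ψ v| ≤ c) (ψ1 : ∀ v v', |ψ v' - ψ v| ≤ c * ‖v' - v‖)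
    (M0 : ∀ v ∈ D, |M v| ≤ e) (M0' : ∀ v ∈ D, |M' v| ≤ e)
    (M1 : ∀ v ∈ D, |M' v - M v| ≤ e * τ) (M2 : ∀ v ∈ D, ∀ v' ∈ D, |M v' - M v| ≤ e * ‖v' - v‖) :
    |hf (fderiv ℝ u' x') y' * M' x' * ψ x' - hf (fderiv ℝ u x) y * M x * ψ x| ≤
      6 * c * e * (τ * ‖y‖ + τ ^ 2) := by
  obtain ⟨n1, n2, n3⟩ := h.foot_close hf1 hf1' hx hx' hy
  have h1 := h.hf_pt hf1 hf1' hx hx' hy
  have hτ0 := h.τ0
  have hy0 := norm_nonneg y
  have h2 : hf (fderiv ℝ u x) y ≤ 1 / 4 * ‖y‖ := (hf_le ((h.d1 x hx).trans h.κ1) y).trans (by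
    rw [sq]; exact mul_le_mul_of_nonneg_right hy hy0)
  have h3 := hf_nonneg (fderiv ℝ u x) y
  set f := hf (fderiv ℝ u x) y
  set f' := hf (fderiv ℝ u' x') y'
  have e1 : f' * M' x' * ψ x' - f * M x * ψ x = (f' - f) * (M' x' * ψ x') +
      f * (((M' x' - M x') + (M x' - M x)) * ψ x') + f * (M x * (ψ x' - ψ x)) := by ring
  have p1 : |(f' - f) * (M' x' * ψ x')| ≤ (3 * (τ * ‖y‖ + τ ^ 2)) * (e * c) := by
    rw [abs_mul, abs_mul]
    exact mul_le_mul h1 (mul_le_mul (M0' x' hx') (ψ0 x') (abs_nonneg _) he) (by positivity)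
      (by positivity)
  have p2 : |f * (((M' x' - M x') + (M x' - M x)) * ψ x')| ≤
      (1 / 4 * ‖y‖) * ((e * τ + e * τ) * c) := by
    rw [abs_mul, abs_mul, abs_of_nonneg h3]
    refine mul_le_mul h2 (mul_le_mul ?_ (ψ0 x') (abs_nonneg _) (by positivity)) (by positivity)
      (by positivity)
    exact (abs_add_le _ _).trans (add_le_add (M1 x' hx') ((M2 x hx x' hx').trans
      (mul_le_mul_of_nonneg_left n1 he)))
  have p3 : |f * (M x * (ψ x' - ψ x))| ≤ (1 / 4 * ‖y‖) * (e * (c * τ)) := by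
    rw [abs_mul, abs_mul, abs_of_nonneg h3]
    exact mul_le_mul h2 (mul_le_mul (M0 x hx) ((ψ1 x x').trans
      (mul_le_mul_of_nonneg_left n1 hc)) (abs_nonneg _) he) (by positivity) (by positivity)
  rw [e1]
  have t1 := abs_add_le ((f' - f) * (M' x' * ψ x') +
      f * (((M' x' - M x') + (M x' - M x)) * ψ x')) (f * (M x * (ψ x' - ψ x)))
  have t2 := abs_add_le ((f' - f) * (M' x' * ψ x'))
      (f * (((M' x' - M x') + (M x' - M x)) * ψ x'))
  have s1 : 0 ≤ c * e * (τ * ‖y‖) := by positivity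
  have s2 : 0 ≤ c * e * τ ^ 2 := by positivity
  nlinarith

theorem Cl.I_switch {Ω : Type*} [MeasurableSpace Ω] {μ : Measure Ω} [IsFiniteMeasure μ]
    {u u' : F → V} {D S : Set F} {κ τ : ℝ} (h : Cl u u' D κ τ) {a : Ω → F} {b : Ω → V}
    {x x' : Ω → F} {y y' : Ω → V} {R : Set Ω} (hs : Sit μ u u' D S a b x x' y y' R)
    {ψ M M' : F → ℝ} {c e : ℝ} (hc : 0 ≤ c) (he : 0 ≤ e) (hψ : ∀ v ∉ S, ψ v = 0)
    (ψ0 : ∀ v, |ψ v| ≤ c) (ψ1 : ∀ v v', |ψ v' - ψ v| ≤ c * ‖v' - v‖)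
    (M0 : ∀ v ∈ D, |M v| ≤ e) (M0' : ∀ v ∈ D, |M' v| ≤ e)
    (M1 : ∀ v ∈ D, |M' v - M v| ≤ e * τ) (M2 : ∀ v ∈ D, ∀ v' ∈ D, |M v' - M v| ≤ e * ‖v' - v‖)
    {f f' : Ω → ℝ}
    (hf1 : ∀ᵐ p ∂μ, p ∈ R → f p = hf (fderiv ℝ u (x p)) (y p))
    (hf1' : ∀ᵐ p ∂μ, p ∈ R → f' p = hf (fderiv ℝ u' (x' p)) (y' p))
    (hi : Integrable (fun p => f p * M (x p) * ψ (x p)) μ)
    (hi' : Integrable (fun p => f' p * M' (x' p) * ψ (x' p)) μ)
    (hyi : IntegrableOn (fun p => ‖y p‖) R μ) :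
    |∫ p, f' p * M' (x' p) * ψ (x' p) ∂μ - ∫ p, f p * M (x p) * ψ (x p) ∂μ| ≤
      6 * c * e * (τ * ∫ p in R, ‖y p‖ ∂μ + τ ^ 2 * μ.real R) := by
  rw [← integral_sub hi' hi]
  have e2 : ∫ p, (f' p * M' (x' p) * ψ (x' p) - f p * M (x p) * ψ (x p)) ∂μ =
      ∫ p in R, (f' p * M' (x' p) * ψ (x' p) - f p * M (x p) * ψ (x p)) ∂μ := by
    rw [← integral_indicator hs.mR]
    refine integral_congr_ae ?_
    filter_upwards [hs.out] with p hp
    by_cases hR : p ∈ R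
    · rw [indicator_of_mem hR]
    · rw [indicator_of_notMem hR]
      obtain ⟨h1, h2, h3⟩ := hp hR
      rw [hψ _ h1, hψ _ h2]
      simp
  have e3 : 6 * c * e * (τ * ∫ p in R, ‖y p‖ ∂μ + τ ^ 2 * μ.real R) =
      ∫ p in R, 6 * c * e * (τ * ‖y p‖ + τ ^ 2) ∂μ := by
    rw [integral_const_mul, integral_add (hyi.const_mul τ) (integrable_const _),
      integral_const_mul, setIntegral_const, smul_eq_mul, mul_comm (μ.real R)]
  rw [e2, e3, ← Real.norm_eq_abs]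
  refine norm_integral_le_of_norm_le ?_ ?_
  · exact ((hyi.const_mul τ).add (integrable_const _)).const_mul _
  · rw [ae_restrict_iff' hs.mR]
    filter_upwards [hs.inn, hf1, hf1'] with p hp g1 g1' hR
    obtain ⟨h1, h2, h3, h4, h5, h6⟩ := hp hR
    rw [Real.norm_eq_abs, g1 hR, g1' hR]
    exact h.I_pt h1 h2 h4 h5 h6 hc he ψ0 ψ1 M0 M0' M1 M2

/-- Lipschitz property of the radial coefficient `μ` of a metric which is standard at `0`. -/
theorem mu_lip {gi : F → F →L[ℝ] F} {D : Set F} {L : ℝ} (hL : 0 ≤ L) (h0 : (0 : F) ∈ D)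
    (g0 : gi 0 = ContinuousLinearMap.id ℝ F)
    (hg : ∀ v ∈ D, ∀ v' ∈ D, ‖gi v' - gi v‖ ≤ L * ‖v' - v‖) {M : F → ℝ} (M0 : M 0 = 1)
    (hM : ∀ v ∈ D, inner ℝ v (gi v v) = M v * ‖v‖ ^ 2) :
    (∀ v ∈ D, ∀ v' ∈ D, |M v' - M v| ≤ 5 * L * ‖v' - v‖) := by
  -- values in terms of unit vectors
  have key : ∀ v ∈ D, |M v - 1| ≤ L * ‖v‖ := by
    intro v hv
    rcases eq_or_ne v 0 with rfl | hv0
    · rw [M0]; simp
    · have hn : 0 < ‖v‖ := norm_pos_iff.2 hv0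
      have h1 : (M v - 1) * ‖v‖ ^ 2 = inner ℝ v ((gi v - gi 0) v) := by
        rw [sub_apply, inner_sub_right, hM v hv, g0, ContinuousLinearMap.id_apply,
          real_inner_self_eq_norm_sq]; ring
      have h2 : |(M v - 1) * ‖v‖ ^ 2| ≤ (L * ‖v‖) * ‖v‖ ^ 2 := by
        rw [h1]
        refine (abs_real_inner_le_norm _ _).trans ?_
        have h3 : ‖(gi v - gi 0) v‖ ≤ (L * ‖v‖) * ‖v‖ := ((gi v - gi 0).le_opNorm _).trans
          (mul_le_mul_of_nonneg_right (by simpa using hg 0 h0 v hv) (norm_nonneg _))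
        calc ‖v‖ * ‖(gi v - gi 0) v‖ ≤ ‖v‖ * ((L * ‖v‖) * ‖v‖) :=
              mul_le_mul_of_nonneg_left h3 (norm_nonneg _)
          _ = _ := by ring
      rw [abs_mul, abs_of_nonneg (sq_nonneg ‖v‖)] at h2
      exact le_of_mul_le_mul_right h2 (by positivity)
  have main : ∀ v ∈ D, ∀ v' ∈ D, ‖v‖ ≤ ‖v'‖ → |M v' - M v| ≤ 5 * L * ‖v' - v‖ := by
    intro v hv v' hv' hle
    rcases eq_or_ne v 0 with rfl | hv0
    · rw [M0, sub_zero]
      refine (key v' hv').trans ?_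
      nlinarith [norm_nonneg v', mul_nonneg hL (norm_nonneg v')]
    have hn : 0 < ‖v‖ := norm_pos_iff.2 hv0
    have hn' : 0 < ‖v'‖ := lt_of_lt_of_le hn hle
    set d := ‖v' - v‖ with hd
    have hd0 : 0 ≤ d := norm_nonneg _
    set t := ‖v'‖ / ‖v‖ with ht
    have ht1 : 1 ≤ t := (one_le_div hn).2 hle
    set w := t • v with hw
    have hwn : ‖w‖ = ‖v'‖ := by
      rw [hw, norm_smul, Real.norm_of_nonneg (by positivity), ht]; field_simp
    have hwv : ‖w - v‖ ≤ d := by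
      have : w - v = (t - 1) • v := by rw [hw]; module
      rw [this, norm_smul, Real.norm_of_nonneg (by linarith)]
      have h1 : (t - 1) * ‖v‖ = ‖v'‖ - ‖v‖ := by rw [ht]; field_simp
      rw [h1]
      exact norm_sub_norm_le _ _
    have hwv' : ‖v' - w‖ ≤ 2 * d := by
      have : v' - w = (v' - v) - (w - v) := by abel
      rw [this]
      refine (norm_sub_le _ _).trans ?_
      linarith
    -- `M v` through `w`
    have h2 : (M v - 1) * ‖v'‖ ^ 2 = inner ℝ w ((gi v - gi 0) w) := by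
      have h1 : (M v - 1) * ‖v‖ ^ 2 = inner ℝ v ((gi v - gi 0) v) := by
        rw [sub_apply, inner_sub_right, hM v hv, g0, ContinuousLinearMap.id_apply,
          real_inner_self_eq_norm_sq]; ring
      rw [hw, map_smul, inner_smul_left, inner_smul_right, ← h1]
      simp only [conj_trivial]
      rw [ht]; field_simp
    have h3 : (M v' - 1) * ‖v'‖ ^ 2 = inner ℝ v' ((gi v' - gi 0) v') := by
      rw [sub_apply, inner_sub_right, hM v' hv', g0, ContinuousLinearMap.id_apply,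
        real_inner_self_eq_norm_sq]; ring
    have h4 : (M v' - M v) * ‖v'‖ ^ 2 = inner ℝ v' ((gi v' - gi v) v') +
        inner ℝ (v' - w) ((gi v - gi 0) v') + inner ℝ w ((gi v - gi 0) (v' - w)) := by
      have : (M v' - M v) * ‖v'‖ ^ 2 = (M v' - 1) * ‖v'‖ ^ 2 - (M v - 1) * ‖v'‖ ^ 2 := by ring
      rw [this, h2, h3]
      simp only [sub_apply, map_sub, inner_sub_left, inner_sub_right]
      ring
    have q1 : |inner ℝ v' ((gi v' - gi v) v')| ≤ (L * d) * ‖v'‖ ^ 2 := by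
      refine (abs_real_inner_le_norm _ _).trans ?_
      have h5 : ‖(gi v' - gi v) v'‖ ≤ (L * d) * ‖v'‖ := ((gi v' - gi v).le_opNorm _).trans
        (mul_le_mul_of_nonneg_right (hg v hv v' hv') (norm_nonneg _))
      calc ‖v'‖ * ‖(gi v' - gi v) v'‖ ≤ ‖v'‖ * ((L * d) * ‖v'‖) :=
            mul_le_mul_of_nonneg_left h5 (norm_nonneg _)
        _ = _ := by ring
    have hg0 : ‖gi v - gi 0‖ ≤ L * ‖v'‖ := by
      refine (hg 0 h0 v hv).trans ?_
      rw [sub_zero]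
      exact mul_le_mul_of_nonneg_left hle hL
    have q2 : |inner ℝ (v' - w) ((gi v - gi 0) v')| ≤ (2 * L * d) * ‖v'‖ ^ 2 := by
      refine (abs_real_inner_le_norm _ _).trans ?_
      have h5 : ‖(gi v - gi 0) v'‖ ≤ (L * ‖v'‖) * ‖v'‖ := ((gi v - gi 0).le_opNorm _).trans
        (mul_le_mul_of_nonneg_right hg0 (norm_nonneg _))
      calc ‖v' - w‖ * ‖(gi v - gi 0) v'‖ ≤ (2 * d) * ((L * ‖v'‖) * ‖v'‖) :=
            mul_le_mul hwv' h5 (norm_nonneg _) (by positivity)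
        _ = _ := by ring
    have q3 : |inner ℝ w ((gi v - gi 0) (v' - w))| ≤ (2 * L * d) * ‖v'‖ ^ 2 := by
      refine (abs_real_inner_le_norm _ _).trans ?_
      have h5 : ‖(gi v - gi 0) (v' - w)‖ ≤ (L * ‖v'‖) * (2 * d) :=
        ((gi v - gi 0).le_opNorm _).trans (mul_le_mul hg0 hwv' (norm_nonneg _) (by positivity))
      rw [hwn]
      calc ‖v'‖ * ‖(gi v - gi 0) (v' - w)‖ ≤ ‖v'‖ * ((L * ‖v'‖) * (2 * d)) :=
            mul_le_mul_of_nonneg_left h5 (norm_nonneg _)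
        _ = _ := by ring
    have h6 : |(M v' - M v) * ‖v'‖ ^ 2| ≤ (5 * L * d) * ‖v'‖ ^ 2 := by
      rw [h4]
      have t1 := abs_add_le (inner ℝ v' ((gi v' - gi v) v') +
        inner ℝ (v' - w) ((gi v - gi 0) v')) (inner ℝ w ((gi v - gi 0) (v' - w)))
      have t2 := abs_add_le (inner ℝ v' ((gi v' - gi v) v'))
        (inner ℝ (v' - w) ((gi v - gi 0) v'))
      have e5 : (5 * L * d) * ‖v'‖ ^ 2 = (L * d) * ‖v'‖ ^ 2 + (2 * L * d) * ‖v'‖ ^ 2 +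
        (2 * L * d) * ‖v'‖ ^ 2 := by ring
      rw [e5]
      linarith
    rw [abs_mul, abs_of_nonneg (sq_nonneg ‖v'‖)] at h6
    exact le_of_mul_le_mul_right h6 (by positivity)
  intro v hv v' hv'
  rcases le_total ‖v‖ ‖v'‖ with hle | hle
  · exact main v hv v' hv' hle
  · have := main v' hv' v hv hle
    rwa [abs_sub_comm, norm_sub_rev] at this

end Crest.Agent.R234.Sw_733
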