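import Crest.Agent.R234.Sw7_733
import Crest.Agent.R234.Sw6_733
import Crest.Agent.R234.GLK1_128
import Crest.Agent.R234.GL1_394

/-! # Row 234, VF-F6 (helper733), part 8: tilt and radial test functions -/

set_option autoImplicit false
set_option linter.unusedSectionVars false

open MeasureTheory Set Metric Filter Topology
open scoped ENNReal NNReal ContDiff InnerProductSpace
open Crest.Agent.R234.Ell1_3 Crest.Agent.R234.Fm_209

noncomputable section

namespace Crest.Agent.R234.Sw_733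

section Tilt

variable {E F V : Type} [NormedAddCommGroup E] [InnerProductSpace ℝ E] [FiniteDimensional ℝ E]
  [NormedAddCommGroup F] [InnerProductSpace ℝ F] [FiniteDimensional ℝ F]
  [NormedAddCommGroup V] [InnerProductSpace ℝ V] [FiniteDimensional ℝ V]

local notation "adj" => ContinuousLinearMap.adjoint

open GLK_128

/-- the projection onto the normal space of the graph of `q`. -/
def Nq (i : F →L[ℝ] E) (j : V →L[ℝ] E) (q : F →L[ℝ] V) (hi : V →L[ℝ] V) : E →L[ℝ] E :=
  BB i j q ∘L hi ∘L adj (BB i j q)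

/-- **the mixed block of the projection is close to `g⁻¹ qᵀ`, up to the tilt.** -/
theorem norm_block_sq_le {i : F →L[ℝ] E} {j : V →L[ℝ] E} (h : Fr i j) {q : F →L[ℝ] V}
    {Y : F →L[ℝ] F} {gi : F →L[ℝ] F} {hi : V →L[ℝ] V} {Li : F →L[ℝ] F} (H : Inv q Y gi hi Li)
    {P : E →L[ℝ] E} (hP : P ∘L P = P) (hPs : adj P = P) (htr : trc E P = Module.finrank ℝ F) :
    ‖adj i ∘L P ∘L j - gi ∘L adj q‖ ^ 2 ≤ 2 * trc E (Nq i j q hi ∘L P) := by
  set T : E →L[ℝ] E := A0 i j q ∘L gi ∘L adj (A0 i j q) with hT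
  have hTN : T + Nq i j q hi = ContinuousLinearMap.id ℝ E := H.decomp h
  have hA : adj (A0 i j q) ∘L A0 i j q = gg q := A0A0 h
  have hTs : adj T = T := by
    rw [hT]
    simp only [ContinuousLinearMap.adjoint_comp, ContinuousLinearMap.adjoint_adjoint, H.gi_adj]
    rfl
  have hTT : T ∘L T = T := by
    calc T ∘L T = A0 i j q ∘L gi ∘L (adj (A0 i j q) ∘L A0 i j q) ∘L gi ∘L adj (A0 i j q) := rfl
      _ = A0 i j q ∘L (gi ∘L gg q) ∘L gi ∘L adj (A0 i j q) := by rw [hA]; rfl
      _ = T := by rw [H.g1, ContinuousLinearMap.id_comp]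
  have htT : trc E T = Module.finrank ℝ F := by
    have h1 : T = A0 i j q ∘L (gi ∘L adj (A0 i j q)) := rfl
    rw [h1, trc_comp_comm]
    have h2 : (gi ∘L adj (A0 i j q)) ∘L A0 i j q = gi ∘L gg q := by
      rw [← hA]; rfl
    rw [h2, H.g1, trc_id]
  have hblock : adj i ∘L P ∘L j - gi ∘L adj q = adj i ∘L (P - T) ∘L j := by
    have h1 : adj i ∘L T ∘L j = gi ∘L adj q := by
      have h2 : adj i ∘L A0 i j q = ContinuousLinearMap.id ℝ F := by
        ext1 v
        simp [A0, h.ii_apply, h.ij_apply]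
      have h3 : adj (A0 i j q) ∘L j = adj q := by
        ext1 v
        rw [ContinuousLinearMap.comp_apply, adj_A0_apply, h.ij_apply, h.jj_apply, zero_add]
      calc adj i ∘L T ∘L j = (adj i ∘L A0 i j q) ∘L gi ∘L (adj (A0 i j q) ∘L j) := rfl
        _ = gi ∘L adj q := by rw [h2, h3, ContinuousLinearMap.id_comp]
    rw [← h1, ContinuousLinearMap.sub_comp, ContinuousLinearMap.comp_sub]
  have hle : ‖adj i ∘L (P - T) ∘L j‖ ≤ ‖P - T‖ := by
    refine (ContinuousLinearMap.opNorm_comp_le _ _).trans ?_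
    have h1 : ‖adj i‖ ≤ 1 := by rw [LinearIsometryEquiv.norm_map]; exact h.norm_i_le
    have h2 : ‖(P - T) ∘L j‖ ≤ ‖P - T‖ := (ContinuousLinearMap.opNorm_comp_le _ _).trans
      (mul_le_of_le_one_right (norm_nonneg _) h.norm_j_le)
    calc ‖adj i‖ * ‖(P - T) ∘L j‖ ≤ 1 * ‖P - T‖ :=
          mul_le_mul h1 h2 (norm_nonneg _) zero_le_one
      _ = _ := one_mul _
  rw [hblock]
  have hsq : ‖P - T‖ ^ 2 ≤ trc E (adj (P - T) ∘L (P - T)) := norm_sq_le_trc _
  have hexp : trc E (adj (P - T) ∘L (P - T)) = 2 * trc E (Nq i j q hi ∘L P) := by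
    have h1 : adj (P - T) = P - T := by rw [map_sub, hPs, hTs]
    have h2 : (P - T) ∘L (P - T) = P - P ∘L T - T ∘L P + T := by
      rw [ContinuousLinearMap.sub_comp, ContinuousLinearMap.comp_sub,
        ContinuousLinearMap.comp_sub, hP, hTT]
      abel
    have h3 : Nq i j q hi ∘L P = P - T ∘L P := by
      have : Nq i j q hi = ContinuousLinearMap.id ℝ E - T := by rw [← hTN]; abel
      rw [this, ContinuousLinearMap.sub_comp, ContinuousLinearMap.id_comp]
    rw [h1, h2, h3, map_add, map_sub, map_sub, map_sub, trc_comp_comm P T, htr, htT]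
    ring
  calc ‖adj i ∘L (P - T) ∘L j‖ ^ 2 ≤ ‖P - T‖ ^ 2 := pow_le_pow_left₀ (norm_nonneg _) hle 2
    _ ≤ _ := hsq.trans hexp.le

end Tilt

section Radial

variable {F : Type} [NormedAddCommGroup F] [InnerProductSpace ℝ F] [FiniteDimensional ℝ F]

open Cy_870

/-- the radial function at scale `e^l`. -/
def rad (F : Type) [NormedAddCommGroup F] (g : ℝ → ℝ) (l : ℝ) (v : F) : ℝ :=
  g (Real.exp (-2 * l) * ‖v‖ ^ 2)

theorem rad_scale (g : ℝ → ℝ) (l : ℝ) (v : F) :
    rad F g l v = rad F g 0 (Real.exp (-l) • v) := by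
  unfold rad
  congr 1
  rw [norm_smul, Real.norm_of_nonneg (Real.exp_pos _).le, mul_pow, ← Real.exp_nat_mul]
  simp only [mul_zero, Real.exp_zero, one_mul]
  congr 2
  push_cast
  ring

theorem contDiff_one_of {k k' : ℝ → ℝ} (h : Ker k k') : ContDiff ℝ 1 k := by
  have hd : deriv k = k' := funext fun t => (h.der t).deriv
  rw [contDiff_one_iff_deriv]
  exact ⟨fun t => (h.der t).differentiableAt, by rw [hd]; exact h.cont⟩

theorem contDiff_two_of {g g1 g2 : ℝ → ℝ} (h : Ker g g1) (h1 : Ker g1 g2) : ContDiff ℝ 2 g := by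
  have hd : deriv g = g1 := funext fun t => (h.der t).deriv
  have : (2 : WithTop ℕ∞) = 1 + 1 := by norm_num
  rw [this, contDiff_succ_iff_deriv]
  refine ⟨fun t => (h.der t).differentiableAt, fun h => ?_, by rw [hd]; exact contDiff_one_of h1⟩
  exact absurd h (by decide)

theorem rad_zero {k k' : ℝ → ℝ} (h : Ker k k') {l : ℝ} {v : F} (hv : Real.exp l ≤ ‖v‖) :
    rad F k l v = 0 := by
  refine h.zero _ ?_
  have h1 : Real.exp l ^ 2 ≤ ‖v‖ ^ 2 := pow_le_pow_left₀ (Real.exp_pos l).le hv 2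
  have h2 : Real.exp (-2 * l) * Real.exp l ^ 2 = 1 := by
    rw [← Real.exp_nat_mul, ← Real.exp_add]
    have : -2 * l + ((2 : ℕ) : ℝ) * l = 0 := by push_cast; ring
    rw [this, Real.exp_zero]
  calc (1 : ℝ) = Real.exp (-2 * l) * Real.exp l ^ 2 := h2.symm
    _ ≤ _ := mul_le_mul_of_nonneg_left h1 (Real.exp_pos _).le

theorem rad_tsupport {k k' : ℝ → ℝ} (h : Ker k k') (l : ℝ) :
    tsupport (rad F k l) ⊆ closedBall 0 (Real.exp l) := by
  refine closure_minimal (fun v hv => ?_) isClosed_closedBall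
  rw [mem_closedBall_zero_iff]
  by_contra hc
  exact hv (rad_zero h (not_le.1 hc).le)

theorem exists_bd {G : Type*} [NormedAddCommGroup G] {f : F → G} (hf : Continuous f)
    (h0 : ∀ v, 1 < ‖v‖ → f v = 0) : ∃ C : ℝ, 0 ≤ C ∧ ∀ v, ‖f v‖ ≤ C := by
  obtain ⟨C, hC⟩ := (isCompact_closedBall (0 : F) 1).exists_bound_of_continuousOn hf.continuousOn
  refine ⟨|C|, abs_nonneg C, fun v => ?_⟩
  by_cases hv : ‖v‖ ≤ 1
  · exact (hC v (mem_closedBall_zero_iff.2 hv)).trans (le_abs_self C)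
  · rw [h0 v (not_le.1 hv), norm_zero]; exact abs_nonneg C

theorem nsm {G : Type*} [NormedAddCommGroup G] [NormedSpace ℝ G] (a : ℝ) (x : G) (ha : 0 ≤ a) :
    ‖a • x‖ = a * ‖x‖ := by rw [norm_smul, Real.norm_of_nonneg ha]

theorem fderiv_smul_arg {G : Type*} [NormedAddCommGroup G] [NormedSpace ℝ G] {f : F → G}
    (hf : Differentiable ℝ f) (s : ℝ) (v : F) :
    fderiv ℝ (fun v => f (s • v)) v = s • fderiv ℝ f (s • v) := by
  have h1 : HasFDerivAt (fun v : F => s • v) (s • ContinuousLinearMap.id ℝ F) v :=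
    (hasFDerivAt_id v).const_smul s
  have h2 := (hf (s • v)).hasFDerivAt.comp v h1
  have h3 : HasFDerivAt (fun v => f (s • v)) _ v := h2
  rw [h3.fderiv]
  ext w
  simp

/-- **bounds of the radial test functions, uniform in the scale.** -/
theorem exists_tst {g g1 g2 : ℝ → ℝ} (h : Ker g g1) (h1 : Ker g1 g2) :
    ∃ c : ℝ, 0 ≤ c ∧ ∀ l ≤ 0, Tst (rad F g l) (c * Real.exp (-2 * l)) := by
  have hcd : ContDiff ℝ 2 (rad F g 0) := by
    refine (contDiff_two_of h h1).comp (contDiff_const.mul (contDiff_norm_sq ℝ))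
  have hcd1 : ContDiff ℝ 1 (fderiv ℝ (rad F g 0)) := hcd.fderiv_right (by norm_num)
  have hts : ∀ v : F, 1 < ‖v‖ → v ∉ tsupport (rad F g 0) := by
    intro v hv hc
    have := rad_tsupport h 0 hc
    rw [Real.exp_zero, mem_closedBall_zero_iff] at this
    linarith
  obtain ⟨C0, hC0, hb0⟩ := exists_bd hcd.continuous
    (fun v hv => image_eq_zero_of_notMem_tsupport (hts v hv))
  obtain ⟨C1, hC1, hb1⟩ := exists_bd hcd1.continuous
    (fun v hv => image_eq_zero_of_notMem_tsupport fun hc => hts v hv (tsupport_fderiv_subset ℝ hc))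
  obtain ⟨C2, hC2, hb2⟩ := exists_bd (hcd1.continuous_fderiv one_ne_zero)
    (fun v hv => image_eq_zero_of_notMem_tsupport fun hc => hts v hv
      (tsupport_fderiv_subset ℝ (tsupport_fderiv_subset ℝ hc)))
  refine ⟨C0 + C1 + C2, by positivity, fun l hl => ?_⟩
  have he : 1 ≤ Real.exp (-l) := Real.one_le_exp (by linarith)
  have he2 : Real.exp (-2 * l) = Real.exp (-l) * Real.exp (-l) := by
    rw [← Real.exp_add]; congr 1; ring
  have he3 : 1 ≤ Real.exp (-2 * l) := Real.one_le_exp (by linarith)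
  have he4 : Real.exp (-l) ≤ Real.exp (-2 * l) := by rw [he2]; nlinarith
  have efun : rad F g l = fun v => rad F g 0 (Real.exp (-l) • v) := funext fun v => rad_scale g l v
  have hdiff : Differentiable ℝ (rad F g 0) := hcd.differentiable (by norm_num)
  have hdiff1 : Differentiable ℝ (fderiv ℝ (rad F g 0)) := hcd1.differentiable one_ne_zero
  have ef1 : fderiv ℝ (rad F g l) = fun v => Real.exp (-l) • fderiv ℝ (rad F g 0)
      (Real.exp (-l) • v) := by
    rw [efun]; exact funext fun v => fderiv_smul_arg hdiff _ v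
  have ef2 : ∀ v, fderiv ℝ (fderiv ℝ (rad F g l)) v = Real.exp (-l) • (Real.exp (-l) •
      fderiv ℝ (fderiv ℝ (rad F g 0)) (Real.exp (-l) • v)) := by
    intro v
    rw [ef1]
    have h2 : HasFDerivAt (fun v : F => fderiv ℝ (rad F g 0) (Real.exp (-l) • v))
        (Real.exp (-l) • fderiv ℝ (fderiv ℝ (rad F g 0)) (Real.exp (-l) • v)) v := by
      rw [← fderiv_smul_arg hdiff1]
      refine DifferentiableAt.hasFDerivAt ?_
      exact (hdiff1 _).comp v ((differentiable_id.const_smul _) v)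
    exact (h2.const_smul (Real.exp (-l))).fderiv
  refine ⟨?_, by positivity, fun v => ?_, fun v => ?_, fun v => ?_⟩
  · rw [efun]; exact hcd.comp (contDiff_const_smul _)
  · rw [efun, ← Real.norm_eq_abs]
    refine (hb0 _).trans ?_
    nlinarith
  · rw [ef1]
    simp only [norm_smul, Real.norm_of_nonneg (Real.exp_pos (-l)).le]
    have := hb1 (Real.exp (-l) • v)
    calc Real.exp (-l) * ‖fderiv ℝ (rad F g 0) (Real.exp (-l) • v)‖ ≤
          Real.exp (-2 * l) * C1 := mul_le_mul he4 this (norm_nonneg _) (Real.exp_pos _).le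
      _ ≤ _ := by nlinarith [Real.exp_pos (-2 * l)]
  · have n1 := nsm (Real.exp (-l)) (Real.exp (-l) •
      fderiv ℝ (fderiv ℝ (rad F g 0)) (Real.exp (-l) • v)) (Real.exp_pos (-l)).le
    have n2 := nsm (Real.exp (-l)) (fderiv ℝ (fderiv ℝ (rad F g 0)) (Real.exp (-l) • v))
      (Real.exp_pos (-l)).le
    rw [ef2, n1, n2, ← mul_assoc, ← he2]
    have := hb2 (Real.exp (-l) • v)
    calc Real.exp (-2 * l) * ‖fderiv ℝ (fderiv ℝ (rad F g 0)) (Real.exp (-l) • v)‖ ≤
          Real.exp (-2 * l) * C2 := mul_le_mul_of_nonneg_left this (Real.exp_pos _).le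
      _ ≤ _ := by nlinarith [Real.exp_pos (-2 * l)]

/-- bounds of the radial kernels, uniform in the scale. -/
theorem exists_lip {k k' : ℝ → ℝ} (h : Ker k k') :
    ∃ c : ℝ, 0 ≤ c ∧ ∀ l ≤ 0, (∀ v, |rad F k l v| ≤ c * Real.exp (-l)) ∧
      ∀ v v', |rad F k l v' - rad F k l v| ≤ (c * Real.exp (-l)) * ‖v' - v‖ := by
  have hcd : ContDiff ℝ 1 (rad F k 0) := by
    refine (contDiff_one_of h).comp (contDiff_const.mul (contDiff_norm_sq ℝ))
  have hts : ∀ v : F, 1 < ‖v‖ → v ∉ tsupport (rad F k 0) := by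
    intro v hv hc
    have := rad_tsupport h 0 hc
    rw [Real.exp_zero, mem_closedBall_zero_iff] at this
    linarith
  obtain ⟨C0, hC0, hb0⟩ := exists_bd hcd.continuous
    (fun v hv => image_eq_zero_of_notMem_tsupport (hts v hv))
  obtain ⟨C1, hC1, hb1⟩ := exists_bd (hcd.continuous_fderiv one_ne_zero)
    (fun v hv => image_eq_zero_of_notMem_tsupport fun hc => hts v hv (tsupport_fderiv_subset ℝ hc))
  refine ⟨C0 + C1, by positivity, fun l hl => ?_⟩
  have he : 1 ≤ Real.exp (-l) := Real.one_le_exp (by linarith)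
  refine ⟨fun v => ?_, fun v v' => ?_⟩
  · rw [rad_scale, ← Real.norm_eq_abs]
    refine (hb0 _).trans ?_
    nlinarith
  · rw [rad_scale, rad_scale (v := v)]
    have h1 := convex_univ.norm_image_sub_le_of_norm_fderiv_le (𝕜 := ℝ) (f := rad F k 0) (C := C1)
      (fun v _ => (hcd.differentiable one_ne_zero) v) (fun v _ => hb1 v)
      (mem_univ (Real.exp (-l) • v)) (mem_univ (Real.exp (-l) • v'))
    rw [← smul_sub, norm_smul, Real.norm_of_nonneg (Real.exp_pos (-l)).le, Real.norm_eq_abs] at h1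
    refine h1.trans ?_
    have := norm_nonneg (v' - v)
    have h2 : 0 ≤ Real.exp (-l) * ‖v' - v‖ := by positivity
    nlinarith

end Radial

end Crest.Agent.R234.Sw_733
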