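import Crest.Agent.R234.Sw8_733

/-! # Row 234, VF-F6 (helper733), part 9: test functions radial for the metric at the centre,
the radial coefficient `μ` in foot coordinates -/

set_option autoImplicit false
set_option linter.unusedSectionVars false

open MeasureTheory Set Metric Filter Topology
open scoped ENNReal NNReal ContDiff InnerProductSpace
open Crest.Agent.R234.Ell1_3 Crest.Agent.R234.Fm_209 Crest.Agent.R234.Cy_870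

noncomputable section

namespace Crest.Agent.R234.Sw_733

section Comp

variable {F G : Type} [NormedAddCommGroup F] [InnerProductSpace ℝ F] [FiniteDimensional ℝ F]
  [NormedAddCommGroup G] [InnerProductSpace ℝ G] [FiniteDimensional ℝ G]

theorem compL_bound (A : F →L[ℝ] G) (hA : ‖A‖ ≤ 2) (T : G →L[ℝ] ℝ) :
    ‖T ∘L A‖ ≤ 2 * ‖T‖ := by
  refine (ContinuousLinearMap.opNorm_comp_le _ _).trans ?_
  rw [mul_comm]
  exact mul_le_mul_of_nonneg_right hA (norm_nonneg _)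

/-- affine substitution in a test function. -/
theorem Tst.comp_aff {χ : G → ℝ} {c : ℝ} (h : Tst χ c) (A : F →L[ℝ] G) (hA : ‖A‖ ≤ 2) (v₀ : F) :
    Tst (fun v => χ (A (v - v₀))) (4 * c) := by
  have hc := h.c0
  have haff : ∀ v, HasFDerivAt (fun v : F => A (v - v₀)) A v := fun v =>
    A.hasFDerivAt.comp v ((hasFDerivAt_id v).sub_const v₀)
  have e1 : fderiv ℝ (fun v => χ (A (v - v₀))) = fun v => (fderiv ℝ χ (A (v - v₀))) ∘L A := by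
    funext v
    exact ((h.diff _).hasFDerivAt.comp v (haff v)).fderiv
  have hcd : ContDiff ℝ 2 (fun v : F => A (v - v₀)) := A.contDiff.comp (contDiff_id.sub contDiff_const)
  refine ⟨h.cd.comp hcd, by linarith, fun v => ?_, fun v => ?_, fun v => ?_⟩
  · exact (h.b0 _).trans (by linarith)
  · rw [e1]
    refine (compL_bound A hA _).trans ?_
    have := h.b1 (A (v - v₀))
    linarith
  · rw [e1]
    have h2 : HasFDerivAt (fun v => (fderiv ℝ χ (A (v - v₀))) ∘L A)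
        (((ContinuousLinearMap.compL ℝ F G ℝ).flip A) ∘L
          ((fderiv ℝ (fderiv ℝ χ) (A (v - v₀))) ∘L A)) v := by
      have h3 : HasFDerivAt (fun v => fderiv ℝ χ (A (v - v₀)))
          ((fderiv ℝ (fderiv ℝ χ) (A (v - v₀))) ∘L A) v :=
        (h.diff1 _).hasFDerivAt.comp v (haff v)
      exact ((ContinuousLinearMap.compL ℝ F G ℝ).flip A).hasFDerivAt.comp v h3
    rw [h2.fderiv]
    refine ContinuousLinearMap.opNorm_le_bound _ (by positivity) fun w => ?_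
    change ‖(fderiv ℝ (fderiv ℝ χ) (A (v - v₀)) (A w)) ∘L A‖ ≤ _
    refine (compL_bound A hA _).trans ?_
    have h4 : ‖fderiv ℝ (fderiv ℝ χ) (A (v - v₀)) (A w)‖ ≤ c * (2 * ‖w‖) := by
      refine ((fderiv ℝ (fderiv ℝ χ) (A (v - v₀))).le_opNorm _).trans ?_
      refine mul_le_mul (h.b2 _) ?_ (norm_nonneg _) hc
      exact (A.le_opNorm w).trans (mul_le_mul_of_nonneg_right hA (norm_nonneg _))
    linarith

end Comp

variable {F V : Type} [NormedAddCommGroup F] [InnerProductSpace ℝ F] [FiniteDimensional ℝ F]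
  [NormedAddCommGroup V] [InnerProductSpace ℝ V] [FiniteDimensional ℝ V]

/-! ### operators -/

theorem norm_gop_le {q : F →L[ℝ] V} (hq : ‖q‖ ≤ 1 / 4) : ‖gop q‖ ≤ 2 := by
  refine ContinuousLinearMap.opNorm_le_bound _ (by norm_num) fun v => ?_
  have h1 : gop q v = v + adjL q (q v) := rfl
  rw [h1]
  have h2 : ‖adjL q (q v)‖ ≤ (1 / 4) * ((1 / 4) * ‖v‖) := by
    refine ((adjL q).le_opNorm _).trans ?_
    rw [norm_adjL]
    refine mul_le_mul hq ?_ (norm_nonneg _) (by norm_num)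
    exact (q.le_opNorm v).trans (mul_le_mul_of_nonneg_right hq (norm_nonneg _))
  have := norm_add_le v (adjL q (q v))
  have := norm_nonneg v
  linarith

theorem norm_gop_sub {q q' : F →L[ℝ] V} (hq : ‖q‖ ≤ 1 / 4) (hq' : ‖q'‖ ≤ 1 / 4) :
    ‖gop q' - gop q‖ ≤ ‖q' - q‖ := by
  refine ContinuousLinearMap.opNorm_le_bound _ (norm_nonneg _) fun v => ?_
  have h1 : (gop q' - gop q) v = adjL (q' - q) (q' v) + adjL q ((q' - q) v) := by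
    have e1 : gop q v = v + adjL q (q v) := rfl
    have e2 : gop q' v = v + adjL q' (q' v) := rfl
    simp only [sub_apply, map_sub, e1, e2]
    abel
  rw [h1]
  have h2 : ‖adjL (q' - q) (q' v)‖ ≤ ‖q' - q‖ * (1 / 4 * ‖v‖) := by
    refine ((adjL (q' - q)).le_opNorm _).trans ?_
    rw [norm_adjL]
    refine mul_le_mul_of_nonneg_left ?_ (norm_nonneg _)
    exact (q'.le_opNorm v).trans (mul_le_mul_of_nonneg_right hq' (norm_nonneg _))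
  have h3 : ‖adjL q ((q' - q) v)‖ ≤ 1 / 4 * (‖q' - q‖ * ‖v‖) := by
    refine ((adjL q).le_opNorm _).trans ?_
    rw [norm_adjL]
    exact mul_le_mul hq ((q' - q).le_opNorm v) (norm_nonneg _) (by norm_num)
  have h4 := norm_add_le (adjL (q' - q) (q' v)) (adjL q ((q' - q) v))
  have h5 : 0 ≤ ‖q' - q‖ * ‖v‖ := by positivity
  linarith

theorem norm_ginv_sub {q q' : F →L[ℝ] V} (hq : ‖q‖ ≤ 1 / 4) (hq' : ‖q'‖ ≤ 1 / 4) :
    ‖ginv q' - ginv q‖ ≤ ‖q' - q‖ := by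
  have h1 : ginv q' - ginv q = ginv q' ∘L (gop q - gop q') ∘L ginv q := by
    rw [ContinuousLinearMap.sub_comp, ContinuousLinearMap.comp_sub, gop_ginv,
      ContinuousLinearMap.comp_id, ← ContinuousLinearMap.comp_assoc, ginv_gop,
      ContinuousLinearMap.id_comp]
  rw [h1]
  calc ‖ginv q' ∘L (gop q - gop q') ∘L ginv q‖ ≤ ‖ginv q'‖ * (‖gop q - gop q'‖ * ‖ginv q‖) :=
        (ContinuousLinearMap.opNorm_comp_le _ _).trans (mul_le_mul_of_nonneg_left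
          (ContinuousLinearMap.opNorm_comp_le _ _) (norm_nonneg _))
    _ ≤ 1 * (‖q' - q‖ * 1) := by
        refine mul_le_mul (norm_ginv_le q') (mul_le_mul ?_ (norm_ginv_le q) (norm_nonneg _)
          (norm_nonneg _)) (by positivity) zero_le_one
        rw [norm_sub_rev]
        exact norm_gop_sub hq hq'
    _ = _ := by ring

theorem le_gop_inner (q : F →L[ℝ] V) (v : F) : ‖v‖ ^ 2 ≤ ⟪v, gop q v⟫_ℝ := by
  rw [gop_inner, real_inner_self_eq_norm_sq, real_inner_self_eq_norm_sq]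
  have := sq_nonneg ‖q v‖
  linarith

theorem gop_inner' (q : F →L[ℝ] V) (v : F) : ⟪v, gop q v⟫_ℝ = ‖v‖ ^ 2 + ‖q v‖ ^ 2 := by
  rw [gop_inner, real_inner_self_eq_norm_sq, real_inner_self_eq_norm_sq]

/-! ### test functions -/

/-- `v ↦ g (e^{-2l} ⟨v - v₀, g(q) (v - v₀)⟩)`. -/
def radq (g : ℝ → ℝ) (l : ℝ) (q : F →L[ℝ] V) (v₀ v : F) : ℝ :=
  g (Real.exp (-2 * l) * ⟪v - v₀, gop q (v - v₀)⟫_ℝ)

/-- `v ↦ (v, q v)`. -/
def graphL (q : F →L[ℝ] V) : F →L[ℝ] WithLp 2 (F × V) :=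
  (WithLp.prodContinuousLinearEquiv 2 ℝ F V).symm.toContinuousLinearMap ∘L
    (ContinuousLinearMap.id ℝ F).prod q

theorem norm_graphL_sq (q : F →L[ℝ] V) (v : F) : ‖graphL q v‖ ^ 2 = ‖v‖ ^ 2 + ‖q v‖ ^ 2 := by
  rw [WithLp.prod_norm_sq_eq_of_L2]
  rfl

theorem norm_graphL_le {q : F →L[ℝ] V} (hq : ‖q‖ ≤ 1 / 4) : ‖graphL q‖ ≤ 2 := by
  refine ContinuousLinearMap.opNorm_le_bound _ (by norm_num) fun v => ?_
  have h1 := norm_graphL_sq q v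
  have h2 : ‖q v‖ ≤ 1 / 4 * ‖v‖ :=
    (q.le_opNorm v).trans (mul_le_mul_of_nonneg_right hq (norm_nonneg _))
  have h3 := norm_nonneg v
  have h4 := norm_nonneg (q v)
  refine le_of_sq_le_sq ?_ (by positivity)
  nlinarith

theorem norm_graphL_sub (q q' : F →L[ℝ] V) (v : F) :
    ‖graphL q' v - graphL q v‖ = ‖(q' - q) v‖ := by
  have h1 : ‖graphL q' v - graphL q v‖ ^ 2 = ‖(q' - q) v‖ ^ 2 := by
    rw [WithLp.prod_norm_sq_eq_of_L2]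
    have e1 : (graphL q' v - graphL q v).fst = 0 := by
      change v - v = 0
      exact sub_self v
    have e2 : (graphL q' v - graphL q v).snd = (q' - q) v := rfl
    rw [e1, e2, norm_zero]
    ring
  exact (sq_eq_sq₀ (norm_nonneg _) (norm_nonneg _)).1 h1

theorem radq_eq (g : ℝ → ℝ) (l : ℝ) (q : F →L[ℝ] V) (v₀ v : F) :
    radq g l q v₀ v = rad (WithLp 2 (F × V)) g l (graphL q (v - v₀)) := by
  unfold radq rad
  rw [norm_graphL_sq, gop_inner']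

theorem radq_zero {k k' : ℝ → ℝ} (h : Ker k k') {l : ℝ} {q : F →L[ℝ] V} {v₀ v : F}
    (hv : Real.exp l ≤ ‖v - v₀‖) : radq k l q v₀ v = 0 := by
  rw [radq_eq]
  refine rad_zero h (hv.trans ?_)
  have h1 := norm_graphL_sq q (v - v₀)
  refine le_of_sq_le_sq ?_ (norm_nonneg _)
  have := sq_nonneg ‖q (v - v₀)‖
  linarith

theorem radq_tsupport {k k' : ℝ → ℝ} (h : Ker k k') (l : ℝ) (q : F →L[ℝ] V) (v₀ : F) :
    tsupport (radq k l q v₀) ⊆ closedBall v₀ (Real.exp l) := by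
  refine closure_minimal (fun v hv => ?_) isClosed_closedBall
  rw [mem_closedBall, dist_eq_norm]
  by_contra hc
  exact hv (radq_zero h (not_le.1 hc).le)

variable (F V) in
/-- **bounds of the tests, uniform in scale, slope and centre.** -/
theorem exists_radq {g g1 g2 : ℝ → ℝ} (h : Ker g g1) (h1 : Ker g1 g2) :
    ∃ c : ℝ, 0 ≤ c ∧ ∀ l ≤ 0, ∀ (q : F →L[ℝ] V) (v₀ : F), ‖q‖ ≤ 1 / 4 →
      Tst (radq g l q v₀) (c * Real.exp (-2 * l)) ∧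
      (∀ v, |radq g1 l q v₀ v| ≤ c * Real.exp (-l)) ∧
      (∀ v v', |radq g1 l q v₀ v' - radq g1 l q v₀ v| ≤ c * Real.exp (-l) * ‖v' - v‖) ∧
      ∀ q' : F →L[ℝ] V, ‖q'‖ ≤ 1 / 4 →
        (∀ v, |radq g l q' v₀ v - radq g l q v₀ v| ≤ c * ‖q' - q‖) ∧
        ∀ v, |radq g1 l q' v₀ v - radq g1 l q v₀ v| ≤ c * ‖q' - q‖ := by
  obtain ⟨c0, hc0, H0⟩ := exists_tst (F := WithLp 2 (F × V)) h h1
  obtain ⟨c1, hc1, H1⟩ := exists_lip (F := WithLp 2 (F × V)) h1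
  obtain ⟨c2, hc2, H2⟩ := exists_lip (F := WithLp 2 (F × V)) h
  refine ⟨4 * c0 + 2 * c1 + c2, by positivity, fun l hl q v₀ hq => ?_⟩
  have he := Real.exp_pos (-l)
  have he2 := Real.exp_pos (-2 * l)
  have hee : Real.exp (-l) * Real.exp l = 1 := by rw [← Real.exp_add]; simp
  have hT := H0 l hl
  obtain ⟨L0, L1⟩ := H1 l hl
  obtain ⟨-, L2⟩ := H2 l hl
  have hA := norm_graphL_le hq
  refine ⟨?_, fun v => ?_, fun v v' => ?_, fun q' hq' => ⟨fun v => ?_, fun v => ?_⟩⟩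
  · have h3 := hT.comp_aff (graphL q) hA v₀
    have e : (fun v => rad (WithLp 2 (F × V)) g l (graphL q (v - v₀))) = radq g l q v₀ :=
      funext fun v => (radq_eq g l q v₀ v).symm
    rw [e] at h3
    have hle : 4 * (c0 * Real.exp (-2 * l)) ≤ (4 * c0 + 2 * c1 + c2) * Real.exp (-2 * l) := by
      nlinarith [mul_nonneg hc1 he2.le, mul_nonneg hc2 he2.le]
    exact ⟨h3.cd, by positivity, fun v => (h3.b0 v).trans hle, fun v => (h3.b1 v).trans hle,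
      fun v => (h3.b2 v).trans hle⟩
  · rw [radq_eq]
    refine (L0 _).trans ?_
    nlinarith [mul_nonneg hc0 he.le, mul_nonneg hc1 he.le, mul_nonneg hc2 he.le]
  · rw [radq_eq, radq_eq]
    refine (L1 _ _).trans ?_
    have e : graphL q (v' - v₀) - graphL q (v - v₀) = graphL q (v' - v) := by
      rw [← map_sub]; congr 1; abel
    rw [e]
    have h3 : ‖graphL q (v' - v)‖ ≤ 2 * ‖v' - v‖ :=
      ((graphL q).le_opNorm _).trans (mul_le_mul_of_nonneg_right hA (norm_nonneg _))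
    have h4 : 0 ≤ Real.exp (-l) * ‖v' - v‖ := by positivity
    calc c1 * Real.exp (-l) * ‖graphL q (v' - v)‖ ≤ c1 * Real.exp (-l) * (2 * ‖v' - v‖) :=
          mul_le_mul_of_nonneg_left h3 (by positivity)
      _ ≤ _ := by nlinarith [mul_nonneg hc0 h4, mul_nonneg hc1 h4, mul_nonneg hc2 h4]
  · by_cases hv : Real.exp l ≤ ‖v - v₀‖
    · rw [radq_zero h hv, radq_zero h hv, sub_zero, abs_zero]; positivity
    · rw [not_le] at hv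
      rw [radq_eq, radq_eq]
      refine (L2 _ _).trans ?_
      rw [norm_graphL_sub]
      have h3 : ‖(q' - q) (v - v₀)‖ ≤ ‖q' - q‖ * Real.exp l :=
        ((q' - q).le_opNorm _).trans (mul_le_mul_of_nonneg_left hv.le (norm_nonneg _))
      calc c2 * Real.exp (-l) * ‖(q' - q) (v - v₀)‖ ≤
            c2 * Real.exp (-l) * (‖q' - q‖ * Real.exp l) :=
            mul_le_mul_of_nonneg_left h3 (by positivity)
        _ = c2 * ‖q' - q‖ * (Real.exp (-l) * Real.exp l) := by ring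
        _ = c2 * ‖q' - q‖ := by rw [hee, mul_one]
        _ ≤ _ := by nlinarith [norm_nonneg (q' - q), mul_nonneg hc0 (norm_nonneg (q' - q)),
            mul_nonneg hc1 (norm_nonneg (q' - q))]
  · by_cases hv : Real.exp l ≤ ‖v - v₀‖
    · rw [radq_zero h1 hv, radq_zero h1 hv, sub_zero, abs_zero]; positivity
    · rw [not_le] at hv
      rw [radq_eq, radq_eq]
      refine (L1 _ _).trans ?_
      rw [norm_graphL_sub]
      have h3 : ‖(q' - q) (v - v₀)‖ ≤ ‖q' - q‖ * Real.exp l :=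
        ((q' - q).le_opNorm _).trans (mul_le_mul_of_nonneg_left hv.le (norm_nonneg _))
      calc c1 * Real.exp (-l) * ‖(q' - q) (v - v₀)‖ ≤
            c1 * Real.exp (-l) * (‖q' - q‖ * Real.exp l) :=
            mul_le_mul_of_nonneg_left h3 (by positivity)
        _ = c1 * ‖q' - q‖ * (Real.exp (-l) * Real.exp l) := by ring
        _ = c1 * ‖q' - q‖ := by rw [hee, mul_one]
        _ ≤ _ := by nlinarith [norm_nonneg (q' - q), mul_nonneg hc0 (norm_nonneg (q' - q)),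
            mul_nonneg hc1 (norm_nonneg (q' - q)), mul_nonneg hc2 (norm_nonneg (q' - q))]

/-! ### the radial coefficient -/

open Classical in
/-- `μ` in foot coordinates: `q0` slope at the centre, `q` slope at the point, `ξ` = point - centre. -/
def mq (q0 q : F →L[ℝ] V) (ξ : F) : ℝ :=
  if ξ = 0 then 1 else ⟪gop q0 ξ, ginv q (gop q0 ξ)⟫_ℝ / ⟪ξ, gop q0 ξ⟫_ℝ

theorem mq_sub {q0 q : F →L[ℝ] V} {ξ : F} (hξ : ξ ≠ 0) :
    mq q0 q ξ - 1 = ⟪gop q0 ξ, (ginv q - ginv q0) (gop q0 ξ)⟫_ℝ / ⟪ξ, gop q0 ξ⟫_ℝ := by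
  have h1 : 0 < ⟪ξ, gop q0 ξ⟫_ℝ :=
    lt_of_lt_of_le (by have := norm_pos_iff.2 hξ; positivity) (le_gop_inner q0 ξ)
  have h2 : ginv q0 (gop q0 ξ) = ξ := congrArg (fun T : F →L[ℝ] F => T ξ) (ginv_gop q0)
  rw [mq, if_neg hξ, sub_apply, h2, inner_sub_right, real_inner_comm ξ (gop q0 ξ)]
  field_simp

theorem mq_zero (q0 q : F →L[ℝ] V) : mq q0 q 0 = 1 := by rw [mq, if_pos rfl]

theorem abs_num_le {q0 q : F →L[ℝ] V} (h0 : ‖q0‖ ≤ 1 / 4) (h : ‖q‖ ≤ 1 / 4) (ξ : F) :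
    |⟪gop q0 ξ, (ginv q - ginv q0) (gop q0 ξ)⟫_ℝ| ≤ 4 * ‖q - q0‖ * ‖ξ‖ ^ 2 := by
  have h1 : ‖gop q0 ξ‖ ≤ 2 * ‖ξ‖ :=
    ((gop q0).le_opNorm ξ).trans (mul_le_mul_of_nonneg_right (norm_gop_le h0) (norm_nonneg _))
  refine (abs_real_inner_le_norm _ _).trans ?_
  have h2 : ‖(ginv q - ginv q0) (gop q0 ξ)‖ ≤ ‖q - q0‖ * (2 * ‖ξ‖) :=
    ((ginv q - ginv q0).le_opNorm _).trans (mul_le_mul (norm_ginv_sub h0 h) h1 (norm_nonneg _)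
      (norm_nonneg _))
  calc ‖gop q0 ξ‖ * ‖(ginv q - ginv q0) (gop q0 ξ)‖ ≤ (2 * ‖ξ‖) * (‖q - q0‖ * (2 * ‖ξ‖)) :=
        mul_le_mul h1 h2 (norm_nonneg _) (by positivity)
    _ = _ := by ring

theorem abs_mq_sub_one {q0 q : F →L[ℝ] V} (h0 : ‖q0‖ ≤ 1 / 4) (h : ‖q‖ ≤ 1 / 4) (ξ : F) :
    |mq q0 q ξ - 1| ≤ 4 * ‖q - q0‖ := by
  by_cases hξ : ξ = 0
  · rw [hξ, mq_zero, sub_self, abs_zero]; positivity
  · rw [mq_sub hξ, abs_div]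
    have h1 := le_gop_inner q0 ξ
    have h2 : 0 < ‖ξ‖ ^ 2 := by have := norm_pos_iff.2 hξ; positivity
    rw [abs_of_pos (h2.trans_le h1), div_le_iff₀ (h2.trans_le h1)]
    exact (abs_num_le h0 h ξ).trans (mul_le_mul_of_nonneg_left h1 (by positivity))

theorem abs_mq_le {q0 q : F →L[ℝ] V} (h0 : ‖q0‖ ≤ 1 / 4) (h : ‖q‖ ≤ 1 / 4) (ξ : F) :
    |mq q0 q ξ| ≤ 3 := by
  have h1 := abs_mq_sub_one h0 h ξ
  have h2 : ‖q - q0‖ ≤ 1 / 2 := (norm_sub_le _ _).trans (by linarith)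
  have h3 := abs_sub_abs_le_abs_sub (mq q0 q ξ) 1
  rw [abs_one] at h3
  linarith

theorem quot_diff {N N' d d' : ℝ} (hd : 0 < d) (hd' : 0 < d') :
    |N' / d' - N / d| ≤ |N' - N| / d' + |N| * |d' - d| / (d * d') := by
  have h1 : N' / d' - N / d = (N' - N) / d' + N * (d - d') / (d * d') := by
    field_simp; ring
  rw [h1]
  refine (abs_add_le _ _).trans (le_of_eq ?_)
  rw [abs_div, abs_div, abs_mul, abs_of_pos hd', abs_of_pos (mul_pos hd hd'), abs_sub_comm d d']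

/-- change of the two slopes. -/
theorem mq_slope {q0 q q0' q' : F →L[ℝ] V} (h0 : ‖q0‖ ≤ 1 / 4) (h : ‖q‖ ≤ 1 / 4)
    (h0' : ‖q0'‖ ≤ 1 / 4) (h' : ‖q'‖ ≤ 1 / 4) {τ : ℝ} (hτ0 : ‖q0' - q0‖ ≤ τ) (hτ : ‖q' - q‖ ≤ τ)
    (ξ : F) : |mq q0' q' ξ - mq q0 q ξ| ≤ 14 * τ := by
  have ht : 0 ≤ τ := (norm_nonneg _).trans hτ
  by_cases hξ : ξ = 0
  · rw [hξ, mq_zero, mq_zero, sub_self, abs_zero]; positivity
  have e : mq q0' q' ξ - mq q0 q ξ = (mq q0' q' ξ - 1) - (mq q0 q ξ - 1) := by ring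
  rw [e, mq_sub hξ, mq_sub hξ]
  have hn : 0 < ‖ξ‖ := norm_pos_iff.2 hξ
  have d1 := le_gop_inner q0 ξ
  have d1' := le_gop_inner q0' ξ
  have h2 : 0 < ‖ξ‖ ^ 2 := by positivity
  refine (quot_diff (h2.trans_le d1) (h2.trans_le d1')).trans ?_
  have g1 : ‖gop q0 ξ‖ ≤ 2 * ‖ξ‖ :=
    ((gop q0).le_opNorm ξ).trans (mul_le_mul_of_nonneg_right (norm_gop_le h0) (norm_nonneg _))
  have g1' : ‖gop q0' ξ‖ ≤ 2 * ‖ξ‖ :=
    ((gop q0').le_opNorm ξ).trans (mul_le_mul_of_nonneg_right (norm_gop_le h0') (norm_nonneg _))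
  have g2 : ‖gop q0' ξ - gop q0 ξ‖ ≤ τ * ‖ξ‖ :=
    ((gop q0' - gop q0).le_opNorm ξ).trans (mul_le_mul_of_nonneg_right
      ((norm_gop_sub h0 h0').trans hτ0) (norm_nonneg _))
  set H := ginv q - ginv q0 with hH
  set H' := ginv q' - ginv q0' with hH'
  have hHn : ‖H‖ ≤ 1 / 2 := (norm_ginv_sub h0 h).trans ((norm_sub_le _ _).trans (by linarith))
  have hHd : ‖H' - H‖ ≤ 2 * τ := by
    have : H' - H = (ginv q' - ginv q) - (ginv q0' - ginv q0) := by rw [hH, hH']; abel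
    rw [this]
    refine (norm_sub_le _ _).trans ?_
    have a1 := (norm_ginv_sub h h').trans hτ
    have a2 := (norm_ginv_sub h0 h0').trans hτ0
    linarith
  have N1 : |⟪gop q0' ξ, H' (gop q0' ξ)⟫_ℝ - ⟪gop q0 ξ, H (gop q0 ξ)⟫_ℝ| ≤ 10 * τ * ‖ξ‖ ^ 2 := by
    have e1 : ⟪gop q0' ξ, H' (gop q0' ξ)⟫_ℝ - ⟪gop q0 ξ, H (gop q0 ξ)⟫_ℝ =
        ⟪gop q0' ξ, (H' - H) (gop q0' ξ)⟫_ℝ + ⟪gop q0' ξ - gop q0 ξ, H (gop q0' ξ)⟫_ℝ +
        ⟪gop q0 ξ, H (gop q0' ξ - gop q0 ξ)⟫_ℝ := by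
      simp only [sub_apply, map_sub, inner_sub_left, inner_sub_right]; ring
    rw [e1]
    have b1 : |⟪gop q0' ξ, (H' - H) (gop q0' ξ)⟫_ℝ| ≤ (2 * ‖ξ‖) * ((2 * τ) * (2 * ‖ξ‖)) :=
      (abs_real_inner_le_norm _ _).trans (mul_le_mul g1' (((H' - H).le_opNorm _).trans
        (mul_le_mul hHd g1' (norm_nonneg _) (by positivity))) (norm_nonneg _) (by positivity))
    have b2 : |⟪gop q0' ξ - gop q0 ξ, H (gop q0' ξ)⟫_ℝ| ≤ (τ * ‖ξ‖) * ((1 / 2) * (2 * ‖ξ‖)) :=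
      (abs_real_inner_le_norm _ _).trans (mul_le_mul g2 ((H.le_opNorm _).trans
        (mul_le_mul hHn g1' (norm_nonneg _) (by norm_num))) (norm_nonneg _) (by positivity))
    have b3 : |⟪gop q0 ξ, H (gop q0' ξ - gop q0 ξ)⟫_ℝ| ≤ (2 * ‖ξ‖) * ((1 / 2) * (τ * ‖ξ‖)) :=
      (abs_real_inner_le_norm _ _).trans (mul_le_mul g1 ((H.le_opNorm _).trans
        (mul_le_mul hHn g2 (norm_nonneg _) (by norm_num))) (norm_nonneg _) (by positivity))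
    have c1 := abs_add_le (⟪gop q0' ξ, (H' - H) (gop q0' ξ)⟫_ℝ +
      ⟪gop q0' ξ - gop q0 ξ, H (gop q0' ξ)⟫_ℝ) ⟪gop q0 ξ, H (gop q0' ξ - gop q0 ξ)⟫_ℝ
    have c2 := abs_add_le ⟪gop q0' ξ, (H' - H) (gop q0' ξ)⟫_ℝ
      ⟪gop q0' ξ - gop q0 ξ, H (gop q0' ξ)⟫_ℝ
    nlinarith
  have N2 : |⟪gop q0 ξ, H (gop q0 ξ)⟫_ℝ| ≤ 2 * ‖ξ‖ ^ 2 := by
    refine (abs_num_le h0 h ξ).trans ?_
    have : ‖q - q0‖ ≤ 1 / 2 := (norm_sub_le _ _).trans (by linarith)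
    nlinarith
  have N3 : |⟪ξ, gop q0' ξ⟫_ℝ - ⟪ξ, gop q0 ξ⟫_ℝ| ≤ τ * ‖ξ‖ ^ 2 := by
    rw [← inner_sub_right]
    refine (abs_real_inner_le_norm _ _).trans ?_
    calc ‖ξ‖ * ‖gop q0' ξ - gop q0 ξ‖ ≤ ‖ξ‖ * (τ * ‖ξ‖) :=
          mul_le_mul_of_nonneg_left g2 (norm_nonneg _)
      _ = _ := by ring
  have r1 : |⟪gop q0' ξ, H' (gop q0' ξ)⟫_ℝ - ⟪gop q0 ξ, H (gop q0 ξ)⟫_ℝ| / ⟪ξ, gop q0' ξ⟫_ℝ ≤
      10 * τ := by
    rw [div_le_iff₀ (h2.trans_le d1')]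
    exact N1.trans (mul_le_mul_of_nonneg_left d1' (by positivity))
  have r2 : |⟪gop q0 ξ, H (gop q0 ξ)⟫_ℝ| * |⟪ξ, gop q0' ξ⟫_ℝ - ⟪ξ, gop q0 ξ⟫_ℝ| /
      (⟪ξ, gop q0 ξ⟫_ℝ * ⟪ξ, gop q0' ξ⟫_ℝ) ≤ 2 * τ := by
    rw [div_le_iff₀ (mul_pos (h2.trans_le d1) (h2.trans_le d1'))]
    calc |⟪gop q0 ξ, H (gop q0 ξ)⟫_ℝ| * |⟪ξ, gop q0' ξ⟫_ℝ - ⟪ξ, gop q0 ξ⟫_ℝ| ≤
          (2 * ‖ξ‖ ^ 2) * (τ * ‖ξ‖ ^ 2) := mul_le_mul N2 N3 (abs_nonneg _) (by positivity)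
      _ = 2 * τ * (‖ξ‖ ^ 2 * ‖ξ‖ ^ 2) := by ring
      _ ≤ 2 * τ * (⟪ξ, gop q0 ξ⟫_ℝ * ⟪ξ, gop q0' ξ⟫_ℝ) :=
          mul_le_mul_of_nonneg_left (mul_le_mul d1 d1' h2.le (h2.le.trans d1)) (by positivity)
  linarith

/-- Lipschitz property along the graph. -/
theorem mq_lip {q0 q q' : F →L[ℝ] V} (h0 : ‖q0‖ ≤ 1 / 4) (h : ‖q‖ ≤ 1 / 4) (h' : ‖q'‖ ≤ 1 / 4)
    {ξ ξ' : F} (hq : ‖q - q0‖ ≤ ‖ξ‖) (hq' : ‖q' - q0‖ ≤ ‖ξ'‖) (hqq : ‖q' - q‖ ≤ ‖ξ' - ξ‖) :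
    |mq q0 q' ξ' - mq q0 q ξ| ≤ 50 * ‖ξ' - ξ‖ := by
  -- the ordered case
  have main : ∀ {q q' : F →L[ℝ] V} {ξ ξ' : F}, ‖q‖ ≤ 1 / 4 → ‖q'‖ ≤ 1 / 4 → ‖q - q0‖ ≤ ‖ξ‖ →
      ‖q' - q0‖ ≤ ‖ξ'‖ → ‖q' - q‖ ≤ ‖ξ' - ξ‖ → ‖ξ‖ ≤ ‖ξ'‖ →
      |mq q0 q' ξ' - mq q0 q ξ| ≤ 50 * ‖ξ' - ξ‖ := by
    intro q q' ξ ξ' h h' hq hq' hqq hle
    by_cases hξ : ξ = 0
    · subst hξ
      rw [mq_zero]
      refine (abs_mq_sub_one h0 h' ξ').trans ?_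
      rw [sub_zero]
      have := norm_nonneg ξ'
      linarith
    have hn : 0 < ‖ξ‖ := norm_pos_iff.2 hξ
    have hn' : 0 < ‖ξ'‖ := hn.trans_le hle
    have hξ' : ξ' ≠ 0 := norm_pos_iff.1 hn'
    have e : mq q0 q' ξ' - mq q0 q ξ = (mq q0 q' ξ' - 1) - (mq q0 q ξ - 1) := by ring
    rw [e, mq_sub hξ, mq_sub hξ']
    have d1 := le_gop_inner q0 ξ
    have d1' := le_gop_inner q0 ξ'
    have h2 : 0 < ‖ξ‖ ^ 2 := by positivity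
    have h2' : 0 < ‖ξ'‖ ^ 2 := by positivity
    refine (quot_diff (h2.trans_le d1) (h2'.trans_le d1')).trans ?_
    set d := ‖ξ' - ξ‖ with hd
    have hd0 : 0 ≤ d := norm_nonneg _
    have gl : ∀ v : F, ‖gop q0 v‖ ≤ 2 * ‖v‖ := fun v =>
      ((gop q0).le_opNorm v).trans (mul_le_mul_of_nonneg_right (norm_gop_le h0) (norm_nonneg _))
    have g2 : ‖gop q0 ξ' - gop q0 ξ‖ ≤ 2 * d := by rw [← map_sub]; exact gl _
    have g1 : ‖gop q0 ξ‖ ≤ 2 * ‖ξ'‖ := (gl ξ).trans (by linarith)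
    have g1' := gl ξ'
    set H := ginv q - ginv q0 with hH
    set H' := ginv q' - ginv q0 with hH'
    have hHn : ‖H‖ ≤ ‖ξ'‖ := ((norm_ginv_sub h0 h).trans hq).trans hle
    have hHd : ‖H' - H‖ ≤ d := by
      have : H' - H = ginv q' - ginv q := by rw [hH, hH']; abel
      rw [this]
      exact (norm_ginv_sub h h').trans hqq
    have N1 : |⟪gop q0 ξ', H' (gop q0 ξ')⟫_ℝ - ⟪gop q0 ξ, H (gop q0 ξ)⟫_ℝ| ≤
        (4 * d + 8 * d * ‖ξ'‖ * ‖ξ'‖⁻¹) * ‖ξ'‖ ^ 2 := by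
      have e1 : ⟪gop q0 ξ', H' (gop q0 ξ')⟫_ℝ - ⟪gop q0 ξ, H (gop q0 ξ)⟫_ℝ =
          ⟪gop q0 ξ', (H' - H) (gop q0 ξ')⟫_ℝ + ⟪gop q0 ξ' - gop q0 ξ, H (gop q0 ξ')⟫_ℝ +
          ⟪gop q0 ξ, H (gop q0 ξ' - gop q0 ξ)⟫_ℝ := by
        simp only [sub_apply, map_sub, inner_sub_left, inner_sub_right]; ring
      rw [e1]
      have b1 : |⟪gop q0 ξ', (H' - H) (gop q0 ξ')⟫_ℝ| ≤ (2 * ‖ξ'‖) * (d * (2 * ‖ξ'‖)) :=
        (abs_real_inner_le_norm _ _).trans (mul_le_mul g1' (((H' - H).le_opNorm _).trans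
          (mul_le_mul hHd g1' (norm_nonneg _) (by positivity))) (norm_nonneg _) (by positivity))
      have b2 : |⟪gop q0 ξ' - gop q0 ξ, H (gop q0 ξ')⟫_ℝ| ≤ (2 * d) * (‖ξ'‖ * (2 * ‖ξ'‖)) :=
        (abs_real_inner_le_norm _ _).trans (mul_le_mul g2 ((H.le_opNorm _).trans
          (mul_le_mul hHn g1' (norm_nonneg _) (by positivity))) (norm_nonneg _) (by positivity))
      have b3 : |⟪gop q0 ξ, H (gop q0 ξ' - gop q0 ξ)⟫_ℝ| ≤ (2 * ‖ξ'‖) * (‖ξ'‖ * (2 * d)) :=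
        (abs_real_inner_le_norm _ _).trans (mul_le_mul g1 ((H.le_opNorm _).trans
          (mul_le_mul hHn g2 (norm_nonneg _) (by positivity))) (norm_nonneg _) (by positivity))
      have c1 := abs_add_le (⟪gop q0 ξ', (H' - H) (gop q0 ξ')⟫_ℝ +
        ⟪gop q0 ξ' - gop q0 ξ, H (gop q0 ξ')⟫_ℝ) ⟪gop q0 ξ, H (gop q0 ξ' - gop q0 ξ)⟫_ℝ
      have c2 := abs_add_le ⟪gop q0 ξ', (H' - H) (gop q0 ξ')⟫_ℝ
        ⟪gop q0 ξ' - gop q0 ξ, H (gop q0 ξ')⟫_ℝ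
      have hinv : ‖ξ'‖ * ‖ξ'‖⁻¹ = 1 := mul_inv_cancel₀ hn'.ne'
      have e2 : (4 * d + 8 * d * ‖ξ'‖ * ‖ξ'‖⁻¹) * ‖ξ'‖ ^ 2 =
          4 * d * ‖ξ'‖ ^ 2 + 8 * d * ‖ξ'‖ ^ 2 * (‖ξ'‖ * ‖ξ'‖⁻¹) := by ring
      rw [e2, hinv]
      nlinarith
    have hinv : ‖ξ'‖ * ‖ξ'‖⁻¹ = 1 := mul_inv_cancel₀ hn'.ne'
    have e3 : 4 * d + 8 * d * ‖ξ'‖ * ‖ξ'‖⁻¹ = 12 * d := by
      rw [mul_assoc (8 * d), hinv]; ring
    rw [e3] at N1
    have N2 : |⟪gop q0 ξ, H (gop q0 ξ)⟫_ℝ| ≤ 4 * ‖ξ'‖ * ‖ξ‖ ^ 2 := by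
      refine (abs_num_le h0 h ξ).trans ?_
      have : ‖q - q0‖ ≤ ‖ξ'‖ := hq.trans hle
      nlinarith
    have N3 : |⟪ξ', gop q0 ξ'⟫_ℝ - ⟪ξ, gop q0 ξ⟫_ℝ| ≤ 4 * d * ‖ξ'‖ := by
      have e1 : ⟪ξ', gop q0 ξ'⟫_ℝ - ⟪ξ, gop q0 ξ⟫_ℝ = ⟪ξ' - ξ, gop q0 ξ'⟫_ℝ +
          ⟪ξ, gop q0 ξ' - gop q0 ξ⟫_ℝ := by
        simp only [inner_sub_left, inner_sub_right]; ring
      rw [e1]
      refine (abs_add_le _ _).trans ?_
      have b1 : |⟪ξ' - ξ, gop q0 ξ'⟫_ℝ| ≤ d * (2 * ‖ξ'‖) := (abs_real_inner_le_norm _ _).trans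
        (mul_le_mul_of_nonneg_left g1' hd0)
      have b2 : |⟪ξ, gop q0 ξ' - gop q0 ξ⟫_ℝ| ≤ ‖ξ'‖ * (2 * d) :=
        (abs_real_inner_le_norm _ _).trans (mul_le_mul hle g2 (norm_nonneg _) (norm_nonneg _))
      linarith
    have r1 : |⟪gop q0 ξ', H' (gop q0 ξ')⟫_ℝ - ⟪gop q0 ξ, H (gop q0 ξ)⟫_ℝ| / ⟪ξ', gop q0 ξ'⟫_ℝ ≤
        12 * d := by
      rw [div_le_iff₀ (h2'.trans_le d1')]
      exact N1.trans (mul_le_mul_of_nonneg_left d1' (by positivity))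
    have r2 : |⟪gop q0 ξ, H (gop q0 ξ)⟫_ℝ| * |⟪ξ', gop q0 ξ'⟫_ℝ - ⟪ξ, gop q0 ξ⟫_ℝ| /
        (⟪ξ, gop q0 ξ⟫_ℝ * ⟪ξ', gop q0 ξ'⟫_ℝ) ≤ 16 * d := by
      rw [div_le_iff₀ (mul_pos (h2.trans_le d1) (h2'.trans_le d1'))]
      calc |⟪gop q0 ξ, H (gop q0 ξ)⟫_ℝ| * |⟪ξ', gop q0 ξ'⟫_ℝ - ⟪ξ, gop q0 ξ⟫_ℝ| ≤
            (4 * ‖ξ'‖ * ‖ξ‖ ^ 2) * (4 * d * ‖ξ'‖) := mul_le_mul N2 N3 (abs_nonneg _) (by positivity)
        _ = 16 * d * (‖ξ‖ ^ 2 * ‖ξ'‖ ^ 2) := by ring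
        _ ≤ 16 * d * (⟪ξ, gop q0 ξ⟫_ℝ * ⟪ξ', gop q0 ξ'⟫_ℝ) :=
            mul_le_mul_of_nonneg_left (mul_le_mul d1 d1' h2'.le (h2.le.trans d1)) (by positivity)
    linarith
  rcases le_total ‖ξ‖ ‖ξ'‖ with hle | hle
  · exact main h h' hq hq' hqq hle
  · have := main h' h hq' hq (by rwa [norm_sub_rev q, norm_sub_rev ξ]) hle
    rwa [abs_sub_comm, norm_sub_rev] at this

end Crest.Agent.R234.Sw_733
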