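import Crest.Agent.R234.Swb9_159
import Crest.Agent.R234.Stp3_518

/-!
# Row 234, F6-BLOCK (helper159), part 10: bounds of `II` by `∫ f`, facts of the flat package
-/

set_option autoImplicit false
set_option linter.unusedSectionVars false

open MeasureTheory Set Metric Filter Topology
open Crest.GeometryTopology.Submanifold
open scoped ENNReal NNReal ContDiff RealInnerProductSpace

noncomputable section

namespace Crest.Agent.R234.Swb_159

open Crest.Agent.R234.Vf_884 (L G)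
open Crest.Agent.R234.Cy_870 (Ker)
open Crest.Agent.R234.Ell1_3 Crest.Agent.R234.Main_456 Crest.Agent.R234.Grot_842
open Crest.Agent.R234.GL_394 (Ch Ok On VK)
open Crest.Agent.R234.Gi_456 (Gr tube IsFoot foot yy Bt Lo Loi ch Kc giB muG)
open Crest.Agent.R234.GI_640 (g3 g31 g32)

local notation "adj" => ContinuousLinearMap.adjoint

variable {m n k : ℕ} {w : Euc m → Euc n} {π : Euc k →L[ℝ] Euc m} {ρ : Euc k →L[ℝ] Euc n}
  {x : Euc k} {r : ℝ} {X0 : Euc m} {V : Measure (Euc k × L k)} {K : Set (Euc k)}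

/-- `1/2 ≤ μ ≤ 3/2` -/
theorem mu_bd (h : Gr r w) {v : Euc m} (hv : ‖v‖ ≤ 15 * r) :
    1 / 2 ≤ (ch π ρ x r w X0).mu v ∧ (ch π ρ x r w X0).mu v ≤ 3 / 2 := by
  have hr := h.pos
  show 1 / 2 ≤ muG (giB w X0) v ∧ muG (giB w X0) v ≤ 3 / 2
  by_cases h0 : v = 0
  · subst h0
    rw [Gi_456.muG_zero]; norm_num
  have hn : 0 < ‖v‖ := norm_pos_iff.2 h0
  have h1 := norm_giB_sub h X0 v
  have h2 : 1 / (30 * r) * ‖v‖ ≤ 1 / 2 := by
    calc 1 / (30 * r) * ‖v‖ ≤ 1 / (30 * r) * (15 * r) :=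
          mul_le_mul_of_nonneg_left hv (by positivity)
      _ = 1 / 2 := by field_simp; norm_num
  have h3 := Gi_456.muG_mul (G := giB w X0) v
  have h4 : ⟪v, giB w X0 v v⟫ - ‖v‖ ^ 2 =
      ⟪v, (giB w X0 v - ContinuousLinearMap.id ℝ (Euc m)) v⟫ := by
    rw [_root_.sub_apply, inner_sub_right, ContinuousLinearMap.id_apply,
      real_inner_self_eq_norm_sq]
  have h5 : |⟪v, (giB w X0 v - ContinuousLinearMap.id ℝ (Euc m)) v⟫| ≤ 1 / 2 * ‖v‖ ^ 2 := by
    refine (abs_real_inner_le_norm _ _).trans ?_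
    have h6 := (giB w X0 v - ContinuousLinearMap.id ℝ (Euc m)).le_opNorm v
    have h7 : ‖giB w X0 v - ContinuousLinearMap.id ℝ (Euc m)‖ * ‖v‖ ≤ 1 / 2 * ‖v‖ :=
      mul_le_mul_of_nonneg_right (h1.trans h2) hn.le
    calc _ ≤ ‖v‖ * (1 / 2 * ‖v‖) := mul_le_mul_of_nonneg_left (h6.trans h7) hn.le
      _ = _ := by ring
  rw [← h4, h3] at h5
  obtain ⟨h8, h9⟩ := abs_le.1 h5
  have h10 : 0 < ‖v‖ ^ 2 := by positivity
  constructor
  · refine le_of_mul_le_mul_right ?_ h10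
    linarith
  · refine le_of_mul_le_mul_right ?_ h10
    linarith

theorem f_nonneg (z : Euc k) : 0 ≤ (ch π ρ x r w X0).f z := by
  show 0 ≤ ‖Bt π ρ w (foot π ρ x r w z) (yy π ρ x r w z)‖ ^ 2 / 2
  positivity

theorem integrable_f (h : Gr r w) (hf : Frame π ρ) (hK : IsCompact K) (hK1 : K ⊆ tube π ρ x r w)
    (hV : On V m K) : Integrable (fun p : Euc k × L k => (ch π ρ x r w X0).f p.1) V := by
  have ok1 := h.ok hf X0 hK hK1
  refine hV.integrable hK ?_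
  have h2 : ContinuousOn (ch π ρ x r w X0).f K := fun z hz =>
    (ok1.hf z hz).continuousAt.continuousWithinAt
  exact h2.comp continuousOn_fst fun p hp => hp.1

theorem aem' {c : Ch m k} {D : Set (Euc m)} (hc : Ok c K D) (hV : On V m K) :
    AEMeasurable (fun p : Euc k × L k => c.x p.1) V := by
  have := hV.fin
  have hS : MeasurableSet (K ×ˢ G m k) :=
    hc.cpt.isClosed.measurableSet.prod (Vf_884.measurableSet_G m k)
  rw [← Measure.restrict_eq_self_of_ae_mem hV.mem]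
  have h1 : ContinuousOn c.x K := fun z hz => (hc.hx z hz).continuousAt.continuousWithinAt
  exact (h1.comp continuousOn_fst (fun p hp => hp.1)).aemeasurable hS

theorem integrable_II' {c : Ch m k} {D : Set (Euc m)} (hc : Ok c K D) (hV : On V m K)
    {g1 g2 : ℝ → ℝ} (hg : Ker g1 g2)
    (l : ℝ) : Integrable (fun p : Euc k × L k => (c.f p.1 * c.mu (c.x p.1)) *
      (-4 * g1 (Real.exp (-2 * l) * ‖c.x p.1‖ ^ 2))) V := by
  refine hV.integrable hc.cpt ?_
  have h0 : ContinuousOn (fun p : Euc k × L k => p.1) (K ×ˢ G m k) := continuousOn_fst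
  have hm : MapsTo (fun p : Euc k × L k => p.1) (K ×ˢ G m k) K := fun p hp => hp.1
  have h1 : ContinuousOn c.x K := fun z hz => (hc.hx z hz).continuousAt.continuousWithinAt
  have h2 : ContinuousOn c.f K := fun z hz => (hc.hf z hz).continuousAt.continuousWithinAt
  have h3 : ContinuousOn (fun z => c.mu (c.x z)) K := hc.cmu.comp h1 hc.mem
  have h4 : ContinuousOn (fun z => g1 (Real.exp (-2 * l) * ‖c.x z‖ ^ 2)) K :=
    hg.continuous.comp_continuousOn ((h1.norm.pow 2).const_mul _)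
  exact ((h2.mul h3).mul (h4.const_mul _)).comp h0 hm

/-- measurable up to null sets -/
theorem nullMeasurable_ball (h : Gr r w) (hf : Frame π ρ) (hK : IsCompact K)
    (hK1 : K ⊆ tube π ρ x r w) (hV : On V m K) (s : ℝ) :
    NullMeasurableSet {p : Euc k × L k | ‖(ch π ρ x r w X0).x p.1‖ ≤ s} V := by
  have hm : AEMeasurable (fun p : Euc k × L k => (ch π ρ x r w X0).x p.1) V :=
    aem' (h.ok hf X0 hK hK1) hV
  have h1 : AEMeasurable (fun p : Euc k × L k => ‖(ch π ρ x r w X0).x p.1‖) V := hm.norm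
  exact h1.nullMeasurableSet_preimage measurableSet_Iic

/-- **lower bound of `II`** -/
theorem int_f_le_II (h : Gr r w) (hf : Frame π ρ) (hK : IsCompact K)
    (hK1 : K ⊆ tube π ρ x r w) (hV : On V m K) {l s δ : ℝ} (hs : s ≤ 15 * r) (hδ : 0 ≤ δ)
    (hl : Real.exp l ≤ 15 * r) (h1 : δ ≤ 1 - Real.exp (-2 * l) * s ^ 2) (hs0 : 0 ≤ s) :
    6 * δ ^ 2 * (Real.exp (-m * l) *
      ∫ p in {p | ‖(ch π ρ x r w X0).x p.1‖ ≤ s}, (ch π ρ x r w X0).f p.1 ∂V) ≤
        GL_394.II (ch π ρ x r w X0) V g31 l := by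
  have ok1 := h.ok hf X0 hK hK1
  have hint := integrable_f (X0 := X0) h hf hK hK1 hV
  have hI := integrable_II' ok1 hV GI_640.ker31 l
  have hns := nullMeasurable_ball (X0 := X0) h hf hK hK1 hV s
  unfold GL_394.II
  have e1 : 6 * δ ^ 2 * (Real.exp (-m * l) *
      ∫ p in {p | ‖(ch π ρ x r w X0).x p.1‖ ≤ s}, (ch π ρ x r w X0).f p.1 ∂V) =
      Real.exp (-m * l) * ∫ p in {p | ‖(ch π ρ x r w X0).x p.1‖ ≤ s},
        6 * δ ^ 2 * (ch π ρ x r w X0).f p.1 ∂V := by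
    rw [integral_const_mul]; ring
  rw [e1]
  refine mul_le_mul_of_nonneg_left ?_ (Real.exp_pos _).le
  rw [← integral_indicator₀ hns]
  refine integral_mono ((hint.const_mul _).indicator₀ hns) hI fun p => ?_
  have hf0 := f_nonneg (π := π) (ρ := ρ) (x := x) (r := r) (w := w) (X0 := X0) p.1
  have hker : ∀ t, 0 ≤ -4 * g31 t := fun t => by have := GI_640.g31_nonpos t; linarith
  by_cases hp : ‖(ch π ρ x r w X0).x p.1‖ ≤ s
  · rw [indicator_of_mem (show p ∈ {p | ‖(ch π ρ x r w X0).x p.1‖ ≤ s} from hp)]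
    have hmu := (mu_bd (π := π) (ρ := ρ) (x := x) (X0 := X0) h (hp.trans hs)).1
    have hk : 12 * δ ^ 2 ≤ -4 * g31 (Real.exp (-2 * l) * ‖(ch π ρ x r w X0).x p.1‖ ^ 2) := by
      unfold GI_640.g31
      have h2 : Real.exp (-2 * l) * ‖(ch π ρ x r w X0).x p.1‖ ^ 2 ≤ Real.exp (-2 * l) * s ^ 2 := by
        gcongr
      have h3 : δ ≤ max 0 (1 - Real.exp (-2 * l) * ‖(ch π ρ x r w X0).x p.1‖ ^ 2) :=
        le_max_of_le_right (by linarith)
      have h4 := pow_le_pow_left₀ hδ h3 2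
      linarith
    have h5 : 1 / 2 * (12 * δ ^ 2) ≤ (ch π ρ x r w X0).mu ((ch π ρ x r w X0).x p.1) *
        (-4 * g31 (Real.exp (-2 * l) * ‖(ch π ρ x r w X0).x p.1‖ ^ 2)) :=
      mul_le_mul hmu hk (by positivity) (by linarith)
    calc 6 * δ ^ 2 * (ch π ρ x r w X0).f p.1 =
        (ch π ρ x r w X0).f p.1 * (1 / 2 * (12 * δ ^ 2)) := by ring
      _ ≤ (ch π ρ x r w X0).f p.1 * ((ch π ρ x r w X0).mu ((ch π ρ x r w X0).x p.1) *
        (-4 * g31 (Real.exp (-2 * l) * ‖(ch π ρ x r w X0).x p.1‖ ^ 2))) :=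
          mul_le_mul_of_nonneg_left h5 hf0
      _ = _ := by ring
  · rw [indicator_of_notMem (show p ∉ {p | ‖(ch π ρ x r w X0).x p.1‖ ≤ s} from hp)]
    rcases le_or_gt (Real.exp l) ‖(ch π ρ x r w X0).x p.1‖ with h2 | h2
    · rw [ker_zero GI_640.ker31 h2, mul_zero, mul_zero]
    · have hmu := (mu_bd (π := π) (ρ := ρ) (x := x) (X0 := X0) h (h2.le.trans hl)).1
      exact mul_nonneg (mul_nonneg hf0 (by linarith)) (hker _)

/-- **upper bound of `II`** -/
theorem II_le_int_f (h : Gr r w) (hf : Frame π ρ) (hK : IsCompact K)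
    (hK1 : K ⊆ tube π ρ x r w) (hV : On V m K) {l s : ℝ} (hl : Real.exp l ≤ 15 * r)
    (hs : Real.exp l ≤ s) :
    GL_394.II (ch π ρ x r w X0) V g31 l ≤ 18 * (Real.exp (-m * l) *
      ∫ p in {p | ‖(ch π ρ x r w X0).x p.1‖ ≤ s}, (ch π ρ x r w X0).f p.1 ∂V) := by
  have ok1 := h.ok hf X0 hK hK1
  have hint := integrable_f (X0 := X0) h hf hK hK1 hV
  have hI := integrable_II' ok1 hV GI_640.ker31 l
  have hns := nullMeasurable_ball (X0 := X0) h hf hK hK1 hV s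
  unfold GL_394.II
  have e1 : 18 * (Real.exp (-m * l) *
      ∫ p in {p | ‖(ch π ρ x r w X0).x p.1‖ ≤ s}, (ch π ρ x r w X0).f p.1 ∂V) =
      Real.exp (-m * l) * ∫ p in {p | ‖(ch π ρ x r w X0).x p.1‖ ≤ s},
        18 * (ch π ρ x r w X0).f p.1 ∂V := by
    rw [integral_const_mul]; ring
  rw [e1]
  refine mul_le_mul_of_nonneg_left ?_ (Real.exp_pos _).le
  rw [← integral_indicator₀ hns]
  refine integral_mono hI ((hint.const_mul _).indicator₀ hns) fun p => ?_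
  have hf0 := f_nonneg (π := π) (ρ := ρ) (x := x) (r := r) (w := w) (X0 := X0) p.1
  have hind : 0 ≤ {p : Euc k × L k | ‖(ch π ρ x r w X0).x p.1‖ ≤ s}.indicator
      (fun p => 18 * (ch π ρ x r w X0).f p.1) p :=
    indicator_nonneg (fun q _ => by
      have := f_nonneg (π := π) (ρ := ρ) (x := x) (r := r) (w := w) (X0 := X0) q.1
      positivity) p
  rcases le_or_gt (Real.exp l) ‖(ch π ρ x r w X0).x p.1‖ with h2 | h2
  · rw [ker_zero GI_640.ker31 h2, mul_zero, mul_zero]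
    exact hind
  · rw [indicator_of_mem (show p ∈ {p | ‖(ch π ρ x r w X0).x p.1‖ ≤ s} from h2.le.trans hs)]
    have hmu := mu_bd (π := π) (ρ := ρ) (x := x) (X0 := X0) h (h2.le.trans hl)
    have hk : -4 * g31 (Real.exp (-2 * l) * ‖(ch π ρ x r w X0).x p.1‖ ^ 2) ≤ 12 := by
      unfold GI_640.g31
      have h3 : max 0 (1 - Real.exp (-2 * l) * ‖(ch π ρ x r w X0).x p.1‖ ^ 2) ≤ 1 :=
        max_le (by norm_num) (by
          have : 0 ≤ Real.exp (-2 * l) * ‖(ch π ρ x r w X0).x p.1‖ ^ 2 := by positivity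
          linarith)
      have h4 := pow_le_pow_left₀ (le_max_left _ _) h3 2
      linarith
    have hk0 : 0 ≤ -4 * g31 (Real.exp (-2 * l) * ‖(ch π ρ x r w X0).x p.1‖ ^ 2) := by
      have := GI_640.g31_nonpos (Real.exp (-2 * l) * ‖(ch π ρ x r w X0).x p.1‖ ^ 2); linarith
    have h5 : (ch π ρ x r w X0).mu ((ch π ρ x r w X0).x p.1) *
        (-4 * g31 (Real.exp (-2 * l) * ‖(ch π ρ x r w X0).x p.1‖ ^ 2)) ≤ 3 / 2 * 12 :=
      mul_le_mul hmu.2 hk hk0 (by norm_num)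
    calc (ch π ρ x r w X0).f p.1 * (ch π ρ x r w X0).mu ((ch π ρ x r w X0).x p.1) *
        (-4 * g31 (Real.exp (-2 * l) * ‖(ch π ρ x r w X0).x p.1‖ ^ 2)) =
        (ch π ρ x r w X0).f p.1 * ((ch π ρ x r w X0).mu ((ch π ρ x r w X0).x p.1) *
        (-4 * g31 (Real.exp (-2 * l) * ‖(ch π ρ x r w X0).x p.1‖ ^ 2))) := by ring
      _ ≤ (ch π ρ x r w X0).f p.1 * (3 / 2 * 12) := mul_le_mul_of_nonneg_left h5 hf0
      _ = 18 * (ch π ρ x r w X0).f p.1 := by ring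

/-- monotonicity of `∫ f` in the radius -/
theorem int_f_mono (h : Gr r w) (hf : Frame π ρ) (hK : IsCompact K)
    (hK1 : K ⊆ tube π ρ x r w) (hV : On V m K) {s s' : ℝ} (hs : s ≤ s') :
    ∫ p in {p | ‖(ch π ρ x r w X0).x p.1‖ ≤ s}, (ch π ρ x r w X0).f p.1 ∂V ≤
      ∫ p in {p | ‖(ch π ρ x r w X0).x p.1‖ ≤ s'}, (ch π ρ x r w X0).f p.1 ∂V :=
  setIntegral_mono_set (integrable_f (X0 := X0) h hf hK hK1 hV).integrableOn
    (Eventually.of_forall fun p => f_nonneg p.1)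
    (HasSubset.Subset.eventuallyLE fun p (hp : ‖(ch π ρ x r w X0).x p.1‖ ≤ s) =>
      le_trans hp hs)

theorem int_f_nonneg (s : ℝ) :
    0 ≤ ∫ p in {p | ‖(ch π ρ x r w X0).x p.1‖ ≤ s}, (ch π ρ x r w X0).f p.1 ∂V :=
  integral_nonneg fun p => f_nonneg p.1

end Crest.Agent.R234.Swb_159
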