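import Crest.Agent.R234.Swb7_159
import Crest.Agent.R234.Rs8_182
import Crest.Agent.R234.F10v_188
import Crest.Agent.R234.Stp4_518

/-!
# Row 234, F6-BLOCK (helper159), part 13: the class part of the block change

`blk_cls` : base point, rotation, new function, class bound, `Same` in every ambient scale.
-/

set_option autoImplicit false
set_option linter.unusedSectionVars false
set_option linter.unusedVariables false

open MeasureTheory Set Metric Filter Topology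
open Crest.GeometryTopology.Submanifold
open scoped ENNReal NNReal ContDiff RealInnerProductSpace

noncomputable section

namespace Crest.Agent.R234.Swb_159

open Crest.Agent.R234.Ell1_3 Crest.Agent.R234.Main_456 Crest.Agent.R234.Grot_842
open Crest.Agent.R234.Gi_456 (Gr)
open Crest.Agent.R234.MG_570 (MG)
open Crest.Agent.R234.Rs_182 (RotG)

local notation "adj" => ContinuousLinearMap.adjoint

variable {m n k : ℕ}

/-- 182's rescaling, `c` after `H, H'`. -/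
def RescH (m n N : ℕ) : Prop := ∀ r₀ : ℝ, 0 < r₀ → r₀ ≤ 1 →
    ∃ (κ₀ C : ℝ) (p J : ℕ), 0 < κ₀ ∧ 1 ≤ C ∧
    ∀ (t ε R κ th : ℝ) (u : Euc m → Euc n) (X₀ : Euc m),
      0 < t → 4 * t ≤ 1 → 0 < ε → ε ≤ 1 / 4 → r₀ ≤ R → R ≤ 3 / 2 → κ ≤ κ₀ → MG N κ (t * R) u →
      ‖X₀‖ ≤ ε * (t * R) / 8 → ‖fderiv ℝ u X₀‖ ≤ th → 0 < th → th ≤ 1 →
      C * (ε⁻¹) ^ p * th ^ ((1 / 2 : ℝ) ^ J) ≤ 1 →
      ∃ (H : Euc m →L[ℝ] Euc m) (H' : Euc n →L[ℝ] Euc n), Rt (fderiv ℝ u X₀) H H' ∧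
        ∀ c : Euc n, ∃ u' : Euc m → Euc n,
          MG N (C * t * κ + C * (ε⁻¹) ^ p * th ^ ((1 / 2 : ℝ) ^ J) * κ + C * ‖c‖)
            ((1 - ε) * R) u' ∧
          RotG u u' X₀ c (fderiv ℝ u X₀) H H' t R ((1 - ε) * R) (C * κ * ‖fderiv ℝ u X₀‖)

/-- the radius of the block change (new block units) -/
def rbl (K : ℝ) : ℝ := Real.exp (3 / K - 1 / 8) * (1 + 1 / (8 * K))

theorem rbl_bds {K : ℝ} (hK : 32 ≤ K) : 7 / 8 ≤ rbl K ∧ rbl K ≤ 1 := by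
  have hK0 : 0 < K := by linarith
  have h3 : 3 / K ≤ 3 / 32 := div_le_div_of_nonneg_left (by norm_num) (by norm_num) hK
  have h30 : 0 < 3 / K := by positivity
  have h8 : 1 / (8 * K) ≤ 1 / 256 := one_div_le_one_div_of_le (by norm_num) (by linarith)
  have h80 : 0 < 1 / (8 * K) := by positivity
  constructor
  · have h1 := Real.add_one_le_exp (3 / K - 1 / 8)
    unfold rbl
    nlinarith
  · have h1 : Real.exp (3 / K - 1 / 8) ≤ Real.exp (-(1 / 32)) := Real.exp_le_exp.2 (by linarith)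
    have h2 : Real.exp (-(1 / 32 : ℝ)) ≤ 32 / 33 := by
      rw [Real.exp_neg]
      have h3 := Real.add_one_le_exp (1 / 32 : ℝ)
      have h4 : (Real.exp (1 / 32 : ℝ))⁻¹ ≤ (1 / 32 + 1 : ℝ)⁻¹ := inv_anti₀ (by norm_num) h3
      refine h4.trans (by norm_num)
    unfold rbl
    calc _ ≤ (32 / 33 : ℝ) * (1 + 1 / 256) :=
          mul_le_mul (h1.trans h2) (by linarith) (by positivity) (by norm_num)
      _ ≤ 1 := by norm_num

/-- powers of `th` -/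
theorem th_pow {L : ℝ} (hL : 1 ≤ L) {J Q₁ q₁ : ℕ} (hq : 2 ^ J * Q₁ ≤ q₁) :
    (2 * (L ^ q₁)⁻¹) ^ ((1 / 2 : ℝ) ^ J) ≤ 2 * (L ^ Q₁)⁻¹ := by
  have hL0 : 0 < L := by linarith
  have e1 : ((1 / 2 : ℝ) ^ J) = ((2 ^ J : ℕ) : ℝ)⁻¹ := by
    rw [one_div, inv_pow]; push_cast; rfl
  have he0 : (0 : ℝ) ≤ (1 / 2 : ℝ) ^ J := by positivity
  have he1 : (1 / 2 : ℝ) ^ J ≤ 1 := pow_le_one₀ (by norm_num) (by norm_num)
  rw [Real.mul_rpow (by norm_num) (by positivity)]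
  have h1 : (2 : ℝ) ^ ((1 / 2 : ℝ) ^ J) ≤ 2 := by
    calc (2 : ℝ) ^ ((1 / 2 : ℝ) ^ J) ≤ (2 : ℝ) ^ (1 : ℝ) :=
          Real.rpow_le_rpow_of_exponent_le (by norm_num) he1
      _ = 2 := Real.rpow_one 2
  have h2 : ((L ^ q₁)⁻¹) ^ ((1 / 2 : ℝ) ^ J) ≤ (L ^ Q₁)⁻¹ := by
    have h3 : (L ^ q₁)⁻¹ ≤ ((L ^ Q₁)⁻¹) ^ (2 ^ J) := by
      rw [inv_pow, ← pow_mul]
      refine inv_anti₀ (by positivity) (pow_le_pow_right₀ hL ?_)
      rw [mul_comm]; exact hq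
    calc ((L ^ q₁)⁻¹) ^ ((1 / 2 : ℝ) ^ J) ≤ (((L ^ Q₁)⁻¹) ^ (2 ^ J)) ^ ((1 / 2 : ℝ) ^ J) :=
          Real.rpow_le_rpow (by positivity) h3 he0
      _ = (L ^ Q₁)⁻¹ := by
          rw [e1]
          exact Real.pow_rpow_inv_natCast (by positivity) (by positivity)
  exact mul_le_mul h1 h2 (by positivity) (by norm_num)

/-- **the class part of the block change.** -/
theorem blk_cls (m n N : ℕ) (hR : RescH m n N) : ∃ (C₁ κs : ℝ) (Qs : ℕ → ℕ), 1 ≤ C₁ ∧ 0 < κs ∧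
    ∀ (T : ℝ) (q q₁ : ℕ), Qs q ≤ q₁ → 1 ≤ q₁ → ∃ L₁ : ℝ, ∀ (k : ℕ) (π : Euc k →L[ℝ] Euc m)
      (ρ : Euc k →L[ℝ] Euc n) (u : Euc m → Euc n) (κ L K t : ℝ), Frame π ρ → Gr 1 u →
      0 ≤ κ → κ ≤ κs → κ ≤ 1 → L₁ ≤ L → 32 ≤ K → K ≤ 2 * L ^ 2 → Real.exp (-T) ≤ t → 4 * t ≤ 1 →
      MG N κ (t * rbl K) u → ‖fderiv ℝ u 0‖ ≤ (L ^ q₁)⁻¹ → ‖u 0‖ ≤ Real.exp (-(L / 4)) →
      ∃ (X₀ : Euc m) (H : Euc m →L[ℝ] Euc m) (H' : Euc n →L[ℝ] Euc n) (u' : Euc m → Euc n)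
        (κ' : ℝ), Rt (fderiv ℝ u X₀) H H' ∧ ‖X₀‖ ≤ Real.exp (-(L / 4)) ∧
        ‖fderiv ℝ u X₀‖ ≤ 2 * (L ^ q₁)⁻¹ ∧ 0 ≤ κ' ∧ κ' ≤ C₁ * t * κ + (L ^ q)⁻¹ ∧
        MG N κ' ((1 - 1 / (32 * K)) * rbl K) u' ∧ fderiv ℝ u' 0 = 0 ∧
        ∀ S : ℝ, 0 < S → Same (fderiv ℝ u X₀) H H' (amb S u) (amb (t * S) u')
          (reg (fderiv ℝ u X₀) H u X₀ t S (rbl K) ((1 - 1 / (32 * K)) * rbl K)) := by
  obtain ⟨κs, C, p, J, hκs, hC, h⟩ := hR (1 / 2) (by norm_num) (by norm_num)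
  refine ⟨C, κs, fun q => 2 ^ J * (2 * p + q + 4), hC, hκs, ?_⟩
  intro T q q₁ hq₁ hq₁1
  have hC0 : 0 < C := by linarith
  have hT := Real.exp_pos T
  -- largeness of `L`
  have ev1 := Stp_518.ev_exp (1024 * Real.exp T) (1 / 4) 2 (by norm_num) (δ := 1) one_pos
  have ev2 := Stp_518.ev_exp 1 (1 / 4) q₁ (by norm_num) (δ := 1) one_pos
  have ev3 := Stp_518.ev_exp (6 * C * Real.exp T) (1 / 4) q (by norm_num) (δ := 1) one_pos
  obtain ⟨L₁, hL₁⟩ := Filter.eventually_atTop.1 ((((ev1.and ev2).and ev3).and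
    (eventually_ge_atTop (2 * C * 64 ^ p))).and (eventually_ge_atTop 4))
  refine ⟨L₁, ?_⟩
  intro k π ρ u κ L K t hf hu hκ0 hκ hκ1 hL hK hKL ht ht4 hMG hdu hu0
  obtain ⟨⟨⟨⟨e1, e2⟩, e3⟩, e4⟩, e5⟩ := hL₁ L hL
  have hL0 : 0 < L := by linarith
  have hL1 : 1 ≤ L := by linarith
  have hK0 : 0 < K := by linarith
  have ht0 : 0 < t := (Real.exp_pos _).trans_le ht
  set x := Real.exp (-(L / 4)) with hx
  have hx0 : 0 < x := Real.exp_pos _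
  have ex : Real.exp (-(1 / 4 * L)) = x := by rw [hx]; congr 1; ring
  rw [ex] at e1 e2 e3
  have hx1 : x ≤ 1 := Real.exp_le_one_iff.2 (by linarith)
  have hxq : x ≤ (L ^ q₁)⁻¹ := by
    rw [← one_div, le_div_iff₀ (by positivity)]
    linarith
  obtain ⟨X₀, h0, hX1, hX2⟩ := F10v_188.exists_foot0 hf hu (by
    refine hu0.trans_lt (lt_of_lt_of_le (Real.exp_lt_exp.2 (show -(L / 4) < 0 by linarith)) ?_)
    rw [Real.exp_zero])
  have hX3 : ‖X₀‖ ≤ x := by linarith [norm_nonneg (u 0)]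
  have huX : ‖u X₀‖ ≤ 2 * x := by linarith
  -- the slope at the base point
  have hq2 : ‖fderiv ℝ u X₀‖ ≤ 2 * (L ^ q₁)⁻¹ := by
    have h1 := hu.lip' X₀ 0
    rw [sub_zero] at h1
    have h2 := norm_le_norm_add_norm_sub' (fderiv ℝ u X₀) (fderiv ℝ u 0)
    have h3 : 1 / (8 * 1) * ‖X₀‖ ≤ x := by
      have := norm_nonneg X₀
      linarith
    linarith
  obtain ⟨hr1, hr2⟩ := rbl_bds hK
  have hε0 : (0 : ℝ) < 1 / (32 * K) := by positivity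
  have hε1 : 1 / (32 * K) ≤ 1 / 4 := one_div_le_one_div_of_le (by norm_num) (by linarith)
  -- the base point is close to the centre
  have hX4 : ‖X₀‖ ≤ 1 / (32 * K) * (t * rbl K) / 8 := by
    refine hX3.trans ?_
    have h1 : Real.exp (-T) * (1 / 2) ≤ t * rbl K :=
      mul_le_mul ht (by linarith) (by norm_num) ht0.le
    have h2 : 1 / (64 * L ^ 2) ≤ 1 / (32 * K) :=
      one_div_le_one_div_of_le (by positivity) (by linarith)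
    have h3 : 1 / (64 * L ^ 2) * (Real.exp (-T) * (1 / 2)) / 8 ≤
        1 / (32 * K) * (t * rbl K) / 8 := by
      have := mul_le_mul h2 h1 (by positivity) hε0.le
      linarith
    refine le_trans ?_ h3
    have h4 : 1 / (64 * L ^ 2) * (Real.exp (-T) * (1 / 2)) / 8 =
        1 / (1024 * Real.exp T * L ^ 2) := by
      rw [Real.exp_neg]; field_simp; norm_num
    rw [h4, le_div_iff₀ (by positivity)]
    linarith
  -- the small factor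
  have hth0 : 0 < 2 * (L ^ q₁)⁻¹ := by positivity
  have hth1 : 2 * (L ^ q₁)⁻¹ ≤ 1 := by
    have h1 : L ≤ L ^ q₁ := le_self_pow₀ hL1 (by omega)
    have h2 : (L ^ q₁)⁻¹ ≤ L⁻¹ := inv_anti₀ hL0 h1
    have h3 : L⁻¹ ≤ (4 : ℝ)⁻¹ := inv_anti₀ (by norm_num) e5
    linarith
  set T2 : ℝ := C * ((1 / (32 * K))⁻¹) ^ p * (2 * (L ^ q₁)⁻¹) ^ ((1 / 2 : ℝ) ^ J) with hT2
  have hT20 : 0 ≤ T2 := by positivity
  have hT2b : T2 ≤ (L ^ (q + 3))⁻¹ := by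
    have h1 : (1 / (32 * K))⁻¹ ≤ 64 * L ^ 2 := by
      rw [one_div, inv_inv]; linarith
    have h2 : ((1 / (32 * K))⁻¹) ^ p ≤ (64 * L ^ 2) ^ p := pow_le_pow_left₀ (by positivity) h1 p
    have h3 := th_pow hL1 (J := J) (Q₁ := 2 * p + q + 4) (q₁ := q₁) hq₁
    have h4 : T2 ≤ C * (64 * L ^ 2) ^ p * (2 * (L ^ (2 * p + q + 4))⁻¹) :=
      mul_le_mul (mul_le_mul_of_nonneg_left h2 hC0.le) h3 (by positivity) (by positivity)
    refine h4.trans ?_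
    have h5 : C * (64 * L ^ 2) ^ p * (2 * (L ^ (2 * p + q + 4))⁻¹) =
        (2 * C * 64 ^ p) * (L * L ^ (q + 3))⁻¹ := by
      have : L ^ (2 * p + q + 4) = (L ^ 2) ^ p * (L * L ^ (q + 3)) := by
        rw [← pow_mul]; ring
      rw [this, mul_pow]
      field_simp
    rw [h5, mul_inv, ← mul_assoc]
    have h6 : 2 * C * 64 ^ p * L⁻¹ ≤ 1 := by
      rw [← div_eq_mul_inv, div_le_one hL0]; exact e4
    have h7 : 0 ≤ (L ^ (q + 3))⁻¹ := by positivity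
    calc _ ≤ 1 * (L ^ (q + 3))⁻¹ := mul_le_mul_of_nonneg_right h6 h7
      _ = _ := one_mul _
  have hLq3 : (L ^ (q + 3))⁻¹ ≤ 1 / 2 * (L ^ q)⁻¹ := by
    have h1 : L ^ (q + 3) = L ^ q * L ^ 3 := pow_add _ _ _
    rw [h1, mul_inv, mul_comm]
    refine mul_le_mul_of_nonneg_right ?_ (by positivity)
    have h2 : (4 : ℝ) ^ 3 ≤ L ^ 3 := pow_le_pow_left₀ (by norm_num) e5 3
    have h3 : (L ^ 3)⁻¹ ≤ ((4 : ℝ) ^ 3)⁻¹ := inv_anti₀ (by norm_num) h2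
    refine h3.trans (by norm_num)
  have hLq1 : (L ^ q)⁻¹ ≤ 1 := inv_le_one_of_one_le₀ (one_le_pow₀ hL1)
  obtain ⟨H, H', rt, hu'⟩ := h t (1 / (32 * K)) (rbl K) κ (2 * (L ^ q₁)⁻¹) u X₀ ht0 ht4 hε0 hε1
    (by linarith) (by linarith) hκ hMG hX4 hq2 hth0 hth1
    (hT2b.trans (hLq3.trans (by linarith)))
  obtain ⟨u', hMG', hG⟩ := hu' (t⁻¹ • H' (u X₀ - fderiv ℝ u X₀ X₀))
  have hcn : C * ‖t⁻¹ • H' (u X₀ - fderiv ℝ u X₀ X₀)‖ ≤ 1 / 2 * (L ^ q)⁻¹ := by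
    have h1 : ‖t⁻¹ • H' (u X₀ - fderiv ℝ u X₀ X₀)‖ ≤ Real.exp T * (3 * x) := by
      rw [norm_smul, norm_inv, Real.norm_of_nonneg ht0.le]
      have h2 : t⁻¹ ≤ Real.exp T := by
        have := inv_anti₀ (Real.exp_pos _) ht
        rwa [Real.exp_neg, inv_inv] at this
      refine mul_le_mul h2 ?_ (norm_nonneg _) hT.le
      refine (rt.le' _).trans ((norm_sub_le _ _).trans ?_)
      have h3 := (fderiv ℝ u X₀).le_opNorm X₀
      have h4 : ‖fderiv ℝ u X₀‖ * ‖X₀‖ ≤ 1 * x :=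
        mul_le_mul (hq2.trans hth1) hX3 (norm_nonneg _) zero_le_one
      linarith
    have h5 : x ≤ 1 / (6 * C * Real.exp T) * (L ^ q)⁻¹ := by
      rw [one_div, ← mul_inv, ← one_div, le_div_iff₀ (by positivity)]
      linarith
    calc C * ‖t⁻¹ • H' (u X₀ - fderiv ℝ u X₀ X₀)‖ ≤ C * (Real.exp T * (3 * x)) :=
          mul_le_mul_of_nonneg_left h1 hC0.le
      _ = 3 * C * Real.exp T * x := by ring
      _ ≤ 3 * C * Real.exp T * (1 / (6 * C * Real.exp T) * (L ^ q)⁻¹) :=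
          mul_le_mul_of_nonneg_left h5 (by positivity)
      _ = 1 / 2 * (L ^ q)⁻¹ := by field_simp; norm_num
  refine ⟨X₀, H, H', u', C * t * κ + T2 * κ + C * ‖t⁻¹ • H' (u X₀ - fderiv ℝ u X₀ X₀)‖, rt, hX3,
    hq2, by positivity, ?_, hMG', hG.der, fun S hS => ?_⟩
  · have h1 : T2 * κ ≤ 1 / 2 * (L ^ q)⁻¹ := by
      calc T2 * κ ≤ T2 * 1 := mul_le_mul_of_nonneg_left hκ1 hT20
        _ = T2 := mul_one _
        _ ≤ _ := hT2b.trans hLq3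
    linarith
  · exact same_of_fwd ht0 hS rt hu.differentiable (Rs_182.MG_diff hMG') h0 rfl hG.fwd

end Crest.Agent.R234.Swb_159
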