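import Crest.Agent.R234.Swb11_159
import Crest.Agent.R234.Stp4_518

/-!
# Row 234, F6-BLOCK (helper159), part 14: elementary facts for `BlkP`

* `pow_small` : powers of `Λ`; `II_mono` : `e^{ml} II` is nondecreasing;
* `u0_le` : the value of the reference at the point `x` from the bound of the heights.
-/

set_option autoImplicit false
set_option linter.unusedSectionVars false
set_option linter.unusedVariables false

open MeasureTheory Set Metric Filter Topology
open Crest.GeometryTopology.Submanifold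
open scoped ENNReal NNReal ContDiff RealInnerProductSpace

noncomputable section

namespace Crest.Agent.R234.Swb_159

open Crest.Agent.R234.Vf_884 (L G Stat VD Th mass rat ome)
open Crest.Agent.R234.Cy_870 (Ker)
open Crest.Agent.R234.Ell1_3 Crest.Agent.R234.Main_456 Crest.Agent.R234.Grot_842
open Crest.Agent.R234.GL_394 (Ch Ok On VK)
open Crest.Agent.R234.Gi_456 (Gr tube IsFoot foot yy Bt Lo Loi ch Kc giB muG)
open Crest.Agent.R234.GI_640 (g3 g31 g32)
open Crest.Agent.R234.Stp_518 (Mo GrB gr_of SupLe)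

local notation "adj" => ContinuousLinearMap.adjoint

variable {m n k : ℕ}

/-! ### numbers -/

theorem pow_small {B L K : ℝ} {P q q₁ : ℕ} (hB : 0 ≤ B) (hL : 1 ≤ L) (hK : 0 ≤ K)
    (hKL : K ≤ 2 * L ^ 2) (hq : 2 * P + q + 1 ≤ q₁) (hBL : B * 2 ^ P ≤ L) :
    (L ^ q₁)⁻¹ * (B * K ^ P) ≤ (L ^ q)⁻¹ := by
  have hL0 : 0 < L := by linarith
  have h1 : (L ^ q₁)⁻¹ ≤ (L ^ (2 * P + q + 1))⁻¹ :=
    inv_anti₀ (by positivity) (pow_le_pow_right₀ hL hq)
  have h2 : K ^ P ≤ (2 * L ^ 2) ^ P := pow_le_pow_left₀ hK hKL P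
  calc (L ^ q₁)⁻¹ * (B * K ^ P) ≤ (L ^ (2 * P + q + 1))⁻¹ * (B * (2 * L ^ 2) ^ P) := by gcongr
    _ = (B * 2 ^ P) * L⁻¹ * (L ^ q)⁻¹ := by
        have : L ^ (2 * P + q + 1) = (L ^ 2) ^ P * (L ^ q * L) := by
          rw [← pow_mul]; ring
        rw [this, mul_pow]
        field_simp
    _ ≤ 1 * (L ^ q)⁻¹ := by
        refine mul_le_mul_of_nonneg_right ?_ (by positivity)
        rw [← div_eq_mul_inv, div_le_one hL0]
        exact hBL
    _ = _ := one_mul _

theorem one_sub_exp_ge {s : ℝ} (hs : 0 ≤ s) (hs1 : s ≤ 1) : s / 2 ≤ 1 - Real.exp (-s) := by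
  have h1 := Real.add_one_le_exp s
  have h2 : Real.exp (-s) ≤ (s + 1)⁻¹ := by
    rw [Real.exp_neg]
    exact inv_anti₀ (by linarith) h1
  have h3 : (s + 1)⁻¹ ≤ 1 - s / 2 := by
    rw [inv_le_iff_one_le_mul₀ (by linarith)]
    nlinarith
  linarith

/-! ### monotonicity of `II` -/

section mono

variable {w : Euc m → Euc n} {π : Euc k →L[ℝ] Euc m} {ρ : Euc k →L[ℝ] Euc n}
  {x : Euc k} {r : ℝ} {X0 : Euc m} {V : Measure (Euc k × L k)} {K : Set (Euc k)}

theorem g31_mono {s t : ℝ} (h : s ≤ t) : g31 s ≤ g31 t := by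
  unfold GI_640.g31
  have h1 : max 0 (1 - t) ≤ max 0 (1 - s) := max_le_max le_rfl (by linarith)
  have h2 := pow_le_pow_left₀ (le_max_left 0 (1 - t)) h1 2
  linarith

theorem II_mono (h : Gr r w) (hf : Frame π ρ) (hK : IsCompact K)
    (hK1 : K ⊆ tube π ρ x r w) (hV : On V m K) {l l' : ℝ} (hll : l ≤ l')
    (hl' : Real.exp l' ≤ 15 * r) :
    GL_394.II (ch π ρ x r w X0) V g31 l ≤
      Real.exp (m * (l' - l)) * GL_394.II (ch π ρ x r w X0) V g31 l' := by
  have ok1 := h.ok hf X0 hK hK1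
  have hI := integrable_II' ok1 hV GI_640.ker31 l
  have hI' := integrable_II' ok1 hV GI_640.ker31 l'
  unfold GL_394.II
  rw [← mul_assoc, ← Real.exp_add]
  have e1 : (m : ℝ) * (l' - l) + -m * l' = -m * l := by ring
  rw [e1]
  refine mul_le_mul_of_nonneg_left (integral_mono hI hI' fun p => ?_) (Real.exp_pos _).le
  have hf0 := f_nonneg (π := π) (ρ := ρ) (x := x) (r := r) (w := w) (X0 := X0) p.1
  rcases le_or_gt (Real.exp l') ‖(ch π ρ x r w X0).x p.1‖ with h2 | h2
  · show _ * (-4 * g31 (Real.exp (-2 * l) * ‖(ch π ρ x r w X0).x p.1‖ ^ 2)) ≤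
      _ * (-4 * g31 (Real.exp (-2 * l') * ‖(ch π ρ x r w X0).x p.1‖ ^ 2))
    rw [ker_zero GI_640.ker31 h2, ker_zero GI_640.ker31 ((Real.exp_le_exp.2 hll).trans h2)]
  · have hmu := (mu_bd (π := π) (ρ := ρ) (x := x) (X0 := X0) h (h2.le.trans hl')).1
    refine mul_le_mul_of_nonneg_left ?_ (mul_nonneg hf0 (by linarith))
    have h3 : Real.exp (-2 * l') * ‖(ch π ρ x r w X0).x p.1‖ ^ 2 ≤
        Real.exp (-2 * l) * ‖(ch π ρ x r w X0).x p.1‖ ^ 2 :=
      mul_le_mul_of_nonneg_right (Real.exp_le_exp.2 (by linarith)) (by positivity)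
    have := g31_mono h3
    linarith

end mono

/-! ### the value at the point -/

theorem u0_le {U : Set (Euc k)} {D : VarifoldData m k} {Q : ℕ} {x : Euc k} {M : Mo m n k}
    (hm : 1 ≤ m) (hV : Stat m k U (VD D)) (hQ : 1 ≤ Q) (hTh : Th m (VD D) x = (Q : ℝ≥0∞))
    (hU : Metric.closedBall x (8 * M.S) ⊆ U) (hf : Frame M.π M.ρ) (hu : Continuous M.u) {R η : ℝ}
    (hR : 0 < R) (hs : SupLe M x (VD D) R η) : ‖M.u 0‖ ≤ η := by
  have hS := M.S_pos
  by_contra hc
  push Not at hc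
  have hcont : Continuous fun z : Euc k => ‖hgt M.π M.ρ x M.S M.u z‖ := by
    have h1 : Continuous fun z : Euc k => M.ρ (z - x) - M.S • M.u (M.S⁻¹ • M.π (z - x)) := by
      fun_prop
    exact h1.norm
  have h0 : ‖hgt M.π M.ρ x M.S M.u x‖ = M.S * ‖M.u 0‖ := by
    show ‖M.ρ (x - x) - M.S • M.u (M.S⁻¹ • M.π (x - x))‖ = _
    rw [sub_self, map_zero, map_zero, smul_zero, zero_sub, norm_neg, norm_smul,
      Real.norm_of_nonneg hS.le]
  have h1 : ∀ᶠ z in 𝓝 x, M.S * η < ‖hgt M.π M.ρ x M.S M.u z‖ := by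
    refine hcont.continuousAt.eventually (lt_mem_nhds ?_)
    show M.S * η < ‖hgt M.π M.ρ x M.S M.u x‖
    rw [h0]
    exact mul_lt_mul_of_pos_left hc hS
  obtain ⟨d, hd, h2⟩ := Metric.eventually_nhds_iff_ball.1 h1
  set s : ℝ := min d (min (M.S * min R 1) (8 * M.S)) with hs'
  have hs0 : 0 < s := by positivity
  have hsd : s ≤ d := min_le_left _ _
  have hsR : s ≤ M.S * min R 1 := (min_le_right _ _).trans (min_le_left _ _)
  have hs8 : s ≤ 8 * M.S := (min_le_right _ _).trans (min_le_right _ _)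
  have hsR1 : s ≤ M.S * R := hsR.trans (mul_le_mul_of_nonneg_left (min_le_left _ _) hS.le)
  have hsS : s ≤ M.S := by
    refine hsR.trans ?_
    calc M.S * min R 1 ≤ M.S * 1 := mul_le_mul_of_nonneg_left (min_le_right _ _) hS.le
      _ = M.S := mul_one _
  have hsub : Metric.ball x s ⊆ U := fun z hz =>
    hU (Metric.ball_subset_closedBall (Metric.ball_subset_ball hs8 hz))
  have h3 := Vf_884.mul_le_mass hV hm hs0 hsub (c := 1) (by
    rw [hTh]; exact_mod_cast hQ)
  have hpos : 0 < mass (VD D) (Metric.ball x s) := by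
    refine lt_of_lt_of_le ?_ h3
    rw [one_mul]
    exact ENNReal.ofReal_pos.2 (Vf_884.den_pos m hs0)
  have h4 : ∀ᵐ p ∂(VD D), p.1 ∉ Metric.ball x s := by
    filter_upwards [hs] with p hp hpb
    have h5 : ‖p.1 - x‖ < s := mem_ball_iff_norm.1 hpb
    have h6 := hp ((Gi_456.norm_pi_le' hf _).trans (h5.le.trans hsR1))
      ((Gi_456.norm_rho_le' hf _).trans (h5.le.trans hsS))
    exact absurd h6 (not_le.2 (h2 p.1 (Metric.ball_subset_ball hsd hpb)))
  have h5 : mass (VD D) (Metric.ball x s) = 0 := by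
    have h6 : VD D {p | p.1 ∈ Metric.ball x s} = 0 := measure_eq_zero_iff_ae_notMem.2 h4
    unfold Vf_884.mass
    first
      | exact h6
      | (rw [Measure.map_apply measurable_fst Metric.isOpen_ball.measurableSet]; exact h6)
  exact hpos.ne' h5

end Crest.Agent.R234.Swb_159
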