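import Crest.Agent.R234.Swb14_159
import Crest.Agent.R234.Swb12_159

/-!
# Row 234, F6-BLOCK (helper159), part 15: comparison of `I`, `E` of the rotated reference

`BD` : data of the block change at fixed constants; `BD.I_sub`, `BD.E_sub` : the differences.
-/

set_option autoImplicit false
set_option linter.unusedSectionVars false
set_option linter.unusedVariables false

open MeasureTheory Set Metric Filter Topology
open Crest.GeometryTopology.Submanifold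
open scoped ENNReal NNReal ContDiff RealInnerProductSpace

noncomputable section

namespace Crest.Agent.R234.Swb_159

open Crest.Agent.R234.Vf_884 (L G Stat VD Th mass rat ome)
open Crest.Agent.R234.Cy_870 (Ker)
open Crest.Agent.R234.Ell1_3 Crest.Agent.R234.Main_456 Crest.Agent.R234.Grot_842
open Crest.Agent.R234.GL_394 (Ch Ok On VK)
open Crest.Agent.R234.Gi_456 (Gr tube IsFoot foot yy Bt Lo Loi ch Kc giB muG)
open Crest.Agent.R234.GI_640 (g3 g31 g32)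
open Crest.Agent.R234.Stp_518 (Mo GrB gr_of SupLe Sit)

local notation "adj" => ContinuousLinearMap.adjoint

variable {m n k : ℕ} {U : Set (Euc k)} {D : VarifoldData m k} {Q : ℕ} {x : Euc k}
  {M M' : Mo m n k} {ε Λ : ℝ} {q : Euc m →L[ℝ] Euc n} {H : Euc m →L[ℝ] Euc m}
  {H' : Euc n →L[ℝ] Euc n} {A : Set (Euc m)} {l K t δ b b' : ℝ}

/-- data of the block change -/
structure BD (U : Set (Euc k)) (D : VarifoldData m k) (Q : ℕ) (x : Euc k) (M M' : Mo m n k)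
    (ε Λ : ℝ) (q : Euc m →L[ℝ] Euc n) (H : Euc m →L[ℝ] Euc m) (H' : Euc n →L[ℝ] Euc n)
    (A : Set (Euc m)) (l K t δ b b' : ℝ) : Prop where
  sit : Sit U D Q x M ε Λ
  hg : GrB M b
  hg' : GrB M' b'
  hb : b ≤ t / 16
  hb' : b' ≤ 1 / 16
  ht0 : 0 < t
  ht4 : t ≤ 1 / 4
  ht : M'.S = t * M.S
  eπ : M'.π = rπ M.π M.ρ q H
  eρ : M'.ρ = rρ M.π M.ρ q H'
  lb : M'.lb = l - 2 / K + 1 / 8
  same : Same q H H' M.w M'.w A
  hA : closedBall (0 : Euc m) (Real.exp (l + 1 / K)) ⊆ A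
  hq : ‖q‖ ≤ 2 * δ
  du : ‖fderiv ℝ M.u 0‖ ≤ δ
  du' : fderiv ℝ M'.u 0 = 0
  hδ0 : 0 ≤ δ
  hδ : 300 * K * δ ≤ 1
  hK : 32 ≤ K
  hε : ε ≤ t / 16
  hlb : l + 1 / K ≤ M.lb

namespace BD

variable (h : BD U D Q x M M' ε Λ q H H' A l K t δ b b')
include h

theorem K0 : 0 < K := by have := h.hK; linarith

theorem iK : 1 / K ≤ 1 / 32 := one_div_le_one_div_of_le (by norm_num) h.hK

theorem iK0 : 0 < 1 / K := one_div_pos.2 h.K0

theorem δK : δ ≤ 1 / 300 * (1 / K) := by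
  have h1 := h.hδ
  have hK := h.K0
  have : δ ≤ 1 / (300 * K) := by
    rw [le_div_iff₀ (by positivity)]; linarith
  refine this.trans (le_of_eq ?_)
  field_simp

theorem two_div : 2 / K = 2 * (1 / K) := by ring

theorem S'le : M'.S ≤ 2 * Real.exp (l - 2 / K) := by
  show Real.exp M'.lb ≤ _
  rw [h.lb, Real.exp_add]
  have h1 : Real.exp (1 / 8 : ℝ) ≤ 2 := by
    have h2 := Real.exp_one_lt_d9
    have h3 : Real.exp (1 / 8 : ℝ) ^ 8 = Real.exp 1 := by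
      rw [← Real.exp_nat_mul]; norm_num
    by_contra hc
    push Not at hc
    have h4 : (2 : ℝ) ^ 8 ≤ Real.exp (1 / 8 : ℝ) ^ 8 := pow_le_pow_left₀ (by norm_num) hc.le 8
    rw [h3] at h4
    norm_num at h4
    linarith
  have := Real.exp_pos (l - 2 / K)
  nlinarith

/-- `e^(l + 1/K) ≤ S'` -/
theorem le_S' : Real.exp (l + 1 / K) ≤ M'.S := by
  show _ ≤ Real.exp M'.lb
  rw [h.lb]
  refine Real.exp_le_exp.2 ?_
  have := h.iK
  have := h.two_div
  linarith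

theorem ws : ∀ X, ‖M.w X‖ ≤ M'.S / 16 := fun X => by
  have h1 := h.hg.w0 X
  have h2 := mul_le_mul_of_nonneg_left h.hb M.S_pos.le
  rw [h.ht]; linarith

theorem ws' : ∀ X, ‖M'.w X‖ ≤ M'.S / 16 := fun X => by
  have h1 := h.hg'.w0 X
  have h2 := mul_le_mul_of_nonneg_left h.hb' M'.S_pos.le
  linarith

theorem S'S : M'.S ≤ M.S := by
  have := M.S_pos
  have := h.ht4
  rw [h.ht]; nlinarith

theorem stat : Stat m k U (VD D) := Vf_884.stat_VD h.sit.int h.sit.st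

theorem dw0 : fderiv ℝ M.w 0 = fderiv ℝ M.u 0 := by rw [h.hg.dw, smul_zero]

theorem dw0' : fderiv ℝ M'.w 0 = 0 := by rw [h.hg'.dw, smul_zero, h.du']

/-- **the hypotheses of the comparison** -/
theorem reg : Reg M.π M.ρ x q H H' M.S M'.S M.w M'.w A (Real.exp (l + 1 / K)) (12 * δ) (VD D) := by
  have hS := M.S_pos
  have hS' := M'.S_pos
  have hδK := h.δK
  have hiK := h.iK
  have hδ0 := h.hδ0
  have hle := h.le_S'
  have hSS := h.S'S
  refine ⟨⟨h.sit.pack.frame, h.hg.gr, h.hg'.gr, h.same, by linarith [h.hq], Real.exp_pos _, h.hA,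
    by linarith, ?_, by linarith⟩, h.ws, h.ws', hSS, by linarith, ?_,
    rgn_fin h.hg.gr h.sit.pack.frame (fun X => (h.ws X).trans (by linarith)) h.stat h.sit.sub, ?_⟩
  · rw [h.dw0, h.dw0', norm_zero]
    have h1 := h.du
    have h2 := h.hq
    have h3 : ‖fderiv ℝ M.u 0‖ ^ 2 ≤ δ ^ 2 := pow_le_pow_left₀ (norm_nonneg _) h1 2
    nlinarith
  · filter_upwards [h.sit.pack.supae] with p hp h1
    refine (hp h1).trans ?_
    have := mul_le_mul_of_nonneg_right h.hε hS.le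
    rw [h.ht]; linarith
  · filter_upwards [h.stat.conc] with p hp _
    exact hp

theorem I_eq (y : ℝ) : M'.I x (VD D) y = GL_394.II (ch (rπ M.π M.ρ q H) (rρ M.π M.ρ q H') x M'.S
    M'.w 0) (VK (VD D) (rgn (rπ M.π M.ρ q H) (rρ M.π M.ρ q H') x M'.S M'.w)) g31 y := by
  show GL_394.II (ch M'.π M'.ρ x M'.S M'.w 0)
    (VK (VD D) (Kc M'.π M'.ρ x M'.w 0 (2 * M'.S) (M'.S / 2))) g31 y = _
  rw [h.eπ, h.eρ]
  rfl

theorem E_eq (Qr y : ℝ) : M'.E x (VD D) Qr y = GL_394.EE (ch (rπ M.π M.ρ q H)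
    (rρ M.π M.ρ q H') x M'.S M'.w 0)
      (VK (VD D) (rgn (rπ M.π M.ρ q H) (rρ M.π M.ρ q H') x M'.S M'.w)) g3 Qr y := by
  show GL_394.EE (ch M'.π M'.ρ x M'.S M'.w 0)
    (VK (VD D) (Kc M'.π M'.ρ x M'.w 0 (2 * M'.S) (M'.S / 2))) g3 Qr y = _
  rw [h.eπ, h.eρ]
  rfl

/-- conditions at the level `y` -/
theorem lev {y : ℝ} (hy : l - 2 / K ≤ y) (hy' : y ≤ l + 3 / (4 * K)) :
    2 * ‖psi q H M.w 0‖ ≤ 12 * δ * Real.exp y ∧
      (1 + 3 * (12 * δ)) * Real.exp y ≤ Real.exp (y + 1 / (8 * K)) ∧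
      (1 + 3 * (12 * δ)) * Real.exp y ≤ Real.exp (l + 1 / K) ∧
      (1 + ‖fderiv ℝ M.w 0‖ ^ 2) * ((1 + ‖q‖ ^ 2) * Real.exp y + ‖q‖ * (M'.S / 16)) ≤
        Real.exp (l + 1 / K) := by
  have hK := h.K0
  have hδK := h.δK
  have hiK := h.iK
  have hiK0 := h.iK0
  have hδ0 := h.hδ0
  have hq0 := norm_nonneg q
  have hq := h.hq
  have hE := Real.exp_pos y
  have hS'2 : M'.S ≤ 2 * Real.exp y := h.S'le.trans
    (mul_le_mul_of_nonneg_left (Real.exp_le_exp.2 hy) (by norm_num))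
  have hS' := M'.S_pos
  have e8 : 1 / (8 * K) = 1 / 8 * (1 / K) := by field_simp
  have e4 : 3 / (4 * K) = 3 / 4 * (1 / K) := by field_simp
  have hexp : (1 + 1 / (8 * K)) * Real.exp y ≤ Real.exp (y + 1 / (8 * K)) := by
    rw [Real.exp_add, mul_comm (Real.exp y)]
    refine mul_le_mul_of_nonneg_right ?_ hE.le
    have := Real.add_one_le_exp (1 / (8 * K))
    linarith
  have hlt : Real.exp (y + 1 / (8 * K)) ≤ Real.exp (l + 1 / K) := by
    refine Real.exp_le_exp.2 ?_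
    rw [e8]; rw [e4] at hy'; linarith
  have h3 : (1 + 3 * (12 * δ)) * Real.exp y ≤ Real.exp (y + 1 / (8 * K)) := by
    refine le_trans (mul_le_mul_of_nonneg_right ?_ hE.le) hexp
    rw [e8]; linarith
  refine ⟨?_, h3, h3.trans hlt, le_trans ?_ (hexp.trans hlt)⟩
  · have h1 := norm_psi_zero h.same.rt M.w
    have h2 : ‖q‖ * ‖M.w 0‖ ≤ 2 * δ * (M'.S / 16) :=
      mul_le_mul hq (h.ws 0) (norm_nonneg _) (by linarith)
    have h4 : δ * M'.S ≤ δ * (2 * Real.exp y) := mul_le_mul_of_nonneg_left hS'2 hδ0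
    have h5 : 0 ≤ δ * Real.exp y := by positivity
    linarith
  · rw [h.dw0]
    have h1 : ‖fderiv ℝ M.u 0‖ ^ 2 ≤ δ := by
      have : ‖fderiv ℝ M.u 0‖ ^ 2 ≤ δ ^ 2 := pow_le_pow_left₀ (norm_nonneg _) h.du 2
      nlinarith
    have h2 : ‖q‖ ^ 2 ≤ δ := by nlinarith
    have h4 : ‖q‖ * (M'.S / 16) ≤ 2 * δ * (2 * Real.exp y / 16) :=
      mul_le_mul hq (by linarith) (by linarith) (by linarith)
    have h5 : (1 + ‖q‖ ^ 2) * Real.exp y ≤ (1 + δ) * Real.exp y :=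
      mul_le_mul_of_nonneg_right (by linarith) hE.le
    have h7 : 0 ≤ δ * Real.exp y := by positivity
    have h6 : (1 + ‖q‖ ^ 2) * Real.exp y + ‖q‖ * (M'.S / 16) ≤ (1 + 2 * δ) * Real.exp y := by
      linarith
    have h8 : 0 ≤ (1 + ‖q‖ ^ 2) * Real.exp y + ‖q‖ * (M'.S / 16) := by positivity
    calc _ ≤ (1 + δ) * ((1 + 2 * δ) * Real.exp y) := mul_le_mul (by linarith) h6 h8 (by linarith)
      _ = ((1 + δ) * (1 + 2 * δ)) * Real.exp y := by ring
      _ ≤ (1 + 1 / (8 * K)) * Real.exp y := by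
          refine mul_le_mul_of_nonneg_right ?_ hE.le
          rw [e8]
          nlinarith

/-- the integral of the heights below `e^(l + 7/(8K))` -/
theorem J_le : Real.exp (-m * (l + 1 / K)) *
    ∫ p in {p | ‖(ch M.π M.ρ x M.S M.w 0).x p.1‖ ≤ Real.exp (l + 7 / (8 * K))},
      (ch M.π M.ρ x M.S M.w 0).f p.1 ∂(VK (VD D) (rgn M.π M.ρ x M.S M.w)) ≤
        32 / 3 * K ^ 2 * M.I x (VD D) (l + 1 / K) := by
  have hK := h.K0
  have hiK := h.iK
  have hiK0 := h.iK0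
  have hS := M.S_pos
  have hreg := h.reg
  have hlbS : Real.exp (l + 1 / K) ≤ M.S := Real.exp_le_exp.2 h.hlb
  have e7 : 7 / (8 * K) = 7 / 8 * (1 / K) := by field_simp
  have h78 : Real.exp (l + 7 / (8 * K)) ≤ Real.exp (l + 1 / K) := by
    refine Real.exp_le_exp.2 ?_
    rw [e7]; linarith
  have ht := rgn_subset_tube (x := x) h.hg.gr h.sit.pack.frame
  have hlow := int_f_le_II (X0 := 0) h.hg.gr h.sit.pack.frame hreg.cK1 ht hreg.on1
    (l := l + 1 / K) (s := Real.exp (l + 7 / (8 * K))) (δ := 1 / (8 * K)) (by linarith)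
    (by positivity) (by linarith) (by
      have h1 : Real.exp (-2 * (l + 1 / K)) * Real.exp (l + 7 / (8 * K)) ^ 2 =
          Real.exp (-(1 / (4 * K))) := by
        rw [← Real.exp_nat_mul, ← Real.exp_add]; congr 1; push_cast; field_simp; ring
      rw [h1]
      have h2 := one_sub_exp_ge (s := 1 / (4 * K)) (by positivity) (by
        have : 1 / (4 * K) = 1 / 4 * (1 / K) := by field_simp
        rw [this]; linarith)
      have h3 : 1 / (4 * K) / 2 = 1 / (8 * K) := by field_simp; norm_num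
      linarith) (Real.exp_pos _).le
  set J := Real.exp (-m * (l + 1 / K)) *
    ∫ p in {p | ‖(ch M.π M.ρ x M.S M.w 0).x p.1‖ ≤ Real.exp (l + 7 / (8 * K))},
      (ch M.π M.ρ x M.S M.w 0).f p.1 ∂(VK (VD D) (rgn M.π M.ρ x M.S M.w)) with hJ
  have hI : M.I x (VD D) (l + 1 / K) = GL_394.II (ch M.π M.ρ x M.S M.w 0)
    (VK (VD D) (rgn M.π M.ρ x M.S M.w)) g31 (l + 1 / K) := rfl
  rw [← hI] at hlow
  have h1 : 6 * (1 / (8 * K)) ^ 2 * J = J * (3 / 32) / K ^ 2 := by field_simp; ring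
  rw [h1, div_le_iff₀ (by positivity)] at hlow
  linarith

/-- **the difference of the height functionals** -/
theorem I_sub {y : ℝ} (hy : l - 2 / K ≤ y) (hy' : y ≤ l + 3 / (4 * K)) :
    |M'.I x (VD D) y - M.I x (VD D) y| ≤
      δ * (79872 * Real.exp m * K ^ 2) * M.I x (VD D) (l + 1 / K) := by
  have hK := h.K0
  have hiK := h.iK
  have hiK0 := h.iK0
  have hδ0 := h.hδ0
  obtain ⟨c1, c2, c3, c4⟩ := h.lev hy hy'
  have hreg := h.reg
  have key := hreg.II_two GI_640.ker31 abs_g31_le abs_g32_le c1 c3 c4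
  have e4 : 3 / (4 * K) = 3 / 4 * (1 / K) := by field_simp
  have e8 : 1 / (8 * K) = 1 / 8 * (1 / K) := by field_simp
  have e7 : 7 / (8 * K) = 7 / 8 * (1 / K) := by field_simp
  have h2K : 2 / K = 2 * (1 / K) := h.two_div
  have hmono := int_f_mono (X0 := 0) h.hg.gr h.sit.pack.frame hreg.cK1
    (rgn_subset_tube (x := x) h.hg.gr h.sit.pack.frame) hreg.on1
    (s := (1 + 3 * (12 * δ)) * Real.exp y) (s' := Real.exp (l + 7 / (8 * K)))
    (c2.trans (Real.exp_le_exp.2 (by rw [e8, e7]; rw [e4] at hy'; linarith)))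
  have hJ := h.J_le
  rw [h.I_eq y]
  refine key.trans ?_
  set J1 := ∫ p in {p | ‖(ch M.π M.ρ x M.S M.w 0).x p.1‖ ≤ Real.exp (l + 7 / (8 * K))},
    (ch M.π M.ρ x M.S M.w 0).f p.1 ∂(VK (VD D) (rgn M.π M.ρ x M.S M.w)) with hJ1
  have hJ10 : 0 ≤ J1 := int_f_nonneg _
  have hexp : Real.exp (-m * y) ≤ Real.exp m * Real.exp (-m * (l + 1 / K)) := by
    rw [← Real.exp_add]
    refine Real.exp_le_exp.2 ?_
    have hm0 : (0 : ℝ) ≤ m := Nat.cast_nonneg m
    have h5 : l + 1 / K - y ≤ 1 := by linarith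
    nlinarith
  have hE0 := Real.exp_pos (m : ℝ)
  calc (64 * 3 + 72 * 6) * (12 * δ) * (Real.exp (-m * y) *
        ∫ p in {p | ‖(ch M.π M.ρ x M.S M.w 0).x p.1‖ ≤ (1 + 3 * (12 * δ)) * Real.exp y},
          (ch M.π M.ρ x M.S M.w 0).f p.1 ∂(VK (VD D) (rgn M.π M.ρ x M.S M.w)))
      ≤ (64 * 3 + 72 * 6) * (12 * δ) * ((Real.exp m * Real.exp (-m * (l + 1 / K))) * J1) := by
        refine mul_le_mul_of_nonneg_left ?_ (by positivity)
        exact mul_le_mul hexp hmono (int_f_nonneg _) (by positivity)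
    _ = 7488 * δ * Real.exp m * (Real.exp (-m * (l + 1 / K)) * J1) := by ring
    _ ≤ 7488 * δ * Real.exp m * (32 / 3 * K ^ 2 * M.I x (VD D) (l + 1 / K)) :=
        mul_le_mul_of_nonneg_left hJ (by positivity)
    _ = δ * (79872 * Real.exp m * K ^ 2) * M.I x (VD D) (l + 1 / K) := by ring

/-- **the difference of the mass excesses** -/
theorem E_sub {y B : ℝ} (hy : l - 2 / K ≤ y) (hy' : y ≤ l) {e2 : Measure (Euc m)}
    (hT : Tot M x (VD D) Q (Real.exp (l + 7 / (8 * K))) B e2) :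
    |M'.E x (VD D) Q y - M.E x (VD D) Q y| ≤ 432 * δ * (Real.exp ((2 - m) * y) * B) := by
  have hK := h.K0
  have hiK := h.iK
  have hiK0 := h.iK0
  have hδ0 := h.hδ0
  have e4 : 3 / (4 * K) = 3 / 4 * (1 / K) := by field_simp
  have e8 : 1 / (8 * K) = 1 / 8 * (1 / K) := by field_simp
  have e7 : 7 / (8 * K) = 7 / 8 * (1 / K) := by field_simp
  obtain ⟨c1, c2, c3, c4⟩ := h.lev hy (by rw [e4]; linarith)
  have hreg := h.reg
  have hs : (1 + 3 * (12 * δ)) * Real.exp y ≤ Real.exp (l + 7 / (8 * K)) :=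
    c2.trans (Real.exp_le_exp.2 (by rw [e8, e7]; linarith))
  have hss : closedBall (0 : Euc m) ((1 + 3 * (12 * δ)) * Real.exp y) ⊆
    closedBall 0 (Real.exp (l + 7 / (8 * K))) := closedBall_subset_closedBall hs
  have hfin : e2 (closedBall 0 ((1 + 3 * (12 * δ)) * Real.exp y)) ≠ ⊤ :=
    ((measure_mono hss).trans_lt hT.fin.lt_top).ne
  have key := hreg.EE_two GI_640.ker3 abs_g31_le Q c1 c3 c4 hT.pos hfin
    (fun f hf hfb hfs => hT.abs f hf hfb fun v hv => hfs v fun hc => hv (hss hc))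
  rw [h.E_eq Q y]
  refine key.trans ?_
  have h1 : e2.real (closedBall 0 ((1 + 3 * (12 * δ)) * Real.exp y)) ≤
      e2.real (closedBall 0 (Real.exp (l + 7 / (8 * K)))) :=
    measureReal_mono hss hT.fin
  have ok1 := h.hg.gr.ok h.sit.pack.frame 0 hreg.cK1
    (rgn_subset_tube (x := x) h.hg.gr h.sit.pack.frame)
  have hi : Integrable (fun p : Euc k × L k => (ch M.π M.ρ x M.S M.w 0).tau p.1 p.2)
    (VK (VD D) (rgn M.π M.ρ x M.S M.w)) := hreg.on1.integrable hreg.cK1 ok1.ctau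
  have h2 : ∫ p in {p | ‖(ch M.π M.ρ x M.S M.w 0).x p.1‖ ≤ (1 + 3 * (12 * δ)) * Real.exp y},
      (ch M.π M.ρ x M.S M.w 0).tau p.1 p.2 ∂(VK (VD D) (rgn M.π M.ρ x M.S M.w)) ≤
      ∫ p in {p | ‖(ch M.π M.ρ x M.S M.w 0).x p.1‖ ≤ Real.exp (l + 7 / (8 * K))},
        (ch M.π M.ρ x M.S M.w 0).tau p.1 p.2 ∂(VK (VD D) (rgn M.π M.ρ x M.S M.w)) :=
    setIntegral_mono_set hi.integrableOn (ae_restrict_of_ae hT.pos)
      (LE.le.eventuallyLE fun p hp => le_trans hp hs)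
  have h3 : 0 ≤ ∫ p in {p | ‖(ch M.π M.ρ x M.S M.w 0).x p.1‖ ≤ Real.exp (l + 7 / (8 * K))},
      (ch M.π M.ρ x M.S M.w 0).tau p.1 p.2 ∂(VK (VD D) (rgn M.π M.ρ x M.S M.w)) :=
    integral_nonneg_of_ae (ae_restrict_of_ae hT.pos)
  have h4 : e2.real (closedBall 0 ((1 + 3 * (12 * δ)) * Real.exp y)) + 1 / 2 *
      ∫ p in {p | ‖(ch M.π M.ρ x M.S M.w 0).x p.1‖ ≤ (1 + 3 * (12 * δ)) * Real.exp y},
        (ch M.π M.ρ x M.S M.w 0).tau p.1 p.2 ∂(VK (VD D) (rgn M.π M.ρ x M.S M.w)) ≤ B := by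
    have := hT.le
    have e : ∫ p in {p | ‖(M.ch x).x p.1‖ ≤ Real.exp (l + 7 / (8 * K))},
        (M.ch x).tau p.1 p.2 ∂(M.VM x (VD D)) =
      ∫ p in {p | ‖(ch M.π M.ρ x M.S M.w 0).x p.1‖ ≤ Real.exp (l + 7 / (8 * K))},
        (ch M.π M.ρ x M.S M.w 0).tau p.1 p.2 ∂(VK (VD D) (rgn M.π M.ρ x M.S M.w)) := rfl
    rw [e] at this
    linarith
  calc 12 * 3 * (12 * δ) * (Real.exp ((2 - m) * y) *
        (e2.real (closedBall 0 ((1 + 3 * (12 * δ)) * Real.exp y)) + 1 / 2 *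
          ∫ p in {p | ‖(ch M.π M.ρ x M.S M.w 0).x p.1‖ ≤ (1 + 3 * (12 * δ)) * Real.exp y},
            (ch M.π M.ρ x M.S M.w 0).tau p.1 p.2 ∂(VK (VD D) (rgn M.π M.ρ x M.S M.w))))
      ≤ 12 * 3 * (12 * δ) * (Real.exp ((2 - m) * y) * B) := by
        refine mul_le_mul_of_nonneg_left ?_ (by positivity)
        exact mul_le_mul_of_nonneg_left h4 (Real.exp_pos _).le
    _ = _ := by ring

end BD

end Crest.Agent.R234.Swb_159
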