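import Crest.Agent.R234.Swb15_159
import Crest.Agent.R234.Swb13_159
import Crest.Agent.R234.Bmo2_842

/-!
# Row 234, F6-BLOCK (helper159), part 16: consequences of `BD` at the level of `Mo`

`BD.pos` : `0 < I (l + 1/K)`; `BD.near` : `Near`; `BD.top` : the bound at `l + 3/(4K)`;
`BD.rotMo` : 842's structure.
-/

set_option autoImplicit false
set_option linter.unusedSectionVars false
set_option linter.unusedVariables false

open MeasureTheory Set Metric Filter Topology
open Crest.GeometryTopology.Submanifold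
open scoped ENNReal NNReal ContDiff RealInnerProductSpace

noncomputable section

namespace Crest.Agent.R234.Swb_159

open Crest.Agent.R234.Vf_884 (L G Stat VD Th mass rat ome)
open Crest.Agent.R234.Cy_870 (Ker)
open Crest.Agent.R234.Ell1_3 Crest.Agent.R234.Main_456 Crest.Agent.R234.Grot_842
open Crest.Agent.R234.GL_394 (Ch Ok On VK)
open Crest.Agent.R234.Gi_456 (Gr tube IsFoot foot yy Bt Lo Loi ch Kc giB muG)
open Crest.Agent.R234.GI_640 (g3 g31 g32)
open Crest.Agent.R234.Stp_518 (Mo GrB gr_of SupLe Sit MeanK lam)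
open Crest.Agent.R234.Bmo_842 (RotMo Wc)

local notation "adj" => ContinuousLinearMap.adjoint

variable {m n k : ℕ} {U : Set (Euc k)} {D : VarifoldData m k} {Q : ℕ} {x : Euc k}
  {M M' : Mo m n k} {ε Λ : ℝ} {q : Euc m →L[ℝ] Euc n} {H : Euc m →L[ℝ] Euc m}
  {H' : Euc n →L[ℝ] Euc n} {A : Set (Euc m)} {l K t δ b b' : ℝ}

namespace BD

variable (h : BD U D Q x M M' ε Λ q H H' A l K t δ b b')
include h

theorem I_mono {y y' : ℝ} (hy : y ≤ y') (hy' : y' ≤ l + 1 / K) :
    M.I x (VD D) y ≤ Real.exp (m * (y' - y)) * M.I x (VD D) y' := by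
  have hS := M.S_pos
  have hreg := h.reg
  have hE : Real.exp y' ≤ 15 * M.S := by
    have h1 : Real.exp y' ≤ M.S := Real.exp_le_exp.2 (hy'.trans h.hlb)
    linarith
  exact II_mono (X0 := 0) h.hg.gr h.sit.pack.frame hreg.cK1
    (rgn_subset_tube (x := x) h.hg.gr h.sit.pack.frame) hreg.on1 hy hE

theorem pos (h0 : 0 < M.I x (VD D) l) : 0 < M.I x (VD D) (l + 1 / K) := by
  have h1 := h.I_mono (y := l) (y' := l + 1 / K) (by have := h.iK0; linarith) le_rfl
  have h2 := Real.exp_pos (m * (l + 1 / K - l))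
  by_contra hc
  push Not at hc
  have := mul_nonpos_of_nonneg_of_nonpos h2.le hc
  linarith

/-- **`Near`** -/
theorem near {g C θ : ℝ} {p : ℕ} (hI0 : 0 < M.I x (VD D) (l + 1 / K)) (hg0 : 0 < g)
    (hC : 0 ≤ C)
    (hup : ∀ y ∈ Icc (l - 2 / K) l, M.I x (VD D) (l + 1 / K) ≤ g * M.I x (VD D) y)
    {e2 : Measure (Euc m)}
    (hT : Tot M x (VD D) Q (Real.exp (l + 7 / (8 * K)))
      (C * (8 * K) ^ p * (Real.exp ((m - 2) * (l + 1 / K)) * M.I x (VD D) (l + 1 / K))) e2)
    (h1 : δ * (79872 * Real.exp m * g * K ^ 2) ≤ θ)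
    (h2 : δ * (432 * C * 8 ^ p * Real.exp m * g * K ^ p) ≤ θ) :
    Stp_518.Near (M.I x (VD D)) (M.E x (VD D) Q) (M'.I x (VD D)) (M'.E x (VD D) Q) l K θ := by
  have hK := h.K0
  have hiK := h.iK
  have hiK0 := h.iK0
  have hδ0 := h.hδ0
  have hEm := Real.exp_pos (m : ℝ)
  intro y hy
  have hy1 := hy.1
  have hy2 := hy.2
  have e4 : 3 / (4 * K) = 3 / 4 * (1 / K) := by field_simp
  have h2K : 2 / K = 2 * (1 / K) := h.two_div
  have hIy := hup y hy
  have hIy0 : 0 < M.I x (VD D) y := by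
    by_contra hc
    push Not at hc
    have := mul_nonpos_of_nonneg_of_nonpos hg0.le hc
    linarith
  constructor
  · refine (h.I_sub hy1 (by rw [e4]; linarith)).trans ?_
    calc δ * (79872 * Real.exp m * K ^ 2) * M.I x (VD D) (l + 1 / K)
        ≤ δ * (79872 * Real.exp m * K ^ 2) * (g * M.I x (VD D) y) :=
          mul_le_mul_of_nonneg_left hIy (by positivity)
      _ = δ * (79872 * Real.exp m * g * K ^ 2) * M.I x (VD D) y := by ring
      _ ≤ θ * M.I x (VD D) y := mul_le_mul_of_nonneg_right h1 hIy0.le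
  · refine (h.E_sub hy1 hy2 hT).trans ?_
    have hexp : Real.exp ((2 - m) * y) * Real.exp ((m - 2) * (l + 1 / K)) ≤ Real.exp m := by
      rw [← Real.exp_add]
      refine Real.exp_le_exp.2 ?_
      have hm0 : (0 : ℝ) ≤ m := Nat.cast_nonneg m
      have h5 : l + 1 / K - y ≤ 1 := by linarith
      have h6 : 0 ≤ l + 1 / K - y := by linarith
      nlinarith
    calc 432 * δ * (Real.exp ((2 - m) * y) *
          (C * (8 * K) ^ p * (Real.exp ((m - 2) * (l + 1 / K)) * M.I x (VD D) (l + 1 / K))))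
        = 432 * δ * C * (8 * K) ^ p * M.I x (VD D) (l + 1 / K) *
          (Real.exp ((2 - m) * y) * Real.exp ((m - 2) * (l + 1 / K))) := by ring
      _ ≤ 432 * δ * C * (8 * K) ^ p * M.I x (VD D) (l + 1 / K) * Real.exp m :=
          mul_le_mul_of_nonneg_left hexp (by positivity)
      _ ≤ 432 * δ * C * (8 * K) ^ p * (g * M.I x (VD D) y) * Real.exp m := by gcongr
      _ = δ * (432 * C * 8 ^ p * Real.exp m * g * K ^ p) * M.I x (VD D) y := by
          rw [mul_pow]; ring
      _ ≤ θ * M.I x (VD D) y := mul_le_mul_of_nonneg_right h2 hIy0.le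

/-- the bound at the top -/
theorem top (hI0 : 0 < M.I x (VD D) (l + 1 / K)) (h1 : δ * (79872 * K ^ 2) ≤ 1) :
    M'.I x (VD D) (l + 3 / (4 * K)) ≤ 2 * Real.exp m * M.I x (VD D) (l + 1 / K) := by
  have hK := h.K0
  have hiK := h.iK
  have hiK0 := h.iK0
  have hδ0 := h.hδ0
  have hEm := Real.exp_pos (m : ℝ)
  have e4 : 3 / (4 * K) = 3 / 4 * (1 / K) := by field_simp
  have h2K : 2 / K = 2 * (1 / K) := h.two_div
  have h2 := (abs_le.1 (h.I_sub (y := l + 3 / (4 * K)) (by rw [e4, h2K]; linarith) le_rfl)).2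
  have h3 := h.I_mono (y := l + 3 / (4 * K)) (y' := l + 1 / K) (by rw [e4]; linarith) le_rfl
  have h4 : Real.exp (m * (l + 1 / K - (l + 3 / (4 * K)))) ≤ Real.exp m := by
    refine Real.exp_le_exp.2 ?_
    have hm0 : (0 : ℝ) ≤ m := Nat.cast_nonneg m
    have h5 : l + 1 / K - (l + 3 / (4 * K)) ≤ 1 := by rw [e4]; linarith
    nlinarith
  have h5 : δ * (79872 * Real.exp m * K ^ 2) * M.I x (VD D) (l + 1 / K) ≤
      Real.exp m * M.I x (VD D) (l + 1 / K) := by
    refine mul_le_mul_of_nonneg_right ?_ hI0.le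
    calc δ * (79872 * Real.exp m * K ^ 2) = δ * (79872 * K ^ 2) * Real.exp m := by ring
      _ ≤ 1 * Real.exp m := mul_le_mul_of_nonneg_right h1 hEm.le
      _ = _ := one_mul _
  have h6 := mul_le_mul_of_nonneg_right h4 hI0.le
  linarith

/-- 842's structure -/
theorem rotMo : RotMo M M' q H H' A where
  fr := h.sit.pack.frame
  eπ := h.eπ
  eρ := h.eρ
  same := h.same
  hq := by
    have := h.δK; have := h.iK; have := h.hq
    linarith
  gr := h.hg.gr
  gr' := h.hg'.gr
  w0 := by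
    have h1 := h.ws 0
    have h2 := h.S'S
    have := M.S_pos
    linarith
  w0' := by
    have h1 := h.ws' 0
    have := M'.S_pos
    linarith

end BD

end Crest.Agent.R234.Swb_159
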