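import Crest.Agent.R234.Swb16_159

/-!
# Row 234, F6-BLOCK (helper159), part 17: the new reference

`blk_ex` : existence of the new reference with its class, as the structure `BD`.
-/

set_option autoImplicit false
set_option linter.unusedSectionVars false
set_option linter.unusedVariables false

open MeasureTheory Set Metric Filter Topology
open Crest.GeometryTopology.Submanifold
open scoped ENNReal NNReal ContDiff RealInnerProductSpace

noncomputable section

namespace Crest.Agent.R234.Swb_159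

open Crest.Agent.R234.Vf_884 (L G Stat VD Th mass rat ome)
open Crest.Agent.R234.Ell1_3 Crest.Agent.R234.Main_456 Crest.Agent.R234.Grot_842
open Crest.Agent.R234.Gi_456 (Gr)
open Crest.Agent.R234.MG_570 (MG)
open Crest.Agent.R234.Stp_518 (Mo GrB gr_of SupLe Sit MeanK lam)

local notation "adj" => ContinuousLinearMap.adjoint

variable {m n : ℕ}

/-- the radius of the class -/
theorem rbl_final {K : ℝ} (hK : 32 ≤ K) : 1 + 1 / (16 * K) ≤ (1 + 1 / (8 * K)) * (1 - 1 / (32 * K)) := by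
  have hK0 : 0 < K := by linarith
  set a := 1 / K with ha
  have ha0 : 0 < a := by positivity
  have ha1 : a ≤ 1 / 32 := one_div_le_one_div_of_le (by norm_num) hK
  have e16 : 1 / (16 * K) = a / 16 := by rw [ha]; field_simp
  have e8 : 1 / (8 * K) = a / 8 := by rw [ha]; field_simp
  have e32 : 1 / (32 * K) = a / 32 := by rw [ha]; field_simp
  rw [e16, e8, e32]
  nlinarith

set_option maxHeartbeats 1000000 in
/-- **the new reference** -/
theorem blk_ex (m n N : ℕ) (hm : 1 ≤ m) (hN : 2 ≤ N) (hR : RescH m n N) :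
    ∃ (C₁ : ℝ) (Qs : ℕ → ℕ), 1 ≤ C₁ ∧ ∀ T : ℝ, 5 ≤ T → ∃ κ₀ : ℝ, 0 < κ₀ ∧
      ∀ q q₁ : ℕ, Qs q ≤ q₁ → ∃ L₁ : ℝ,
    ∀ (k : ℕ) (U : Set (Euc k)) (D : VarifoldData m k) (Q : ℕ) (x : Euc k) (M : Mo m n k)
      (Λ l K L : ℝ),
      Sit U D Q x M (Real.exp (-T) / 16) Λ → 0 ≤ M.κ → M.κ ≤ κ₀ →
      MG N M.κ (Real.exp (l + 1 / K - M.lb) * (1 + 1 / (8 * K))) M.u →
      ‖fderiv ℝ M.u 0‖ ≤ (L ^ q₁)⁻¹ → 32 ≤ K → K ≤ 2 * L ^ 2 → M.lb - T ≤ l →
      l ≤ M.lb - T + 1 → L₁ ≤ L →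
      SupLe M x (VD D) (Real.exp (l + 1 / K - M.lb) * (1 + 1 / (8 * K)))
        (Real.exp (-(L / 4))) →
      ∃ (M' : Mo m n k) (p : Euc m →L[ℝ] Euc n) (H : Euc m →L[ℝ] Euc m)
        (H' : Euc n →L[ℝ] Euc n) (A : Set (Euc m)) (b b' : ℝ),
        BD U D Q x M M' (Real.exp (-T) / 16) Λ p H H' A l K (Real.exp (M'.lb - M.lb))
          ((L ^ q₁)⁻¹) b b' ∧
        0 ≤ M'.κ ∧ M'.κ ≤ C₁ * Real.exp (M'.lb - M.lb) * M.κ + (L ^ q)⁻¹ ∧
        MG N M'.κ (Real.exp (l + 1 / K - M'.lb) * (1 + 1 / (16 * K))) M'.u := by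
  obtain ⟨κg, Cg, hκg, hCg, hCκg, hgr⟩ := gr_of m n N hN
  obtain ⟨C₁, κs, Qs, hC₁, hκs, hcls⟩ := blk_cls m n N hR
  have hC₁0 : 0 < C₁ := by linarith
  refine ⟨C₁, fun q => Qs (q + 1) + 3, hC₁, fun T hT => ?_⟩
  have hET := Real.exp_pos T
  have hEnT := Real.exp_pos (-T)
  set κg' : ℝ := min κg (1 / (16 * Cg)) with hκg'd
  have hκg' : 0 < κg' := by positivity
  refine ⟨min (min κg κs) (min 1 (min (Real.exp (-T) / (16 * Cg)) (κg' / (2 * C₁)))),
    by positivity, ?_⟩
  intro q q₁ hq₁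
  replace hq₁ : Qs (q + 1) + 3 ≤ q₁ := hq₁
  obtain ⟨L₂, hL₂⟩ := hcls T (q + 1) q₁ (by omega) (by omega)
  obtain ⟨L₃, hL₃⟩ := Filter.eventually_atTop.1
    (Stp_518.ev_exp (32 * Real.exp T) (1 / 4) 2 (by norm_num) (δ := 1) one_pos)
  refine ⟨max (max L₂ L₃) (max (max 600 (8 * Real.exp T)) (2 / κg')), ?_⟩
  intro k U D Q x M Λ l K L hs hκ0 hκ hMG hdu hK hKL hl1 hl2 hL hsup
  have hLa : L₂ ≤ L := le_trans (by simp) hL
  have hLb : L₃ ≤ L := le_trans (by simp) hL
  have hLc : 600 ≤ L := le_trans (by simp) hL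
  have hLd : 8 * Real.exp T ≤ L := le_trans (by simp) hL
  have hLe : 2 / κg' ≤ L := le_trans (by simp) hL
  have hκ1 : M.κ ≤ κg := hκ.trans (by simp)
  have hκ2 : M.κ ≤ κs := hκ.trans (by simp)
  have hκ3 : M.κ ≤ 1 := hκ.trans (by simp)
  have hκ4 : M.κ ≤ Real.exp (-T) / (16 * Cg) := hκ.trans (by simp)
  have hκ5 : M.κ ≤ κg' / (2 * C₁) := hκ.trans (by simp)
  have hL0 : 0 < L := by linarith
  have hL1 : 1 ≤ L := by linarith
  have hK0 : 0 < K := by linarith
  have hS := M.S_pos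
  have iK : 1 / K ≤ 1 / 32 := one_div_le_one_div_of_le (by norm_num) hK
  have iK0 : 0 < 1 / K := by positivity
  have e2K : 2 / K = 2 * (1 / K) := by ring
  have e3K : 3 / K = 3 * (1 / K) := by ring
  have e8K : 1 / (8 * K) = 1 / 8 * (1 / K) := by field_simp
  set lb' : ℝ := l - 2 / K + 1 / 8 with hlb'
  set t : ℝ := Real.exp (lb' - M.lb) with ht
  have ht0 : 0 < t := Real.exp_pos _
  have htT : Real.exp (-T) ≤ t := Real.exp_le_exp.2 (by rw [hlb', e2K]; linarith)
  have ht4 : 4 * t ≤ 1 := by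
    have h1 : t ≤ Real.exp (-2) := Real.exp_le_exp.2 (by rw [hlb', e2K]; linarith)
    have h2 := Real.exp_one_gt_d9
    have h3 : Real.exp (-2 : ℝ) = (Real.exp 1 ^ 2)⁻¹ := by
      rw [← Real.exp_nat_mul, ← Real.exp_neg]; norm_num
    have h4 : (4 : ℝ) ≤ Real.exp 1 ^ 2 := by nlinarith
    have h5 := inv_anti₀ (by norm_num) h4
    rw [h3] at h1
    linarith
  have hr8 : 0 < 1 + 1 / (8 * K) := by positivity
  have trbl : t * rbl K = Real.exp (l + 1 / K - M.lb) * (1 + 1 / (8 * K)) := by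
    unfold rbl
    rw [← mul_assoc, ht, ← Real.exp_add]
    congr 2
    rw [hlb', e2K, e3K]; ring
  have hgB := hgr k M _ hκ0 hκ1 hMG
  have hb16 : Cg * M.κ ≤ Real.exp (-T) / 16 := by
    calc Cg * M.κ ≤ Cg * (Real.exp (-T) / (16 * Cg)) := mul_le_mul_of_nonneg_left hκ4 hCg.le
      _ = _ := by field_simp
  have hT1 : Real.exp (-T) ≤ 1 := Real.exp_le_one_iff.2 (by linarith)
  have hGr1 : Gr 1 M.u := ⟨one_pos, hgB.cu, fun X => (hgB.b1 X).trans (by linarith),
    fun X => (hgB.b2 X).trans (by linarith)⟩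
  have hstat := Vf_884.stat_VD hs.int hs.st
  have hu0 : ‖M.u 0‖ ≤ Real.exp (-(L / 4)) :=
    u0_le hm hstat hs.Q1 hs.Th hs.sub hs.pack.frame hgB.cu.continuous
      (mul_pos (Real.exp_pos _) hr8) hsup
  obtain ⟨X₀, H, H', u', κ', rt, hX₀, hdX, hκ'0, hκ'1, hMG', hdu', hsame⟩ :=
    hL₂ k M.π M.ρ M.u M.κ L K t hs.pack.frame hGr1 hκ0 hκ2 hκ3 hLa hK hKL htT ht4
      (by rw [trbl]; exact hMG) hdu hu0
  set p := fderiv ℝ M.u X₀ with hp
  set δ : ℝ := (L ^ q₁)⁻¹ with hδ
  have hδ0 : 0 < δ := by positivity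
  set x' := Real.exp (-(L / 4)) with hx'
  have hx'0 : 0 < x' := Real.exp_pos _
  -- the new reference
  let M' : Mo m n k := { M with
    π := rπ M.π M.ρ p H
    ρ := rρ M.π M.ρ p H'
    lb := lb'
    u := u'
    κ := κ' }
  have hSt : M'.S = t * M.S := by
    show Real.exp lb' = Real.exp (lb' - M.lb) * Real.exp M.lb
    rw [← Real.exp_add]; congr 1; ring
  have hκ'g : κ' ≤ κg' := by
    have h1 : C₁ * t * M.κ ≤ κg' / 2 := by
      calc C₁ * t * M.κ ≤ C₁ * 1 * (κg' / (2 * C₁)) := by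
            refine mul_le_mul (mul_le_mul_of_nonneg_left (by linarith) hC₁0.le) hκ5 hκ0
              (by positivity)
        _ = κg' / 2 := by field_simp
    have h2 : (L ^ (q + 1))⁻¹ ≤ κg' / 2 := by
      have h3 : L ≤ L ^ (q + 1) := le_self_pow₀ hL1 (by omega)
      have h4 : (L ^ (q + 1))⁻¹ ≤ L⁻¹ := inv_anti₀ hL0 h3
      have h5 : L⁻¹ ≤ (2 / κg')⁻¹ := inv_anti₀ (by positivity) hLe
      rw [inv_div] at h5
      linarith
    linarith
  have hκ'1g : κ' ≤ κg := hκ'g.trans (min_le_left _ _)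
  have hκ'2g : Cg * κ' ≤ 1 / 16 := by
    calc Cg * κ' ≤ Cg * (1 / (16 * Cg)) :=
          mul_le_mul_of_nonneg_left (hκ'g.trans (min_le_right _ _)) hCg.le
      _ = 1 / 16 := by field_simp
  have hgB' : GrB M' (Cg * κ') := hgr k M' _ hκ'0 hκ'1g hMG'
  -- the radius of the top
  set E : ℝ := Real.exp (l + 1 / K) with hE
  have hE0 : 0 < E := Real.exp_pos _
  have tSr : t * M.S * rbl K = E * (1 + 1 / (8 * K)) := by
    rw [← hSt]
    show Real.exp lb' * (Real.exp (3 / K - 1 / 8) * (1 + 1 / (8 * K))) = _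
    rw [← mul_assoc, ← Real.exp_add]
    congr 2
    rw [hlb', e2K, e3K]; ring
  have hSE : Real.exp (-T) * M.S ≤ E := by
    show Real.exp (-T) * Real.exp M.lb ≤ _
    rw [← Real.exp_add]
    exact Real.exp_le_exp.2 (by linarith)
  have hSE' : M.S ≤ Real.exp T * E := by
    have h1 := mul_le_mul_of_nonneg_left hSE hET.le
    have h2 : Real.exp T * Real.exp (-T) = 1 := by rw [← Real.exp_add]; simp
    rw [← mul_assoc, h2, one_mul] at h1
    exact h1
  have hxs : 16 * K * Real.exp T * x' ≤ 1 := by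
    have h1 := hL₃ L hLb
    have ex : Real.exp (-(1 / 4 * L)) = x' := by rw [hx']; congr 1; ring
    rw [ex] at h1
    calc 16 * K * Real.exp T * x' ≤ 16 * (2 * L ^ 2) * Real.exp T * x' := by gcongr
      _ = 32 * Real.exp T * L ^ 2 * x' := by ring
      _ ≤ 1 := h1
  have hδ300 : 300 * K * δ ≤ 1 := by
    have h1 := pow_small (B := 300) (P := 1) (q := 0) (q₁ := q₁) (by norm_num) hL1 hK0.le hKL
      (by omega) (by linarith)
    rw [pow_one, pow_zero, inv_one] at h1
    linarith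
  have hδT : δ * (4 * Real.exp T * K) ≤ 1 := by
    have h1 := pow_small (B := 4 * Real.exp T) (P := 1) (q := 0) (q₁ := q₁) (by positivity) hL1
      hK0.le hKL (by omega) (by linarith)
    rwa [pow_one, pow_zero, inv_one] at h1
  have hA : closedBall (0 : Euc m) E ⊆
      reg p H M.u X₀ t M.S (rbl K) ((1 - 1 / (32 * K)) * rbl K) := by
    refine closedBall_subset_reg ht0 hS rt ?_ ?_
    · rw [tSr]
      have h1 : M.S * ‖X₀‖ ≤ Real.exp T * E * x' :=
        mul_le_mul hSE' hX₀ (norm_nonneg _) (by positivity)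
      have h2 : Real.exp T * E * x' ≤ E * (1 / 16 * (1 / K)) := by
        have h3 : Real.exp T * x' ≤ 1 / 16 * (1 / K) := by
          rw [show (1 / 16 * (1 / K) : ℝ) = 1 / (16 * K) by field_simp,
            le_div_iff₀ (by positivity)]
          linarith
        calc Real.exp T * E * x' = E * (Real.exp T * x') := by ring
          _ ≤ _ := mul_le_mul_of_nonneg_left h3 hE0.le
      rw [e8K]
      have h4 : 0 < E * (1 / K) := by positivity
      linarith
    · intro X hX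
      have h0 : t * M.S * ((1 - 1 / (32 * K)) * rbl K) =
          E * ((1 + 1 / (8 * K)) * (1 - 1 / (32 * K))) := by
        calc t * M.S * ((1 - 1 / (32 * K)) * rbl K) = (t * M.S * rbl K) * (1 - 1 / (32 * K)) := by
              ring
          _ = _ := by rw [tSr]; ring
      rw [h0]
      have h1 : ‖amb M.S M.u X‖ ≤ M.S * (Cg * M.κ) := hgB.w0 X
      have h2 : M.S * (Cg * M.κ) ≤ Real.exp T * E * (1 / 16) :=
        mul_le_mul hSE' (by linarith) (by positivity) (by positivity)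
      have h3 : ‖p‖ * ‖amb M.S M.u X‖ ≤ 2 * δ * (Real.exp T * E * (1 / 16)) :=
        mul_le_mul hdX (h1.trans h2) (norm_nonneg _) (by positivity)
      have h4 : δ * Real.exp T ≤ 1 / 4 * (1 / K) := by
        rw [show (1 / 4 * (1 / K) : ℝ) = 1 / (4 * K) by field_simp, le_div_iff₀ (by positivity)]
        linarith
      have h5 : 2 * δ * (Real.exp T * E * (1 / 16)) ≤ E * (1 / 32 * (1 / K)) := by
        calc 2 * δ * (Real.exp T * E * (1 / 16)) = E * (1 / 8 * (δ * Real.exp T)) := by ring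
          _ ≤ E * (1 / 8 * (1 / 4 * (1 / K))) := by gcongr
          _ = _ := by ring
      have h6 := mul_le_mul_of_nonneg_left (rbl_final hK) hE0.le
      have e16K : 1 / (16 * K) = 1 / 16 * (1 / K) := by field_simp
      rw [e16K] at h6
      have h7 : 0 < E * (1 / K) := by positivity
      linarith
  refine ⟨M', p, H, H', reg p H M.u X₀ t M.S (rbl K) ((1 - 1 / (32 * K)) * rbl K), Cg * M.κ,
    Cg * κ', ?_, hκ'0, ?_, ?_⟩
  · show BD U D Q x M M' (Real.exp (-T) / 16) Λ p H H'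
      (reg p H M.u X₀ t M.S (rbl K) ((1 - 1 / (32 * K)) * rbl K)) l K t δ (Cg * M.κ) (Cg * κ')
    exact
      { sit := hs
        hg := hgB
        hg' := hgB'
        hb := by linarith
        hb' := hκ'2g
        ht0 := ht0
        ht4 := by linarith
        ht := hSt
        eπ := rfl
        eρ := rfl
        lb := rfl
        same := by
          have h1 := hsame M.S hS
          rw [← hSt] at h1
          exact h1
        hA := hA
        hq := hdX
        du := hdu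
        du' := hdu'
        hδ0 := hδ0.le
        hδ := hδ300
        hK := hK
        hε := by linarith
        hlb := by linarith }
  · show κ' ≤ C₁ * t * M.κ + (L ^ q)⁻¹
    have h1 : (L ^ (q + 1))⁻¹ ≤ (L ^ q)⁻¹ :=
      inv_anti₀ (by positivity) (pow_le_pow_right₀ hL1 (by omega))
    linarith
  · show MG N κ' (Real.exp (l + 1 / K - lb') * (1 + 1 / (16 * K))) u'
    refine hMG'.mono le_rfl ?_
    have h1 : l + 1 / K - lb' = 3 / K - 1 / 8 := by rw [hlb', e2K, e3K]; ring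
    rw [h1]
    unfold rbl
    have h2 := mul_le_mul_of_nonneg_left (rbl_final hK) (Real.exp_pos (3 / K - 1 / 8)).le
    calc _ ≤ _ := h2
      _ = _ := by ring

end Crest.Agent.R234.Swb_159
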