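import Crest.Agent.R234.Swb17_159
import Crest.Agent.R234.Bmo3_842
import Crest.Agent.R234.Rs9_182

/-!
# Row 234, F6-BLOCK (helper159), part 18: **`BlkP`**

`blkP_of'` : `SupP → TotP → BlkP` (518's literal statement of the block change).
-/

set_option autoImplicit false
set_option linter.unusedSectionVars false
set_option linter.unusedVariables false

open MeasureTheory Set Metric Filter Topology
open Crest.GeometryTopology.Submanifold
open scoped ENNReal NNReal ContDiff RealInnerProductSpace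

noncomputable section

namespace Crest.Agent.R234.Swb_159

open Crest.Agent.R234.Vf_884 (L G Stat VD Th mass rat ome)
open Crest.Agent.R234.Ell1_3 Crest.Agent.R234.Main_456 Crest.Agent.R234.Grot_842
open Crest.Agent.R234.MG_570 (MG)
open Crest.Agent.R234.Stp_518 (Mo GrB SupLe Sit MeanK lam SupP BlkP)

theorem rescH (m n N : ℕ) (hm : 1 ≤ m) : RescH m n N := by
  intro r₀ hr0 hr1
  obtain ⟨κ₀, C, p, J, hκ, hC, h⟩ := Rs_182.rescaleH m n N hm r₀ hr0 hr1
  refine ⟨κ₀, C, p, J, hκ, hC, ?_⟩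
  intro t ε R κ th u X₀ h1 h2 h3 h4 h5 h6 h7 h8 h9 h10 h11 h12 h13
  obtain ⟨H, H', rt, hu⟩ := h t ε R κ th u X₀ h1 h2 h3 h4 h5 h6 h7 h8 h9 h10 h11 h12 h13
  refine ⟨H, H', rt, fun c => ?_⟩
  obtain ⟨u', ha, hb, -, -⟩ := hu c
  exact ⟨u', ha, hb⟩

set_option maxHeartbeats 1000000 in
/-- **the block change** -/
theorem blkP_of' (hSup : SupP) (hTot : TotP) : BlkP := by
  intro m n Q hm hn hQ
  obtain ⟨N₁, hN₁⟩ := Bmo_842.blk_d hSup m n Q hm hn hQ
  obtain ⟨N₂, hN₂⟩ := hTot m n Q hm hn hQ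
  refine ⟨max 2 (max N₁ N₂), fun N hN => ?_⟩
  have hNa : 2 ≤ N := le_trans (by simp) hN
  have hNb : N₁ ≤ N := le_trans (by simp) hN
  have hNc : N₂ ≤ N := le_trans (by simp) hN
  have hm1 : 1 ≤ m := by omega
  obtain ⟨C₁, Qs, hC₁, hex⟩ := blk_ex m n N hm1 hNa (rescH m n N hm1)
  refine ⟨C₁, 5, hC₁, fun Ks q T Λ G hKs hT => ?_⟩
  obtain ⟨κa, hκa, hexT⟩ := hex T hT
  obtain ⟨qd, κd, εd, Ld, hκd, hεd, hd⟩ := hN₁ N hNb Ks q T Λ G hKs (by linarith)
  obtain ⟨Ct, pt, hCt, κt, εt, Lt, hκt, hεt, ht⟩ := hN₂ N hNc (T + 1) Λ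
  have hEm := Real.exp_pos (m : ℝ)
  have hE2G := Real.exp_pos (2 * G)
  -- the constants
  set q₁ : ℕ := Qs q + qd + 2 * (pt + 2) + q + 6 with hq₁
  obtain ⟨La, hLa⟩ := hexT q q₁ (by omega)
  set B1 : ℝ := 79872 * Real.exp m * Real.exp (2 * G) with hB1
  set B2 : ℝ := 432 * Ct * 8 ^ pt * Real.exp m * Real.exp (2 * G) with hB2
  have hB10 : 0 ≤ B1 := by positivity
  have hB20 : 0 ≤ B2 := by positivity
  refine ⟨q₁, min κa (min κd κt), min (Real.exp (-T) / 16) (min εd εt),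
    max (max La Ld) (max (max (Lt + G) (max (2 * G) 1000000)) (max (max (B1 * 2 ^ 2) (B2 * 2 ^ pt))
      (8 / κt * 2 ^ 1))), by positivity, by positivity, ?_⟩
  intro U D x M l K hs hκ0 hκ hMG hdu hK hKL hl1 hl2 hI hL hup hdn hsup hmean
  set L := lam (M.I x (VD D)) l with hLdef
  have b1 : La ≤ L := le_trans (by simp) hL
  have b2 : Ld ≤ L := le_trans (by simp) hL
  have b3 : Lt + G ≤ L := le_trans (by simp) hL
  have b4 : 2 * G ≤ L := le_trans (by simp) hL
  have b5 : 1000000 ≤ L := le_trans (by simp) hL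
  have b6 : B1 * 2 ^ 2 ≤ L := le_trans (by simp) hL
  have b7 : B2 * 2 ^ pt ≤ L := le_trans (by simp) hL
  have b8 : 8 / κt * 2 ^ 1 ≤ L := le_trans (by simp) hL
  have hκ1 : M.κ ≤ κa := hκ.trans (by simp)
  have hκ2 : M.κ ≤ κd := hκ.trans (by simp)
  have hκ3 : M.κ ≤ κt := hκ.trans (by simp)
  have hs1 := Stp_518.Sit.mono hs (min_le_left _ _)
  have hs2 := Stp_518.Sit.mono hs ((min_le_right _ _).trans (min_le_left _ _))
  have hs3 := Stp_518.Sit.mono hs ((min_le_right _ _).trans (min_le_right _ _))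
  have hL1 : 1 ≤ L := by linarith
  have hL0 : 0 < L := by linarith
  have hK0 : 0 < K := by linarith
  have iK : 1 / K ≤ 1 / 32 := one_div_le_one_div_of_le (by norm_num) hK
  have iK0 : 0 < 1 / K := by positivity
  have e2K : 2 / K = 2 * (1 / K) := by ring
  have e8K : 1 / (8 * K) = 1 / 8 * (1 / K) := by field_simp
  have e78 : 7 / (8 * K) = 7 / 8 * (1 / K) := by field_simp
  set δ : ℝ := (L ^ q₁)⁻¹ with hδ
  have hδ0 : 0 < δ := by positivity
  -- the new reference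
  obtain ⟨M', p, H, H', A, b, b', hBD, hκ'0, hκ'1, hMG'⟩ :=
    hLa (m + n) U D Q x M Λ l K L hs1 hκ0 hκ1 hMG hdu hK hKL hl1 hl2 b1 hsup
  -- part (d)
  have hL2q : δ ≤ (L ^ qd)⁻¹ :=
    inv_anti₀ (by positivity) (pow_le_pow_right₀ hL1 (by omega))
  have hsq := Real.sqrt_nonneg (M.I x (VD D) l)
  have hA7 : closedBall (0 : Euc m) (Real.exp (l + 7 / (8 * K))) ⊆ A := by
    refine (closedBall_subset_closedBall (Real.exp_le_exp.2 ?_)).trans hBD.hA
    rw [e78]; linarith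
  obtain ⟨hsup', hmean'⟩ := hd U D x M l K (2 * δ) hs2 hκ0 hκ2 hMG (by positivity)
    (mul_le_mul_of_nonneg_left hL2q (by norm_num)) (by linarith) hK hKL hl1 hl2 hI b2 hup hsup
    (Stp_518.MeanK.mono hmean le_rfl (mul_le_mul_of_nonneg_right (by linarith) hsq))
    M' p H H' A hBD.rotMo hBD.lb hBD.hq hA7
  -- growth
  have hI1 : 0 < M.I x (VD D) (l + 1 / K) := hBD.pos hI
  have hIup : M.I x (VD D) (l + 1 / K) ≤ Real.exp G * M.I x (VD D) l :=
    Stp_518.le_exp_of_log hI hup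
  have hupg : ∀ y ∈ Icc (l - 2 / K) l,
      M.I x (VD D) (l + 1 / K) ≤ Real.exp (2 * G) * M.I x (VD D) y := fun y hy => by
    have h1 := mul_le_mul_of_nonneg_left (hdn y hy) (Real.exp_pos G).le
    have h2 : Real.exp (2 * G) = Real.exp G * Real.exp G := by rw [← Real.exp_add]; congr 1; ring
    rw [h2]
    linarith
  -- total tilt and defect
  have hlam : L - G ≤ lam (M.I x (VD D)) (l + 1 / K) := by
    have h1 : lam (M.I x (VD D)) (l + 1 / K) =
        2 * (l + 1 / K) - Real.log (M.I x (VD D) (l + 1 / K)) := rfl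
    have h2 : L = 2 * l - Real.log (M.I x (VD D) l) := rfl
    linarith
  have hdut : ‖fderiv ℝ M.u 0‖ ≤ κt / (8 * K) := by
    have h1 := pow_small (B := 8 / κt) (P := 1) (q := 0) (q₁ := q₁) (by positivity) hL1
      hK0.le hKL (by omega) b8
    rw [pow_one, pow_zero, inv_one] at h1
    refine hdu.trans ?_
    rw [le_div_iff₀ (by positivity)]
    have h2 : δ * (8 / κt * K) = δ * (8 * K) / κt := by ring
    rw [← hδ] at h1
    rw [h2, div_le_one hκt] at h1
    exact h1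
  have hMGt : MG N M.κ (Real.exp (l + 1 / K - M.lb)) M.u := by
    refine hMG.mono le_rfl ?_
    have h1 := Real.exp_pos (l + 1 / K - M.lb)
    have h2 : 0 < 1 / (8 * K) := by positivity
    nlinarith
  obtain ⟨e2, he2⟩ := ht U D x M (l + 1 / K) (8 * K) hs3 hκ0 hκ3 hMGt hdut (by linarith)
    (by linarith) (by linarith) hI1 (by linarith) (by
      have h1 : 500000 ≤ lam (M.I x (VD D)) (l + 1 / K) := by linarith
      have h2 : L / 2 ≤ lam (M.I x (VD D)) (l + 1 / K) := by linarith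
      have h3 : (L / 2) ^ 3 ≤ lam (M.I x (VD D)) (l + 1 / K) ^ 3 :=
        pow_le_pow_left₀ (by linarith) h2 3
      refine le_trans ?_ h3
      have h4 : 8 * K ≤ 16 * L ^ 2 := by linarith
      refine h4.trans ?_
      have h5 : 0 ≤ L ^ 2 * (L - 128) := mul_nonneg (by positivity) (by linarith)
      nlinarith)
  rw [show l + 1 / K - 1 / (8 * K) = l + 7 / (8 * K) by rw [e8K, e78]; ring] at he2
  have hBD1 := hBD
  refine ⟨M', hBD.lb, ?_, hκ'0, hκ'1, hMG', hBD.du', ?_, ?_, hsup', hmean'⟩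
  · rw [hBD.eπ, hBD.eρ]
    exact frame_rot hBD.sit.pack.frame hBD.same.rt
  · refine hBD.near hI1 hE2G hCt hupg he2 ?_ ?_
    · have h1 := pow_small (B := B1) (P := 2) (q := q) (q₁ := q₁) hB10 hL1 hK0.le hKL
        (by omega) b6
      exact h1
    · have h1 := pow_small (B := B2) (P := pt) (q := q) (q₁ := q₁) hB20 hL1 hK0.le hKL
        (by omega) b7
      exact h1
  · refine hBD.top hI1 ?_
    have h1 := pow_small (B := 79872) (P := 2) (q := 0) (q₁ := q₁) (by norm_num) hL1 hK0.le hKL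
      (by omega) (by norm_num; linarith)
    rwa [pow_zero, inv_one] at h1

end Crest.Agent.R234.Swb_159
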