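import Crest.Agent.R234.Swb18_159
import Crest.Agent.R234.Tot1_128

/-!
# Row 234, F6-BLOCK (helper159), part 19: `BlkP` from `SupP` alone
-/

set_option autoImplicit false

namespace Crest.Agent.R234.Swb_159

/-- **BLOCK CHANGE** (518's literal `BlkP`) from 685's `SupP`. -/
theorem blkP_of (hSup : Stp_518.SupP) : Stp_518.BlkP := blkP_of' hSup Tot_128.totP

end Crest.Agent.R234.Swb_159
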