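import Crest.Agent.R234.GL1_394

/-!
# Row 234, F6-BLOCK (helper159), part 1: one minimal surface seen from two frames

Abstract comparison of `EE` and `II` of `GL_394` for two charts `c1`, `c2` of the SAME surface whose
base coordinates are related by `O ∘ θ`, `O` an isometry, `|Dθ - 1| ≤ σ`, `|θ 0| ≤ σ e^l`.
-/

set_option autoImplicit false

open MeasureTheory Set Metric Filter Topology
open Crest.GeometryTopology.Submanifold
open Crest.Agent.R234.Vf_884 Crest.Agent.R234.Ar_870 Crest.Agent.R234.Cy_870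
open Crest.Agent.R234.GL_394
open scoped ENNReal NNReal InnerProductSpace

noncomputable section

namespace Crest.Agent.R234.Swb_159

variable {m k : ℕ}

/-- two charts of the same surface, base coordinates related by `O ∘ θ` on the ball of radius `R`. -/
structure Blk (c1 c2 : Ch m k) (O : Euc m ≃ₗᵢ[ℝ] Euc m) (θ : Euc m → Euc m) (dθ : Euc m → L m)
    (R σ : ℝ) (V : Measure (Euc k × L k)) : Prop where
  s0 : 0 ≤ σ
  s1 : σ ≤ 1 / 4
  R0 : 0 < R
  rel : ∀ᵐ p ∂V, (‖c1.x p.1‖ ≤ R ∧ c2.x p.1 = O (θ (c1.x p.1)) ∧ c2.f p.1 = c1.f p.1) ∨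
    (R ≤ ‖c1.x p.1‖ ∧ R ≤ ‖c2.x p.1‖)
  der : ∀ v ∈ closedBall (0 : Euc m) R, HasFDerivWithinAt θ (dθ v) (closedBall 0 R) v
  near : ∀ v ∈ closedBall (0 : Euc m) R, ‖dθ v - ContinuousLinearMap.id ℝ (Euc m)‖ ≤ σ
  hj : ∀ v ∈ closedBall (0 : Euc m) R, c1.j v = c2.j (O (θ v)) * |(dθ v).det|
  cj : ContinuousOn c1.j (closedBall (0 : Euc m) R)

namespace Blk

variable {c1 c2 : Ch m k} {O : Euc m ≃ₗᵢ[ℝ] Euc m} {θ : Euc m → Euc m} {dθ : Euc m → L m}
  {R σ : ℝ} {V : Measure (Euc k × L k)} (h : Blk c1 c2 O θ dθ R σ V)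
include h

theorem lip {u v : Euc m} (hu : u ∈ closedBall (0 : Euc m) R) (hv : v ∈ closedBall (0 : Euc m) R) :
    ‖(θ v - v) - (θ u - u)‖ ≤ σ * ‖v - u‖ := by
  refine (convex_closedBall (0 : Euc m) R).norm_image_sub_le_of_norm_hasFDerivWithin_le
    (f := fun v => θ v - v) (f' := fun v => dθ v - ContinuousLinearMap.id ℝ (Euc m))
    (fun v hv => (h.der v hv).sub (hasFDerivWithinAt_id v _)) h.near hu hv

theorem zero_mem : (0 : Euc m) ∈ closedBall (0 : Euc m) R := mem_closedBall_self h.R0.le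

theorem close {e : ℝ} (hb : ‖θ 0‖ ≤ σ * e) {v : Euc m} (hv : v ∈ closedBall (0 : Euc m) R) :
    ‖θ v - v‖ ≤ σ * (e + ‖v‖) := by
  have h1 := h.lip h.zero_mem hv
  rw [sub_zero, sub_zero] at h1
  have h2 : ‖θ v - v‖ ≤ ‖(θ v - v) - θ 0‖ + ‖θ 0‖ := by
    calc ‖θ v - v‖ = ‖((θ v - v) - θ 0) + θ 0‖ := by rw [sub_add_cancel]
      _ ≤ _ := norm_add_le _ _
  linarith

theorem le_norm {e : ℝ} (hb : ‖θ 0‖ ≤ σ * e) {v : Euc m} (hv : v ∈ closedBall (0 : Euc m) R) :
    (1 - σ) * ‖v‖ - σ * e ≤ ‖θ v‖ := by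
  have h1 := h.close hb hv
  have h2 : ‖v‖ ≤ ‖θ v‖ + ‖θ v - v‖ := by
    calc ‖v‖ = ‖θ v - (θ v - v)‖ := by rw [sub_sub_cancel]
      _ ≤ _ := norm_sub_le _ _
  linarith

theorem inj : InjOn θ (closedBall (0 : Euc m) R) := by
  intro u hu v hv huv
  have h1 := h.lip hu hv
  rw [huv] at h1
  have e : θ v - v - (θ v - u) = -(v - u) := by abel
  rw [e, norm_neg] at h1
  have hs := h.s1
  have h2 : ‖v - u‖ = 0 := by nlinarith [norm_nonneg (v - u)]
  rw [norm_eq_zero, sub_eq_zero] at h2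
  exact h2.symm

theorem cont : ContinuousOn θ (closedBall (0 : Euc m) R) := fun v hv =>
  (h.der v hv).continuousWithinAt

/-- the image contains the ball of radius `e`. -/
theorem surj {e : ℝ} (he : 0 < e) (hb : ‖θ 0‖ ≤ σ * e) (hl : (1 + 3 * σ) * e ≤ R) {y : Euc m}
    (hy : ‖y‖ ≤ e) : ∃ v ∈ closedBall (0 : Euc m) R, θ v = y := by
  have hs0 := h.s0
  have hs1 := h.s1
  set T : Euc m → Euc m := fun v => y - (θ v - v) with hT
  have hkey : e + σ * (e + R) ≤ R := by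
    have h1 : 1 + σ ≤ (1 - σ) * (1 + 3 * σ) := by nlinarith
    have h2 : (1 + σ) * e ≤ (1 - σ) * R := by
      calc (1 + σ) * e ≤ ((1 - σ) * (1 + 3 * σ)) * e := mul_le_mul_of_nonneg_right h1 he.le
        _ = (1 - σ) * ((1 + 3 * σ) * e) := by ring
        _ ≤ _ := mul_le_mul_of_nonneg_left hl (by linarith)
    linarith
  have hmaps : MapsTo T (closedBall (0 : Euc m) R) (closedBall 0 R) := by
    intro v hv
    rw [mem_closedBall_zero_iff] at hv ⊢
    have h1 := h.close hb (mem_closedBall_zero_iff.2 hv)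
    calc ‖y - (θ v - v)‖ ≤ ‖y‖ + ‖θ v - v‖ := norm_sub_le _ _
      _ ≤ e + σ * (e + R) := add_le_add hy (h1.trans
          (mul_le_mul_of_nonneg_left (by linarith) hs0))
      _ ≤ R := hkey
  obtain ⟨s, hs⟩ : ∃ s : ℝ≥0, (s : ℝ) = σ := ⟨⟨σ, hs0⟩, rfl⟩
  have hlip : LipschitzOnWith s T (closedBall (0 : Euc m) R) := by
    refine LipschitzOnWith.of_dist_le_mul fun u hu v hv => ?_
    rw [dist_eq_norm, dist_eq_norm, hs]
    have e : T u - T v = (θ v - v) - (θ u - u) := by simp only [hT]; abel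
    rw [e, norm_sub_rev u v]
    exact h.lip hu hv
  have hcomp : IsComplete (closedBall (0 : Euc m) R) := isClosed_closedBall.isComplete
  have hcontr : ContractingWith s (hmaps.restrict T _ _) := by
    refine ⟨?_, hlip.mapsToRestrict hmaps⟩
    rw [← NNReal.coe_lt_coe, hs, NNReal.coe_one]
    linarith
  obtain ⟨v, hv, hfix, -⟩ := ContractingWith.exists_fixedPoint' hcomp hmaps hcontr h.zero_mem
    (edist_ne_top _ _)
  refine ⟨v, hv, ?_⟩
  have h1 : y - (θ v - v) = v := hfix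
  have h2 : y = v + (θ v - v) := by
    rw [← sub_eq_iff_eq_add]; exact h1
  rw [h2]; abel

end Blk

/-! ### the test function -/

/-- difference of the two kernels in the first base coordinate -/
def dl (θ : Euc m → Euc m) (R : ℝ) (q : ℝ → ℝ) (l : ℝ) (v : Euc m) : ℝ :=
  (closedBall (0 : Euc m) R).indicator (fun v => q (Real.exp (-2 * l) * ‖θ v‖ ^ 2) -
    q (Real.exp (-2 * l) * ‖v‖ ^ 2)) v

theorem exp_mul_sq (l : ℝ) : Real.exp (-2 * l) * Real.exp l ^ 2 = 1 := by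
  rw [← Real.exp_nat_mul, ← Real.exp_add]
  have : -2 * l + (2 : ℕ) * l = 0 := by push_cast; ring
  rw [this, Real.exp_zero]

theorem ker_zero {q q' : ℝ → ℝ} (hq : Ker q q') {l t : ℝ} (ht : Real.exp l ≤ t) :
    q (Real.exp (-2 * l) * t ^ 2) = 0 := by
  apply hq.zero
  rw [← exp_mul_sq l]
  have h2 : Real.exp l ^ 2 ≤ t ^ 2 := pow_le_pow_left₀ (Real.exp_pos l).le ht 2
  exact mul_le_mul_of_nonneg_left h2 (Real.exp_pos _).le

namespace Blk

variable {c1 c2 : Ch m k} {O : Euc m ≃ₗᵢ[ℝ] Euc m} {θ : Euc m → Euc m} {dθ : Euc m → L m}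
  {R σ : ℝ} {V : Measure (Euc k × L k)} (h : Blk c1 c2 O θ dθ R σ V)
include h

/-- beyond `(1 + 3σ) e^l` both kernels vanish. -/
theorem big {l : ℝ} (hb : ‖θ 0‖ ≤ σ * Real.exp l) {v : Euc m}
    (hv : v ∈ closedBall (0 : Euc m) R) (hl : (1 + 3 * σ) * Real.exp l ≤ ‖v‖) :
    Real.exp l ≤ ‖θ v‖ ∧ Real.exp l ≤ ‖v‖ := by
  have hs0 := h.s0
  have hs1 := h.s1
  have he := Real.exp_pos l
  constructor
  · refine le_trans ?_ (h.le_norm hb hv)
    have hk : 1 + σ ≤ (1 - σ) * (1 + 3 * σ) := by nlinarith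
    have h1 : (1 + σ) * Real.exp l ≤ (1 - σ) * ‖v‖ := by
      calc (1 + σ) * Real.exp l ≤ ((1 - σ) * (1 + 3 * σ)) * Real.exp l :=
            mul_le_mul_of_nonneg_right hk he.le
        _ = (1 - σ) * ((1 + 3 * σ) * Real.exp l) := by ring
        _ ≤ _ := mul_le_mul_of_nonneg_left hl (by linarith)
    linarith
  · nlinarith

theorem dl_zero {q q' : ℝ → ℝ} (hq : Ker q q') {l : ℝ} (hb : ‖θ 0‖ ≤ σ * Real.exp l) {v : Euc m}
    (hv : (1 + 3 * σ) * Real.exp l ≤ ‖v‖) : dl θ R q l v = 0 := by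
  unfold dl
  by_cases hR : v ∈ closedBall (0 : Euc m) R
  · rw [indicator_of_mem hR]
    obtain ⟨h1, h2⟩ := h.big hb hR hv
    simp only [ker_zero hq h1, ker_zero hq h2, sub_self]
  · exact indicator_of_notMem hR _

theorem abs_dl_le {q q' : ℝ → ℝ} (hq : Ker q q') {G : ℝ} (hG : ∀ t, 0 ≤ t → |q' t| ≤ G) {l : ℝ}
    (hb : ‖θ 0‖ ≤ σ * Real.exp l) (v : Euc m) : |dl θ R q l v| ≤ 12 * G * σ := by
  have hs0 := h.s0
  have hs1 := h.s1
  have hG0 : 0 ≤ G := (abs_nonneg _).trans (hG 0 le_rfl)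
  have he0 := Real.exp_pos l
  by_cases hv : (1 + 3 * σ) * Real.exp l ≤ ‖v‖
  · rw [h.dl_zero hq hb hv, abs_zero]; positivity
  push Not at hv
  unfold dl
  by_cases hR : v ∈ closedBall (0 : Euc m) R
  · rw [indicator_of_mem hR]
    have he := exp_mul_sq l
    have h1 := h.close hb hR
    have n0 := norm_nonneg v
    have n1 := norm_nonneg (θ v)
    have hvb : ‖v‖ ≤ 7 / 4 * Real.exp l := hv.le.trans (by nlinarith)
    have h1' : ‖θ v - v‖ ≤ σ * (11 / 4 * Real.exp l) :=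
      h1.trans (mul_le_mul_of_nonneg_left (by linarith) hs0)
    have h2 : ‖θ v‖ ≤ ‖v‖ + ‖θ v - v‖ := by
      calc ‖θ v‖ = ‖v + (θ v - v)‖ := by rw [add_sub_cancel]
        _ ≤ _ := norm_add_le _ _
    have h2' : ‖θ v‖ + ‖v‖ ≤ 67 / 16 * Real.exp l := by nlinarith
    have h3 : |q (Real.exp (-2 * l) * ‖θ v‖ ^ 2) - q (Real.exp (-2 * l) * ‖v‖ ^ 2)| ≤
        G * |Real.exp (-2 * l) * ‖θ v‖ ^ 2 - Real.exp (-2 * l) * ‖v‖ ^ 2| := by
      have := (convex_Ici (0:ℝ)).norm_image_sub_le_of_norm_hasDerivWithin_le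
        (f := q) (f' := q') (C := G) (fun t _ => (hq.der t).hasDerivWithinAt)
        (fun t ht => by rw [Real.norm_eq_abs]; exact hG t ht)
        (x := Real.exp (-2 * l) * ‖v‖ ^ 2) (y := Real.exp (-2 * l) * ‖θ v‖ ^ 2)
        (by show (0:ℝ) ≤ _; positivity) (by show (0:ℝ) ≤ _; positivity)
      rwa [Real.norm_eq_abs, Real.norm_eq_abs] at this
    refine h3.trans ?_
    have h4 : |‖θ v‖ - ‖v‖| ≤ σ * (11 / 4 * Real.exp l) := (abs_norm_sub_norm_le _ _).trans h1'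
    have h5 : |Real.exp (-2 * l) * ‖θ v‖ ^ 2 - Real.exp (-2 * l) * ‖v‖ ^ 2| ≤
        Real.exp (-2 * l) * ((σ * (11 / 4 * Real.exp l)) * (67 / 16 * Real.exp l)) := by
      have e : Real.exp (-2 * l) * ‖θ v‖ ^ 2 - Real.exp (-2 * l) * ‖v‖ ^ 2 =
          Real.exp (-2 * l) * ((‖θ v‖ - ‖v‖) * (‖θ v‖ + ‖v‖)) := by ring
      rw [e, abs_mul, abs_of_pos (Real.exp_pos _), abs_mul, abs_of_nonneg (add_nonneg n1 n0)]
      refine mul_le_mul_of_nonneg_left ?_ (Real.exp_pos _).le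
      exact mul_le_mul h4 h2' (by positivity) (by positivity)
    have h6 : Real.exp (-2 * l) * ((σ * (11 / 4 * Real.exp l)) * (67 / 16 * Real.exp l)) ≤
        12 * σ := by
      have e : Real.exp (-2 * l) * ((σ * (11 / 4 * Real.exp l)) * (67 / 16 * Real.exp l)) =
          (11 / 4 * (67 / 16)) * σ * (Real.exp (-2 * l) * Real.exp l ^ 2) := by ring
      rw [e, he, mul_one]
      refine mul_le_mul_of_nonneg_right (by norm_num) hs0
    calc G * |Real.exp (-2 * l) * ‖θ v‖ ^ 2 - Real.exp (-2 * l) * ‖v‖ ^ 2| ≤ G * (12 * σ) :=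
          mul_le_mul_of_nonneg_left (h5.trans h6) hG0
      _ = _ := by ring
  · rw [indicator_of_notMem hR, abs_zero]; positivity

theorem measurable_dl {q q' : ℝ → ℝ} (hq : Ker q q') (l : ℝ) : Measurable (dl θ R q l) := by
  have hB : MeasurableSet (closedBall (0 : Euc m) R) := measurableSet_closedBall
  have hc : ContinuousOn (fun v => q (Real.exp (-2 * l) * ‖θ v‖ ^ 2) -
      q (Real.exp (-2 * l) * ‖v‖ ^ 2)) (closedBall (0 : Euc m) R) := by
    refine ContinuousOn.sub ?_ ?_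
    · exact hq.continuous.comp_continuousOn ((h.cont.norm.pow 2).const_mul _)
    · exact (hq.continuous.comp ((continuous_norm.pow 2).const_mul _)).continuousOn
  classical
  have h1 := hc.measurable_piecewise (g := fun _ => (0:ℝ)) continuousOn_const hB
  have h2 : dl θ R q l = (closedBall (0 : Euc m) R).piecewise
      (fun v => q (Real.exp (-2 * l) * ‖θ v‖ ^ 2) - q (Real.exp (-2 * l) * ‖v‖ ^ 2))
      (fun _ => (0:ℝ)) := by
    funext v
    unfold dl
    by_cases hv : v ∈ closedBall (0 : Euc m) R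
    · rw [indicator_of_mem hv, piecewise_eq_of_mem _ _ _ hv]
    · rw [indicator_of_notMem hv, piecewise_eq_of_notMem _ _ _ hv]
  rw [h2]; exact h1

/-- **the two densities transform into each other.** -/
theorem int_j {q q' : ℝ → ℝ} (hq : Ker q q') {l : ℝ} (hb : ‖θ 0‖ ≤ σ * Real.exp l)
    (hl : (1 + 3 * σ) * Real.exp l ≤ R) :
    (∫ v : Euc m, c2.j v * q (Real.exp (-2 * l) * ‖v‖ ^ 2)) -
      ∫ v : Euc m, c1.j v * q (Real.exp (-2 * l) * ‖v‖ ^ 2) = ∫ v, dl θ R q l v * c1.j v := by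
  have hs0 := h.s0
  have hs1 := h.s1
  have he := Real.exp_pos l
  have hB : MeasurableSet (closedBall (0 : Euc m) R) := measurableSet_closedBall
  have hcB : IsCompact (closedBall (0 : Euc m) R) := isCompact_closedBall 0 R
  have e0 : ∫ v : Euc m, c2.j v * q (Real.exp (-2 * l) * ‖v‖ ^ 2) =
      ∫ v : Euc m, c2.j (O v) * q (Real.exp (-2 * l) * ‖v‖ ^ 2) := by
    have h1 := (O.measurePreserving).integral_comp O.toHomeomorph.measurableEmbedding
      (fun v : Euc m => c2.j v * q (Real.exp (-2 * l) * ‖v‖ ^ 2))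
    rw [← h1]
    refine integral_congr_ae (ae_of_all _ fun v => ?_)
    simp only [LinearIsometryEquiv.norm_map]
  have e1 : ∫ v : Euc m, c2.j (O v) * q (Real.exp (-2 * l) * ‖v‖ ^ 2) =
      ∫ v in θ '' closedBall (0 : Euc m) R, c2.j (O v) * q (Real.exp (-2 * l) * ‖v‖ ^ 2) := by
    refine (setIntegral_eq_integral_of_forall_compl_eq_zero fun v hv => ?_).symm
    have h1 : Real.exp l ≤ ‖v‖ := by
      by_contra hc
      push Not at hc
      apply hv
      obtain ⟨u, hu, huv⟩ := h.surj he hb hl hc.le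
      exact ⟨u, hu, huv⟩
    rw [ker_zero hq h1, mul_zero]
  have e2 : ∫ v in θ '' closedBall (0 : Euc m) R, c2.j (O v) *
      q (Real.exp (-2 * l) * ‖v‖ ^ 2) =
      ∫ v in closedBall (0 : Euc m) R, |(dθ v).det| • (c2.j (O (θ v)) *
        q (Real.exp (-2 * l) * ‖θ v‖ ^ 2)) :=
    integral_image_eq_integral_abs_det_fderiv_smul volume hB h.der h.inj _
  have e3 : ∫ v in closedBall (0 : Euc m) R, |(dθ v).det| • (c2.j (O (θ v)) *
        q (Real.exp (-2 * l) * ‖θ v‖ ^ 2)) =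
      ∫ v in closedBall (0 : Euc m) R, c1.j v * q (Real.exp (-2 * l) * ‖θ v‖ ^ 2) := by
    refine setIntegral_congr_fun hB fun v hv => ?_
    simp only [h.hj v hv, smul_eq_mul]
    ring
  have e4 : ∫ v : Euc m, c1.j v * q (Real.exp (-2 * l) * ‖v‖ ^ 2) =
      ∫ v in closedBall (0 : Euc m) R, c1.j v * q (Real.exp (-2 * l) * ‖v‖ ^ 2) := by
    refine (setIntegral_eq_integral_of_forall_compl_eq_zero fun v hv => ?_).symm
    have h1 : Real.exp l ≤ ‖v‖ := by
      rw [mem_closedBall_zero_iff, not_le] at hv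
      nlinarith
    rw [ker_zero hq h1, mul_zero]
  have c1c : ContinuousOn (fun v => c1.j v * q (Real.exp (-2 * l) * ‖θ v‖ ^ 2))
      (closedBall (0 : Euc m) R) :=
    h.cj.mul (hq.continuous.comp_continuousOn ((h.cont.norm.pow 2).const_mul _))
  have c2c : ContinuousOn (fun v => c1.j v * q (Real.exp (-2 * l) * ‖v‖ ^ 2))
      (closedBall (0 : Euc m) R) :=
    h.cj.mul (hq.continuous.comp ((continuous_norm.pow 2).const_mul _)).continuousOn
  rw [e0, e1, e2, e3, e4, ← integral_sub (c1c.integrableOn_compact hcB)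
    (c2c.integrableOn_compact hcB), ← integral_indicator hB]
  congr 1
  funext v
  unfold dl
  by_cases hv : v ∈ closedBall (0 : Euc m) R
  · rw [indicator_of_mem hv, indicator_of_mem hv]; ring
  · rw [indicator_of_notMem hv, indicator_of_notMem hv, zero_mul]

/-- **the two pushed forward measures.** -/
theorem ae_dl {q q' : ℝ → ℝ} (hq : Ker q q') {l : ℝ} (hb : ‖θ 0‖ ≤ σ * Real.exp l)
    (hl : (1 + 3 * σ) * Real.exp l ≤ R) :
    ∀ᵐ p ∂V, q (Real.exp (-2 * l) * ‖c2.x p.1‖ ^ 2) - q (Real.exp (-2 * l) * ‖c1.x p.1‖ ^ 2) =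
      dl θ R q l (c1.x p.1) := by
  have hs0 := h.s0
  have he := Real.exp_pos l
  filter_upwards [h.rel] with p hp
  rcases hp with ⟨h1, h2, -⟩ | ⟨h1, h2⟩
  · rw [h2, LinearIsometryEquiv.norm_map]
    unfold dl
    rw [indicator_of_mem (mem_closedBall_zero_iff.2 h1)]
  · have h3 : Real.exp l ≤ ‖c1.x p.1‖ := by nlinarith
    have h4 : Real.exp l ≤ ‖c2.x p.1‖ := by nlinarith
    rw [ker_zero hq h3, ker_zero hq h4, h.dl_zero hq hb (hl.trans h1), sub_zero]

/-- **(E), identity.** -/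
theorem EE_sub [IsFiniteMeasure V] {q q' : ℝ → ℝ} (hq : Ker q q')
    (m1 : AEMeasurable (fun p : Euc k × L k => c1.x p.1) V)
    (m2 : AEMeasurable (fun p : Euc k × L k => c2.x p.1) V) (Q : ℝ) {l : ℝ}
    (hb : ‖θ 0‖ ≤ σ * Real.exp l) (hl : (1 + 3 * σ) * Real.exp l ≤ R) :
    GL_394.EE c2 V q Q l - GL_394.EE c1 V q Q l = Real.exp ((2 - m) * l) *
      (∫ p, dl θ R q l (c1.x p.1) ∂V - Q * ∫ v, dl θ R q l v * c1.j v) := by
  obtain ⟨Kq, -, hKq, -⟩ := hq.exists_bound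
  have i : ∀ {x : Euc k × L k → Euc m}, AEMeasurable x V →
      Integrable (fun p => 1 * q (Real.exp (-2 * l) * ‖x p‖ ^ 2)) V := by
    intro x hx
    refine Integrable.mono' (integrable_const Kq) ?_ ?_
    · have h1 : AEMeasurable (fun p => Real.exp (-2 * l) * ‖x p‖ ^ 2) V :=
        (hx.norm.pow_const 2).const_mul _
      exact ((hq.continuous.measurable.comp_aemeasurable h1).const_mul 1).aestronglyMeasurable
    · filter_upwards with p
      rw [one_mul, Real.norm_eq_abs]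
      exact hKq _ (by positivity)
  have e1 : ∫ p, 1 * q (Real.exp (-2 * l) * ‖c2.x p.1‖ ^ 2) ∂V -
      ∫ p, 1 * q (Real.exp (-2 * l) * ‖c1.x p.1‖ ^ 2) ∂V = ∫ p, dl θ R q l (c1.x p.1) ∂V := by
    rw [← integral_sub (i m2) (i m1)]
    refine integral_congr_ae ?_
    filter_upwards [h.ae_dl hq hb hl] with p hp
    rw [← hp]; ring
  have e2 := h.int_j hq hb hl
  unfold GL_394.EE
  rw [← e1, ← e2]
  ring

/-- **(E), estimate through the total variation measure `e2` of `x_# V - Q j` (618, 354).** -/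
theorem EE_sub_le [IsFiniteMeasure V] {q q' : ℝ → ℝ} (hq : Ker q q')
    (m1 : AEMeasurable (fun p : Euc k × L k => c1.x p.1) V)
    (m2 : AEMeasurable (fun p : Euc k × L k => c2.x p.1) V) (Q : ℝ) {l : ℝ}
    (hb : ‖θ 0‖ ≤ σ * Real.exp l)
    (hl : (1 + 3 * σ) * Real.exp l ≤ R) {G : ℝ} (hG : ∀ t, 0 ≤ t → |q' t| ≤ G)
    (hτ0 : ∀ᵐ p ∂V, 0 ≤ c1.tau p.1 p.2)
    (hτi : Integrable (fun p => c1.tau p.1 p.2) V) {e2 : Measure (Euc m)}
    (hfin : e2 (closedBall 0 ((1 + 3 * σ) * Real.exp l)) ≠ ⊤)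
    (habs : ∀ f : Euc m → ℝ, Measurable f → (∃ C, ∀ v, |f v| ≤ C) →
      (∀ v ∉ closedBall (0 : Euc m) ((1 + 3 * σ) * Real.exp l), f v = 0) →
      |∫ p, f (c1.x p.1) * (1 - c1.tau p.1 p.2 / 2) ∂V - Q * ∫ v, f v * c1.j v| ≤
        ∫ v, |f v| ∂e2) :
    |GL_394.EE c2 V q Q l - GL_394.EE c1 V q Q l| ≤ 12 * G * σ * (Real.exp ((2 - m) * l) *
      (e2.real (closedBall 0 ((1 + 3 * σ) * Real.exp l)) +
        (1 / 2) * ∫ p in {p | ‖c1.x p.1‖ ≤ (1 + 3 * σ) * Real.exp l}, c1.tau p.1 p.2 ∂V)) := by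
  have hs0 := h.s0
  have hG0 : 0 ≤ G := (abs_nonneg _).trans (hG 0 le_rfl)
  have he := Real.exp_pos l
  set r := (1 + 3 * σ) * Real.exp l with hr
  have hd := h.abs_dl_le hq hG hb
  have hdm := h.measurable_dl hq l
  have hd0 : ∀ v ∉ closedBall (0 : Euc m) r, dl θ R q l v = 0 := by
    intro v hv
    rw [mem_closedBall_zero_iff, not_le] at hv
    exact h.dl_zero hq hb hv.le
  have h1 := habs (dl θ R q l) hdm ⟨_, hd⟩ hd0
  have hC0 : 0 ≤ 12 * G * σ := by positivity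
  -- the measure `e2`
  have h2 : ∫ v, |dl θ R q l v| ∂e2 ≤ 12 * G * σ * e2.real (closedBall 0 r) := by
    have e : ∫ v, |dl θ R q l v| ∂e2 = ∫ v in closedBall (0 : Euc m) r, |dl θ R q l v| ∂e2 :=
      (setIntegral_eq_integral_of_forall_compl_eq_zero fun v hv => by rw [hd0 v hv, abs_zero]).symm
    rw [e]
    have h3 := norm_setIntegral_le_of_norm_le_const (μ := e2) (s := closedBall (0 : Euc m) r)
      (f := fun v => |dl θ R q l v|) (C := 12 * G * σ) hfin.lt_top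
      (fun v _ => by rw [Real.norm_eq_abs, abs_abs]; exact hd v)
    exact (le_abs_self _).trans h3
  -- the tilt part
  have iδ : Integrable (fun p : Euc k × L k => dl θ R q l (c1.x p.1)) V := by
    refine Integrable.mono' (integrable_const (12 * G * σ))
      ((hdm.comp_aemeasurable m1).aestronglyMeasurable) ?_
    filter_upwards with p
    rw [Real.norm_eq_abs]; exact hd _
  have iδτ : Integrable (fun p : Euc k × L k => dl θ R q l (c1.x p.1) * c1.tau p.1 p.2) V := by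
    refine Integrable.mono' (hτi.norm.const_mul (12 * G * σ))
      ((hdm.comp_aemeasurable m1).aestronglyMeasurable.mul hτi.1) ?_
    filter_upwards with p
    rw [norm_mul]
    exact mul_le_mul_of_nonneg_right (by rw [Real.norm_eq_abs]; exact hd _) (norm_nonneg _)
  have e3 : ∫ p, dl θ R q l (c1.x p.1) * (1 - c1.tau p.1 p.2 / 2) ∂V =
      ∫ p, dl θ R q l (c1.x p.1) ∂V -
        (1 / 2) * ∫ p, dl θ R q l (c1.x p.1) * c1.tau p.1 p.2 ∂V := by
    rw [← integral_const_mul, ← integral_sub iδ (iδτ.const_mul _)]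
    refine integral_congr_ae (ae_of_all _ fun p => ?_)
    ring
  have h4 : |∫ p, dl θ R q l (c1.x p.1) * c1.tau p.1 p.2 ∂V| ≤ 12 * G * σ *
      ∫ p in {p | ‖c1.x p.1‖ ≤ r}, c1.tau p.1 p.2 ∂V := by
    have e4 : ∫ p, dl θ R q l (c1.x p.1) * c1.tau p.1 p.2 ∂V =
        ∫ p in {p | ‖c1.x p.1‖ ≤ r}, dl θ R q l (c1.x p.1) * c1.tau p.1 p.2 ∂V := by
      refine (setIntegral_eq_integral_of_forall_compl_eq_zero fun p hp => ?_).symm
      rw [hd0 _ (by rw [mem_closedBall_zero_iff]; exact hp), zero_mul]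
    rw [e4, ← integral_const_mul, ← Real.norm_eq_abs]
    refine norm_integral_le_of_norm_le (hτi.integrableOn.const_mul _) ?_
    refine ae_restrict_of_ae ?_
    filter_upwards [hτ0] with p hp
    rw [norm_mul, Real.norm_eq_abs, Real.norm_eq_abs, abs_of_nonneg hp]
    exact mul_le_mul_of_nonneg_right (hd _) hp
  rw [h.EE_sub hq m1 m2 Q hb hl, abs_mul, abs_of_pos (Real.exp_pos _)]
  have e5 : ∫ p, dl θ R q l (c1.x p.1) ∂V - Q * ∫ v, dl θ R q l v * c1.j v =
      (∫ p, dl θ R q l (c1.x p.1) * (1 - c1.tau p.1 p.2 / 2) ∂V - Q * ∫ v, dl θ R q l v * c1.j v) +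
        (1 / 2) * ∫ p, dl θ R q l (c1.x p.1) * c1.tau p.1 p.2 ∂V := by
    rw [e3]; ring
  have h5 : |∫ p, dl θ R q l (c1.x p.1) ∂V - Q * ∫ v, dl θ R q l v * c1.j v| ≤
      12 * G * σ * (e2.real (closedBall 0 r) +
        (1 / 2) * ∫ p in {p | ‖c1.x p.1‖ ≤ r}, c1.tau p.1 p.2 ∂V) := by
    rw [e5]
    refine (abs_add_le _ _).trans ?_
    rw [abs_mul, abs_of_pos (by norm_num : (0:ℝ) < 1 / 2)]
    linarith
  calc Real.exp ((2 - m) * l) * |∫ p, dl θ R q l (c1.x p.1) ∂V - Q * ∫ v, dl θ R q l v * c1.j v| ≤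
      Real.exp ((2 - m) * l) * (12 * G * σ * (e2.real (closedBall 0 r) +
        (1 / 2) * ∫ p in {p | ‖c1.x p.1‖ ≤ r}, c1.tau p.1 p.2 ∂V)) :=
        mul_le_mul_of_nonneg_left h5 (Real.exp_pos _).le
    _ = _ := by ring

end Blk

end Crest.Agent.R234.Swb_159
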