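import Crest.Agent.R234.Swb19_159
import Crest.Agent.R234.Sp2_685

/-!
# Row 234, F6-BLOCK (helper159), part 20: `BlkP`, unconditional
-/

set_option autoImplicit false

namespace Crest.Agent.R234.Swb_159

/-- **BLOCK CHANGE** (518's literal `BlkP`), no hypothesis. -/
theorem blkP : Stp_518.BlkP := blkP_of Sp_685.supP

end Crest.Agent.R234.Swb_159
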