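import Crest.Agent.R234.Foot1_842
import Crest.Agent.R234.Swb2_159

/-!
# Row 234, F6-BLOCK (helper159), part 3: metric and density of a graph in a rotated frame

`A = H (1 + qᵀ p)` (`p = Dv(a)`), `D (A x) = H' (p x - q x)` (`D = Dw(ψ a)`):
`gop p = Aᵀ gop D A`, `dns p = |det A| dns D`, `ginv D = A ginv p Aᵀ`.
-/

set_option autoImplicit false
set_option linter.unusedSectionVars false

open MeasureTheory Set Metric Filter Topology
open Crest.GeometryTopology.Submanifold
open scoped ENNReal NNReal ContDiff RealInnerProductSpace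

noncomputable section

namespace Crest.Agent.R234.Swb_159

open Crest.Agent.R234.Ell1_3 Crest.Agent.R234.Main_456 Crest.Agent.R234.Grot_842
open Crest.Agent.R234.Foot_842

local notation "adj" => ContinuousLinearMap.adjoint

theorem det_adj' {E : Type*} [NormedAddCommGroup E] [InnerProductSpace ℝ E]
    [FiniteDimensional ℝ E] (B : E →L[ℝ] E) : (adj B).det = B.det := by
  classical
  have h1 : (adj B).det = (LinearMap.toMatrix (stdOrthonormalBasis ℝ E).toBasis
      (stdOrthonormalBasis ℝ E).toBasis (LinearMap.adjoint (B : E →ₗ[ℝ] E))).det := by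
    rw [LinearMap.det_toMatrix]; rfl
  have h2 : B.det = (LinearMap.toMatrix (stdOrthonormalBasis ℝ E).toBasis
      (stdOrthonormalBasis ℝ E).toBasis (B : E →ₗ[ℝ] E)).det := by
    rw [LinearMap.det_toMatrix]
  rw [h1, h2, LinearMap.toMatrix_adjoint, Matrix.det_conjTranspose]
  simp

section Pointwise

variable {m n : ℕ} {q p D : Euc m →L[ℝ] Euc n} {H : Euc m →L[ℝ] Euc m} {H' : Euc n →L[ℝ] Euc n}

/-- the metric in the two base coordinates -/
theorem gop_dchg (hR : Rt q H H') (hD : ∀ y, D (dchg q H p y) = H' (p y - q y)) :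
    gop p = adj (dchg q H p) ∘L gop D ∘L dchg q H p := by
  refine ContinuousLinearMap.ext fun y => ext_inner_left ℝ fun x => ?_
  have h1 : ⟪x, (adj (dchg q H p) ∘L gop D ∘L dchg q H p) y⟫ =
      ⟪dchg q H p x, gop D (dchg q H p y)⟫ := by
    rw [ContinuousLinearMap.comp_apply, ContinuousLinearMap.comp_apply,
      ContinuousLinearMap.adjoint_inner_right]
  rw [h1, gop_inner, gop_inner, hD, hD, dchg_apply, dchg_apply, hR.isom]

theorem gdet_dchg (hR : Rt q H H') (hD : ∀ y, D (dchg q H p y) = H' (p y - q y)) :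
    gdet p = (dchg q H p).det ^ 2 * gdet D := by
  have h1 := gop_dchg hR hD
  have h2 : gdet p = (adj (dchg q H p)).det * ((gop D).det * (dchg q H p).det) := by
    have h3 : gdet p = (adj (dchg q H p) ∘L gop D ∘L dchg q H p).det := by
      rw [← h1]; rfl
    rw [h3]
    have h4 : ∀ A B : Euc m →L[ℝ] Euc m, (A ∘L B).det = A.det * B.det := fun A B => by
      simp only [ContinuousLinearMap.det, ContinuousLinearMap.toLinearMap_comp]
      exact LinearMap.det_comp _ _
    rw [h4, h4]
  have h5 : (adj (dchg q H p)).det = (dchg q H p).det := det_adj' _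
  rw [h2, h5]
  have h7 : (gop D).det = gdet D := rfl
  rw [h7]; ring

/-- **the area densities** -/
theorem dns_dchg (hR : Rt q H H') (hD : ∀ y, D (dchg q H p y) = H' (p y - q y)) :
    dns p = dns D * |(dchg q H p).det| := by
  rw [dns, dns, gdet_dchg hR hD, Real.sqrt_mul (sq_nonneg _), Real.sqrt_sq_eq_abs, mul_comm]

/-- **the inverse metrics** -/
theorem ginv_dchg (hR : Rt q H H') (hD : ∀ y, D (dchg q H p y) = H' (p y - q y)) :
    ginv D = dchg q H p ∘L ginv p ∘L adj (dchg q H p) := by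
  have h1 := gop_dchg hR hD
  set A := dchg q H p with hA
  have hsurj := dchg_surj hR p D hD
  have hinj : ∀ u v : Euc m, adj A u = adj A v → u = v := by
    intro u v huv
    refine ext_inner_right ℝ fun w => ?_
    obtain ⟨y, rfl⟩ := hsurj w
    rw [← hA, ← ContinuousLinearMap.adjoint_inner_left, ← ContinuousLinearMap.adjoint_inner_left,
      huv]
  have h2 : gop D ∘L (A ∘L ginv p ∘L adj A) = ContinuousLinearMap.id ℝ (Euc m) := by
    refine ContinuousLinearMap.ext fun u => hinj _ _ ?_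
    have h3 : adj A ((gop D ∘L (A ∘L ginv p ∘L adj A)) u) =
        (adj A ∘L gop D ∘L A) (ginv p (adj A u)) := rfl
    rw [h3, ← h1]
    exact congrArg (fun T : Euc m →L[ℝ] Euc m => T (adj A u)) (gop_ginv p)
  calc ginv D = ginv D ∘L (gop D ∘L (A ∘L ginv p ∘L adj A)) := by
        rw [h2, ContinuousLinearMap.comp_id]
    _ = (ginv D ∘L gop D) ∘L (A ∘L ginv p ∘L adj A) := rfl
    _ = A ∘L ginv p ∘L adj A := by rw [ginv_gop, ContinuousLinearMap.id_comp]

end Pointwise

/-! ### the normalised change of coordinates -/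

section Norm

variable {m n : ℕ}

/-- `θ y = ψ (H y)`: base coordinate of the rotated frame as a function of the normalised base
coordinate `y = H⁻¹ (X - X0)` of the old frame. -/
def th (q : Euc m →L[ℝ] Euc n) (H : Euc m →L[ℝ] Euc m) (v : Euc m → Euc n) (y : Euc m) : Euc m :=
  chg q H v (H y)

def dth (q : Euc m →L[ℝ] Euc n) (H : Euc m →L[ℝ] Euc m) (v : Euc m → Euc n) (y : Euc m) :
    Euc m →L[ℝ] Euc m := dchg q H (fderiv ℝ v (H y)) ∘L H

variable {q : Euc m →L[ℝ] Euc n} {H : Euc m →L[ℝ] Euc m} {H' : Euc n →L[ℝ] Euc n}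
  {v : Euc m → Euc n}

theorem th_zero (hv : v 0 = 0) : th q H v 0 = 0 := by
  simp [th, chg, hv]

theorem hasFDerivAt_th {y : Euc m} (hv : DifferentiableAt ℝ v (H y)) :
    HasFDerivAt (th q H v) (dth q H v y) y :=
  (hasFDerivAt_chg hv).comp y H.hasFDerivAt

theorem dth_sub (hR : Rt q H H') (y : Euc m) : dth q H v y - ContinuousLinearMap.id ℝ (Euc m) =
    H ∘L adj q ∘L (fderiv ℝ v (H y) - q) ∘L H := by
  refine ContinuousLinearMap.ext fun u => ?_
  have h1 : H (H u + adj q (q (H u))) = u := hR.inv u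
  have h2 : (dth q H v y - ContinuousLinearMap.id ℝ (Euc m)) u =
      H (H u + adj q (fderiv ℝ v (H y) (H u))) - u := rfl
  have h3 : (H ∘L adj q ∘L (fderiv ℝ v (H y) - q) ∘L H) u =
      H (adj q (fderiv ℝ v (H y) (H u) - q (H u))) := rfl
  rw [h2, h3]
  generalize fderiv ℝ v (H y) (H u) = w at *
  have h4 : H (H u + adj q w) = u + H (adj q (w - q (H u))) := by
    calc H (H u + adj q w) = H ((H u + adj q (q (H u))) + adj q (w - q (H u))) := by
          congr 1; rw [map_sub]; abel
      _ = _ := by rw [map_add, h1]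
  rw [h4]; abel

theorem norm_dth_sub (hR : Rt q H H') (y : Euc m) :
    ‖dth q H v y - ContinuousLinearMap.id ℝ (Euc m)‖ ≤ ‖q‖ * ‖fderiv ℝ v (H y) - q‖ := by
  rw [dth_sub hR]
  have h0 : ‖H‖ ≤ 1 := hR.norm_le
  refine ContinuousLinearMap.opNorm_le_bound _ (by positivity) fun u => ?_
  have h3 : (H ∘L adj q ∘L (fderiv ℝ v (H y) - q) ∘L H) u =
      H (adj q ((fderiv ℝ v (H y) - q) (H u))) := rfl
  rw [h3]
  calc ‖H (adj q ((fderiv ℝ v (H y) - q) (H u)))‖ ≤ ‖adj q ((fderiv ℝ v (H y) - q) (H u))‖ :=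
        hR.le _
    _ ≤ ‖adj q‖ * ‖(fderiv ℝ v (H y) - q) (H u)‖ := ContinuousLinearMap.le_opNorm _ _
    _ ≤ ‖q‖ * (‖fderiv ℝ v (H y) - q‖ * ‖u‖) := by
        rw [LinearIsometryEquiv.norm_map]
        refine mul_le_mul_of_nonneg_left ?_ (norm_nonneg _)
        exact (ContinuousLinearMap.le_opNorm _ _).trans
          (mul_le_mul_of_nonneg_left (hR.le u) (norm_nonneg _))
    _ = _ := by ring

end Norm

end Crest.Agent.R234.Swb_159
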