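import Crest.Agent.R234.Gi4_456
import Crest.Agent.R234.Swb3_159

/-!
# Row 234, F6-BLOCK (helper159), part 4: one surface as a graph over two frames with the same base point

`M = graph w` over `(π, ρ)` = `graph w'` over `(rπ, rρ) = (H (π + qᵀ ρ), H' (ρ - q π))`:
`w' (H (X + qᵀ w X)) = H' (w X - q X)`.
-/

set_option autoImplicit false
set_option linter.unusedSectionVars false

open MeasureTheory Set Metric Filter Topology
open Crest.GeometryTopology.Submanifold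
open scoped ENNReal NNReal ContDiff RealInnerProductSpace

noncomputable section

namespace Crest.Agent.R234.Swb_159

open Crest.Agent.R234.Vf_884 (L)
open Crest.Agent.R234.Ell1_3 Crest.Agent.R234.Main_456 Crest.Agent.R234.Grot_842
open Crest.Agent.R234.Foot_842 (dchg dchg_apply fr_inner)
open Crest.Agent.R234.Gi_456 (Gr tube IsFoot foot yy Bt Lo Loi adj_Lo_Lo det_Lo det_Lo_pos Loi_spec
  Loi_Lo Lo_Loi norm_Lo_le le_norm_Lo giB jB muG ch)
open Crest.Agent.R234.GLK_128 (gg)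

local notation "adj" => ContinuousLinearMap.adjoint

variable {m n k : ℕ}

/-- base coordinate of the rotated frame -/
def psi (q : Euc m →L[ℝ] Euc n) (H : Euc m →L[ℝ] Euc m) (w : Euc m → Euc n) (X : Euc m) : Euc m :=
  H (X + adj q (w X))

/-- the same surface over two frames -/
structure Same (q : Euc m →L[ℝ] Euc n) (H : Euc m →L[ℝ] Euc m) (H' : Euc n →L[ℝ] Euc n)
    (w w' : Euc m → Euc n) (A : Set (Euc m)) : Prop where
  rt : Rt q H H'
  opn : IsOpen A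
  dw : Differentiable ℝ w
  dw' : Differentiable ℝ w'
  rel : ∀ X ∈ A, w' (psi q H w X) = H' (w X - q X)

variable {q : Euc m →L[ℝ] Euc n} {H : Euc m →L[ℝ] Euc m} {H' : Euc n →L[ℝ] Euc n}
  {w w' : Euc m → Euc n} {A : Set (Euc m)} {π : Euc k →L[ℝ] Euc m} {ρ : Euc k →L[ℝ] Euc n}
  {x : Euc k} {r r' : ℝ}

theorem hasFDerivAt_psi {X : Euc m} (hw : DifferentiableAt ℝ w X) :
    HasFDerivAt (psi q H w) (dchg q H (fderiv ℝ w X)) X :=
  H.hasFDerivAt.comp X ((hasFDerivAt_id X).add ((adj q).hasFDerivAt.comp X hw.hasFDerivAt))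

namespace Same

variable (h : Same q H H' w w' A)
include h

theorem hD {X : Euc m} (hX : X ∈ A) (y : Euc m) :
    fderiv ℝ w' (psi q H w X) (dchg q H (fderiv ℝ w X) y) = H' (fderiv ℝ w X y - q y) := by
  have h4 : HasFDerivAt (fun X => w' (psi q H w X)) ((fderiv ℝ w' (psi q H w X)) ∘L
      (dchg q H (fderiv ℝ w X))) X :=
    (h.dw' _).hasFDerivAt.comp X (hasFDerivAt_psi (h.dw X))
  have h5 : HasFDerivAt (fun X => H' (w X - q X)) (H' ∘L (fderiv ℝ w X - q)) X :=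
    H'.hasFDerivAt.comp X ((h.dw X).hasFDerivAt.sub q.hasFDerivAt)
  have h6 : HasFDerivAt (fun X => w' (psi q H w X)) (H' ∘L (fderiv ℝ w X - q)) X := by
    refine h5.congr_of_eventuallyEq ?_
    filter_upwards [h.opn.mem_nhds hX] with Y hY
    exact h.rel Y hY
  have h8 := congrArg (fun T : Euc m →L[ℝ] Euc n => T y) (h4.unique h6)
  simpa using h8

/-- normal vectors are normal in both frames -/
theorem normal (hf : Frame π ρ) {X : Euc m} (hX : X ∈ A) {ν : Euc k}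
    (hν : π ν + adj (fderiv ℝ w X) (ρ ν) = 0) :
    rπ π ρ q H ν + adj (fderiv ℝ w' (psi q H w X)) (rρ π ρ q H' ν) = 0 := by
  set D := fderiv ℝ w' (psi q H w X) with hD
  have hD2 : ∀ y, D (dchg q H (fderiv ℝ w X) y) = H' (fderiv ℝ w X y - q y) := h.hD hX
  have hsurj := Foot_842.dchg_surj h.rt (fderiv ℝ w X) D hD2
  refine ext_inner_right ℝ fun Y => ?_
  obtain ⟨y, rfl⟩ := hsurj Y
  rw [inner_zero_left, inner_add_left, ContinuousLinearMap.adjoint_inner_left, hD2]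
  set τ : Euc k := adj π y + adj ρ (fderiv ℝ w X y) with hτ
  have e3 : π τ = y := by rw [hτ, map_add, fr_ππ hf, fr_πρ hf, add_zero]
  have e4 : ρ τ = fderiv ℝ w X y := by rw [hτ, map_add, fr_ρπ hf, fr_ρρ hf, zero_add]
  have e1 : dchg q H (fderiv ℝ w X) y = rπ π ρ q H τ := by
    rw [rπ_apply, e3, e4, dchg_apply]
  have e2 : H' (fderiv ℝ w X y - q y) = rρ π ρ q H' τ := by
    rw [rρ_apply, e3, e4]
  rw [e1, e2, fr_inner (frame_rot hf h.rt), ← fr_inner hf]
  rw [e3, e4]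
  have h5 := congrArg (fun w => ⟪w, y⟫) hν
  simpa [inner_add_left, ContinuousLinearMap.adjoint_inner_left] using h5

end Same

/-- the point of the graph over `X` -/
def pnt (π : Euc k →L[ℝ] Euc m) (ρ : Euc k →L[ℝ] Euc n) (x : Euc k) (w : Euc m → Euc n)
    (X : Euc m) : Euc k := x + adj π X + adj ρ (w X)

theorem Same.pnt (h : Same q H H' w w' A) (hf : Frame π ρ) {X : Euc m} (hX : X ∈ A) :
    pnt (rπ π ρ q H) (rρ π ρ q H') x w' (psi q H w X) = pnt π ρ x w X := by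
  have h1 := fr_full (frame_rot hf h.rt) (adj π X + adj ρ (w X))
  have e1 : rπ π ρ q H (adj π X + adj ρ (w X)) = psi q H w X := by
    rw [rπ_apply]
    simp only [map_add, fr_ππ hf, fr_πρ hf, fr_ρρ hf, fr_ρπ hf, psi]
    simp
  have e2 : rρ π ρ q H' (adj π X + adj ρ (w X)) = w' (psi q H w X) := by
    rw [rρ_apply, h.rel X hX]
    simp only [map_add, fr_ππ hf, fr_πρ hf, fr_ρρ hf, fr_ρπ hf]
    simp
  rw [e1, e2] at h1
  unfold Swb_159.pnt
  rw [add_assoc, h1, add_assoc]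

/-- the vector from the foot point -/
theorem isFoot_iff (hf : Frame π ρ) {z : Euc k} {X : Euc m} : IsFoot π ρ x r w z X ↔
    (π (z - pnt π ρ x w X) + adj (fderiv ℝ w X) (ρ (z - pnt π ρ x w X)) = 0 ∧
      ‖ρ (z - pnt π ρ x w X)‖ ≤ 2 * r) := by
  have e1 : π (z - pnt π ρ x w X) = π (z - x) - X := by
    unfold pnt
    simp only [map_sub, map_add, fr_ππ hf, fr_πρ hf]; abel
  have e2 : ρ (z - pnt π ρ x w X) = ρ (z - x) - w X := by
    unfold pnt
    simp only [map_sub, map_add, fr_ρρ hf, fr_ρπ hf]; abel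
  rw [e1, e2]
  constructor
  · rintro ⟨h1, h2⟩
    refine ⟨?_, h2⟩
    have h3 : adj (fderiv ℝ w X) (ρ (z - x) - w X) = X - π (z - x) :=
      eq_sub_of_add_eq' h1.symm
    rw [h3]; abel
  · rintro ⟨h1, h2⟩
    refine ⟨?_, h2⟩
    have h3 : adj (fderiv ℝ w X) (ρ (z - x) - w X) = X - π (z - x) := by
      have := eq_neg_of_add_eq_zero_right h1
      rw [this]; abel
    rw [h3]; abel

/-- **the foot point in the rotated frame** -/
theorem Same.isFoot (h : Same q H H' w w' A) (hf : Frame π ρ) {z : Euc k} {X : Euc m} (hX : X ∈ A)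
    (hz : IsFoot π ρ x r w z X) (hr' : ‖z - Swb_159.pnt π ρ x w X‖ ≤ 2 * r') :
    IsFoot (rπ π ρ q H) (rρ π ρ q H') x r' w' z (psi q H w X) := by
  rw [isFoot_iff (frame_rot hf h.rt), h.pnt hf hX]
  exact ⟨h.normal hf hX ((isFoot_iff hf).1 hz).1,
    (fr_norm_ρ (frame_rot hf h.rt) _).trans hr'⟩

theorem nu_of_isFoot (hf : Frame π ρ) {z : Euc k} {X : Euc m} (hz : IsFoot π ρ x r w z X) :
    Bt π ρ w X (ρ (z - x) - w X) = z - pnt π ρ x w X := by
  have h3 : adj (fderiv ℝ w X) (ρ (z - x) - w X) = X - π (z - x) :=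
    eq_sub_of_add_eq' hz.1.symm
  have h4 := fr_full hf (z - x)
  have e : Bt π ρ w X (ρ (z - x) - w X) = adj ρ (ρ (z - x) - w X) -
      adj π (adj (fderiv ℝ w X) (ρ (z - x) - w X)) := rfl
  rw [e, h3]
  simp only [map_sub] at h4 ⊢
  have h5 : z - pnt π ρ x w X = (z - x) - adj π X - adj ρ (w X) := by
    unfold pnt; abel
  rw [h5, ← h4]
  abel

/-! ### isometries -/

/-- `Lo q ∘ H₀` is an isometry if `H₀ = (1 + qᵀ q)^(-1/2)` -/
theorem exists_iso (q0 : Euc m →L[ℝ] Euc n) : ∃ (U : Euc m ≃ₗᵢ[ℝ] Euc m) (H0 H0i : L m),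
    (∀ v, U v = Lo q0 (H0 v)) ∧ (∀ v, H0 (H0i v) = v) ∧ (∀ v, H0i (H0 v) = v) ∧
    ‖H0‖ ≤ 1 ∧ ‖H0 - ContinuousLinearMap.id ℝ (Euc m)‖ ≤ ‖q0‖ ^ 2 ∧
    ‖H0i - ContinuousLinearMap.id ℝ (Euc m)‖ ≤ 2 * ‖q0‖ ^ 2 := by
  obtain ⟨H0, H0', hR⟩ := exists_Rt q0
  have hn : ∀ v, ‖Lo q0 (H0 v)‖ = ‖v‖ := by
    intro v
    have h1 : ‖Lo q0 (H0 v)‖ ^ 2 = ‖v‖ ^ 2 := by
      rw [Gi_456.norm_Lo_sq]
      have h2 : ⟪H0 v, gop q0 (H0 v)⟫ = ‖H0 v‖ ^ 2 + ‖q0 (H0 v)‖ ^ 2 := by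
        rw [gop_inner, real_inner_self_eq_norm_sq, real_inner_self_eq_norm_sq]
      rw [← h2, ← real_inner_self_eq_norm_sq, hR.sym, hR.inv]
    exact (sq_eq_sq₀ (norm_nonneg _) (norm_nonneg _)).1 h1
  let T : Euc m →ₗᵢ[ℝ] Euc m :=
    { toLinearMap := ((Lo q0 ∘L H0 : L m) : Euc m →ₗ[ℝ] Euc m), norm_map' := hn }
  refine ⟨T.toLinearIsometryEquiv rfl, H0, H0 ∘L gop q0, fun v => rfl, fun v => hR.sq_gop v,
    fun v => hR.inv v, hR.norm_le, ?_, ?_⟩
  · exact hR.norm_sub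
  · have h0 : ‖H0‖ ≤ 1 := hR.norm_le
    have e : H0 ∘L gop q0 - ContinuousLinearMap.id ℝ (Euc m) =
        (H0 - 1) + H0 ∘L (adj q0 ∘L q0) := by
      rw [gop, ContinuousLinearMap.comp_add, ContinuousLinearMap.comp_id]
      show _ = H0 - ContinuousLinearMap.id ℝ (Euc m) + _
      abel
    rw [e]
    refine (norm_add_le _ _).trans ?_
    have t1 : ‖H0 ∘L (adj q0 ∘L q0)‖ ≤ 1 * (‖q0‖ * ‖q0‖) := by
      refine (ContinuousLinearMap.opNorm_comp_le _ _).trans
        (mul_le_mul h0 ?_ (norm_nonneg _) zero_le_one)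
      refine (ContinuousLinearMap.opNorm_comp_le _ _).trans ?_
      rw [LinearIsometryEquiv.norm_map]
    have t2 := hR.norm_sub
    nlinarith

theorem abs_det_iso (U : Euc m ≃ₗᵢ[ℝ] Euc m) :
    |((U.toContinuousLinearEquiv : Euc m ≃L[ℝ] Euc m) : L m).det| = 1 := by
  set T : L m := ((U.toContinuousLinearEquiv : Euc m ≃L[ℝ] Euc m) : L m) with hT
  have h1 : adj T ∘L T = ContinuousLinearMap.id ℝ (Euc m) := by
    refine ContinuousLinearMap.ext fun u => ext_inner_left ℝ fun v => ?_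
    rw [ContinuousLinearMap.comp_apply, ContinuousLinearMap.adjoint_inner_right]
    show ⟪U v, U u⟫ = ⟪v, u⟫
    exact U.inner_map_map v u
  have h2 : (adj T ∘L T).det = (adj T).det * T.det := by
    simp only [ContinuousLinearMap.det, ContinuousLinearMap.toLinearMap_comp]
    exact LinearMap.det_comp _ _
  rw [det_adj'] at h2
  rw [h1] at h2
  have h3 : (ContinuousLinearMap.id ℝ (Euc m)).det = 1 := by
    simp [ContinuousLinearMap.det]
  rw [h3] at h2
  have h4 : |T.det| * |T.det| = 1 := by rw [← abs_mul, ← h2, abs_one]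
  nlinarith [abs_nonneg T.det]

end Crest.Agent.R234.Swb_159
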