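import Crest.Agent.R234.Swb4_159
import Crest.Agent.R234.Sw3_733

/-!
# Row 234, F6-BLOCK (helper159), part 5: the normalised charts of `Gi_456` of one surface in two frames
-/

set_option autoImplicit false
set_option linter.unusedSectionVars false

open MeasureTheory Set Metric Filter Topology
open Crest.GeometryTopology.Submanifold
open scoped ENNReal NNReal ContDiff RealInnerProductSpace

noncomputable section

namespace Crest.Agent.R234.Swb_159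

open Crest.Agent.R234.Vf_884 (L)
open Crest.Agent.R234.Ell1_3 Crest.Agent.R234.Main_456 Crest.Agent.R234.Grot_842
open Crest.Agent.R234.Foot_842 (dchg dchg_apply fr_inner)
open Crest.Agent.R234.Gi_456 (Gr tube IsFoot foot yy Bt Lo Loi adj_Lo_Lo det_Lo det_Lo_pos Loi_spec
  Loi_Lo Lo_Loi norm_Lo_le le_norm_Lo giB jB muG ch)

local notation "adj" => ContinuousLinearMap.adjoint

variable {m n k : ℕ}

theorem det_comp' (A B : L m) : (A ∘L B).det = A.det * B.det := by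
  simp only [ContinuousLinearMap.det, ContinuousLinearMap.toLinearMap_comp]
  exact LinearMap.det_comp _ _

theorem norm_Lo_op {q : Euc m →L[ℝ] Euc n} (hq : ‖q‖ ≤ 1 / 8) : ‖Lo q‖ ≤ 65 / 64 :=
  ContinuousLinearMap.opNorm_le_bound _ (by norm_num) fun v => norm_Lo_le hq v

/-- the linear data of the change of normalised coordinates -/
structure Lin (q0 q2 : Euc m →L[ℝ] Euc n) (O : Euc m ≃ₗᵢ[ℝ] Euc m) (B : L m) : Prop where
  O_B : ∀ v, O (B v) = Lo q2 v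
  B_sub : ‖B ∘L Loi q0 - ContinuousLinearMap.id ℝ (Euc m)‖ ≤ 2 * ‖q0‖ ^ 2 + 4 * ‖q2‖ ^ 2
  B_le : ∀ v, ‖B v‖ = ‖Lo q2 v‖
  B_near : ∀ K : L m, ‖B ∘L K ∘L Loi q0 - ContinuousLinearMap.id ℝ (Euc m)‖ ≤
    2 * ‖q0‖ ^ 2 + 4 * ‖q2‖ ^ 2 + 2 * ‖K - ContinuousLinearMap.id ℝ (Euc m)‖

theorem exists_Lin {q0 q2 : Euc m →L[ℝ] Euc n} (h0 : ‖q0‖ ≤ 1 / 8) (h2 : ‖q2‖ ≤ 1 / 8) :
    ∃ (O : Euc m ≃ₗᵢ[ℝ] Euc m) (B : L m), Lin q0 q2 O B := by
  obtain ⟨U0, H0, H0i, a1, a2, a3, a4, a5, a6⟩ := exists_iso q0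
  obtain ⟨U2, H2, H2i, b1, b2, b3, b4, b5, b6⟩ := exists_iso q2
  have hLo0 : ‖Lo q0‖ ≤ 65 / 64 := norm_Lo_op h0
  have hLoi : ‖Loi q0‖ ≤ 1 := (Loi_spec q0).2.2
  have hI : ‖ContinuousLinearMap.id ℝ (Euc m)‖ ≤ 1 := ContinuousLinearMap.norm_id_le
  have hH2i : ‖H2i‖ ≤ 33 / 32 := by
    have e : H2i = (H2i - ContinuousLinearMap.id ℝ (Euc m)) +
      ContinuousLinearMap.id ℝ (Euc m) := by abel
    rw [e]
    refine (norm_add_le _ _).trans ?_
    nlinarith [norm_nonneg q2]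
  have hBn : ∀ K : L m, ‖(Lo q0 ∘L H0 ∘L H2i) ∘L K ∘L Loi q0 -
      ContinuousLinearMap.id ℝ (Euc m)‖ ≤
      2 * ‖q0‖ ^ 2 + 4 * ‖q2‖ ^ 2 + 2 * ‖K - ContinuousLinearMap.id ℝ (Euc m)‖ := by
    intro K
    set I := ContinuousLinearMap.id ℝ (Euc m) with hIdef
    have e : (Lo q0 ∘L H0 ∘L H2i) ∘L K ∘L Loi q0 - I =
        Lo q0 ∘L (H0 ∘L H2i ∘L (K - I) + (H0 ∘L (H2i - I) + (H0 - I))) ∘L Loi q0 := by
      refine ContinuousLinearMap.ext fun v => ?_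
      have h9 : v = Lo q0 (Loi q0 v) := (Lo_Loi q0 v).symm
      simp only [_root_.sub_apply, _root_.add_apply, ContinuousLinearMap.comp_apply, hIdef,
        ContinuousLinearMap.id_apply, map_sub, map_add]
      have h10 : Lo q0 (Loi q0 v) = v := Lo_Loi q0 v
      rw [h10]
      abel
    rw [e]
    have t1 : ‖H0 ∘L H2i ∘L (K - I)‖ ≤ 33 / 32 * ‖K - I‖ := by
      refine (ContinuousLinearMap.opNorm_comp_le _ _).trans ?_
      calc ‖H0‖ * ‖H2i ∘L (K - I)‖ ≤ 1 * (33 / 32 * ‖K - I‖) :=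
            mul_le_mul a4 ((ContinuousLinearMap.opNorm_comp_le _ _).trans
              (mul_le_mul_of_nonneg_right hH2i (norm_nonneg _))) (norm_nonneg _) zero_le_one
        _ = _ := one_mul _
    have t2 : ‖H0 ∘L (H2i - I)‖ ≤ 2 * ‖q2‖ ^ 2 := by
      refine (ContinuousLinearMap.opNorm_comp_le _ _).trans ?_
      calc ‖H0‖ * ‖H2i - I‖ ≤ 1 * (2 * ‖q2‖ ^ 2) :=
            mul_le_mul a4 b6 (norm_nonneg _) zero_le_one
        _ = _ := one_mul _
    have t3 : ‖H0 ∘L H2i ∘L (K - I) + (H0 ∘L (H2i - I) + (H0 - I))‖ ≤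
        33 / 32 * ‖K - I‖ + (2 * ‖q2‖ ^ 2 + ‖q0‖ ^ 2) :=
      (norm_add_le _ _).trans (add_le_add t1 ((norm_add_le _ _).trans (add_le_add t2 a5)))
    have t4 : ‖Lo q0 ∘L (H0 ∘L H2i ∘L (K - I) + (H0 ∘L (H2i - I) + (H0 - I))) ∘L Loi q0‖ ≤
        65 / 64 * ((33 / 32 * ‖K - I‖ + (2 * ‖q2‖ ^ 2 + ‖q0‖ ^ 2)) * 1) := by
      refine (ContinuousLinearMap.opNorm_comp_le _ _).trans
        (mul_le_mul hLo0 ?_ (norm_nonneg _) (by norm_num))
      exact (ContinuousLinearMap.opNorm_comp_le _ _).trans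
        (mul_le_mul t3 hLoi (norm_nonneg _) (by positivity))
    refine t4.trans ?_
    nlinarith [norm_nonneg (K - I), sq_nonneg ‖q0‖, sq_nonneg ‖q2‖]
  refine ⟨U0.symm.trans U2, Lo q0 ∘L H0 ∘L H2i, ?_, ?_, ?_, hBn⟩
  · intro v
    have e1 : (Lo q0 ∘L H0 ∘L H2i) v = U0 (H2i v) := (a1 (H2i v)).symm
    rw [e1]
    show U2 (U0.symm (U0 (H2i v))) = _
    rw [U0.symm_apply_apply, b1, b2]
  · have h3 := hBn (ContinuousLinearMap.id ℝ (Euc m))
    rw [sub_self, norm_zero, mul_zero, add_zero, ContinuousLinearMap.id_comp] at h3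
    exact h3
  · intro v
    have e1 : (Lo q0 ∘L H0 ∘L H2i) v = U0 (H2i v) := (a1 (H2i v)).symm
    rw [e1, LinearIsometryEquiv.norm_map, ← b2 v, ← b1, LinearIsometryEquiv.norm_map, b3]

theorem Lin.abs_det {q0 q2 : Euc m →L[ℝ] Euc n} {O : Euc m ≃ₗᵢ[ℝ] Euc m} {B : L m}
    (h : Lin q0 q2 O B) : |B.det| = (Lo q2).det := by
  have h1 : ((O.toContinuousLinearEquiv : Euc m ≃L[ℝ] Euc m) : L m) ∘L B = Lo q2 :=
    ContinuousLinearMap.ext fun v => h.O_B v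
  have h2 := det_comp' ((O.toContinuousLinearEquiv : Euc m ≃L[ℝ] Euc m) : L m) B
  rw [h1] at h2
  have h3 := congrArg abs h2
  rw [abs_mul, abs_det_iso, one_mul, abs_of_pos (det_Lo_pos q2)] at h3
  exact h3.symm

theorem det_Loi (q : Euc m →L[ℝ] Euc n) : (Loi q).det = (Lo q).det⁻¹ := by
  have h1 := det_comp' (Loi q) (Lo q)
  rw [(Loi_spec q).1] at h1
  have h2 : (ContinuousLinearMap.id ℝ (Euc m)).det = 1 := by simp [ContinuousLinearMap.det]
  rw [h2] at h1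
  exact eq_inv_of_mul_eq_one_left h1.symm

/-! ### the change of normalised coordinates -/

/-- `θ` -/
def thn (q : Euc m →L[ℝ] Euc n) (H : Euc m →L[ℝ] Euc m) (w : Euc m → Euc n) (X0 X0' : Euc m)
    (B : L m) (y : Euc m) : Euc m := B (psi q H w (Gi_456.pt w X0 y) - X0')

def dthn (q : Euc m →L[ℝ] Euc n) (H : Euc m →L[ℝ] Euc m) (w : Euc m → Euc n) (X0 : Euc m)
    (B : L m) (y : Euc m) : L m :=
  B ∘L dchg q H (fderiv ℝ w (Gi_456.pt w X0 y)) ∘L Loi (fderiv ℝ w X0)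

variable {q : Euc m →L[ℝ] Euc n} {H : Euc m →L[ℝ] Euc m} {H' : Euc n →L[ℝ] Euc n}
  {w w' : Euc m → Euc n} {A : Set (Euc m)} {π : Euc k →L[ℝ] Euc m} {ρ : Euc k →L[ℝ] Euc n}
  {x : Euc k} {r r' : ℝ} {X0 X0' : Euc m} {O : Euc m ≃ₗᵢ[ℝ] Euc m} {B : L m}

theorem hasFDerivAt_thn (hw : Differentiable ℝ w) (y : Euc m) :
    HasFDerivAt (thn q H w X0 X0' B) (dthn q H w X0 B y) y := by
  have h1 : HasFDerivAt (Gi_456.pt w X0) (Loi (fderiv ℝ w X0)) y :=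
    (Loi (fderiv ℝ w X0)).hasFDerivAt.const_add X0
  exact B.hasFDerivAt.comp y (((hasFDerivAt_psi (hw _)).comp y h1).sub_const X0')

theorem norm_dchg_sub (hR : Rt q H H') (hq : ‖q‖ ≤ 1 / 8) {p : Euc m →L[ℝ] Euc n}
    (hp : ‖p‖ ≤ 1 / 8) : ‖dchg q H p - ContinuousLinearMap.id ℝ (Euc m)‖ ≤
      2 * ‖q‖ ^ 2 + 2 * (‖q‖ * ‖p‖) := by
  set I := ContinuousLinearMap.id ℝ (Euc m) with hI
  have e : dchg q H p - I = (H - 1) ∘L (I + adj q ∘L p) + adj q ∘L p := by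
    show H ∘L (I + adj q ∘L p) - I = (H - I) ∘L (I + adj q ∘L p) + adj q ∘L p
    rw [ContinuousLinearMap.sub_comp, hI, ContinuousLinearMap.id_comp]
    abel
  rw [e]
  have t1 : ‖adj q ∘L p‖ ≤ ‖q‖ * ‖p‖ := by
    refine (ContinuousLinearMap.opNorm_comp_le _ _).trans ?_
    rw [LinearIsometryEquiv.norm_map]
  have t2 : ‖I + adj q ∘L p‖ ≤ 2 := by
    have h1 : ‖I‖ ≤ 1 := ContinuousLinearMap.norm_id_le
    have h2 : ‖q‖ * ‖p‖ ≤ 1 / 8 * (1 / 8) := mul_le_mul hq hp (norm_nonneg _) (by norm_num)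
    exact (norm_add_le _ _).trans (by linarith)
  have t3 : ‖(H - 1) ∘L (I + adj q ∘L p)‖ ≤ ‖q‖ ^ 2 * 2 :=
    (ContinuousLinearMap.opNorm_comp_le _ _).trans
      (mul_le_mul hR.norm_sub t2 (norm_nonneg _) (by positivity))
  refine (norm_add_le _ _).trans ?_
  have := mul_nonneg (norm_nonneg q) (norm_nonneg p)
  linarith

/-- size of `dθ - 1` -/
theorem norm_dthn_sub (hL : Lin (fderiv ℝ w X0) (fderiv ℝ w' X0') O B) (hR : Rt q H H')
    (hq : ‖q‖ ≤ 1 / 8) (hw : ∀ X, ‖fderiv ℝ w X‖ ≤ 1 / 8) {σ : ℝ}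
    (hσ : 2 * ‖fderiv ℝ w X0‖ ^ 2 + 4 * ‖fderiv ℝ w' X0'‖ ^ 2 + 5 * ‖q‖ ≤ σ) (y : Euc m) :
    ‖dthn q H w X0 B y - ContinuousLinearMap.id ℝ (Euc m)‖ ≤ σ := by
  have h1 := hL.B_near (dchg q H (fderiv ℝ w (Gi_456.pt w X0 y)))
  have h2 := norm_dchg_sub hR hq (hw (Gi_456.pt w X0 y))
  refine h1.trans (le_trans ?_ hσ)
  have h3 : ‖q‖ ^ 2 ≤ ‖q‖ * (1 / 8) := by
    rw [sq]; exact mul_le_mul_of_nonneg_left hq (norm_nonneg _)
  have h4 : ‖q‖ * ‖fderiv ℝ w (Gi_456.pt w X0 y)‖ ≤ ‖q‖ * (1 / 8) :=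
    mul_le_mul_of_nonneg_left (hw _) (norm_nonneg _)
  have := norm_nonneg q
  linarith

theorem norm_thn_zero (hL : Lin (fderiv ℝ w X0) (fderiv ℝ w' X0') O B)
    (hw' : ‖fderiv ℝ w' X0'‖ ≤ 1 / 8) :
    ‖thn q H w X0 X0' B 0‖ ≤ 65 / 64 * ‖psi q H w X0 - X0'‖ := by
  unfold thn
  rw [Gi_456.pt_zero, hL.B_le]
  exact norm_Lo_le hw' _

theorem pt_thn (hL : Lin (fderiv ℝ w X0) (fderiv ℝ w' X0') O B) (y : Euc m) :
    Gi_456.pt w' X0' (O (thn q H w X0 X0' B y)) = psi q H w (Gi_456.pt w X0 y) := by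
  unfold thn
  rw [hL.O_B]
  show X0' + Loi (fderiv ℝ w' X0') (Lo (fderiv ℝ w' X0') _) = _
  rw [Loi_Lo]; abel

/-- **the densities** -/
theorem jB_thn (h : Same q H H' w w' A) (hL : Lin (fderiv ℝ w X0) (fderiv ℝ w' X0') O B)
    {y : Euc m} (hy : Gi_456.pt w X0 y ∈ A) :
    jB w X0 y = jB w' X0' (O (thn q H w X0 X0' B y)) * |(dthn q H w X0 B y).det| := by
  have h1 := dns_dchg h.rt (h.hD hy)
  have h2 : (dthn q H w X0 B y).det = B.det *
      ((dchg q H (fderiv ℝ w (Gi_456.pt w X0 y))).det * (Loi (fderiv ℝ w X0)).det) := by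
    unfold dthn
    rw [det_comp', det_comp']
  have p0 := det_Lo_pos (fderiv ℝ w X0)
  have p2 := det_Lo_pos (fderiv ℝ w' X0')
  rw [jB, jB, pt_thn hL, h1, h2, abs_mul, abs_mul, hL.abs_det, det_Loi, abs_inv, abs_of_pos p0]
  field_simp

/-- **the inverse metrics** -/
theorem giB_thn (h : Same q H H' w w' A) (hL : Lin (fderiv ℝ w X0) (fderiv ℝ w' X0') O B)
    {y : Euc m} (hy : Gi_456.pt w X0 y ∈ A) (u : Euc m) :
    ⟪O u, giB w' X0' (O (thn q H w X0 X0' B y)) (O u)⟫ =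
      ⟪u, (dthn q H w X0 B y ∘L giB w X0 y ∘L adj (dthn q H w X0 B y)) u⟫ := by
  set p := fderiv ℝ w (Gi_456.pt w X0 y) with hp
  set D := fderiv ℝ w' (psi q H w (Gi_456.pt w X0 y)) with hD
  have h1 : ginv D = dchg q H p ∘L ginv p ∘L adj (dchg q H p) := ginv_dchg h.rt (h.hD hy)
  set L2 := Lo (fderiv ℝ w' X0') with hL2
  set L0 := Lo (fderiv ℝ w X0) with hL0
  have e1 : giB w' X0' (O (thn q H w X0 X0' B y)) = L2 ∘L ginv D ∘L adj L2 := by
    rw [giB, pt_thn hL]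
  have e2 : giB w X0 y = L0 ∘L ginv p ∘L adj L0 := rfl
  have e3 : adj L2 (O u) = adj B u := by
    refine ext_inner_right ℝ fun v => ?_
    rw [ContinuousLinearMap.adjoint_inner_left, ContinuousLinearMap.adjoint_inner_left, hL2,
      ← hL.O_B, LinearIsometryEquiv.inner_map_map]
  have e4 : ⟪O u, (L2 ∘L ginv D ∘L adj L2) (O u)⟫ = ⟪adj B u, ginv D (adj B u)⟫ := by
    show ⟪O u, L2 (ginv D (adj L2 (O u)))⟫ = _
    rw [← ContinuousLinearMap.adjoint_inner_left, e3]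
  have e5 : adj L0 (adj (dthn q H w X0 B y) u) = adj (dchg q H p) (adj B u) := by
    have e6 : dthn q H w X0 B y ∘L L0 = B ∘L dchg q H p := by
      refine ContinuousLinearMap.ext fun v => ?_
      show B (dchg q H p (Loi (fderiv ℝ w X0) (Lo (fderiv ℝ w X0) v))) = _
      rw [Loi_Lo]; rfl
    have e7 := congrArg (fun T : L m => adj T u) e6
    simp only [ContinuousLinearMap.adjoint_comp] at e7
    exact e7
  have e8 : ⟪u, (dthn q H w X0 B y ∘L (L0 ∘L ginv p ∘L adj L0) ∘L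
      adj (dthn q H w X0 B y)) u⟫ = ⟪adj (dchg q H p) (adj B u),
        ginv p (adj (dchg q H p) (adj B u))⟫ := by
    show ⟪u, dthn q H w X0 B y (L0 (ginv p (adj L0 (adj (dthn q H w X0 B y) u))))⟫ = _
    rw [← ContinuousLinearMap.adjoint_inner_left, ← ContinuousLinearMap.adjoint_inner_left, e5]
  rw [e1, e2, e4, e8, h1]
  show ⟪adj B u, dchg q H p (ginv p (adj (dchg q H p) (adj B u)))⟫ = _
  rw [← ContinuousLinearMap.adjoint_inner_left]

/-- `|giB y - 1| ≤ |y| / (30 r)` -/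
theorem norm_giB_sub (h : Gr r w) (X0 y : Euc m) :
    ‖giB w X0 y - ContinuousLinearMap.id ℝ (Euc m)‖ ≤ 1 / (30 * r) * ‖y‖ := by
  have hr := h.pos
  set q0 := fderiv ℝ w X0 with hq0
  set p := fderiv ℝ w (Gi_456.pt w X0 y) with hp
  have h0 : ‖q0‖ ≤ 1 / 8 := h.d1 X0
  have h1 : ‖p‖ ≤ 1 / 8 := h.d1 _
  have h2 : ‖p - q0‖ ≤ 1 / (8 * r) * ‖y‖ := by
    have h3 := h.lip' (Gi_456.pt w X0 y) X0
    refine h3.trans (mul_le_mul_of_nonneg_left ?_ (by positivity))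
    have e : Gi_456.pt w X0 y - X0 = Loi (fderiv ℝ w X0) y := by
      show X0 + _ - X0 = _; abel
    rw [e]
    refine (ContinuousLinearMap.le_opNorm _ _).trans ?_
    exact mul_le_of_le_one_left (norm_nonneg _) (Loi_spec _).2.2
  have h4 : ‖ginv p - ginv q0‖ ≤ 1 / 4 * ‖p - q0‖ := by
    have e : ginv p - ginv q0 = ginv p ∘L (gop q0 - gop p) ∘L ginv q0 := by
      have e1 : ginv p ∘L (gop q0 - gop p) ∘L ginv q0 =
          ginv p ∘L (gop q0 ∘L ginv q0) - (ginv p ∘L gop p) ∘L ginv q0 := by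
        rw [ContinuousLinearMap.sub_comp, ContinuousLinearMap.comp_sub]; rfl
      rw [e1, gop_ginv, ginv_gop, ContinuousLinearMap.comp_id, ContinuousLinearMap.id_comp]
    have e2 : gop q0 - gop p = -(adj p ∘L (p - q0)) - adj (p - q0) ∘L q0 := by
      rw [gop, gop, map_sub, ContinuousLinearMap.comp_sub, ContinuousLinearMap.sub_comp]
      abel
    have e3 : ‖gop q0 - gop p‖ ≤ 1 / 4 * ‖p - q0‖ := by
      rw [e2]
      refine (norm_sub_le _ _).trans ?_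
      rw [norm_neg]
      have t1 : ‖adj p ∘L (p - q0)‖ ≤ 1 / 8 * ‖p - q0‖ := by
        refine (ContinuousLinearMap.opNorm_comp_le _ _).trans ?_
        rw [LinearIsometryEquiv.norm_map]
        exact mul_le_mul_of_nonneg_right h1 (norm_nonneg _)
      have t2 : ‖adj (p - q0) ∘L q0‖ ≤ ‖p - q0‖ * (1 / 8) := by
        refine (ContinuousLinearMap.opNorm_comp_le _ _).trans ?_
        rw [LinearIsometryEquiv.norm_map]
        exact mul_le_mul_of_nonneg_left h0 (norm_nonneg _)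
      linarith
    have n1 := Sw_733.norm_ginv_le p
    have n2 := Sw_733.norm_ginv_le q0
    rw [e]
    calc ‖ginv p ∘L (gop q0 - gop p) ∘L ginv q0‖ ≤ ‖ginv p‖ * (‖gop q0 - gop p‖ * ‖ginv q0‖) :=
          (ContinuousLinearMap.opNorm_comp_le _ _).trans (mul_le_mul_of_nonneg_left
            (ContinuousLinearMap.opNorm_comp_le _ _) (norm_nonneg _))
      _ ≤ 1 * ((1 / 4 * ‖p - q0‖) * 1) :=
          mul_le_mul n1 (mul_le_mul e3 n2 (norm_nonneg _) (by positivity)) (by positivity)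
            zero_le_one
      _ = _ := by ring
  have h5 : giB w X0 y - ContinuousLinearMap.id ℝ (Euc m) =
      Lo q0 ∘L (ginv p - ginv q0) ∘L adj (Lo q0) := by
    have e := Gi_456.giB_zero w X0
    have e1 : giB w X0 0 = Lo q0 ∘L ginv q0 ∘L adj (Lo q0) := by
      rw [giB, Gi_456.pt_zero]
    rw [← e, e1, ContinuousLinearMap.sub_comp, ContinuousLinearMap.comp_sub]
    rfl
  rw [h5]
  have hLo := norm_Lo_op h0
  calc ‖Lo q0 ∘L (ginv p - ginv q0) ∘L adj (Lo q0)‖ ≤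
      ‖Lo q0‖ * (‖ginv p - ginv q0‖ * ‖adj (Lo q0)‖) :=
        (ContinuousLinearMap.opNorm_comp_le _ _).trans (mul_le_mul_of_nonneg_left
          (ContinuousLinearMap.opNorm_comp_le _ _) (norm_nonneg _))
    _ ≤ 65 / 64 * ((1 / 4 * (1 / (8 * r) * ‖y‖)) * (65 / 64)) := by
        rw [LinearIsometryEquiv.norm_map]
        refine mul_le_mul hLo (mul_le_mul (h4.trans (mul_le_mul_of_nonneg_left h2 (by norm_num)))
          hLo (norm_nonneg _) (by positivity)) (by positivity) (by norm_num)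
    _ ≤ 1 / (30 * r) * ‖y‖ := by
        have e1 : 65 / 64 * ((1 / 4 * (1 / (8 * r) * ‖y‖)) * (65 / 64)) =
          (65 / 64 * (65 / 64) / 32) * (‖y‖ / r) := by field_simp; ring
        have e2 : 1 / (30 * r) * ‖y‖ = (1 / 30) * (‖y‖ / r) := by field_simp
        rw [e1, e2]
        exact mul_le_mul_of_nonneg_right (by norm_num) (by positivity)

end Crest.Agent.R234.Swb_159
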