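import Crest.Agent.R234.Swb5_159

/-!
# Row 234, F6-BLOCK (helper159), part 6: `EE` and `II` of one surface in two frames

The charts are `ch π ρ x r w X0` and `ch rπ rρ x r' w' X0'` of `Gi_456`; final theorems `block_EE`,
`block_II`.
-/

set_option autoImplicit false
set_option linter.unusedSectionVars false

open MeasureTheory Set Metric Filter Topology
open Crest.GeometryTopology.Submanifold
open scoped ENNReal NNReal ContDiff RealInnerProductSpace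

noncomputable section

namespace Crest.Agent.R234.Swb_159

open Crest.Agent.R234.Vf_884 (L G)
open Crest.Agent.R234.Cy_870 (Ker)
open Crest.Agent.R234.Ell1_3 Crest.Agent.R234.Main_456 Crest.Agent.R234.Grot_842
open Crest.Agent.R234.GL_394 (Ch Ok On)
open Crest.Agent.R234.Gi_456 (Gr tube IsFoot foot yy Bt Lo Loi ch)

variable {m n k : ℕ} {q : Euc m →L[ℝ] Euc n} {H : Euc m →L[ℝ] Euc m} {H' : Euc n →L[ℝ] Euc n}
  {w w' : Euc m → Euc n} {A : Set (Euc m)} {π : Euc k →L[ℝ] Euc m} {ρ : Euc k →L[ℝ] Euc n}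
  {x : Euc k} {r r' : ℝ} {X0 X0' : Euc m} {O : Euc m ≃ₗᵢ[ℝ] Euc m} {B : L m}

/-- the hypotheses: one surface, two frames with the same base point -/
structure Two (π : Euc k →L[ℝ] Euc m) (ρ : Euc k →L[ℝ] Euc n) (x : Euc k) (q : Euc m →L[ℝ] Euc n)
    (H : Euc m →L[ℝ] Euc m) (H' : Euc n →L[ℝ] Euc n) (r r' : ℝ) (w w' : Euc m → Euc n)
    (X0 X0' : Euc m) (A : Set (Euc m)) (R σ : ℝ) : Prop where
  fr : Frame π ρ
  gr : Gr r w
  gr' : Gr r' w'
  same : Same q H H' w w' A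
  hq : ‖q‖ ≤ 1 / 8
  R0 : 0 < R
  ball : closedBall X0 R ⊆ A
  s1 : σ ≤ 1 / 4
  hσ : 2 * ‖fderiv ℝ w X0‖ ^ 2 + 4 * ‖fderiv ℝ w' X0'‖ ^ 2 + 5 * ‖q‖ ≤ σ
  Rr : R ≤ 15 * r

/-- the measure sits near the surface -/
def Near (π : Euc k →L[ℝ] Euc m) (ρ : Euc k →L[ℝ] Euc n) (x : Euc k) (q : Euc m →L[ℝ] Euc n)
    (H : Euc m →L[ℝ] Euc m) (H' : Euc n →L[ℝ] Euc n) (r r' : ℝ) (w w' : Euc m → Euc n)
    (X0 X0' : Euc m) (R : ℝ) (V : Measure (Euc k × L k)) : Prop :=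
  ∀ᵐ p ∂V, (p.1 ∈ tube π ρ x r w ∧ ‖(ch π ρ x r w X0).x p.1‖ ≤ R ∧
      ‖(ch π ρ x r w X0).nu p.1‖ ≤ 2 * r') ∨
    (R ≤ ‖(ch π ρ x r w X0).x p.1‖ ∧
      R ≤ ‖(ch (rπ π ρ q H) (rρ π ρ q H') x r' w' X0').x p.1‖)

namespace Two

variable {R σ : ℝ} (h : Two π ρ x q H H' r r' w w' X0 X0' A R σ)
include h

theorem s0 : 0 ≤ σ := by
  have := h.hσ
  have h1 := norm_nonneg q
  nlinarith [sq_nonneg ‖fderiv ℝ w X0‖, sq_nonneg ‖fderiv ℝ w' X0'‖]

theorem pt_mem {y : Euc m} (hy : y ∈ closedBall (0 : Euc m) R) : Gi_456.pt w X0 y ∈ A := by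
  refine h.ball ?_
  rw [mem_closedBall_iff_norm]
  have e : Gi_456.pt w X0 y - X0 = Loi (fderiv ℝ w X0) y := by
    show X0 + _ - X0 = _; abel
  rw [e]
  refine (ContinuousLinearMap.le_opNorm _ _).trans ?_
  exact (mul_le_of_le_one_left (norm_nonneg _) (Gi_456.Loi_spec _).2.2).trans
    (mem_closedBall_zero_iff.1 hy)

/-- same foot, same distance -/
theorem rel_pt {z : Euc k} (hz : z ∈ tube π ρ x r w) (hR : ‖(ch π ρ x r w X0).x z‖ ≤ R)
    (hν : ‖(ch π ρ x r w X0).nu z‖ ≤ 2 * r')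
    (hL : Lin (fderiv ℝ w X0) (fderiv ℝ w' X0') O B) :
    (ch (rπ π ρ q H) (rρ π ρ q H') x r' w' X0').x z =
      O (thn q H w X0 X0' B ((ch π ρ x r w X0).x z)) ∧
    (ch (rπ π ρ q H) (rρ π ρ q H') x r' w' X0').f z = (ch π ρ x r w X0).f z := by
  set X := foot π ρ x r w z with hX
  have hfoot : IsFoot π ρ x r w z X := h.gr.foot_spec hz
  have hx : (ch π ρ x r w X0).x z = Lo (fderiv ℝ w X0) (X - X0) := rfl
  have hXA : X ∈ A := by
    refine h.ball ?_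
    rw [mem_closedBall_iff_norm]
    refine (Gi_456.le_norm_Lo (fderiv ℝ w X0) (X - X0)).trans ?_
    rw [← hx]; exact hR
  have hnu : (ch π ρ x r w X0).nu z = z - pnt π ρ x w X := nu_of_isFoot h.fr hfoot
  have hfoot' := h.same.isFoot (r' := r') h.fr hXA hfoot (by rw [← hnu]; exact hν)
  have hf2 : foot (rπ π ρ q H) (rρ π ρ q H') x r' w' z = psi q H w X := h.gr'.foot_eq hfoot'
  constructor
  · unfold thn
    rw [hL.O_B]
    have e1 : Gi_456.pt w X0 ((ch π ρ x r w X0).x z) = X := by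
      rw [hx]
      show X0 + Loi (fderiv ℝ w X0) (Lo (fderiv ℝ w X0) (X - X0)) = X
      rw [Gi_456.Loi_Lo]; abel
    rw [e1]
    show Lo (fderiv ℝ w' X0') (foot (rπ π ρ q H) (rρ π ρ q H') x r' w' z - X0') = _
    rw [hf2]
  · have e2 : (ch (rπ π ρ q H) (rρ π ρ q H') x r' w' X0').nu z = z - pnt π ρ x w X := by
      show Bt (rπ π ρ q H) (rρ π ρ q H') w' (foot (rπ π ρ q H) (rρ π ρ q H') x r' w' z)
        (yy (rπ π ρ q H) (rρ π ρ q H') x r' w' z) = _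
      unfold Gi_456.yy
      rw [hf2, nu_of_isFoot (frame_rot h.fr h.same.rt) hfoot', h.same.pnt h.fr hXA]
    show ‖(ch (rπ π ρ q H) (rρ π ρ q H') x r' w' X0').nu z‖ ^ 2 / 2 =
      ‖(ch π ρ x r w X0).nu z‖ ^ 2 / 2
    rw [e2, hnu]

/-- **the abstract hypotheses of `Blk`** -/
theorem blk (hL : Lin (fderiv ℝ w X0) (fderiv ℝ w' X0') O B) {V : Measure (Euc k × L k)}
    (hV : Near π ρ x q H H' r r' w w' X0 X0' R V) :
    Blk (ch π ρ x r w X0) (ch (rπ π ρ q H) (rρ π ρ q H') x r' w' X0') O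
      (thn q H w X0 X0' B) (dthn q H w X0 B) R σ V where
  s0 := h.s0
  s1 := h.s1
  R0 := h.R0
  rel := by
    filter_upwards [hV] with p hp
    rcases hp with ⟨h1, h2, h3⟩ | h1
    · obtain ⟨h4, h5⟩ := h.rel_pt h1 h2 h3 hL
      exact Or.inl ⟨h2, h4, h5⟩
    · exact Or.inr h1
  der := fun v _ => (hasFDerivAt_thn h.gr.differentiable v).hasFDerivWithinAt
  near := fun v _ => norm_dthn_sub hL h.same.rt h.hq h.gr.d1 h.hσ v
  hj := fun v hv => jB_thn h.same hL (h.pt_mem hv)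
  cj := (h.gr.contDiff_j X0).continuous.continuousOn

theorem blkG (hL : Lin (fderiv ℝ w X0) (fderiv ℝ w' X0') O B) :
    BlkG (ch π ρ x r w X0) (ch (rπ π ρ q H) (rρ π ρ q H') x r' w' X0') O
      (thn q H w X0 X0' B) (dthn q H w X0 B) R (1 / (30 * r)) where
  c0 := by have := h.gr.pos; positivity
  gi := fun v hv u => giB_thn h.same hL (h.pt_mem hv) u
  gsub := fun v _ => norm_giB_sub h.gr X0 v
  ghalf := by
    intro v hv
    have hr := h.gr.pos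
    refine (norm_giB_sub h.gr X0 v).trans ?_
    have h1 : ‖v‖ ≤ 15 * r := (mem_closedBall_zero_iff.1 hv).trans h.Rr
    calc 1 / (30 * r) * ‖v‖ ≤ 1 / (30 * r) * (15 * r) :=
          mul_le_mul_of_nonneg_left h1 (by positivity)
      _ = 1 / 2 := by field_simp; norm_num
  mu1 := fun v => Gi_456.muG_mul v
  mu2 := fun v => Gi_456.muG_mul v
  mu10 := Gi_456.muG_zero
  mu20 := Gi_456.muG_zero

theorem aem {c : Ch m k} {K : Set (Euc k)} {D : Set (Euc m)} {V : Measure (Euc k × L k)}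
    (hc : Ok c K D) (hV : On V m K) : AEMeasurable (fun p : Euc k × L k => c.x p.1) V := by
  have := hV.fin
  have hS : MeasurableSet (K ×ˢ G m k) :=
    hc.cpt.isClosed.measurableSet.prod (Vf_884.measurableSet_G m k)
  rw [← Measure.restrict_eq_self_of_ae_mem hV.mem]
  have h1 : ContinuousOn c.x K := fun z hz => (hc.hx z hz).continuousAt.continuousWithinAt
  exact (h1.comp continuousOn_fst (fun p hp => hp.1)).aemeasurable hS

theorem integrable_II {c : Ch m k} {K : Set (Euc k)} {D : Set (Euc m)}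
    {V : Measure (Euc k × L k)} (hc : Ok c K D) (hV : On V m K) {g1 g2 : ℝ → ℝ} (hg : Ker g1 g2)
    (l : ℝ) : Integrable (fun p : Euc k × L k => (c.f p.1 * c.mu (c.x p.1)) *
      (-4 * g1 (Real.exp (-2 * l) * ‖c.x p.1‖ ^ 2))) V := by
  refine hV.integrable hc.cpt ?_
  have h0 : ContinuousOn (fun p : Euc k × L k => p.1) (K ×ˢ G m k) := continuousOn_fst
  have hm : MapsTo (fun p : Euc k × L k => p.1) (K ×ˢ G m k) K := fun p hp => hp.1
  have h1 : ContinuousOn c.x K := fun z hz => (hc.hx z hz).continuousAt.continuousWithinAt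
  have h2 : ContinuousOn c.f K := fun z hz => (hc.hf z hz).continuousAt.continuousWithinAt
  have h3 : ContinuousOn (fun z => c.mu (c.x z)) K := hc.cmu.comp h1 hc.mem
  have h4 : ContinuousOn (fun z => g1 (Real.exp (-2 * l) * ‖c.x z‖ ^ 2)) K :=
    hg.continuous.comp_continuousOn ((h1.norm.pow 2).const_mul _)
  exact ((h2.mul h3).mul (h4.const_mul _)).comp h0 hm

/-- **(E) at a change of frame.** -/
theorem block_EE {K : Set (Euc k)} (hK : IsCompact K) (hK1 : K ⊆ tube π ρ x r w)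
    (hK2 : K ⊆ tube (rπ π ρ q H) (rρ π ρ q H') x r' w') {V : Measure (Euc k × L k)}
    (hV : On V m K) (hN : Near π ρ x q H H' r r' w w' X0 X0' R V) {g g1 : ℝ → ℝ}
    (hg : Ker g g1) {G1 : ℝ} (hG : ∀ t, 0 ≤ t → |g1 t| ≤ G1) (Q : ℝ) {l : ℝ}
    (hb : 2 * ‖psi q H w X0 - X0'‖ ≤ σ * Real.exp l) (hl : (1 + 3 * σ) * Real.exp l ≤ R)
    (hτ0 : ∀ᵐ p ∂V, 0 ≤ (ch π ρ x r w X0).tau p.1 p.2) {e2 : Measure (Euc m)}
    (hfin : e2 (closedBall 0 ((1 + 3 * σ) * Real.exp l)) ≠ ⊤)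
    (habs : ∀ f : Euc m → ℝ, Measurable f → (∃ C, ∀ v, |f v| ≤ C) →
      (∀ v ∉ closedBall (0 : Euc m) ((1 + 3 * σ) * Real.exp l), f v = 0) →
      |∫ p, f ((ch π ρ x r w X0).x p.1) * (1 - (ch π ρ x r w X0).tau p.1 p.2 / 2) ∂V -
        Q * ∫ v, f v * (ch π ρ x r w X0).j v| ≤ ∫ v, |f v| ∂e2) :
    |GL_394.EE (ch (rπ π ρ q H) (rρ π ρ q H') x r' w' X0') V g Q l -
      GL_394.EE (ch π ρ x r w X0) V g Q l| ≤ 12 * G1 * σ * (Real.exp ((2 - m) * l) *
      (e2.real (closedBall 0 ((1 + 3 * σ) * Real.exp l)) +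
        (1 / 2) * ∫ p in {p | ‖(ch π ρ x r w X0).x p.1‖ ≤ (1 + 3 * σ) * Real.exp l},
          (ch π ρ x r w X0).tau p.1 p.2 ∂V)) := by
  have := hV.fin
  obtain ⟨O, B, hL⟩ := exists_Lin (h.gr.d1 X0) (h.gr'.d1 X0')
  have hB := h.blk hL hN
  have ok1 := h.gr.ok h.fr X0 hK hK1
  have ok2 := h.gr'.ok (frame_rot h.fr h.same.rt) X0' hK hK2
  have hb' : ‖thn q H w X0 X0' B 0‖ ≤ σ * Real.exp l := by
    refine (norm_thn_zero hL (h.gr'.d1 X0')).trans (le_trans ?_ hb)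
    exact mul_le_mul_of_nonneg_right (by norm_num) (norm_nonneg _)
  exact hB.EE_sub_le hg (h.aem ok1 hV) (h.aem ok2 hV) Q hb' hl hG hτ0
    (hV.integrable hK ok1.ctau) hfin habs

/-- **(I) at a change of frame.** -/
theorem block_II {K : Set (Euc k)} (hK : IsCompact K) (hK1 : K ⊆ tube π ρ x r w)
    (hK2 : K ⊆ tube (rπ π ρ q H) (rρ π ρ q H') x r' w') {V : Measure (Euc k × L k)}
    (hV : On V m K) (hN : Near π ρ x q H H' r r' w w' X0 X0' R V) {g1 g2 : ℝ → ℝ}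
    (hg : Ker g1 g2) {G1 G2 : ℝ} (hG1 : ∀ t, 0 ≤ t → |g1 t| ≤ G1)
    (hG2 : ∀ t, 0 ≤ t → |g2 t| ≤ G2) {l : ℝ}
    (hb : 2 * ‖psi q H w X0 - X0'‖ ≤ σ * Real.exp l) (hl : (1 + 3 * σ) * Real.exp l ≤ R) :
    |GL_394.II (ch (rπ π ρ q H) (rρ π ρ q H') x r' w' X0') V g1 l -
      GL_394.II (ch π ρ x r w X0) V g1 l| ≤ (64 * G1 + 72 * G2) * σ * (Real.exp (-m * l) *
      ∫ p in {p | ‖(ch π ρ x r w X0).x p.1‖ ≤ (1 + 3 * σ) * Real.exp l},
        (ch π ρ x r w X0).f p.1 ∂V) := by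
  have := hV.fin
  have hr := h.gr.pos
  have hs0 := h.s0
  obtain ⟨O, B, hL⟩ := exists_Lin (h.gr.d1 X0) (h.gr'.d1 X0')
  have hB := h.blk hL hN
  have ok1 := h.gr.ok h.fr X0 hK hK1
  have ok2 := h.gr'.ok (frame_rot h.fr h.same.rt) X0' hK hK2
  have hb' : ‖thn q H w X0 X0' B 0‖ ≤ σ * Real.exp l := by
    refine (norm_thn_zero hL (h.gr'.d1 X0')).trans (le_trans ?_ hb)
    exact mul_le_mul_of_nonneg_right (by norm_num) (norm_nonneg _)
  have hc : 1 / (30 * r) * Real.exp l ≤ 1 := by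
    have h1 : Real.exp l ≤ 15 * r := by
      have he := Real.exp_pos l
      have : Real.exp l ≤ (1 + 3 * σ) * Real.exp l := by nlinarith
      exact this.trans (hl.trans h.Rr)
    rw [div_mul_eq_mul_div, one_mul, div_le_one (by positivity)]
    linarith
  have hfc : ContinuousOn (fun p : Euc k × L k => (ch π ρ x r w X0).f p.1) (K ×ˢ G m k) := by
    have h2 : ContinuousOn (ch π ρ x r w X0).f K := fun z hz =>
      (ok1.hf z hz).continuousAt.continuousWithinAt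
    exact h2.comp continuousOn_fst fun p hp => hp.1
  refine hB.II_sub_le (h.blkG hL) hg hG1 hG2 hb' hc hl (h.aem ok1 hV) (h.integrable_II ok1 hV hg l)
    (h.integrable_II ok2 hV hg l) (fun p => ?_) (hV.integrable hK hfc).integrableOn
  show 0 ≤ ‖Bt π ρ w (foot π ρ x r w p.1) (yy π ρ x r w p.1)‖ ^ 2 / 2
  positivity

end Two

end Crest.Agent.R234.Swb_159
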