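import Crest.Agent.R234.Swb7_159
import Crest.Agent.R234.Lk1_456
import Crest.Agent.R234.Grot8_842

/-!
# Row 234, F6-BLOCK (helper159), part 8: regions of two frames, feet of one point in two frames

* `foot_two` : the feet of one point in two frames are close if the two references are `C¹`-close.
* `exists_psi` : `psi` is onto, with a bound of the preimage; `Same.isFoot_back` : the foot in the
  first frame from the foot in the second one (182's remark: exact, no flatness).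
* `Reg` : the hypotheses; the two regions (456's `Kc`), the common compact.
-/

set_option autoImplicit false
set_option linter.unusedSectionVars false

open MeasureTheory Set Metric Filter Topology
open Crest.GeometryTopology.Submanifold
open scoped ENNReal NNReal ContDiff RealInnerProductSpace

noncomputable section

namespace Crest.Agent.R234.Swb_159

open Crest.Agent.R234.Vf_884 (L G)
open Crest.Agent.R234.Cy_870 (Ker)
open Crest.Agent.R234.Ell1_3 Crest.Agent.R234.Main_456 Crest.Agent.R234.Grot_842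
open Crest.Agent.R234.GL_394 (Ch Ok On VK)
open Crest.Agent.R234.Gi_456 (Gr tube IsFoot foot yy Bt Lo Loi ch Kc)

local notation "adj" => ContinuousLinearMap.adjoint

variable {m n k : ℕ} {q : Euc m →L[ℝ] Euc n} {H : Euc m →L[ℝ] Euc m} {H' : Euc n →L[ℝ] Euc n}
  {w w' : Euc m → Euc n} {A : Set (Euc m)} {π : Euc k →L[ℝ] Euc m} {ρ : Euc k →L[ℝ] Euc n}
  {x : Euc k} {r r' R σ : ℝ} {V : Measure (Euc k × L k)}

/-- **feet of one point in two frames** -/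
theorem foot_two (h : Gr r w) (h' : Gr r' w') (hf : Frame π ρ) (rt : Rt q H H') (hq : ‖q‖ ≤ 1 / 8)
    {τ₀ τ₁ : ℝ} (g0 : ∀ Y, ‖w' Y - (w Y - q Y)‖ ≤ τ₀)
    (g1 : ∀ Y, ‖fderiv ℝ w' Y - fderiv ℝ w Y‖ ≤ τ₁) {z : Euc k} {X X' : Euc m}
    (hX : IsFoot π ρ x r w z X) (hX' : IsFoot (rπ π ρ q H) (rρ π ρ q H') x r' w' z X') :
    ‖X' - X‖ ≤ 2 * (4 / 3 * ‖q‖ * ‖z - x‖ + 2 * τ₁ * r' + 1 / 8 * (τ₀ + ‖q‖ * ‖X'‖)) := by
  have hr := h.pos
  have hr' := h'.pos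
  have hq0 := norm_nonneg q
  have hd := norm_nonneg (z - x)
  set a := π (z - x) with ha
  set b := ρ (z - x) with hb
  set a' := rπ π ρ q H (z - x) with ha'
  set b' := rρ π ρ q H' (z - x) with hb'
  have e0 : X' - X = (a' - a) + (adj (fderiv ℝ w' X') (b' - w' X') -
      adj (fderiv ℝ w X') (b' - w X')) +
      (adj (fderiv ℝ w X') (b' - w X') - adj (fderiv ℝ w X) (b - w X)) := by
    have h1 : X' = a' + adj (fderiv ℝ w' X') (b' - w' X') := hX'.1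
    have h2 : X = a + adj (fderiv ℝ w X) (b - w X) := hX.1
    have h3 : X' - X = (a' + adj (fderiv ℝ w' X') (b' - w' X')) -
        (a + adj (fderiv ℝ w X) (b - w X)) := by rw [← h1, ← h2]
    rw [h3]; abel
  have hs : ‖q‖ ^ 2 + ‖q‖ ≤ 9 / 8 * ‖q‖ := by nlinarith
  have n1 : ‖a' - a‖ ≤ 9 / 8 * ‖q‖ * ‖z - x‖ :=
    (norm_rπ_sub hf rt (z - x)).trans (mul_le_mul_of_nonneg_right hs hd)
  have n2 : ‖b' - b‖ ≤ 9 / 8 * ‖q‖ * ‖z - x‖ :=
    (norm_rρ_sub hf rt (z - x)).trans (mul_le_mul_of_nonneg_right hs hd)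
  have n3 : ‖adj (fderiv ℝ w' X') (b' - w' X') - adj (fderiv ℝ w X') (b' - w X')‖ ≤
      τ₁ * (2 * r') + 1 / 8 * (τ₀ + ‖q‖ * ‖X'‖) := by
    have e1 : adj (fderiv ℝ w' X') (b' - w' X') - adj (fderiv ℝ w X') (b' - w X') =
        adj (fderiv ℝ w' X' - fderiv ℝ w X') (b' - w' X') +
          adj (fderiv ℝ w X') (w X' - w' X') := by
      simp only [map_sub, _root_.sub_apply]; abel
    rw [e1]
    refine (norm_add_le _ _).trans (add_le_add ?_ ?_)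
    · refine (ContinuousLinearMap.le_opNorm _ _).trans ?_
      rw [LinearIsometryEquiv.norm_map]
      have h3 : ‖b' - w' X'‖ ≤ 2 * r' := hX'.2
      exact mul_le_mul (g1 X') h3 (norm_nonneg _) ((norm_nonneg _).trans (g1 X'))
    · refine (ContinuousLinearMap.le_opNorm _ _).trans ?_
      rw [LinearIsometryEquiv.norm_map]
      refine mul_le_mul (h.d1 X') ?_ (norm_nonneg _) (by norm_num)
      have h3 : w X' - w' X' = q X' - (w' X' - (w X' - q X')) := by abel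
      rw [h3]
      have h4 := norm_sub_le (q X') (w' X' - (w X' - q X'))
      have h5 := q.le_opNorm X'
      have h6 := g0 X'
      linarith
  have n4 : ‖adj (fderiv ℝ w X') (b' - w X') - adj (fderiv ℝ w X) (b - w X)‖ ≤
      17 / 64 * ‖X' - X‖ + 1 / 8 * ‖b' - b‖ := by
    have h3 := h.fix_lip (b := b) (b' := b') (X := X) (X' := X') (t := 2 * r) hX.2
    rw [norm_sub_rev, norm_sub_rev X X', norm_sub_rev b b'] at h3
    have h4 : 2 * r / (8 * r) + 1 / 64 = 17 / 64 := by field_simp; norm_num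
    rwa [h4] at h3
  have n5 : ‖X' - X‖ ≤ 9 / 8 * ‖q‖ * ‖z - x‖ + (τ₁ * (2 * r') + 1 / 8 * (τ₀ + ‖q‖ * ‖X'‖)) +
      (17 / 64 * ‖X' - X‖ + 1 / 8 * (9 / 8 * ‖q‖ * ‖z - x‖)) := by
    calc ‖X' - X‖ = ‖(a' - a) + (adj (fderiv ℝ w' X') (b' - w' X') -
          adj (fderiv ℝ w X') (b' - w X')) +
          (adj (fderiv ℝ w X') (b' - w X') - adj (fderiv ℝ w X) (b - w X))‖ := by rw [← e0]
      _ ≤ _ := (norm_add_le _ _).trans (add_le_add ((norm_add_le _ _).trans (add_le_add n1 n3))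
          (n4.trans (by linarith)))
  have p1 : 0 ≤ ‖q‖ * ‖z - x‖ := by positivity
  have p2 : 0 ≤ τ₁ * (2 * r') + 1 / 8 * (τ₀ + ‖q‖ * ‖X'‖) := (norm_nonneg _).trans n3
  nlinarith [norm_nonneg (X' - X)]

/-- normal vectors in the second frame are normal in the first one -/
theorem Same.normal_back (h : Same q H H' w w' A) (hf : Frame π ρ) {X : Euc m} (hX : X ∈ A)
    {ν : Euc k}
    (hν : rπ π ρ q H ν + adj (fderiv ℝ w' (psi q H w X)) (rρ π ρ q H' ν) = 0) :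
    π ν + adj (fderiv ℝ w X) (ρ ν) = 0 := by
  have hD2 := h.hD hX
  refine ext_inner_right ℝ fun y => ?_
  rw [inner_zero_left, inner_add_left, ContinuousLinearMap.adjoint_inner_left]
  set τ : Euc k := adj π y + adj ρ (fderiv ℝ w X y) with hτ
  have e3 : π τ = y := by rw [hτ, map_add, fr_ππ hf, fr_πρ hf, add_zero]
  have e4 : ρ τ = fderiv ℝ w X y := by rw [hτ, map_add, fr_ρπ hf, fr_ρρ hf, zero_add]
  have e1 : Foot_842.dchg q H (fderiv ℝ w X) y = rπ π ρ q H τ := by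
    rw [rπ_apply, e3, e4, Foot_842.dchg_apply]
  have e2 : H' (fderiv ℝ w X y - q y) = rρ π ρ q H' τ := by
    rw [rρ_apply, e3, e4]
  have h6 : ⟪rπ π ρ q H ν, rπ π ρ q H τ⟫ + ⟪rρ π ρ q H' ν, rρ π ρ q H' τ⟫ = 0 := by
    have h7 : ⟪rπ π ρ q H ν + adj (fderiv ℝ w' (psi q H w X)) (rρ π ρ q H' ν),
        Foot_842.dchg q H (fderiv ℝ w X) y⟫ = 0 := by rw [hν, inner_zero_left]
    rw [inner_add_left, ContinuousLinearMap.adjoint_inner_left, hD2, e2, e1] at h7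
    exact h7
  rw [Foot_842.fr_inner (frame_rot hf h.rt), ← Foot_842.fr_inner hf, e3, e4] at h6
  exact h6

/-- **the foot in the first frame from the foot in the second one** -/
theorem Same.isFoot_back (h : Same q H H' w w' A) (hf : Frame π ρ) {z : Euc k} {X : Euc m}
    (hX : X ∈ A) (hz : IsFoot (rπ π ρ q H) (rρ π ρ q H') x r' w' z (psi q H w X))
    (hr : ‖z - Swb_159.pnt π ρ x w X‖ ≤ 2 * r) : IsFoot π ρ x r w z X := by
  rw [isFoot_iff hf]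
  have h1 := (isFoot_iff (frame_rot hf h.rt)).1 hz
  rw [h.pnt hf hX] at h1
  exact ⟨h.normal_back hf hX h1.1, (fr_norm_ρ hf _).trans hr⟩

/-- `psi` is onto -/
theorem exists_psi (h : Gr r w) (rt : Rt q H H') (hq : ‖q‖ ≤ 1 / 8) (Y : Euc m) :
    ∃ X, psi q H w X = Y ∧ ‖X‖ ≤ (1 + ‖q‖ ^ 2) * ‖Y‖ + ‖q‖ * ‖w X‖ := by
  set Z := gop q (H Y) with hZ
  have hc : ContractingWith (1 / 64) (fun X : Euc m => Z - adj q (w X)) := by
    refine ⟨by norm_num, LipschitzWith.of_dist_le_mul fun X X' => ?_⟩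
    rw [dist_eq_norm, dist_eq_norm]
    have e : Z - adj q (w X) - (Z - adj q (w X')) = adj q (w X' - w X) := by
      rw [map_sub]; abel
    rw [e]
    refine (ContinuousLinearMap.le_opNorm _ _).trans ?_
    rw [LinearIsometryEquiv.norm_map]
    have h1 := h.lip X' X
    rw [norm_sub_rev X' X] at h1
    calc ‖q‖ * ‖w X' - w X‖ ≤ 1 / 8 * (1 / 8 * ‖X - X'‖) :=
          mul_le_mul hq h1 (norm_nonneg _) (by norm_num)
      _ = _ := by push_cast; ring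
  set X := hc.fixedPoint with hX
  have hfix : Z - adj q (w X) = X := hc.fixedPoint_isFixedPt
  have e1 : X + adj q (w X) = Z := by
    have := sub_add_cancel Z (adj q (w X))
    rw [hfix] at this
    exact this
  refine ⟨X, ?_, ?_⟩
  · unfold psi
    rw [e1, hZ, rt.inv]
  · have h1 : ‖X‖ ≤ ‖Z‖ + ‖adj q (w X)‖ := by
      calc ‖X‖ = ‖Z - adj q (w X)‖ := by rw [hfix]
        _ ≤ _ := norm_sub_le _ _
    have h2 : ‖adj q (w X)‖ ≤ ‖q‖ * ‖w X‖ := by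
      refine (ContinuousLinearMap.le_opNorm _ _).trans ?_
      rw [LinearIsometryEquiv.norm_map]
    have h3 : ‖Z‖ ≤ (1 + ‖q‖ ^ 2) * ‖Y‖ := by
      have e2 : Z = H Y + adj q (q (H Y)) := rfl
      rw [e2]
      have h4 := rt.le Y
      have h5 : ‖adj q (q (H Y))‖ ≤ ‖q‖ * (‖q‖ * ‖H Y‖) := by
        refine (ContinuousLinearMap.le_opNorm _ _).trans ?_
        rw [LinearIsometryEquiv.norm_map]
        exact mul_le_mul_of_nonneg_left (q.le_opNorm _) (norm_nonneg _)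
      refine (norm_add_le _ _).trans ?_
      have h6 : ‖q‖ * (‖q‖ * ‖H Y‖) ≤ ‖q‖ * (‖q‖ * ‖Y‖) := by gcongr
      nlinarith
    linarith

/-- one surface, two frames, a flat measure -/
structure Reg (π : Euc k →L[ℝ] Euc m) (ρ : Euc k →L[ℝ] Euc n) (x : Euc k) (q : Euc m →L[ℝ] Euc n)
    (H : Euc m →L[ℝ] Euc m) (H' : Euc n →L[ℝ] Euc n) (r r' : ℝ) (w w' : Euc m → Euc n)
    (A : Set (Euc m)) (R σ : ℝ) (V : Measure (Euc k × L k)) : Prop
    extends Two π ρ x q H H' r r' w w' 0 0 A R σ where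
  ws : ∀ X, ‖w X‖ ≤ r' / 16
  ws' : ∀ X, ‖w' X‖ ≤ r' / 16
  rr : r' ≤ r
  R1 : R ≤ 3 / 2 * r'
  flat : ∀ᵐ p ∂V, p.1 ∈ Metric.ball x (4 * r) → ‖ρ (p.1 - x)‖ ≤ r' / 16
  fin : V (Kc π ρ x w 0 (2 * r) (r / 2) ×ˢ univ) < ⊤
  pl : ∀ᵐ p ∂V, p.1 ∈ Kc π ρ x w 0 (2 * r) (r / 2) → p.2 ∈ G m k

theorem fr_norm_le (hf : Frame π ρ) (v : Euc k) : ‖v‖ ≤ ‖π v‖ + ‖ρ v‖ := by
  have h1 := Gi_456.norm_sq_frame hf (π v) (ρ v)
  rw [Gi_456.Frame.full_apply hf] at h1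
  refine abs_le_of_sq_le_sq' ?_ (by positivity) |>.2
  rw [h1]
  nlinarith [norm_nonneg (π v), norm_nonneg (ρ v)]

/-- `π`-coordinate from the foot -/
theorem norm_pi_le_foot (h : Gr r w) {z : Euc k} {X : Euc m} (hX : IsFoot π ρ x r w z X) :
    ‖π (z - x)‖ ≤ ‖X‖ + 1 / 8 * ‖ρ (z - x) - w X‖ := by
  have h1 : π (z - x) = X - adj (fderiv ℝ w X) (ρ (z - x) - w X) := by
    have := hX.1
    exact eq_sub_of_add_eq this.symm
  rw [h1]
  refine (norm_sub_le _ _).trans (add_le_add le_rfl ?_)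
  refine (ContinuousLinearMap.le_opNorm _ _).trans ?_
  rw [LinearIsometryEquiv.norm_map]
  exact mul_le_mul_of_nonneg_right (h.d1 X) (norm_nonneg _)

theorem norm_Lo_le' (q0 : Euc m →L[ℝ] Euc n) (v : Euc m) : ‖Lo q0 v‖ ≤ (1 + ‖q0‖ ^ 2) * ‖v‖ := by
  have h1 := Gi_456.norm_Lo_sq q0 v
  have h2 := q0.le_opNorm v
  have h3 : ‖q0 v‖ ^ 2 ≤ (‖q0‖ * ‖v‖) ^ 2 := pow_le_pow_left₀ (norm_nonneg _) h2 2
  refine abs_le_of_sq_le_sq' ?_ (by positivity) |>.2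
  rw [h1]
  nlinarith [sq_nonneg (‖q0‖ ^ 2 * ‖v‖), sq_nonneg (‖q0‖ * ‖v‖)]

namespace Reg

variable (h : Reg π ρ x q H H' r r' w w' A R σ V)
include h

theorem r0' : 0 < r' := h.gr'.pos

/-- the first region -/
theorem cK1 : IsCompact (Kc π ρ x w 0 (2 * r) (r / 2)) := h.gr.isCompact_Kc 0 _ _

theorem cK2 : IsCompact (Kc (rπ π ρ q H) (rρ π ρ q H') x w' 0 (2 * r') (r' / 2)) :=
  h.gr'.isCompact_Kc 0 _ _

theorem mem1 {z : Euc k} : z ∈ Kc π ρ x w 0 (2 * r) (r / 2) ↔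
    z ∈ tube π ρ x r w ∧ ‖foot π ρ x r w z - 0‖ ≤ 2 * r ∧ ‖yy π ρ x r w z‖ ≤ r / 2 :=
  h.gr.mem_Kc h.fr (by have := h.gr.pos; linarith)

theorem mem2 {z : Euc k} : z ∈ Kc (rπ π ρ q H) (rρ π ρ q H') x w' 0 (2 * r') (r' / 2) ↔
    z ∈ tube (rπ π ρ q H) (rρ π ρ q H') x r' w' ∧
      ‖foot (rπ π ρ q H) (rρ π ρ q H') x r' w' z - 0‖ ≤ 2 * r' ∧
      ‖yy (rπ π ρ q H) (rρ π ρ q H') x r' w' z‖ ≤ r' / 2 :=
  h.gr'.mem_Kc (frame_rot h.fr h.same.rt) (by have := h.gr'.pos; linarith)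

/-- points of the first region lie in the flat ball -/
theorem mem_ball_of_mem1 {z : Euc k} (hz : z ∈ Kc π ρ x w 0 (2 * r) (r / 2)) :
    z ∈ Metric.ball x (4 * r) := by
  obtain ⟨h1, h2, h3⟩ := h.mem1.1 hz
  rw [sub_zero] at h2
  have hr := h.gr.pos
  have hrr := h.rr
  have h4 : ‖π (z - x)‖ ≤ ‖foot π ρ x r w z‖ + 1 / 8 * ‖yy π ρ x r w z‖ :=
    norm_pi_le_foot h.gr (h.gr.foot_spec h1)
  have h5 : ‖ρ (z - x)‖ ≤ ‖yy π ρ x r w z‖ + ‖w (foot π ρ x r w z)‖ := by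
    have : ρ (z - x) = yy π ρ x r w z + w (foot π ρ x r w z) := by unfold yy; abel
    rw [this]
    exact norm_add_le _ _
  have h6 := h.ws (foot π ρ x r w z)
  have h7 := fr_norm_le h.fr (z - x)
  rw [mem_ball_iff_norm]
  linarith

/-- points of the second region are within `11/4 r'` of `x` -/
theorem norm_of_mem2 {z : Euc k}
    (hz : z ∈ Kc (rπ π ρ q H) (rρ π ρ q H') x w' 0 (2 * r') (r' / 2)) :
    ‖z - x‖ ≤ 11 / 4 * r' := by
  obtain ⟨h1, h2, h3⟩ := h.mem2.1 hz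
  rw [sub_zero] at h2
  have hr := h.r0'
  have hf' := frame_rot h.fr h.same.rt
  have h4 := norm_pi_le_foot h.gr' (h.gr'.foot_spec h1)
  have h5 : ‖rρ π ρ q H' (z - x)‖ ≤ ‖yy (rπ π ρ q H) (rρ π ρ q H') x r' w' z‖ +
      ‖w' (foot (rπ π ρ q H) (rρ π ρ q H') x r' w' z)‖ := by
    have : rρ π ρ q H' (z - x) = yy (rπ π ρ q H) (rρ π ρ q H') x r' w' z +
      w' (foot (rπ π ρ q H) (rρ π ρ q H') x r' w' z) := by unfold yy; abel
    rw [this]
    exact norm_add_le _ _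
  have h6 := h.ws' (foot (rπ π ρ q H) (rρ π ρ q H') x r' w' z)
  have h7 := fr_norm_le hf' (z - x)
  have h8 : ‖rρ π ρ q H' (z - x) - w' (foot (rπ π ρ q H) (rρ π ρ q H') x r' w' z)‖ =
      ‖yy (rπ π ρ q H) (rρ π ρ q H') x r' w' z‖ := rfl
  rw [h8] at h4
  linarith

/-- small heights of flat points of the first region -/
theorem small {z : Euc k} (hz : z ∈ Kc π ρ x w 0 (2 * r) (r / 2)) (hfl : ‖ρ (z - x)‖ ≤ r' / 16) :
    ‖yy π ρ x r w z‖ ≤ 9 / 64 * r' ∧ ‖(ch π ρ x r w 0).nu z‖ ≤ r' / 6 := by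
  obtain ⟨h1, h2, h3⟩ := h.mem1.1 hz
  have h4 := h.gr.norm_yy_le h1
  have h5 := norm_sub_le (ρ (z - x)) (w (π (z - x)))
  have h6 := h.ws (π (z - x))
  have h7 : ‖(ch π ρ x r w 0).nu z‖ ≤ 65 / 64 * ‖yy π ρ x r w z‖ :=
    h.gr.norm_nu_le_yy h.fr _ _
  have hr := h.r0'
  exact ⟨by linarith, by linarith⟩

/-- **a flat point of the first region with foot in the common domain lies in the second region** -/
theorem mem2_of {z : Euc k} (hz : z ∈ Kc π ρ x w 0 (2 * r) (r / 2))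
    (hfl : ‖ρ (z - x)‖ ≤ r' / 16) (hR : ‖(ch π ρ x r w 0).x z‖ ≤ R) :
    z ∈ Kc (rπ π ρ q H) (rρ π ρ q H') x w' 0 (2 * r') (r' / 2) ∧
      foot (rπ π ρ q H) (rρ π ρ q H') x r' w' z = psi q H w (foot π ρ x r w z) := by
  obtain ⟨h1, h2, h3⟩ := h.mem1.1 hz
  obtain ⟨s1, s2⟩ := h.small hz hfl
  have hr := h.r0'
  have hR1 := h.R1
  set X := foot π ρ x r w z with hX
  have hfoot : IsFoot π ρ x r w z X := h.gr.foot_spec h1
  have hXR : ‖X‖ ≤ R := by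
    have h4 := Gi_456.le_norm_Lo (fderiv ℝ w 0) (X - 0)
    rw [sub_zero] at h4
    refine h4.trans ?_
    have e : (ch π ρ x r w 0).x z = Lo (fderiv ℝ w 0) (X - 0) := rfl
    rw [e, sub_zero] at hR
    exact hR
  have hXA : X ∈ A := h.ball (mem_closedBall_zero_iff.2 hXR)
  have hnu : (ch π ρ x r w 0).nu z = z - pnt π ρ x w X := nu_of_isFoot h.fr hfoot
  have hfoot' := h.same.isFoot (r' := r') h.fr hXA hfoot (by rw [← hnu]; linarith)
  have hpi : ‖π (z - x)‖ ≤ ‖X‖ + 1 / 8 * ‖yy π ρ x r w z‖ := norm_pi_le_foot h.gr hfoot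
  have hq := h.hq
  have hq0 := norm_nonneg q
  have hρ' : ‖rρ π ρ q H' (z - x)‖ ≤ 11 / 40 * r' := by
    rw [rρ_apply]
    refine (h.same.rt.le' _).trans ((norm_sub_le _ _).trans ?_)
    have h5 := q.le_opNorm (π (z - x))
    have h6 : ‖q‖ * ‖π (z - x)‖ ≤ 1 / 8 * (8 / 5 * r') :=
      mul_le_mul hq (by linarith) (norm_nonneg _) (by norm_num)
    linarith
  have htube : z ∈ tube (rπ π ρ q H) (rρ π ρ q H') x r' w' := by
    show ‖rρ π ρ q H' (z - x) - w' (rπ π ρ q H (z - x))‖ < r'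
    have h5 := norm_sub_le (rρ π ρ q H' (z - x)) (w' (rπ π ρ q H (z - x)))
    have h6 := h.ws' (rπ π ρ q H (z - x))
    linarith
  have hf2 : foot (rπ π ρ q H) (rρ π ρ q H') x r' w' z = psi q H w X := h.gr'.foot_eq hfoot'
  refine ⟨h.mem2.2 ⟨htube, ?_, ?_⟩, hf2⟩
  · rw [hf2, sub_zero]
    unfold psi
    refine (h.same.rt.le _).trans ((norm_add_le _ _).trans ?_)
    have h5 : ‖adj q (w X)‖ ≤ 1 / 8 * (r' / 16) := by
      refine (ContinuousLinearMap.le_opNorm _ _).trans ?_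
      rw [LinearIsometryEquiv.norm_map]
      exact mul_le_mul hq (h.ws X) (norm_nonneg _) (by norm_num)
    linarith
  · have e : yy (rπ π ρ q H) (rρ π ρ q H') x r' w' z =
        rρ π ρ q H' (z - x) - w' (foot (rπ π ρ q H) (rρ π ρ q H') x r' w' z) := rfl
    rw [e]
    have h5 := norm_sub_le (rρ π ρ q H' (z - x))
      (w' (foot (rπ π ρ q H) (rρ π ρ q H') x r' w' z))
    have h6 := h.ws' (foot (rπ π ρ q H) (rρ π ρ q H') x r' w' z)
    linarith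

/-- flat points of the second region lie in the first tube -/
theorem tube_of_mem2 {z : Euc k}
    (hz : z ∈ Kc (rπ π ρ q H) (rρ π ρ q H') x w' 0 (2 * r') (r' / 2))
    (hfl : ‖ρ (z - x)‖ ≤ r' / 16) :
    z ∈ tube π ρ x r w ∧ ‖yy π ρ x r w z‖ ≤ 9 / 64 * r' := by
  have hr := h.r0'
  have hrr := h.rr
  have h5 := norm_sub_le (ρ (z - x)) (w (π (z - x)))
  have h6 := h.ws (π (z - x))
  have h1 : z ∈ tube π ρ x r w := by
    show ‖ρ (z - x) - w (π (z - x))‖ < r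
    linarith
  have h4 := h.gr.norm_yy_le h1
  exact ⟨h1, by linarith⟩

theorem mem_ball_of_mem2 {z : Euc k}
    (hz : z ∈ Kc (rπ π ρ q H) (rρ π ρ q H') x w' 0 (2 * r') (r' / 2)) :
    z ∈ Metric.ball x (4 * r) := by
  have h1 := h.norm_of_mem2 hz
  have hr := h.r0'
  have hrr := h.rr
  rw [mem_ball_iff_norm]
  linarith

/-- **a flat point of the second region with foot in the common domain lies in the first one** -/
theorem mem1_of {z : Euc k}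
    (hz : z ∈ Kc (rπ π ρ q H) (rρ π ρ q H') x w' 0 (2 * r') (r' / 2))
    (hfl : ‖ρ (z - x)‖ ≤ r' / 16) (hR : ‖(ch π ρ x r w 0).x z‖ ≤ R) :
    z ∈ Kc π ρ x w 0 (2 * r) (r / 2) := by
  obtain ⟨h1, h2⟩ := h.tube_of_mem2 hz hfl
  have hr := h.r0'
  have hrr := h.rr
  have hR1 := h.R1
  refine h.mem1.2 ⟨h1, ?_, by linarith⟩
  have h4 := Gi_456.le_norm_Lo (fderiv ℝ w 0) (foot π ρ x r w z - 0)
  have e : (ch π ρ x r w 0).x z = Lo (fderiv ℝ w 0) (foot π ρ x r w z - 0) := rfl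
  rw [e] at hR
  linarith

/-- **far points stay far** (exact) -/
theorem far {z : Euc k}
    (h2 : z ∈ Kc (rπ π ρ q H) (rρ π ρ q H') x w' 0 (2 * r') (r' / 2)) {e : ℝ}
    (he : (1 + ‖fderiv ℝ w 0‖ ^ 2) * ((1 + ‖q‖ ^ 2) * e + ‖q‖ * (r' / 16)) ≤ R)
    (hx : R < ‖(ch π ρ x r w 0).x z‖) :
    e ≤ ‖(ch (rπ π ρ q H) (rρ π ρ q H') x r' w' 0).x z‖ := by
  by_contra hc
  push Not at hc
  obtain ⟨h1, h3, h4⟩ := h.mem2.1 h2
  have hr := h.r0'
  have hrr := h.rr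
  have hq0 := norm_nonneg q
  set X' := foot (rπ π ρ q H) (rρ π ρ q H') x r' w' z with hX'
  have hf' := frame_rot h.fr h.same.rt
  have e2 : (ch (rπ π ρ q H) (rρ π ρ q H') x r' w' 0).x z = Lo (fderiv ℝ w' 0) (X' - 0) := rfl
  rw [e2, sub_zero] at hc
  have h5 : ‖X'‖ ≤ e := (Gi_456.le_norm_Lo _ _).trans hc.le
  obtain ⟨X, hX1, hX2⟩ := exists_psi h.gr h.same.rt h.hq X'
  have h6 : ‖X‖ ≤ (1 + ‖q‖ ^ 2) * e + ‖q‖ * (r' / 16) := by
    have h7 : (1 + ‖q‖ ^ 2) * ‖X'‖ ≤ (1 + ‖q‖ ^ 2) * e := mul_le_mul_of_nonneg_left h5 (by positivity)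
    have h8 : ‖q‖ * ‖w X‖ ≤ ‖q‖ * (r' / 16) := mul_le_mul_of_nonneg_left (h.ws X) hq0
    linarith
  have h7 : (1 + ‖fderiv ℝ w 0‖ ^ 2) * ‖X‖ ≤ R :=
    (mul_le_mul_of_nonneg_left h6 (by positivity)).trans he
  have hXA : X ∈ A := by
    refine h.ball (mem_closedBall_zero_iff.2 (le_trans ?_ h7))
    have : 0 ≤ ‖fderiv ℝ w 0‖ ^ 2 * ‖X‖ := by positivity
    linarith
  have hfoot' : IsFoot (rπ π ρ q H) (rρ π ρ q H') x r' w' z (psi q H w X) := by
    rw [hX1]; exact h.gr'.foot_spec h1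
  have hν : ‖z - pnt π ρ x w X‖ ≤ 2 * r := by
    rw [← h.same.pnt h.fr hXA, ← nu_of_isFoot hf' hfoot']
    refine (h.gr'.norm_nu_le_yy hf' _ _).trans ?_
    have e3 : yy (rπ π ρ q H) (rρ π ρ q H') x r' w' z = rρ π ρ q H' (z - x) - w' X' := rfl
    rw [e3] at h4
    rw [hX1]
    linarith
  have hfoot := h.same.isFoot_back (r := r) h.fr hXA hfoot' hν
  have e1 : (ch π ρ x r w 0).x z = Lo (fderiv ℝ w 0) (foot π ρ x r w z - 0) := rfl
  rw [e1, sub_zero, h.gr.foot_eq hfoot] at hx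
  have h8 := norm_Lo_le' (fderiv ℝ w 0) X
  linarith

/-! ### the common compact -/

/-- the common compact -/
theorem cK0 : IsCompact (Kc π ρ x w 0 (2 * r) (r / 2) ∩
    Kc (rπ π ρ q H) (rρ π ρ q H') x w' 0 (2 * r') (r' / 2) ∩
      (ch π ρ x r w 0).x ⁻¹' closedBall 0 R) := by
  have hK1 : Kc π ρ x w 0 (2 * r) (r / 2) ⊆ tube π ρ x r w :=
    h.gr.Kc_subset h.fr 0 (by have := h.gr.pos; linarith)
  have ok1 := h.gr.ok h.fr 0 h.cK1 hK1
  have hc : ContinuousOn (ch π ρ x r w 0).x (Kc π ρ x w 0 (2 * r) (r / 2)) := fun z hz =>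
    (ok1.hx z hz).continuousAt.continuousWithinAt
  have h1 : IsClosed (Kc π ρ x w 0 (2 * r) (r / 2) ∩ (ch π ρ x r w 0).x ⁻¹' closedBall 0 R) :=
    hc.preimage_isClosed_of_isClosed h.cK1.isClosed isClosed_closedBall
  have h2 : Kc π ρ x w 0 (2 * r) (r / 2) ∩
      Kc (rπ π ρ q H) (rρ π ρ q H') x w' 0 (2 * r') (r' / 2) ∩
        (ch π ρ x r w 0).x ⁻¹' closedBall 0 R =
      Kc (rπ π ρ q H) (rρ π ρ q H') x w' 0 (2 * r') (r' / 2) ∩
        (Kc π ρ x w 0 (2 * r) (r / 2) ∩ (ch π ρ x r w 0).x ⁻¹' closedBall 0 R) := by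
    ext z
    simp only [mem_inter_iff]
    tauto
  rw [h2]
  exact h.cK2.inter_right h1

end Reg

end Crest.Agent.R234.Swb_159
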