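import Crest.Agent.R234.Swb8_159

/-!
# Row 234, F6-BLOCK (helper159), part 9: `EE`, `II` of the two regions

`Reg.EE_two`, `Reg.II_two`: comparison of the functionals of the two references, each over its own
region; `Reg.integral_le` : the quantities on the right may be taken over the first region.
-/

set_option autoImplicit false
set_option linter.unusedSectionVars false

open MeasureTheory Set Metric Filter Topology
open Crest.GeometryTopology.Submanifold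
open scoped ENNReal NNReal ContDiff RealInnerProductSpace

noncomputable section

namespace Crest.Agent.R234.Swb_159

open Crest.Agent.R234.Vf_884 (L G)
open Crest.Agent.R234.Cy_870 (Ker)
open Crest.Agent.R234.Ell1_3 Crest.Agent.R234.Main_456 Crest.Agent.R234.Grot_842
open Crest.Agent.R234.GL_394 (Ch Ok On VK)
open Crest.Agent.R234.Gi_456 (Gr tube IsFoot foot yy Bt Lo Loi ch Kc)

local notation "adj" => ContinuousLinearMap.adjoint

variable {m n k : ℕ} {q : Euc m →L[ℝ] Euc n} {H : Euc m →L[ℝ] Euc m} {H' : Euc n →L[ℝ] Euc n}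
  {w w' : Euc m → Euc n} {A : Set (Euc m)} {π : Euc k →L[ℝ] Euc m} {ρ : Euc k →L[ℝ] Euc n}
  {x : Euc k} {r r' R σ : ℝ} {V : Measure (Euc k × L k)}

/-- the region of a reference (518's `Mo.reg`) -/
def rgn (π : Euc k →L[ℝ] Euc m) (ρ : Euc k →L[ℝ] Euc n) (x : Euc k) (r : ℝ) (w : Euc m → Euc n) :
    Set (Euc k) := Kc π ρ x w 0 (2 * r) (r / 2)

/-- the common compact -/
def rg0 (π : Euc k →L[ℝ] Euc m) (ρ : Euc k →L[ℝ] Euc n) (x : Euc k) (q : Euc m →L[ℝ] Euc n)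
    (H : Euc m →L[ℝ] Euc m) (H' : Euc n →L[ℝ] Euc n) (r r' : ℝ) (w w' : Euc m → Euc n) (R : ℝ) :
    Set (Euc k) :=
  rgn π ρ x r w ∩ rgn (rπ π ρ q H) (rρ π ρ q H') x r' w' ∩
    (ch π ρ x r w 0).x ⁻¹' closedBall 0 R

namespace Reg

variable (h : Reg π ρ x q H H' r r' w w' A R σ V)
include h

theorem m0 : MeasurableSet (rg0 π ρ x q H H' r r' w w' R ×ˢ (univ : Set (L k))) :=
  h.cK0.isClosed.measurableSet.prod MeasurableSet.univ

theorem m1 : MeasurableSet (rgn π ρ x r w ×ˢ (univ : Set (L k))) :=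
  h.cK1.isClosed.measurableSet.prod MeasurableSet.univ

theorem m2 : MeasurableSet (rgn (rπ π ρ q H) (rρ π ρ q H') x r' w' ×ˢ (univ : Set (L k))) :=
  h.cK2.isClosed.measurableSet.prod MeasurableSet.univ

/-- points of the first region outside the common compact are far -/
theorem ae1 : ∀ᵐ p ∂V, p ∈ rgn π ρ x r w ×ˢ (univ : Set (L k)) →
    p ∉ rg0 π ρ x q H H' r r' w w' R ×ˢ (univ : Set (L k)) → R < ‖(ch π ρ x r w 0).x p.1‖ := by
  filter_upwards [h.flat] with p hp h1 h2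
  by_contra h3
  push Not at h3
  refine h2 ⟨⟨⟨h1.1, ?_⟩, mem_closedBall_zero_iff.2 h3⟩, mem_univ _⟩
  exact (h.mem2_of h1.1 (hp (h.mem_ball_of_mem1 h1.1)) h3).1

theorem ae2 {e : ℝ} (he : (1 + ‖fderiv ℝ w 0‖ ^ 2) *
    ((1 + ‖q‖ ^ 2) * e + ‖q‖ * (r' / 16)) ≤ R) :
    ∀ᵐ p ∂V, p ∈ rgn (rπ π ρ q H) (rρ π ρ q H') x r' w' ×ˢ (univ : Set (L k)) →
    p ∉ rg0 π ρ x q H H' r r' w w' R ×ˢ (univ : Set (L k)) →
      e ≤ ‖(ch (rπ π ρ q H) (rρ π ρ q H') x r' w' 0).x p.1‖ := by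
  filter_upwards [h.flat] with p hp h1 h2
  have hfl := hp (h.mem_ball_of_mem2 h1.1)
  rcases le_or_gt ‖(ch π ρ x r w 0).x p.1‖ R with h3 | h3
  · exact absurd ⟨⟨⟨h.mem1_of h1.1 hfl h3, h1.1⟩, mem_closedBall_zero_iff.2 h3⟩, mem_univ _⟩ h2
  · exact h.far h1.1 he h3

theorem fin0 : V (rg0 π ρ x q H H' r r' w w' R ×ˢ (univ : Set (L k))) < ⊤ :=
  (measure_mono (prod_mono_left fun _ hz => hz.1.1)).trans_lt h.fin

theorem on0 : On (VK V (rg0 π ρ x q H H' r r' w w' R)) m (rg0 π ρ x q H H' r r' w w' R) where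
  fin := ⟨by
    rw [VK, Measure.restrict_apply_univ]
    exact h.fin0⟩
  mem := by
    rw [VK, ae_restrict_iff' h.m0]
    filter_upwards [h.pl] with p hp h1
    exact ⟨h1.1, hp h1.1.1.1⟩

theorem on1 : On (VK V (rgn π ρ x r w)) m (rgn π ρ x r w) where
  fin := ⟨by
    rw [VK, Measure.restrict_apply_univ]
    exact h.fin⟩
  mem := by
    rw [VK, ae_restrict_iff' h.m1]
    filter_upwards [h.pl] with p hp h1
    exact ⟨h1.1, hp h1.1⟩

theorem near0 : Near π ρ x q H H' r r' w w' 0 0 R (VK V (rg0 π ρ x q H H' r r' w w' R)) := by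
  unfold Near
  rw [VK, ae_restrict_iff' h.m0]
  filter_upwards [h.flat] with p hp h1
  refine Or.inl ⟨(h.mem1.1 h1.1.1.1).1, mem_closedBall_zero_iff.1 h1.1.2, ?_⟩
  have h2 := (h.small h1.1.1.1 (hp (h.mem_ball_of_mem1 h1.1.1.1))).2
  have := h.r0'
  linarith

theorem sub1 : rg0 π ρ x q H H' r r' w w' R ×ˢ (univ : Set (L k)) ⊆
    rgn π ρ x r w ×ˢ (univ : Set (L k)) := prod_mono_left fun _ hz => hz.1.1

theorem sub2 : rg0 π ρ x q H H' r r' w w' R ×ˢ (univ : Set (L k)) ⊆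
    rgn (rπ π ρ q H) (rρ π ρ q H') x r' w' ×ˢ (univ : Set (L k)) :=
  prod_mono_left fun _ hz => hz.1.2

/-- restriction for the first chart -/
theorem EE1 {g g1 : ℝ → ℝ} (hg : Ker g g1) (Q : ℝ) {l : ℝ} (hl : Real.exp l ≤ R) :
    GL_394.EE (ch π ρ x r w 0) (VK V (rgn π ρ x r w)) g Q l =
      GL_394.EE (ch π ρ x r w 0) (VK V (rg0 π ρ x q H H' r r' w w' R)) g Q l := by
  have := EE_restrict (c := ch π ρ x r w 0) h.m1 h.m0 hg (l := l) (by
    filter_upwards [h.ae1] with p hp h1 h2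
    exact hl.trans (hp h1 h2).le) Q
  rw [inter_eq_self_of_subset_right h.sub1] at this
  exact this

theorem EE2 {g g1 : ℝ → ℝ} (hg : Ker g g1) (Q : ℝ) {l : ℝ} (he : (1 + ‖fderiv ℝ w 0‖ ^ 2) *
    ((1 + ‖q‖ ^ 2) * Real.exp l + ‖q‖ * (r' / 16)) ≤ R) :
    GL_394.EE (ch (rπ π ρ q H) (rρ π ρ q H') x r' w' 0)
      (VK V (rgn (rπ π ρ q H) (rρ π ρ q H') x r' w')) g Q l =
      GL_394.EE (ch (rπ π ρ q H) (rρ π ρ q H') x r' w' 0)
        (VK V (rg0 π ρ x q H H' r r' w w' R)) g Q l := by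
  have := EE_restrict (c := ch (rπ π ρ q H) (rρ π ρ q H') x r' w' 0) h.m2 h.m0 hg (l := l)
    (h.ae2 he) Q
  rw [inter_eq_self_of_subset_right h.sub2] at this
  exact this

theorem II1 {g g1 : ℝ → ℝ} (hg : Ker g g1) {l : ℝ} (hl : Real.exp l ≤ R) :
    GL_394.II (ch π ρ x r w 0) (VK V (rgn π ρ x r w)) g l =
      GL_394.II (ch π ρ x r w 0) (VK V (rg0 π ρ x q H H' r r' w w' R)) g l := by
  have := II_restrict (c := ch π ρ x r w 0) h.m1 h.m0 hg (l := l) (by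
    filter_upwards [h.ae1] with p hp h1 h2
    exact hl.trans (hp h1 h2).le)
  rw [inter_eq_self_of_subset_right h.sub1] at this
  exact this

theorem II2 {g g1 : ℝ → ℝ} (hg : Ker g g1) {l : ℝ} (he : (1 + ‖fderiv ℝ w 0‖ ^ 2) *
    ((1 + ‖q‖ ^ 2) * Real.exp l + ‖q‖ * (r' / 16)) ≤ R) :
    GL_394.II (ch (rπ π ρ q H) (rρ π ρ q H') x r' w' 0)
      (VK V (rgn (rπ π ρ q H) (rρ π ρ q H') x r' w')) g l =
      GL_394.II (ch (rπ π ρ q H) (rρ π ρ q H') x r' w' 0)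
        (VK V (rg0 π ρ x q H H' r r' w w' R)) g l := by
  have := II_restrict (c := ch (rπ π ρ q H) (rρ π ρ q H') x r' w' 0) h.m2 h.m0 hg (l := l)
    (h.ae2 he)
  rw [inter_eq_self_of_subset_right h.sub2] at this
  exact this

/-- functions of the foot with support in the common domain have the same integrals -/
theorem int_eq {F : Euc k × L k → ℝ} {s : ℝ} (hs : s ≤ R)
    (hF : ∀ p, s < ‖(ch π ρ x r w 0).x p.1‖ → F p = 0) :
    ∫ p, F p ∂(VK V (rgn π ρ x r w)) = ∫ p, F p ∂(VK V (rg0 π ρ x q H H' r r' w w' R)) := by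
  refine setIntegral_eq_of_subset_of_ae_sdiff_eq_zero h.m1.nullMeasurableSet h.sub1 ?_
  filter_upwards [h.ae1] with p hp h1
  exact hF p (hs.trans_lt (hp h1.1 h1.2))

/-- integrals of nonnegative functions over the common compact are smaller -/
theorem int_le {F : Euc k × L k → ℝ} (S : Set (Euc k × L k))
    (hi : Integrable F (VK V (rgn π ρ x r w))) (h0 : ∀ᵐ p ∂(VK V (rgn π ρ x r w)), 0 ≤ F p) :
    ∫ p in S, F p ∂(VK V (rg0 π ρ x q H H' r r' w w' R)) ≤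
      ∫ p in S, F p ∂(VK V (rgn π ρ x r w)) := by
  have h1 : VK V (rg0 π ρ x q H H' r r' w w' R) ≤ VK V (rgn π ρ x r w) :=
    Measure.restrict_mono h.sub1 le_rfl
  exact integral_mono_measure (Measure.restrict_mono le_rfl h1) (ae_restrict_of_ae h0)
    hi.restrict

/-- **the excess of one surface in two frames, each over its own region** -/
theorem EE_two {g g1 : ℝ → ℝ} (hg : Ker g g1) {G1 : ℝ} (hG : ∀ t, 0 ≤ t → |g1 t| ≤ G1) (Q : ℝ)
    {l : ℝ} (hb : 2 * ‖psi q H w 0‖ ≤ σ * Real.exp l) (hl : (1 + 3 * σ) * Real.exp l ≤ R)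
    (he : (1 + ‖fderiv ℝ w 0‖ ^ 2) *
      ((1 + ‖q‖ ^ 2) * Real.exp l + ‖q‖ * (r' / 16)) ≤ R)
    (hτ0 : ∀ᵐ p ∂(VK V (rgn π ρ x r w)), 0 ≤ (ch π ρ x r w 0).tau p.1 p.2)
    {e2 : Measure (Euc m)} (hfin : e2 (closedBall 0 ((1 + 3 * σ) * Real.exp l)) ≠ ⊤)
    (habs : ∀ f : Euc m → ℝ, Measurable f → (∃ C, ∀ v, |f v| ≤ C) →
      (∀ v ∉ closedBall (0 : Euc m) ((1 + 3 * σ) * Real.exp l), f v = 0) →
      |∫ p, f ((ch π ρ x r w 0).x p.1) * (1 - (ch π ρ x r w 0).tau p.1 p.2 / 2)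
        ∂(VK V (rgn π ρ x r w)) - Q * ∫ v, f v * (ch π ρ x r w 0).j v| ≤ ∫ v, |f v| ∂e2) :
    |GL_394.EE (ch (rπ π ρ q H) (rρ π ρ q H') x r' w' 0)
        (VK V (rgn (rπ π ρ q H) (rρ π ρ q H') x r' w')) g Q l -
      GL_394.EE (ch π ρ x r w 0) (VK V (rgn π ρ x r w)) g Q l| ≤
        12 * G1 * σ * (Real.exp ((2 - m) * l) *
          (e2.real (closedBall 0 ((1 + 3 * σ) * Real.exp l)) +
            (1 / 2) * ∫ p in {p | ‖(ch π ρ x r w 0).x p.1‖ ≤ (1 + 3 * σ) * Real.exp l},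
              (ch π ρ x r w 0).tau p.1 p.2 ∂(VK V (rgn π ρ x r w)))) := by
  have hs0 := h.s0
  have hexp := Real.exp_pos l
  have hlR : Real.exp l ≤ R := le_trans (by nlinarith) hl
  have hK1 : rg0 π ρ x q H H' r r' w w' R ⊆ tube π ρ x r w := fun z hz =>
    (h.mem1.1 hz.1.1).1
  have hK2 : rg0 π ρ x q H H' r r' w w' R ⊆ tube (rπ π ρ q H) (rρ π ρ q H') x r' w' :=
    fun z hz => (h.mem2.1 hz.1.2).1
  have ok1 := h.gr.ok h.fr 0 h.cK1 (fun z hz => (h.mem1.1 hz).1)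
  have hle0 : VK V (rg0 π ρ x q H H' r r' w w' R) ≤ VK V (rgn π ρ x r w) :=
    Measure.restrict_mono h.sub1 le_rfl
  have h0' : ∀ᵐ p ∂(VK V (rg0 π ρ x q H H' r r' w w' R)), 0 ≤ (ch π ρ x r w 0).tau p.1 p.2 :=
    ae_mono hle0 hτ0
  have hb' : 2 * ‖psi q H w 0 - 0‖ ≤ σ * Real.exp l := by rwa [sub_zero]
  have hG10 : 0 ≤ G1 := (abs_nonneg _).trans (hG 0 le_rfl)
  have key := h.toTwo.block_EE h.cK0 hK1 hK2 h.on0 h.near0 hg hG Q hb' hl h0' hfin (by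
    intro f hf hfb hfs
    refine le_of_eq_of_le ?_ (habs f hf hfb hfs)
    have := h.int_eq (F := fun p => f ((ch π ρ x r w 0).x p.1) *
      (1 - (ch π ρ x r w 0).tau p.1 p.2 / 2)) hl (fun p hp => by
        show f ((ch π ρ x r w 0).x p.1) * _ = 0
        rw [hfs _ (fun hc => absurd (mem_closedBall_zero_iff.1 hc) (not_le.2 hp)), zero_mul])
    rw [this])
  rw [h.EE1 hg Q hlR, h.EE2 hg Q he]
  refine key.trans ?_
  have h2 := h.int_le {p | ‖(ch π ρ x r w 0).x p.1‖ ≤ (1 + 3 * σ) * Real.exp l}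
    (F := fun p => (ch π ρ x r w 0).tau p.1 p.2) (h.on1.integrable h.cK1 ok1.ctau) hτ0
  have h3 : 0 ≤ Real.exp ((2 - m) * l) := (Real.exp_pos _).le
  have h4 : 0 ≤ 12 * G1 * σ := by positivity
  refine mul_le_mul_of_nonneg_left (mul_le_mul_of_nonneg_left ?_ h3) h4
  exact add_le_add le_rfl (mul_le_mul_of_nonneg_left h2 (by norm_num))

/-- **the height functional of one surface in two frames, each over its own region** -/
theorem II_two {g1 g2 : ℝ → ℝ} (hg : Ker g1 g2) {G1 G2 : ℝ} (hG1 : ∀ t, 0 ≤ t → |g1 t| ≤ G1)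
    (hG2 : ∀ t, 0 ≤ t → |g2 t| ≤ G2) {l : ℝ} (hb : 2 * ‖psi q H w 0‖ ≤ σ * Real.exp l)
    (hl : (1 + 3 * σ) * Real.exp l ≤ R)
    (he : (1 + ‖fderiv ℝ w 0‖ ^ 2) *
      ((1 + ‖q‖ ^ 2) * Real.exp l + ‖q‖ * (r' / 16)) ≤ R) :
    |GL_394.II (ch (rπ π ρ q H) (rρ π ρ q H') x r' w' 0)
        (VK V (rgn (rπ π ρ q H) (rρ π ρ q H') x r' w')) g1 l -
      GL_394.II (ch π ρ x r w 0) (VK V (rgn π ρ x r w)) g1 l| ≤
        (64 * G1 + 72 * G2) * σ * (Real.exp (-m * l) *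
          ∫ p in {p | ‖(ch π ρ x r w 0).x p.1‖ ≤ (1 + 3 * σ) * Real.exp l},
            (ch π ρ x r w 0).f p.1 ∂(VK V (rgn π ρ x r w))) := by
  have hs0 := h.s0
  have hexp := Real.exp_pos l
  have hlR : Real.exp l ≤ R := le_trans (by nlinarith) hl
  have hK1 : rg0 π ρ x q H H' r r' w w' R ⊆ tube π ρ x r w := fun z hz =>
    (h.mem1.1 hz.1.1).1
  have hK2 : rg0 π ρ x q H H' r r' w w' R ⊆ tube (rπ π ρ q H) (rρ π ρ q H') x r' w' :=
    fun z hz => (h.mem2.1 hz.1.2).1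
  have ok1 := h.gr.ok h.fr 0 h.cK1 (fun z hz => (h.mem1.1 hz).1)
  have hb' : 2 * ‖psi q H w 0 - 0‖ ≤ σ * Real.exp l := by rwa [sub_zero]
  have hG10 : 0 ≤ G1 := (abs_nonneg _).trans (hG1 0 le_rfl)
  have hG20 : 0 ≤ G2 := (abs_nonneg _).trans (hG2 0 le_rfl)
  have key := h.toTwo.block_II h.cK0 hK1 hK2 h.on0 h.near0 hg hG1 hG2 hb' hl
  rw [h.II1 hg hlR, h.II2 hg he]
  refine key.trans ?_
  have hfc : ContinuousOn (fun p : Euc k × L k => (ch π ρ x r w 0).f p.1)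
      (Kc π ρ x w 0 (2 * r) (r / 2) ×ˢ G m k) := by
    have h2 : ContinuousOn (ch π ρ x r w 0).f (Kc π ρ x w 0 (2 * r) (r / 2)) := fun z hz =>
      (ok1.hf z hz).continuousAt.continuousWithinAt
    exact h2.comp continuousOn_fst fun p hp => hp.1
  have h2 := h.int_le {p | ‖(ch π ρ x r w 0).x p.1‖ ≤ (1 + 3 * σ) * Real.exp l}
    (F := fun p => (ch π ρ x r w 0).f p.1) (h.on1.integrable h.cK1 hfc)
    (Filter.Eventually.of_forall fun p => by
      show 0 ≤ ‖Bt π ρ w (foot π ρ x r w p.1) (yy π ρ x r w p.1)‖ ^ 2 / 2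
      positivity)
  have h4 : 0 ≤ (64 * G1 + 72 * G2) * σ := by positivity
  exact mul_le_mul_of_nonneg_left (mul_le_mul_of_nonneg_left h2 (Real.exp_pos _).le) h4

end Reg

end Crest.Agent.R234.Swb_159
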