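import Crest.Agent.R234.Sw17_733
import Crest.Agent.R234.Sw7_733
import Crest.Agent.R234.Nrm2_842
import Crest.Agent.R234.Stp3_518

/-!
# Row 234 (helper395), SWITCH: two references with small means are close (1)

* `lowbase` : the projected mass has a lower density at every scale `ρ` above the heights.
* `close_core` : if two references have small means, their difference is small relative to its
  a priori size.
-/

set_option autoImplicit false
set_option linter.unusedSectionVars false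
set_option linter.unusedVariables false

open MeasureTheory Set Metric Filter Topology
open scoped ENNReal NNReal ContDiff
open Crest.GeometryTopology.Submanifold
open Crest.Agent.R234.Ell1_3 Crest.Agent.R234.Vf_884
open Crest.Agent.R234.Main_456 (Frame hgt)
open Crest.Agent.R234.Stp_518 (Mo GrB)
open Crest.Agent.R234.Gi_456 (Lo Loi Gr tube)
open Crest.Agent.R234.Sw_733
open Crest.Agent.R234.MG_570 (MG bar)

noncomputable section

namespace Crest.Agent.R234.Swc_395

variable {m n k : ℕ}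

theorem vol_cb (z : Euc m) {r : ℝ} (hr : 0 ≤ r) :
    (volume : Measure (Euc m)).real (closedBall z r) = ome m * r ^ m := by
  have h1 := ome_pos m
  rw [measureReal_def, Measure.addHaar_closedBall volume z hr, finrank_euclideanSpace,
    Fintype.card_fin, ENNReal.toReal_mul, ENNReal.toReal_ofReal (by positivity)]
  show r ^ m * ome m = _
  ring

variable {U : Set (Euc k)} {D : VarifoldData m k} {Q : ℕ} {x : Euc k} {M N : Mo m n k}
  {ε Λ l K b η h T B σ τ : ℝ}

/-- radius of the cylinder of the means. -/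
def A2 (M : Mo m n k) (l K : ℝ) : ℝ := R0 M l * (1 + 1 / (16 * K))

/-- the projected mass, block units. -/
def base (M : Mo m n k) (x : Euc k) (D : VarifoldData m k) (l K : ℝ) : Measure (Euc m) :=
  (Top_395.wz m (VD D) x M.S M.π M.ρ (A2 M l K)).map (fun p => M.π p.1)

theorem A2_le (H : Pk U D Q x M ε Λ l K b η h T B) : A2 M l K ≤ 3 / 2 := by
  have hK0 : 0 < K := by linarith [H.K32]
  have h1 := H.R0_le
  have h2 := R0_pos M l
  have h3 : 1 / (16 * K) ≤ 1 / 2 := by
    rw [div_le_div_iff₀ (by positivity) (by norm_num)]; linarith [H.K32]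
  have h4 : 0 < 1 / (16 * K) := by positivity
  unfold A2
  nlinarith

theorem base_apply {s : Set (Euc m)} (hs : MeasurableSet s) :
    base M x D l K s = (St.mu (M := M) (Pk.VZ M x (VD D) (A2 M l K)))
      ((fun p : Euc k × Vf_884.L k => St.a M x p.1) ⁻¹' s) := by
  have hm1 : Measurable fun p : Euc k × Vf_884.L k => M.π p.1 :=
    (M.π.continuous.comp continuous_fst).measurable
  unfold base
  rw [Measure.map_apply hm1 hs, ← map_mu, Measure.map_apply (Vc_164.measurable_hom x M.S) (hm1 hs)]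
  congr 1
  ext p
  show M.π (M.S⁻¹ • (p.1 - x)) ∈ s ↔ M.S⁻¹ • M.π (p.1 - x) ∈ s
  rw [map_smul]

theorem continuous_a : Continuous fun p : Euc k × Vf_884.L k => St.a M x p.1 :=
  (M.π.continuous.comp (continuous_fst.sub continuous_const)).const_smul (M.S⁻¹)

/-- **lower density of the projected mass.** -/
theorem lowbase (H : Pk U D Q x M ε Λ l K b η h T B) {ρ : ℝ} {z : Euc m} (hρ : 0 < ρ)
    (hhρ : h ≤ ρ) (hz : ‖z‖ + ρ / 4 ≤ R0 M l * (1 + 3 / (64 * K)))
    (hB : B ≤ ome m / 2 * (ρ / 4) ^ m) :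
    ome m / 2 * (ρ / 4) ^ m ≤ (base M x D l K).real (closedBall z (ρ / 2)) := by
  have hS := M.S_pos
  have hR := R0_pos M l
  have hR1 := H.R0_le
  obtain ⟨k0, k1⟩ := H.dK
  have hK0 : 0 < K := by linarith [H.K32]
  have e4 : 1 / (4 * K) = 1 / K / 4 := by field_simp
  have e64 : 1 / (64 * K) = 1 / K / 64 := by field_simp
  have e364 : 3 / (64 * K) = 3 * (1 / K) / 64 := by field_simp
  have e16 : 1 / (16 * K) = 1 / K / 16 := by field_simp
  have e512 : R0 M l / (512 * K) = R0 M l * (1 / K) / 512 := by field_simp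
  have hSR := S_R0 M l
  have hη := H.hη
  rw [e512] at hη
  have hE := Real.exp_pos l
  have hfr := H.sit.pack.frame
  have hRK : 0 < R0 M l * (1 / K) := by positivity
  rw [e364] at hz
  set f : Euc m → ℝ := (closedBall z (ρ / 4)).indicator fun _ => (1:ℝ) with hf
  set f' : Euc m → ℝ := (closedBall z (ρ / 2)).indicator fun _ => (1:ℝ) with hf'
  have hcb : MeasurableSet (closedBall z (ρ / 4)) := isClosed_closedBall.measurableSet
  have hcb' : MeasurableSet (closedBall z (ρ / 2)) := isClosed_closedBall.measurableSet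
  -- total variation
  have htv := H.tvb (f := f) (s := 1) (measurable_const.indicator hcb) (fun v => by
    rw [hf]
    by_cases hv : v ∈ closedBall z (ρ / 4)
    · rw [indicator_of_mem hv]; simp
    · rw [indicator_of_notMem hv]; simp) (fun v hv => by
    rw [hf]
    refine indicator_of_notMem ?_ _
    intro hc
    rw [mem_closedBall_iff_norm] at hc
    have : ‖v‖ ≤ ‖v - z‖ + ‖z‖ := by
      calc ‖v‖ = ‖(v - z) + z‖ := by congr 1; abel
        _ ≤ _ := norm_add_le _ _
    rw [e16] at hv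
    nlinarith)
  rw [one_mul] at htv
  -- the area
  have hcd : Continuous fun v => dns (fderiv ℝ M.u v) :=
    dns_contDiff.continuous.comp (H.gr.cu.continuous_fderiv (by norm_num))
  have harea : ome m * (ρ / 4) ^ m ≤ ∫ v, f v * dns (fderiv ℝ M.u v) := by
    have e1 : ∫ v, f v * dns (fderiv ℝ M.u v) = ∫ v in closedBall z (ρ / 4), dns (fderiv ℝ M.u v) := by
      rw [← integral_indicator hcb]
      refine integral_congr_ae (Eventually.of_forall fun v => ?_)
      simp only [hf]
      by_cases hv : v ∈ closedBall z (ρ / 4)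
      · rw [indicator_of_mem hv, indicator_of_mem hv, one_mul]
      · rw [indicator_of_notMem hv, indicator_of_notMem hv, zero_mul]
    have hi : IntegrableOn (fun v => dns (fderiv ℝ M.u v)) (closedBall z (ρ / 4)) :=
      hcd.continuousOn.integrableOn_compact (isCompact_closedBall _ _)
    have hfin : volume (closedBall z (ρ / 4)) ≠ ⊤ := measure_closedBall_lt_top.ne
    rw [e1]
    calc ome m * (ρ / 4) ^ m = ∫ _y in closedBall z (ρ / 4), (1:ℝ) := by
          rw [setIntegral_const, vol_cb z (by positivity), smul_eq_mul, mul_one]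
      _ ≤ _ := setIntegral_mono (integrableOn_const hfin) hi fun y => Nrm_842.one_le_dns _
  have hQ : (1:ℝ) ≤ Q := by exact_mod_cast H.sit.Q1
  have ho := ome_pos m
  have hlow : ome m * (ρ / 4) ^ m - B ≤
      (M.S ^ m)⁻¹ * ∫ p, f (St.X M x p.1) ∂(M.VM x (VD D)) := by
    have h1 := (abs_le.1 htv).1
    have h2 : ome m * (ρ / 4) ^ m ≤ Q * ∫ v, f v * dns (fderiv ℝ M.u v) := by
      have h3 : 0 ≤ ∫ v, f v * dns (fderiv ℝ M.u v) := le_trans (by positivity) harea
      nlinarith
    linarith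
  -- the comparison
  set VZ := Pk.VZ M x (VD D) (A2 M l K) with hVZ
  have hfinZ : VZ univ < ⊤ := by
    have h1 := H.sit.pack.mass_le (A2 M l K) (by have := A2_le H; linarith)
    rw [← map_mu, Measure.map_apply (Vc_164.measurable_hom x M.S) MeasurableSet.univ] at h1
    have h2 : (St.mu (M := M) VZ) univ < ⊤ := lt_of_le_of_lt h1 ENNReal.ofReal_lt_top
    unfold St.mu at h2
    rw [Measure.smul_apply, smul_eq_mul] at h2
    rcases ENNReal.mul_lt_top_iff.1 h2 with h3 | h3 | h3
    · exact h3.2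
    · rw [ENNReal.ofReal_eq_zero] at h3
      have : 0 < (M.S ^ m)⁻¹ := by positivity
      linarith
    · rw [h3]; exact ENNReal.zero_lt_top
  have : IsFiniteMeasure VZ := ⟨hfinZ⟩
  have hpre : MeasurableSet ((fun p : Euc k × Vf_884.L k => St.a M x p.1) ⁻¹' closedBall z (ρ / 2)) :=
    continuous_a.measurable hcb'
  have hcomp : ∫ p, f (St.X M x p.1) ∂(M.VM x (VD D)) ≤
      VZ.real ((fun p : Euc k × Vf_884.L k => St.a M x p.1) ⁻¹' closedBall z (ρ / 2)) := by
    have e1 : VZ.real ((fun p : Euc k × Vf_884.L k => St.a M x p.1) ⁻¹' closedBall z (ρ / 2)) =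
        ∫ p, ((fun p : Euc k × Vf_884.L k => St.a M x p.1) ⁻¹' closedBall z (ρ / 2)).indicator
          (fun _ => (1:ℝ)) p ∂VZ := by
      rw [integral_indicator hpre, setIntegral_const, smul_eq_mul, mul_one]
    rw [e1, hVZ]
    unfold Pk.VZ Mo.VM GL_394.VK
    rw [← integral_indicator (Pk.reg_meas H.gr), ← integral_indicator (measurableSet_Zc M x _)]
    refine integral_mono_of_nonneg ?_ ?_ ?_
    · refine Eventually.of_forall fun p => ?_
      refine indicator_nonneg (fun q _ => ?_) p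
      exact indicator_nonneg (fun _ _ => zero_le_one) _
    · have h5 : Integrable (((fun p : Euc k × Vf_884.L k => St.a M x p.1) ⁻¹'
          closedBall z (ρ / 2)).indicator (fun _ => (1:ℝ))) VZ :=
        (integrable_const (1:ℝ)).indicator hpre
      rw [hVZ] at h5
      exact (integrable_indicator_iff (measurableSet_Zc M x _)).2 h5
    · filter_upwards [H.fine, H.onZ (A := A2 M l K) le_rfl] with p h1 h2
      by_cases hr : p ∈ M.reg x ×ˢ (univ : Set (Vf_884.L k))
      · rw [indicator_of_mem hr]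
        by_cases hX : St.X M x p.1 ∈ closedBall z (ρ / 4)
        · have hXn : ‖St.X M x p.1‖ ≤ R0 M l * (1 + 3 * (1 / K) / 64) := by
            rw [mem_closedBall_iff_norm] at hX
            have : ‖St.X M x p.1‖ ≤ ‖St.X M x p.1 - z‖ + ‖z‖ := by
              calc ‖St.X M x p.1‖ = ‖(St.X M x p.1 - z) + z‖ := by congr 1; abel
                _ ≤ _ := norm_add_le _ _
            linarith
          have h3 := H.x_le p.1
          rw [e64] at h3
          rw [e4] at h1
          have h4 := h1 hr.1 (by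
            refine h3.trans ?_
            rw [← hSR, mul_assoc M.S, mul_left_comm]
            refine mul_le_mul_of_nonneg_left ?_ hS.le
            calc (1 + 1 / K / 64) * ‖St.X M x p.1‖ ≤
                  (1 + 1 / K / 64) * (R0 M l * (1 + 3 * (1 / K) / 64)) :=
                  mul_le_mul_of_nonneg_left hXn (by linarith)
              _ = R0 M l * ((1 + 1 / K / 64) * (1 + 3 * (1 / K) / 64)) := by ring
              _ ≤ R0 M l * (1 + 1 / K / 4) := mul_le_mul_of_nonneg_left (by nlinarith) hR.le)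
          have ht : p.1 ∈ tube M.π M.ρ x M.S M.w := by
            have : M.reg x ⊆ tube M.π M.ρ x M.S M.w := H.gr.gr.Kc_subset hfr 0 (by linarith)
            exact this hr.1
          obtain ⟨z9, -⟩ := Pk.tube_bd H.gr.gr ht h4
          have hZ : p.1 ∈ Zc M x (A2 M l K) := by
            refine ⟨?_, Stp_518.rho_le_of_reg H.gr (by linarith [H.hb]) hfr hr.1⟩
            rw [← Pk.norm_a (M := M) (x := x) p.1]
            refine mul_le_mul_of_nonneg_left ?_ hS.le
            have h5 : ‖St.a M x p.1‖ ≤ ‖St.X M x p.1‖ + ‖St.X M x p.1 - St.a M x p.1‖ :=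
              norm_le_norm_add_norm_sub _ _
            unfold A2
            rw [e16]
            nlinarith
          obtain ⟨-, -, -, -, -, z6, -, -⟩ := h2 hZ
          have ha : p ∈ (fun p : Euc k × Vf_884.L k => St.a M x p.1) ⁻¹' closedBall z (ρ / 2) := by
            show St.a M x p.1 ∈ closedBall z (ρ / 2)
            rw [mem_closedBall_iff_norm] at hX ⊢
            have : ‖St.a M x p.1 - z‖ ≤ ‖St.X M x p.1 - z‖ + ‖St.X M x p.1 - St.a M x p.1‖ := by
              calc ‖St.a M x p.1 - z‖ =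
                    ‖(St.X M x p.1 - z) - (St.X M x p.1 - St.a M x p.1)‖ := by congr 1; abel
                _ ≤ _ := norm_sub_le _ _
            linarith
          have hZ' : p ∈ Zc M x (A2 M l K) ×ˢ (univ : Set (Vf_884.L k)) := ⟨hZ, mem_univ _⟩
          rw [indicator_of_mem hZ', indicator_of_mem ha, hf, indicator_of_mem hX]
        · rw [hf, indicator_of_notMem hX]
          refine indicator_nonneg (fun q _ => ?_) p
          exact indicator_nonneg (fun _ _ => zero_le_one) _
      · rw [indicator_of_notMem hr]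
        refine indicator_nonneg (fun q _ => ?_) p
        exact indicator_nonneg (fun _ _ => zero_le_one) _
  have hbase : (base M x D l K).real (closedBall z (ρ / 2)) = (M.S ^ m)⁻¹ *
      VZ.real ((fun p : Euc k × Vf_884.L k => St.a M x p.1) ⁻¹' closedBall z (ρ / 2)) := by
    rw [measureReal_def, base_apply hcb']
    unfold St.mu
    rw [Measure.smul_apply, smul_eq_mul, ENNReal.toReal_mul,
      ENNReal.toReal_ofReal (by positivity)]
    rfl
  rw [hbase]
  have h6 : (M.S ^ m)⁻¹ * ∫ p, f (St.X M x p.1) ∂(M.VM x (VD D)) ≤ (M.S ^ m)⁻¹ *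
      VZ.real ((fun p : Euc k × Vf_884.L k => St.a M x p.1) ⁻¹' closedBall z (ρ / 2)) :=
    mul_le_mul_of_nonneg_left hcomp (by positivity)
  linarith

theorem integrable_bar (hfr : Frame M.π M.ρ) {u : Euc m → Euc n} {b' : ℝ} (hu : Continuous u)
    (hub : ∀ y, ‖u y‖ ≤ b') (hs : Stp_518.Sit U D Q x M ε Λ) {A : ℝ} (hA : A ≤ 2) {ζ : Euc m → ℝ}
    (hζ : Continuous ζ) (hζ1 : ∀ y, ‖ζ y‖ ≤ 1) :
    Integrable (fun p => ζ (M.π p.1) • (M.ρ p.1 - u (M.π p.1)))
      (Top_395.wz m (VD D) x M.S M.π M.ρ A) := by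
  have hfin : IsFiniteMeasure (Top_395.wz m (VD D) x M.S M.π M.ρ A) :=
    ⟨lt_of_le_of_lt (hs.pack.mass_le A hA) ENNReal.ofReal_lt_top⟩
  have hcm : MeasurableSet (Cy_870.cyl M.π M.ρ (0 : Euc m) A 1 ×ˢ (univ : Set (Vf_884.L k))) :=
    (Cy_870.isClosed_cyl M.π M.ρ 0 A 1).measurableSet.prod MeasurableSet.univ
  have hc : Continuous fun p : Euc k × Vf_884.L k => ζ (M.π p.1) • (M.ρ p.1 - u (M.π p.1)) := by
    fun_prop
  refine Integrable.of_bound hc.aestronglyMeasurable (1 + b') ?_
  unfold Top_395.wz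
  filter_upwards [ae_restrict_mem hcm] with p hp
  have h1 : ‖M.ρ p.1‖ ≤ 1 := hp.1.2
  have h2 := hub (M.π p.1)
  have h3 := hζ1 (M.π p.1)
  rw [norm_smul]
  have h4 := norm_sub_le (M.ρ p.1) (u (M.π p.1))
  have h5 := norm_nonneg (M.ρ p.1 - u (M.π p.1))
  calc ‖ζ (M.π p.1)‖ * ‖M.ρ p.1 - u (M.π p.1)‖ ≤ 1 * ‖M.ρ p.1 - u (M.π p.1)‖ := by gcongr
    _ ≤ 1 + b' := by linarith

/-- **difference of the means.** -/
theorem mean_diff (H : Pk U D Q x M ε Λ l K b η h T B) (hπ : N.π = M.π) (hρ : N.ρ = M.ρ)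
    (hlb : N.lb = M.lb) (gN : GrB N b) {ζ : Euc m → ℝ} (hζ : Continuous ζ)
    (hζ1 : ∀ y, ‖ζ y‖ ≤ 1) (hs : ∀ y, A2 M l K < ‖y‖ → ζ y = 0) :
    M.S ^ (m + 1) • ∫ y, ζ y • (N.u y - M.u y) ∂(base M x D l K) =
      M.mean x (VD D) ζ - N.mean x (VD D) ζ := by
  have hS' : N.S = M.S := by unfold Mo.S; rw [hlb]
  have hb8 : b ≤ 1 / 8 := by linarith [H.hb]
  have hε8 : ε ≤ 1 / 8 := by linarith [H.hε]
  have hfr := H.sit.pack.frame
  have hA := A2_le H
  have hsN : Stp_518.Sit U D Q x N ε Λ := H.sit.congr hπ hρ hlb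
  have h1 := Stp_518.mean_eq_bar H.gr hb8 H.sit hε8 hA hζ hs
  have h2 := Stp_518.mean_eq_bar gN hb8 hsN hε8 hA hζ hs
  rw [hS', hπ, hρ] at h2
  rw [h1, h2, ← smul_sub]
  congr 1
  have hcu : Continuous M.u := H.gr.cu.continuous
  have hcu' : Continuous N.u := gN.cu.continuous
  unfold bar
  rw [← integral_sub (integrable_bar hfr hcu H.gr.b0 H.sit (by linarith) hζ hζ1)
    (integrable_bar hfr hcu' gN.b0 H.sit (by linarith) hζ hζ1)]
  have hm1 : Measurable fun p : Euc k × Vf_884.L k => M.π p.1 :=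
    (M.π.continuous.comp continuous_fst).measurable
  have hc : Continuous fun y => ζ y • (N.u y - M.u y) := by fun_prop
  unfold base
  rw [integral_map hm1.aemeasurable hc.aestronglyMeasurable]
  refine integral_congr_ae (Eventually.of_forall fun p => ?_)
  simp only
  rw [← smul_sub]
  congr 1
  abel

set_option maxHeartbeats 1000000 in
/-- **closeness of two references.** -/
theorem close_core (m n Ks J : ℕ) : ∃ C₀ : ℝ, 1 ≤ C₀ ∧ ∀ (k : ℕ) (U : Set (Euc k))
    (D : VarifoldData m k) (Q : ℕ) (x : Euc k) (M N : Mo m n k)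
    (ε Λ l K b η h T B A θ ρ : ℝ), Pk U D Q x M ε Λ l K b η h T B → N.π = M.π → N.ρ = M.ρ →
    N.lb = M.lb → GrB N b → ContDiff ℝ ((J + 1 : ℕ) : ℕ∞) (fun y => N.u y - M.u y) → 0 ≤ A →
    (∀ j ≤ J + 1, ∀ z, ‖iteratedFDeriv ℝ j (fun y => N.u y - M.u y) z‖ ≤ A) →
    0 < ρ → ρ ≤ R0 M l / (16 * K) → h ≤ ρ → B ≤ ome m / 2 * (ρ / 4) ^ m →
    Stp_518.MeanK Ks M x (VD D) (R0 M l * (1 + 1 / (8 * K))) (M.S * θ) →
    Stp_518.MeanK Ks N x (VD D) (R0 M l * (1 + 1 / (8 * K))) (M.S * θ) →
    2 * θ ≤ ρ ^ (m + Ks + 1) * A →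
    ∀ j ≤ J, ∀ z ∈ ball (0 : Euc m) (R0 M l * (1 + 1 / (64 * K))),
      ‖iteratedFDeriv ℝ j (fun y => N.u y - M.u y) z‖ ≤ C₀ * (K / R0 M l) * rt ρ J * A := by
  obtain ⟨C₁, hC₁, HC⟩ := interpN (Euc m) Ks J
  have ho := ome_pos m
  set c : ℝ := min 1 (ome m / (2 * 4 ^ m)) with hc
  have hc0 : 0 < c := by positivity
  have hc1 : c ≤ 1 := min_le_left _ _
  refine ⟨64 * C₁ / c, ?_, ?_⟩
  · rw [le_div_iff₀ hc0]; linarith
  intro k U D Q x M N ε Λ l K b η h T B A θ ρ H hπ hρ' hlb gN hcd hA hAb hρ hρK hhρ hB hM hN hθ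
  have hS := M.S_pos
  have hR := R0_pos M l
  have hR1 := H.R0_le
  obtain ⟨k0, k1⟩ := H.dK
  have hK0 : 0 < K := by linarith [H.K32]
  have e64 : 1 / (64 * K) = 1 / K / 64 := by field_simp
  have e364 : 3 / (64 * K) = 3 * (1 / K) / 64 := by field_simp
  have e16 : 1 / (16 * K) = 1 / K / 16 := by field_simp
  have e8 : 1 / (8 * K) = 1 / K / 8 := by field_simp
  have eR64 : R0 M l / (64 * K) = R0 M l * (1 / K) / 64 := by field_simp
  have eR16 : R0 M l / (16 * K) = R0 M l * (1 / K) / 16 := by field_simp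
  rw [eR16] at hρK
  set δ := 1 / K with hδ
  have hRδ : 0 < R0 M l * δ := by positivity
  have hRδ1 : R0 M l * δ ≤ 1 / 32 := by nlinarith
  have hS' : N.S = M.S := by unfold Mo.S; rw [hlb]
  have hmain := HC (Euc n) m (base M x D l K) (fun y => N.u y - M.u y)
    (R0 M l * (1 + 1 / (64 * K))) (R0 M l / (64 * K)) A ρ c hcd (by positivity)
    (by rw [eR64]; linarith) hρ (by linarith) hc0 hc1 hA (fun j hj z _ => hAb j hj z) ?_ ?_ ?_
  · intro j hj z hz
    refine (hmain j hj z hz).trans (le_of_eq ?_)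
    field_simp
  · refine lt_of_le_of_lt (measure_mono (subset_univ _)) ?_
    unfold base
    have hm1 : Measurable fun p : Euc k × Vf_884.L k => M.π p.1 :=
      (M.π.continuous.comp continuous_fst).measurable
    rw [Measure.map_apply hm1 MeasurableSet.univ]
    refine lt_of_le_of_lt (measure_mono (subset_univ _)) ?_
    exact lt_of_le_of_lt (H.sit.pack.mass_le _ (by have := A2_le H; linarith))
      ENNReal.ofReal_lt_top
  · intro z hz
    rw [mem_ball_zero_iff, eR64, e64] at hz
    have h1 := lowbase H (ρ := ρ) (z := z) hρ hhρ (by rw [e364]; nlinarith) hB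
    refine le_trans ?_ h1
    calc c * ρ ^ m ≤ ome m / (2 * 4 ^ m) * ρ ^ m := by
          gcongr
          exact min_le_right _ _
      _ = ome m / 2 * (ρ / 4) ^ m := by rw [div_pow]; field_simp
  · intro ζ hζ hζs hζb
    have hζ0 : ∀ y, ‖ζ y‖ ≤ 1 := fun y => by
      have := hζb 0 (Nat.zero_le _) y
      rwa [norm_iteratedFDeriv_zero] at this
    have hout : ∀ y, R0 M l * (1 + δ / 32) ≤ ‖y‖ → ζ y = 0 := by
      intro y hy
      refine image_eq_zero_of_notMem_tsupport fun hcn => ?_
      have h2 := hζs hcn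
      rw [mem_ball_zero_iff, eR64, e64] at h2
      nlinarith
    have hd := mean_diff H hπ hρ' hlb gN hζ.continuous hζ0 (fun y hy => by
      refine hout y ?_
      unfold A2 at hy
      rw [e16] at hy
      nlinarith)
    have hsub : tsupport ζ ⊆ ball 0 (R0 M l * (1 + 1 / (8 * K))) := by
      refine hζs.trans (ball_subset_ball ?_)
      rw [e8, e64, eR64]
      nlinarith
    have h1 := hM ζ hζ hsub hζb
    have h2 := hN ζ hζ hsub hζb
    rw [hS'] at h2
    have h3 : M.S ^ (m + 1) * ‖∫ y, ζ y • (N.u y - M.u y) ∂(base M x D l K)‖ ≤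
        M.S ^ (m + 1) * (2 * θ) := by
      have e5 := congrArg norm hd
      rw [norm_smul, Real.norm_of_nonneg (show 0 ≤ M.S ^ (m + 1) by positivity)] at e5
      rw [e5]
      have e : M.S ^ (m + 1) * (2 * θ) = M.S ^ m * (M.S * θ) + M.S ^ m * (M.S * θ) := by ring
      rw [e]
      exact (norm_sub_le _ _).trans (add_le_add h1 h2)
    exact (le_of_mul_le_mul_left h3 (by positivity)).trans hθ

end Crest.Agent.R234.Swc_395
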