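import Crest.Agent.R234.Th9_164

/-!
Row 234, VF-THETA part 10 (helper164): the one scale form.  If in `ball c (4r)` the tilt energy is small and the mass
ratio is close to `Q` at scale `r`, then `∫_(ball c (r/2)) |N - Q| ≤ K es (ball c r)`.
-/

set_option autoImplicit false

open Set Filter Topology MeasureTheory Metric
open scoped ENNReal NNReal ContDiff

noncomputable section

namespace Crest.Agent.R234.Th_164

variable {d : ℕ}

set_option maxHeartbeats 1600000 in
/-- **VF-THETA at one scale, abstract form** -/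
theorem one_scale {C : ℝ} (hSC : SC2 d C) (Q : ℕ) {C₁ : ℝ} (hC₁ : 0 ≤ C₁) {ε : ℝ} (hε : 0 < ε)
    (hε1 : ε ≤ 1) (hεω : ε * (1 + 4 ^ d) < om d) :
    ∃ c₁ : ℝ, 0 < c₁ ∧ c₁ ≤ 1 / 2 ∧ ∃ δ₁ : ℝ, 0 < δ₁ ∧ δ₁ ≤ 1 ∧ ∃ δ₂ : ℝ, 0 < δ₂ ∧ δ₂ ≤ δ₁ ∧
      ∃ K : ℝ, 0 < K ∧
      ∀ (c₀ g : ℝ) (R : Set (Eu d)) (N : Eu d → ℝ) (μ e es G : Measure (Eu d)),
        0 ≤ c₀ → c₀ ≤ c₁ → 0 ≤ g → Hyp C₁ c₀ g R N μ e es G →
        ∀ (c : Eu d) (r : ℝ), 0 < r → ball c (4 * r) ⊆ R → g * r ≤ δ₂ →
          μ (ball c (4 * r)) ≤ ENNReal.ofReal ((Q + 1) * om d * (4 * r) ^ d) →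
          e (ball c (4 * r)) ≤ ENNReal.ofReal (δ₂ * r ^ d) →
          es (ball c r) ≤ ENNReal.ofReal (δ₂ * r ^ d) →
          |μ.real (ball c r) - Q * om d * r ^ d| ≤ om d / 4 * r ^ d →
          (∫ y in ball c r, |N y - Q| ≤ ε * (r / 16) ^ d) ∧
          (∀ᵐ x, x ∈ ball c (r / 2) → x ∉ Bad δ₁ (r / 16) es (ball c (r / 2)) → N x = Q) ∧
          (∀ x ∈ Bad δ₁ (r / 16) es (ball c (r / 2)), ∃ ρ, 0 < ρ ∧ ρ ≤ r / 16 ∧
            ENNReal.ofReal (δ₁ * ρ ^ d) < es (ball x ρ) ∧
            (∀ t, 3 * ρ ≤ t → t ≤ 8 * (r / 16) → es (ball x t) ≤ ENNReal.ofReal (δ₁ * t ^ d) ∧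
              ∫ y in ball x t, |N y - Q| ≤ 4 ^ d * ε * t ^ d ∧
              μ (ball x t) ≤ ENNReal.ofReal (2 * (Q * om d + 4 ^ d * ε + 1) * t ^ d))) ∧
          volume (Bad δ₁ (r / 16) es (ball c (r / 2))) ≤ ENNReal.ofReal K * es (ball c r) ∧
          μ (Bad δ₁ (r / 16) es (ball c (r / 2))) ≤ ENNReal.ofReal K * es (ball c r) ∧
          ∫⁻ y in ball c (r / 2), ENNReal.ofReal |N y - Q| ≤ ENNReal.ofReal K * es (ball c r) := by
  obtain ⟨c₁, hc1, hc1', δ₁, hδ1, hδ1', hT⟩ := cover hSC Q hC₁ hε hε1 hεω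
  have hom := om_pos d
  have hQn : (0 : ℝ) ≤ Q := Nat.cast_nonneg Q
  set M₀ : ℝ := (Q + 1) * om d * 4 ^ d + 1 with hM₀
  have hM1 : 1 ≤ M₀ := by rw [hM₀]; have : 0 ≤ (Q + 1) * om d * 4 ^ d := by positivity
                          linarith
  set L : ℝ := min (ε / 16 ^ d) (om d / 4) with hL
  have hL0 : 0 < L := lt_min (by positivity) (by positivity)
  set D : ℝ := min 1 ((L / (4 * (|C| + 1))) ^ 2 / M₀) with hD
  have hD0 : 0 < D := lt_min one_pos (by positivity)
  have hsq : 4 * (C * Real.sqrt (M₀ * D)) ≤ L := by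
    have h1 : Real.sqrt (M₀ * D) ≤ L / (4 * (|C| + 1)) := by
      rw [Real.sqrt_le_left (by positivity)]
      calc M₀ * D ≤ M₀ * ((L / (4 * (|C| + 1))) ^ 2 / M₀) := by gcongr; exact min_le_right _ _
        _ = _ := by field_simp
    calc 4 * (C * Real.sqrt (M₀ * D)) ≤ 4 * (|C| * (L / (4 * (|C| + 1)))) := by
          gcongr
          exact le_abs_self C
      _ = L * (|C| / (|C| + 1)) := by field_simp
      _ ≤ L * 1 := by
          gcongr
          rw [div_le_one (by positivity)]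
          linarith
      _ = L := mul_one L
  set δ₂ : ℝ := min (δ₁ / 16 ^ d) (min (D / (C₁ + 1)) (min (D / M₀) (om d / 4))) with hδ₂
  have hδ20 : 0 < δ₂ := lt_min (by positivity) (lt_min (by positivity)
    (lt_min (by positivity) (by positivity)))
  have h16 : (1 : ℝ) ≤ 16 ^ d := one_le_pow₀ (by norm_num)
  have hδ2a : δ₂ ≤ δ₁ / 16 ^ d := min_le_left _ _
  have hδ2b : δ₂ ≤ D / (C₁ + 1) := (min_le_right _ _).trans (min_le_left _ _)
  have hδ2c : δ₂ ≤ D / M₀ := (min_le_right _ _).trans ((min_le_right _ _).trans (min_le_left _ _))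
  have hδ2d : δ₂ ≤ om d / 4 :=
    (min_le_right _ _).trans ((min_le_right _ _).trans (min_le_right _ _))
  have hδ21 : δ₂ ≤ δ₁ := hδ2a.trans (div_le_self hδ1.le h16)
  set K : ℝ := 6 ^ d * (om d + 2 * (Q * om d + 4 ^ d * ε + 1) + 4 ^ d * ε) / δ₁ with hK
  refine ⟨c₁, hc1, hc1', δ₁, hδ1, hδ1', δ₂, hδ20, hδ21, K, by positivity, ?_⟩
  intro c₀ g R N μ e es G hc0 hc01 hg0 H c r hr hR hgr hμ he hes hmass
  have hrd : 0 < r ^ d := pow_pos hr d
  -- the integer
  have hA : ∫ y in ball c (4 * r), N y ≤ M₀ * r ^ d := by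
    have h1 := (H.le_mass _ measurableSet_ball hR).trans hμ
    have h2 := (ENNReal.ofReal_le_ofReal_iff (by positivity)).1 h1
    refine h2.trans ?_
    rw [hM₀, mul_pow]
    nlinarith
  obtain ⟨k, hk⟩ := exists_integer hSC hC₁ H (x := c) (r := r) (M := M₀ * r ^ d) (δ := D * r ^ d) hr
    (by positivity) (by gcongr; exact (min_le_left _ _).trans hM1) hR hA
    (by
      calc ENNReal.ofReal C₁ * e (ball c (4 * r)) ≤ ENNReal.ofReal C₁ * ENNReal.ofReal (δ₂ * r ^ d) := by
            gcongr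
        _ = ENNReal.ofReal (C₁ * (δ₂ * r ^ d)) := (ENNReal.ofReal_mul hC₁).symm
        _ ≤ ENNReal.ofReal (D * r ^ d) := by
            refine ENNReal.ofReal_le_ofReal ?_
            have h1 : C₁ * δ₂ ≤ D := by
              calc C₁ * δ₂ ≤ C₁ * (D / (C₁ + 1)) := by gcongr
                _ = D * (C₁ / (C₁ + 1)) := by field_simp
                _ ≤ D * 1 := by
                    gcongr
                    rw [div_le_one (by positivity)]
                    linarith
                _ = D := mul_one D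
            calc C₁ * (δ₂ * r ^ d) = (C₁ * δ₂) * r ^ d := by ring
              _ ≤ D * r ^ d := by gcongr)
    (by
      calc G (ball c (4 * r)) ≤ ENNReal.ofReal g * μ (ball c (4 * r)) :=
            H.low _ measurableSet_ball hR
        _ ≤ ENNReal.ofReal g * ENNReal.ofReal ((Q + 1) * om d * (4 * r) ^ d) := by gcongr
        _ = ENNReal.ofReal (g * ((Q + 1) * om d * (4 * r) ^ d)) := (ENNReal.ofReal_mul hg0).symm
        _ ≤ ENNReal.ofReal (D * r ^ d / r) := by
            refine ENNReal.ofReal_le_ofReal ?_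
            rw [le_div_iff₀ hr]
            calc g * ((Q + 1) * om d * (4 * r) ^ d) * r = (g * r) * (M₀ - 1) * r ^ d := by
                  rw [hM₀, mul_pow]; ring
              _ ≤ (D / M₀) * M₀ * r ^ d := by
                  gcongr
                  · exact hgr.trans hδ2c
                  · linarith
              _ = D * r ^ d := by field_simp)
  have hk2 : ∫ y in ball c r, |N y - k| ≤ L * r ^ d := by
    refine hk.trans ?_
    have h5 : Real.sqrt (M₀ * r ^ d * (D * r ^ d)) = Real.sqrt (M₀ * D) * r ^ d := by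
      rw [show M₀ * r ^ d * (D * r ^ d) = M₀ * D * (r ^ d) ^ 2 by ring,
        Real.sqrt_mul (by positivity), Real.sqrt_sq hrd.le]
    rw [h5]
    calc 4 * (C * (Real.sqrt (M₀ * D) * r ^ d)) = 4 * (C * Real.sqrt (M₀ * D)) * r ^ d := by ring
      _ ≤ L * r ^ d := by gcongr
  have hsub : ball c r ⊆ ball c (4 * r) := ball_subset_ball (by linarith)
  have hRr : ball c r ⊆ R := hsub.trans hR
  have hNr := H.int.mono_set hRr
  have hkQ : k = Q := by
    have hμf : μ (ball c r) ≠ ⊤ := ne_top_of_le_ne_top H.fin (measure_mono hRr)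
    have he1 : e (ball c r) ≤ ENNReal.ofReal (δ₂ * r ^ d) := (measure_mono hsub).trans he
    have h0 : 0 ≤ ∫ y in ball c r, N y := integral_nonneg fun y => H.nonneg y
    have h1 : μ.real (ball c r) ≤ (∫ y in ball c r, N y) + δ₂ * r ^ d := by
      have h := (H.mass _ measurableSet_ball hRr).trans (add_le_add le_rfl he1)
      rw [← ENNReal.ofReal_add h0 (by positivity)] at h
      rw [measureReal_def]
      exact ENNReal.toReal_le_of_le_ofReal (by positivity) h
    have h2 : ∫ y in ball c r, N y ≤ μ.real (ball c r) := by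
      have h := H.le_mass _ measurableSet_ball hRr
      rw [← ENNReal.ofReal_toReal hμf] at h
      exact (ENNReal.ofReal_le_ofReal_iff ENNReal.toReal_nonneg).1 h
    have hkc : IntegrableOn (fun _ : Eu d => (k : ℝ)) (ball c r) :=
      integrableOn_const measure_ball_lt_top.ne
    have h3 : |(∫ y in ball c r, N y) - k * (om d * r ^ d)| ≤ L * r ^ d := by
      have e1 : (∫ y in ball c r, N y) - k * (om d * r ^ d) = ∫ y in ball c r, (N y - k) := by
        rw [integral_sub hNr hkc, setIntegral_const, smul_eq_mul, vol_ball c hr]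
        ring
      rw [e1]
      exact abs_integral_le_integral_abs.trans hk2
    have hLo : L ≤ om d / 4 := min_le_right _ _
    have h4 : |(k : ℝ) - Q| * (om d * r ^ d) < 1 * (om d * r ^ d) := by
      have e1 : |(k : ℝ) - Q| * (om d * r ^ d) = |k * (om d * r ^ d) - Q * om d * r ^ d| := by
        rw [show (k : ℝ) * (om d * r ^ d) - Q * om d * r ^ d = (k - Q) * (om d * r ^ d) by ring,
          abs_mul, abs_of_pos (by positivity : 0 < om d * r ^ d)]
      rw [e1]
      have h6 : L * r ^ d ≤ om d / 4 * r ^ d := by gcongr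
      have h7 : δ₂ * r ^ d ≤ om d / 4 * r ^ d := by gcongr
      have h8 : 0 < om d * r ^ d := by positivity
      rw [abs_le] at h3 hmass
      rw [abs_lt]
      constructor <;> nlinarith [h3.1, h3.2, hmass.1, hmass.2]
    have h5 : |(k : ℝ) - Q| < 1 := lt_of_mul_lt_mul_right h4 (by positivity)
    have h6 : |(k : ℤ) - Q| < 1 := by exact_mod_cast h5
    rw [Int.abs_lt_one_iff] at h6
    omega
  rw [hkQ] at hk2
  have hfirst : ∫ y in ball c r, |N y - Q| ≤ ε * (r / 16) ^ d := by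
    refine hk2.trans ?_
    calc L * r ^ d ≤ ε / 16 ^ d * r ^ d := by gcongr; exact min_le_left _ _
      _ = ε * (r / 16) ^ d := by rw [div_pow]; ring
  have hQr : IntegrableOn (fun _ : Eu d => (Q : ℝ)) (ball c r) :=
    integrableOn_const measure_ball_lt_top.ne
  have hNQ : IntegrableOn (fun y => |N y - (Q : ℝ)|) (ball c r) := (hNr.sub hQr).abs
  have hρ : 8 * (r / 16) = r / 2 := by ring
  have hBsub : ∀ x ∈ ball c (r / 2), ball x (8 * (r / 16)) ⊆ ball c r := by
    intro x hx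
    refine ball_subset_ball' ?_
    rw [hρ]
    linarith [mem_ball.1 hx]
  have hBR : ∀ x ∈ ball c (r / 2), ball x (8 * (r / 16)) ⊆ R := fun x hx => (hBsub x hx).trans hRr
  obtain ⟨h1, h2⟩ := hT c₀ g R N μ e es G hc0 hc01 hg0 H (ball c (r / 2)) (r / 16) (by positivity)
    (by rw [hρ]; nlinarith) hBR
    (fun x hx => (setIntegral_mono_set hNQ (Eventually.of_forall fun y => abs_nonneg _)
      (hBsub x hx).eventuallyLE).trans hfirst)
    (fun x hx => (measure_mono (hBsub x hx)).trans (hes.trans (ENNReal.ofReal_le_ofReal (by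
      calc δ₂ * r ^ d ≤ δ₁ / 16 ^ d * r ^ d := by gcongr
        _ = δ₁ * (r / 16) ^ d := by rw [div_pow]; ring))))
  obtain ⟨s1, s2, s3⟩ := sums hε hδ1 H (by positivity : 0 < r / 16) hBR h1 h2
  have hU : (⋃ x ∈ ball c (r / 2), closedBall x (r / 16)) ⊆ ball c r := by
    refine iUnion₂_subset fun x hx => ?_
    refine (closedBall_subset_ball (by linarith : r / 16 < r / 2)).trans (ball_subset_ball' ?_)
    linarith [mem_ball.1 hx]
  have hle : ∀ a : ℝ, 0 ≤ a → 6 ^ d * a / δ₁ ≤ K →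
      ENNReal.ofReal (6 ^ d * a / δ₁) * es (⋃ x ∈ ball c (r / 2), closedBall x (r / 16)) ≤
        ENNReal.ofReal K * es (ball c r) := fun a _ ha =>
    mul_le_mul' (ENNReal.ofReal_le_ofReal ha) (measure_mono hU)
  have hpos1 : 0 ≤ 2 * (Q * om d + 4 ^ d * ε + 1) := by positivity
  have hpos2 : 0 ≤ 4 ^ d * ε := by positivity
  refine ⟨hfirst, h1, h2, s1.trans (hle _ hom.le ?_), s2.trans (hle _ hpos1 ?_),
    (s3 measurableSet_ball).trans (hle _ hpos2 ?_)⟩
  all_goals
    rw [hK]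
    gcongr
    linarith

end Crest.Agent.R234.Th_164
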