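import Crest.Agent.R234.Th12_164

/-!
# Row 234, VF-THETA part 13 (helper164)

`MASS` (746): small tilt energy at all scales `[t, ρ₀]` and a mass bound at the top scale only ==> mass bound at all
scales `[t, ρ₀]`; moreover `N` is close to one integer `Q` at all scales `[t, ρ₀/4]`.
-/

set_option autoImplicit false

open Set Filter Topology MeasureTheory Metric
open Crest.GeometryTopology.Submanifold
open Crest.Agent.R234.Vf_884 Crest.Agent.R234.Ar_870 Crest.Agent.R234.Cy_870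
open scoped ENNReal NNReal ContDiff InnerProductSpace

noncomputable section

namespace Crest.Agent.R234.Th_164

theorem exists_lower (f : ℕ → ℝ) (hf : ∀ k, 0 < f k) (K : ℕ) : ∃ a : ℝ, 0 < a ∧ ∀ k ≤ K, a ≤ f k := by
  induction K with
  | zero => exact ⟨f 0, hf 0, fun k hk => by rw [Nat.le_zero.1 hk]⟩
  | succ K ih =>
    obtain ⟨a, ha, h⟩ := ih
    refine ⟨min a (f (K + 1)), lt_min ha (hf _), fun k hk => ?_⟩
    rcases Nat.lt_or_ge k (K + 1) with h1 | h1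
    · exact (min_le_left _ _).trans (h k (by omega))
    · have : k = K + 1 := by omega
      rw [this]
      exact min_le_right _ _

variable {d : ℕ}

set_option maxHeartbeats 800000 in
/-- abstract form -/
theorem mass_abs {C : ℝ} (hSC : SC2 d C) {C₁ : ℝ} (hC₁ : 0 ≤ C₁) {C₀ : ℝ} (hC0 : 0 ≤ C₀) {ε : ℝ}
    (hε : 0 < ε) (hε1 : ε ≤ 1) (hεω : ε * (1 + 4 ^ d) < om d) :
    ∃ (Q₀ : ℕ) (c₁ η : ℝ), 0 < c₁ ∧ c₁ ≤ 1 / 2 ∧ 0 < η ∧ η ≤ 1 ∧
      ∀ (c₀ g : ℝ) (R : Set (Eu d)) (N : Eu d → ℝ) (μ e es G : Measure (Eu d)),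
        0 ≤ c₀ → c₀ ≤ c₁ → 0 ≤ g → Hyp C₁ c₀ g R N μ e es G →
        ∀ (x : Eu d) (t ρ₀ : ℝ), 0 < ρ₀ → ball x ρ₀ ⊆ R → g * ρ₀ ≤ η →
          μ (ball x ρ₀) ≤ ENNReal.ofReal (C₀ * ρ₀ ^ d) →
          e (ball x ρ₀) ≤ ENNReal.ofReal (η * ρ₀ ^ d) →
          (∀ ρ, 0 < ρ → t ≤ ρ → ρ ≤ ρ₀ → es (ball x ρ) ≤ ENNReal.ofReal (η * ρ ^ d)) →
          ∃ Q : ℕ, Q ≤ Q₀ ∧ ∀ r, 0 < r → t ≤ r → r ≤ ρ₀ / 4 →
            ∫ y in ball x r, |N y - Q| ≤ 4 ^ d * ε * r ^ d ∧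
            μ (ball x r) ≤ ENNReal.ofReal (2 * (Q * om d + 4 ^ d * ε + 1) * r ^ d) := by
  have hom := om_pos d
  have hT := fun Q : ℕ => TH1 hSC Q hC₁ hε hε1 hεω
  choose c₁ hc1 hc1' δ₁ hδ1 hδ1' hT using hT
  set M₀ : ℝ := C₀ * 4 ^ d + 1 with hM₀
  have hM1 : 1 ≤ M₀ := by rw [hM₀]; have : 0 ≤ C₀ * 4 ^ d := by positivity
                          linarith
  set Q₀ : ℕ := ⌈(M₀ + 1) / om d⌉₊ with hQ₀
  obtain ⟨a, ha, ha'⟩ := exists_lower c₁ hc1 Q₀
  obtain ⟨b, hb, hb'⟩ := exists_lower δ₁ hδ1 Q₀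
  -- the first step
  set D : ℝ := min 1 ((ε / (4 * (|C| + 1))) ^ 2 / M₀) with hD
  have hD0 : 0 < D := lt_min one_pos (by positivity)
  have hsq : 4 * (C * Real.sqrt (M₀ * D)) ≤ ε := by
    have h1 : Real.sqrt (M₀ * D) ≤ ε / (4 * (|C| + 1)) := by
      rw [Real.sqrt_le_left (by positivity)]
      calc M₀ * D ≤ M₀ * ((ε / (4 * (|C| + 1))) ^ 2 / M₀) := by gcongr; exact min_le_right _ _
        _ = _ := by field_simp
    calc 4 * (C * Real.sqrt (M₀ * D)) ≤ 4 * (|C| * (ε / (4 * (|C| + 1)))) := by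
          gcongr
          exact le_abs_self C
      _ = ε * (|C| / (|C| + 1)) := by field_simp
      _ ≤ ε * 1 := by
          gcongr
          rw [div_le_one (by positivity)]
          linarith
      _ = ε := mul_one ε
  have h4d : (1 : ℝ) ≤ 4 ^ d := one_le_pow₀ (by norm_num)
  set η : ℝ := min 1 (min b (min (D / (4 ^ d * (C₁ + 1))) (D / M₀))) with hη
  have hη0 : 0 < η := lt_min one_pos (lt_min hb (lt_min (by positivity) (by positivity)))
  have hη1 : η ≤ 1 := min_le_left _ _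
  have hηb : η ≤ b := (min_le_right _ _).trans (min_le_left _ _)
  have hηD : η ≤ D / (4 ^ d * (C₁ + 1)) :=
    (min_le_right _ _).trans ((min_le_right _ _).trans (min_le_left _ _))
  have hηM : η ≤ D / M₀ := (min_le_right _ _).trans ((min_le_right _ _).trans (min_le_right _ _))
  refine ⟨Q₀, min a (1 / 2), η, lt_min ha (by norm_num), min_le_right _ _, hη0, hη1, ?_⟩
  intro c₀ g R N μ e es G hc0 hc01 hg0 H x t ρ₀ hρ0 hR hgρ hμ he hes
  set r₀ : ℝ := ρ₀ / 4 with hr₀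
  have hr0 : 0 < r₀ := by positivity
  have h4r : 4 * r₀ = ρ₀ := by rw [hr₀]; ring
  have hrd : 0 < r₀ ^ d := pow_pos hr0 d
  have hρr : ρ₀ ^ d = 4 ^ d * r₀ ^ d := by rw [← h4r, mul_pow]
  have hA : ∫ y in ball x (4 * r₀), N y ≤ M₀ * r₀ ^ d := by
    rw [h4r]
    have h1 := (H.le_mass _ measurableSet_ball hR).trans hμ
    have h2 := (ENNReal.ofReal_le_ofReal_iff (by positivity)).1 h1
    refine h2.trans ?_
    rw [hM₀, hρr]
    nlinarith
  obtain ⟨k, hk⟩ := exists_integer hSC hC₁ H (x := x) (r := r₀) (M := M₀ * r₀ ^ d)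
    (δ := D * r₀ ^ d) hr0 (by positivity) (by gcongr; exact (min_le_left _ _).trans hM1)
    (by rw [h4r]; exact hR) hA
    (by
      rw [h4r]
      calc ENNReal.ofReal C₁ * e (ball x ρ₀) ≤ ENNReal.ofReal C₁ * ENNReal.ofReal (η * ρ₀ ^ d) := by
            gcongr
        _ = ENNReal.ofReal (C₁ * (η * ρ₀ ^ d)) := (ENNReal.ofReal_mul hC₁).symm
        _ ≤ ENNReal.ofReal (D * r₀ ^ d) := by
            refine ENNReal.ofReal_le_ofReal ?_
            rw [hρr]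
            have h1 : C₁ * η * 4 ^ d ≤ D := by
              calc C₁ * η * 4 ^ d ≤ C₁ * (D / (4 ^ d * (C₁ + 1))) * 4 ^ d := by gcongr
                _ = D * (C₁ / (C₁ + 1)) := by field_simp
                _ ≤ D * 1 := by
                    gcongr
                    rw [div_le_one (by positivity)]
                    linarith
                _ = D := mul_one D
            calc C₁ * (η * (4 ^ d * r₀ ^ d)) = (C₁ * η * 4 ^ d) * r₀ ^ d := by ring
              _ ≤ D * r₀ ^ d := by gcongr)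
    (by
      rw [h4r]
      calc G (ball x ρ₀) ≤ ENNReal.ofReal g * μ (ball x ρ₀) := H.low _ measurableSet_ball hR
        _ ≤ ENNReal.ofReal g * ENNReal.ofReal (C₀ * ρ₀ ^ d) := by gcongr
        _ = ENNReal.ofReal (g * (C₀ * ρ₀ ^ d)) := (ENNReal.ofReal_mul hg0).symm
        _ ≤ ENNReal.ofReal (D * r₀ ^ d / r₀) := by
            refine ENNReal.ofReal_le_ofReal ?_
            rw [le_div_iff₀ hr0, hρr]
            have h1 : g * r₀ ≤ D / M₀ := by
              calc g * r₀ ≤ g * ρ₀ := by rw [← h4r]; nlinarith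
                _ ≤ η := hgρ
                _ ≤ _ := hηM
            calc g * (C₀ * (4 ^ d * r₀ ^ d)) * r₀ = (g * r₀) * (C₀ * 4 ^ d) * r₀ ^ d := by ring
              _ ≤ (D / M₀) * M₀ * r₀ ^ d := by
                  gcongr
                  rw [hM₀]
                  linarith
              _ = D * r₀ ^ d := by field_simp)
  have hk2 : ∫ y in ball x r₀, |N y - k| ≤ ε * r₀ ^ d := by
    refine hk.trans ?_
    have h5 : Real.sqrt (M₀ * r₀ ^ d * (D * r₀ ^ d)) = Real.sqrt (M₀ * D) * r₀ ^ d := by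
      rw [show M₀ * r₀ ^ d * (D * r₀ ^ d) = M₀ * D * (r₀ ^ d) ^ 2 by ring,
        Real.sqrt_mul (by positivity), Real.sqrt_sq hrd.le]
    rw [h5]
    calc 4 * (C * (Real.sqrt (M₀ * D) * r₀ ^ d)) = 4 * (C * Real.sqrt (M₀ * D)) * r₀ ^ d := by ring
      _ ≤ ε * r₀ ^ d := by gcongr
  have hsub : ball x r₀ ⊆ ball x ρ₀ := ball_subset_ball (by rw [← h4r]; linarith)
  have hRr : ball x r₀ ⊆ R := hsub.trans hR
  have hNr := H.int.mono_set hRr
  have hkQ : k ≤ Q₀ := by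
    have hkc : IntegrableOn (fun _ : Eu d => (k : ℝ)) (ball x r₀) :=
      integrableOn_const measure_ball_lt_top.ne
    have h3 : k * (om d * r₀ ^ d) ≤ M₀ * r₀ ^ d + ε * r₀ ^ d := by
      have e1 : k * (om d * r₀ ^ d) = ∫ y in ball x r₀, (k : ℝ) := by
        rw [setIntegral_const, smul_eq_mul, vol_ball x hr0]
        ring
      have hNk : IntegrableOn (fun y => |N y - (k : ℝ)|) (ball x r₀) := (hNr.sub hkc).abs
      rw [e1]
      calc ∫ y in ball x r₀, (k : ℝ) ≤ ∫ y in ball x r₀, (N y + |N y - k|) := by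
            refine integral_mono hkc (hNr.add hNk) fun y => ?_
            change (k : ℝ) ≤ N y + |N y - k|
            linarith [neg_le_abs (N y - k)]
        _ = (∫ y in ball x r₀, N y) + ∫ y in ball x r₀, |N y - k| := integral_add hNr hNk
        _ ≤ M₀ * r₀ ^ d + ε * r₀ ^ d := by
            refine add_le_add ?_ hk2
            refine le_trans ?_ hA
            rw [h4r]
            exact setIntegral_mono_set (H.int.mono_set hR)
              (Eventually.of_forall fun y => H.nonneg y) hsub.eventuallyLE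
    have h4 : (k : ℝ) * om d ≤ M₀ + ε := by
      have : (k : ℝ) * om d * r₀ ^ d ≤ (M₀ + ε) * r₀ ^ d := by linarith
      exact le_of_mul_le_mul_right this hrd
    have h5 : (k : ℝ) ≤ (M₀ + 1) / om d := by
      rw [le_div_iff₀ hom]
      linarith
    exact_mod_cast h5.trans (Nat.le_ceil _)
  refine ⟨k, hkQ, fun r hr htr hrr => ?_⟩
  have hk3 : ∫ y in ball x r, |N y - k| ≤ 4 ^ d * ε * r ^ d := by
    refine hT k c₀ g R N μ e es G hc0 (hc01.trans ((min_le_left _ _).trans (ha' k hkQ))) hg0 H x t r₀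
      hRr ?_ hk2 ?_ r hr htr hrr
    · calc g * r₀ ≤ g * ρ₀ := by rw [← h4r]; nlinarith
        _ ≤ η := hgρ
        _ ≤ δ₁ k := hηb.trans (hb' k hkQ)
    · intro ρ h1 h2 h3
      refine (hes ρ h1 h2 (by rw [← h4r]; linarith)).trans (ENNReal.ofReal_le_ofReal ?_)
      have := hηb.trans (hb' k hkQ)
      gcongr
  refine ⟨hk3, ?_⟩
  have hRr' : ball x r ⊆ R := (ball_subset_ball hrr).trans hRr
  have hes' := hes r hr htr (by rw [← h4r]; linarith)
  have hN := integral_N_le (Q := k) hr (H.int.mono_set hRr') hk3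
  refine (H.μ_le hc0 (hc01.trans (min_le_right _ _)) measurableSet_ball hRr' hN (by positivity)
    hes').trans (ENNReal.ofReal_le_ofReal ?_)
  have h5 : η * r ^ d ≤ 1 * r ^ d := by gcongr
  calc 2 * ((k * om d + 4 ^ d * ε) * r ^ d) + 2 * (η * r ^ d)
      ≤ 2 * ((k * om d + 4 ^ d * ε) * r ^ d) + 2 * (1 * r ^ d) := by linarith
    _ = 2 * (k * om d + 4 ^ d * ε + 1) * r ^ d := by ring

section varifold

variable {m k : ℕ} {π : Euc k →L[ℝ] Euc m} {W : Measure (Euc k × L k)} {R : Set (Euc m)}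
  {N : Euc m → ℝ≥0∞} {δ h : ℝ} {q : Euc k → ℝ}

theorem Setup.ae_tl_nonneg (hS : Setup π W R N δ h q) : ∀ᵐ p ∂W, 0 ≤ tl π p.2 := by
  filter_upwards [hS.conc] with p hp
  exact tl_nonneg hS.co (isPr_of_G hp)

theorem Setup.integrable_tl (hS : Setup π W R N δ h q) :
    Integrable (fun p : Euc k × L k => tl π p.2) W := by
  have := hS.fin
  refine Integrable.of_bound (measurable_tl2 π).aestronglyMeasurable m ?_
  filter_upwards [hS.conc, hS.ae_tl_nonneg] with p hp hp0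
  rw [Real.norm_eq_abs, abs_of_nonneg hp0]
  exact tl_le hS.co (isPr_of_G hp)

theorem Setup.ws_le_tl (hS : Setup π W R N δ h q) (σ : ℝ) : ∀ᵐ p ∂W, ws π σ p ≤ tl π p.2 := by
  filter_upwards [hS.ae_tl_nonneg] with p hp0
  unfold ws
  by_cases hs : p ∈ {p : Euc k × L k | σ < tl π p.2}
  · rw [Set.indicator_of_mem hs]
  · rw [Set.indicator_of_notMem hs]; exact hp0

theorem Setup.ae_ws_nonneg (hS : Setup π W R N δ h q) (σ : ℝ) : ∀ᵐ p ∂W, 0 ≤ ws π σ p := by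
  filter_upwards [hS.conc] with p hp
  exact ws_nonneg hS.co hp

theorem Setup.integrable_ws (hS : Setup π W R N δ h q) (σ : ℝ) : Integrable (ws π σ) W := by
  refine hS.integrable_tl.mono' (measurable_ws π _).aestronglyMeasurable ?_
  filter_upwards [hS.ws_le_tl σ, hS.ae_ws_nonneg σ] with p h1 h2
  rw [Real.norm_eq_abs, abs_of_nonneg h2]
  exact h1

theorem Setup.hyp (hS : Setup π W R N δ h q) {σ : ℝ} (hσ : 0 ≤ σ) :
    Hyp (m + 2) (σ + δ * h) (δ * (m + h)) R (fun x => (N x).toReal) (muM W π)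
      (wM W π (we π δ q)) (wM W π (ws π σ)) (wM W π (wg π δ q)) := by
  have := hS.fin
  exact hyp_of hS.co hS.conc hS.isOpen hS.area hS.δ_nonneg hS.δ_le hσ hS.h_nonneg hS.q_meas
    hS.q_nonneg hS.q_le hS.fv

/-- the corrected tilt energy of a ball -/
theorem Setup.we_le (hS : Setup π W R N δ h q) {x : Euc m} {ρ a b : ℝ}
    (ha : ∫ p in (fun p => π p.1) ⁻¹' ball x ρ, tl π p.2 ∂W ≤ a)
    (hb : W.real ((fun p => π p.1) ⁻¹' ball x ρ) ≤ b) :
    wM W π (we π δ q) (ball x ρ) ≤ ENNReal.ofReal (a + δ * h * b) := by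
  have := hS.fin
  have hwe0 : ∀ᵐ p ∂W, 0 ≤ we π δ q p := by
    filter_upwards [hS.ae_tl_nonneg] with p hp
    exact add_nonneg hp (mul_nonneg hS.δ_nonneg (hS.q_nonneg _))
  have hqi : Integrable (fun p : Euc k × L k => δ * q p.1) W := by
    refine Integrable.of_bound ((hS.q_meas.comp measurable_fst).const_mul δ).aestronglyMeasurable
      (δ * h) ?_
    filter_upwards [hS.q_le] with p hp
    rw [Real.norm_eq_abs, abs_of_nonneg (mul_nonneg hS.δ_nonneg (hS.q_nonneg _))]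
    exact mul_le_mul_of_nonneg_left hp hS.δ_nonneg
  have hwei : Integrable (we π δ q) W := hS.integrable_tl.add hqi
  refine wM_le hwe0 hwei measurableSet_ball ?_
  have e1 : ∫ p in (fun p => π p.1) ⁻¹' ball x ρ, we π δ q p ∂W =
      (∫ p in (fun p => π p.1) ⁻¹' ball x ρ, tl π p.2 ∂W) +
        ∫ p in (fun p => π p.1) ⁻¹' ball x ρ, δ * q p.1 ∂W :=
    integral_add hS.integrable_tl.integrableOn hqi.integrableOn
  rw [e1]
  refine add_le_add ha ?_
  have hδh : 0 ≤ δ * h := mul_nonneg hS.δ_nonneg hS.h_nonneg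
  calc ∫ p in (fun p => π p.1) ⁻¹' ball x ρ, δ * q p.1 ∂W
      ≤ ∫ _p in (fun p => π p.1) ⁻¹' ball x ρ, δ * h ∂W := by
        refine integral_mono_ae hqi.integrableOn (integrable_const _) ?_
        filter_upwards [ae_restrict_of_ae hS.q_le] with p hp
        exact mul_le_mul_of_nonneg_left hp hS.δ_nonneg
    _ = δ * h * W.real ((fun p => π p.1) ⁻¹' ball x ρ) := by
        rw [setIntegral_const, smul_eq_mul, mul_comm]
    _ ≤ _ := by gcongr

/-- **MASS** (746): mass bound at the top scale and small tilt energy at all scales `[t, ρ₀]` ==> mass bound at all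
scales `[t, ρ₀]`, and `N` is close to one integer at all scales `[t, ρ₀ / 4]`. -/
theorem MASS (m : ℕ) {C₀ : ℝ} (hC0 : 0 ≤ C₀) {ε : ℝ} (hε : 0 < ε) (hε1 : ε ≤ 1) (hεω : ε * (1 + 4 ^ m) < om m) :
    ∃ (Q₀ : ℕ) (η C₂ : ℝ), 0 < η ∧ η ≤ 1 ∧ 0 < C₂ ∧
    ∀ (k : ℕ) (π : Euc k →L[ℝ] Euc m) (W : Measure (Euc k × L k)) (R : Set (Euc m))
      (N : Euc m → ℝ≥0∞) (δ h : ℝ) (q : Euc k → ℝ), Setup π W R N δ h q → δ * h ≤ η →
      ∀ (x : Euc m) (t ρ₀ : ℝ), 0 < ρ₀ → t ≤ ρ₀ → ball x ρ₀ ⊆ R → δ * (m + h) * ρ₀ ≤ η →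
      W.real ((fun p => π p.1) ⁻¹' ball x ρ₀) ≤ C₀ * ρ₀ ^ m →
      (∀ ρ, 0 < ρ → t ≤ ρ → ρ ≤ ρ₀ →
        ∫ p in (fun p => π p.1) ⁻¹' ball x ρ, tl π p.2 ∂W ≤ η * ρ ^ m) →
      (∀ ρ, 0 < ρ → t ≤ ρ → ρ ≤ ρ₀ → W.real ((fun p => π p.1) ⁻¹' ball x ρ) ≤ C₂ * ρ ^ m) ∧
      ∃ Q : ℕ, Q ≤ Q₀ ∧ ∀ ρ, 0 < ρ → t ≤ ρ → ρ ≤ ρ₀ / 4 →
        ∫ y in ball x ρ, |(N y).toReal - Q| ≤ 4 ^ m * ε * ρ ^ m := by
  obtain ⟨Q₀, c₁, η, hc1, hc1', hη, hη1, hT⟩ :=
    mass_abs (sc2 m) (C₁ := m + 2) (by positivity) hC0 hε hε1 hεω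
  have hom := om_pos m
  set η' : ℝ := min (c₁ / 2) (η / (1 + C₀)) with hη'
  have hη'0 : 0 < η' := lt_min (by positivity) (by positivity)
  have hη'c : η' ≤ c₁ / 2 := min_le_left _ _
  have hη'a : η' ≤ η / (1 + C₀) := min_le_right _ _
  have hη'η : η' ≤ η := hη'a.trans (div_le_self hη.le (by linarith))
  set C₂ : ℝ := max (C₀ * 4 ^ m) (2 * (Q₀ * om m + 4 ^ m * ε + 1)) with hC2
  have hC2a : C₀ * 4 ^ m ≤ C₂ := le_max_left _ _
  have hC2b : 2 * (Q₀ * om m + 4 ^ m * ε + 1) ≤ C₂ := le_max_right _ _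
  have hC20 : 0 < C₂ := lt_of_lt_of_le (by positivity) hC2b
  refine ⟨Q₀, η', C₂, hη'0, hη'η.trans hη1, hC20, ?_⟩
  intro k π W R N δ h q hS hδh x t ρ₀ hρ0 htρ hR hgρ hmass htilt
  have := hS.fin
  have hδh0 : 0 ≤ δ * h := mul_nonneg hS.δ_nonneg hS.h_nonneg
  have hH := hS.hyp (σ := c₁ / 2) (by positivity)
  have hμ : muM W π (ball x ρ₀) ≤ ENNReal.ofReal (C₀ * ρ₀ ^ m) := by
    rw [muM_apply W measurableSet_ball, ← ENNReal.ofReal_toReal (measure_ne_top W _)]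
    exact ENNReal.ofReal_le_ofReal hmass
  have he : wM W π (we π δ q) (ball x ρ₀) ≤ ENNReal.ofReal (η * ρ₀ ^ m) := by
    refine (hS.we_le (htilt ρ₀ hρ0 htρ le_rfl) hmass).trans (ENNReal.ofReal_le_ofReal ?_)
    calc η' * ρ₀ ^ m + δ * h * (C₀ * ρ₀ ^ m) ≤ η' * ρ₀ ^ m + η' * (C₀ * ρ₀ ^ m) := by gcongr
      _ = η' * (1 + C₀) * ρ₀ ^ m := by ring
      _ ≤ η / (1 + C₀) * (1 + C₀) * ρ₀ ^ m := by gcongr
      _ = η * ρ₀ ^ m := by field_simp
  obtain ⟨Q, hQ, hall⟩ := hT _ _ R _ _ _ _ _ (by positivity) (by linarith)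
    (mul_nonneg hS.δ_nonneg (add_nonneg (Nat.cast_nonneg m) hS.h_nonneg)) hH x t ρ₀ hρ0 hR
    (hgρ.trans hη'η) hμ he (by
      intro ρ h1 h2 h3
      refine wM_le (hS.ae_ws_nonneg _) (hS.integrable_ws _) measurableSet_ball ?_
      calc ∫ p in (fun p => π p.1) ⁻¹' ball x ρ, ws π (c₁ / 2) p ∂W
          ≤ ∫ p in (fun p => π p.1) ⁻¹' ball x ρ, tl π p.2 ∂W :=
            integral_mono_ae (hS.integrable_ws _).integrableOn hS.integrable_tl.integrableOn
              (ae_restrict_of_ae (hS.ws_le_tl _))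
        _ ≤ η' * ρ ^ m := htilt ρ h1 h2 h3
        _ ≤ η * ρ ^ m := by gcongr)
  refine ⟨fun ρ h1 h2 h3 => ?_, Q, hQ, fun ρ h1 h2 h3 => (hall ρ h1 h2 h3).1⟩
  rcases le_or_gt ρ (ρ₀ / 4) with h4 | h4
  · have h5 := (hall ρ h1 h2 h4).2
    rw [muM_apply W measurableSet_ball] at h5
    refine (ENNReal.toReal_le_of_le_ofReal (by positivity) h5).trans ?_
    have hQ' : (Q : ℝ) ≤ Q₀ := by exact_mod_cast hQ
    calc 2 * (Q * om m + 4 ^ m * ε + 1) * ρ ^ m ≤ 2 * (Q₀ * om m + 4 ^ m * ε + 1) * ρ ^ m := by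
          gcongr
      _ ≤ C₂ * ρ ^ m := by gcongr
  · calc W.real ((fun p => π p.1) ⁻¹' ball x ρ) ≤ W.real ((fun p => π p.1) ⁻¹' ball x ρ₀) :=
          measureReal_mono (preimage_mono (ball_subset_ball h3))
      _ ≤ C₀ * ρ₀ ^ m := hmass
      _ ≤ C₀ * (4 * ρ) ^ m := by
          gcongr
          linarith
      _ = C₀ * 4 ^ m * ρ ^ m := by rw [mul_pow]; ring
      _ ≤ C₂ * ρ ^ m := by gcongr

end varifold

end Crest.Agent.R234.Th_164
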