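import Crest.Agent.R234.Vit1_534

/-!
Row 234, VF-THETA part 1 (helper164): integer valued functions which are close to a constant.
`exists_nat_close` : if `∫_S N = c |S| + O(η)` for all `S ⊆ B` and `N` is integer valued then
`∫_B |N - k| ≤ 4 η` for an integer `k`.  `eq_of_close` : uniqueness of the integer.
-/

set_option autoImplicit false

open Set Filter Topology MeasureTheory Metric
open scoped ENNReal NNReal

noncomputable section

namespace Crest.Agent.R234.Th_164

theorem exists_nearest (c : ℝ) : ∃ k : ℕ, ∀ n : ℕ, |c - k| ≤ |(n : ℝ) - c| := by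
  refine ⟨(round c).toNat, fun n => ?_⟩
  rcases le_or_gt 0 (round c) with h | h
  · have h1 : (((round c).toNat : ℕ) : ℝ) = ((round c : ℤ) : ℝ) := by
      have h2 : (((round c).toNat : ℕ) : ℤ) = round c := Int.toNat_of_nonneg h
      exact_mod_cast h2
    rw [h1]
    have h3 := round_le c (n : ℤ)
    rw [abs_sub_comm (n : ℝ) c]
    exact_mod_cast h3
  · have h1 : (round c).toNat = 0 := Int.toNat_of_nonpos h.le
    rw [h1]
    have h2 : c < 0 := by
      by_contra hc
      rw [not_lt] at hc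
      have h3 : (0 : ℤ) ≤ round c := by
        rw [round_eq]
        exact Int.floor_nonneg.2 (by linarith)
      omega
    have h4 : (0 : ℝ) ≤ n := Nat.cast_nonneg n
    rw [Nat.cast_zero, sub_zero, abs_of_neg h2, abs_of_nonneg (by linarith)]
    linarith

variable {α : Type*} [MeasurableSpace α] {ν : Measure α} {B : Set α} {N : α → ℝ}

theorem integral_abs_sub_le (hB : MeasurableSet B) (hm : Measurable N) (hN : IntegrableOn N B ν)
    (hfin : ν B ≠ ∞) {c η : ℝ}
    (h : ∀ S, MeasurableSet S → S ⊆ B → |∫ x in S, N x ∂ν - c * ν.real S| ≤ η) :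
    ∫ x in B, |N x - c| ∂ν ≤ 2 * η := by
  set T : Set α := {x | c ≤ N x} with hT
  have hTm : MeasurableSet T := measurableSet_le measurable_const hm
  have hc : IntegrableOn (fun _ : α => c) B ν := integrableOn_const hfin
  have hNc : IntegrableOn (fun x => |N x - c|) B ν := (hN.sub hc).abs
  have h1 : ∫ x in B, |N x - c| ∂ν = ∫ x in B ∩ T, |N x - c| ∂ν + ∫ x in B \ T, |N x - c| ∂ν :=
    (integral_inter_add_sdiff hTm hNc).symm
  have hp : ∫ x in B ∩ T, |N x - c| ∂ν = ∫ x in B ∩ T, N x ∂ν - c * ν.real (B ∩ T) := by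
    have h2 : ∫ x in B ∩ T, |N x - c| ∂ν = ∫ x in B ∩ T, (N x - c) ∂ν :=
      setIntegral_congr_fun (hB.inter hTm) fun x hx => abs_of_nonneg (sub_nonneg.2 hx.2)
    rw [h2, integral_sub (hN.mono_set inter_subset_left) (hc.mono_set inter_subset_left),
      setIntegral_const, smul_eq_mul, mul_comm]
  have hq : ∫ x in B \ T, |N x - c| ∂ν = -(∫ x in B \ T, N x ∂ν - c * ν.real (B \ T)) := by
    have h2 : ∫ x in B \ T, |N x - c| ∂ν = ∫ x in B \ T, -(N x - c) ∂ν :=
      setIntegral_congr_fun (hB.diff hTm) fun x hx =>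
        abs_of_nonpos (sub_nonpos.2 (le_of_lt (not_le.1 hx.2)))
    rw [h2, integral_neg, integral_sub (hN.mono_set sdiff_subset) (hc.mono_set sdiff_subset),
      setIntegral_const, smul_eq_mul, mul_comm]
  have h3 := h _ (hB.inter hTm) inter_subset_left
  have h4 := h _ (hB.diff hTm) sdiff_subset
  rw [h1, hp, hq]
  have h5 := le_abs_self (∫ x in B ∩ T, N x ∂ν - c * ν.real (B ∩ T))
  have h6 := neg_le_abs (∫ x in B \ T, N x ∂ν - c * ν.real (B \ T))
  linarith

/-- integer valued and close to a constant ==> close to an integer constant -/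
theorem exists_nat_close (hB : MeasurableSet B) (hm : Measurable N) (hN : IntegrableOn N B ν)
    (hfin : ν B ≠ ∞) (hnat : ∀ᵐ x ∂(ν.restrict B), ∃ n : ℕ, N x = n) {c η : ℝ}
    (h : ∀ S, MeasurableSet S → S ⊆ B → |∫ x in S, N x ∂ν - c * ν.real S| ≤ η) :
    ∃ k : ℕ, ∫ x in B, |N x - k| ∂ν ≤ 4 * η := by
  obtain ⟨k, hk⟩ := exists_nearest c
  refine ⟨k, ?_⟩
  have hc : IntegrableOn (fun _ : α => c) B ν := integrableOn_const hfin
  have hkc : IntegrableOn (fun _ : α => (k : ℝ)) B ν := integrableOn_const hfin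
  have h1 := integral_abs_sub_le hB hm hN hfin h
  have h2 : ∫ x in B, |N x - k| ∂ν ≤ ∫ x in B, 2 * |N x - c| ∂ν := by
    refine integral_mono_ae (hN.sub hkc).abs ((hN.sub hc).abs.const_mul 2) ?_
    filter_upwards [hnat] with x hx
    obtain ⟨n, hn⟩ := hx
    have h3 := hk n
    rw [hn]
    have h4 : |(n : ℝ) - k| ≤ |(n : ℝ) - c| + |c - k| := abs_sub_le _ _ _
    linarith
  rw [integral_const_mul] at h2
  linarith

/-- the integer is unique -/
theorem eq_of_close (hN : IntegrableOn N B ν) (hfin : ν B ≠ ∞) {k Q : ℕ}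
    (h : ∫ x in B, |N x - k| ∂ν + ∫ x in B, |N x - Q| ∂ν < ν.real B) : k = Q := by
  have hk : IntegrableOn (fun _ : α => (k : ℝ)) B ν := integrableOn_const hfin
  have hQ : IntegrableOn (fun _ : α => (Q : ℝ)) B ν := integrableOn_const hfin
  have h1 : |(k : ℝ) - Q| * ν.real B ≤ ∫ x in B, |N x - k| ∂ν + ∫ x in B, |N x - Q| ∂ν := by
    have hk' : IntegrableOn (fun x => |N x - (k : ℝ)|) B ν := (hN.sub hk).abs
    have hQ' : IntegrableOn (fun x => |N x - (Q : ℝ)|) B ν := (hN.sub hQ).abs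
    rw [← integral_add hk' hQ']
    have h2 : |(k : ℝ) - Q| * ν.real B = ∫ x in B, |(k : ℝ) - Q| ∂ν := by
      rw [setIntegral_const, smul_eq_mul, mul_comm]
    rw [h2]
    refine integral_mono (integrableOn_const hfin) (hk'.add hQ') ?_
    intro x
    have h3 : |(k : ℝ) - Q| ≤ |(k : ℝ) - N x| + |N x - Q| := abs_sub_le _ _ _
    rw [abs_sub_comm (k : ℝ) (N x)] at h3
    exact h3
  have h2 : |(k : ℝ) - Q| < 1 := by
    by_contra hc
    rw [not_lt] at hc
    have : ν.real B ≤ |(k : ℝ) - Q| * ν.real B := by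
      nlinarith [measureReal_nonneg (μ := ν) (s := B)]
    linarith
  have h3 : |(k : ℤ) - Q| < 1 := by exact_mod_cast h2
  rw [Int.abs_lt_one_iff] at h3
  omega

end Crest.Agent.R234.Th_164
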