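import Crest.Agent.R234.Nu_681

/-!
# Row 234, node F2-TH (helper186), file 1: the projected-measure lemma of `Nu_681` at all radii
-/

set_option autoImplicit false

open MeasureTheory Filter Topology Set
open scoped ENNReal NNReal ContDiff

noncomputable section

namespace Crest.Agent.R234.Th_186

open Crest.Agent.R234.Nu_681

variable {m : ℕ}

/-- scaling of `Small` to the unit ball -/
theorem small_scale {ν : Measure (E m)} {r δ : ℝ} (hr : 0 < r) (hr2 : r ≤ 2) (hδ : 0 ≤ δ)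
    (h : Small ν r δ) : Small (ν.map fun x => r⁻¹ • x) 1 (2 * δ) := by
  intro Y hY h0 h1 h2
  have hmeas : Measurable fun x : E m => r⁻¹ • x := measurable_const_smul _
  have hY1 : Continuous (fun x => dv Y x) := by
    have : Continuous (fun x => fderiv ℝ Y x) := hY.continuous_fderiv one_ne_zero
    exact (LinearMap.continuous_of_finiteDimensional
      ((LinearMap.trace ℝ (E m)) ∘ₗ (ContinuousLinearMap.coeLM ℝ))).comp this
  rw [integral_map hmeas.aemeasurable hY1.aestronglyMeasurable]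
  have hd : ∀ x, fderiv ℝ (fun z : E m => Y (r⁻¹ • z)) x = r⁻¹ • fderiv ℝ Y (r⁻¹ • x) := by
    intro x
    have e1 : HasFDerivAt (fun z : E m => r⁻¹ • z)
        (r⁻¹ • ContinuousLinearMap.id ℝ (E m)) x :=
      (hasFDerivAt_id x).const_smul r⁻¹
    have e2 := ((hY.differentiable one_ne_zero) (r⁻¹ • x)).hasFDerivAt.comp x e1
    have e3 : fderiv ℝ (fun z : E m => Y (r⁻¹ • z)) x
        = (fderiv ℝ Y (r⁻¹ • x)).comp (r⁻¹ • ContinuousLinearMap.id ℝ (E m)) := e2.fderiv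
    rw [e3]
    ext v
    simp
  have hK : 0 < max 1 r⁻¹ := lt_max_of_lt_left one_pos
  have hYc : ContDiff ℝ 1 (fun z : E m => Y (r⁻¹ • z)) :=
    hY.comp (contDiff_const_smul r⁻¹)
  have key := h.mul hK (Y := fun z : E m => Y (r⁻¹ • z)) hYc
    (fun x hx => h0 _ (by
      rw [norm_smul, norm_inv, Real.norm_eq_abs, abs_of_pos hr, inv_mul_eq_div, le_div_iff₀ hr]
      linarith))
    (fun x => (h1 _).trans (le_max_left _ _))
    (fun x => by
      rw [hd, norm_smul, norm_inv, Real.norm_eq_abs, abs_of_pos hr]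
      calc r⁻¹ * ‖fderiv ℝ Y (r⁻¹ • x)‖ ≤ r⁻¹ * 1 := by gcongr; exact h2 _
        _ ≤ _ := by rw [mul_one]; exact le_max_right _ _)
  have he : ∀ x, dv (fun z : E m => Y (r⁻¹ • z)) x = r⁻¹ * dv Y (r⁻¹ • x) := by
    intro x
    unfold dv
    rw [hd]
    simp
  simp_rw [he] at key
  rw [integral_const_mul, abs_mul, abs_of_pos (inv_pos.2 hr)] at key
  have h3 : |∫ x, dv Y (r⁻¹ • x) ∂ν| ≤ r * (max 1 r⁻¹ * δ) := by
    rw [inv_mul_eq_div, div_le_iff₀ hr] at key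
    linarith
  refine h3.trans ?_
  rw [← mul_assoc, mul_max_of_nonneg _ _ hr.le, mul_one, mul_inv_cancel₀ hr.ne']
  gcongr
  exact max_le hr2 (by norm_num)

/-- **all radii** -/
theorem nu_all (m : ℕ) : ∃ C : ℝ, 0 < C ∧ ∀ (ν : Measure (E m)) (r δ : ℝ), ν univ < ⊤ →
    0 < r → r ≤ 2 → 0 ≤ δ → Small ν r δ →
    ∃ θ : ℝ, 0 ≤ θ ∧ ∀ ζ : E m → ℝ, ContDiff ℝ 1 ζ → (∀ x, r ≤ ‖x‖ → ζ x = 0) →
      (∀ x, |ζ x| ≤ 1) → (∀ x, ‖fderiv ℝ ζ x‖ ≤ 1) →
      |∫ x, ζ x ∂ν - θ * ∫ x, ζ x| ≤ C * δ := by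
  obtain ⟨C, hC, b, hb, hb0, -, -, -, hnu⟩ := nu m
  refine ⟨4 * C, by positivity, fun ν r δ hν hr hr2 hδ h => ?_⟩
  have hmeas : Measurable fun x : E m => r⁻¹ • x := measurable_const_smul _
  set ν' : Measure (E m) := ν.map fun x => r⁻¹ • x with hν'
  have hν'fin : ν' univ < ⊤ := by
    rw [hν', Measure.map_apply hmeas MeasurableSet.univ]; simpa using hν
  have hs := small_scale hr hr2 hδ h
  refine ⟨(∫ x, b x ∂ν') * (r ^ m)⁻¹, by
    have : 0 ≤ ∫ x, b x ∂ν' := integral_nonneg fun x => hb0 x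
    positivity, fun ζ hζ h0 h1 h2 => ?_⟩
  have hd : ∀ x, fderiv ℝ (fun z : E m => (1 / 2 : ℝ) * ζ (r • z)) x
      = (1 / 2 * r) • fderiv ℝ ζ (r • x) := by
    intro x
    have e1 : HasFDerivAt (fun z : E m => r • z)
        (r • ContinuousLinearMap.id ℝ (E m)) x :=
      (hasFDerivAt_id x).const_smul r
    have e2 := (((hζ.differentiable one_ne_zero) (r • x)).hasFDerivAt.comp x e1).const_mul (1 / 2 : ℝ)
    have e3 : fderiv ℝ (fun z : E m => (1 / 2 : ℝ) * ζ (r • z)) x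
        = (1 / 2 : ℝ) • (fderiv ℝ ζ (r • x)).comp (r • ContinuousLinearMap.id ℝ (E m)) := e2.fderiv
    rw [e3]
    ext v
    simp
    ring
  have hζc : ContDiff ℝ 1 (fun z : E m => (1 / 2 : ℝ) * ζ (r • z)) :=
    contDiff_const.mul (hζ.comp (contDiff_const_smul r))
  have key := hnu ν' 1 (2 * δ) hν'fin (by norm_num) (by norm_num) (by positivity) hs
    (fun z : E m => (1 / 2 : ℝ) * ζ (r • z)) hζc
    (fun x hx => by
      have : ζ (r • x) = 0 := h0 _ (by
        rw [norm_smul, Real.norm_eq_abs, abs_of_pos hr]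
        nlinarith)
      simp only [this, mul_zero])
    (fun x => by
      rw [abs_mul, abs_of_pos (by norm_num : (0 : ℝ) < 1 / 2)]
      have := h1 (r • x)
      linarith)
    (fun x => by
      rw [hd, norm_smul, Real.norm_eq_abs, abs_of_pos (by positivity)]
      have := h2 (r • x)
      nlinarith [norm_nonneg (fderiv ℝ ζ (r • x))])
  have e1 : ∫ x, (1 / 2 : ℝ) * ζ (r • x) ∂ν' = 1 / 2 * ∫ x, ζ x ∂ν := by
    have hc : Continuous fun x : E m => ζ (r • x) := hζ.continuous.comp (continuous_const_smul r)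
    rw [integral_const_mul, hν', integral_map hmeas.aemeasurable hc.aestronglyMeasurable]
    congr 1
    refine integral_congr_ae (Eventually.of_forall fun x => ?_)
    simp only [smul_smul, mul_inv_cancel₀ hr.ne', one_smul]
  have e2 : ∫ x, (1 / 2 : ℝ) * ζ (r • x) = 1 / 2 * ((r ^ m)⁻¹ * ∫ x, ζ x) := by
    rw [integral_const_mul, Measure.integral_comp_smul volume ζ r]
    rw [finrank_euclideanSpace_fin, abs_of_pos (by positivity), smul_eq_mul]
  rw [e1, e2] at key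
  have e3 : ∫ x, ζ x ∂ν - (∫ x, b x ∂ν') * (r ^ m)⁻¹ * ∫ x, ζ x
      = 2 * (1 / 2 * ∫ x, ζ x ∂ν - 1 / 2 * ((r ^ m)⁻¹ * ∫ x, ζ x) * ∫ x, b x ∂ν') := by ring
  rw [e3, abs_mul, abs_of_pos (by norm_num : (0 : ℝ) < 2)]
  calc 2 * |1 / 2 * ∫ x, ζ x ∂ν - 1 / 2 * ((r ^ m)⁻¹ * ∫ x, ζ x) * ∫ x, b x ∂ν'|
      ≤ 2 * (C * (2 * δ)) := by gcongr
    _ = 4 * C * δ := by ring

end Crest.Agent.R234.Th_186
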