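import Crest.Agent.R234.Th1_164

/-!
Row 234, VF-THETA part 2 (helper164): the chain of scales.
If at every scale `ρ ∈ [s, ρ₀]` the integer valued function `N` is close to a constant on `ball x (ρ/4)`, then
the integer is the same at all scales.
-/

set_option autoImplicit false

open Set Filter Topology MeasureTheory Metric
open scoped ENNReal NNReal

noncomputable section

namespace Crest.Agent.R234.Th_164

variable {d : ℕ}

/-- Euclidean space -/
abbrev Eu (d : ℕ) : Type := EuclideanSpace ℝ (Fin d)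

/-- volume of the unit ball -/
def om (d : ℕ) : ℝ := (volume (ball (0 : Eu d) 1)).toReal

theorem om_pos (d : ℕ) : 0 < om d :=
  ENNReal.toReal_pos (measure_ball_pos _ _ one_pos).ne' measure_ball_lt_top.ne

theorem vol_ball (x : Eu d) {r : ℝ} (hr : 0 < r) : volume.real (ball x r) = om d * r ^ d := by
  rw [measureReal_def, Measure.addHaar_ball_of_pos _ _ hr, finrank_euclideanSpace_fin,
    ENNReal.toReal_mul, ENNReal.toReal_ofReal (by positivity), om, mul_comm]

theorem vol_closedBall (x : Eu d) {r : ℝ} (hr : 0 ≤ r) :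
    volume.real (closedBall x r) = om d * r ^ d := by
  rw [measureReal_def, Measure.addHaar_closedBall _ _ hr, finrank_euclideanSpace_fin,
    ENNReal.toReal_mul, ENNReal.toReal_ofReal (by positivity), om, mul_comm]

variable {N : Eu d → ℝ} {x : Eu d} {Q : ℕ}

theorem integral_N_le {ρ ε : ℝ} (hρ : 0 < ρ) (hN : IntegrableOn N (ball x ρ))
    (hε : ∫ y in ball x ρ, |N y - Q| ≤ ε * ρ ^ d) :
    ∫ y in ball x ρ, N y ≤ (Q * om d + ε) * ρ ^ d := by
  have hQ : IntegrableOn (fun _ : Eu d => (Q : ℝ)) (ball x ρ) :=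
    integrableOn_const measure_ball_lt_top.ne
  have h1 : ∫ y in ball x ρ, N y ≤ ∫ y in ball x ρ, (Q + |N y - Q|) := by
    refine integral_mono hN (hQ.add (hN.sub hQ).abs) fun y => ?_
    have := le_abs_self (N y - Q)
    linarith
  have hNQ : IntegrableOn (fun y => |N y - (Q : ℝ)|) (ball x ρ) := (hN.sub hQ).abs
  have h2 : ∫ y in ball x ρ, (Q + |N y - Q|) = Q * (om d * ρ ^ d) + ∫ y in ball x ρ, |N y - Q| := by
    rw [integral_add hQ hNQ, setIntegral_const, vol_ball x hρ, smul_eq_mul, mul_comm]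
  rw [h2] at h1
  calc _ ≤ _ := h1
    _ ≤ Q * (om d * ρ ^ d) + ε * ρ ^ d := by gcongr
    _ = _ := by ring

/-- one step -/
theorem step {ρ ε η : ℝ} (hρ : 0 < ρ) (hm : Measurable N) (hN : IntegrableOn N (ball x ρ))
    (hnat : ∀ᵐ y ∂(volume.restrict (ball x ρ)), ∃ n : ℕ, N y = n)
    (hε : ∫ y in ball x ρ, |N y - Q| ≤ ε * ρ ^ d)
    (hη : 4 ^ (d + 1) * η ≤ ε) (hεω : ε * (1 + 4 ^ d) < om d) {c : ℝ}
    (hc : ∀ S, MeasurableSet S → S ⊆ ball x (ρ / 4) →
      |(∫ y in S, N y) - c * volume.real S| ≤ η * ρ ^ d) :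
    ∫ y in ball x (ρ / 4), |N y - Q| ≤ ε * (ρ / 4) ^ d := by
  have h4 : (0 : ℝ) < ρ / 4 := by positivity
  have hsub : ball x (ρ / 4) ⊆ ball x ρ := ball_subset_ball (by linarith)
  have hN' := hN.mono_set hsub
  have hfin : volume (ball x (ρ / 4)) ≠ ∞ := measure_ball_lt_top.ne
  obtain ⟨k, hk⟩ := exists_nat_close measurableSet_ball hm hN' hfin
    (ae_mono (Measure.restrict_mono hsub le_rfl) hnat) hc
  have e1 : 4 * (η * ρ ^ d) = (4 ^ (d + 1) * η) * (ρ / 4) ^ d := by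
    rw [div_pow]
    field_simp
    ring
  have hk2 : ∫ y in ball x (ρ / 4), |N y - k| ≤ ε * (ρ / 4) ^ d := by
    refine hk.trans ?_
    rw [e1]
    gcongr
  have hQ : IntegrableOn (fun _ : Eu d => (Q : ℝ)) (ball x ρ) :=
    integrableOn_const measure_ball_lt_top.ne
  have hNQ : IntegrableOn (fun y => |N y - (Q : ℝ)|) (ball x ρ) := (hN.sub hQ).abs
  have hQ2 : ∫ y in ball x (ρ / 4), |N y - Q| ≤ 4 ^ d * ε * (ρ / 4) ^ d := by
    calc ∫ y in ball x (ρ / 4), |N y - Q| ≤ ∫ y in ball x ρ, |N y - Q| :=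
          setIntegral_mono_set hNQ (Eventually.of_forall fun y => abs_nonneg _) hsub.eventuallyLE
      _ ≤ ε * ρ ^ d := hε
      _ = 4 ^ d * ε * (ρ / 4) ^ d := by
          rw [div_pow]
          field_simp
  have hkQ : k = Q := by
    refine eq_of_close hN' hfin ?_
    rw [vol_ball x h4]
    calc _ ≤ ε * (ρ / 4) ^ d + 4 ^ d * ε * (ρ / 4) ^ d := add_le_add hk2 hQ2
      _ = ε * (1 + 4 ^ d) * (ρ / 4) ^ d := by ring
      _ < om d * (ρ / 4) ^ d := by gcongr
  rw [← hkQ]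
  exact hk2

/-- **chain of scales**: the integer is the same at all scales. -/
theorem chain {ρ₀ s ε η : ℝ} (hm : Measurable N) (hN : IntegrableOn N (ball x ρ₀))
    (hnat : ∀ᵐ y ∂(volume.restrict (ball x ρ₀)), ∃ n : ℕ, N y = n)
    (hε0 : 0 ≤ ε) (hε1 : ε ≤ 1)
    (h0 : ∫ y in ball x ρ₀, |N y - Q| ≤ ε * ρ₀ ^ d)
    (hη : 4 ^ (d + 1) * η ≤ ε) (hεω : ε * (1 + 4 ^ d) < om d)
    (hstep : ∀ ρ, 0 < ρ → s ≤ ρ → ρ ≤ ρ₀ → ∫ y in ball x ρ, N y ≤ (Q * om d + 1) * ρ ^ d →
      ∃ c : ℝ, ∀ S, MeasurableSet S → S ⊆ ball x (ρ / 4) →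
        |(∫ y in S, N y) - c * volume.real S| ≤ η * ρ ^ d)
    {r : ℝ} (hr0 : 0 < r) (hsr : s ≤ r) (hr : r ≤ ρ₀) :
    ∫ y in ball x r, |N y - Q| ≤ 4 ^ d * ε * r ^ d := by
  have hρ0 : 0 < ρ₀ := hr0.trans_le hr
  have key : ∀ j : ℕ, r ≤ ρ₀ / 4 ^ j → ∫ y in ball x (ρ₀ / 4 ^ j), |N y - Q| ≤ ε * (ρ₀ / 4 ^ j) ^ d := by
    intro j
    induction j with
    | zero => intro _; simpa using h0
    | succ j ih =>
      intro hj
      have h1 : ρ₀ / 4 ^ (j + 1) = ρ₀ / 4 ^ j / 4 := by rw [pow_succ]; field_simp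
      have h2 : 0 < ρ₀ / 4 ^ j := by positivity
      have h3 : r ≤ ρ₀ / 4 ^ j := by rw [h1] at hj; linarith
      have h4 : ρ₀ / 4 ^ j ≤ ρ₀ := div_le_self hρ0.le (one_le_pow₀ (by norm_num))
      have hsub : ball x (ρ₀ / 4 ^ j) ⊆ ball x ρ₀ := ball_subset_ball h4
      have ih' := ih h3
      have h5 : ∫ y in ball x (ρ₀ / 4 ^ j), N y ≤ (Q * om d + 1) * (ρ₀ / 4 ^ j) ^ d := by
        refine (integral_N_le h2 (hN.mono_set hsub) ih').trans ?_
        gcongr
      obtain ⟨c, hc⟩ := hstep _ h2 (hsr.trans h3) h4 h5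
      rw [h1]
      exact step h2 hm (hN.mono_set hsub) (ae_mono (Measure.restrict_mono hsub le_rfl) hnat) ih'
        hη hεω hc
  obtain ⟨j, hj1, hj2⟩ : ∃ j : ℕ, r ≤ ρ₀ / 4 ^ j ∧ ρ₀ / 4 ^ (j + 1) < r := by
    have h1 : ∃ n : ℕ, ρ₀ / 4 ^ (n + 1) < r := by
      obtain ⟨n, hn⟩ := pow_unbounded_of_one_lt (ρ₀ / r) (by norm_num : (1 : ℝ) < 4)
      refine ⟨n, ?_⟩
      rw [div_lt_iff₀ (by positivity)]
      rw [div_lt_iff₀ hr0] at hn
      calc ρ₀ < 4 ^ n * r := hn
        _ ≤ 4 ^ (n + 1) * r := by gcongr <;> norm_num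
        _ = _ := by ring
    classical
    refine ⟨Nat.find h1, ?_, Nat.find_spec h1⟩
    rcases Nat.eq_zero_or_pos (Nat.find h1) with h | h
    · rw [h]; simpa using hr
    · have h2 := Nat.find_min h1 (m := Nat.find h1 - 1) (by omega)
      rw [not_lt] at h2
      rwa [show Nat.find h1 - 1 + 1 = Nat.find h1 by omega] at h2
  have h4 : ρ₀ / 4 ^ j ≤ ρ₀ := div_le_self hρ0.le (one_le_pow₀ (by norm_num))
  have hQ : IntegrableOn (fun _ : Eu d => (Q : ℝ)) (ball x (ρ₀ / 4 ^ j)) :=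
    integrableOn_const measure_ball_lt_top.ne
  have hNQ : IntegrableOn (fun y => |N y - (Q : ℝ)|) (ball x (ρ₀ / 4 ^ j)) :=
    ((hN.mono_set (ball_subset_ball h4)).sub hQ).abs
  calc ∫ y in ball x r, |N y - Q| ≤ ∫ y in ball x (ρ₀ / 4 ^ j), |N y - Q| :=
        setIntegral_mono_set hNQ (Eventually.of_forall fun y => abs_nonneg _)
          (ball_subset_ball hj1).eventuallyLE
    _ ≤ ε * (ρ₀ / 4 ^ j) ^ d := key j hj1
    _ ≤ ε * (4 * r) ^ d := by
        gcongr
        rw [pow_succ, ← div_div] at hj2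
        linarith
    _ = 4 ^ d * ε * r ^ d := by rw [mul_pow]; ring

theorem ball_ae_closedBall (x : Eu d) {r : ℝ} (hr : 0 < r) :
    (ball x r : Set (Eu d)) =ᵐ[volume] closedBall x r := by
  refine ae_eq_of_subset_of_measure_ge ball_subset_closedBall ?_ measurableSet_ball.nullMeasurableSet
    measure_closedBall_lt_top.ne
  rw [Measure.addHaar_closedBall _ _ hr.le, Measure.addHaar_ball_of_pos _ _ hr]

/-- at a Lebesgue point the value is the integer of the chain. -/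
theorem eq_of_averages {ε : ℝ} {R : Set (Eu d)} (hR : IsOpen R) (hN : IntegrableOn N R)
    (hε : ε < om d) {A : Set (Eu d)} (hAR : A ⊆ R)
    (hnat : ∀ᵐ y ∂(volume.restrict R), ∃ n : ℕ, N y = n)
    (hA : ∀ x ∈ A, ∃ᶠ r in 𝓝[>] (0 : ℝ), ∫ y in ball x r, |N y - Q| ≤ ε * r ^ d) :
    ∀ᵐ x, x ∈ A → N x = Q := by
  have hf : LocallyIntegrable (R.indicator N) :=
    ((integrable_indicator_iff hR.measurableSet).2 hN).locallyIntegrable
  have hL := IsUnifLocDoublingMeasure.ae_tendsto_average_norm_sub (μ := (volume : Measure (Eu d))) hf 1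
  rw [ae_restrict_iff' hR.measurableSet] at hnat
  filter_upwards [hL, hnat] with x hx hn hxA
  have hxR : x ∈ R := hAR hxA
  obtain ⟨n, hn⟩ := hn hxR
  have hT : Tendsto (fun r : ℝ => ⨍ y in closedBall x r, ‖R.indicator N y - R.indicator N x‖)
      (𝓝[>] 0) (𝓝 0) := by
    refine hx (fun _ => x) (fun r => r) tendsto_id ?_
    filter_upwards [self_mem_nhdsWithin] with r hr
    exact mem_closedBall_self (by simpa using (le_of_lt (show (0 : ℝ) < r from hr)))
  obtain ⟨ρ, hρ, hρR⟩ := Metric.isOpen_iff.1 hR x hxR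
  -- the key inequality
  have hkey : |(n : ℝ) - Q| ≤ ε / om d := by
    refine le_of_forall_pos_lt_add fun δ hδ => ?_
    have h1 : ∀ᶠ r in 𝓝[>] (0 : ℝ), ⨍ y in closedBall x r, ‖R.indicator N y - R.indicator N x‖ < δ :=
      hT.eventually (gt_mem_nhds hδ)
    have h2 : ∀ᶠ r in 𝓝[>] (0 : ℝ), r < ρ := by
      filter_upwards [Ioo_mem_nhdsGT hρ] with r hr using hr.2
    obtain ⟨r, hr1, hr2, hr3, hr0⟩ :=
      ((hA x hxA).and_eventually (h1.and (h2.and self_mem_nhdsWithin))).exists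
    have hr0' : (0 : ℝ) < r := hr0
    have hsub : ball x r ⊆ R := (ball_subset_ball hr3.le).trans hρR
    have hNb := hN.mono_set hsub
    have hfin : volume (ball x r) ≠ ∞ := measure_ball_lt_top.ne
    have hQ : IntegrableOn (fun _ : Eu d => (Q : ℝ)) (ball x r) := integrableOn_const hfin
    have hn' : IntegrableOn (fun _ : Eu d => (n : ℝ)) (ball x r) := integrableOn_const hfin
    have hNQ : IntegrableOn (fun y => |N y - (Q : ℝ)|) (ball x r) := (hNb.sub hQ).abs
    have hNn : IntegrableOn (fun y => |N y - (n : ℝ)|) (ball x r) := (hNb.sub hn').abs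
    have e1 : ⨍ y in closedBall x r, ‖R.indicator N y - R.indicator N x‖ =
        (om d * r ^ d)⁻¹ * ∫ y in ball x r, |N y - n| := by
      rw [setAverage_eq, vol_closedBall x hr0'.le, smul_eq_mul,
        setIntegral_congr_set (ball_ae_closedBall x hr0').symm]
      congr 1
      refine setIntegral_congr_fun measurableSet_ball fun y hy => ?_
      simp only [Set.indicator_of_mem (hsub hy), Set.indicator_of_mem hxR, Real.norm_eq_abs, hn]
    rw [e1] at hr2
    have hv : 0 < om d * r ^ d := mul_pos (om_pos d) (pow_pos hr0' d)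
    have h3 : |(n : ℝ) - Q| * (om d * r ^ d) ≤
        (∫ y in ball x r, |N y - n|) + ∫ y in ball x r, |N y - Q| := by
      rw [← integral_add hNn hNQ]
      have h4 : |(n : ℝ) - Q| * (om d * r ^ d) = ∫ y in ball x r, |(n : ℝ) - Q| := by
        rw [setIntegral_const, smul_eq_mul, vol_ball x hr0', mul_comm]
      rw [h4]
      refine integral_mono (integrableOn_const hfin) (hNn.add hNQ) fun y => ?_
      have h5 : |(n : ℝ) - Q| ≤ |(n : ℝ) - N y| + |N y - Q| := abs_sub_le _ _ _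
      rw [abs_sub_comm (n : ℝ) (N y)] at h5
      exact h5
    have h6 : ∫ y in ball x r, |N y - n| < δ * (om d * r ^ d) := by
      rw [inv_mul_lt_iff₀ hv] at hr2
      linarith
    have h7 : |(n : ℝ) - Q| * (om d * r ^ d) < (ε / om d + δ) * (om d * r ^ d) := by
      calc _ ≤ _ := h3
        _ < δ * (om d * r ^ d) + ε * r ^ d := by linarith
        _ = (ε / om d + δ) * (om d * r ^ d) := by
            have := (om_pos d).ne'
            field_simp
            ring
    exact lt_of_mul_lt_mul_right h7 hv.le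
  have h1 : ε / om d < 1 := (div_lt_one (om_pos d)).2 hε
  have h2 : |(n : ℝ) - Q| < 1 := hkey.trans_lt h1
  have h3 : |(n : ℤ) - Q| < 1 := by exact_mod_cast h2
  rw [Int.abs_lt_one_iff] at h3
  rw [hn]
  have h4 : n = Q := by omega
  rw [h4]

end Crest.Agent.R234.Th_164
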