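import Crest.Agent.R234.MgDefs3_570
import Crest.Agent.R234.Ibp1_937
import Crest.Agent.R234.Sw3_733
import Crest.Agent.R234.Th1_186

/-!
# Row 234, node F2-TH (helper186), file 2: the tangential fields over the graph, pointwise algebra
-/

set_option autoImplicit false

open MeasureTheory Filter Topology Set
open scoped ENNReal NNReal ContDiff InnerProductSpace
open Crest.GeometryTopology.Submanifold Crest.Agent.R234.Vf_884
open Crest.Agent.R234.Ell1_3 (gop ginv dns)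
open Crest.Agent.R234.Cy_870 (Split tr_cyc)
open Crest.Agent.R234.Ibp_937 (dG tr_half tr_eb)
open Crest.Agent.R234.MG_570 (TG)

noncomputable section

namespace Crest.Agent.R234.Th_186

variable {m n k : ℕ} {π : Euc k →L[ℝ] Euc m} {ρ : Euc k →L[ℝ] Euc n}

local notation "adj" => ContinuousLinearMap.adjoint
local notation "eb" => stdOrthonormalBasis ℝ (Euc m)

theorem hh_apply (h : Split π ρ) (x : Euc m) : π (adj π x) = x :=
  congrArg (fun T : L m => T x) h.hh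

theorem vv_apply (h : Split π ρ) (x : Euc n) : ρ (adj ρ x) = x :=
  congrArg (fun T : L n => T x) h.vv

theorem sum_apply' (h : Split π ρ) (x : Euc k) : adj π (π x) + adj ρ (ρ x) = x :=
  congrArg (fun T : L k => T x) h.sum

theorem hv_apply (h : Split π ρ) (x : Euc n) : π (adj ρ x) = 0 := by
  have h1 := sum_apply' h (adj ρ x)
  rw [vv_apply h, add_eq_right] at h1
  have h2 := hh_apply h (π (adj ρ x))
  rw [h1, map_zero] at h2
  exact h2.symm

theorem vh_apply (h : Split π ρ) (x : Euc m) : ρ (adj π x) = 0 := by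
  have h1 := sum_apply' h (adj π x)
  rw [hh_apply h, add_eq_left] at h1
  have h2 := vv_apply h (ρ (adj π x))
  rw [h1, map_zero] at h2
  exact h2.symm

theorem norm_pi_le (h : Split π ρ) (z : Euc k) : ‖π z‖ ≤ ‖z‖ := by
  have h1 := h.norm_sq z
  have h2 : ‖π z‖ ^ 2 ≤ ‖z‖ ^ 2 := by nlinarith [sq_nonneg ‖ρ z‖]
  exact abs_le_of_sq_le_sq' h2 (norm_nonneg _) |>.2

theorem norm_adj_pi (h : Split π ρ) (x : Euc m) : ‖adj π x‖ = ‖x‖ := by
  have h1 := h.norm_sq (adj π x)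
  rw [hh_apply h, vh_apply h, norm_zero] at h1
  have h2 : ‖adj π x‖ ^ 2 = ‖x‖ ^ 2 := by rw [h1]; ring
  exact (pow_left_inj₀ (norm_nonneg _) (norm_nonneg _) two_ne_zero).1 h2

theorem norm_adj_rho (h : Split π ρ) (x : Euc n) : ‖adj ρ x‖ = ‖x‖ := by
  have h1 := h.norm_sq (adj ρ x)
  rw [hv_apply h, vv_apply h, norm_zero] at h1
  have h2 : ‖adj ρ x‖ ^ 2 = ‖x‖ ^ 2 := by rw [h1]; ring
  exact (pow_left_inj₀ (norm_nonneg _) (norm_nonneg _) two_ne_zero).1 h2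

/-- the frame of the tangent plane -/
def Fq (π : Euc k →L[ℝ] Euc m) (ρ : Euc k →L[ℝ] Euc n) (q : Euc m →L[ℝ] Euc n) :
    Euc m →L[ℝ] Euc k := adj π + adj ρ ∘L q

theorem Fq_apply (q : Euc m →L[ℝ] Euc n) (x : Euc m) :
    Fq π ρ q x = adj π x + adj ρ (q x) := rfl

theorem adj_Fq (q : Euc m →L[ℝ] Euc n) (z : Euc k) : adj (Fq π ρ q) z = π z + adj q (ρ z) := by
  have h1 : adj (Fq π ρ q) = π + adj q ∘L ρ := by
    rw [Fq, map_add, ContinuousLinearMap.adjoint_comp, ContinuousLinearMap.adjoint_adjoint,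
      ContinuousLinearMap.adjoint_adjoint]
  rw [h1]; rfl

theorem pi_Fq (h : Split π ρ) (q : Euc m →L[ℝ] Euc n) (x : Euc m) : π (Fq π ρ q x) = x := by
  rw [Fq_apply, map_add, hh_apply h, hv_apply h, add_zero]

/-- the tangent projection by the frame -/
def Tq (π : Euc k →L[ℝ] Euc m) (ρ : Euc k →L[ℝ] Euc n) (q : Euc m →L[ℝ] Euc n) : L k :=
  Fq π ρ q ∘L ginv q ∘L adj (Fq π ρ q)

theorem Tq_eq (h : Split π ρ) (q : Euc m →L[ℝ] Euc n) :
    Sel1_570.TT (adj π ∘L π) (adj ρ ∘L q ∘L π) = Tq π ρ q := by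
  set B : L k := adj ρ ∘L q ∘L π with hB
  have hBs : star B = adj π ∘L adj q ∘L ρ := by
    rw [ContinuousLinearMap.star_eq_adjoint, hB, ContinuousLinearMap.adjoint_comp,
      ContinuousLinearMap.adjoint_comp, ContinuousLinearMap.adjoint_adjoint]
    rfl
  -- the middle factor
  have h1 : ∀ x : Euc m, (1 + star B * B : L k) (adj π x) = adj π (gop q x) := by
    intro x
    have e1 : (1 + star B * B : L k) (adj π x) = adj π x + star B (B (adj π x)) := rfl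
    have e2 : B (adj π x) = adj ρ (q (π (adj π x))) := rfl
    have e3 : ∀ y, star B y = adj π (adj q (ρ y)) := fun y => by rw [hBs]; rfl
    have e4 : gop q x = x + adj q (q x) := rfl
    rw [e1, e2, e3, hh_apply h, vv_apply h, e4, map_add]
  have h2 : ∀ x : Euc m, Sel1_570.gI B (adj π (gop q x)) = adj π x := by
    intro x
    have := congrArg (fun A : L k => A (adj π x)) (Sel1_570.gI_mul B)
    have e : Sel1_570.gI B ((1 + star B * B : L k) (adj π x)) = adj π x := this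
    rwa [h1] at e
  have h3 : ∀ x : Euc m, Sel1_570.gI B (adj π x) = adj π (ginv q x) := by
    intro x
    have := h2 (ginv q x)
    rwa [Ibp_937.gop_ginv_apply] at this
  ext1 z
  have e1 : Sel1_570.TT (adj π ∘L π) B z = (adj π ∘L π + B : L k)
      (Sel1_570.gI B ((adj π ∘L π + star B : L k) z)) := rfl
  have e2 : (adj π ∘L π + star B : L k) z = adj π (adj (Fq π ρ q) z) := by
    rw [adj_Fq, map_add]
    have : (adj π ∘L π + star B : L k) z = adj π (π z) + star B z := rfl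
    rw [this, hBs]; rfl
  have e3 : ∀ y : Euc m, (adj π ∘L π + B : L k) (adj π y) = Fq π ρ q y := by
    intro y
    have : (adj π ∘L π + B : L k) (adj π y) = adj π (π (adj π y)) + adj ρ (q (π (adj π y))) := rfl
    rw [this, hh_apply h]; rfl
  rw [e1, e2, h3, e3]
  rfl

theorem TG_eq (h : Split π ρ) (u : Euc m → Euc n) (x : Euc m) :
    TG π ρ u x = Tq π ρ (fderiv ℝ u x) := Tq_eq h _

/-- the tangential field over `ψ` -/
def fld (π : Euc k →L[ℝ] Euc m) (ρ : Euc k →L[ℝ] Euc n) (u : Euc m → Euc n)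
    (ψ : Euc m → Euc m) (z : Euc k) : Euc k :=
  adj π (ψ (π z)) + adj ρ (fderiv ℝ u (π z) (ψ (π z)))

/-- its derivative (before composing with `π`) -/
def Jx (π : Euc k →L[ℝ] Euc m) (ρ : Euc k →L[ℝ] Euc n) (q : Euc m →L[ℝ] Euc n)
    (H : Euc m →L[ℝ] Euc m →L[ℝ] Euc n) (y : Euc m) (P : L m) : Euc m →L[ℝ] Euc k :=
  adj π ∘L P + adj ρ ∘L (H.flip y + q ∘L P)

theorem Jx_apply (q : Euc m →L[ℝ] Euc n) (H : Euc m →L[ℝ] Euc m →L[ℝ] Euc n) (y : Euc m)
    (P : L m) (v : Euc m) : Jx π ρ q H y P v = adj π (P v) + adj ρ (H v y + q (P v)) := rfl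

theorem hasFDerivAt_fld {u : Euc m → Euc n} (hu : ContDiff ℝ 2 u) {ψ : Euc m → Euc m} {P : L m}
    {z : Euc k} (hψ : HasFDerivAt ψ P (π z)) :
    HasFDerivAt (fld π ρ u ψ) (Jx π ρ (fderiv ℝ u (π z)) (fderiv ℝ (fderiv ℝ u) (π z))
      (ψ (π z)) P ∘L π) z := by
  have h1 : ContDiff ℝ 1 (fderiv ℝ u) := hu.fderiv_right (by norm_num)
  have hD : HasFDerivAt (fderiv ℝ u) (fderiv ℝ (fderiv ℝ u) (π z)) (π z) :=
    ((h1.differentiable one_ne_zero) (π z)).hasFDerivAt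
  have h2 : HasFDerivAt (fun x => adj π (ψ x) + adj ρ (fderiv ℝ u x (ψ x)))
      (Jx π ρ (fderiv ℝ u (π z)) (fderiv ℝ (fderiv ℝ u) (π z)) (ψ (π z)) P) (π z) := by
    have e1 := (adj π).hasFDerivAt.comp (π z) hψ
    have e2 := (adj ρ).hasFDerivAt.comp (π z) (hD.clm_apply hψ)
    have e3 := e1.add e2
    refine e3.congr_fderiv ?_
    ext1 v
    rw [Jx_apply]
    simp only [add_apply, ContinuousLinearMap.comp_apply, ContinuousLinearMap.flip_apply]
    rw [add_comm (fderiv ℝ u (π z) (P v))]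
  exact h2.comp z π.hasFDerivAt

theorem contDiff_fld {u : Euc m → Euc n} (hu : ContDiff ℝ 2 u) {ψ : Euc m → Euc m}
    (hψ : ContDiff ℝ 1 ψ) : ContDiff ℝ 1 (fld π ρ u ψ) := by
  have h1 : ContDiff ℝ 1 (fderiv ℝ u) := hu.fderiv_right (by norm_num)
  exact ((adj π).contDiff.comp (hψ.comp π.contDiff)).add
    ((adj ρ).contDiff.comp ((h1.comp π.contDiff).clm_apply (hψ.comp π.contDiff)))

/-- `tr (DX T) = tr P + (1/2) tr (g⁻¹ Dg(y))` -/
theorem tr_Tq (h : Split π ρ) (q : Euc m →L[ℝ] Euc n) (H : Euc m →L[ℝ] Euc m →L[ℝ] Euc n)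
    (hs : ∀ a b, H a b = H b a) (y : Euc m) (P : L m) :
    tr ((Jx π ρ q H y P ∘L π) ∘L Tq π ρ q) = tr P + 1 / 2 * tr (ginv q ∘L dG q H y) := by
  have h1 : tr ((Jx π ρ q H y P ∘L π) ∘L Tq π ρ q)
      = tr ((π ∘L Tq π ρ q) ∘L Jx π ρ q H y P) :=
    tr_cyc (Jx π ρ q H y P) (π ∘L Tq π ρ q)
  have h2 : (π ∘L Tq π ρ q) ∘L Jx π ρ q H y P = P + ginv q ∘L (adj q ∘L H.flip y) := by
    ext1 v
    have e1 : ((π ∘L Tq π ρ q) ∘L Jx π ρ q H y P) v
        = π (Fq π ρ q (ginv q (adj (Fq π ρ q) (Jx π ρ q H y P v)))) := rfl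
    rw [e1, pi_Fq h, Jx_apply, adj_Fq, map_add π, map_add ρ, hh_apply h, hv_apply h, vh_apply h,
      vv_apply h, add_zero, zero_add, map_add (adj q)]
    have e2 : P v + (adj q (H v y) + adj q (q (P v))) = gop q (P v) + adj q (H v y) := by
      have : gop q (P v) = P v + adj q (q (P v)) := rfl
      rw [this]; abel
    rw [e2, map_add]
    have e3 : ginv q (gop q (P v)) = P v := by
      have := congrArg (fun A : L m => A (P v)) (Ell1_3.ginv_gop q)
      simpa using this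
    rw [e3]; rfl
  rw [h1, h2, map_add, tr_half]
  congr 1
  rw [tr_eb]
  refine Finset.sum_congr rfl fun i _ => ?_
  have e1 : (ginv q ∘L (adj q ∘L H.flip y)) (eb i) = ginv q (adj q (H (eb i) y)) := rfl
  rw [e1, ← Ibp_937.ginv_symm, ContinuousLinearMap.adjoint_inner_right, hs y]

/-- `|tr (DX A)| ≤ m ‖J‖ ‖A‖` -/
theorem abs_tr_le (h : Split π ρ) (J : Euc m →L[ℝ] Euc k) (A : L k) :
    |tr ((J ∘L π) ∘L A)| ≤ m * (‖J‖ * ‖A‖) := by
  have h1 : tr ((J ∘L π) ∘L A) = tr ((π ∘L A) ∘L J) := tr_cyc J (π ∘L A)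
  rw [h1]
  refine (Sel1_570.abs_tr_le _).trans ?_
  gcongr
  refine ContinuousLinearMap.opNorm_le_bound _ (by positivity) fun v => ?_
  calc ‖π (A (J v))‖ ≤ ‖A (J v)‖ := norm_pi_le h _
    _ ≤ ‖A‖ * ‖J v‖ := A.le_opNorm _
    _ ≤ ‖A‖ * (‖J‖ * ‖v‖) := by gcongr; exact J.le_opNorm _
    _ = ‖J‖ * ‖A‖ * ‖v‖ := by ring

theorem norm_Jx_le (h : Split π ρ) {q : Euc m →L[ℝ] Euc n} (hq : ‖q‖ ≤ 1)
    {H : Euc m →L[ℝ] Euc m →L[ℝ] Euc n} (hH : ‖H‖ ≤ 1) (y : Euc m) (P : L m) :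
    ‖Jx π ρ q H y P‖ ≤ 2 * ‖P‖ + ‖y‖ := by
  refine ContinuousLinearMap.opNorm_le_bound _ (by positivity) fun v => ?_
  rw [Jx_apply]
  calc ‖adj π (P v) + adj ρ (H v y + q (P v))‖
      ≤ ‖adj π (P v)‖ + ‖adj ρ (H v y + q (P v))‖ := norm_add_le _ _
    _ ≤ ‖P v‖ + (‖H v y‖ + ‖q (P v)‖) := by
        rw [norm_adj_pi h, norm_adj_rho h]; gcongr; exact norm_add_le _ _
    _ ≤ ‖P‖ * ‖v‖ + (1 * ‖v‖ * ‖y‖ + 1 * (‖P‖ * ‖v‖)) := by
        gcongr
        · exact P.le_opNorm v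
        · exact ((H v).le_opNorm y).trans (by
            gcongr; exact (H.le_opNorm v).trans (by gcongr))
        · exact (q.le_opNorm _).trans (by gcongr; exact P.le_opNorm v)
    _ = _ := by ring

/-- the derivative of `√g`, bounded -/
theorem abs_half_tr_le {q : Euc m →L[ℝ] Euc n} (hq : ‖q‖ ≤ 1)
    {H : Euc m →L[ℝ] Euc m →L[ℝ] Euc n} (hH : ‖H‖ ≤ 1) (v : Euc m) :
    |1 / 2 * tr (ginv q ∘L dG q H v)| ≤ m * ‖v‖ := by
  rw [tr_half]
  refine (Finset.abs_sum_le_sum_abs _ _).trans ?_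
  have h1 : ∀ i, |⟪q (ginv q (eb i)), H v (eb i)⟫_ℝ| ≤ ‖v‖ := by
    intro i
    have hn : ‖eb i‖ = 1 := (eb).norm_eq_one i
    calc |⟪q (ginv q (eb i)), H v (eb i)⟫_ℝ| ≤ ‖q (ginv q (eb i))‖ * ‖H v (eb i)‖ :=
          abs_real_inner_le_norm _ _
      _ ≤ (1 * (1 * 1)) * ((1 * ‖v‖) * 1) := by
          gcongr
          · refine (q.le_opNorm _).trans ?_
            gcongr
            refine ((ginv q).le_opNorm _).trans ?_
            rw [hn]
            gcongr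
            exact Sw_733.norm_ginv_le q
          · refine ((H v).le_opNorm _).trans ?_
            rw [hn]
            gcongr
            exact (H.le_opNorm v).trans (by gcongr)
      _ = ‖v‖ := by ring
  calc ∑ i, |⟪q (ginv q (eb i)), H v (eb i)⟫_ℝ| ≤ ∑ _i : Fin (Module.finrank ℝ (Euc m)), ‖v‖ :=
        Finset.sum_le_sum fun i _ => h1 i
    _ = m * ‖v‖ := by simp

end Crest.Agent.R234.Th_186
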