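import Crest.Agent.R234.Th2_164

/-!
Row 234, VF-THETA part 3 (helper164): the chain of scales from the strong constancy lemma.
`SC2 d C` : the statement of the strong constancy lemma (helper173) used here.
`Hyp` : first variation of an integral varifold in the horizontal variables, as an abstract structure.
`TH1` : small steep energy at all scales ==> the multiplicity function is close to `Q` at all scales.
-/

set_option autoImplicit false

open Set Filter Topology MeasureTheory Metric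
open scoped ENNReal NNReal ContDiff

noncomputable section

namespace Crest.Agent.R234.Th_164

variable {d : ℕ}

/-- divergence -/
def divg (X : Eu d → Eu d) (z : Eu d) : ℝ := ∑ i, fderiv ℝ X z (EuclideanSpace.single i 1) i

/-- strong constancy lemma (the statement, constant `C`) -/
def SC2 (d : ℕ) (C : ℝ) : Prop :=
  ∀ (A Em G : Measure (Eu d)) (x₀ : Eu d) (r M δ : ℝ), 0 < r → 0 ≤ δ → δ ≤ M →
    A (ball x₀ (4 * r)) ≤ ENNReal.ofReal M →
    Em (ball x₀ (4 * r)) ≤ ENNReal.ofReal δ →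
    G (ball x₀ (4 * r)) ≤ ENNReal.ofReal (δ / r) →
    (∀ X : Eu d → Eu d, ContDiff ℝ ∞ X → HasCompactSupport X → tsupport X ⊆ ball x₀ (4 * r) →
      |∫ z, divg X z ∂A| ≤ (∫ z, ‖fderiv ℝ X z‖ ∂Em) + ∫ z, ‖X z‖ ∂G) →
    ∃ c : ℝ, ∀ S, MeasurableSet S → S ⊆ ball x₀ r →
      |A.real S - c * volume.real S| ≤ C * Real.sqrt (M * δ)

/-- the first variation of an integral varifold tested with horizontal fields: `N` multiplicity function,
`μ` mass, `e` tilt energy, `es` energy of the steep part, `G ≤ g μ` lower order errors. -/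
structure Hyp (C₁ c₀ g : ℝ) (R : Set (Eu d)) (N : Eu d → ℝ) (μ e es G : Measure (Eu d)) : Prop where
  isOpen : IsOpen R
  meas : Measurable N
  nonneg : ∀ y, 0 ≤ N y
  int : IntegrableOn N R
  nat : ∀ᵐ y ∂(volume.restrict R), ∃ n : ℕ, N y = n
  fin : μ R ≠ ⊤
  tilt : ∀ S, MeasurableSet S → S ⊆ R → e S ≤ ENNReal.ofReal c₀ * μ S + es S
  mass : ∀ S, MeasurableSet S → S ⊆ R → μ S ≤ ENNReal.ofReal (∫ y in S, N y) + e S
  low : ∀ S, MeasurableSet S → S ⊆ R → G S ≤ ENNReal.ofReal g * μ S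
  le_mass : ∀ S, MeasurableSet S → S ⊆ R → ENNReal.ofReal (∫ y in S, N y) ≤ μ S
  stat : ∀ X : Eu d → Eu d, ContDiff ℝ ∞ X → HasCompactSupport X → tsupport X ⊆ R →
    |∫ y in R, N y * divg X y| ≤ C₁ * (∫ y, ‖fderiv ℝ X y‖ ∂e) + ∫ y, ‖X y‖ ∂G

namespace Hyp

variable {C₁ c₀ g : ℝ} {R : Set (Eu d)} {N : Eu d → ℝ} {μ e es G : Measure (Eu d)}

/-- tilt energy of a ball -/
theorem e_le (H : Hyp C₁ c₀ g R N μ e es G) (hc0 : 0 ≤ c₀) (hc : c₀ ≤ 1 / 2) {S : Set (Eu d)}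
    (hS : MeasurableSet S) (hSR : S ⊆ R) {a b : ℝ} (ha : ∫ y in S, N y ≤ a) (hb : 0 ≤ b)
    (hes : es S ≤ ENNReal.ofReal b) : e S ≤ ENNReal.ofReal (2 * c₀ * a + 2 * b) := by
  have hμ : μ S ≠ ⊤ := ne_top_of_le_ne_top H.fin (measure_mono hSR)
  have h0 : 0 ≤ ∫ y in S, N y := integral_nonneg fun y => H.nonneg y
  have ha0 : 0 ≤ a := h0.trans ha
  have h1 := H.tilt S hS hSR
  have hesf : es S ≠ ⊤ := ne_top_of_le_ne_top ENNReal.ofReal_ne_top hes
  have hef : e S ≠ ⊤ := ne_top_of_le_ne_top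
    (ENNReal.add_ne_top.2 ⟨ENNReal.mul_ne_top ENNReal.ofReal_ne_top hμ, hesf⟩) h1
  have h2 := H.mass S hS hSR
  have h1' : (e S).toReal ≤ c₀ * (μ S).toReal + (es S).toReal := by
    have h := ENNReal.toReal_mono
      (ENNReal.add_ne_top.2 ⟨ENNReal.mul_ne_top ENNReal.ofReal_ne_top hμ, hesf⟩) h1
    rwa [ENNReal.toReal_add (ENNReal.mul_ne_top ENNReal.ofReal_ne_top hμ) hesf,
      ENNReal.toReal_mul, ENNReal.toReal_ofReal hc0] at h
  have h2' : (μ S).toReal ≤ (∫ y in S, N y) + (e S).toReal := by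
    have h := ENNReal.toReal_mono (ENNReal.add_ne_top.2 ⟨ENNReal.ofReal_ne_top, hef⟩) h2
    rwa [ENNReal.toReal_add ENNReal.ofReal_ne_top hef, ENNReal.toReal_ofReal h0] at h
  have h3 : (es S).toReal ≤ b := ENNReal.toReal_le_of_le_ofReal hb hes
  rw [← ENNReal.ofReal_toReal hef]
  refine ENNReal.ofReal_le_ofReal ?_
  have h4 : 0 ≤ (e S).toReal := ENNReal.toReal_nonneg
  nlinarith

/-- mass of a ball -/
theorem μ_le (H : Hyp C₁ c₀ g R N μ e es G) (hc0 : 0 ≤ c₀) (hc : c₀ ≤ 1 / 2) {S : Set (Eu d)}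
    (hS : MeasurableSet S) (hSR : S ⊆ R) {a b : ℝ} (ha : ∫ y in S, N y ≤ a) (hb : 0 ≤ b)
    (hes : es S ≤ ENNReal.ofReal b) : μ S ≤ ENNReal.ofReal (2 * a + 2 * b) := by
  have h0 : 0 ≤ ∫ y in S, N y := integral_nonneg fun y => H.nonneg y
  have h1 := H.e_le hc0 hc hS hSR ha hb hes
  refine (H.mass S hS hSR).trans ?_
  have ha0 : 0 ≤ a := h0.trans ha
  calc ENNReal.ofReal (∫ y in S, N y) + e S ≤ ENNReal.ofReal a + ENNReal.ofReal (2 * c₀ * a + 2 * b) :=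
        add_le_add (ENNReal.ofReal_le_ofReal ha) h1
    _ = ENNReal.ofReal (a + (2 * c₀ * a + 2 * b)) := (ENNReal.ofReal_add ha0 (by positivity)).symm
    _ ≤ _ := ENNReal.ofReal_le_ofReal (by nlinarith)

/-- the strong constancy lemma at one scale -/
theorem constancy (H : Hyp C₁ c₀ g R N μ e es G) {C : ℝ} (hSC : SC2 d C) (hC₁ : 0 ≤ C₁) {x : Eu d}
    {r M δ : ℝ} (hr : 0 < r) (hδ : 0 ≤ δ) (hδM : δ ≤ M) (hR : ball x (4 * r) ⊆ R)
    (hA : ∫ y in ball x (4 * r), N y ≤ M)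
    (hE : ENNReal.ofReal C₁ * e (ball x (4 * r)) ≤ ENNReal.ofReal δ)
    (hG : G (ball x (4 * r)) ≤ ENNReal.ofReal (δ / r)) :
    ∃ c : ℝ, ∀ S, MeasurableSet S → S ⊆ ball x r →
      |(∫ y in S, N y) - c * volume.real S| ≤ C * Real.sqrt (M * δ) := by
  set A : Measure (Eu d) := (volume.restrict R).withDensity fun y => ENNReal.ofReal (N y) with hAdef
  have hAS : ∀ S, MeasurableSet S → S ⊆ R → A S = ENNReal.ofReal (∫ y in S, N y) := by
    intro S hS hSR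
    rw [hAdef, withDensity_apply _ hS, Measure.restrict_restrict hS, inter_eq_left.2 hSR,
      ofReal_integral_eq_lintegral_ofReal (H.int.mono_set hSR)
        (Eventually.of_forall fun y => H.nonneg y)]
  have hAr : ∀ S, MeasurableSet S → S ⊆ R → A.real S = ∫ y in S, N y := by
    intro S hS hSR
    rw [measureReal_def, hAS S hS hSR, ENNReal.toReal_ofReal (integral_nonneg fun y => H.nonneg y)]
  obtain ⟨c, hc⟩ := hSC A (ENNReal.ofReal C₁ • e) G x r M δ hr hδ hδM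
    (by rw [hAS _ measurableSet_ball hR]; exact ENNReal.ofReal_le_ofReal hA)
    (by rw [Measure.smul_apply, smul_eq_mul]; exact hE) hG
    (by
      intro X hX hXc hXs
      have h1 : ∫ z, divg X z ∂A = ∫ y in R, N y * divg X y := by
        rw [hAdef, integral_withDensity_eq_integral_toReal_smul
          (H.meas.ennreal_ofReal) (Eventually.of_forall fun y => ENNReal.ofReal_lt_top)]
        refine integral_congr_ae (Eventually.of_forall fun y => ?_)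
        simp only [smul_eq_mul]
        rw [ENNReal.toReal_ofReal (H.nonneg y)]
      have h2 : ∫ z, ‖fderiv ℝ X z‖ ∂(ENNReal.ofReal C₁ • e) = C₁ * ∫ z, ‖fderiv ℝ X z‖ ∂e := by
        rw [integral_smul_measure, ENNReal.toReal_ofReal hC₁, smul_eq_mul]
      rw [h1, h2]
      exact H.stat X hX hXc (hXs.trans hR))
  refine ⟨c, fun S hS hSx => ?_⟩
  rw [← hAr S hS ((hSx.trans (ball_subset_ball (by linarith))).trans hR)]
  exact hc S hS hSx

end Hyp

/-- **(TH1)** small steep energy at all scales in `[s, ρ₀]` ==> `N` is close to `Q` at all these scales. -/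
theorem TH1 {C : ℝ} (hSC : SC2 d C) (Q : ℕ) {C₁ : ℝ} (hC₁ : 0 ≤ C₁) {ε : ℝ} (hε : 0 < ε) (hε1 : ε ≤ 1)
    (hεω : ε * (1 + 4 ^ d) < om d) :
    ∃ c₁ : ℝ, 0 < c₁ ∧ c₁ ≤ 1 / 2 ∧ ∃ δ₁ : ℝ, 0 < δ₁ ∧ δ₁ ≤ 1 ∧
      ∀ (c₀ g : ℝ) (R : Set (Eu d)) (N : Eu d → ℝ) (μ e es G : Measure (Eu d)),
        0 ≤ c₀ → c₀ ≤ c₁ → 0 ≤ g → Hyp C₁ c₀ g R N μ e es G →
        ∀ (x : Eu d) (s ρ₀ : ℝ), ball x ρ₀ ⊆ R → g * ρ₀ ≤ δ₁ →
          ∫ y in ball x ρ₀, |N y - Q| ≤ ε * ρ₀ ^ d →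
          (∀ ρ, 0 < ρ → s ≤ ρ → ρ ≤ ρ₀ → es (ball x ρ) ≤ ENNReal.ofReal (δ₁ * ρ ^ d)) →
          ∀ r, 0 < r → s ≤ r → r ≤ ρ₀ → ∫ y in ball x r, |N y - Q| ≤ 4 ^ d * ε * r ^ d := by
  set K : ℝ := Q * om d + 1 with hK
  have hom := om_pos d
  have hK1 : 1 ≤ K := by rw [hK]; nlinarith [Nat.cast_nonneg (α := ℝ) Q]
  set L : ℝ := ε / (4 ^ (d + 1) * (|C| + 1)) with hL
  have hL0 : 0 < L := by positivity
  set δ₀ : ℝ := min K (L ^ 2 / K) with hδ₀
  have hδ0 : 0 < δ₀ := lt_min (by linarith) (by positivity)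
  have hsq : Real.sqrt (K * δ₀) ≤ L := by
    rw [Real.sqrt_le_left hL0.le]
    calc K * δ₀ ≤ K * (L ^ 2 / K) := by gcongr; exact min_le_right _ _
      _ = L ^ 2 := by field_simp
  have hη : 4 ^ (d + 1) * (|C| * L) ≤ ε := by
    have h1 : 4 ^ (d + 1) * (|C| * L) = ε * (|C| / (|C| + 1)) := by
      rw [hL]; field_simp
    rw [h1]
    have h2 : |C| / (|C| + 1) ≤ 1 := by
      rw [div_le_one (by positivity)]; linarith
    calc ε * (|C| / (|C| + 1)) ≤ ε * 1 := by gcongr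
      _ = ε := mul_one _
  refine ⟨min (1 / 2) (δ₀ / (8 * (C₁ + 1) * K)), lt_min (by norm_num) (by positivity),
    min_le_left _ _, min 1 (min (δ₀ / (8 * (C₁ + 1))) (δ₀ / (K + 1))),
    lt_min one_pos (lt_min (by positivity) (by positivity)), min_le_left _ _, ?_⟩
  intro c₀ g R N μ e es G hc0 hc01 hg0 H x s ρ₀ hR hgρ h0 hes r hr0 hsr hr
  set δ₁ : ℝ := min 1 (min (δ₀ / (8 * (C₁ + 1))) (δ₀ / (K + 1))) with hδ₁
  have hδ1 : 0 < δ₁ := lt_min one_pos (lt_min (by positivity) (by positivity))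
  have hδ11 : δ₁ ≤ 1 := min_le_left _ _
  have hδ1' : δ₁ ≤ δ₀ / (8 * (C₁ + 1)) := (min_le_right _ _).trans (min_le_left _ _)
  have hδ1K : δ₁ ≤ δ₀ / (K + 1) := (min_le_right _ _).trans (min_le_right _ _)
  have hc02 : c₀ ≤ δ₀ / (8 * (C₁ + 1) * K) := hc01.trans (min_le_right _ _)
  have hc03 : c₀ ≤ 1 / 2 := hc01.trans (min_le_left _ _)
  refine chain (η := |C| * L) H.meas (H.int.mono_set hR)
    (ae_mono (Measure.restrict_mono hR le_rfl) H.nat) hε.le hε1 h0 hη hεω ?_ hr0 hsr hr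
  intro ρ hρ0 hsρ hρ hN
  have h44 : 4 * (ρ / 4) = ρ := by ring
  have he1 := hes ρ hρ0 hsρ hρ
  have hRρ : ball x ρ ⊆ R := (ball_subset_ball hρ).trans hR
  have hpos : 0 < ρ ^ d := pow_pos hρ0 d
  have he2 := H.e_le hc0 hc03 measurableSet_ball hRρ hN (by positivity) he1
  have hμ2 := H.μ_le hc0 hc03 measurableSet_ball hRρ hN (by positivity) he1
  have hsum : C₁ * (2 * c₀ * (K * ρ ^ d) + 2 * (δ₁ * ρ ^ d)) ≤ δ₀ * ρ ^ d := by
    have h1 : C₁ * (2 * c₀ * K + 2 * δ₁) ≤ δ₀ := by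
      have h2 : 2 * c₀ * K ≤ δ₀ / (4 * (C₁ + 1)) := by
        calc 2 * c₀ * K ≤ 2 * (δ₀ / (8 * (C₁ + 1) * K)) * K := by gcongr
          _ = δ₀ / (4 * (C₁ + 1)) := by field_simp; ring
      have h3 : 2 * δ₁ ≤ δ₀ / (4 * (C₁ + 1)) := by
        calc 2 * δ₁ ≤ 2 * (δ₀ / (8 * (C₁ + 1))) := by gcongr
          _ = δ₀ / (4 * (C₁ + 1)) := by field_simp; ring
      calc C₁ * (2 * c₀ * K + 2 * δ₁) ≤ C₁ * (δ₀ / (4 * (C₁ + 1)) + δ₀ / (4 * (C₁ + 1))) := by gcongr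
        _ = δ₀ * (C₁ / (2 * (C₁ + 1))) := by field_simp; ring
        _ ≤ δ₀ * 1 := by
            gcongr
            rw [div_le_one (by positivity)]
            linarith
        _ = δ₀ := mul_one _
    calc C₁ * (2 * c₀ * (K * ρ ^ d) + 2 * (δ₁ * ρ ^ d)) = C₁ * (2 * c₀ * K + 2 * δ₁) * ρ ^ d := by ring
      _ ≤ δ₀ * ρ ^ d := by gcongr
  obtain ⟨c, hc⟩ := H.constancy hSC hC₁ (x := x) (r := ρ / 4) (M := K * ρ ^ d) (δ := δ₀ * ρ ^ d)
    (by positivity) (by positivity) (by gcongr; exact min_le_left _ _) (by rw [h44]; exact hRρ)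
    (by rw [h44]; exact hN)
    (by
      rw [h44]
      calc ENNReal.ofReal C₁ * e (ball x ρ)
          ≤ ENNReal.ofReal C₁ * ENNReal.ofReal (2 * c₀ * (K * ρ ^ d) + 2 * (δ₁ * ρ ^ d)) := by
            gcongr
        _ = ENNReal.ofReal (C₁ * (2 * c₀ * (K * ρ ^ d) + 2 * (δ₁ * ρ ^ d))) :=
            (ENNReal.ofReal_mul hC₁).symm
        _ ≤ ENNReal.ofReal (δ₀ * ρ ^ d) := ENNReal.ofReal_le_ofReal hsum)
    (by
      rw [h44]
      have h1 : g * ρ ≤ δ₀ / (K + 1) := by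
        calc g * ρ ≤ g * ρ₀ := by gcongr
          _ ≤ δ₁ := hgρ
          _ ≤ _ := hδ1K
      calc G (ball x ρ) ≤ ENNReal.ofReal g * μ (ball x ρ) := H.low _ measurableSet_ball hRρ
        _ ≤ ENNReal.ofReal g * ENNReal.ofReal (2 * (K * ρ ^ d) + 2 * (δ₁ * ρ ^ d)) := by gcongr
        _ = ENNReal.ofReal (g * (2 * (K * ρ ^ d) + 2 * (δ₁ * ρ ^ d))) :=
            (ENNReal.ofReal_mul hg0).symm
        _ ≤ ENNReal.ofReal (δ₀ * ρ ^ d / (ρ / 4)) := by
            refine ENNReal.ofReal_le_ofReal ?_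
            rw [le_div_iff₀ (by positivity)]
            calc g * (2 * (K * ρ ^ d) + 2 * (δ₁ * ρ ^ d)) * (ρ / 4)
                = (g * ρ) * ((K + δ₁) / 2) * ρ ^ d := by ring
              _ ≤ (δ₀ / (K + 1)) * (K + 1) * ρ ^ d := by
                  gcongr
                  linarith
              _ = δ₀ * ρ ^ d := by field_simp)
  refine ⟨c, fun S hS hSx => (hc S hS hSx).trans ?_⟩
  have h5 : Real.sqrt (K * ρ ^ d * (δ₀ * ρ ^ d)) = Real.sqrt (K * δ₀) * ρ ^ d := by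
    rw [show K * ρ ^ d * (δ₀ * ρ ^ d) = K * δ₀ * (ρ ^ d) ^ 2 by ring, Real.sqrt_mul (by positivity),
      Real.sqrt_sq hpos.le]
  rw [h5]
  calc C * (Real.sqrt (K * δ₀) * ρ ^ d) ≤ |C| * (L * ρ ^ d) := by
        gcongr
        exact le_abs_self C
    _ = |C| * L * ρ ^ d := by ring

end Crest.Agent.R234.Th_164
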