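import Crest.Agent.R234.Th3_164

/-!
Row 234, VF-THETA part 4 (helper164): holes and overlaps are controlled by the steep energy.
`cover` : the points of `B` with a bad radius are covered by balls `closedBall x (5 ρ x)`, `x ∈ u`, with
disjoint `closedBall x (ρ x)` and `es (ball x (ρ x)) > δ₁ ρ^d`, `∫ |N - Q|`, `μ`, `volume` of `closedBall x (5 ρ x)`
at most `C ρ^d`;  `N = Q` almost everywhere else.
-/

set_option autoImplicit false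

open Set Filter Topology MeasureTheory Metric
open scoped ENNReal NNReal ContDiff

noncomputable section

namespace Crest.Agent.R234.Th_164

variable {d : ℕ}

/-- the points of `B` with a bad radius `≤ ρ₀` -/
def Bad (δ₁ ρ₀ : ℝ) (es : Measure (Eu d)) (B : Set (Eu d)) : Set (Eu d) :=
  {x | x ∈ B ∧ ∃ ρ, 0 < ρ ∧ ρ ≤ ρ₀ ∧ ENNReal.ofReal (δ₁ * ρ ^ d) < es (ball x ρ)}

/-- nearly maximal bad radius -/
theorem exists_radius {δ₁ ρ₀ : ℝ} {es : Measure (Eu d)} {B : Set (Eu d)} {x : Eu d}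
    (hx : x ∈ Bad δ₁ ρ₀ es B) : ∃ ρ, 0 < ρ ∧ ρ ≤ ρ₀ ∧ ENNReal.ofReal (δ₁ * ρ ^ d) < es (ball x ρ) ∧
      ∀ ρ', 2 * ρ < ρ' → ρ' ≤ ρ₀ → es (ball x ρ') ≤ ENNReal.ofReal (δ₁ * ρ' ^ d) := by
  obtain ⟨-, ρ₁, h1, h2, h3⟩ := hx
  set S : Set ℝ := {ρ | 0 < ρ ∧ ρ ≤ ρ₀ ∧ ENNReal.ofReal (δ₁ * ρ ^ d) < es (ball x ρ)} with hS
  have hne : S.Nonempty := ⟨ρ₁, h1, h2, h3⟩
  have hbd : BddAbove S := ⟨ρ₀, fun ρ h => h.2.1⟩
  have hpos : 0 < sSup S := h1.trans_le (le_csSup hbd ⟨h1, h2, h3⟩)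
  obtain ⟨ρ, hρ, hlt⟩ := exists_lt_of_lt_csSup hne (show sSup S / 2 < sSup S by linarith)
  refine ⟨ρ, hρ.1, hρ.2.1, hρ.2.2, fun ρ' h4 h5 => ?_⟩
  by_contra hcon
  rw [not_le] at hcon
  have : ρ' ≤ sSup S := le_csSup hbd ⟨by linarith [hρ.1], h5, hcon⟩
  linarith

/-- **VF-THETA** : off the points with a bad radius the multiplicity is `Q`; the bad points are covered by
balls with large steep energy in which everything is controlled. -/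
theorem cover {C : ℝ} (hSC : SC2 d C) (Q : ℕ) {C₁ : ℝ} (hC₁ : 0 ≤ C₁) {ε : ℝ} (hε : 0 < ε) (hε1 : ε ≤ 1)
    (hεω : ε * (1 + 4 ^ d) < om d) :
    ∃ c₁ : ℝ, 0 < c₁ ∧ c₁ ≤ 1 / 2 ∧ ∃ δ₁ : ℝ, 0 < δ₁ ∧ δ₁ ≤ 1 ∧
      ∀ (c₀ g : ℝ) (R : Set (Eu d)) (N : Eu d → ℝ) (μ e es G : Measure (Eu d)),
        0 ≤ c₀ → c₀ ≤ c₁ → 0 ≤ g → Hyp C₁ c₀ g R N μ e es G →
        ∀ (B : Set (Eu d)) (ρ₀ : ℝ), 0 < ρ₀ → g * (8 * ρ₀) ≤ δ₁ → (∀ x ∈ B, ball x (8 * ρ₀) ⊆ R) →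
          (∀ x ∈ B, ∫ y in ball x (8 * ρ₀), |N y - Q| ≤ ε * ρ₀ ^ d) →
          (∀ x ∈ B, es (ball x (8 * ρ₀)) ≤ ENNReal.ofReal (δ₁ * ρ₀ ^ d)) →
          (∀ᵐ x, x ∈ B → x ∉ Bad δ₁ ρ₀ es B → N x = Q) ∧
          (∀ x ∈ Bad δ₁ ρ₀ es B, ∃ ρ, 0 < ρ ∧ ρ ≤ ρ₀ ∧ ENNReal.ofReal (δ₁ * ρ ^ d) < es (ball x ρ) ∧
            (∀ r, 3 * ρ ≤ r → r ≤ 8 * ρ₀ → es (ball x r) ≤ ENNReal.ofReal (δ₁ * r ^ d) ∧
              ∫ y in ball x r, |N y - Q| ≤ 4 ^ d * ε * r ^ d ∧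
              μ (ball x r) ≤ ENNReal.ofReal (2 * (Q * om d + 4 ^ d * ε + 1) * r ^ d))) := by
  obtain ⟨c₁, hc1, hc1', δ₁, hδ1, hδ1', hT⟩ := TH1 hSC Q hC₁ hε hε1 hεω
  refine ⟨c₁, hc1, hc1', δ₁, hδ1, hδ1', ?_⟩
  intro c₀ g R N μ e es G hc0 hc01 hg0 H B ρ₀ hρ0 hgρ hBR hQ hes
  -- good radii above `s`
  have key : ∀ x ∈ B, ∀ s : ℝ, (∀ ρ, 0 < ρ → s ≤ ρ → ρ ≤ ρ₀ → es (ball x ρ) ≤ ENNReal.ofReal (δ₁ * ρ ^ d)) →
      ∀ r, 0 < r → s ≤ r → r ≤ 8 * ρ₀ → es (ball x r) ≤ ENNReal.ofReal (δ₁ * r ^ d) ∧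
        ∫ y in ball x r, |N y - Q| ≤ 4 ^ d * ε * r ^ d := by
    intro x hx s hs
    have hes' : ∀ ρ, 0 < ρ → s ≤ ρ → ρ ≤ 8 * ρ₀ → es (ball x ρ) ≤ ENNReal.ofReal (δ₁ * ρ ^ d) := by
      intro ρ h1 h2 h3
      rcases le_or_gt ρ ρ₀ with h4 | h4
      · exact hs ρ h1 h2 h4
      · calc es (ball x ρ) ≤ es (ball x (8 * ρ₀)) := measure_mono (ball_subset_ball h3)
          _ ≤ ENNReal.ofReal (δ₁ * ρ₀ ^ d) := hes x hx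
          _ ≤ ENNReal.ofReal (δ₁ * ρ ^ d) := ENNReal.ofReal_le_ofReal (by gcongr)
    intro r hr0 hsr hr
    refine ⟨hes' r hr0 hsr hr, ?_⟩
    refine hT c₀ g R N μ e es G hc0 hc01 hg0 H x s (8 * ρ₀) (hBR x hx) hgρ ((hQ x hx).trans ?_)
      hes' r hr0 hsr hr
    gcongr
    linarith
  refine ⟨?_, ?_⟩
  · have h1 : ∀ᵐ x, x ∈ {x | x ∈ B ∧ x ∉ Bad δ₁ ρ₀ es B} → N x = Q := by
      refine eq_of_averages (ε := 4 ^ d * ε) H.isOpen H.int (by nlinarith)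
        (fun x hx => hBR x hx.1 (mem_ball_self (by positivity))) H.nat ?_
      intro x hx
      refine Eventually.frequently ?_
      filter_upwards [Ioo_mem_nhdsGT (show (0 : ℝ) < ρ₀ from hρ0)] with r hr
      refine (key x hx.1 0 ?_ r hr.1 hr.1.le (by linarith [hr.2, hr.1])).2
      intro ρ h1 _ h3
      by_contra hcon
      rw [not_le] at hcon
      exact hx.2 ⟨hx.1, ρ, h1, h3, hcon⟩
    filter_upwards [h1] with x hx h2 h3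
    exact hx ⟨h2, h3⟩
  · intro x hx
    obtain ⟨ρ, h1, h2, h3, h4⟩ := exists_radius hx
    refine ⟨ρ, h1, h2, h3, fun r hr1 hr2 => ?_⟩
    have hr0 : 0 < r := by linarith
    obtain ⟨k1, k2⟩ := key x hx.1 (3 * ρ) (fun ρ' h5 h6 h7 => h4 ρ' (by linarith) h7) r hr0 hr1 hr2
    refine ⟨k1, k2, ?_⟩
    have hRr : ball x r ⊆ R := (ball_subset_ball hr2).trans (hBR x hx.1)
    have hN := integral_N_le (Q := Q) hr0 (H.int.mono_set hRr) k2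
    have hμ := H.μ_le hc0 (hc01.trans hc1') measurableSet_ball hRr hN (by positivity) k1
    refine hμ.trans (ENNReal.ofReal_le_ofReal ?_)
    have h5 : δ₁ * r ^ d ≤ 1 * r ^ d := by gcongr
    calc 2 * ((Q * om d + 4 ^ d * ε) * r ^ d) + 2 * (δ₁ * r ^ d)
        ≤ 2 * ((Q * om d + 4 ^ d * ε) * r ^ d) + 2 * (1 * r ^ d) := by linarith
      _ = 2 * (Q * om d + 4 ^ d * ε + 1) * r ^ d := by ring

end Crest.Agent.R234.Th_164
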