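import Crest.Agent.R234.Th5_164
import Crest.Agent.R234.Cy5_870

/-!
Row 234, VF-THETA part 6 (helper164): the instance.  A general varifold `W` over an open set `R` of the base with
an integer valued covering number `N` (area formula) and small first variation on horizontal fields satisfies `Hyp`.
-/

set_option autoImplicit false

open Set Filter Topology MeasureTheory Metric
open Crest.GeometryTopology.Submanifold
open Crest.Agent.R234.Vf_884 Crest.Agent.R234.Ar_870 Crest.Agent.R234.Cy_870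
open scoped ENNReal NNReal ContDiff InnerProductSpace

noncomputable section

namespace Crest.Agent.R234.Th_164

variable {m k : ℕ} {π : Euc k →L[ℝ] Euc m} {P : L k}

/-- `|tr (B (1 - S_hh))| ≤ ‖B‖ tl` and `tl` as a sum of squares. -/
theorem abs_tr_le (hπ : IsCo π) (hP : IsPr P) (B : L m) :
    |tr B - tr (B ∘L Shh π P)| ≤ ‖B‖ * tl π P := by
  set D : Euc k →L[ℝ] Euc m := π ∘L (ContinuousLinearMap.id ℝ (Euc k) - P) with hD
  have hDD : D ∘L ContinuousLinearMap.adjoint D = ContinuousLinearMap.id ℝ (Euc m) - Shh π P := by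
    have h1 : ContinuousLinearMap.adjoint D =
        (ContinuousLinearMap.id ℝ (Euc k) - P) ∘L ContinuousLinearMap.adjoint π := by
      rw [hD, ContinuousLinearMap.adjoint_comp, map_sub, hP.2]
      congr 1
      congr 1
      exact ContinuousLinearMap.adjoint_id
    rw [h1, hD]
    ext1 v
    have h2 : P (P (ContinuousLinearMap.adjoint π v)) = P (ContinuousLinearMap.adjoint π v) :=
      congrArg (fun T : L k => T (ContinuousLinearMap.adjoint π v)) hP.1
    have h3 : π (ContinuousLinearMap.adjoint π v) = v :=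
      congrArg (fun T : L m => T v) hπ
    simp only [Shh, ContinuousLinearMap.coe_comp, Function.comp_apply, sub_apply,
      ContinuousLinearMap.id_apply, map_sub, h2, h3]
    abel
  have key : ∀ A : L m, tr A - tr (A ∘L Shh π P) =
      ∑ i, ⟪D (stdVec k i), A (D (stdVec k i))⟫_ℝ := by
    intro A
    have h1 : tr A - tr (A ∘L Shh π P) = tr ((A ∘L D) ∘L ContinuousLinearMap.adjoint D) := by
      have h2 : (A ∘L D) ∘L ContinuousLinearMap.adjoint D = A - A ∘L Shh π P := by
        have h3 : (A ∘L D) ∘L ContinuousLinearMap.adjoint D =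
            A ∘L (D ∘L ContinuousLinearMap.adjoint D) := rfl
        rw [h3, hDD, ContinuousLinearMap.comp_sub, ContinuousLinearMap.comp_id]
      rw [h2, map_sub]
    rw [h1, ← tr_cyc, tr_eq_sum]
    refine Finset.sum_congr rfl fun i _ => ?_
    change ⟪stdVec k i, ContinuousLinearMap.adjoint D (A (D (stdVec k i)))⟫_ℝ = _
    rw [ContinuousLinearMap.adjoint_inner_right]
  have htl : tl π P = ∑ i, ‖D (stdVec k i)‖ ^ 2 := by
    have h1 := key (ContinuousLinearMap.id ℝ (Euc m))
    rw [ContinuousLinearMap.id_comp, tr_one, ← tl_eq] at h1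
    rw [h1]
    refine Finset.sum_congr rfl fun i _ => ?_
    rw [ContinuousLinearMap.id_apply, real_inner_self_eq_norm_sq]
  rw [key B, htl, Finset.mul_sum]
  refine (Finset.abs_sum_le_sum_abs _ _).trans (Finset.sum_le_sum fun i _ => ?_)
  calc |⟪D (stdVec k i), B (D (stdVec k i))⟫_ℝ| ≤ ‖D (stdVec k i)‖ * ‖B (D (stdVec k i))‖ :=
        abs_real_inner_le_norm _ _
    _ ≤ ‖D (stdVec k i)‖ * (‖B‖ * ‖D (stdVec k i)‖) := by
        gcongr
        exact B.le_opNorm _
    _ = ‖B‖ * ‖D (stdVec k i)‖ ^ 2 := by ring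

theorem abs_tr_le_norm (B : L m) : |tr B| ≤ m * ‖B‖ := by
  rw [tr_eq_sum]
  refine (Finset.abs_sum_le_sum_abs _ _).trans ?_
  calc ∑ i, |⟪stdVec m i, B (stdVec m i)⟫_ℝ| ≤ ∑ _i : Fin m, ‖B‖ := by
        refine Finset.sum_le_sum fun i _ => ?_
        have h1 : ‖stdVec m i‖ = 1 := by simp [stdVec]
        calc |⟪stdVec m i, B (stdVec m i)⟫_ℝ| ≤ ‖stdVec m i‖ * ‖B (stdVec m i)‖ :=
              abs_real_inner_le_norm _ _
          _ ≤ ‖stdVec m i‖ * (‖B‖ * ‖stdVec m i‖) := by
              gcongr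
              exact B.le_opNorm _
          _ = ‖B‖ := by rw [h1]; ring
    _ = m * ‖B‖ := by simp

theorem divg_eq_tr (X : Euc m → Euc m) (z : Euc m) : divg X z = tr (fderiv ℝ X z) := by
  rw [tr_eq_sum, divg]
  refine Finset.sum_congr rfl fun i _ => ?_
  rw [stdVec, EuclideanSpace.inner_single_left]
  simp

/-- the pointwise inequality -/
theorem abs_integrand_le (hπ : IsCo π) (hP : IsPr P) (B : L m) :
    |Jh π P * tr B - tr (B ∘L Shh π P)| ≤ (m + 1) * (‖B‖ * tl π P) := by
  have h1 := abs_tr_le hπ hP B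
  have h2 := abs_tr_le_norm B
  have h3 := one_sub_Jh_le hπ hP
  have h4 := Jh_le_one hπ hP
  have h5 := tl_nonneg hπ hP
  have e : Jh π P * tr B - tr (B ∘L Shh π P) =
      (tr B - tr (B ∘L Shh π P)) - (1 - Jh π P) * tr B := by ring
  rw [e]
  have h6 : |(1 - Jh π P) * tr B| ≤ tl π P * (m * ‖B‖) := by
    rw [abs_mul, abs_of_nonneg (by linarith : 0 ≤ 1 - Jh π P)]
    gcongr
  calc _ ≤ |tr B - tr (B ∘L Shh π P)| + |(1 - Jh π P) * tr B| := abs_sub _ _
    _ ≤ ‖B‖ * tl π P + tl π P * (m * ‖B‖) := add_le_add h1 h6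
    _ = _ := by ring

end Crest.Agent.R234.Th_164
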