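import Crest.Agent.R234.Th6_164

/-!
Row 234, VF-THETA part 7 (helper164): `Hyp` for a general varifold over an open set of the base with area formula
and small first variation on horizontal fields (stationary: `δ = 0`).
-/

set_option autoImplicit false

open Set Filter Topology MeasureTheory Metric
open Crest.GeometryTopology.Submanifold
open Crest.Agent.R234.Vf_884 Crest.Agent.R234.Ar_870 Crest.Agent.R234.Cy_870
open scoped ENNReal NNReal ContDiff InnerProductSpace

noncomputable section

namespace Crest.Agent.R234.Th_164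

variable {m k : ℕ} {π : Euc k →L[ℝ] Euc m}

/-- projected mass -/
def muM (W : Measure (Euc k × L k)) (π : Euc k →L[ℝ] Euc m) : Measure (Euc m) :=
  W.map fun p => π p.1

/-- projected measure with density `w` -/
def wM (W : Measure (Euc k × L k)) (π : Euc k →L[ℝ] Euc m) (w : Euc k × L k → ℝ) :
    Measure (Euc m) :=
  (W.withDensity fun p => ENNReal.ofReal (w p)).map fun p => π p.1

theorem measurable_base (π : Euc k →L[ℝ] Euc m) : Measurable fun p : Euc k × L k => π p.1 :=
  π.continuous.measurable.comp measurable_fst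

theorem muM_apply (W : Measure (Euc k × L k)) {S : Set (Euc m)} (hS : MeasurableSet S) :
    muM W π S = W ((fun p => π p.1) ⁻¹' S) := Measure.map_apply (measurable_base π) hS

theorem wM_apply (W : Measure (Euc k × L k)) (w : Euc k × L k → ℝ) {S : Set (Euc m)}
    (hS : MeasurableSet S) :
    wM W π w S = ∫⁻ p in (fun p => π p.1) ⁻¹' S, ENNReal.ofReal (w p) ∂W := by
  rw [wM, Measure.map_apply (measurable_base π) hS, withDensity_apply _ (measurable_base π hS)]

theorem integral_wM (W : Measure (Euc k × L k)) {w : Euc k × L k → ℝ} (hw : Measurable w)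
    (hw0 : ∀ᵐ p ∂W, 0 ≤ w p) {f : Euc m → ℝ} (hf : Continuous f) :
    ∫ x, f x ∂(wM W π w) = ∫ p, w p * f (π p.1) ∂W := by
  rw [wM, integral_map (measurable_base π).aemeasurable hf.aestronglyMeasurable,
    integral_withDensity_eq_integral_toReal_smul hw.ennreal_ofReal
      (Eventually.of_forall fun p => ENNReal.ofReal_lt_top)]
  refine integral_congr_ae ?_
  filter_upwards [hw0] with p hp
  rw [ENNReal.toReal_ofReal hp, smul_eq_mul]

/-- area formula with covering number `N` over `R` -/
structure Area (W : Measure (Euc k × L k)) (π : Euc k →L[ℝ] Euc m) (R : Set (Euc m))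
    (N : Euc m → ℝ≥0∞) : Prop where
  meas : Measurable N
  nat : ∀ᵐ x ∂(volume.restrict R), ∃ n : ℕ, N x = n
  area : ∀ g : Euc m → ℝ≥0∞, Measurable g → (∀ x, x ∉ R → g x = 0) →
    ∫⁻ p, ENNReal.ofReal (Jh π p.2) * g (π p.1) ∂W = ∫⁻ x, N x * g x

/-- the tilt weight with height correction -/
def we (π : Euc k →L[ℝ] Euc m) (δ : ℝ) (q : Euc k → ℝ) (p : Euc k × L k) : ℝ :=
  tl π p.2 + δ * q p.1

/-- the weight of the steep part -/
def ws (π : Euc k →L[ℝ] Euc m) (σ : ℝ) (p : Euc k × L k) : ℝ :=
  {p : Euc k × L k | σ < tl π p.2}.indicator (fun p => tl π p.2) p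

/-- the weight of the lower order terms -/
def wg (π : Euc k →L[ℝ] Euc m) (δ : ℝ) (q : Euc k → ℝ) (p : Euc k × L k) : ℝ :=
  δ * (tl π p.2 + q p.1)

theorem measurable_tl2 (π : Euc k →L[ℝ] Euc m) : Measurable fun p : Euc k × L k => tl π p.2 :=
  (measurable_tl π).measurable.comp measurable_snd

namespace Area

variable {W : Measure (Euc k × L k)} {R : Set (Euc m)} {N : Euc m → ℝ≥0∞}

theorem lintegral_N (hN : Area W π R N) {S : Set (Euc m)} (hS : MeasurableSet S) (hSR : S ⊆ R) :
    ∫⁻ x in S, N x = ∫⁻ p in (fun p => π p.1) ⁻¹' S, ENNReal.ofReal (Jh π p.2) ∂W := by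
  have h1 := hN.area (S.indicator 1) (measurable_one.indicator hS)
    (fun x hx => Set.indicator_of_notMem (fun h => hx (hSR h)) _)
  have h2 : ∫⁻ x, N x * S.indicator 1 x = ∫⁻ x in S, N x := by
    rw [← lintegral_indicator hS]
    refine lintegral_congr fun x => ?_
    by_cases hx : x ∈ S <;> simp [hx]
  have h3 : ∫⁻ p, ENNReal.ofReal (Jh π p.2) * S.indicator 1 (π p.1) ∂W =
      ∫⁻ p in (fun p => π p.1) ⁻¹' S, ENNReal.ofReal (Jh π p.2) ∂W := by
    rw [← lintegral_indicator (measurable_base π hS)]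
    refine lintegral_congr fun p => ?_
    by_cases hx : π p.1 ∈ S
    · have hx' : p ∈ (fun p : Euc k × L k => π p.1) ⁻¹' S := hx
      rw [Set.indicator_of_mem hx, Set.indicator_of_mem hx']
      simp
    · have hx' : p ∉ (fun p : Euc k × L k => π p.1) ⁻¹' S := hx
      rw [Set.indicator_of_notMem hx, Set.indicator_of_notMem hx', mul_zero]
  rw [← h2, ← h1, h3]

theorem lintegral_N_le (hN : Area W π R N) (hπ : IsCo π) (hc : ∀ᵐ p ∂W, p.2 ∈ G m k)
    {S : Set (Euc m)} (hS : MeasurableSet S) (hSR : S ⊆ R) : ∫⁻ x in S, N x ≤ W univ := by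
  rw [hN.lintegral_N hS hSR]
  calc ∫⁻ p in (fun p => π p.1) ⁻¹' S, ENNReal.ofReal (Jh π p.2) ∂W
      ≤ ∫⁻ p, ENNReal.ofReal (Jh π p.2) ∂W := setLIntegral_le_lintegral _ _
    _ ≤ ∫⁻ _p, 1 ∂W := by
        refine lintegral_mono_ae ?_
        filter_upwards [hc] with p hp
        rw [ENNReal.ofReal_le_one]
        exact Jh_le_one hπ (isPr_of_G hp)
    _ = W univ := by simp

theorem integrableOn (hN : Area W π R N) [IsFiniteMeasure W] (hπ : IsCo π)
    (hc : ∀ᵐ p ∂W, p.2 ∈ G m k) (hR : MeasurableSet R) :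
    IntegrableOn (fun x => (N x).toReal) R :=
  integrable_toReal_of_lintegral_ne_top hN.meas.aemeasurable
    ((hN.lintegral_N_le hπ hc hR subset_rfl).trans_lt (measure_lt_top W univ)).ne

theorem ae_lt_top (hN : Area W π R N) [IsFiniteMeasure W] (hπ : IsCo π)
    (hc : ∀ᵐ p ∂W, p.2 ∈ G m k) (hR : MeasurableSet R) :
    ∀ᵐ x ∂(volume.restrict R), N x < ⊤ :=
  MeasureTheory.ae_lt_top hN.meas
    ((hN.lintegral_N_le hπ hc hR subset_rfl).trans_lt (measure_lt_top W univ)).ne

/-- area formula, real form -/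
theorem integral_eq (hN : Area W π R N) [IsFiniteMeasure W] (hπ : IsCo π)
    (hc : ∀ᵐ p ∂W, p.2 ∈ G m k) (hR : MeasurableSet R) {g : Euc m → ℝ} (hg : Continuous g)
    (hg0 : ∀ x, x ∉ R → g x = 0) {C : ℝ} (hC : ∀ x, |g x| ≤ C) :
    ∫ p, Jh π p.2 * g (π p.1) ∂W = ∫ x in R, (N x).toReal * g x := by
  have hJm : Measurable fun p : Euc k × L k => Jh π p.2 :=
    (continuous_Jh π).measurable.comp measurable_snd
  -- nonnegative functions
  have key : ∀ g : Euc m → ℝ, Continuous g → (∀ x, 0 ≤ g x) → (∀ x, x ∉ R → g x = 0) →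
      ∫ p, Jh π p.2 * g (π p.1) ∂W = ∫ x in R, (N x).toReal * g x := by
    intro g hg hgn hg0
    rw [integral_eq_lintegral_of_nonneg_ae
      (Eventually.of_forall fun p => mul_nonneg (Jh_nonneg _ _) (hgn _))
      (hJm.mul (hg.measurable.comp (measurable_base π))).aestronglyMeasurable,
      integral_eq_lintegral_of_nonneg_ae
      (Eventually.of_forall fun x => mul_nonneg ENNReal.toReal_nonneg (hgn _))
      ((hN.meas.ennreal_toReal.mul hg.measurable).aestronglyMeasurable)]
    congr 1
    have h1 : ∀ p : Euc k × L k, ENNReal.ofReal (Jh π p.2 * g (π p.1)) =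
        ENNReal.ofReal (Jh π p.2) * ENNReal.ofReal (g (π p.1)) := fun p =>
      ENNReal.ofReal_mul (Jh_nonneg _ _)
    simp_rw [h1]
    rw [hN.area (fun x => ENNReal.ofReal (g x)) hg.measurable.ennreal_ofReal
      (fun x hx => by rw [hg0 x hx, ENNReal.ofReal_zero])]
    rw [← lintegral_indicator hR]
    have h2 := hN.ae_lt_top hπ hc hR
    rw [ae_restrict_iff' hR] at h2
    refine lintegral_congr_ae ?_
    filter_upwards [h2] with x hx
    by_cases hxR : x ∈ R
    · rw [Set.indicator_of_mem hxR, ENNReal.ofReal_mul ENNReal.toReal_nonneg,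
        ENNReal.ofReal_toReal (hx hxR).ne]
    · rw [Set.indicator_of_notMem hxR, hg0 x hxR]; simp
  have hp := key (fun x => max (g x) 0) (hg.max continuous_const) (fun x => le_max_right _ _)
    (fun x hx => by rw [hg0 x hx]; simp)
  have hn := key (fun x => max (-g x) 0) (hg.neg.max continuous_const) (fun x => le_max_right _ _)
    (fun x hx => by rw [hg0 x hx]; simp)
  have hbW : ∀ f : Euc m → ℝ, Continuous f → (∀ x, |f x| ≤ C) →
      Integrable (fun p : Euc k × L k => Jh π p.2 * f (π p.1)) W := by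
    intro f hf hfC
    refine Integrable.of_bound
      (hJm.mul (hf.measurable.comp (measurable_base π))).aestronglyMeasurable C ?_
    filter_upwards [hc] with p hp
    rw [Real.norm_eq_abs, abs_mul, abs_of_nonneg (Jh_nonneg _ _)]
    calc Jh π p.2 * |f (π p.1)| ≤ 1 * |f (π p.1)| := by
          gcongr
          exact Jh_le_one hπ (isPr_of_G hp)
      _ ≤ C := by rw [one_mul]; exact hfC _
  have hbN : ∀ f : Euc m → ℝ, Continuous f → (∀ x, |f x| ≤ C) →
      Integrable (fun x => (N x).toReal * f x) (volume.restrict R) := by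
    intro f hf hfC
    exact (hN.integrableOn hπ hc hR).mul_bdd hf.aestronglyMeasurable
      (Eventually.of_forall fun x => by rw [Real.norm_eq_abs]; exact hfC x)
  have hC0 : 0 ≤ C := (abs_nonneg _).trans (hC 0)
  have hCp : ∀ x, |max (g x) 0| ≤ C := fun x => by
    rw [abs_of_nonneg (le_max_right _ _)]
    exact max_le ((le_abs_self _).trans (hC x)) hC0
  have hCn : ∀ x, |max (-g x) 0| ≤ C := fun x => by
    rw [abs_of_nonneg (le_max_right _ _)]
    exact max_le ((neg_le_abs _).trans (hC x)) hC0
  have hsplit : ∀ x, g x = max (g x) 0 - max (-g x) 0 := by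
    intro x
    rcases le_total 0 (g x) with h | h
    · rw [max_eq_left h, max_eq_right (by linarith)]; ring
    · rw [max_eq_right h, max_eq_left (by linarith)]; ring
  calc ∫ p, Jh π p.2 * g (π p.1) ∂W
      = ∫ p, (Jh π p.2 * max (g (π p.1)) 0 - Jh π p.2 * max (-g (π p.1)) 0) ∂W := by
        refine integral_congr_ae (Eventually.of_forall fun p => ?_)
        change Jh π p.2 * g (π p.1) = Jh π p.2 * max (g (π p.1)) 0 - Jh π p.2 * max (-g (π p.1)) 0
        rw [← mul_sub, ← hsplit]
    _ = (∫ p, Jh π p.2 * max (g (π p.1)) 0 ∂W) - ∫ p, Jh π p.2 * max (-g (π p.1)) 0 ∂W :=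
        integral_sub (hbW _ (hg.max continuous_const) hCp)
          (hbW _ (hg.neg.max continuous_const) hCn)
    _ = (∫ x in R, (N x).toReal * max (g x) 0) - ∫ x in R, (N x).toReal * max (-g x) 0 := by
        rw [hp, hn]
    _ = ∫ x in R, ((N x).toReal * max (g x) 0 - (N x).toReal * max (-g x) 0) :=
        (integral_sub (hbN _ (hg.max continuous_const) hCp)
          (hbN _ (hg.neg.max continuous_const) hCn)).symm
    _ = _ := by
        refine integral_congr_ae (Eventually.of_forall fun x => ?_)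
        change (N x).toReal * max (g x) 0 - (N x).toReal * max (-g x) 0 = (N x).toReal * g x
        rw [← mul_sub, ← hsplit]

end Area

/-- **`Hyp` for a varifold.** -/
theorem hyp_of {W : Measure (Euc k × L k)} [IsFiniteMeasure W] (hπ : IsCo π)
    (hc : ∀ᵐ p ∂W, p.2 ∈ G m k) {R : Set (Euc m)} (hR : IsOpen R) {N : Euc m → ℝ≥0∞}
    (hN : Area W π R N) {δ h σ : ℝ} (hδ : 0 ≤ δ) (hδ1 : δ ≤ 1) (hσ : 0 ≤ σ) (hh : 0 ≤ h) {q : Euc k → ℝ}
    (hq : Measurable q) (hq0 : ∀ z, 0 ≤ q z) (hqh : ∀ᵐ p ∂W, q p.1 ≤ h)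
    (hFV : ∀ ξ : Euc m → Euc m, ContDiff ℝ ∞ ξ → HasCompactSupport ξ → tsupport ξ ⊆ R →
      |FV W (fun p => ContinuousLinearMap.adjoint π (ξ (π p)))| ≤
        ∫ p, wg π δ q p * (‖fderiv ℝ ξ (π p.1)‖ + ‖ξ (π p.1)‖) ∂W) :
    Hyp (m + 2) (σ + δ * h) (δ * (m + h)) R (fun x => (N x).toReal) (muM W π)
      (wM W π (we π δ q)) (wM W π (ws π σ)) (wM W π (wg π δ q)) where
  isOpen := hR
  meas := hN.meas.ennreal_toReal
  nonneg _ := ENNReal.toReal_nonneg
  int := hN.integrableOn hπ hc hR.measurableSet
  nat := by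
    filter_upwards [hN.nat] with x hx
    obtain ⟨n, hn⟩ := hx
    exact ⟨n, by rw [hn]; simp⟩
  fin := by
    rw [muM_apply W hR.measurableSet]
    exact measure_ne_top W _
  tilt := by
    intro S hS _
    rw [wM_apply W _ hS, wM_apply W _ hS, muM_apply W hS]
    set T : Set (Euc k × L k) := (fun p => π p.1) ⁻¹' S with hT
    calc ∫⁻ p in T, ENNReal.ofReal (we π δ q p) ∂W
        ≤ ∫⁻ p in T, (ENNReal.ofReal (σ + δ * h) + ENNReal.ofReal (ws π σ p)) ∂W := by
          refine lintegral_mono_ae ?_
          filter_upwards [ae_restrict_of_ae hqh, ae_restrict_of_ae hc] with p hp hp2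
          have ht := tl_nonneg hπ (isPr_of_G hp2)
          have hws : 0 ≤ ws π σ p := by
            unfold ws
            by_cases hs : p ∈ {p : Euc k × L k | σ < tl π p.2}
            · rw [Set.indicator_of_mem hs]; exact ht
            · rw [Set.indicator_of_notMem hs]
          rw [← ENNReal.ofReal_add (by positivity) hws]
          refine ENNReal.ofReal_le_ofReal ?_
          have h1 : δ * q p.1 ≤ δ * h := by gcongr
          unfold we ws
          by_cases hs : p ∈ {p : Euc k × L k | σ < tl π p.2}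
          · rw [Set.indicator_of_mem hs]; linarith
          · rw [Set.indicator_of_notMem hs]
            have : tl π p.2 ≤ σ := not_lt.1 hs
            linarith
      _ = ENNReal.ofReal (σ + δ * h) * W T + ∫⁻ p in T, ENNReal.ofReal (ws π σ p) ∂W := by
          rw [lintegral_add_left measurable_const, setLIntegral_const]
  mass := by
    intro S hS hSR
    rw [wM_apply W _ hS, muM_apply W hS,
      ofReal_integral_eq_lintegral_ofReal
        ((hN.integrableOn hπ hc hR.measurableSet).mono_set hSR)
        (Eventually.of_forall fun x => ENNReal.toReal_nonneg)]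
    set T : Set (Euc k × L k) := (fun p => π p.1) ⁻¹' S with hT
    have h1 : ∫⁻ x in S, ENNReal.ofReal (N x).toReal = ∫⁻ x in S, N x := by
      refine lintegral_congr_ae ?_
      filter_upwards [ae_mono (Measure.restrict_mono hSR le_rfl)
        (hN.ae_lt_top hπ hc hR.measurableSet)] with x hx
      exact ENNReal.ofReal_toReal hx.ne
    rw [h1, hN.lintegral_N hS hSR]
    calc W T = ∫⁻ p in T, 1 ∂W := by simp
      _ ≤ ∫⁻ p in T, (ENNReal.ofReal (Jh π p.2) + ENNReal.ofReal (we π δ q p)) ∂W := by
          refine lintegral_mono_ae ?_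
          filter_upwards [ae_restrict_of_ae hc] with p hp2
          have ht := tl_nonneg hπ (isPr_of_G hp2)
          have hJ := one_sub_Jh_le hπ (isPr_of_G hp2)
          have h2 : 0 ≤ δ * q p.1 := mul_nonneg hδ (hq0 _)
          rw [← ENNReal.ofReal_add (Jh_nonneg _ _) (by unfold we; linarith), ← ENNReal.ofReal_one]
          refine ENNReal.ofReal_le_ofReal ?_
          unfold we
          linarith
      _ = _ := lintegral_add_left
          ((continuous_Jh π).measurable.comp measurable_snd).ennreal_ofReal _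
  low := by
    intro S hS _
    rw [wM_apply W _ hS, muM_apply W hS]
    set T : Set (Euc k × L k) := (fun p => π p.1) ⁻¹' S with hT
    calc ∫⁻ p in T, ENNReal.ofReal (wg π δ q p) ∂W
        ≤ ∫⁻ _p in T, ENNReal.ofReal (δ * (m + h)) ∂W := by
          refine lintegral_mono_ae ?_
          filter_upwards [ae_restrict_of_ae hqh, ae_restrict_of_ae hc] with p hp hp2
          refine ENNReal.ofReal_le_ofReal ?_
          have ht := tl_le hπ (isPr_of_G hp2)
          unfold wg
          gcongr
      _ = _ := by rw [setLIntegral_const]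
  le_mass := by
    intro S hS hSR
    rw [muM_apply W hS,
      ofReal_integral_eq_lintegral_ofReal
        ((hN.integrableOn hπ hc hR.measurableSet).mono_set hSR)
        (Eventually.of_forall fun x => ENNReal.toReal_nonneg)]
    set T : Set (Euc k × L k) := (fun p => π p.1) ⁻¹' S with hT
    have h1 : ∫⁻ x in S, ENNReal.ofReal (N x).toReal = ∫⁻ x in S, N x := by
      refine lintegral_congr_ae ?_
      filter_upwards [ae_mono (Measure.restrict_mono hSR le_rfl)
        (hN.ae_lt_top hπ hc hR.measurableSet)] with x hx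
      exact ENNReal.ofReal_toReal hx.ne
    rw [h1, hN.lintegral_N hS hSR]
    calc ∫⁻ p in T, ENNReal.ofReal (Jh π p.2) ∂W ≤ ∫⁻ _p in T, 1 ∂W := by
          refine lintegral_mono_ae ?_
          filter_upwards [ae_restrict_of_ae hc] with p hp2
          rw [ENNReal.ofReal_le_one]
          exact Jh_le_one hπ (isPr_of_G hp2)
      _ = W T := by simp
  stat := by
    intro X hX hXc hXR
    have hfd : Continuous (fderiv ℝ X) := hX.continuous_fderiv (by simp)
    have hdiv : Continuous (divg X) := by
      have h1 : divg X = fun z => tr (fderiv ℝ X z) := funext fun z => divg_eq_tr X z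
      rw [h1]
      exact tr.continuous.comp hfd
    have hfdc : HasCompactSupport (fderiv ℝ X) := hXc.fderiv ℝ
    obtain ⟨K, hK⟩ : ∃ K, ∀ x, ‖fderiv ℝ X x‖ ≤ K := hfdc.exists_bound_of_continuous hfd
    obtain ⟨K', hK'⟩ : ∃ K, ∀ x, ‖X x‖ ≤ K := hXc.exists_bound_of_continuous hX.continuous
    have hz : ∀ x, x ∉ R → fderiv ℝ X x = 0 := by
      intro x hx
      by_contra hcon
      exact hx (hXR (support_fderiv_subset ℝ hcon))
    have hdivb : ∀ x, |divg X x| ≤ m * K := fun x => by
      rw [divg_eq_tr]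
      exact (abs_tr_le_norm _).trans (by gcongr; exact hK x)
    have harea := hN.integral_eq hπ hc hR.measurableSet hdiv
      (fun x hx => by rw [divg_eq_tr, hz x hx, map_zero]) hdivb
    have hfvX : FV W (fun p => ContinuousLinearMap.adjoint π (X (π p))) =
        ∫ p, tr (fderiv ℝ X (π p.1) ∘L Shh π p.2) ∂W := by
      unfold FV
      refine integral_congr_ae (Eventually.of_forall fun p => ?_)
      have h1 : HasFDerivAt (fun p => ContinuousLinearMap.adjoint π (X (π p)))
          (ContinuousLinearMap.adjoint π ∘L (fderiv ℝ X (π p.1) ∘L π)) p.1 :=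
        (ContinuousLinearMap.adjoint π).hasFDerivAt.comp p.1
          (((hX.differentiable (by simp)) (π p.1)).hasFDerivAt.comp p.1 π.hasFDerivAt)
      change tr ((fderiv ℝ (fun p => ContinuousLinearMap.adjoint π (X (π p))) p.1) ∘L p.2) = _
      rw [h1.fderiv]
      exact tr_hh (π := π) (fderiv ℝ X (π p.1)) p.2
    have hi1 : Integrable (fun p : Euc k × L k => Jh π p.2 * divg X (π p.1)) W := by
      refine Integrable.of_bound
        (((continuous_Jh π).measurable.comp measurable_snd).mul
          (hdiv.measurable.comp (measurable_base π))).aestronglyMeasurable (m * K) ?_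
      filter_upwards [hc] with p hp
      rw [Real.norm_eq_abs, abs_mul, abs_of_nonneg (Jh_nonneg _ _)]
      calc Jh π p.2 * |divg X (π p.1)| ≤ 1 * |divg X (π p.1)| := by
            gcongr
            exact Jh_le_one hπ (isPr_of_G hp)
        _ ≤ m * K := by rw [one_mul]; exact hdivb _
    have hb1 : ∀ p : Euc k × L k, p.2 ∈ G m k →
        |Jh π p.2 * divg X (π p.1) - tr (fderiv ℝ X (π p.1) ∘L Shh π p.2)| ≤
          (m + 1) * (‖fderiv ℝ X (π p.1)‖ * tl π p.2) := fun p hp => by
      rw [divg_eq_tr]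
      exact abs_integrand_le hπ (isPr_of_G hp) _
    have hm2 : Measurable fun p : Euc k × L k => tr (fderiv ℝ X (π p.1) ∘L Shh π p.2) :=
      (tr.continuous.comp ((hfd.comp (π.continuous.comp continuous_fst)).clm_comp
        ((continuous_Shh π).comp continuous_snd))).measurable
    have hK0 : 0 ≤ K := (norm_nonneg _).trans (hK 0)
    have hi2 : Integrable (fun p : Euc k × L k => tr (fderiv ℝ X (π p.1) ∘L Shh π p.2)) W := by
      refine Integrable.of_bound hm2.aestronglyMeasurable (m * K + (m + 1) * (K * m)) ?_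
      filter_upwards [hc] with p hp
      have h1 := hb1 p hp
      have h2 : |Jh π p.2 * divg X (π p.1)| ≤ m * K := by
        rw [abs_mul, abs_of_nonneg (Jh_nonneg _ _)]
        calc Jh π p.2 * |divg X (π p.1)| ≤ 1 * |divg X (π p.1)| := by
              gcongr
              exact Jh_le_one hπ (isPr_of_G hp)
          _ ≤ m * K := by rw [one_mul]; exact hdivb _
      have h3 : (m + 1 : ℝ) * (‖fderiv ℝ X (π p.1)‖ * tl π p.2) ≤ (m + 1) * (K * m) := by
        have := tl_le hπ (isPr_of_G hp)
        have := tl_nonneg hπ (isPr_of_G hp)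
        gcongr
        exact hK _
      rw [Real.norm_eq_abs]
      rw [abs_le] at h1 h2 ⊢
      constructor <;> linarith [h1.1, h1.2, h2.1, h2.2]
    have hi3 : Integrable (fun p : Euc k × L k => (m + 1 : ℝ) * (‖fderiv ℝ X (π p.1)‖ * tl π p.2))
        W := by
      refine Integrable.of_bound (((hfd.norm.measurable.comp (measurable_base π)).mul
        (measurable_tl2 π)).const_mul (m + 1 : ℝ)).aestronglyMeasurable ((m + 1) * (K * m)) ?_
      filter_upwards [hc] with p hp
      have ht := tl_le hπ (isPr_of_G hp)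
      have ht0 := tl_nonneg hπ (isPr_of_G hp)
      rw [Real.norm_eq_abs, abs_of_nonneg (by positivity)]
      gcongr
      exact hK _
    -- the right hand side
    have hwe0 : ∀ᵐ p ∂W, 0 ≤ we π δ q p := by
      filter_upwards [hc] with p hp
      have := tl_nonneg hπ (isPr_of_G hp)
      have := mul_nonneg hδ (hq0 p.1)
      unfold we
      linarith
    have hwg0 : ∀ᵐ p ∂W, 0 ≤ wg π δ q p := by
      filter_upwards [hc] with p hp
      have := tl_nonneg hπ (isPr_of_G hp)
      exact mul_nonneg hδ (add_nonneg this (hq0 _))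
    have hwem : Measurable (we π δ q) :=
      (measurable_tl2 π).add ((hq.comp measurable_fst).const_mul δ)
    have hwgm : Measurable (wg π δ q) :=
      ((measurable_tl2 π).add (hq.comp measurable_fst)).const_mul δ
    have e1 : ∫ y, ‖fderiv ℝ X y‖ ∂(wM W π (we π δ q)) = ∫ p, we π δ q p * ‖fderiv ℝ X (π p.1)‖ ∂W :=
      integral_wM W hwem hwe0 hfd.norm
    have e2 : ∫ y, ‖X y‖ ∂(wM W π (wg π δ q)) = ∫ p, wg π δ q p * ‖X (π p.1)‖ ∂W :=
      integral_wM W hwgm hwg0 hX.continuous.norm
    rw [e1, e2, ← harea]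
    have e3 : ∫ p, Jh π p.2 * divg X (π p.1) ∂W =
        (∫ p, (Jh π p.2 * divg X (π p.1) - tr (fderiv ℝ X (π p.1) ∘L Shh π p.2)) ∂W) +
          FV W (fun p => ContinuousLinearMap.adjoint π (X (π p))) := by
      rw [hfvX, integral_sub hi1 hi2]
      ring
    have b1 : |∫ p, (Jh π p.2 * divg X (π p.1) - tr (fderiv ℝ X (π p.1) ∘L Shh π p.2)) ∂W| ≤
        ∫ p, (m + 1 : ℝ) * (‖fderiv ℝ X (π p.1)‖ * tl π p.2) ∂W := by
      refine abs_integral_le_integral_abs.trans ?_
      refine integral_mono_ae (hi1.sub hi2).abs hi3 ?_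
      filter_upwards [hc] with p hp
      exact hb1 p hp
    have b2 := hFV X hX hXc hXR
    have hi4 : Integrable (fun p : Euc k × L k => wg π δ q p *
        (‖fderiv ℝ X (π p.1)‖ + ‖X (π p.1)‖)) W := by
      refine Integrable.of_bound (hwgm.mul ((hfd.norm.measurable.comp (measurable_base π)).add
        (hX.continuous.norm.measurable.comp (measurable_base π)))).aestronglyMeasurable
        (δ * (m + h) * (K + K')) ?_
      filter_upwards [hc, hqh, hwg0] with p hp hp2 hp3
      have ht := tl_le hπ (isPr_of_G hp)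
      have ht0 := tl_nonneg hπ (isPr_of_G hp)
      rw [Real.norm_eq_abs, abs_of_nonneg (by positivity)]
      have h5 : wg π δ q p ≤ δ * (m + h) := by unfold wg; gcongr
      gcongr
      · exact hK _
      · exact hK' _
    have hi5 : Integrable (fun p : Euc k × L k => we π δ q p * ‖fderiv ℝ X (π p.1)‖) W := by
      refine Integrable.of_bound (hwem.mul
        (hfd.norm.measurable.comp (measurable_base π))).aestronglyMeasurable
        ((m + δ * h) * K) ?_
      filter_upwards [hc, hqh, hwe0] with p hp hp2 hp3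
      have ht := tl_le hπ (isPr_of_G hp)
      rw [Real.norm_eq_abs, abs_of_nonneg (by positivity)]
      have h5 : we π δ q p ≤ m + δ * h := by unfold we; gcongr
      gcongr
      exact hK _
    have hi6 : Integrable (fun p : Euc k × L k => wg π δ q p * ‖X (π p.1)‖) W := by
      refine Integrable.of_bound (hwgm.mul
        (hX.continuous.norm.measurable.comp (measurable_base π))).aestronglyMeasurable
        (δ * (m + h) * K') ?_
      filter_upwards [hc, hqh, hwg0] with p hp hp2 hp3
      have ht := tl_le hπ (isPr_of_G hp)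
      rw [Real.norm_eq_abs, abs_of_nonneg (by positivity)]
      have h5 : wg π δ q p ≤ δ * (m + h) := by unfold wg; gcongr
      gcongr
      exact hK' _
    calc |∫ p, Jh π p.2 * divg X (π p.1) ∂W|
        ≤ (∫ p, (m + 1 : ℝ) * (‖fderiv ℝ X (π p.1)‖ * tl π p.2) ∂W) +
          ∫ p, wg π δ q p * (‖fderiv ℝ X (π p.1)‖ + ‖X (π p.1)‖) ∂W := by
          rw [e3]
          exact (abs_add_le _ _).trans (add_le_add b1 b2)
      _ = ∫ p, ((m + 1 : ℝ) * (‖fderiv ℝ X (π p.1)‖ * tl π p.2) +
          wg π δ q p * (‖fderiv ℝ X (π p.1)‖ + ‖X (π p.1)‖)) ∂W := (integral_add hi3 hi4).symm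
      _ ≤ ∫ p, ((m + 2 : ℝ) * (we π δ q p * ‖fderiv ℝ X (π p.1)‖) +
          wg π δ q p * ‖X (π p.1)‖) ∂W := by
          refine integral_mono_ae (hi3.add hi4) ((hi5.const_mul _).add hi6) ?_
          filter_upwards [hc] with p hp
          have ht0 := tl_nonneg hπ (isPr_of_G hp)
          have hq1 := hq0 p.1
          have hn := norm_nonneg (fderiv ℝ X (π p.1))
          have h7 : δ * tl π p.2 ≤ tl π p.2 := by nlinarith
          have h8 : 0 ≤ δ * q p.1 := mul_nonneg hδ hq1
          have h9 : (m + 1 : ℝ) * tl π p.2 + δ * (tl π p.2 + q p.1) ≤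
              (m + 2) * (tl π p.2 + δ * q p.1) := by
            have hm0 : (0 : ℝ) ≤ m := Nat.cast_nonneg m
            nlinarith
          change (m + 1 : ℝ) * (‖fderiv ℝ X (π p.1)‖ * tl π p.2) +
            wg π δ q p * (‖fderiv ℝ X (π p.1)‖ + ‖X (π p.1)‖) ≤
            (m + 2 : ℝ) * (we π δ q p * ‖fderiv ℝ X (π p.1)‖) + wg π δ q p * ‖X (π p.1)‖
          unfold we wg
          have h10 := mul_le_mul_of_nonneg_right h9 hn
          nlinarith
      _ = _ := by
          rw [integral_add (hi5.const_mul _) hi6, integral_const_mul]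

end Crest.Agent.R234.Th_164
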