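import Crest.Agent.R234.Th8_164
import Crest.Agent.R234.AS_456

/-!
Row 234, VF-THETA part 9 (helper164): almost stationary varifolds (class `AS` of helper456) in a cylinder.
-/

set_option autoImplicit false

open Set Filter Topology MeasureTheory Metric
open Crest.GeometryTopology.Submanifold
open Crest.Agent.R234.Vf_884 Crest.Agent.R234.Ar_870 Crest.Agent.R234.Cy_870
open Crest.Agent.R234.AS_456 (AS err errA hp vp)
open scoped ENNReal NNReal ContDiff InnerProductSpace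

noncomputable section

namespace Crest.Agent.R234.Th_164

variable {m n k : ℕ} {π : Euc k →L[ℝ] Euc m} {κ : Euc k →L[ℝ] Euc n}

theorem norm_co_le (hπ : IsCo π) (v : Euc k) : ‖π v‖ ≤ ‖v‖ := by
  have h1 : ‖π v‖ ^ 2 ≤ ‖π v‖ * ‖v‖ := by
    rw [← real_inner_self_eq_norm_sq, ← ContinuousLinearMap.adjoint_inner_right π]
    calc ⟪v, ContinuousLinearMap.adjoint π (π v)⟫_ℝ ≤ ‖v‖ * ‖ContinuousLinearMap.adjoint π (π v)‖ :=
          real_inner_le_norm _ _
      _ = ‖π v‖ * ‖v‖ := by rw [norm_adjoint_co hπ]; ring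
  rcases eq_or_lt_of_le (norm_nonneg (π v)) with h0 | h0
  · rw [← h0]; exact norm_nonneg _
  · rw [sq] at h1
    exact le_of_mul_le_mul_left h1 h0

/-- error density of a horizontal field `π† ξ(π z)`. -/
theorem errA_horizontal_le (hπ : IsCo π) {δ : ℝ} (hδ : 0 ≤ δ) {P : L k} (hP : IsPr P) (z : Euc k)
    (A : L m) (v : Euc m) :
    errA π δ z P (ContinuousLinearMap.adjoint π ∘L A ∘L π) (ContinuousLinearMap.adjoint π v) ≤
      δ * (tl π P + ‖vp π z‖ ^ 2) * (‖A‖ + ‖v‖) := by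
  have hpp : ∀ w : Euc m, π (ContinuousLinearMap.adjoint π w) = w := fun w =>
    congrArg (fun T : L m => T w) hπ
  have h1 : vp π ∘L (ContinuousLinearMap.adjoint π ∘L A ∘L π) = 0 := by
    ext1 w
    simp only [vp, hp, ContinuousLinearMap.coe_comp, Function.comp_apply, sub_apply,
      ContinuousLinearMap.id_apply, hpp, sub_self, ContinuousLinearMap.zero_apply]
  have h2 : (ContinuousLinearMap.adjoint π ∘L A ∘L π) ∘L vp π = 0 := by
    ext1 w
    simp only [vp, hp, ContinuousLinearMap.coe_comp, Function.comp_apply, sub_apply,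
      ContinuousLinearMap.id_apply, map_sub, hpp, sub_self, ContinuousLinearMap.zero_apply, map_zero]
  have h3 : vp π (ContinuousLinearMap.adjoint π v) = 0 := by
    simp only [vp, hp, ContinuousLinearMap.coe_comp, Function.comp_apply, sub_apply,
      ContinuousLinearMap.id_apply, hpp, sub_self]
  have h4 : ‖hp π ∘L (ContinuousLinearMap.adjoint π ∘L A ∘L π) ∘L hp π‖ ≤ ‖A‖ := by
    refine ContinuousLinearMap.opNorm_le_bound _ (norm_nonneg _) fun w => ?_
    simp only [hp, ContinuousLinearMap.coe_comp, Function.comp_apply, hpp]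
    rw [norm_adjoint_co hπ]
    exact (A.le_opNorm _).trans (by gcongr; exact norm_co_le hπ w)
  have h5 : ‖hp π (ContinuousLinearMap.adjoint π v)‖ = ‖v‖ := by
    simp only [hp, ContinuousLinearMap.coe_comp, Function.comp_apply, hpp]
    exact norm_adjoint_co hπ v
  have ht := tl_nonneg hπ hP
  have e1 : hp π ∘L (ContinuousLinearMap.adjoint π ∘L A ∘L π) ∘L vp π = 0 := by
    rw [h2, ContinuousLinearMap.comp_zero]
  have e2 : vp π ∘L (ContinuousLinearMap.adjoint π ∘L A ∘L π) ∘L hp π = 0 := by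
    rw [← ContinuousLinearMap.comp_assoc, h1, ContinuousLinearMap.zero_comp]
  have e3 : vp π ∘L (ContinuousLinearMap.adjoint π ∘L A ∘L π) ∘L vp π = 0 := by
    rw [h2, ContinuousLinearMap.comp_zero]
  unfold errA
  rw [e1, e2, e3, h3, h5]
  simp only [norm_zero, add_zero, mul_zero]
  gcongr

/-- first variation of the part in the cylinder on horizontal fields. -/
theorem FV_cyl_AS {U : Set (Euc k)} {V : Measure (Euc k × L k)} {δ : ℝ} (hδ : 0 ≤ δ)
    (hV : AS π U δ V) (hs : Split π κ) {x₀ : Euc m} {R h₀ h₁ : ℝ} (h01 : h₀ < h₁) (h1pos : 0 < h₁)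
    (hU : cyl π κ x₀ R h₁ ⊆ U)
    (hgap : ∀ᵐ p ∂V, p.1 ∈ cyl π κ x₀ R h₁ → ‖κ p.1‖ ≤ h₀)
    {ξ : Euc m → Euc m} (hξ : ContDiff ℝ ∞ ξ) (hξc : HasCompactSupport ξ)
    (hξR : tsupport ξ ⊆ ball x₀ R) :
    |FV (V.restrict (cyl π κ x₀ R h₁ ×ˢ univ))
      (fun p => ContinuousLinearMap.adjoint π (ξ (π p)))| ≤
      ∫ p, wg π δ (fun z => ‖vp π z‖ ^ 2) p * (‖fderiv ℝ ξ (π p.1)‖ + ‖ξ (π p.1)‖)
        ∂(V.restrict (cyl π κ x₀ R h₁ ×ˢ univ)) := by
  -- the cut-off
  have hm : max h₀ 0 < h₁ := max_lt h01 h1pos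
  set c : ContDiffBump (0 : Euc n) := ⟨(max h₀ 0 + 2 * h₁) / 3, h₁, by
    have := le_max_right h₀ 0; linarith, by linarith⟩ with hc
  have hrin : max h₀ 0 < c.rIn := by
    simp only [hc]; linarith
  have hrout : c.rOut = h₁ := rfl
  set X : Euc k → Euc k := fun p => ContinuousLinearMap.adjoint π (ξ (π p)) with hXdef
  have hX : ContDiff ℝ 1 X := (ContinuousLinearMap.adjoint π).contDiff.comp
    ((hξ.of_le (by exact_mod_cast le_top)).comp π.contDiff)
  have h0 : ∀ p, R ≤ ‖π p - x₀‖ → X p = 0 := by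
    intro p hp
    have h3 : ξ (π p) = 0 := by
      refine image_eq_zero_of_notMem_tsupport fun hm => ?_
      have h4 := hξR hm
      rw [mem_ball, dist_eq_norm] at h4
      linarith
    simp only [hXdef, h3, map_zero]
  have hfdX : ∀ p, fderiv ℝ X p = ContinuousLinearMap.adjoint π ∘L (fderiv ℝ ξ (π p) ∘L π) := by
    intro p
    exact ((ContinuousLinearMap.adjoint π).hasFDerivAt.comp p
      (((hξ.differentiable (by simp)) (π p)).hasFDerivAt.comp p π.hasFDerivAt)).fderiv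
  set η : Euc k → ℝ := fun p => c (κ p) with hη
  have hηs : ContDiff ℝ 1 η := c.contDiff.comp κ.contDiff
  set Y : Euc k → Euc k := fun p => η p • X p with hY
  have hYs : ContDiff ℝ 1 Y := hηs.smul hX
  have hY0 : ∀ p, p ∉ cyl π κ x₀ R h₁ → Y p = 0 := by
    intro p hp
    simp only [hY]
    by_cases h2 : ‖π p - x₀‖ ≤ R
    · have h3 : h₁ < ‖κ p‖ := by
        by_contra hcon
        exact hp ⟨h2, not_lt.1 hcon⟩
      have h4 : η p = 0 := by
        simp only [hη]
        refine c.zero_of_le_dist ?_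
        rw [dist_zero_right, hrout]
        exact h3.le
      rw [h4, zero_smul]
    · rw [h0 p (not_le.1 h2).le, smul_zero]
  have hsup : tsupport Y ⊆ cyl π κ x₀ R h₁ := by
    refine closure_minimal ?_ (isClosed_cyl π κ x₀ R h₁)
    intro p hp
    by_contra hcon
    exact hp (hY0 p hcon)
  have hcpt := isCompact_cyl (n := n) hs x₀ R h₁
  have hst := hV.fv Y hYs (HasCompactSupport.of_support_subset_isCompact hcpt
    (subset_closure.trans hsup)) (hsup.trans hU)
  have hmeas : MeasurableSet (cyl π κ x₀ R h₁ ×ˢ (univ : Set (L k))) :=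
    (isClosed_cyl π κ x₀ R h₁).measurableSet.prod MeasurableSet.univ
  have hnear : ∀ᵐ p ∂V, p ∈ cyl π κ x₀ R h₁ ×ˢ (univ : Set (L k)) →
      fderiv ℝ Y p.1 = fderiv ℝ X p.1 ∧ Y p.1 = X p.1 := by
    filter_upwards [hgap] with p hp hpm
    have h2 := hp hpm.1
    have h4 : ∀ᶠ q in 𝓝 p.1, ‖κ q‖ < c.rIn := by
      refine (κ.continuous.norm.continuousAt).eventually_lt continuousAt_const ?_
      exact lt_of_le_of_lt (h2.trans (le_max_left h₀ 0)) hrin
    have h5 : Y =ᶠ[𝓝 p.1] X := by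
      filter_upwards [h4] with q hq
      simp only [hY, hη]
      rw [c.one_of_mem_closedBall, one_smul]
      rw [mem_closedBall_zero_iff]
      exact hq.le
    exact ⟨h5.fderiv_eq, h5.eq_of_nhds⟩
  have hvan : ∀ p : Euc k × L k, p ∉ cyl π κ x₀ R h₁ ×ˢ (univ : Set (L k)) →
      p.1 ∉ tsupport Y := fun p hp hmem => hp ⟨hsup hmem, trivial⟩
  -- left hand side
  have e1 : FV (V.restrict (cyl π κ x₀ R h₁ ×ˢ univ)) X =
      ∫ p, tr ((fderiv ℝ Y p.1) ∘L p.2) ∂V := by
    unfold FV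
    have e2 : ∫ p in cyl π κ x₀ R h₁ ×ˢ univ, tr ((fderiv ℝ X p.1) ∘L p.2) ∂V =
        ∫ p in cyl π κ x₀ R h₁ ×ˢ univ, tr ((fderiv ℝ Y p.1) ∘L p.2) ∂V := by
      refine setIntegral_congr_ae hmeas ?_
      filter_upwards [hnear] with p hp hpm
      rw [(hp hpm).1]
    rw [e2]
    refine setIntegral_eq_integral_of_forall_compl_eq_zero fun p hp => ?_
    have h3 : fderiv ℝ Y p.1 = 0 := by
      by_contra hne
      exact hvan p hp (support_fderiv_subset ℝ hne)
    rw [h3, ContinuousLinearMap.zero_comp, map_zero]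
  rw [e1]
  refine hst.trans ?_
  have hYc : HasCompactSupport Y := HasCompactSupport.of_support_subset_isCompact hcpt
    (subset_closure.trans hsup)
  have hfinV : V (tsupport Y ×ˢ univ) < ⊤ := hV.fin _ hYc (hsup.trans hU)
  have hie := AS_456.integrable_err hV.conc hYs hYc hfinV (π := π) δ
  have e3 : ∫ p, err π δ Y p ∂V = ∫ p in cyl π κ x₀ R h₁ ×ˢ univ, err π δ Y p ∂V :=
    (setIntegral_eq_integral_of_forall_compl_eq_zero fun p hp =>
      AS_456.err_eq_zero (hvan p hp) δ).symm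
  rw [e3]
  have hfinW : V (cyl π κ x₀ R h₁ ×ˢ univ) < ⊤ := hV.fin _ hcpt hU
  have : IsFiniteMeasure (V.restrict (cyl π κ x₀ R h₁ ×ˢ univ)) :=
    ⟨by rw [Measure.restrict_apply_univ]; exact hfinW⟩
  have hfd : Continuous (fderiv ℝ ξ) := hξ.continuous_fderiv (by simp)
  obtain ⟨K, hK⟩ : ∃ K, ∀ x, ‖fderiv ℝ ξ x‖ ≤ K := (hξc.fderiv ℝ).exists_bound_of_continuous hfd
  obtain ⟨K', hK'⟩ : ∃ K, ∀ x, ‖ξ x‖ ≤ K := hξc.exists_bound_of_continuous hξ.continuous
  refine integral_mono_ae hie.integrableOn ?_ ?_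
  · -- integrability of the right hand side: bounded on the compact cylinder
    have hcont : Continuous fun p : Euc k × L k =>
        wg π δ (fun z => ‖vp π z‖ ^ 2) p * (‖fderiv ℝ ξ (π p.1)‖ + ‖ξ (π p.1)‖) := by
      have h1 : Continuous fun p : Euc k × L k => tl π p.2 := (measurable_tl π).comp continuous_snd
      have h2 : Continuous fun p : Euc k × L k => ‖vp π p.1‖ ^ 2 :=
        (((vp π).continuous.comp continuous_fst).norm).pow 2
      unfold wg
      exact (continuous_const.mul (h1.add h2)).mul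
        (((hfd.comp (π.continuous.comp continuous_fst)).norm).add
          ((hξ.continuous.comp (π.continuous.comp continuous_fst)).norm))
    obtain ⟨C, hC⟩ := (hcpt.prod (isCompact_G m k)).exists_bound_of_continuousOn hcont.continuousOn
    refine Integrable.of_bound hcont.aestronglyMeasurable C ?_
    filter_upwards [ae_restrict_mem hmeas, ae_restrict_of_ae hV.conc] with p hp hp2
    exact hC p ⟨hp.1, hp2⟩
  · rw [EventuallyLE, ae_restrict_iff' hmeas]
    filter_upwards [hnear, hV.conc] with p hp hp2 hpm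
    obtain ⟨h1, h2⟩ := hp hpm
    unfold err
    rw [h1, h2, hfdX]
    exact errA_horizontal_le hs.hh hδ (isPr_of_G hp2) _ _ _

theorem norm_vp_eq (hs : Split π κ) (z : Euc k) : ‖vp π z‖ = ‖κ z‖ := by
  have h1 : vp π z = ContinuousLinearMap.adjoint κ (κ z) := by
    have h2 : ContinuousLinearMap.adjoint π (π z) + ContinuousLinearMap.adjoint κ (κ z) = z :=
      congrArg (fun T : L k => T z) hs.sum
    simp only [vp, hp, ContinuousLinearMap.coe_comp, Function.comp_apply, sub_apply,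
      ContinuousLinearMap.id_apply]
    exact sub_eq_of_eq_add' h2.symm
  rw [h1]
  exact norm_adjoint_co hs.vv _

/-- **`Hyp` in a cylinder, almost stationary case** -/
theorem hyp_AS {U : Set (Euc k)} {V : Measure (Euc k × L k)} {δ : ℝ} (hδ : 0 ≤ δ) (hδ1 : δ ≤ 1)
    (hV : AS π U δ V) (hs : Split π κ) {x₀ : Euc m} {R h₀ h₁ : ℝ} (h0 : 0 ≤ h₀) (h01 : h₀ < h₁)
    (hU : cyl π κ x₀ R h₁ ⊆ U)
    (hgap : ∀ᵐ p ∂V, p.1 ∈ cyl π κ x₀ R h₁ → ‖κ p.1‖ ≤ h₀) {N : Euc m → ℝ≥0∞}
    (hN : Area (V.restrict (cyl π κ x₀ R h₁ ×ˢ univ)) π (ball x₀ R) N) {σ : ℝ} (hσ : 0 ≤ σ) :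
    Hyp (m + 2) (σ + δ * h₀ ^ 2) (δ * (m + h₀ ^ 2)) (ball x₀ R) (fun x => (N x).toReal)
      (muM (V.restrict (cyl π κ x₀ R h₁ ×ˢ univ)) π)
      (wM (V.restrict (cyl π κ x₀ R h₁ ×ˢ univ)) π (we π δ fun z => ‖vp π z‖ ^ 2))
      (wM (V.restrict (cyl π κ x₀ R h₁ ×ˢ univ)) π (ws π σ))
      (wM (V.restrict (cyl π κ x₀ R h₁ ×ˢ univ)) π (wg π δ fun z => ‖vp π z‖ ^ 2)) := by
  have hfin : V (cyl π κ x₀ R h₁ ×ˢ univ) < ⊤ := hV.fin _ (isCompact_cyl hs x₀ R h₁) hU
  have : IsFiniteMeasure (V.restrict (cyl π κ x₀ R h₁ ×ˢ univ)) :=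
    ⟨by rw [Measure.restrict_apply_univ]; exact hfin⟩
  have hmeas : MeasurableSet (cyl π κ x₀ R h₁ ×ˢ (univ : Set (L k))) :=
    (isClosed_cyl π κ x₀ R h₁).measurableSet.prod MeasurableSet.univ
  refine hyp_of hs.hh (ae_restrict_of_ae hV.conc) isOpen_ball hN hδ hδ1 hσ (by positivity)
    (((vp π).continuous.norm.pow 2).measurable) (fun z => by positivity) ?_ ?_
  · rw [ae_restrict_iff' hmeas]
    filter_upwards [hgap] with p hp hpm
    have h1 := hp hpm.1
    rw [norm_vp_eq hs]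
    exact pow_le_pow_left₀ (norm_nonneg _) h1 2
  · intro ξ hξ hξc hξR
    exact FV_cyl_AS hδ hV hs h01 (h0.trans_lt h01) hU hgap hξ hξc hξR

end Crest.Agent.R234.Th_164
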