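import Crest.Agent.R234.Cy5_870

/-!
# Row 234, node N4 THIN of the core (helper561), part 1: the exact identity

(7iii) of helper504 (#5747).  `ν` a horizontal unit vector.  With the field `χ ⟨ν, x' - x⟩ ν`:

  `2 b + R = E + s^{2-m} a(ψ) - s^{2-m} e_HH(χ) + s^{-m} ∫ (-2 g') c dV + s^{2-m} δV(χ ⟨ν, x'-x⟩ ν)`

where `ψ = -2 s^{-2} g' ⟨ν, x'-x⟩² ≥ 0`, `e_HH = tl - ⟨(1 - S_hh) ν, ν⟩` is the tilt energy in the
directions of `H = ν^⊥` and `c = ⟨(1 - S_hh) (x'-x), P_H (x'-x)⟩`.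
-/

set_option autoImplicit false
set_option linter.unusedSectionVars false

open MeasureTheory Set Function Filter Topology
open Crest.GeometryTopology.Submanifold
open Crest.Agent.R234.Vf_884 Crest.Agent.R234.Ar_870 Crest.Agent.R234.Cy_870
open scoped ENNReal NNReal InnerProductSpace

noncomputable section

namespace Crest.Agent.R234.Thin_561

variable {m n k : ℕ}

/-- the field `χ(x') ⟨ν, x' - x⟩ ν` -/
def Xν (π : Euc k →L[ℝ] Euc m) (x ν : Euc m) (g : ℝ → ℝ) (l : ℝ) (p : Euc k) : Euc k :=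
  (1 : ℝ) • ContinuousLinearMap.adjoint π
    ((g (Real.exp (-2 * l) * ‖π p - x‖ ^ 2) * ⟪ν, π p - x⟫_ℝ) • ν)

/-- the mixed form `⟨(1 - S_hh) u, v⟩` -/
def qm (π : Euc k →L[ℝ] Euc m) (P : L k) (u v : Euc m) : ℝ := ⟪u, v⟫_ℝ - ⟪u, Shh π P v⟫_ℝ

/-- the functional `∫ ψ dμ - Q ∫ ψ dx` -/
def aF (V : Measure (Euc k × L k)) (π : Euc k →L[ℝ] Euc m) (Q : ℝ) (ψ : Euc m → ℝ) : ℝ :=
  (∫ p, ψ (π p.1) ∂V) - Q * ∫ v, ψ v

/-- the functional `b(ψ) = ∫ ψ dμ - Q ∫ ψ dx - 1/2 ∫ ψ tl dV` -/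
def bF (V : Measure (Euc k × L k)) (π : Euc k →L[ℝ] Euc m) (Q : ℝ) (ψ : Euc m → ℝ) : ℝ :=
  aF V π Q ψ - (∫ p, tl π p.2 * ψ (π p.1) ∂V) / 2

variable {π : Euc k →L[ℝ] Euc m} {κ : Euc k →L[ℝ] Euc n} {x ν : Euc m} {L₀ : ℝ}
  {V : Measure (Euc k × L k)} {g g1 g2 : ℝ → ℝ}

theorem qm_self (π : Euc k →L[ℝ] Euc m) (P : L k) (v : Euc m) : qm π P v v = qf π P v := by
  unfold qm qf
  rw [real_inner_self_eq_norm_sq]

/-- derivative of `f(..) ⟨ν, v - x⟩` -/
theorem hasFDerivAt_sc {f f' : ℝ → ℝ} (hf : ∀ t, HasDerivAt f (f' t) t) (l : ℝ) (x ν v : Euc m) :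
    HasFDerivAt (fun v : Euc m => f (Real.exp (-2 * l) * ‖v - x‖ ^ 2) * ⟪ν, v - x⟫_ℝ)
      (f (Real.exp (-2 * l) * ‖v - x‖ ^ 2) • innerSL ℝ ν +
        ⟪ν, v - x⟫_ℝ • innerSL ℝ
          ((2 * Real.exp (-2 * l) * f' (Real.exp (-2 * l) * ‖v - x‖ ^ 2)) • (v - x))) v := by
  have h1 := hasFDerivAt_rad hf l x v
  have h2 : HasFDerivAt (fun v : Euc m => ⟪ν, v - x⟫_ℝ) (innerSL ℝ ν) v := by
    have h3 : HasFDerivAt (fun v : Euc m => v - x) (ContinuousLinearMap.id ℝ (Euc m)) v :=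
      (hasFDerivAt_id v).sub_const x
    have h4 := ((innerSL ℝ ν).hasFDerivAt (x := v - x)).comp v h3
    rw [ContinuousLinearMap.comp_id] at h4
    exact h4
  exact h1.mul h2

theorem contDiff_sc (hg : Ker g g1) (l : ℝ) (x ν : Euc m) :
    ContDiff ℝ 1 fun v : Euc m => g (Real.exp (-2 * l) * ‖v - x‖ ^ 2) * ⟪ν, v - x⟫_ℝ := by
  have h1 : ContDiff ℝ 1 (fun v : Euc m => v - x) := contDiff_id.sub contDiff_const
  have h2 : ContDiff ℝ 1 (fun v : Euc m => g (Real.exp (-2 * l) * ‖v - x‖ ^ 2)) :=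
    (contDiff_scaled hg.der hg.cont l).comp (h1.norm_sq ℝ)
  exact h2.mul ((innerSL ℝ ν).contDiff.comp h1)

/-- trace of the derivative of `f(..) ⟨ν, v - x⟩ ν` against `S` -/
theorem tr_sc (hg : Ker g g1) (l : ℝ) (x ν v : Euc m) (S : L m) :
    tr (fderiv ℝ (fun v : Euc m =>
        (g (Real.exp (-2 * l) * ‖v - x‖ ^ 2) * ⟪ν, v - x⟫_ℝ) • ν) v ∘L S) =
      g (Real.exp (-2 * l) * ‖v - x‖ ^ 2) * ⟪ν, S ν⟫_ℝ +
        2 * Real.exp (-2 * l) * (⟪ν, v - x⟫_ℝ * ⟪v - x, S ν⟫_ℝ) *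
          g1 (Real.exp (-2 * l) * ‖v - x‖ ^ 2) := by
  have h := (hasFDerivAt_sc hg.der l x ν v).smul_const ν
  rw [h.fderiv, tr_smulRight_comp]
  simp only [add_apply, smul_apply, innerSL_apply_apply,
    smul_eq_mul, real_inner_smul_left]
  ring

/-- **one integration by parts**: `∫ g dv + 2 s^{-2} ∫ g' ⟨ν, v - x⟩² dv = 0` -/
theorem leb_sc (hg : Ker g g1) (l : ℝ) (x : Euc m) (hν : ‖ν‖ = 1) :
    (∫ v : Euc m, 1 * g (Real.exp (-2 * l) * ‖v - x‖ ^ 2)) +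
      2 * Real.exp (-2 * l) * ∫ v : Euc m, ⟪ν, v - x⟫_ℝ ^ 2 *
        g1 (Real.exp (-2 * l) * ‖v - x‖ ^ 2) = 0 := by
  set f : Euc m → ℝ := fun v => g (Real.exp (-2 * l) * ‖v - x‖ ^ 2) * ⟪ν, v - x⟫_ℝ with hf
  have hz : ∀ v : Euc m, Real.exp l ≤ ‖v - x‖ → 1 ≤ Real.exp (-2 * l) * ‖v - x‖ ^ 2 :=
    fun v hv => Ker.one_le_of x hv
  have hcs : ∀ F : Euc m → ℝ, (∀ v, Real.exp l ≤ ‖v - x‖ → F v = 0) → HasCompactSupport F := by
    intro F hF
    refine HasCompactSupport.of_support_subset_isCompact (isCompact_closedBall x (Real.exp l)) ?_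
    intro v hv
    rw [Metric.mem_closedBall, dist_eq_norm]
    by_contra hc
    exact hv (hF v (not_le.1 hc).le)
  have hcont : Continuous f := (contDiff_sc hg l x ν).continuous
  have hfz : ∀ v, Real.exp l ≤ ‖v - x‖ → f v = 0 := by
    intro v hv
    simp only [hf]
    rw [hg.zero _ (hz v hv), zero_mul]
  have hgc : Continuous fun v : Euc m => g (Real.exp (-2 * l) * ‖v - x‖ ^ 2) :=
    hg.continuous.comp (continuous_const.mul ((continuous_id.sub continuous_const).norm.pow 2))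
  have hg1c : Continuous fun v : Euc m => g1 (Real.exp (-2 * l) * ‖v - x‖ ^ 2) :=
    hg.cont.comp (continuous_const.mul ((continuous_id.sub continuous_const).norm.pow 2))
  have hder : ∀ v, fderiv ℝ f v ν = 1 * g (Real.exp (-2 * l) * ‖v - x‖ ^ 2) +
      2 * Real.exp (-2 * l) * (⟪ν, v - x⟫_ℝ ^ 2 * g1 (Real.exp (-2 * l) * ‖v - x‖ ^ 2)) := by
    intro v
    rw [(hasFDerivAt_sc hg.der l x ν v).fderiv]
    simp only [add_apply, smul_apply, innerSL_apply_apply,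
      smul_eq_mul, real_inner_smul_left, real_inner_self_eq_norm_sq, hν]
    rw [real_inner_comm ν (v - x)]
    ring
  have hi1 : Integrable (fun v : Euc m => 1 * g (Real.exp (-2 * l) * ‖v - x‖ ^ 2)) :=
    Continuous.integrable_of_hasCompactSupport (continuous_const.mul hgc)
      (hcs (fun v : Euc m => 1 * g (Real.exp (-2 * l) * ‖v - x‖ ^ 2))
        fun v hv => by rw [hg.zero _ (hz v hv), mul_zero])
  have hi2 : Integrable (fun v : Euc m => ⟪ν, v - x⟫_ℝ ^ 2 *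
      g1 (Real.exp (-2 * l) * ‖v - x‖ ^ 2)) := by
    refine Continuous.integrable_of_hasCompactSupport ?_
      (hcs (fun v : Euc m => ⟪ν, v - x⟫_ℝ ^ 2 * g1 (Real.exp (-2 * l) * ‖v - x‖ ^ 2))
        fun v hv => by rw [hg.zero' _ (hz v hv), mul_zero])
    exact ((continuous_const.inner (continuous_id.sub continuous_const)).pow 2).mul hg1c
  have hfd : Integrable (fun v => fderiv ℝ f v ν) := by
    refine (hi1.add (hi2.const_mul (2 * Real.exp (-2 * l)))).congr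
      (Eventually.of_forall fun v => ?_)
    simp only [Pi.add_apply]
    rw [hder]
  have h0 := integral_mul_fderiv_eq_neg_fderiv_mul_of_integrable (𝕜 := ℝ) (μ := volume)
    (f := f) (g := fun _ => (1:ℝ)) (v := ν) (by simpa using hfd) (by simp)
    (by simpa using hcont.integrable_of_hasCompactSupport (hcs f hfz))
    (fun v _ => (hasFDerivAt_sc hg.der l x ν v).differentiableAt)
    (fun v _ => differentiableAt_const _)
  simp only [fderiv_fun_const, Pi.zero_apply, zero_apply, mul_zero,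
    integral_zero, mul_one] at h0
  have h1 : ∫ v, fderiv ℝ f v ν = 0 := by linarith
  rw [← h1, ← integral_const_mul, ← integral_add hi1 (hi2.const_mul _)]
  exact integral_congr_ae (Eventually.of_forall fun v => (hder v).symm)

/-- **the first variation of `χ ⟨ν, x' - x⟩ ν`** -/
theorem FV_Xν (h : Fr V π κ x L₀) (hg : Ker g g1) {l : ℝ} (hl : l ≤ L₀) (hν : ‖ν‖ = 1) :
    FV V (Xν π x ν g l) =
      (∫ p, 1 * g (Real.exp (-2 * l) * ‖π p.1 - x‖ ^ 2) ∂V)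
        - (∫ p, qf π p.2 ν * g (Real.exp (-2 * l) * ‖π p.1 - x‖ ^ 2) ∂V)
        + 2 * Real.exp (-2 * l) * (∫ p, ⟪ν, π p.1 - x⟫_ℝ ^ 2 *
            g1 (Real.exp (-2 * l) * ‖π p.1 - x‖ ^ 2) ∂V)
        + (-2 * Real.exp (-2 * l)) * (∫ p, (⟪ν, π p.1 - x⟫_ℝ * qm π p.2 (π p.1 - x) ν) *
            g1 (Real.exp (-2 * l) * ‖π p.1 - x‖ ^ 2) ∂V) := by
  have hcv : Continuous fun p : Euc k × L k => π p.1 - x :=
    (π.continuous.comp continuous_fst).sub continuous_const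
  have hcq : Continuous fun p : Euc k × L k => qf π p.2 ν := by
    unfold qf
    exact continuous_const.sub (continuous_const.inner
      (((continuous_Shh π).comp continuous_snd).clm_apply continuous_const))
  have hcm : Continuous fun p : Euc k × L k => ⟪ν, π p.1 - x⟫_ℝ * qm π p.2 (π p.1 - x) ν := by
    unfold qm
    exact (continuous_const.inner hcv).mul ((hcv.inner continuous_const).sub (hcv.inner
      (((continuous_Shh π).comp continuous_snd).clm_apply continuous_const)))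
  have hci : Continuous fun p : Euc k × L k => ⟪ν, π p.1 - x⟫_ℝ ^ 2 :=
    (continuous_const.inner hcv).pow 2
  have hle : ∀ p : Euc k × L k, ‖π p.1 - x‖ ^ 2 < Real.exp (2 * L₀) →
      ‖π p.1 - x‖ ≤ Real.exp L₀ := by
    intro p hp
    have : Real.exp (2 * L₀) = Real.exp L₀ ^ 2 := by rw [← Real.exp_nat_mul]; norm_num
    rw [this] at hp
    exact (lt_of_pow_lt_pow_left₀ 2 (Real.exp_pos _).le hp).le
  have bq : ∀ᵐ p ∂V, ‖π p.1 - x‖ ^ 2 < Real.exp (2 * L₀) → |qf π p.2 ν| ≤ 1 := by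
    filter_upwards [h.conc] with p hp _
    rw [abs_of_nonneg (qf_nonneg h.sp.hh (isPr_of_G hp) _)]
    refine (qf_le (isPr_of_G hp) _).trans ?_
    rw [hν]; norm_num
  have bi : ∀ᵐ p ∂V, ‖π p.1 - x‖ ^ 2 < Real.exp (2 * L₀) →
      |⟪ν, π p.1 - x⟫_ℝ ^ 2| ≤ Real.exp L₀ ^ 2 := by
    refine Eventually.of_forall fun p hp => ?_
    rw [abs_of_nonneg (sq_nonneg _), ← sq_abs]
    refine pow_le_pow_left₀ (abs_nonneg _) ?_ 2
    refine (abs_real_inner_le_norm _ _).trans ?_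
    rw [hν, one_mul]
    exact hle p hp
  have bm : ∀ᵐ p ∂V, ‖π p.1 - x‖ ^ 2 < Real.exp (2 * L₀) →
      |⟪ν, π p.1 - x⟫_ℝ * qm π p.2 (π p.1 - x) ν| ≤ Real.exp L₀ * (2 * Real.exp L₀) := by
    filter_upwards [h.conc] with p hp hlt
    have h1 := hle p hlt
    have h2 : |⟪ν, π p.1 - x⟫_ℝ| ≤ Real.exp L₀ := by
      refine (abs_real_inner_le_norm _ _).trans ?_
      rw [hν, one_mul]
      exact h1
    have h3 : ‖Shh π p.2 ν‖ ≤ 1 := by
      have e1 : ‖Shh π p.2 ν‖ = ‖π (p.2 (ContinuousLinearMap.adjoint π ν))‖ := rfl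
      have e2 := h.sp.norm_sq (p.2 (ContinuousLinearMap.adjoint π ν))
      have e3 := norm_pr_le (isPr_of_G hp) (ContinuousLinearMap.adjoint π ν)
      rw [norm_adjoint_co h.sp.hh, hν] at e3
      have e4 : ‖p.2 (ContinuousLinearMap.adjoint π ν)‖ ^ 2 ≤ 1 := by
        have := pow_le_pow_left₀ (norm_nonneg _) e3 2
        simpa using this
      rw [e1]
      nlinarith [norm_nonneg (π (p.2 (ContinuousLinearMap.adjoint π ν))),
        sq_nonneg ‖κ (p.2 (ContinuousLinearMap.adjoint π ν))‖]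
    have h4 : |qm π p.2 (π p.1 - x) ν| ≤ 2 * Real.exp L₀ := by
      unfold qm
      have e1 := abs_real_inner_le_norm (π p.1 - x) ν
      have e2 := abs_real_inner_le_norm (π p.1 - x) (Shh π p.2 ν)
      rw [hν, mul_one] at e1
      have e3 : ‖π p.1 - x‖ * ‖Shh π p.2 ν‖ ≤ Real.exp L₀ * 1 :=
        mul_le_mul h1 h3 (norm_nonneg _) (Real.exp_pos _).le
      calc |⟪π p.1 - x, ν⟫_ℝ - ⟪π p.1 - x, Shh π p.2 ν⟫_ℝ|
          ≤ |⟪π p.1 - x, ν⟫_ℝ| + |⟪π p.1 - x, Shh π p.2 ν⟫_ℝ| := abs_sub _ _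
        _ ≤ Real.exp L₀ + Real.exp L₀ * 1 := add_le_add (e1.trans h1) (e2.trans e3)
        _ = 2 * Real.exp L₀ := by ring
    rw [abs_mul]
    exact mul_le_mul h2 h4 (abs_nonneg _) (Real.exp_pos _).le
  have i0 := h.integrable_c (C := 1) (c := fun _ => 1) aestronglyMeasurable_const ae_one_bound hg hl
  have i1 := h.integrable_c hcq.aestronglyMeasurable bq hg hl
  have i2 := integrable_k' h hci.aestronglyMeasurable bi hg hl
  have i3 := integrable_k' h hcm.aestronglyMeasurable bm hg hl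
  have h0 := int4 i0 i1 i2 i3 1 (-1) (2 * Real.exp (-2 * l)) (-2 * Real.exp (-2 * l))
  rw [neg_one_mul, ← sub_eq_add_neg, one_mul] at h0
  rw [← h0]
  unfold FV
  refine integral_congr_ae (Eventually.of_forall fun p => ?_)
  have h1 := tr_field (n := n) π κ (F := fun _ => (1:ℝ))
    (ξ := fun v : Euc m => (g (Real.exp (-2 * l) * ‖v - x‖ ^ 2) * ⟪ν, v - x⟫_ℝ) • ν) p.1 p.2
    (differentiableAt_const _)
    (((contDiff_sc hg l x ν).smul contDiff_const).differentiable one_ne_zero _)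
  have h2 : tr (fderiv ℝ (Xν π x ν g l) p.1 ∘L p.2) = _ := h1
  simp only
  rw [h2, tr_sc hg]
  simp only [fderiv_fun_const, Pi.zero_apply, zero_apply, add_zero, one_mul]
  have e1 : ⟪ν, Shh π p.2 ν⟫_ℝ = 1 - qf π p.2 ν := by
    unfold qf; rw [hν]; ring
  have e2 : ⟪π p.1 - x, Shh π p.2 ν⟫_ℝ = ⟪ν, π p.1 - x⟫_ℝ - qm π p.2 (π p.1 - x) ν := by
    unfold qm; rw [real_inner_comm ν (π p.1 - x)]; ring
  rw [e1, e2]
  ring

/-- the weight `ψ = -2 s^{-2} g' ⟨ν, v - x⟩²` -/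
def ψν (x ν : Euc m) (g1 : ℝ → ℝ) (l : ℝ) (v : Euc m) : ℝ :=
  -2 * Real.exp (-2 * l) * (⟪ν, v - x⟫_ℝ ^ 2 * g1 (Real.exp (-2 * l) * ‖v - x‖ ^ 2))

/-- tilt in the directions of `ν^⊥` -/
def eH (π : Euc k →L[ℝ] Euc m) (P : L k) (ν : Euc m) : ℝ := tl π P - qf π P ν

/-- the mixed term `⟨(1 - S_hh) w, w - ⟨ν, w⟩ ν⟩` -/
def cc (π : Euc k →L[ℝ] Euc m) (P : L k) (w ν : Euc m) : ℝ := qf π P w - ⟪ν, w⟫_ℝ * qm π P w ν

theorem sd_bounds (h : Fr V π κ x L₀) (hν : ‖ν‖ = 1) :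
    (∀ᵐ p ∂V, ‖π p.1 - x‖ ^ 2 < Real.exp (2 * L₀) → |qf π p.2 ν| ≤ 1) ∧
    (∀ᵐ p ∂V, ‖π p.1 - x‖ ^ 2 < Real.exp (2 * L₀) →
      |⟪ν, π p.1 - x⟫_ℝ ^ 2| ≤ Real.exp L₀ ^ 2) ∧
    (∀ᵐ p ∂V, ‖π p.1 - x‖ ^ 2 < Real.exp (2 * L₀) →
      |⟪ν, π p.1 - x⟫_ℝ * qm π p.2 (π p.1 - x) ν| ≤ Real.exp L₀ * (2 * Real.exp L₀)) := by
  have hle : ∀ p : Euc k × L k, ‖π p.1 - x‖ ^ 2 < Real.exp (2 * L₀) →
      ‖π p.1 - x‖ ≤ Real.exp L₀ := by
    intro p hp
    have : Real.exp (2 * L₀) = Real.exp L₀ ^ 2 := by rw [← Real.exp_nat_mul]; norm_num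
    rw [this] at hp
    exact (lt_of_pow_lt_pow_left₀ 2 (Real.exp_pos _).le hp).le
  refine ⟨?_, ?_, ?_⟩
  · filter_upwards [h.conc] with p hp _
    rw [abs_of_nonneg (qf_nonneg h.sp.hh (isPr_of_G hp) _)]
    refine (qf_le (isPr_of_G hp) _).trans ?_
    rw [hν]; norm_num
  · refine Eventually.of_forall fun p hp => ?_
    rw [abs_of_nonneg (sq_nonneg _), ← sq_abs]
    refine pow_le_pow_left₀ (abs_nonneg _) ?_ 2
    refine (abs_real_inner_le_norm _ _).trans ?_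
    rw [hν, one_mul]
    exact hle p hp
  · filter_upwards [h.conc] with p hp hlt
    have h1 := hle p hlt
    have h2 : |⟪ν, π p.1 - x⟫_ℝ| ≤ Real.exp L₀ := by
      refine (abs_real_inner_le_norm _ _).trans ?_
      rw [hν, one_mul]
      exact h1
    have h3 : ‖Shh π p.2 ν‖ ≤ 1 := by
      have e1 : ‖Shh π p.2 ν‖ = ‖π (p.2 (ContinuousLinearMap.adjoint π ν))‖ := rfl
      have e2 := h.sp.norm_sq (p.2 (ContinuousLinearMap.adjoint π ν))
      have e3 := norm_pr_le (isPr_of_G hp) (ContinuousLinearMap.adjoint π ν)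
      rw [norm_adjoint_co h.sp.hh, hν] at e3
      have e4 : ‖p.2 (ContinuousLinearMap.adjoint π ν)‖ ^ 2 ≤ 1 := by
        have := pow_le_pow_left₀ (norm_nonneg _) e3 2
        simpa using this
      rw [e1]
      nlinarith [norm_nonneg (π (p.2 (ContinuousLinearMap.adjoint π ν))),
        sq_nonneg ‖κ (p.2 (ContinuousLinearMap.adjoint π ν))‖]
    have h4 : |qm π p.2 (π p.1 - x) ν| ≤ 2 * Real.exp L₀ := by
      unfold qm
      have e1 := abs_real_inner_le_norm (π p.1 - x) ν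
      have e2 := abs_real_inner_le_norm (π p.1 - x) (Shh π p.2 ν)
      rw [hν, mul_one] at e1
      have e3 : ‖π p.1 - x‖ * ‖Shh π p.2 ν‖ ≤ Real.exp L₀ * 1 :=
        mul_le_mul h1 h3 (norm_nonneg _) (Real.exp_pos _).le
      calc |⟪π p.1 - x, ν⟫_ℝ - ⟪π p.1 - x, Shh π p.2 ν⟫_ℝ|
          ≤ |⟪π p.1 - x, ν⟫_ℝ| + |⟪π p.1 - x, Shh π p.2 ν⟫_ℝ| := abs_sub _ _
        _ ≤ Real.exp L₀ + Real.exp L₀ * 1 := add_le_add (e1.trans h1) (e2.trans e3)
        _ = 2 * Real.exp L₀ := by ring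
    rw [abs_mul]
    exact mul_le_mul h2 h4 (abs_nonneg _) (Real.exp_pos _).le

/-- **the exact identity of (7iii)** -/
theorem identity (h : Fr V π κ x L₀) (hg : Ker g g1) (Q : ℝ) {l : ℝ} (hl : l ≤ L₀)
    (hν : ‖ν‖ = 1) :
    2 * bb V π x g Q l + RR V π x g1 l =
      EE V π x g Q l + Real.exp ((2 - m) * l) * aF V π Q (ψν x ν g1 l)
        - Real.exp ((2 - m) * l) *
            (∫ p, eH π p.2 ν * g (Real.exp (-2 * l) * ‖π p.1 - x‖ ^ 2) ∂V)
        + Real.exp (-m * l) * (∫ p, cc π p.2 (π p.1 - x) ν *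
            (-2 * g1 (Real.exp (-2 * l) * ‖π p.1 - x‖ ^ 2)) ∂V)
        + Real.exp ((2 - m) * l) * FV V (Xν π x ν g l) := by
  have hcv : Continuous fun p : Euc k × L k => π p.1 - x :=
    (π.continuous.comp continuous_fst).sub continuous_const
  have hcq : Continuous fun p : Euc k × L k => qf π p.2 ν := by
    unfold qf
    exact continuous_const.sub (continuous_const.inner
      (((continuous_Shh π).comp continuous_snd).clm_apply continuous_const))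
  have hcm : Continuous fun p : Euc k × L k => ⟪ν, π p.1 - x⟫_ℝ * qm π p.2 (π p.1 - x) ν := by
    unfold qm
    exact (continuous_const.inner hcv).mul ((hcv.inner continuous_const).sub (hcv.inner
      (((continuous_Shh π).comp continuous_snd).clm_apply continuous_const)))
  have hci : Continuous fun p : Euc k × L k => ⟪ν, π p.1 - x⟫_ℝ ^ 2 :=
    (continuous_const.inner hcv).pow 2
  obtain ⟨bq, bi, bm⟩ := sd_bounds (κ := κ) h hν
  have i0 := h.integrable_c (C := 1) (c := fun _ => 1) aestronglyMeasurable_const ae_one_bound hg hl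
  have i1 := h.integrable_c hcq.aestronglyMeasurable bq hg hl
  have i2 := integrable_k' h hci.aestronglyMeasurable bi hg hl
  have i3 := integrable_k' h hcm.aestronglyMeasurable bm hg hl
  have i4 := h.integrable_c (aestronglyMeasurable_tl π V) h.tl_bound hg hl
  have i5' := integrable_k' h (continuous_qf π x).aestronglyMeasurable h.qf_bound hg hl
  have e1 : ∫ p, eH π p.2 ν * g (Real.exp (-2 * l) * ‖π p.1 - x‖ ^ 2) ∂V =
      (∫ p, tl π p.2 * g (Real.exp (-2 * l) * ‖π p.1 - x‖ ^ 2) ∂V) -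
        ∫ p, qf π p.2 ν * g (Real.exp (-2 * l) * ‖π p.1 - x‖ ^ 2) ∂V := by
    rw [← integral_sub i4 i1]
    refine integral_congr_ae (Eventually.of_forall fun p => ?_)
    simp only [eH]
    ring
  have e2 : ∫ p, cc π p.2 (π p.1 - x) ν * (-2 * g1 (Real.exp (-2 * l) * ‖π p.1 - x‖ ^ 2)) ∂V =
      -2 * (∫ p, qf π p.2 (π p.1 - x) * g1 (Real.exp (-2 * l) * ‖π p.1 - x‖ ^ 2) ∂V) +
        2 * ∫ p, (⟪ν, π p.1 - x⟫_ℝ * qm π p.2 (π p.1 - x) ν) *
            g1 (Real.exp (-2 * l) * ‖π p.1 - x‖ ^ 2) ∂V := by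
    rw [← integral_const_mul, ← integral_const_mul,
      ← integral_add (i5'.const_mul (-2)) (i3.const_mul 2)]
    refine integral_congr_ae (Eventually.of_forall fun p => ?_)
    simp only [cc]
    ring
  have e3 : ∫ p, qf π p.2 (π p.1 - x) * (-2 * g1 (Real.exp (-2 * l) * ‖π p.1 - x‖ ^ 2)) ∂V =
      -2 * ∫ p, qf π p.2 (π p.1 - x) * g1 (Real.exp (-2 * l) * ‖π p.1 - x‖ ^ 2) ∂V := by
    rw [← integral_const_mul]
    refine integral_congr_ae (Eventually.of_forall fun p => ?_)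
    simp only
    ring
  have e4 : aF V π Q (ψν x ν g1 l) =
      -2 * Real.exp (-2 * l) * (∫ p, ⟪ν, π p.1 - x⟫_ℝ ^ 2 *
        g1 (Real.exp (-2 * l) * ‖π p.1 - x‖ ^ 2) ∂V) -
      Q * (-2 * Real.exp (-2 * l) * ∫ v : Euc m, ⟪ν, v - x⟫_ℝ ^ 2 *
        g1 (Real.exp (-2 * l) * ‖v - x‖ ^ 2)) := by
    unfold aF ψν
    rw [integral_const_mul, integral_const_mul]
  have h6 : Real.exp (-m * l) = Real.exp ((2 - m) * l) * Real.exp (-2 * l) := by
    rw [← Real.exp_add]; congr 1; ring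
  have h7 := leb_sc hg l x hν
  unfold bb EE ee RR
  rw [FV_Xν h hg hl hν, e1, e2, e3, e4, h6]
  linear_combination (-(Real.exp ((2 - m) * l) * Q)) * h7

end Crest.Agent.R234.Thin_561
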