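import Crest.Agent.R234.Thin1_561
import Crest.Agent.R234.Rig1_300

/-!
# Row 234, node N4 THIN of the core (helper561), part 2: pointwise inequalities

`eH = tl - ⟨(1 - S_hh) ν, ν⟩` is the trace of `1 - S_hh` over `ν^⊥`.
-/

set_option autoImplicit false
set_option linter.unusedSectionVars false

open MeasureTheory Set Function Filter Topology
open Crest.GeometryTopology.Submanifold
open Crest.Agent.R234.Vf_884 Crest.Agent.R234.Ar_870 Crest.Agent.R234.Cy_870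
open Crest.Agent.R234.Rig_300
open scoped ENNReal NNReal InnerProductSpace

noncomputable section

namespace Crest.Agent.R234.Thin_561

variable {m n k : ℕ}

variable {π : Euc k →L[ℝ] Euc m} {κ : Euc k →L[ℝ] Euc n} {x ν : Euc m} {P : L k}

/-- the operator `1 - S_hh` -/
def qo (π : Euc k →L[ℝ] Euc m) (P : L k) : L m := ContinuousLinearMap.id ℝ (Euc m) - Shh π P

theorem inner_qo (hP : IsPr P) (u v : Euc m) : inner ℝ (qo π P u) v = qm π P u v := by
  unfold qo qm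
  rw [sub_apply, ContinuousLinearMap.id_apply, inner_sub_left, Shh_symm hP]

theorem inner_qo_self (hP : IsPr P) (u : Euc m) : inner ℝ (qo π P u) u = qf π P u := by
  rw [inner_qo hP, qm_self]

theorem psd_qo (hπ : IsCo π) (hP : IsPr P) : PSD (qo π P) where
  symm u v := by
    rw [inner_qo hP, real_inner_comm, inner_qo hP]
    unfold qm
    rw [real_inner_comm u v, ← Shh_symm hP, real_inner_comm (Shh π P u) v]
  nonneg u := by
    rw [inner_qo_self hP]
    exact qf_nonneg hπ hP u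

theorem tl_eq_sum {ι : Type*} [Fintype ι] (b : OrthonormalBasis ι ℝ (Euc m)) :
    tl π P = ∑ i, qf π P (b i) := by
  rw [tl_eq, tr_apply, LinearMap.trace_eq_sum_inner _ b]
  unfold qf
  rw [Finset.sum_sub_distrib]
  congr 1
  have h1 : ∀ i, ‖b i‖ ^ 2 = 1 := fun i => by rw [b.norm_eq_one]; norm_num
  simp only [h1]
  rw [Finset.sum_const, Finset.card_univ, ← Module.finrank_eq_card_basis b.toBasis]
  simp

theorem exists_basis (hν : ‖ν‖ = 1) :
    ∃ (ι : Type) (_ : Fintype ι) (_ : DecidableEq ι) (b : OrthonormalBasis ι ℝ (Euc m)) (i0 : ι),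
      b i0 = ν := by
  classical
  obtain ⟨u, b, hub, hb⟩ := Orthonormal.exists_orthonormalBasis_extension (𝕜 := ℝ) (v := {ν}) (by
    rw [orthonormal_subtype_iff_ite]
    intro a ha b hb
    rw [Set.mem_singleton_iff] at ha hb
    subst ha; subst hb
    simp [hν]) (E := Euc m)
  exact ⟨u, inferInstance, inferInstance, b, ⟨ν, hub (Set.mem_singleton ν)⟩, by rw [hb]⟩

theorem eH_eq_sum {ι : Type*} [Fintype ι] [DecidableEq ι] (b : OrthonormalBasis ι ℝ (Euc m))
    (i0 : ι) : eH π P (b i0) = ∑ i ∈ Finset.univ.erase i0, qf π P (b i) := by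
  unfold eH
  rw [tl_eq_sum b, ← Finset.add_sum_erase _ _ (Finset.mem_univ i0)]
  ring

theorem eH_nonneg (hπ : IsCo π) (hP : IsPr P) (hν : ‖ν‖ = 1) : 0 ≤ eH π P ν := by
  obtain ⟨ι, _, _, b, i0, hb⟩ := exists_basis hν
  rw [← hb, eH_eq_sum b i0]
  exact Finset.sum_nonneg fun i _ => qf_nonneg hπ hP _

theorem eH_le_tl (hπ : IsCo π) (hP : IsPr P) : eH π P ν ≤ tl π P := by
  unfold eH
  linarith [qf_nonneg hπ hP ν]

/-- `⟨(1 - S_hh) w, w⟩ ≤ |w|² e_H` for `w ⊥ ν` -/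
theorem qf_le_eH (hπ : IsCo π) (hP : IsPr P) (hν : ‖ν‖ = 1) {w : Euc m} (hw : ⟪ν, w⟫_ℝ = 0) :
    qf π P w ≤ ‖w‖ ^ 2 * eH π P ν := by
  obtain ⟨ι, _, _, b, i0, hb⟩ := exists_basis hν
  have h1 : w = ∑ i ∈ Finset.univ.erase i0, ⟪b i, w⟫_ℝ • b i := by
    have h2 := b.sum_repr' w
    rw [← Finset.add_sum_erase _ _ (Finset.mem_univ i0), hb, hw, zero_smul, zero_add] at h2
    exact h2.symm
  have h3 := (psd_qo (P := P) hπ hP).sum_le (Finset.univ.erase i0) (fun i => ⟪b i, w⟫_ℝ)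
    (fun i => b i)
  rw [← h1, inner_qo_self hP] at h3
  have h4 : ∑ i ∈ Finset.univ.erase i0, ⟪b i, w⟫_ℝ ^ 2 ≤ ‖w‖ ^ 2 := by
    have h5 := b.sum_sq_inner_right w
    rw [← h5]
    exact Finset.sum_le_sum_of_subset_of_nonneg (Finset.erase_subset _ _)
      fun i _ _ => sq_nonneg _
  have h6 : ∑ i ∈ Finset.univ.erase i0, inner ℝ (qo π P (b i)) (b i) = eH π P ν := by
    rw [← hb, eH_eq_sum b i0]
    exact Finset.sum_congr rfl fun i _ => inner_qo_self hP _
  rw [h6] at h3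
  exact h3.trans (mul_le_mul_of_nonneg_right h4 (eH_nonneg hπ hP hν))

theorem cc_eq (hP : IsPr P) (w ν : Euc m) :
    cc π P w ν = inner ℝ (qo π P w) (w - ⟪ν, w⟫_ℝ • ν) := by
  unfold cc
  rw [inner_sub_right, inner_smul_right, inner_qo_self hP, inner_qo hP]

/-- `|c| ≤ |w|² (t tl + e_H / t) / 2` -/
theorem abs_cc_le (h : Split π κ) (hP : P ∈ G m k) (hν : ‖ν‖ = 1) (w : Euc m) {t : ℝ}
    (ht : 0 < t) : |cc π P w ν| ≤ ‖w‖ ^ 2 * ((t * tl π P + eH π P ν / t) / 2) := by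
  have hPr := isPr_of_G hP
  set w' : Euc m := w - ⟪ν, w⟫_ℝ • ν with hw'
  have h0 : ⟪ν, w'⟫_ℝ = 0 := by
    rw [hw', inner_sub_right, inner_smul_right, real_inner_self_eq_norm_sq, hν]
    ring
  have h1 : ‖w'‖ ^ 2 ≤ ‖w‖ ^ 2 := by
    have e1 : w = w' + ⟪ν, w⟫_ℝ • ν := by rw [hw']; abel
    have e2 : ‖w‖ ^ 2 = ‖w'‖ ^ 2 + ‖⟪ν, w⟫_ℝ • ν‖ ^ 2 := by
      conv_lhs => rw [e1]
      rw [norm_add_sq_real, inner_smul_right, real_inner_comm ν w', h0]
      ring
    rw [e2]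
    linarith [sq_nonneg ‖⟪ν, w⟫_ℝ • ν‖]
  have h2 := (psd_qo (P := P) h.hh hPr).cs w w'
  rw [inner_qo_self hPr, inner_qo_self hPr, ← cc_eq hPr] at h2
  have h3 := qf_le_tl h hP w
  have h4 := (qf_le_eH h.hh hPr hν h0).trans
    (mul_le_mul_of_nonneg_right h1 (eH_nonneg h.hh hPr hν))
  have htl := tl_nonneg h.hh hPr
  have heH := eH_nonneg (ν := ν) h.hh hPr hν
  have h5 : (cc π P w ν) ^ 2 ≤ (‖w‖ ^ 2 * ((t * tl π P + eH π P ν / t) / 2)) ^ 2 := by
    refine h2.trans ?_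
    have e1 : qf π P w * qf π P w' ≤ (‖w‖ ^ 2 * tl π P) * (‖w‖ ^ 2 * eH π P ν) :=
      mul_le_mul h3 h4 (qf_nonneg h.hh hPr _) (by positivity)
    refine e1.trans ?_
    have e2 : (t * tl π P) * (eH π P ν / t) = tl π P * eH π P ν := by
      field_simp
    have e3 : tl π P * eH π P ν ≤ ((t * tl π P + eH π P ν / t) / 2) ^ 2 := by
      rw [← e2]
      nlinarith [sq_nonneg (t * tl π P - eH π P ν / t)]
    calc (‖w‖ ^ 2 * tl π P) * (‖w‖ ^ 2 * eH π P ν)
        = (‖w‖ ^ 2) ^ 2 * (tl π P * eH π P ν) := by ring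
      _ ≤ (‖w‖ ^ 2) ^ 2 * ((t * tl π P + eH π P ν / t) / 2) ^ 2 := by gcongr
      _ = _ := by ring
  exact abs_le_of_sq_le_sq' h5 (by positivity) |> abs_le.2

/-- **pointwise simplex bound**: `d + 1 = m`, `v_j` a fat frame of `ν^⊥` -/
theorem eH_le_simplex (hπ : IsCo π) (hP : IsPr P) (hν : ‖ν‖ = 1) {d : ℕ} {v : Fin d → Euc m}
    {s C : ℝ} (hs : 0 < s)
    (hsp : ∀ u : Euc m, ⟪ν, u⟫_ℝ = 0 → ‖u‖ = 1 →
      ∃ c : Fin d → ℝ, u = ∑ j, c j • v j ∧ ∀ j, |c j| * s ≤ C) (z₀ y : Euc m) :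
    eH π P ν ≤ (m : ℝ) * (2 * (d * (C / s) ^ 2)) *
      ∑ j, (qf π P (y - (z₀ + v j)) + qf π P (y - z₀)) := by
  obtain ⟨ι, _, _, b, i0, hb⟩ := exists_basis hν
  have hpsd := psd_qo (P := P) hπ hP
  have hS0 : 0 ≤ ∑ j, (qf π P (y - (z₀ + v j)) + qf π P (y - z₀)) :=
    Finset.sum_nonneg fun j _ => add_nonneg (qf_nonneg hπ hP _) (qf_nonneg hπ hP _)
  have key : ∀ i ∈ Finset.univ.erase i0, qf π P (b i) ≤ (2 * (d * (C / s) ^ 2)) *
      ∑ j, (qf π P (y - (z₀ + v j)) + qf π P (y - z₀)) := by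
    intro i hi
    have hne : i ≠ i0 := Finset.ne_of_mem_erase hi
    have h0 : ⟪ν, b i⟫_ℝ = 0 := by
      rw [← hb]
      exact b.orthonormal.2 hne.symm
    obtain ⟨c, hc, hcb⟩ := hsp (b i) h0 (b.norm_eq_one i)
    have h1 := hpsd.simplex Finset.univ c z₀ (fun j => z₀ + v j) y
    have h2 : ∑ j, c j • ((fun j => z₀ + v j) j - z₀) = b i := by
      rw [hc]
      exact Finset.sum_congr rfl fun j _ => by simp
    rw [h2, inner_qo_self hP] at h1
    have h3 : ∑ j, (inner ℝ (qo π P (y - (fun j => z₀ + v j) j)) (y - (fun j => z₀ + v j) j) +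
        inner ℝ (qo π P (y - z₀)) (y - z₀)) =
        ∑ j, (qf π P (y - (z₀ + v j)) + qf π P (y - z₀)) :=
      Finset.sum_congr rfl fun j _ => by rw [inner_qo_self hP, inner_qo_self hP]
    rw [h3] at h1
    have h4 : ∑ j, c j ^ 2 ≤ d * (C / s) ^ 2 := by
      have h5 : ∀ j ∈ (Finset.univ : Finset (Fin d)), c j ^ 2 ≤ (C / s) ^ 2 := by
        intro j _
        rw [← sq_abs]
        refine pow_le_pow_left₀ (abs_nonneg _) ?_ 2
        rw [le_div_iff₀ hs]
        exact hcb j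
      refine (Finset.sum_le_sum h5).trans ?_
      rw [Finset.sum_const, Finset.card_univ, Fintype.card_fin, nsmul_eq_mul]
    refine h1.trans ?_
    exact mul_le_mul_of_nonneg_right (by linarith) hS0
  rw [← hb, eH_eq_sum b i0]
  refine (Finset.sum_le_sum key).trans ?_
  rw [Finset.sum_const, nsmul_eq_mul, mul_assoc (m : ℝ)]
  refine mul_le_mul_of_nonneg_right ?_ (by positivity)
  have h7 : (Finset.univ.erase i0).card ≤ Fintype.card ι := Finset.card_le_univ _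
  have h8 : Fintype.card ι = m := by
    rw [← Module.finrank_eq_card_basis b.toBasis]; simp
  rw [h8] at h7
  exact_mod_cast h7

/-- a fat frame of `m - 1` vectors has a unit normal and spans its orthogonal complement -/
theorem exists_normal {d : ℕ} (hd : d + 1 = m) {v : Fin d → Euc m} {s C : ℝ} (hs : 0 < s)
    (hfat : ∀ (c : Fin d → ℝ) (j : Fin d), |c j| * s ≤ C * ‖∑ i, c i • v i‖) :
    ∃ ν : Euc m, ‖ν‖ = 1 ∧ ∀ u : Euc m, ⟪ν, u⟫_ℝ = 0 → ‖u‖ = 1 →
      ∃ c : Fin d → ℝ, u = ∑ j, c j • v j ∧ ∀ j, |c j| * s ≤ C := by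
  have hli : LinearIndependent ℝ v := by
    rw [Fintype.linearIndependent_iff]
    intro c hc i
    have := hfat c i
    rw [hc, norm_zero, mul_zero] at this
    by_contra h
    have : 0 < |c i| * s := mul_pos (abs_pos.2 h) hs
    linarith
  set S : Submodule ℝ (Euc m) := Submodule.span ℝ (range v) with hS
  have hfr : Module.finrank ℝ S = d := by
    have := finrank_span_eq_card hli
    simpa using this
  have hfE : Module.finrank ℝ (Euc m) = m := by simp
  have hperp : Module.finrank ℝ Sᗮ = 1 := by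
    have := Submodule.finrank_add_finrank_orthogonal S
    rw [hfr, hfE] at this
    omega
  obtain ⟨ν', hν', hνs⟩ := finrank_eq_one_iff'.1 hperp
  have hν0 : (ν' : Euc m) ≠ 0 := fun h0 => hν' (Subtype.ext h0)
  refine ⟨‖(ν' : Euc m)‖⁻¹ • (ν' : Euc m), ?_, ?_⟩
  · rw [norm_smul, norm_inv, norm_norm, inv_mul_cancel₀ (norm_ne_zero_iff.2 hν0)]
  · intro u hu hun
    have h1 : u ∈ Sᗮᗮ := by
      rw [Submodule.mem_orthogonal]
      intro w hw
      obtain ⟨c, hc⟩ := hνs ⟨w, hw⟩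
      have h2 : w = c • (ν' : Euc m) := (congrArg Subtype.val hc).symm
      rw [h2, real_inner_smul_left]
      rw [real_inner_smul_left] at hu
      have h3 : ⟪(ν' : Euc m), u⟫_ℝ = 0 := by
        rcases mul_eq_zero.1 hu with h | h
        · exact absurd (inv_eq_zero.1 h) (norm_ne_zero_iff.2 hν0)
        · exact h
      rw [h3, mul_zero]
    rw [Submodule.orthogonal_orthogonal] at h1
    obtain ⟨c, hc⟩ := (Submodule.mem_span_range_iff_exists_fun ℝ).1 h1
    refine ⟨c, hc.symm, fun j => ?_⟩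
    have := hfat c j
    rwa [hc, hun, mul_one] at this

end Crest.Agent.R234.Thin_561
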