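import Crest.Agent.R234.Thin3_561

/-!
# Row 234, node N4 THIN of the core (helper561), part 4: fat simplices of centres with small radial energy
-/

set_option autoImplicit false
set_option linter.unusedSectionVars false

open MeasureTheory Set Function Filter Topology
open Crest.GeometryTopology.Submanifold
open Crest.Agent.R234.Vf_884 Crest.Agent.R234.Ar_870 Crest.Agent.R234.Cy_870
open Crest.Agent.R234.Rig_300
open scoped ENNReal NNReal InnerProductSpace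

noncomputable section

namespace Crest.Agent.R234.Thin_561

variable {m n k : ℕ}

variable {π : Euc k →L[ℝ] Euc m} {κ : Euc k →L[ℝ] Euc n} {x z ν : Euc m} {L₀ : ℝ}
  {V : Measure (Euc k × L k)} {g g1 g2 : ℝ → ℝ}

theorem exp_six : (9 : ℝ) * Real.exp (-6) ≤ 1 / 4 := by
  have h1 : (2 : ℝ) ≤ Real.exp 1 := by linarith [Real.add_one_le_exp (1:ℝ)]
  have h2 : (2 : ℝ) ^ 6 ≤ Real.exp 1 ^ 6 := pow_le_pow_left₀ (by norm_num) h1 6
  have h3 : Real.exp 1 ^ 6 = Real.exp 6 := by rw [← Real.exp_nat_mul]; norm_num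
  rw [h3] at h2
  rw [Real.exp_neg, ← div_eq_mul_inv, div_le_iff₀ (Real.exp_pos _)]
  linarith

/-- the sharp radial energy about a centre `z` near `x` is controlled by the weighted one -/
theorem ball_le_RR (h : Fr V π κ z L₀) (hg : Prof g g1 g2) {l : ℝ} (hl : l + 3 ≤ L₀)
    {c₁ : ℝ} (hc : 0 < c₁) (hc1 : ∀ t, 0 ≤ t → t ≤ 1 / 4 → c₁ ≤ -g1 t)
    (hz : ‖z - x‖ ≤ 2 * Real.exp l) :
    IntegrableOn (fun p : Euc k × L k => qf π p.2 (π p.1 - z)) (BB π x l) V ∧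
    Real.exp (-m * l) * ∫ p in BB π x l, qf π p.2 (π p.1 - z) ∂V ≤
      Real.exp (3 * m) / (2 * c₁) * RR V π z g1 (l + 3) := by
  have hBm : MeasurableSet (BB (k := k) π x l) := (isOpen_BB π x l).measurableSet
  have i0 := integrable_k' h (continuous_qf π z).aestronglyMeasurable h.qf_bound hg.k0 hl
  have i1 : Integrable (fun p : Euc k × L k => qf π p.2 (π p.1 - z) *
      (-2 * g1 (Real.exp (-2 * (l + 3)) * ‖π p.1 - z‖ ^ 2))) V := by
    refine (i0.const_mul (-2)).congr (Eventually.of_forall fun p => ?_)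
    simp only
    ring
  have key : ∀ p : Euc k × L k, p.2 ∈ G m k → p ∈ BB π x l →
      qf π p.2 (π p.1 - z) ≤ (1 / (2 * c₁)) * (qf π p.2 (π p.1 - z) *
        (-2 * g1 (Real.exp (-2 * (l + 3)) * ‖π p.1 - z‖ ^ 2))) := by
    intro p hp hpB
    have h1 : ‖π p.1 - x‖ < Real.exp l := by
      have : Real.exp (2 * l) = Real.exp l ^ 2 := by rw [← Real.exp_nat_mul]; norm_num
      rw [mem_BB, this] at hpB
      exact lt_of_pow_lt_pow_left₀ 2 (Real.exp_pos _).le hpB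
    have h2 : ‖π p.1 - z‖ ≤ 3 * Real.exp l := by
      have e1 : π p.1 - z = (π p.1 - x) - (z - x) := by abel
      rw [e1]
      refine (norm_sub_le _ _).trans ?_
      linarith
    have h3 : Real.exp (-2 * (l + 3)) * ‖π p.1 - z‖ ^ 2 ≤ 1 / 4 := by
      have e1 : ‖π p.1 - z‖ ^ 2 ≤ (3 * Real.exp l) ^ 2 := pow_le_pow_left₀ (norm_nonneg _) h2 2
      have e2 : Real.exp (-2 * (l + 3)) * (3 * Real.exp l) ^ 2 = 9 * Real.exp (-6) := by
        rw [mul_pow, ← Real.exp_nat_mul]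
        have : Real.exp (-2 * (l + 3)) * (3 ^ 2 * Real.exp (((2:ℕ):ℝ) * l)) =
            9 * (Real.exp (-2 * (l + 3)) * Real.exp (((2:ℕ):ℝ) * l)) := by ring
        rw [this, ← Real.exp_add]
        congr 2
        push_cast
        ring
      calc Real.exp (-2 * (l + 3)) * ‖π p.1 - z‖ ^ 2
          ≤ Real.exp (-2 * (l + 3)) * (3 * Real.exp l) ^ 2 := by gcongr
        _ ≤ 1 / 4 := by rw [e2]; exact exp_six
    have h4 := hc1 _ (by positivity) h3
    have h5 := qf_nonneg h.sp.hh (isPr_of_G hp) (π p.1 - z)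
    have h6 : (1 / (2 * c₁)) * (qf π p.2 (π p.1 - z) *
        (-2 * g1 (Real.exp (-2 * (l + 3)) * ‖π p.1 - z‖ ^ 2))) =
        qf π p.2 (π p.1 - z) * (-g1 (Real.exp (-2 * (l + 3)) * ‖π p.1 - z‖ ^ 2) / c₁) := by
      field_simp
    rw [h6]
    have h7 : 1 ≤ -g1 (Real.exp (-2 * (l + 3)) * ‖π p.1 - z‖ ^ 2) / c₁ := by
      rw [le_div_iff₀ hc]; linarith
    exact le_mul_of_one_le_right h5 h7
  have hI : IntegrableOn (fun p : Euc k × L k => qf π p.2 (π p.1 - z)) (BB π x l) V := by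
    refine Integrable.mono' ((i1.const_mul (1 / (2 * c₁))).integrableOn (s := BB π x l))
      (continuous_qf π z).aestronglyMeasurable.restrict ?_
    rw [ae_restrict_iff' hBm]
    filter_upwards [h.conc] with p hp hpB
    rw [Real.norm_eq_abs, abs_of_nonneg (qf_nonneg h.sp.hh (isPr_of_G hp) _)]
    exact key p hp hpB
  refine ⟨hI, ?_⟩
  have h1 : ∫ p in BB π x l, qf π p.2 (π p.1 - z) ∂V ≤
      (1 / (2 * c₁)) * ∫ p, qf π p.2 (π p.1 - z) *
        (-2 * g1 (Real.exp (-2 * (l + 3)) * ‖π p.1 - z‖ ^ 2)) ∂V := by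
    rw [← integral_const_mul, ← integral_indicator hBm]
    refine integral_mono_ae ?_ (i1.const_mul _) ?_
    · rw [integrable_indicator_iff hBm]; exact hI
    · filter_upwards [h.conc] with p hp
      by_cases hpB : p ∈ BB π x l
      · rw [indicator_of_mem hpB]
        exact key p hp hpB
      · rw [indicator_of_notMem hpB]
        refine mul_nonneg (by positivity) (mul_nonneg (qf_nonneg h.sp.hh (isPr_of_G hp) _) ?_)
        have := hg.anti (Real.exp (-2 * (l + 3)) * ‖π p.1 - z‖ ^ 2) (by positivity)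
        linarith
  have h2 : Real.exp (-m * l) = Real.exp (3 * m) * Real.exp (-m * (l + 3)) := by
    rw [← Real.exp_add]; congr 1; ring
  calc Real.exp (-m * l) * ∫ p in BB π x l, qf π p.2 (π p.1 - z) ∂V
      ≤ Real.exp (-m * l) * ((1 / (2 * c₁)) * ∫ p, qf π p.2 (π p.1 - z) *
        (-2 * g1 (Real.exp (-2 * (l + 3)) * ‖π p.1 - z‖ ^ 2)) ∂V) := by gcongr
    _ = Real.exp (3 * m) / (2 * c₁) * RR V π z g1 (l + 3) := by
        rw [h2]; unfold RR; ring

/-- **a fat `(m-1)`-simplex of centres with small radial energy makes the tilt energy in the directions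
of its plane small** -/
theorem eHB_le (h : ∀ z L₀, Fr V π κ z L₀) (hg : Prof g g1 g2) {l : ℝ}
    {c₁ : ℝ} (hc : 0 < c₁) (hc1 : ∀ t, 0 ≤ t → t ≤ 1 / 4 → c₁ ≤ -g1 t)
    {d : ℕ} (hν : ‖ν‖ = 1) {v : Fin d → Euc m} {C : ℝ}
    (hsp : ∀ u : Euc m, ⟪ν, u⟫_ℝ = 0 → ‖u‖ = 1 →
      ∃ c : Fin d → ℝ, u = ∑ j, c j • v j ∧ ∀ j, |c j| * Real.exp l ≤ C)
    {z₀ : Euc m} (hz : ‖z₀ - x‖ ≤ Real.exp l) (hv : ∀ j, ‖v j‖ ≤ Real.exp l)
    {B : ℝ} (hR0 : RR V π z₀ g1 (l + 3) ≤ B) (hRj : ∀ j, RR V π (z₀ + v j) g1 (l + 3) ≤ B) :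
    eHB V π x ν l ≤ 2 * m * d ^ 2 * C ^ 2 * Real.exp (3 * m) / c₁ * B := by
  have hs : 0 < Real.exp l := Real.exp_pos l
  have hfr := h x l
  have hBm : MeasurableSet (BB (k := k) π x l) := (isOpen_BB π x l).measurableSet
  have hz2 : ‖z₀ - x‖ ≤ 2 * Real.exp l := by linarith
  have hzj : ∀ j, ‖z₀ + v j - x‖ ≤ 2 * Real.exp l := by
    intro j
    have e1 : z₀ + v j - x = (z₀ - x) + v j := by abel
    rw [e1]
    refine (norm_add_le _ _).trans ?_
    linarith [hv j]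
  obtain ⟨I0, J0⟩ := ball_le_RR (x := x) (l := l) (h z₀ (l + 3)) hg le_rfl hc hc1 hz2
  have IJ := fun j => ball_le_RR (x := x) (l := l) (h (z₀ + v j) (l + 3)) hg le_rfl hc hc1 (hzj j)
  have hei : IntegrableOn (fun p : Euc k × L k => eH π p.2 ν) (BB π x l) V := by
    have : IsFiniteMeasure (V.restrict (BB π x l)) :=
      ⟨by rw [Measure.restrict_apply_univ]; exact BB_lt_top hfr le_rfl⟩
    exact Integrable.mono' (integrable_const (m:ℝ))
      (continuous_eH π ν).aestronglyMeasurable.restrict (ae_restrict_of_ae (eH_bd hfr hν))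
  have hI1 : ∀ j ∈ (Finset.univ : Finset (Fin d)),
      Integrable (fun p : Euc k × L k => qf π p.2 (π p.1 - (z₀ + v j)) + qf π p.2 (π p.1 - z₀))
        (V.restrict (BB π x l)) := fun j _ => (IJ j).1.add I0
  have hI2 := integrable_finsetSum (Finset.univ : Finset (Fin d)) hI1
  set A : ℝ := (m : ℝ) * (2 * (d * (C / Real.exp l) ^ 2)) with hA
  have hA0 : 0 ≤ A := by positivity
  have h1 : ∫ p in BB π x l, eH π p.2 ν ∂V ≤ A * ∑ j : Fin d,
      ((∫ p in BB π x l, qf π p.2 (π p.1 - (z₀ + v j)) ∂V) +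
        ∫ p in BB π x l, qf π p.2 (π p.1 - z₀) ∂V) := by
    have e1 : ∑ j : Fin d, ((∫ p in BB π x l, qf π p.2 (π p.1 - (z₀ + v j)) ∂V) +
        ∫ p in BB π x l, qf π p.2 (π p.1 - z₀) ∂V) =
        ∫ p in BB π x l, ∑ j : Fin d, (qf π p.2 (π p.1 - (z₀ + v j)) +
          qf π p.2 (π p.1 - z₀)) ∂V := by
      rw [integral_finsetSum _ hI1]
      exact Finset.sum_congr rfl fun j _ => (integral_add (IJ j).1 I0).symm
    rw [e1, ← integral_const_mul]
    refine integral_mono_ae hei (hI2.const_mul A) ?_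
    refine ae_restrict_of_ae ?_
    filter_upwards [hfr.conc] with p hp
    exact eH_le_simplex hfr.sp.hh (isPr_of_G hp) hν hs hsp z₀ (π p.1)
  have h2 : Real.exp (-m * l) * ∑ j : Fin d,
      ((∫ p in BB π x l, qf π p.2 (π p.1 - (z₀ + v j)) ∂V) +
        ∫ p in BB π x l, qf π p.2 (π p.1 - z₀) ∂V) ≤
      d * (Real.exp (3 * m) / c₁ * B) := by
    rw [Finset.mul_sum]
    have e1 : ∀ j ∈ (Finset.univ : Finset (Fin d)), Real.exp (-m * l) *
        ((∫ p in BB π x l, qf π p.2 (π p.1 - (z₀ + v j)) ∂V) +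
        ∫ p in BB π x l, qf π p.2 (π p.1 - z₀) ∂V) ≤ Real.exp (3 * m) / c₁ * B := by
      intro j _
      have e2 := (IJ j).2
      have e3 : Real.exp (3 * m) / (2 * c₁) * RR V π (z₀ + v j) g1 (l + 3) ≤
          Real.exp (3 * m) / (2 * c₁) * B := by
        gcongr
        exact hRj j
      have e4 : Real.exp (3 * m) / (2 * c₁) * RR V π z₀ g1 (l + 3) ≤
          Real.exp (3 * m) / (2 * c₁) * B := by gcongr
      have e5 : Real.exp (3 * m) / c₁ * B = Real.exp (3 * m) / (2 * c₁) * B +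
          Real.exp (3 * m) / (2 * c₁) * B := by
        field_simp
        ring
      rw [mul_add, e5]
      exact add_le_add (e2.trans e3) (J0.trans e4)
    refine (Finset.sum_le_sum e1).trans ?_
    rw [Finset.sum_const, Finset.card_univ, Fintype.card_fin, nsmul_eq_mul]
  have h3 : Real.exp ((2 - m) * l) * A = 2 * m * d * C ^ 2 * Real.exp (-m * l) := by
    have e1 : Real.exp ((2 - m) * l) = Real.exp (-m * l) * Real.exp l ^ 2 := by
      rw [← Real.exp_nat_mul, ← Real.exp_add]; congr 1; push_cast; ring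
    rw [hA, e1]
    field_simp
  unfold eHB
  calc Real.exp ((2 - m) * l) * ∫ p in BB π x l, eH π p.2 ν ∂V
      ≤ Real.exp ((2 - m) * l) * (A * ∑ j : Fin d,
      ((∫ p in BB π x l, qf π p.2 (π p.1 - (z₀ + v j)) ∂V) +
        ∫ p in BB π x l, qf π p.2 (π p.1 - z₀) ∂V)) := by gcongr
    _ = (2 * m * d * C ^ 2) * (Real.exp (-m * l) * ∑ j : Fin d,
      ((∫ p in BB π x l, qf π p.2 (π p.1 - (z₀ + v j)) ∂V) +
        ∫ p in BB π x l, qf π p.2 (π p.1 - z₀) ∂V)) := by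
        rw [← mul_assoc, h3]; ring
    _ ≤ (2 * m * d * C ^ 2) * (d * (Real.exp (3 * m) / c₁ * B)) := by gcongr
    _ = _ := by ring

theorem contDiff_Xν (hg : Ker g g1) (π : Euc k →L[ℝ] Euc m) (x ν : Euc m) (l : ℝ) :
    ContDiff ℝ 1 (Xν π x ν g l) := by
  have h1 : ContDiff ℝ 1 fun p : Euc k =>
      (g (Real.exp (-2 * l) * ‖π p - x‖ ^ 2) * ⟪ν, π p - x⟫_ℝ) :=
    (contDiff_sc hg l x ν).comp π.contDiff
  have h2 : ContDiff ℝ 1 fun p : Euc k =>
      (g (Real.exp (-2 * l) * ‖π p - x‖ ^ 2) * ⟪ν, π p - x⟫_ℝ) • ν := h1.smul contDiff_const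
  exact ((ContinuousLinearMap.adjoint π).contDiff.comp h2).const_smul (1 : ℝ)

theorem Xν_zero (hg : Ker g g1) {l : ℝ} {p : Euc k} (hp : Real.exp l ≤ ‖π p - x‖) :
    Xν π x ν g l p = 0 := by
  unfold Xν
  rw [hg.zero _ (Ker.one_le_of x hp), zero_mul, zero_smul, map_zero, smul_zero]

/-- **N4 THIN** for stationary varifolds in a cylinder: `z₀, z₀ + v_j` (`m` centres near `x`) span a
hyperplane quantitatively, their radial energies at scale `l + 3` are small, the anomaly functional is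
small in the ball; then `dE/dl = 2 b + R ≥ E - small` and `b` is small. -/
theorem thin {W : Measure (Euc k × L k)} {x₀ : Euc m} {R h₀ : ℝ}
    (h : CylStat W π κ x₀ R h₀) (hg : Prof g g1 g2) (Q : ℝ) {l : ℝ}
    (hl : ‖x - x₀‖ + Real.exp l ≤ R) {K : ℝ} (hK : ∀ t, 0 ≤ t → |g t| ≤ K)
    (hK1 : ∀ t, 0 ≤ t → |g1 t| ≤ K) {c₁ : ℝ} (hc : 0 < c₁)
    (hc1 : ∀ t, 0 ≤ t → t ≤ 1 / 4 → c₁ ≤ -g1 t) {d : ℕ} (hd : d + 1 = m)
    {v : Fin d → Euc m} {C : ℝ}
    (hfat : ∀ (c : Fin d → ℝ) (j : Fin d), |c j| * Real.exp l ≤ C * ‖∑ i, c i • v i‖)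
    {z₀ : Euc m} (hz : ‖z₀ - x‖ ≤ Real.exp l) (hv : ∀ j, ‖v j‖ ≤ Real.exp l)
    {η G t ω : ℝ} (ht : 0 < t)
    (hη : 2 * m * d ^ 2 * C ^ 2 * Real.exp (3 * m) / c₁ * η ≤ t ^ 2)
    (hG : eB W π x l ≤ G)
    (hR0 : RR W π z₀ g1 (l + 3) ≤ η * G) (hRj : ∀ j, RR W π (z₀ + v j) g1 (l + 3) ≤ η * G)
    (hb : BSm W π Q x l (ω * G)) :
    EE W π x g Q l - K * (t ^ 2 + 2 * t + 2 * ω) * G ≤ 2 * bb W π x g Q l + RR W π x g1 l ∧
      |bb W π x g Q l| ≤ K * (ω * G) := by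
  obtain ⟨ν, hν, hsp⟩ := exists_normal hd (Real.exp_pos l) hfat
  have hG0 : 0 ≤ G := by
    refine le_trans ?_ hG
    unfold eB
    refine mul_nonneg (Real.exp_pos _).le (integral_nonneg_of_ae ?_)
    refine ae_restrict_of_ae ?_
    filter_upwards [h.conc] with p hp
    exact tl_nonneg h.sp.hh (isPr_of_G hp)
  have h1 := eHB_le (V := W) (κ := κ) (fun z L₀ => h.fr z L₀) hg hc hc1 hν hsp hz hv hR0 hRj
  have h2 : eHB W π x ν l ≤ t ^ 2 * G := by
    refine h1.trans ?_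
    rw [← mul_assoc]
    exact mul_le_mul_of_nonneg_right hη hG0
  have h3 := thin_core (h.fr x l) hg Q le_rfl hν hK hK1 ht hG h2 hb
  have h4 : FV W (Xν π x ν g l) = 0 :=
    h.stat _ (contDiff_Xν hg.k0 π x ν l) fun p hp =>
      Xν_zero hg.k0 (CylStat.le_of_R (x := x) hl hp)
  rw [h4, mul_zero, add_zero] at h3
  exact ⟨h3, bb_le hg Q hK hb⟩

end Crest.Agent.R234.Thin_561
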