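import Crest.Agent.R234.Thin4_561
import Crest.Agent.R234.Avg5_387

/-!
# Row 234, node N4 THIN of the core (helper561), part 5: averaged centres

`thin_all` : the inequality of N4 without smallness assumption (the radial energies of the vertices appear
on the right), hence it can be averaged over translations: `thin_av`.
-/

set_option autoImplicit false
set_option linter.unusedSectionVars false

open MeasureTheory Set Function Filter Topology Metric
open Crest.GeometryTopology.Submanifold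
open Crest.Agent.R234.Vf_884 Crest.Agent.R234.Ar_870 Crest.Agent.R234.Cy_870
open Crest.Agent.R234.Rig_300 Crest.Agent.R234.Avg_387
open scoped ENNReal NNReal InnerProductSpace

noncomputable section

namespace Crest.Agent.R234.Thin_561

variable {m n k : ℕ}

variable {π : Euc k →L[ℝ] Euc m} {κ : Euc k →L[ℝ] Euc n} {x y z ν : Euc m} {L₀ : ℝ}
  {V W : Measure (Euc k × L k)} {g g1 g2 : ℝ → ℝ} {x₀ : Euc m} {R h₀ τ : ℝ} {dw : Euc m → ℝ}

theorem norm_lt_of_BB {p : Euc k × L k} {l : ℝ} : p ∈ BB π x l ↔ ‖π p.1 - x‖ < Real.exp l := by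
  have h1 : Real.exp (2 * l) = Real.exp l ^ 2 := by rw [← Real.exp_nat_mul]; norm_num
  rw [mem_BB, h1]
  exact pow_lt_pow_iff_left₀ (norm_nonneg _) (Real.exp_pos _).le two_ne_zero

theorem tl_ae (h : CylStat W π κ x₀ R h₀) : ∀ᵐ p ∂W, 0 ≤ tl π p.2 ∧ tl π p.2 ≤ m := by
  filter_upwards [h.conc] with p hp
  exact ⟨tl_nonneg h.sp.hh (isPr_of_G hp), tl_le h.sp.hh (isPr_of_G hp)⟩

theorem integrable_tl (h : CylStat W π κ x₀ R h₀) :
    Integrable (fun p : Euc k × L k => tl π p.2) W := by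
  have : IsFiniteMeasure W := ⟨h.fin⟩
  refine Integrable.mono' (integrable_const (m:ℝ)) (aestronglyMeasurable_tl π W) ?_
  filter_upwards [tl_ae h] with p hp
  rw [Real.norm_eq_abs, abs_of_nonneg hp.1]
  exact hp.2

/-- sharp energies: change of centre and scale -/
theorem eB_mono (h : CylStat W π κ x₀ R h₀) {l l' : ℝ}
    (hy : ‖y - x‖ + Real.exp l ≤ Real.exp l') :
    eB W π y l ≤ Real.exp ((m - 2) * (l' - l)) * eB W π x l' := by
  have h1 : ∫ p in BB π y l, tl π p.2 ∂W ≤ ∫ p in BB π x l', tl π p.2 ∂W := by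
    refine setIntegral_mono_set (integrable_tl h).integrableOn ?_ ?_
    · exact ae_restrict_of_ae (by filter_upwards [tl_ae h] with p hp using hp.1)
    · refine LE.le.eventuallyLE ?_
      intro p hp
      rw [norm_lt_of_BB] at hp ⊢
      have e1 : π p.1 - x = (π p.1 - y) + (y - x) := by abel
      rw [e1]
      refine (norm_add_le _ _).trans_lt ?_
      linarith
  have h2 : Real.exp ((2 - m) * l) =
      Real.exp ((m - 2) * (l' - l)) * Real.exp ((2 - m) * l') := by
    rw [← Real.exp_add]; congr 1; ring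
  unfold eB
  rw [h2, mul_assoc]
  gcongr

/-- sharp against weighted energies -/
theorem eB_le_ee (h : CylStat W π κ x₀ R h₀) (hg : Prof g g1 g2) {c j : ℝ} (hc : 0 < c)
    (hcr : ∀ t, 0 ≤ t → t ≤ Real.exp (-2 * j) → c ≤ g t) (x : Euc m) (l : ℝ) :
    eB W π x l ≤ c⁻¹ * Real.exp ((m - 2) * j) * ee W π x g (l + j) := by
  have hBm : MeasurableSet (BB (k := k) π x l) := (isOpen_BB π x l).measurableSet
  have i1 : Integrable (fun p : Euc k × L k => tl π p.2 *
      g (Real.exp (-2 * (l + j)) * ‖π p.1 - x‖ ^ 2)) W :=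
    (h.fr x (l + j)).integrable_c (aestronglyMeasurable_tl π W) (h.fr x (l + j)).tl_bound hg.k0
      le_rfl
  have h1 : ∫ p in BB π x l, tl π p.2 ∂W ≤
      c⁻¹ * ∫ p, tl π p.2 * g (Real.exp (-2 * (l + j)) * ‖π p.1 - x‖ ^ 2) ∂W := by
    rw [← integral_const_mul, ← integral_indicator hBm]
    refine integral_mono_ae ?_ (i1.const_mul _) ?_
    · rw [integrable_indicator_iff hBm]
      exact (integrable_tl h).integrableOn
    · filter_upwards [tl_ae h] with p hp
      by_cases hpB : p ∈ BB π x l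
      · rw [indicator_of_mem hpB]
        have e1 : Real.exp (-2 * (l + j)) * ‖π p.1 - x‖ ^ 2 ≤ Real.exp (-2 * j) := by
          have e2 := (mem_BB.1 hpB).le
          calc Real.exp (-2 * (l + j)) * ‖π p.1 - x‖ ^ 2
              ≤ Real.exp (-2 * (l + j)) * Real.exp (2 * l) := by gcongr
            _ = Real.exp (-2 * j) := by rw [← Real.exp_add]; congr 1; ring
        have e2 := hcr _ (by positivity) e1
        have e3 : tl π p.2 * 1 ≤
            tl π p.2 * (c⁻¹ * g (Real.exp (-2 * (l + j)) * ‖π p.1 - x‖ ^ 2)) := by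
          refine mul_le_mul_of_nonneg_left ?_ hp.1
          rw [inv_mul_eq_div, le_div_iff₀ hc, one_mul]
          exact e2
        calc tl π p.2 = tl π p.2 * 1 := (mul_one _).symm
          _ ≤ _ := e3
          _ = _ := by ring
      · rw [indicator_of_notMem hpB]
        refine mul_nonneg (inv_nonneg.2 hc.le) (mul_nonneg hp.1 ?_)
        exact Prof.nonneg hg _ (by positivity)
  have h2 : Real.exp ((2 - m) * l) =
      Real.exp ((m - 2) * j) * Real.exp ((2 - m) * (l + j)) := by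
    rw [← Real.exp_add]; congr 1; ring
  unfold eB ee
  calc Real.exp ((2 - m) * l) * ∫ p in BB π x l, tl π p.2 ∂W
      ≤ Real.exp ((2 - m) * l) *
        (c⁻¹ * ∫ p, tl π p.2 * g (Real.exp (-2 * (l + j)) * ‖π p.1 - x‖ ^ 2) ∂W) := by gcongr
    _ = _ := by rw [h2]; ring

theorem BSm.mono {Q B : ℝ} {l l' : ℝ} (hb : BSm V π Q x l' B)
    (hy : ‖y - x‖ + Real.exp l ≤ Real.exp l') :
    BSm V π Q y l (Real.exp ((m - 2) * (l' - l)) * B) := by
  intro ψ hc h0 h1 hz
  have h2 := hb ψ hc h0 h1 fun v hv => hz v (by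
    have e1 : v - x = (v - y) + (y - x) := by abel
    rw [e1] at hv
    have := norm_add_le (v - y) (y - x)
    linarith)
  have h3 : Real.exp ((2 - m) * l) =
      Real.exp ((m - 2) * (l' - l)) * Real.exp ((2 - m) * l') := by
    rw [← Real.exp_add]; congr 1; ring
  rw [h3, mul_assoc, abs_mul, abs_of_pos (Real.exp_pos _)]
  gcongr

theorem ee_le_eB (h : CylStat W π κ x₀ R h₀) (hg : Ker g g1) {K : ℝ}
    (hK : ∀ t, 0 ≤ t → |g t| ≤ K) (x : Euc m) (l : ℝ) : ee W π x g l ≤ K * eB W π x l := by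
  have h1 := ker_le (h.fr x l) le_rfl (c := fun p => tl π p.2) (F := fun p => tl π p.2)
    (aestronglyMeasurable_tl π W) (CF := m)
    (by filter_upwards [tl_ae h] with p hp _; rw [abs_of_nonneg hp.1]; exact hp.2)
    hg.zero hK (by filter_upwards [tl_ae h] with p hp _; rw [abs_of_nonneg hp.1])
  unfold ee eB
  calc _ ≤ Real.exp ((2 - m) * l) * (K * ∫ p in BB π x l, tl π p.2 ∂W) := by
        gcongr; exact (le_abs_self _).trans h1
    _ = _ := by ring

/-- **N4 without smallness of the radial energies** -/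
theorem thin_all (h : CylStat W π κ x₀ R h₀) (hg : Prof g g1 g2) (Q : ℝ) {l : ℝ}
    (hl : ‖x - x₀‖ + Real.exp l ≤ R) {K : ℝ} (hK : ∀ t, 0 ≤ t → |g t| ≤ K)
    (hK1 : ∀ t, 0 ≤ t → |g1 t| ≤ K) {c₁ : ℝ} (hc : 0 < c₁)
    (hc1 : ∀ t, 0 ≤ t → t ≤ 1 / 4 → c₁ ≤ -g1 t) {N : ℕ} (hd : N + 1 = m)
    {v : Fin N → Euc m} {C : ℝ}
    (hfat : ∀ (c : Fin N → ℝ) (j : Fin N), |c j| * Real.exp l ≤ C * ‖∑ i, c i • v i‖)
    {z₀ : Euc m} (hz : ‖z₀ - x‖ ≤ Real.exp l) (hv : ∀ j, ‖v j‖ ≤ Real.exp l)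
    {η G t ω : ℝ} (ht : 0 < t) (hη0 : 0 < η)
    (hη : 2 * m * N ^ 2 * C ^ 2 * Real.exp (3 * m) / c₁ * η ≤ t ^ 2)
    (hω : 0 ≤ ω) (hG : eB W π x l ≤ G) (hb : BSm W π Q x l (ω * G)) :
    EE W π x g Q l ≤ RR W π x g1 l + K * (t ^ 2 + 2 * t + 4 * ω) * G +
      K * (ω + 1) / η * (RR W π z₀ g1 (l + 3) + ∑ j, RR W π (z₀ + v j) g1 (l + 3)) := by
  have hK0 : 0 ≤ K := (abs_nonneg _).trans (hK 0 le_rfl)
  have hR : ∀ y l, 0 ≤ RR W π y g1 l := fun y l => h.RR_nonneg hg l
  have hG0 : 0 ≤ G := by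
    refine le_trans ?_ hG
    unfold eB
    refine mul_nonneg (Real.exp_pos _).le (integral_nonneg_of_ae ?_)
    exact ae_restrict_of_ae (by filter_upwards [tl_ae h] with p hp using hp.1)
  have hS0 : 0 ≤ ∑ j, RR W π (z₀ + v j) g1 (l + 3) := Finset.sum_nonneg fun j _ => hR _ _
  have hc0 : 0 ≤ K * (ω + 1) / η := by positivity
  have hP : 0 ≤ K * (ω + 1) / η *
      (RR W π z₀ g1 (l + 3) + ∑ j, RR W π (z₀ + v j) g1 (l + 3)) :=
    mul_nonneg hc0 (add_nonneg (hR _ _) hS0)
  by_cases hsm : RR W π z₀ g1 (l + 3) ≤ η * G ∧ ∀ j, RR W π (z₀ + v j) g1 (l + 3) ≤ η * G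
  · obtain ⟨h1, h2⟩ := thin h hg Q hl hK hK1 hc hc1 hd hfat hz hv ht hη hG hsm.1 hsm.2 hb
    have h3 := (abs_le.1 h2).2
    linarith
  · have hbig : η * G ≤ RR W π z₀ g1 (l + 3) + ∑ j, RR W π (z₀ + v j) g1 (l + 3) := by
      by_cases h1 : RR W π z₀ g1 (l + 3) ≤ η * G
      · have h2 : ∃ j, η * G < RR W π (z₀ + v j) g1 (l + 3) := by
          by_contra hcon
          push Not at hcon
          exact hsm ⟨h1, hcon⟩
        obtain ⟨j, hj⟩ := h2
        have h3 := Finset.single_le_sum (f := fun j => RR W π (z₀ + v j) g1 (l + 3))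
          (fun i _ => hR _ _) (Finset.mem_univ j)
        linarith [hR z₀ (l + 3)]
      · push Not at h1
        linarith
    have h2 := (abs_le.1 (bb_le (g := g) hg Q hK hb)).2
    have h3 := ee_le_eB h hg.k0 hK x l
    have h4 : EE W π x g Q l ≤ K * (ω + 1) * G := by
      have e1 : EE W π x g Q l = bb W π x g Q l + ee W π x g l / 2 := by unfold bb; ring
      have e2 : ee W π x g l ≤ K * G := h3.trans (by gcongr)
      have e3 : 0 ≤ K * G := by positivity
      rw [e1]
      linarith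
    have h5 : K * (ω + 1) * G ≤ K * (ω + 1) / η *
        (RR W π z₀ g1 (l + 3) + ∑ j, RR W π (z₀ + v j) g1 (l + 3)) := by
      have e1 : K * (ω + 1) * G = K * (ω + 1) / η * (η * G) := by field_simp
      rw [e1]
      gcongr
    have h6 : 0 ≤ K * (t ^ 2 + 2 * t + 4 * ω) * G := by positivity
    linarith [hR x l]

/-- **N4 for averaged centres** -/
theorem thin_av (h : CylStat W π κ x₀ R h₀) (hw : CW dw τ) (hg : Prof g g1 g2) (Q : ℝ) {l : ℝ}
    (hl : ‖x - x₀‖ + τ + Real.exp l ≤ R) (hτl : τ ≤ Real.exp l) {K : ℝ}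
    (hK : ∀ t, 0 ≤ t → |g t| ≤ K)
    (hK1 : ∀ t, 0 ≤ t → |g1 t| ≤ K) {c₁ : ℝ} (hc : 0 < c₁)
    (hc1 : ∀ t, 0 ≤ t → t ≤ 1 / 4 → c₁ ≤ -g1 t) {N : ℕ} (hd : N + 1 = m)
    {v : Fin N → Euc m} {C : ℝ}
    (hfat : ∀ (c : Fin N → ℝ) (j : Fin N), |c j| * Real.exp l ≤ C * ‖∑ i, c i • v i‖)
    {z₀ : Euc m} (hz : ‖z₀ - x‖ ≤ Real.exp l) (hv : ∀ j, ‖v j‖ ≤ Real.exp l)
    {η G t ω : ℝ} (ht : 0 < t) (hη0 : 0 < η)
    (hη : 2 * m * N ^ 2 * C ^ 2 * Real.exp (3 * m) / c₁ * η ≤ t ^ 2)
    (hω : 0 ≤ ω) (hG : Real.exp (m - 2) * eB W π x (l + 1) ≤ G)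
    (hb : BSm W π Q x (l + 1) (Real.exp (-(m - 2)) * (ω * G))) :
    EEa dw W π g Q x l ≤ RRa dw W π g1 x l +
      K * (t ^ 2 + 2 * t + 4 * ω) * ((∫ h, dw h) * G) +
      K * (ω + 1) / η * (RRa dw W π g1 z₀ (l + 3) + ∑ j, RRa dw W π g1 (z₀ + v j) (l + 3)) := by
  have he : (2 : ℝ) ≤ Real.exp 1 := by linarith [Real.add_one_le_exp (1:ℝ)]
  have hexp : τ + Real.exp l ≤ Real.exp (l + 1) := by
    rw [Real.exp_add]
    nlinarith [Real.exp_pos l]
  have cE := cont2_EE h hg.k0 Q
  have cR := cont2_RR h hg.k1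
  have iE : Integrable fun y : Euc m => dw y * EE W π (x - y) g Q l :=
    (CO_of_cont cE x τ (l + 1)).integrable hw (by linarith : l < l + 1)
  have iR : ∀ (z : Euc m) (l : ℝ), Integrable fun y : Euc m => dw y * RR W π (z - y) g1 l :=
    fun z l => (CO_of_cont cR z τ (l + 1)).integrable hw (by linarith : l < l + 1)
  have iG : Integrable fun y : Euc m => dw y * G :=
    hw.integrable (f := fun _ => G) continuousOn_const
  have iS : Integrable fun y : Euc m => ∑ j, dw y * RR W π (z₀ + v j - y) g1 (l + 3) :=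
    integrable_finsetSum _ fun j _ => iR _ _
  have key : ∀ y : Euc m, dw y * EE W π (x - y) g Q l ≤
      dw y * RR W π (x - y) g1 l + K * (t ^ 2 + 2 * t + 4 * ω) * (dw y * G) +
        K * (ω + 1) / η * (dw y * RR W π (z₀ - y) g1 (l + 3) +
          ∑ j, dw y * RR W π (z₀ + v j - y) g1 (l + 3)) := by
    intro y
    by_cases hy : y ∈ closedBall (0 : Euc m) τ
    · have hy1 : ‖y‖ ≤ τ := by simpa using hy
      have e0 : ‖x - y - x‖ ≤ τ := by
        have : x - y - x = -y := by abel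
        rw [this, norm_neg]; exact hy1
      have e1 : ‖x - y - x₀‖ + Real.exp l ≤ R := by
        have : x - y - x₀ = (x - x₀) - y := by abel
        rw [this]
        have := norm_sub_le (x - x₀) y
        linarith
      have e2 : ‖z₀ - y - (x - y)‖ ≤ Real.exp l := by
        have : z₀ - y - (x - y) = z₀ - x := by abel
        rw [this]; exact hz
      have e3 : eB W π (x - y) l ≤ G := by
        refine (eB_mono h (x := x) (l' := l + 1) (by linarith)).trans ?_
        have : ((m:ℝ) - 2) * (l + 1 - l) = m - 2 := by ring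
        rw [this]
        exact hG
      have e4 : BSm W π Q (x - y) l (ω * G) := by
        have h1 := BSm.mono (y := x - y) (l := l) hb (by linarith)
        have h2 : Real.exp ((m - 2) * (l + 1 - l)) * (Real.exp (-(m - 2)) * (ω * G)) = ω * G := by
          rw [← mul_assoc, ← Real.exp_add]
          have : ((m:ℝ) - 2) * (l + 1 - l) + -(m - 2) = 0 := by ring
          rw [this, Real.exp_zero, one_mul]
        rw [h2] at h1
        exact h1
      have h1 := thin_all h hg Q e1 hK hK1 hc hc1 hd hfat e2 hv ht hη0 hη hω e3 e4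
      have h2 := mul_le_mul_of_nonneg_left h1 (hw.nonneg y)
      refine h2.trans (le_of_eq ?_)
      have e5 : ∀ j, z₀ - y + v j = z₀ + v j - y := fun j => by abel
      simp only [e5]
      rw [← Finset.mul_sum]
      ring
    · simp only [hw.zero' hy, zero_mul, mul_zero, Finset.sum_const_zero, add_zero]
      exact le_rfl
  have iQ : Integrable fun y : Euc m => dw y * RR W π (z₀ - y) g1 (l + 3) +
      ∑ j, dw y * RR W π (z₀ + v j - y) g1 (l + 3) := (iR z₀ (l + 3)).add iS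
  have iP : Integrable fun y : Euc m => dw y * RR W π (x - y) g1 l +
      K * (t ^ 2 + 2 * t + 4 * ω) * (dw y * G) := (iR x l).add (iG.const_mul _)
  have iT : Integrable fun y : Euc m => dw y * RR W π (x - y) g1 l +
      K * (t ^ 2 + 2 * t + 4 * ω) * (dw y * G) +
        K * (ω + 1) / η * (dw y * RR W π (z₀ - y) g1 (l + 3) +
          ∑ j, dw y * RR W π (z₀ + v j - y) g1 (l + 3)) := iP.add (iQ.const_mul _)
  have h1 := integral_mono iE iT key
  refine h1.trans (le_of_eq ?_)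
  have q1 := integral_add iP (iQ.const_mul (K * (ω + 1) / η))
  have q2 := integral_add (iR x l) (iG.const_mul (K * (t ^ 2 + 2 * t + 4 * ω)))
  have q3 := integral_add (iR z₀ (l + 3)) iS
  have q4 := integral_finsetSum (μ := (volume : Measure (Euc m))) Finset.univ
    (f := fun j y => dw y * RR W π (z₀ + v j - y) g1 (l + 3)) (fun j _ => iR _ _)
  rw [q1, q2, integral_const_mul, integral_const_mul, q3, q4, integral_mul_const]
  rfl

end Crest.Agent.R234.Thin_561
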