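import Crest.Agent.R234.Thin6_561
import Crest.Agent.R234.Asl2_214

/-!
# Row 234, node N4 THIN of the core (helper561), part 7: almost stationary varifolds

The first variation of `χ ⟨ν, x' - x⟩ ν` for `CylAS` (helper214) and N4 for ordinary and averaged centres.
The error is `2 δ s^{2-m} ∫ (tl + |κ|²) (g - 2 t g') dW`, `t = s^{-2} |π p - x|²`.
-/

set_option autoImplicit false
set_option linter.unusedSectionVars false

open MeasureTheory Set Function Filter Topology Metric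
open Crest.GeometryTopology.Submanifold
open Crest.Agent.R234.Vf_884 Crest.Agent.R234.Ar_870 Crest.Agent.R234.Cy_870
open Crest.Agent.R234.Rig_300 Crest.Agent.R234.Avg_387 Crest.Agent.R234.Asl_214
open scoped ENNReal NNReal InnerProductSpace

noncomputable section

namespace Crest.Agent.R234.Thin_561

variable {m n k : ℕ}

variable {π : Euc k →L[ℝ] Euc m} {κ : Euc k →L[ℝ] Euc n} {x y z ν : Euc m} {L₀ : ℝ}
  {V W : Measure (Euc k × L k)} {g g1 g2 : ℝ → ℝ} {x₀ : Euc m} {R h₀ τ δ : ℝ} {dw : Euc m → ℝ}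

theorem _root_.Crest.Agent.R234.Asl_214.CylAS.gen (h : CylAS W π κ x₀ R h₀ δ) : Gen W π κ :=
  ⟨h.sp, h.conc, h.fin⟩

/-- the weight `g - 2 t g'`, `t = e^{-2l} |v - x|²` -/
def wE (g g1 : ℝ → ℝ) (x : Euc m) (l : ℝ) (v : Euc m) : ℝ :=
  g (Real.exp (-2 * l) * ‖v - x‖ ^ 2) -
    2 * (Real.exp (-2 * l) * ‖v - x‖ ^ 2) * g1 (Real.exp (-2 * l) * ‖v - x‖ ^ 2)

/-- the error of N4 in the class `AS δ` (to be multiplied by `2 δ`) -/
def rE (W : Measure (Euc k × L k)) (π : Euc k →L[ℝ] Euc m) (κ : Euc k →L[ℝ] Euc n) (g g1 : ℝ → ℝ)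
    (l : ℝ) (x : Euc m) : ℝ :=
  Real.exp ((2 - m) * l) * ∫ p, (tl π p.2 + ‖κ p.1‖ ^ 2) * wE g g1 x l (π p.1) ∂W

theorem wE_nonneg (hg : Prof g g1 g2) (x : Euc m) (l : ℝ) (v : Euc m) : 0 ≤ wE g g1 x l v := by
  unfold wE
  have ht : 0 ≤ Real.exp (-2 * l) * ‖v - x‖ ^ 2 := by positivity
  have h1 := Prof.nonneg hg _ ht
  have h2 := mul_nonneg ht (neg_nonneg.2 (hg.anti _ ht))
  nlinarith

theorem wE_zero (hg : Prof g g1 g2) {l : ℝ} {v : Euc m} (hv : Real.exp l ≤ ‖v - x‖) :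
    wE g g1 x l v = 0 := by
  unfold wE
  rw [hg.k0.zero _ (Ker.one_le_of x hv), hg.k0.zero' _ (Ker.one_le_of x hv)]
  ring

theorem continuous_wE' (hg : Prof g g1 g2) (x : Euc m) (l : ℝ) :
    Continuous (wE g g1 x l) := by
  have c0 : Continuous fun v : Euc m => Real.exp (-2 * l) * ‖v - x‖ ^ 2 :=
    continuous_const.mul ((continuous_id.sub continuous_const).norm.pow 2)
  exact (hg.k0.continuous.comp c0).sub (((continuous_const.mul c0)).mul (hg.k0.cont.comp c0))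

theorem continuous_wE_c (hg : Prof g g1 g2) (l : ℝ) (v : Euc m) :
    Continuous fun x : Euc m => wE g g1 x l v := by
  have c0 : Continuous fun x : Euc m => Real.exp (-2 * l) * ‖v - x‖ ^ 2 :=
    continuous_const.mul ((continuous_const.sub continuous_id).norm.pow 2)
  exact (hg.k0.continuous.comp c0).sub (((continuous_const.mul c0)).mul (hg.k0.cont.comp c0))

theorem continuous_ξ (hg : Ker g g1) (l : ℝ) (x ν : Euc m) : Continuous fun v : Euc m =>
    (g (Real.exp (-2 * l) * ‖v - x‖ ^ 2) * ⟪ν, v - x⟫_ℝ) • ν := by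
  have c1 : Continuous fun v : Euc m => v - x := continuous_id.sub continuous_const
  have c0 : Continuous fun v : Euc m => Real.exp (-2 * l) * ‖v - x‖ ^ 2 :=
    continuous_const.mul (c1.norm.pow 2)
  exact ((hg.continuous.comp c0).mul (continuous_const.inner c1)).smul continuous_const

/-- the gradient of `g ⟨ν, v - x⟩` -/
def ζv (g g1 : ℝ → ℝ) (l : ℝ) (x ν v : Euc m) : Euc m :=
  g (Real.exp (-2 * l) * ‖v - x‖ ^ 2) • ν +
    (⟪ν, v - x⟫_ℝ * (2 * Real.exp (-2 * l) * g1 (Real.exp (-2 * l) * ‖v - x‖ ^ 2))) • (v - x)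

/-- the derivative of `(g ⟨ν, v - x⟩) ν` -/
def dξ (g g1 : ℝ → ℝ) (l : ℝ) (x ν v : Euc m) : L m :=
  (innerSL ℝ (ζv g g1 l x ν v)).smulRight ν

theorem hasFDerivAt_ξ (hg : Ker g g1) (l : ℝ) (x ν v : Euc m) :
    HasFDerivAt (fun v : Euc m => (g (Real.exp (-2 * l) * ‖v - x‖ ^ 2) * ⟪ν, v - x⟫_ℝ) • ν)
      (dξ g g1 l x ν v) v := by
  have h1 := (hasFDerivAt_sc hg.der l x ν v).smul_const ν
  refine h1.congr_fderiv ?_
  unfold dξ ζv
  congr 1
  rw [map_add, map_smul, map_smul, map_smul, smul_smul]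

theorem continuous_ζv (hg : Ker g g1) (l : ℝ) (x ν : Euc m) : Continuous (ζv g g1 l x ν) := by
  have c0 : Continuous fun v : Euc m => v - x := continuous_id.sub continuous_const
  have c1 : Continuous fun v : Euc m => Real.exp (-2 * l) * ‖v - x‖ ^ 2 :=
    continuous_const.mul (c0.norm.pow 2)
  have c2 : Continuous fun v : Euc m => g (Real.exp (-2 * l) * ‖v - x‖ ^ 2) :=
    hg.continuous.comp c1
  have c3 : Continuous fun v : Euc m => g1 (Real.exp (-2 * l) * ‖v - x‖ ^ 2) := hg.cont.comp c1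
  exact (c2.smul continuous_const).add
    (((continuous_const.inner c0).mul (continuous_const.mul c3)).smul c0)

theorem continuous_dξ (hg : Ker g g1) (l : ℝ) (x ν : Euc m) : Continuous (dξ g g1 l x ν) := by
  have c4 : Continuous fun v : Euc m => innerSL ℝ (ζv g g1 l x ν v) :=
    (innerSL ℝ).continuous.comp (continuous_ζv hg l x ν)
  have c5 : Continuous fun v : Euc m => (ContinuousLinearMap.smulRightL ℝ (Euc m) (Euc m)
      (innerSL ℝ (ζv g g1 l x ν v))) ν :=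
    ((ContinuousLinearMap.smulRightL ℝ (Euc m) (Euc m)).continuous.comp c4).clm_apply
      continuous_const
  exact c5

theorem norm_dξ_le (hg : Prof g g1 g2) (l : ℝ) (x v : Euc m) (hν : ‖ν‖ = 1) :
    ‖dξ g g1 l x ν v‖ ≤ wE g g1 x l v := by
  have ht : 0 ≤ Real.exp (-2 * l) * ‖v - x‖ ^ 2 := by positivity
  have h1 := Prof.nonneg hg _ ht
  have h2 := hg.anti _ ht
  unfold dξ wE ζv
  rw [ContinuousLinearMap.norm_smulRight_apply, hν, mul_one, innerSL_apply_norm]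
  refine (norm_add_le _ _).trans ?_
  rw [norm_smul, norm_smul, hν, mul_one,
    Real.norm_eq_abs, Real.norm_eq_abs, abs_of_nonneg h1, abs_mul, abs_mul,
    abs_of_nonpos h2, abs_of_nonneg (by positivity : (0:ℝ) ≤ 2 * Real.exp (-2 * l))]
  have h3 : |⟪ν, v - x⟫_ℝ| ≤ ‖v - x‖ := by
    refine (abs_real_inner_le_norm _ _).trans ?_
    rw [hν, one_mul]
  have h4 : 0 ≤ 2 * Real.exp (-2 * l) * -g1 (Real.exp (-2 * l) * ‖v - x‖ ^ 2) * ‖v - x‖ := by
    have := neg_nonneg.2 h2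
    positivity
  have h5 := mul_le_mul_of_nonneg_right h3 h4
  nlinarith

theorem norm_ξ_le (hg : Prof g g1 g2) {l : ℝ} (hl0 : l ≤ 0) (x v : Euc m) (hν : ‖ν‖ = 1) :
    ‖(g (Real.exp (-2 * l) * ‖v - x‖ ^ 2) * ⟪ν, v - x⟫_ℝ) • ν‖ ≤ wE g g1 x l v := by
  have ht : 0 ≤ Real.exp (-2 * l) * ‖v - x‖ ^ 2 := by positivity
  have h1 := Prof.nonneg hg _ ht
  have h2 := mul_nonneg ht (neg_nonneg.2 (hg.anti _ ht))
  rw [norm_smul, hν, mul_one, Real.norm_eq_abs]
  rcases le_or_gt (Real.exp l) ‖v - x‖ with h3 | h3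
  · rw [hg.k0.zero _ (Ker.one_le_of x h3), zero_mul, abs_zero]
    exact wE_nonneg hg x l v
  · have h4 : |⟪ν, v - x⟫_ℝ| ≤ 1 := by
      refine (abs_real_inner_le_norm _ _).trans ?_
      rw [hν, one_mul]
      exact h3.le.trans (Real.exp_le_one_iff.2 hl0)
    rw [abs_mul, abs_of_nonneg h1]
    unfold wE
    have h5 := mul_le_mul_of_nonneg_left h4 h1
    nlinarith

theorem int_le_aux (h : CylAS W π κ x₀ R h₀ δ) (h0 : 0 ≤ δ) {D B w : Euc m → ℝ}
    (hD : Continuous D) (hB : Continuous B) (hw : Continuous w) (h1 : ∀ v, D v + B v ≤ w v + w v) :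
    ∫ p, (δ * (tl π p.2 + ‖κ p.1‖ ^ 2) * (|(1:ℝ)| * (D (π p.1) + B (π p.1))) +
        δ * (√(tl π p.2) + ‖κ p.1‖) * (‖(0 : Euc n →L[ℝ] ℝ)‖ * B (π p.1))) ∂W ≤
      2 * δ * ∫ p, (tl π p.2 + ‖κ p.1‖ ^ 2) * w (π p.1) ∂W := by
  have c1 := Asl_214.CylAS.continuous_tl (k := k) π
  have c2 : Continuous fun p : Euc k × L k => ‖κ p.1‖ :=
    (κ.continuous.comp continuous_fst).norm
  have c3 : Continuous fun p : Euc k × L k => π p.1 := π.continuous.comp continuous_fst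
  have c4 : Continuous fun p : Euc k × L k => D (π p.1) := hD.comp c3
  have c5 : Continuous fun p : Euc k × L k => B (π p.1) := hB.comp c3
  have c7 : Continuous fun p : Euc k × L k => w (π p.1) := hw.comp c3
  have c8 : Continuous fun p : Euc k × L k => tl π p.2 + ‖κ p.1‖ ^ 2 := c1.add (c2.pow 2)
  have c9 : Continuous fun p : Euc k × L k => (tl π p.2 + ‖κ p.1‖ ^ 2) * w (π p.1) := c8.mul c7
  rw [← integral_const_mul]
  refine integral_mono_ae (h.integrable_continuous ?_) (h.integrable_continuous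
    (continuous_const.mul c9)) ?_
  · have d1 : Continuous fun p : Euc k × L k =>
        δ * (tl π p.2 + ‖κ p.1‖ ^ 2) * (|(1:ℝ)| * (D (π p.1) + B (π p.1))) :=
      (continuous_const.mul c8).mul (continuous_const.mul (c4.add c5))
    have d2 : Continuous fun p : Euc k × L k =>
        δ * (√(tl π p.2) + ‖κ p.1‖) * (‖(0 : Euc n →L[ℝ] ℝ)‖ * B (π p.1)) :=
      (continuous_const.mul (c1.sqrt.add c2)).mul (continuous_const.mul c5)
    exact d1.add d2
  · filter_upwards [h.conc] with p hp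
    have ht := tl_nonneg h.sp.hh (isPr_of_G hp)
    have e3 : 0 ≤ δ * (tl π p.2 + ‖κ p.1‖ ^ 2) := by positivity
    have e4 := mul_le_mul_of_nonneg_left (h1 (π p.1)) e3
    rw [norm_zero, zero_mul, mul_zero, add_zero, abs_one, one_mul]
    refine e4.trans (le_of_eq ?_)
    ring

/-- **the first variation of the field of N4 in the class `AS δ`** -/
theorem FVν_le (h : CylAS W π κ x₀ R h₀ δ) (h0 : 0 ≤ δ) (hg : Prof g g1 g2) (hν : ‖ν‖ = 1)
    {l : ℝ} (hl : ‖x - x₀‖ + Real.exp l ≤ R) (hl0 : l ≤ 0) :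
    Real.exp ((2 - m) * l) * |FV W (Xν π x ν g l)| ≤ 2 * δ * rE W π κ g g1 l x := by
  have hz : ∀ v, R ≤ ‖v - x₀‖ →
      (g (Real.exp (-2 * l) * ‖v - x‖ ^ 2) * ⟪ν, v - x⟫_ℝ) • ν = 0 := by
    intro v hv
    have h1 : ‖v - x₀‖ ≤ ‖v - x‖ + ‖x - x₀‖ := norm_sub_le_norm_sub_add_norm_sub v x x₀
    rw [hg.k0.zero _ (Ker.one_le_of x (by linarith)), zero_mul, zero_smul]
  have h1 := h.fv_hor h0 (f := fun _ => (1:ℝ)) (df := fun _ => 0)
    (fun y => hasFDerivAt_const _ _) continuous_const (hasFDerivAt_ξ hg.k0 l x ν)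
    (continuous_dξ hg.k0 l x ν) hz
  have e0 : Xν π x ν g l = fun p => (1:ℝ) • ContinuousLinearMap.adjoint π
    ((g (Real.exp (-2 * l) * ‖π p - x‖ ^ 2) * ⟪ν, π p - x⟫_ℝ) • ν) := rfl
  rw [← e0] at h1
  have h2 := int_le_aux h h0 (continuous_dξ hg.k0 l x ν).norm (continuous_ξ hg.k0 l x ν).norm
    (continuous_wE' hg x l) fun v => add_le_add (norm_dξ_le hg l x v hν) (norm_ξ_le hg hl0 x v hν)
  have h4 := h1.trans h2
  have h5 := mul_le_mul_of_nonneg_left h4 (Real.exp_pos ((2 - m) * l)).le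
  refine h5.trans (le_of_eq ?_)
  unfold rE
  ring

theorem rE_nonneg (h : CylAS W π κ x₀ R h₀ δ) (hg : Prof g g1 g2) (l : ℝ) (x : Euc m) :
    0 ≤ rE W π κ g g1 l x := by
  unfold rE
  refine mul_nonneg (Real.exp_pos _).le (integral_nonneg_of_ae ?_)
  filter_upwards [h.conc] with p hp
  exact mul_nonneg (add_nonneg (tl_nonneg h.sp.hh (isPr_of_G hp)) (sq_nonneg _))
    (wE_nonneg hg x l _)

theorem wE_le {K : ℝ} (hg : Prof g g1 g2) (hK : ∀ t, 0 ≤ t → |g t| ≤ K)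
    (hK1 : ∀ t, 0 ≤ t → |g1 t| ≤ K) (x : Euc m) (l : ℝ) (v : Euc m) : wE g g1 x l v ≤ 3 * K := by
  have hK0 : 0 ≤ K := (abs_nonneg _).trans (hK 0 le_rfl)
  rcases le_or_gt (Real.exp l) ‖v - x‖ with h1 | h1
  · rw [wE_zero hg h1]; positivity
  · have h2 : Real.exp (-2 * l) * ‖v - x‖ ^ 2 ≤ 1 := by
      have e1 : ‖v - x‖ ^ 2 ≤ Real.exp l ^ 2 := pow_le_pow_left₀ (norm_nonneg _) h1.le 2
      have e2 : Real.exp (-2 * l) * Real.exp l ^ 2 = 1 := by
        rw [← Real.exp_nat_mul, ← Real.exp_add]; norm_num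
      calc Real.exp (-2 * l) * ‖v - x‖ ^ 2 ≤ Real.exp (-2 * l) * Real.exp l ^ 2 := by gcongr
        _ = 1 := e2
    have ht : 0 ≤ Real.exp (-2 * l) * ‖v - x‖ ^ 2 := by positivity
    unfold wE
    have e1 := (abs_le.1 (hK _ ht)).2
    have e2 := (abs_le.1 (hK1 _ ht)).1
    have e3 := hg.anti _ ht
    have e4 : Real.exp (-2 * l) * ‖v - x‖ ^ 2 * -g1 (Real.exp (-2 * l) * ‖v - x‖ ^ 2) ≤ 1 * K :=
      mul_le_mul h2 (by linarith) (by linarith) zero_le_one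
    linarith

theorem continuous_rE (h : CylAS W π κ x₀ R h₀ δ) (hg : Prof g g1 g2) (l : ℝ) :
    Continuous (rE W π κ g g1 l) := by
  have : IsFiniteMeasure W := ⟨h.fin⟩
  obtain ⟨K, -, hK, hK1, -⟩ := hg.k0.exists_bound
  have c1 := Asl_214.CylAS.continuous_tl (k := k) π
  have c2 : Continuous fun p : Euc k × L k => ‖κ p.1‖ :=
    (κ.continuous.comp continuous_fst).norm
  have c3 : Continuous fun p : Euc k × L k => π p.1 := π.continuous.comp continuous_fst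
  have c8 : Continuous fun p : Euc k × L k => tl π p.2 + ‖κ p.1‖ ^ 2 := c1.add (c2.pow 2)
  unfold rE
  refine continuous_const.mul ?_
  refine continuous_of_dominated (bound := fun _ => ((m:ℝ) + h₀ ^ 2) * (3 * K)) ?_ ?_ ?_ ?_
  · intro x
    exact (c8.mul ((continuous_wE' hg x l).comp c3)).aestronglyMeasurable
  · intro x
    filter_upwards [h.conc, h.hgt] with p hp hh
    have ht := tl_nonneg h.sp.hh (isPr_of_G hp)
    have ht1 := tl_le h.sp.hh (isPr_of_G hp)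
    have h1 : 0 ≤ tl π p.2 + ‖κ p.1‖ ^ 2 := by positivity
    have h2 := wE_nonneg hg x l (π p.1)
    have h3 : ‖κ p.1‖ ^ 2 ≤ h₀ ^ 2 := pow_le_pow_left₀ (norm_nonneg _) hh 2
    rw [Real.norm_eq_abs, abs_of_nonneg (mul_nonneg h1 h2)]
    exact mul_le_mul (add_le_add ht1 h3) (wE_le hg hK hK1 x l _) h2 (by positivity)
  · exact integrable_const _
  · refine Eventually.of_forall fun p => ?_
    exact continuous_const.mul (continuous_wE_c hg l (π p.1))

/-- the error by sharp energy and mass -/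
theorem rE_le (h : CylAS W π κ x₀ R h₀ δ) (hg : Prof g g1 g2) {K : ℝ}
    (hK : ∀ t, 0 ≤ t → |g t| ≤ K) (hK1 : ∀ t, 0 ≤ t → |g1 t| ≤ K) (l : ℝ) (x : Euc m) :
    rE W π κ g g1 l x ≤ 3 * K * (eB W π x l +
      h₀ ^ 2 * (Real.exp ((2 - m) * l) * (W (BB π x l)).toReal)) := by
  have : IsFiniteMeasure W := ⟨h.fin⟩
  have hK0 : 0 ≤ K := (abs_nonneg _).trans (hK 0 le_rfl)
  have hBm : MeasurableSet (BB (k := k) π x l) := (isOpen_BB π x l).measurableSet
  have c1 := Asl_214.CylAS.continuous_tl (k := k) π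
  have c2 : Continuous fun p : Euc k × L k => ‖κ p.1‖ :=
    (κ.continuous.comp continuous_fst).norm
  have c3 : Continuous fun p : Euc k × L k => π p.1 := π.continuous.comp continuous_fst
  have c8 : Continuous fun p : Euc k × L k => tl π p.2 + ‖κ p.1‖ ^ 2 := c1.add (c2.pow 2)
  have i1 : Integrable (fun p : Euc k × L k => tl π p.2) (W.restrict (BB π x l)) :=
    (h.integrable_continuous c1).restrict
  have h1 : ∫ p, (tl π p.2 + ‖κ p.1‖ ^ 2) * wE g g1 x l (π p.1) ∂W ≤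
      ∫ p in BB π x l, (3 * K) * (tl π p.2 + h₀ ^ 2) ∂W := by
    rw [← integral_indicator hBm]
    refine integral_mono_ae (h.integrable_continuous (c8.mul ((continuous_wE' hg x l).comp c3)))
      ?_ ?_
    · rw [integrable_indicator_iff hBm]
      exact (i1.add (integrable_const _)).const_mul _
    · filter_upwards [h.conc, h.hgt] with p hp hh
      have ht := tl_nonneg h.sp.hh (isPr_of_G hp)
      by_cases hpB : p ∈ BB π x l
      · rw [indicator_of_mem hpB]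
        have h3 : ‖κ p.1‖ ^ 2 ≤ h₀ ^ 2 := pow_le_pow_left₀ (norm_nonneg _) hh 2
        calc (tl π p.2 + ‖κ p.1‖ ^ 2) * wE g g1 x l (π p.1) ≤ (tl π p.2 + h₀ ^ 2) * (3 * K) :=
              mul_le_mul (by linarith) (wE_le hg hK hK1 x l _) (wE_nonneg hg x l _)
                (by positivity)
          _ = (3 * K) * (tl π p.2 + h₀ ^ 2) := by ring
      · rw [indicator_of_notMem hpB]
        have h4 : Real.exp l ≤ ‖π p.1 - x‖ := by
          rw [norm_lt_of_BB] at hpB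
          exact not_lt.1 hpB
        rw [wE_zero hg h4, mul_zero]
  have h2 : ∫ p in BB π x l, (3 * K) * (tl π p.2 + h₀ ^ 2) ∂W =
      3 * K * ((∫ p in BB π x l, tl π p.2 ∂W) + h₀ ^ 2 * (W (BB π x l)).toReal) := by
    rw [integral_const_mul]
    have e1 : ∫ p in BB π x l, (tl π p.2 + h₀ ^ 2) ∂W =
        (∫ p in BB π x l, tl π p.2 ∂W) + ∫ p in (BB π x l : Set (Euc k × L k)), h₀ ^ 2 ∂W :=
      integral_add i1 (integrable_const _)
    rw [e1, integral_const]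
    simp only [Measure.real, Measure.restrict_apply_univ, smul_eq_mul]
    ring
  rw [h2] at h1
  have h3 := mul_le_mul_of_nonneg_left h1 (Real.exp_pos ((2 - m) * l)).le
  unfold rE eB
  refine h3.trans (le_of_eq ?_)
  ring

/-- **N4 THIN in the class `AS δ`**, ordinary centres -/
theorem thin_as (h : CylAS W π κ x₀ R h₀ δ) (h0 : 0 ≤ δ) (hg : Prof g g1 g2) (Q : ℝ) {l : ℝ}
    (hl : ‖x - x₀‖ + Real.exp l ≤ R) (hl0 : l ≤ 0) {K : ℝ}
    (hK : ∀ t, 0 ≤ t → |g t| ≤ K)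
    (hK1 : ∀ t, 0 ≤ t → |g1 t| ≤ K) {c₁ : ℝ} (hc : 0 < c₁)
    (hc1 : ∀ t, 0 ≤ t → t ≤ 1 / 4 → c₁ ≤ -g1 t) {d : ℕ} (hd : d + 1 = m)
    {v : Fin d → Euc m} {C : ℝ}
    (hfat : ∀ (c : Fin d → ℝ) (j : Fin d), |c j| * Real.exp l ≤ C * ‖∑ i, c i • v i‖)
    {z₀ : Euc m} (hz : ‖z₀ - x‖ ≤ Real.exp l) (hv : ∀ j, ‖v j‖ ≤ Real.exp l)
    {η G t ω : ℝ} (ht : 0 < t)
    (hη : 2 * m * d ^ 2 * C ^ 2 * Real.exp (3 * m) / c₁ * η ≤ t ^ 2)
    (hG : eB W π x l ≤ G)
    (hR0 : RR W π z₀ g1 (l + 3) ≤ η * G) (hRj : ∀ j, RR W π (z₀ + v j) g1 (l + 3) ≤ η * G)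
    (hb : BSm W π Q x l (ω * G)) :
    EE W π x g Q l - K * (t ^ 2 + 2 * t + 2 * ω) * G - 2 * δ * rE W π κ g g1 l x ≤
        2 * bb W π x g Q l + RR W π x g1 l ∧
      |bb W π x g Q l| ≤ K * (ω * G) :=
  h.gen.thin hg Q hK hK1 hc hc1 hd hfat hz hv ht hη hG hR0 hRj hb
    fun _ hν => FVν_le h h0 hg hν hl hl0

/-- **N4 THIN in the class `AS δ`**, averaged centres -/
theorem thin_av_as (h : CylAS W π κ x₀ R h₀ δ) (h0 : 0 ≤ δ) (hw : CW dw τ)
    (hg : Prof g g1 g2) (Q : ℝ) {l : ℝ}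
    (hl : ‖x - x₀‖ + τ + Real.exp l ≤ R) (hl0 : l ≤ 0)
    (hτl : τ ≤ Real.exp l) {K : ℝ}
    (hK : ∀ t, 0 ≤ t → |g t| ≤ K)
    (hK1 : ∀ t, 0 ≤ t → |g1 t| ≤ K) {c₁ : ℝ} (hc : 0 < c₁)
    (hc1 : ∀ t, 0 ≤ t → t ≤ 1 / 4 → c₁ ≤ -g1 t) {N : ℕ} (hd : N + 1 = m)
    {v : Fin N → Euc m} {C : ℝ}
    (hfat : ∀ (c : Fin N → ℝ) (j : Fin N), |c j| * Real.exp l ≤ C * ‖∑ i, c i • v i‖)
    {z₀ : Euc m} (hz : ‖z₀ - x‖ ≤ Real.exp l) (hv : ∀ j, ‖v j‖ ≤ Real.exp l)
    {η G t ω : ℝ} (ht : 0 < t) (hη0 : 0 < η)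
    (hη : 2 * m * N ^ 2 * C ^ 2 * Real.exp (3 * m) / c₁ * η ≤ t ^ 2)
    (hω : 0 ≤ ω) (hG : Real.exp (m - 2) * eB W π x (l + 1) ≤ G)
    (hb : BSm W π Q x (l + 1) (Real.exp (-(m - 2)) * (ω * G))) :
    EEa dw W π g Q x l ≤ RRa dw W π g1 x l +
      K * (t ^ 2 + 2 * t + 4 * ω) * G * (∫ h, dw h) +
      (∫ h, dw h * (2 * δ * rE W π κ g g1 l (x - h))) +
      K * (ω + 1) / η * (RRa dw W π g1 z₀ (l + 3) + ∑ j, RRa dw W π g1 (z₀ + v j) (l + 3)) := by
  refine h.gen.thin_av hw hg Q hτl hK hK1 hc hc1 hd hfat hz hv ht hη0 hη hω hG hb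
    (ρ := fun y => 2 * δ * rE W π κ g g1 l y) ?_ ?_ ?_
  · intro y hy ν hν
    refine FVν_le h h0 hg hν ?_ hl0
    have h1 : ‖y - x₀‖ ≤ ‖y - x‖ + ‖x - x₀‖ := norm_sub_le_norm_sub_add_norm_sub y x x₀
    linarith
  · intro y
    exact mul_nonneg (by positivity) (rE_nonneg h hg l y)
  · exact continuous_const.mul (continuous_rE h hg l)

end Crest.Agent.R234.Thin_561
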