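import Crest.Agent.R234.Thv1_561

/-!
# Row 234, N4-AV (helper561), part 2: `HThin` of Core2_809

Any functions `E R e` of centre and `t = log (s / (2 r0))` comparable with helper387's averages.
-/

set_option autoImplicit false
set_option linter.unusedSectionVars false

open MeasureTheory Set Function Filter Topology Metric
open Crest.GeometryTopology.Submanifold
open Crest.Agent.R234.Vf_884 Crest.Agent.R234.Ar_870 Crest.Agent.R234.Cy_870
open Crest.Agent.R234.Avg_387 Crest.Agent.R234.N5_372 Crest.Agent.R234.Asl_214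
open Crest.Agent.R234.Core_809 (HThin)
open scoped ENNReal NNReal InnerProductSpace

noncomputable section

namespace Crest.Agent.R234.Thin_561

variable {m n k d : ℕ}

variable {π : Euc k →L[ℝ] Euc m} {κ : Euc k →L[ℝ] Euc n} {x y z ν : Euc m} {L₀ : ℝ}
  {V W : Measure (Euc k × L k)} {g g1 g2 : ℝ → ℝ} {x₀ : Euc m} {R h₀ τ δ : ℝ} {dw : Euc m → ℝ}

/-- the averaged setting: almost stationary varifold, averaging weight, profile, window of scales -/
structure AvS (W : Measure (Euc k × L k)) (π : Euc k →L[ℝ] Euc m) (κ : Euc k →L[ℝ] Euc n)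
    (x₀ : Euc m) (R h₀ δ : ℝ) (dw : Euc m → ℝ) (τ : ℝ) (g g1 g2 : ℝ → ℝ) (K c c₁ M : ℝ)
    (Z : Set (Euc m)) (a0 T r0 : ℝ) : Prop where
  as : CylAS W π κ x₀ R h₀ δ
  δ0 : 0 ≤ δ
  cw : CW dw τ
  Mdw : ∫ h, dw h = M
  pr : Prof g g1 g2
  bK : ∀ t, 0 ≤ t → |g t| ≤ K
  bK1 : ∀ t, 0 ≤ t → |g1 t| ≤ K
  bc : ∀ t, 0 ≤ t → t ≤ 1 / 4 → c ≤ g t
  bc1 : ∀ t, 0 ≤ t → t ≤ 1 / 4 → c₁ ≤ -g1 t
  r0p : 0 < r0
  τr : τ ≤ r0 * Real.exp a0
  rng : ∀ x ∈ Z, ‖x - x₀‖ + τ + 2 * r0 * Real.exp T ≤ R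
  top : 2 * r0 * Real.exp T ≤ 1

theorem exp_L0 {r0 : ℝ} (hr : 0 < r0) (t : ℝ) :
    Real.exp (Real.log (2 * r0) + t) = 2 * r0 * Real.exp t := by
  rw [Real.exp_add, Real.exp_log (by positivity)]

theorem exp_one_le : Real.exp 1 ≤ 3 := by
  have := Real.exp_one_lt_d9
  linarith

/-- a fat family restricted to the first vectors -/
theorem fat_castSucc {v : Fin (d + 1) → Euc m} {s C : ℝ}
    (hfat : ∀ (c : Fin (d + 1) → ℝ) (i : Fin (d + 1)), |c i| * s ≤ C * ‖∑ j, c j • v j‖)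
    (c : Fin d → ℝ) (i : Fin d) : |c i| * s ≤ C * ‖∑ j, c j • v (Fin.castSucc j)‖ := by
  have h1 := hfat (Fin.snoc c 0) (Fin.castSucc i)
  rw [Fin.sum_univ_castSucc] at h1
  simpa using h1

/-- numerical conditions of the averaged N4 -/
structure Nc (m d : ℕ) (K c c₁ M kf ω ω' δ' η ηt tt η1 : ℝ) : Prop where
  K0 : 0 ≤ K
  c0 : 0 < c
  c₁0 : 0 < c₁
  M0 : 0 < M
  ω0 : 0 < ω
  ω'0 : 0 < ω'
  ηt0 : 0 < ηt
  tt0 : 0 < tt
  η10 : 0 < η1
  hηt : 2 * m * (d + 1 : ℕ) ^ 2 * kf ^ 2 * Real.exp (3 * m) / c₁ * ηt ≤ tt ^ 2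
  mid : K * (tt ^ 2 + 2 * tt + 4 * ω') * (Real.exp d * Cg d c M) * M ≤ ω / 4
  hδ : 6 * δ' * (K * (Real.exp d * Cg d c M) * M) ≤ ω / 8
  rad : K * (ω' + 1) / ηt * (d + 2) * η1 ≤ ω / 8
  hη : (d + 1) * η1 / M ≤ η * Cg d c M

/-- the choice of the constants -/
theorem exists_Nc (m d : ℕ) {K c c₁ M : ℝ} (hK0 : 0 ≤ K) (hc : 0 < c) (hc1 : 0 < c₁) (hM : 0 < M)
    (kf : ℝ) {ω : ℝ} (hω : 0 < ω) : ∃ ω' > 0, ∃ δ' > 0, ∀ η > 0, ∃ ηt tt η1,
      Nc m d K c c₁ M kf ω ω' δ' η ηt tt η1 := by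
  have hCG0 : 0 < Cg d c M := by unfold Cg; positivity
  set A0 : ℝ := K * (Real.exp d * Cg d c M) * M + 1 with hA0
  have hA0p : 0 < A0 := by positivity
  set tt : ℝ := min 1 (ω / (24 * A0)) with htt
  have htt0 : 0 < tt := by positivity
  have htt1 : tt ≤ 1 := min_le_left _ _
  have htt2 : tt * (24 * A0) ≤ ω := by
    calc tt * (24 * A0) ≤ (ω / (24 * A0)) * (24 * A0) := by gcongr; exact min_le_right _ _
      _ = ω := by field_simp
  refine ⟨ω / (32 * A0), by positivity, ω / (48 * A0), by positivity, fun η hη => ?_⟩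
  set Bt : ℝ := 2 * m * (d + 1 : ℕ) ^ 2 * kf ^ 2 * Real.exp (3 * m) / c₁ with hBt
  have hBt0 : 0 ≤ Bt := by positivity
  set ηt : ℝ := tt ^ 2 / (Bt + 1) with hηt
  have hηt0 : 0 < ηt := by positivity
  set B0 : ℝ := K * (ω / (32 * A0) + 1) / ηt * (d + 2) + 1 with hB0
  have hB0p : 0 < B0 := by positivity
  set η1 : ℝ := min (ω / (8 * B0)) (η * Cg d c M * M / (d + 1)) with hη1
  have hη10 : 0 < η1 := by positivity
  refine ⟨ηt, tt, η1, hK0, hc, hc1, hM, hω, by positivity, hηt0, htt0, hη10, ?_, ?_, ?_, ?_, ?_⟩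
  · have h1 : (Bt + 1) * ηt = tt ^ 2 := by rw [hηt]; field_simp
    nlinarith
  · have h1 : tt ^ 2 + 2 * tt ≤ 3 * tt := by nlinarith
    have h3 : ω / (32 * A0) * A0 = ω / 32 := by field_simp
    calc K * (tt ^ 2 + 2 * tt + 4 * (ω / (32 * A0))) * (Real.exp d * Cg d c M) * M =
        (tt ^ 2 + 2 * tt + 4 * (ω / (32 * A0))) * (K * (Real.exp d * Cg d c M) * M) := by ring
      _ ≤ (3 * tt + 4 * (ω / (32 * A0))) * A0 := by
          gcongr
          rw [hA0]; linarith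
      _ = (tt * (24 * A0)) / 8 + 4 * (ω / (32 * A0) * A0) := by ring
      _ ≤ ω / 8 + 4 * (ω / 32) := by rw [h3]; gcongr
      _ = ω / 4 := by ring
  · calc 6 * (ω / (48 * A0)) * (K * (Real.exp d * Cg d c M) * M) ≤ 6 * (ω / (48 * A0)) * A0 := by
          gcongr
          rw [hA0]; linarith
      _ = ω / 8 := by field_simp; norm_num
  · calc K * (ω / (32 * A0) + 1) / ηt * (d + 2) * η1 ≤ B0 * η1 := by
          gcongr
          rw [hB0]; linarith
      _ ≤ B0 * (ω / (8 * B0)) := by gcongr; exact min_le_left _ _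
      _ = ω / 8 := by field_simp
  · rw [div_le_iff₀ hM]
    calc (d + 1) * η1 ≤ (d + 1) * (η * Cg d c M * M / (d + 1)) := by
          gcongr; exact min_le_right _ _
      _ = η * Cg d c M * M := by field_simp

theorem Gen.eea_nonneg (h : Gen W π κ) (hw : CW dw τ) (hg : Prof g g1 g2) (x : Euc m) (l : ℝ) :
    0 ≤ eea dw W π g x l := by
  unfold eea av
  refine integral_nonneg fun u => mul_nonneg (hw.nonneg u) ?_
  unfold ee
  refine mul_nonneg (Real.exp_pos _).le (integral_nonneg_of_ae ?_)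
  filter_upwards [h.tl_ae] with p hp
  exact mul_nonneg hp.1 (Prof.nonneg hg _ (by positivity))

/-- sharp energy at scale `l + 1` by the averaged energy at scale `l + 4` -/
theorem Gen.eB_le_av (h : Gen W π κ) (hdm : d + 2 = m) (hw : CW dw τ) (hg : Prof g g1 g2)
    {c l A : ℝ} (hc : 0 < c) (hM : 0 < ∫ h, dw h)
    (hcr : ∀ t, 0 ≤ t → t ≤ 1 / 4 → c ≤ g t) (hτ : τ ≤ 2 * Real.exp (l + 1))
    (hA : eea dw W π g x (l + 4) ≤ A) :
    Real.exp (m - 2) * eB W π x (l + 1) ≤ (Real.exp d * Cg d c (∫ h, dw h)) * A := by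
  have h1 := h.eM8 hdm hw hg hc hM hcr (x := x) (l := l + 1) hτ (A := A) (by
      have : l + 1 + 3 = l + 4 := by ring
      rw [this]; exact hA)
  rw [h.eM_toReal measurableSet_closedBall] at h1
  have h2 : ∫ p in BB π x (l + 1), tl π p.2 ∂W ≤
      ∫ p in ov π (closedBall x (8 * Real.exp (l + 1))), tl π p.2 ∂W := by
    refine setIntegral_mono_set h.integrable_tl.integrableOn ?_ ?_
    · exact ae_restrict_of_ae (by filter_upwards [h.tl_ae] with p hp using hp.1)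
    · refine LE.le.eventuallyLE ?_
      intro p hp
      rw [norm_lt_of_BB] at hp
      change π p.1 ∈ closedBall x (8 * Real.exp (l + 1))
      rw [mem_closedBall, dist_eq_norm]
      have := Real.exp_pos (l + 1)
      linarith
  have hm : ((m : ℕ) : ℝ) = d + 2 := by rw [← hdm]; push_cast; ring
  have h3 : Real.exp ((2 - m) * (l + 1)) * Real.exp (l + 1) ^ d = 1 := by
    rw [← Real.exp_nat_mul, ← Real.exp_add, hm]
    have : (2 - ((d:ℝ) + 2)) * (l + 1) + d * (l + 1) = 0 := by ring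
    rw [this, Real.exp_zero]
  have h4 : eB W π x (l + 1) ≤ Cg d c (∫ h, dw h) * A := by
    unfold eB
    calc Real.exp ((2 - m) * (l + 1)) * ∫ p in BB π x (l + 1), tl π p.2 ∂W
        ≤ Real.exp ((2 - m) * (l + 1)) * (Cg d c (∫ h, dw h) * A * Real.exp (l + 1) ^ d) :=
          mul_le_mul_of_nonneg_left (h2.trans h1) (Real.exp_pos _).le
      _ = Cg d c (∫ h, dw h) * A * (Real.exp ((2 - m) * (l + 1)) * Real.exp (l + 1) ^ d) := by
          ring
      _ = Cg d c (∫ h, dw h) * A := by rw [h3, mul_one]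
  have h5 : ((m : ℕ) : ℝ) - 2 = d := by rw [hm]; ring
  rw [h5, mul_assoc]
  exact mul_le_mul_of_nonneg_left h4 (Real.exp_pos _).le

/-- the error term of the averaged N4 -/
theorem err_le (h : CylAS W π κ x₀ R h₀ δ) (h0 : 0 ≤ δ) (hw : CW dw τ) (hM : 0 < ∫ h, dw h)
    (hg : Prof g g1 g2) {K : ℝ} (hK : ∀ t, 0 ≤ t → |g t| ≤ K) (hK1 : ∀ t, 0 ≤ t → |g1 t| ≤ K)
    {l G ε₁ ε₂ : ℝ} (hτl : τ ≤ Real.exp l) (hG : Real.exp (m - 2) * eB W π x (l + 1) ≤ G)
    (hδ : 6 * δ * (K * G * (∫ h, dw h)) ≤ ε₁)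
    (hms : ∀ y, ‖y - x‖ ≤ τ → 6 * K * (∫ h, dw h) * (δ * (h₀ ^ 2 * (Real.exp ((2 - m) * l) *
      (W (BB π y l)).toReal))) ≤ ε₂) :
    (∫ u, dw u * (2 * δ * rE W π κ g g1 l (x - u))) ≤ ε₁ + ε₂ := by
  have hK0 : 0 ≤ K := (abs_nonneg _).trans (hK 0 le_rfl)
  have he2 : (2 : ℝ) ≤ Real.exp 1 := by linarith [Real.add_one_le_exp (1:ℝ)]
  have hexp0 : 0 < Real.exp l := Real.exp_pos l
  have he1 : Real.exp (l + 1) = Real.exp l * Real.exp 1 := Real.exp_add _ _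
  have hcst : ∀ u : Euc m, dw u * (2 * δ * rE W π κ g g1 l (x - u)) ≤
      dw u * ((ε₁ + ε₂) / (∫ h, dw h)) := by
    intro u
    by_cases hu : u ∈ closedBall (0 : Euc m) τ
    · refine mul_le_mul_of_nonneg_left ?_ (hw.nonneg u)
      have hu1 : ‖u‖ ≤ τ := by simpa using hu
      have hyx : ‖x - u - x‖ ≤ τ := by
        have : x - u - x = -u := by abel
        rw [this, norm_neg]; exact hu1
      have h1 := rE_le h hg hK hK1 l (x - u)
      have h2 : eB W π (x - u) l ≤ G := by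
        refine (h.gen.eB_mono (x := x) (l' := l + 1) (by rw [he1]; nlinarith)).trans ?_
        have : ((m:ℝ) - 2) * (l + 1 - l) = m - 2 := by ring
        rw [this]
        exact hG
      have h3 := hms (x - u) hyx
      rw [le_div_iff₀ hM]
      set Y : ℝ := Real.exp ((2 - m) * l) * (W (BB π (x - u) l)).toReal with hY
      have h6 : rE W π κ g g1 l (x - u) ≤ 3 * K * (G + h₀ ^ 2 * Y) :=
        h1.trans (mul_le_mul_of_nonneg_left (by linarith) (by positivity))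
      calc 2 * δ * rE W π κ g g1 l (x - u) * (∫ h, dw h) ≤
          2 * δ * (3 * K * (G + h₀ ^ 2 * Y)) * (∫ h, dw h) :=
            mul_le_mul_of_nonneg_right (mul_le_mul_of_nonneg_left h6 (by positivity)) hM.le
        _ = 6 * δ * (K * G * (∫ h, dw h)) + 6 * K * (∫ h, dw h) * (δ * (h₀ ^ 2 * Y)) := by ring
        _ ≤ ε₁ + ε₂ := add_le_add hδ h3
    · simp only [hw.zero' hu, zero_mul]; exact le_rfl
  have i1 : Integrable fun u : Euc m => dw u * (2 * δ * rE W π κ g g1 l (x - u)) :=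
    hw.integrable (f := fun u => 2 * δ * rE W π κ g g1 l (x - u))
      (continuous_const.mul ((continuous_rE h hg l).comp
        (continuous_const.sub continuous_id))).continuousOn
  have i2 : Integrable fun u : Euc m => dw u * ((ε₁ + ε₂) / (∫ h, dw h)) :=
    hw.integrable (f := fun _ => (ε₁ + ε₂) / (∫ h, dw h)) continuousOn_const
  have h1 := integral_mono i1 i2 hcst
  rw [integral_mul_const] at h1
  refine h1.trans (le_of_eq ?_)
  field_simp

/-- **averaged N4 at one centre and one scale** -/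
theorem thin_one (hdm : d + 2 = m) {K c c₁ M kf ω ω' δ' η ηt tt η1 : ℝ}
    (hn : Nc m d K c c₁ M kf ω ω' δ' η ηt tt η1)
    (h : CylAS W π κ x₀ R h₀ δ) (h0 : 0 ≤ δ) (hw : CW dw τ) (hM : ∫ h, dw h = M)
    (hg : Prof g g1 g2) (hK : ∀ t, 0 ≤ t → |g t| ≤ K) (hK1 : ∀ t, 0 ≤ t → |g1 t| ≤ K)
    (hcr : ∀ t, 0 ≤ t → t ≤ 1 / 4 → c ≤ g t) (hcr1 : ∀ t, 0 ≤ t → t ≤ 1 / 4 → c₁ ≤ -g1 t)
    {l : ℝ} (hl : ‖x - x₀‖ + τ + Real.exp l ≤ R) (hl0 : l ≤ 0) (hτl : τ ≤ Real.exp l / 2)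
    {Qn : ℕ} {X : Set (Euc m)} {lmin lmax : ℝ} {gm : ℝ → ℝ} {θ : ℝ}
    (hN : N5K W π g1 Qn d X lmin lmax gm ω' θ (3 * kf) η) (hx : x ∈ X) (hl1 : lmin ≤ l + 1)
    (hl2 : l + 1 ≤ lmax) (hδ' : δ ≤ δ') {v : Fin (d + 1) → Euc m}
    (hfat : ∀ (c : Fin (d + 1) → ℝ) (i : Fin (d + 1)),
      |c i| * Real.exp l ≤ kf * ‖∑ j, c j • v j‖)
    (hv : ∀ i, ‖v i‖ ≤ Real.exp l) {A : ℝ} (hA : eea dw W π g x (l + 4) ≤ A)
    (hgm : gm (l + 1) ≤ Cg d c M * A)
    (hR3 : RRa dw W π g1 x (l + 3) ≤ η1 * A) (hR3v : ∀ i, RRa dw W π g1 (x + v i) (l + 3) ≤ η1 * A)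
    (hR4 : RRa dw W π g1 x (l + 4) ≤ η1 * A) (hR4v : ∀ i, RRa dw W π g1 (x + v i) (l + 4) ≤ η1 * A)
    (hms : ∀ y, ‖y - x‖ ≤ τ → 6 * K * M * (δ * (h₀ ^ 2 * (Real.exp ((2 - m) * l) *
      (W (BB π y l)).toReal))) ≤ ω / 8 * A) :
    EEa dw W π g Qn x l ≤ RRa dw W π g1 x l + 5 / 8 * ω * A := by
  have hgen := h.gen
  have hAn : 0 ≤ A := (hgen.eea_nonneg hw hg _ _).trans hA
  have hexp0 : 0 < Real.exp l := Real.exp_pos l
  have he1 : Real.exp (l + 1) = Real.exp l * Real.exp 1 := Real.exp_add _ _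
  have he2 : (2 : ℝ) ≤ Real.exp 1 := by linarith [Real.add_one_le_exp (1:ℝ)]
  have he3 : 2 * Real.exp l ≤ Real.exp (l + 1) := by rw [he1]; nlinarith
  have hM0 : 0 < ∫ h, dw h := by rw [hM]; exact hn.M0
  have hω' := hn.ω'0
  have hCG0 : 0 < Cg d c M := by have := hn.c0; have := hn.M0; unfold Cg; positivity
  have e134 : l + 1 + 3 = l + 4 := by ring
  have hkf : ∀ (c : Fin (d + 1) → ℝ) (i : Fin (d + 1)),
      |c i| * Real.exp (l + 1) ≤ (3 * kf) * ‖∑ j, c j • v j‖ := by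
    intro c i
    have h1 := hfat c i
    have h2 : 0 ≤ |c i| * Real.exp l := by positivity
    rw [he1]
    calc |c i| * (Real.exp l * Real.exp 1) = Real.exp 1 * (|c i| * Real.exp l) := by ring
      _ ≤ 3 * (|c i| * Real.exp l) := mul_le_mul_of_nonneg_right exp_one_le h2
      _ ≤ 3 * (kf * ‖∑ j, c j • v j‖) := mul_le_mul_of_nonneg_left h1 (by norm_num)
      _ = _ := by ring
  have hN5 := n5_av hdm hgen hw hM0 hg hn.c0 hcr hN (x := x) (y := x) (l := l + 1) hx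
    hl1 hl2 (by linarith) (v := fun i => v (Fin.castSucc i))
    (fat_castSucc hkf) (by rw [sub_self, norm_zero]; linarith)
    (fun i => by
      have e1 : x + v (Fin.castSucc i) - x = v (Fin.castSucc i) := by abel
      rw [e1]
      have := hv (Fin.castSucc i)
      linarith)
    (A := A) (η₁ := η1) (by rw [e134]; exact hA) (by rw [hM]; exact hgm)
    (by rw [e134]; exact hR4) (fun i => by rw [e134]; exact hR4v _) (by rw [hM]; exact hn.hη)
  rw [hM] at hN5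
  have hbsm : BSm W π Qn x (l + 1) (ω' * (Cg d c M * A)) := by
    have h1 := N5_372.bsm_of (x := x) (l := l + 1) (Q := (Qn : ℝ)) hdm
      (fun φ h1 h2 h3 => (hN5.1 φ h1 h2 h3))
    exact h1
  have hG := hgen.eB_le_av hdm hw hg (x := x) (l := l) hn.c0 hM0 hcr (by linarith) hA
  rw [hM] at hG
  set G : ℝ := (Real.exp d * Cg d c M) * A with hGd
  have hbsm' : BSm W π Qn x (l + 1) (Real.exp (-(m - 2)) * (ω' * G)) := by
    have hm : ((m : ℕ) : ℝ) = d + 2 := by rw [← hdm]; push_cast; ring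
    have h5 : ((m : ℕ) : ℝ) - 2 = d := by rw [hm]; ring
    have h6 : Real.exp (-(m - 2)) * (ω' * G) = ω' * (Cg d c M * A) := by
      rw [h5, hGd]
      have : Real.exp (-(d:ℝ)) * Real.exp d = 1 := by
        rw [← Real.exp_add]; simp
      calc Real.exp (-(d:ℝ)) * (ω' * (Real.exp d * Cg d c M * A)) =
          (Real.exp (-(d:ℝ)) * Real.exp d) * (ω' * (Cg d c M * A)) := by ring
        _ = _ := by rw [this, one_mul]
    rw [h6]
    exact hbsm
  have hth := thin_av_as h h0 hw hg (Qn : ℝ) (x := x) (l := l) hl hl0 (by linarith) hK hK1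
    hn.c₁0 hcr1 (N := d + 1) (by omega) (v := v) (C := kf) hfat (z₀ := x)
    (by rw [sub_self, norm_zero]; exact hexp0.le) hv (η := ηt) (G := G) (t := tt)
    (ω := ω') hn.tt0 hn.ηt0 hn.hηt hω'.le hG hbsm'
  have herr := err_le h h0 hw hM0 hg hK hK1 (x := x) (l := l) (G := G) (ε₁ := ω / 8 * A)
    (ε₂ := ω / 8 * A) (by linarith) hG (by
      rw [hM, hGd]
      have h1 : 6 * δ * (K * (Real.exp d * Cg d c M * A) * M) =
          6 * δ * (K * (Real.exp d * Cg d c M) * M) * A := by ring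
      rw [h1]
      refine mul_le_mul_of_nonneg_right (le_trans ?_ hn.hδ) hAn
      have := hn.K0; have := hn.M0
      refine mul_le_mul_of_nonneg_right (by linarith) (by positivity)) (by
      rw [hM]; exact hms)
  rw [hM] at hth
  have hrad : K * (ω' + 1) / ηt * (RRa dw W π g1 x (l + 3) +
      ∑ j, RRa dw W π g1 (x + v j) (l + 3)) ≤ ω / 8 * A := by
    have h2 : ∑ j, RRa dw W π g1 (x + v j) (l + 3) ≤ ∑ _j : Fin (d + 1), η1 * A :=
      Finset.sum_le_sum fun i _ => hR3v i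
    rw [Finset.sum_const, Finset.card_univ, Fintype.card_fin, nsmul_eq_mul] at h2
    have h3 : RRa dw W π g1 x (l + 3) + ∑ j, RRa dw W π g1 (x + v j) (l + 3) ≤
        (d + 2) * (η1 * A) := by push_cast at h2; linarith
    have hK0 := hn.K0; have hηt0 := hn.ηt0
    calc K * (ω' + 1) / ηt * (RRa dw W π g1 x (l + 3) +
          ∑ j, RRa dw W π g1 (x + v j) (l + 3)) ≤ K * (ω' + 1) / ηt * ((d + 2) * (η1 * A)) :=
          mul_le_mul_of_nonneg_left h3 (by positivity)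
      _ = (K * (ω' + 1) / ηt * (d + 2) * η1) * A := by ring
      _ ≤ ω / 8 * A := mul_le_mul_of_nonneg_right hn.rad hAn
  have hmid : K * (tt ^ 2 + 2 * tt + 4 * ω') * G * M ≤ ω / 4 * A := by
    calc K * (tt ^ 2 + 2 * tt + 4 * ω') * G * M =
        (K * (tt ^ 2 + 2 * tt + 4 * ω') * (Real.exp d * Cg d c M) * M) * A := by
          rw [hGd]; ring
      _ ≤ ω / 4 * A := mul_le_mul_of_nonneg_right hn.mid hAn
  linarith

/-- **HThin of Core2_809**, order of the constants: `kf, ω` first, then `ω', δ'`, then `η` of N5, then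
`η1`. -/
theorem hThin {K c c₁ M : ℝ} (hc : 0 < c) (hc1 : 0 < c₁) (hM : 0 < M)
    (hdm : d + 2 = m) (kf : ℝ) {ω : ℝ} (hω : 0 < ω) :
    ∃ ω' > 0, ∃ δ' > 0, ∀ η > 0, ∃ η1 > 0,
      ∀ {n k : ℕ} {π : Euc k →L[ℝ] Euc m} {κ : Euc k →L[ℝ] Euc n} {W : Measure (Euc k × L k)}
        {x₀ : Euc m} {Rr h₀ δ τ : ℝ} {dw : Euc m → ℝ} {g g1 g2 : ℝ → ℝ} {Z : Set (Euc m)}
        {a0 T r0 θ : ℝ} {Qn : ℕ} {X : Set (Euc m)} {lmin lmax : ℝ} {gm : ℝ → ℝ}
        {E R e : Euc m → ℝ → ℝ},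
        AvS W π κ x₀ Rr h₀ δ dw τ g g1 g2 K c c₁ M Z a0 T r0 →
        N5K W π g1 Qn d X lmin lmax gm ω' θ (3 * kf) η → Z ⊆ X →
        lmin ≤ Real.log (2 * r0) + a0 → Real.log (2 * r0) + T ≤ lmax → δ ≤ δ' →
        (∀ x ∈ Z, ∀ t, a0 ≤ t → t + 8 ≤ T →
          E x t ≤ EEa dw W π g Qn x (Real.log (2 * r0) + t) + ω / 4 * e x (t + 4)) →
        (∀ x ∈ Z, ∀ t, a0 ≤ t → t ≤ T → RRa dw W π g1 x (Real.log (2 * r0) + t) ≤ R x t) →
        (∀ x ∈ Z, ∀ t, a0 ≤ t → t ≤ T → eea dw W π g x (Real.log (2 * r0) + t) ≤ e x t) →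
        (∀ x ∈ Z, ∀ t, a0 ≤ t → t + 8 ≤ T →
          gm (Real.log (2 * r0) + t + 1) ≤ Cg d c M * e x (t + 4)) →
        (∀ x ∈ Z, ∀ t, a0 ≤ t → t + 8 ≤ T → ∀ y, ‖y - x‖ ≤ τ →
          6 * K * M * (δ * (h₀ ^ 2 * (Real.exp ((2 - m) * (Real.log (2 * r0) + t)) *
            (W (BB π y (Real.log (2 * r0) + t))).toReal))) ≤ ω / 8 * e x (t + 4)) →
        HThin Z d a0 T r0 kf η1 ω E R e := by
  by_cases hK0' : 0 ≤ K
  swap
  · refine ⟨1, one_pos, 1, one_pos, fun η _ => ⟨1, one_pos, ?_⟩⟩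
    intro n k π κ W x₀ Rr h₀ δ τ dw g g1 g2 Z a0 T r0 θ Qn X lmin lmax gm E R e hS
    exact absurd ((abs_nonneg _).trans (hS.bK 0 le_rfl)) hK0'
  obtain ⟨ω', hω', δ', hδ'0, hne⟩ := exists_Nc m d hK0' hc hc1 hM kf hω
  refine ⟨ω', hω', δ', hδ'0, fun η hη => ?_⟩
  obtain ⟨ηt, tt, η1, hn⟩ := hne η hη
  refine ⟨η1, hn.η10, ?_⟩
  intro n k π κ W x₀ Rr h₀ δ τ dw g g1 g2 Z a0 T r0 θ Qn X lmin lmax gm E R e hS hN hZX hlmin
    hlmax hδ' hcE hcR hce hgm hms x hx t ht0 ht8 v hv hfat hRs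
  have hr0 := hS.r0p
  have hexp : Real.exp (Real.log (2 * r0) + t) = 2 * r0 * Real.exp t := exp_L0 hr0 t
  have hτl : τ ≤ Real.exp (Real.log (2 * r0) + t) / 2 := by
    have h1 := hS.τr
    have h2 : Real.exp a0 ≤ Real.exp t := Real.exp_le_exp.2 ht0
    rw [hexp]
    nlinarith
  have hlT : Real.exp (Real.log (2 * r0) + t) ≤ 2 * r0 * Real.exp T := by
    rw [hexp]
    have h2 : Real.exp t ≤ Real.exp T := Real.exp_le_exp.2 (by linarith)
    exact mul_le_mul_of_nonneg_left h2 (by positivity)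
  have hl0 : Real.log (2 * r0) + t ≤ 0 := by
    rw [← Real.exp_le_exp, Real.exp_zero]
    exact hlT.trans hS.top
  have hrng : ‖x - x₀‖ + τ + Real.exp (Real.log (2 * r0) + t) ≤ Rr := by
    have := hS.rng x hx
    linarith
  have hfat' : ∀ (c : Fin (d + 1) → ℝ) (i : Fin (d + 1)),
      |c i| * Real.exp (Real.log (2 * r0) + t) ≤ kf * ‖∑ j, c j • v j‖ := by
    intro c i
    rw [hexp]
    exact hfat c i
  have eq3 : ∀ j : ℝ, Real.log (2 * r0) + t + j = Real.log (2 * r0) + (t + j) := fun j => by ring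
  have hA4 : eea dw W π g x (Real.log (2 * r0) + t + 4) ≤ e x (t + 4) := by
    rw [eq3]; exact hce x hx (t + 4) (by linarith) (by linarith)
  have hRx : ∀ j : ℝ, 0 ≤ j → j ≤ 4 →
      RRa dw W π g1 x (Real.log (2 * r0) + t + j) ≤ η1 * e x (t + 4) := by
    intro j hj0 hj4
    rw [eq3]
    exact (hcR x hx (t + j) (by linarith) (by linarith)).trans (hRs j hj0 hj4).1
  have hRv : ∀ j : ℝ, 0 ≤ j → j ≤ 4 → ∀ i,
      RRa dw W π g1 (x + v i) (Real.log (2 * r0) + t + j) ≤ η1 * e x (t + 4) := by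
    intro j hj0 hj4 i
    rw [eq3]
    exact (hcR _ (hv i).1 (t + j) (by linarith) (by linarith)).trans ((hRs j hj0 hj4).2 i)
  have h1 := thin_one hdm hn hS.as hS.δ0 hS.cw hS.Mdw hS.pr hS.bK hS.bK1 hS.bc hS.bc1
    (x := x) (l := Real.log (2 * r0) + t) hrng hl0 hτl hN (hZX hx)
    (by linarith) (by linarith) hδ' (v := v) hfat'
    (fun i => by rw [hexp]; exact (hv i).2) (A := e x (t + 4)) hA4
    (hgm x hx t ht0 ht8) (hRx 3 (by norm_num) (by norm_num)) (hRv 3 (by norm_num) (by norm_num))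
    (hRx 4 (by norm_num) le_rfl) (hRv 4 (by norm_num) le_rfl) (hms x hx t ht0 ht8)
  have hE := hcE x hx t ht0 ht8
  have hR0 := hcR x hx t ht0 (by linarith)
  have hA0 : 0 ≤ e x (t + 4) :=
    (hS.as.gen.eea_nonneg hS.cw hS.pr _ _).trans (hce x hx (t + 4) (by linarith) (by linarith))
  have h2 : 0 ≤ ω * e x (t + 4) := by positivity
  linarith

end Crest.Agent.R234.Thin_561
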