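import Crest.Agent.R234.Wi6_870
import Crest.Agent.R234.Asl8_214

/-!
# Row 234, VF-WFLOW, part 2 (helper870)

`WFlow` (Well5_761) for the class `CylAS` of helper214: errors `≤ C δ` times (energy, the functional
itself) plus tiny terms with the height and `s² q²`.
-/

set_option autoImplicit false

open MeasureTheory Set Function Filter Topology
open Crest.GeometryTopology.Submanifold
open Crest.Agent.R234.Vf_884 Crest.Agent.R234.Ar_870 Crest.Agent.R234.Cy_870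
open Crest.Agent.R234.Asl_214
open scoped ENNReal NNReal InnerProductSpace ContDiff

noncomputable section

namespace Crest.Agent.R234.Wi_870

variable {m n k : ℕ} {π : Euc k →L[ℝ] Euc m} {κ : Euc k →L[ℝ] Euc n} {δ : ℝ}
  {x₀ x : Euc m} {R h₀ ρ₀ : ℝ} {W : Measure (Euc k × L k)} {g g1 g2 : ℝ → ℝ}
  {F : Euc n → ℝ} {dF : Euc n → Euc n} {H : Euc n → L n}

/-- `‖∇χ‖² ≤ 4 K s^{-2} |g'|` -/
theorem norm_dr_sq_le (hg : Prof g g1 g2) {K : ℝ} (hK : Bd g g1 K) (l : ℝ) (x v : Euc m) :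
    ‖dr g1 l x v‖ ^ 2 ≤ 4 * K * Real.exp (-2 * l) * (-g1 (Real.exp (-2 * l) * ‖v - x‖ ^ 2)) := by
  set t := Real.exp (-2 * l) * ‖v - x‖ ^ 2 with ht
  have ht0 : 0 ≤ t := scaled_nonneg l x v
  have h1 := hg.anti t ht0
  have hK0 := hK.nonneg
  have h2 : ‖dr g1 l x v‖ ^ 2 = 4 * Real.exp (-2 * l) * (t * g1 t * g1 t) := by
    unfold dr
    rw [innerSL_apply_norm, norm_smul, mul_pow, Real.norm_eq_abs, sq_abs, ← ht, ht]
    ring
  rw [h2]
  have h3 := hK.b2 t ht0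
  have h4 : t * g1 t * g1 t ≤ K * (-g1 t) := by
    have h5 : |t * g1 t| = -(t * g1 t) := abs_of_nonpos (mul_nonpos_of_nonneg_of_nonpos ht0 h1)
    rw [h5] at h3
    nlinarith
  calc 4 * Real.exp (-2 * l) * (t * g1 t * g1 t) ≤ 4 * Real.exp (-2 * l) * (K * (-g1 t)) :=
        mul_le_mul_of_nonneg_left h4 (by positivity)
    _ = _ := by ring

theorem real_pt {δ r y a b c T h A2 Kd KB : ℝ} (h0 : 0 ≤ δ) (hr2 : r ^ 2 = T)
    (hy0 : 0 ≤ y) (hy : y ≤ h) (hb0 : 0 ≤ b) (hc0 : 0 ≤ c)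
    (ha : a ^ 2 ≤ A2) (hb : b ≤ Kd) (hc : c ≤ KB) :
    δ * ((r + y) * (a + b)) + δ * ((T + y * r) * c) + √δ * T * b ≤
      (δ * (1 + 2 * KB) + √δ * Kd) * T + δ * (h ^ 2 * (1 + KB) + Kd ^ 2) + δ * A2 := by
  have hT : 0 ≤ T := by rw [← hr2]; positivity
  have hb2 : b ^ 2 ≤ Kd ^ 2 := pow_le_pow_left₀ hb0 hb 2
  have hy2 : y ^ 2 ≤ h ^ 2 := pow_le_pow_left₀ hy0 hy 2
  have hKB : 0 ≤ KB := hc0.trans hc
  have e1 : (r + y) * (a + b) ≤ T + h ^ 2 + A2 + Kd ^ 2 := by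
    nlinarith [sq_nonneg (r - a), sq_nonneg (r - b), sq_nonneg (y - a), sq_nonneg (y - b)]
  have e2 : (T + y * r) * c ≤ 2 * KB * T + h ^ 2 * KB := by
    have h3 : T + y * r ≤ 2 * T + h ^ 2 := by nlinarith [sq_nonneg (r - y), sq_nonneg r]
    calc (T + y * r) * c ≤ (2 * T + h ^ 2) * KB :=
          mul_le_mul h3 hc hc0 (by positivity)
      _ = _ := by ring
  have e3 : √δ * T * b ≤ √δ * T * Kd :=
    mul_le_mul_of_nonneg_left hb (mul_nonneg (Real.sqrt_nonneg _) hT)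
  have e5 := mul_le_mul_of_nonneg_left e1 h0
  have e6 := mul_le_mul_of_nonneg_left e2 h0
  calc δ * ((r + y) * (a + b)) + δ * ((T + y * r) * c) + √δ * T * b
      ≤ δ * (T + h ^ 2 + A2 + Kd ^ 2) + δ * (2 * KB * T + h ^ 2 * KB) + √δ * T * Kd :=
        add_le_add (add_le_add e5 e6) e3
    _ = _ := by ring

/-- **sharp first variation of `X2 = χ dF(y)`** for wells -/
theorem x2_wf (h : CylAS W π κ x₀ R h₀ δ) (h0 : 0 ≤ δ) (hg : Prof g g1 g2) {K : ℝ}
    (hK : Bd g g1 K) (hF : Well F dF H) {d₀ B₀ : ℝ} (hd₀ : ∀ y, ‖dF y‖ ≤ d₀)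
    (hB₀ : ∀ y, ‖H y‖ ≤ B₀) {l : ℝ} (hl : ‖x - x₀‖ + Real.exp l ≤ R) :
    Real.exp ((2 - m) * l) * |FV W (X2 π κ x dF g l)| ≤
      (δ * (1 + 2 * (K * B₀)) + √δ * (K * d₀)) * tb W π x l +
        4 * K * δ * nuG W π κ x F g1 l +
        δ * (h₀ ^ 2 * (1 + K * B₀) + (K * d₀) ^ 2) * Real.exp l ^ 2 * mb W π x l := by
  have : IsFiniteMeasure W := ⟨h.fin⟩
  have hK0 := hK.nonneg
  have hd0 : 0 ≤ d₀ := (norm_nonneg _).trans (hd₀ 0)
  have hB0 : 0 ≤ B₀ := (norm_nonneg _).trans (hB₀ 0)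
  have hs := Real.exp_pos l
  have hzR : ∀ v, R ≤ ‖v - x₀‖ → Real.exp l ≤ ‖v - x‖ := by
    intro v hv
    have h1 : ‖v - x₀‖ ≤ ‖v - x‖ + ‖x - x₀‖ := norm_sub_le_norm_sub_add_norm_sub v x x₀
    linarith
  have h1 := h.fv_ver h0 (f := fun v : Euc m => g (Real.exp (-2 * l) * ‖v - x‖ ^ 2))
    (df := dr g1 l x) (fun v => hasFDerivAt_rad hg.k0.der l x v) (continuous_dr hg.k0 l x)
    hF.hasdF hF.contH (fun v hv => hg.k0.zero _ (Ker.one_le_of x (hzR v hv)))
  have hX : (fun p => (fun v : Euc m => g (Real.exp (-2 * l) * ‖v - x‖ ^ 2)) (π p) •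
      ContinuousLinearMap.adjoint κ (dF (κ p))) = X2 π κ x dF g l := rfl
  rw [hX] at h1
  -- the bound
  set u : Euc k × L k → ℝ := fun p => -g1 (Real.exp (-2 * l) * ‖π p.1 - x‖ ^ 2) with hu
  have cu : Continuous u := by
    refine (hg.k1.continuous.comp ?_).neg
    exact continuous_const.mul (((π.continuous.comp continuous_fst).sub
      continuous_const).norm.pow 2)
  have u0 : ∀ p, 0 ≤ u p := fun p => by
    have := hg.anti _ (scaled_nonneg l x (π p.1))
    simp only [hu]; linarith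
  have cF : Continuous fun p : Euc k × L k => F (κ p.1) :=
    hF.contF.comp (κ.continuous.comp continuous_fst)
  have iuF : Integrable (fun p : Euc k × L k => u p * F (κ p.1)) W :=
    h.integrable_continuous (cu.mul cF)
  have iT : Integrable (fun p : Euc k × L k => tl π p.2) W :=
    h.integrable_continuous (CylAS.continuous_tl π)
  set a1 := δ * (1 + 2 * (K * B₀)) + √δ * (K * d₀) with ha1
  set a2 := δ * (h₀ ^ 2 * (1 + K * B₀) + (K * d₀) ^ 2) with ha2
  have ha10 : 0 ≤ a1 := by positivity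
  have ha20 : 0 ≤ a2 := by positivity
  have iI : Integrable (fun p : Euc k × L k => (ovr π x (Real.exp l)).indicator
      (fun p => a1 * tl π p.2 + a2) p) W :=
    ((iT.const_mul a1).add (integrable_const a2)).indicator (measurableSet_ovr π x _)
  have h2 : |FV W (X2 π κ x dF g l)| ≤ ∫ p, ((ovr π x (Real.exp l)).indicator
      (fun p => a1 * tl π p.2 + a2) p + (8 * K * δ * Real.exp (-2 * l)) * (u p * F (κ p.1))) ∂W := by
    refine h1.trans (integral_mono_of_nonneg ?_ (iI.add (iuF.const_mul _)) ?_)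
    · filter_upwards [h.tl_nonneg'] with p hp
      simp only [Pi.zero_apply]
      positivity
    · filter_upwards [h.tl_nonneg', h.hgt] with p hp hy
      have hFp := hF.nonneg (κ p.1)
      by_cases hp2 : p ∈ ovr π x (Real.exp l)
      · rw [indicator_of_mem hp2]
        have hgK := hK.b0 _ (scaled_nonneg l x (π p.1))
        have hbK : |g (Real.exp (-2 * l) * ‖π p.1 - x‖ ^ 2)| * ‖dF (κ p.1)‖ ≤ K * d₀ :=
          mul_le_mul hgK (hd₀ _) (norm_nonneg _) hK0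
        have hcK : |g (Real.exp (-2 * l) * ‖π p.1 - x‖ ^ 2)| * ‖H (κ p.1)‖ ≤ K * B₀ :=
          mul_le_mul hgK (hB₀ _) (norm_nonneg _) hK0
        have ha2' : (‖dr g1 l x (π p.1)‖ * ‖dF (κ p.1)‖) ^ 2 ≤
            8 * K * Real.exp (-2 * l) * (u p * F (κ p.1)) := by
          rw [mul_pow]
          calc ‖dr g1 l x (π p.1)‖ ^ 2 * ‖dF (κ p.1)‖ ^ 2
              ≤ (4 * K * Real.exp (-2 * l) * u p) * (2 * F (κ p.1)) :=
                mul_le_mul (norm_dr_sq_le hg hK l x (π p.1)) (hF.grad _) (sq_nonneg _)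
                  (by have := u0 p; positivity)
            _ = _ := by ring
        have e1 := real_pt (a := ‖dr g1 l x (π p.1)‖ * ‖dF (κ p.1)‖) h0 (Real.sq_sqrt hp)
          (norm_nonneg (κ p.1)) hy (by positivity) (by positivity) ha2' hbK hcK
        have e2 : (8 * K * δ * Real.exp (-2 * l)) * (u p * F (κ p.1)) =
            δ * (8 * K * Real.exp (-2 * l) * (u p * F (κ p.1))) := by ring
        rw [e2]
        refine le_trans (le_of_eq ?_) e1
        ring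
      · rw [indicator_of_notMem hp2]
        have h3 : Real.exp l ≤ ‖π p.1 - x‖ := not_lt.1 hp2
        rw [dr_zero hg.k0 h3, hg.k0.zero _ (Ker.one_le_of x h3), norm_zero, abs_zero]
        have := u0 p
        have h4 : 0 ≤ 8 * K * δ * Real.exp (-2 * l) * (u p * F (κ p.1)) := by positivity
        simpa using h4
  have e0 : ∫ p, ((ovr π x (Real.exp l)).indicator
      (fun p => a1 * tl π p.2 + a2) p + (8 * K * δ * Real.exp (-2 * l)) * (u p * F (κ p.1))) ∂W =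
      (a1 * TB W π x (Real.exp l) + a2 * MB W π x (Real.exp l)) +
        (8 * K * δ * Real.exp (-2 * l)) * ∫ p, u p * F (κ p.1) ∂W := by
    rw [integral_add iI (iuF.const_mul _), integral_const_mul,
      integral_indicator (measurableSet_ovr π x _)]
    congr 1
    have i1 : Integrable (fun p : Euc k × L k => a1 * tl π p.2) (W.restrict (ovr π x (Real.exp l))) :=
      (iT.const_mul a1).restrict
    rw [integral_add i1 (integrable_const _), integral_const_mul, integral_const]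
    simp only [Measure.real, Measure.restrict_apply_univ, smul_eq_mul]
    unfold TB MB
    ring
  rw [e0] at h2
  have hnu : nuG W π κ x F g1 l = Real.exp (-m * l) * (2 * ∫ p, u p * F (κ p.1) ∂W) := by
    unfold nuG
    congr 1
    rw [← integral_const_mul]
    refine integral_congr_ae (Eventually.of_forall fun p => ?_)
    simp only [hu]
    ring
  have h6 : Real.exp ((2 - m) * l) * Real.exp (-2 * l) = Real.exp (-m * l) := by
    rw [← Real.exp_add]; congr 1; ring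
  have h7 : Real.exp ((2 - m) * l) = Real.exp l ^ 2 * Real.exp (-m * l) := by
    rw [← Real.exp_nat_mul, ← Real.exp_add]; congr 1; push_cast; ring
  calc Real.exp ((2 - m) * l) * |FV W (X2 π κ x dF g l)|
      ≤ Real.exp ((2 - m) * l) * ((a1 * TB W π x (Real.exp l) + a2 * MB W π x (Real.exp l)) +
        (8 * K * δ * Real.exp (-2 * l)) * ∫ p, u p * F (κ p.1) ∂W) :=
        mul_le_mul_of_nonneg_left h2 (Real.exp_pos _).le
    _ = a1 * tb W π x l + 4 * K * δ * nuG W π κ x F g1 l +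
        a2 * Real.exp l ^ 2 * mb W π x l := by
        have h9 : 4 * K * δ * nuG W π κ x F g1 l = Real.exp ((2 - m) * l) *
            ((8 * K * δ * Real.exp (-2 * l)) * ∫ p, u p * F (κ p.1) ∂W) := by
          rw [hnu, ← h6]; ring
        have h10 : a2 * Real.exp l ^ 2 * mb W π x l =
            Real.exp ((2 - m) * l) * (a2 * MB W π x (Real.exp l)) := by
          unfold mb
          rw [h7]; ring
        rw [h9, h10]
        unfold tb
        ring

theorem tb_le_en (h : CylAS W π κ x₀ R h₀ δ) (x : Euc m) (l : ℝ) :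
    TB W π x (Real.exp l) ≤ (enOf W π κ (Well_761.cyl x (Real.exp l) univ)).toReal := by
  have h1 := tS_le_en (h.fr x (l + 1)) (by linarith : l < l + 1) (S := (univ : Set (Euc n)))
    MeasurableSet.univ
  refine le_trans (le_of_eq ?_) h1
  unfold TB tS
  congr 2
  ext p
  simp only [ovr, mem_ofPred_eq, mem_univ, and_true]
  have h2 : Real.exp (2 * l) = Real.exp l ^ 2 := by
    rw [← Real.exp_nat_mul]; norm_num
  rw [h2]
  exact (sq_lt_sq₀ (norm_nonneg _) (Real.exp_pos _).le).symm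

theorem et_le_tb (h : CylAS W π κ x₀ R h₀ δ) (hg : Prof g g1 g2) {K : ℝ} (hK : Bd g g1 K)
    (x : Euc m) (l : ℝ) : et W π x g1 l ≤ 2 * K * tb W π x l := by
  have : IsFiniteMeasure W := ⟨h.fin⟩
  have iT : Integrable (fun p : Euc k × L k => tl π p.2) W :=
    h.integrable_continuous (CylAS.continuous_tl π)
  have h1 : ∫ p, tl π p.2 * (-2 * (Real.exp (-2 * l) * ‖π p.1 - x‖ ^ 2 *
        g1 (Real.exp (-2 * l) * ‖π p.1 - x‖ ^ 2))) ∂W ≤ 2 * K * TB W π x (Real.exp l) := by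
    unfold TB
    rw [← integral_const_mul, ← integral_indicator (measurableSet_ovr π x _)]
    refine integral_mono_ae (h.int_ck (f := fun t => -2 * (t * g1 t)) (CylAS.continuous_tl π)
      (continuous_const.mul (continuous_id.mul hg.k0.cont)) x l)
      (((iT.const_mul (2 * K)).integrableOn).integrable_indicator (measurableSet_ovr π x _)) ?_
    filter_upwards [h.tl_nonneg'] with p hp
    by_cases hp2 : p ∈ ovr π x (Real.exp l)
    · rw [indicator_of_mem hp2]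
      have h3 := (abs_le.1 (hK.b2 _ (scaled_nonneg l x (π p.1)))).1
      have h4 : -2 * (Real.exp (-2 * l) * ‖π p.1 - x‖ ^ 2 *
        g1 (Real.exp (-2 * l) * ‖π p.1 - x‖ ^ 2)) ≤ 2 * K := by linarith
      calc tl π p.2 * (-2 * (Real.exp (-2 * l) * ‖π p.1 - x‖ ^ 2 *
            g1 (Real.exp (-2 * l) * ‖π p.1 - x‖ ^ 2))) ≤ tl π p.2 * (2 * K) :=
            mul_le_mul_of_nonneg_left h4 hp
        _ = _ := by ring
    · rw [indicator_of_notMem hp2]
      have h3 : Real.exp l ≤ ‖π p.1 - x‖ := not_lt.1 hp2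
      rw [hg.k0.zero' _ (Ker.one_le_of x h3)]
      simp
  unfold et tb
  calc Real.exp ((2 - m) * l) * _ ≤ Real.exp ((2 - m) * l) * (2 * K * TB W π x (Real.exp l)) :=
        mul_le_mul_of_nonneg_left h1 (Real.exp_pos _).le
    _ = _ := by ring

theorem real_s2 {X nu a : ℝ} (hX : 0 ≤ X) (hnu : 0 ≤ nu) :
    √X * √(2 * nu / 2) * a ≤ (a ^ 2 * X + nu) / 2 := by
  have a1 : √(2 * nu / 2) = √nu := by congr 1; ring
  rw [a1]
  have a2 : (√X) ^ 2 = X := Real.sq_sqrt hX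
  have a3 : (√nu) ^ 2 = nu := Real.sq_sqrt hnu
  have a4 : 0 ≤ (√X * a - √nu) ^ 2 := sq_nonneg _
  have a5 : (√X * a - √nu) ^ 2 = X * a ^ 2 - 2 * (√X * √nu * a) + nu := by
    rw [sub_sq, mul_pow, a2, a3]; ring
  linarith

theorem real_wf {A2 A3 δ r K B q s h tb tb' mb nu P S1 S23 ρ : ℝ} (h0 : 0 ≤ δ) (hr : 0 ≤ r)
    (hK : 0 ≤ K) (hB : 0 ≤ B) (hs : 0 ≤ s) (hsρ : s ≤ ρ)
    (hmb : 0 ≤ mb) (hP : 0 ≤ P) (htb' : 0 ≤ tb')
    (e2 : A2 ≤ (δ * (1 + 2 * (K * B)) + r * (K * q)) * tb + 4 * K * δ * nu +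
      δ * (h ^ 2 * (1 + K * B) + (K * q) ^ 2) * s ^ 2 * mb)
    (e3 : A3 ≤ δ * q ^ 2 * ((3 + s) * K) * (tb' + h ^ 2 * mb) + δ / 2 * S1 + δ * S23)
    (hS1 : S1 ≤ K * tb + nu) (hS : S23 ≤ (h ^ 2 * s ^ 2 * (K * mb) + nu) / 2)
    (ht : tb ≤ s ^ 2 * P) (ht' : tb' ≤ P) (hq : 0 ≤ q)
    (hqs : q * s ^ 2 ≤ (q ^ 2 + ρ ^ 2 * s ^ 2) / 2) :
    2 * A3 + A2 ≤ (δ * (1 + 2 * (K * B) + 2 * K + 2 * (3 + ρ) * K) + r * K * (1 + ρ ^ 2)) *
      (s ^ 2 + q ^ 2) * P + (4 * K + 2) * δ * nu +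
      δ * ((h ^ 2 * (1 + K * B + K) + (K * q) ^ 2) * s ^ 2 + 2 * (3 + ρ) * K * q ^ 2 * h ^ 2) *
        mb := by
  have f1 : δ * q ^ 2 * ((3 + s) * K) * (tb' + h ^ 2 * mb) ≤
      δ * q ^ 2 * ((3 + ρ) * K) * (P + h ^ 2 * mb) := by
    have hρ : 0 ≤ ρ := hs.trans hsρ
    have h1 : 0 ≤ tb' + h ^ 2 * mb := by positivity
    have h2 : 0 ≤ δ * q ^ 2 * ((3 + ρ) * K) := by positivity
    gcongr
  have f2 : δ / 2 * S1 ≤ δ / 2 * (K * tb + nu) := mul_le_mul_of_nonneg_left hS1 (by positivity)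
  have f3 : δ * S23 ≤ δ * ((h ^ 2 * s ^ 2 * (K * mb) + nu) / 2) :=
    mul_le_mul_of_nonneg_left hS h0
  have f4 : (δ * (1 + 2 * (K * B)) + r * (K * q) + δ * K) * tb ≤
      (δ * (1 + 2 * (K * B)) + r * (K * q) + δ * K) * (s ^ 2 * P) :=
    mul_le_mul_of_nonneg_left ht (by positivity)
  have f5 : r * K * (q * s ^ 2) * P ≤ r * K * ((q ^ 2 + ρ ^ 2 * s ^ 2) / 2) * P := by gcongr
  have f6 : 0 ≤ r * K * P * q ^ 2 := by positivity
  have f7 : 0 ≤ r * K * P * s ^ 2 := by positivity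
  have f8 : 0 ≤ r * K * P * (ρ ^ 2 * q ^ 2) := by positivity
  have f9 : 0 ≤ r * K * P * (ρ ^ 2 * s ^ 2) := by positivity
  have f10 : 0 ≤ δ * (1 + 2 * (K * B) + 2 * K) * q ^ 2 * P := by positivity
  have f11 : 0 ≤ δ * (2 * (3 + ρ) * K) * s ^ 2 * P := by
    have : 0 ≤ ρ := hs.trans hsρ
    positivity
  have f12 : 0 ≤ δ * K * s ^ 2 * P := by positivity
  nlinarith

/-- the wells are wells -/
theorem well_wells {C : Finset (Euc n)} {q : ℝ} (hq : 0 < q) (hC : Well_761.Sep C q) :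
    Well (Well_761.wells C q) (Well_761.wellsG C q) (Well_761.wellsH C q) where
  hasF := (Well_761.test_wells hq hC).dF
  hasdF := (Well_761.test_wells hq hC).dG
  contH := (test_c2w (Well_761.test_wells hq hC)).contH
  nonneg := Well_761.wells_nonneg hq hC
  grad := Well_761.wellsG_sq_le hq hC

/-- the additive error of the wells in the class `CylAS` -/
def erw (δ K h₀ ρ₀ : ℝ) (W : Measure (Euc k × L k)) (π : Euc k →L[ℝ] Euc m) (x : Euc m)
    (l q : ℝ) : ℝ :=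
  δ * ((h₀ ^ 2 * (1 + K * (1 + Well_761.etaC / 8) + K) + (K * q) ^ 2) * Real.exp l ^ 2 +
    2 * (3 + ρ₀) * K * q ^ 2 * h₀ ^ 2) * mb W π x l

/-- **`WFlow` in the class `CylAS`** -/
theorem wflow_as (h : CylAS W π κ x₀ R h₀ δ) (h0 : 0 ≤ δ) (hh : 0 ≤ h₀) (hρ : ρ₀ ≤ R)
    (hρ0 : 0 ≤ ρ₀) (hg : Prof g g1 g2) {K : ℝ} (hKb : Bd g g1 K) (hKb1 : Bd g1 g2 K)
    (hg0 : ∀ t, 0 ≤ t → 0 ≤ g t) :
    Well_761.WFlow m (kap g1) (muOf W π κ) (enOf W π κ) (erw δ K h₀ ρ₀ W π)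
      (K * (1 + Well_761.etaC / 8) + 6 * K +
        (δ * (1 + 2 * (K * (1 + Well_761.etaC / 8)) + 2 * K + 2 * (3 + ρ₀) * K) +
          √δ * K * (1 + ρ₀ ^ 2)))
      ((4 * K + 2) * δ) x₀ ρ₀ := by
  have hK0 := hKb.nonneg
  have hη := Well_761.etaC_nonneg
  refine wflow_of h.fr h.hgt' hg hg0 (fun t ht => (le_abs_self _).trans (hKb.b0 t ht))
    hKb.b1 hKb1.b2 (by positivity) (by positivity) ?_
  intro x l hx C q hq hC
  have hT := Well_761.test_wells hq hC
  have hF := well_wells hq hC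
  have hl : ‖x - x₀‖ + Real.exp l ≤ R := by
    rw [← dist_eq_norm]; exact hx.trans hρ
  have hs := Real.exp_pos l
  have hsρ : Real.exp l ≤ ρ₀ := by
    have := dist_nonneg (x := x) (y := x₀)
    linarith
  have e2 := x2_wf h h0 hg hKb hF hT.bG hT.bA hl
  have e3 := h.x3_sharp h0 hh hg hKb1 hF (F₀ := q ^ 2)
    (fun y _ => (le_abs_self _).trans (hT.bF y)) hl
  rw [nu_eq hg W π κ x l hT.meas]
  set nu := nuG W π κ x (Well_761.wells C q) g1 l with hnu
  have hIF : IF W π κ x (Well_761.wells C q) g1 l = 2 * nu := by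
    rw [hnu, IF_eq_nuG]; ring
  have hnu0 : 0 ≤ nu := by
    have := Cy_870.IF_nonneg hF hg W (x := x) (π := π) (κ := κ) l
    rw [hIF] at this
    linarith
  rw [hIF] at e3
  have hmb := mb_nonneg (W := W) (π := π) x l
  have htb := h.tb_nonneg x l
  have het := h.et_nonneg hg x l
  have hett := et_le_tb h hg hKb x l
  -- square roots
  have s1 : √(et W π x g1 l * (2 * nu)) ≤ K * tb W π x l + nu := by
    refine Real.sqrt_le_iff.2 ⟨by positivity, ?_⟩
    nlinarith [sq_nonneg (K * tb W π x l - nu)]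
  have s2 := real_s2 (X := K * mb W π x l) (a := h₀ * Real.exp l) (by positivity) hnu0
  have hen := tb_le_en h x l
  set E := (enOf W π κ (Well_761.cyl x (Real.exp l) univ)).toReal with hE
  have hE0 : 0 ≤ E := ENNReal.toReal_nonneg
  set P := Real.exp (-(m * l)) * E with hP
  have hP0 : 0 ≤ P := by positivity
  have t1 : tb W π x l ≤ Real.exp (2 * l) * P := by
    have h6 : Real.exp ((2 - m) * l) = Real.exp (2 * l) * Real.exp (-(m * l)) := by
      rw [← Real.exp_add]; congr 1; ring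
    unfold tb
    rw [h6, hP, mul_assoc]
    gcongr
  have t2 : Real.exp (-2 * l) * tb W π x l ≤ P := by
    have h6 : Real.exp (-2 * l) * Real.exp (2 * l) = 1 := by
      rw [← Real.exp_add]
      have : -2 * l + 2 * l = 0 := by ring
      rw [this, Real.exp_zero]
    calc Real.exp (-2 * l) * tb W π x l ≤ Real.exp (-2 * l) * (Real.exp (2 * l) * P) := by gcongr
      _ = (Real.exp (-2 * l) * Real.exp (2 * l)) * P := by ring
      _ = P := by rw [h6, one_mul]
  have hexp2 : Real.exp (2 * l) = Real.exp l ^ 2 := by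
    rw [← Real.exp_nat_mul]; norm_num
  have t3 : q * Real.exp (2 * l) ≤ (q ^ 2 + ρ₀ ^ 2 * Real.exp (2 * l)) / 2 := by
    rw [hexp2]
    have h7 : Real.exp l ^ 2 ≤ ρ₀ ^ 2 := pow_le_pow_left₀ hs.le hsρ 2
    nlinarith [sq_nonneg (q - Real.exp l ^ 2), sq_nonneg (Real.exp l)]
  have key := real_wf (A2 := Real.exp ((2 - m) * l) *
      |FV W (X2 π κ x (Well_761.wellsG C q) g l)|)
    (A3 := Real.exp (-m * l) * |FV W (X3 π κ x (Well_761.wells C q) g1 l)|) (δ := δ) (r := √δ)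
    (K := K) (B := 1 + Well_761.etaC / 8) (q := q) (s := Real.exp l) (h := h₀)
    (tb := tb W π x l) (tb' := Real.exp (-2 * l) * tb W π x l) (mb := mb W π x l) (nu := nu)
    (P := P) (S1 := √(et W π x g1 l * (2 * nu)))
    (S23 := √(K * mb W π x l) * √(2 * nu / 2) * (h₀ * Real.exp l)) (ρ := ρ₀) h0
    (Real.sqrt_nonneg _) hK0 (by positivity) hs.le hsρ hmb hP0 (by positivity) e2
    (e3.trans (le_of_eq (by ring))) s1 (s2.trans (le_of_eq (by ring)))
    (by rw [← hexp2]; exact t1) t2 hq.le (by rw [← hexp2]; exact t3)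
  rw [hexp2]
  unfold erw
  have g1' : 2 * Real.exp (-m * l) * |FV W (X3 π κ x (Well_761.wells C q) g1 l)| +
      Real.exp ((2 - m) * l) * |FV W (X2 π κ x (Well_761.wellsG C q) g l)| =
      2 * (Real.exp (-m * l) * |FV W (X3 π κ x (Well_761.wells C q) g1 l)|) +
      Real.exp ((2 - m) * l) * |FV W (X2 π κ x (Well_761.wellsG C q) g l)| := by ring
  rw [g1']
  refine key.trans (le_of_eq ?_)
  rw [hP]
  ring

end Crest.Agent.R234.Wi_870
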