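import Crest.Agent.R234.Thv2_561
import Crest.Agent.R234.Wfl1_214
import Crest.Agent.R234.Wi7_870
import Crest.Agent.R234.Shp8_98

/-!
# Row 234, N5/N7-AV (helper561), part 3: the small terms of `HLoc`

Averaged bound of the first variation term of (W2), (W3) of the wells, of the averaged anomaly and of
the tilt on the balls about the translated centres.
-/

set_option autoImplicit false
set_option linter.unusedSectionVars false

open MeasureTheory Set Function Filter Topology Metric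
open Crest.GeometryTopology.Submanifold
open Crest.Agent.R234.Vf_884 Crest.Agent.R234.Ar_870 Crest.Agent.R234.Cy_870
open Crest.Agent.R234.Avg_387 Crest.Agent.R234.N5_372 Crest.Agent.R234.Asl_214
open Crest.Agent.R234.Raw_387 Crest.Agent.R234.Shp_98
open Crest.Agent.R234.Wi_870 (abs_av_le av_const)
open scoped ENNReal NNReal InnerProductSpace

noncomputable section

namespace Crest.Agent.R234.Thin_561

variable {m n k d : ℕ}

variable {π : Euc k →L[ℝ] Euc m} {κ : Euc k →L[ℝ] Euc n} {x y z ν : Euc m} {L₀ : ℝ}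
  {V W : Measure (Euc k × L k)} {g g1 g2 : ℝ → ℝ} {x₀ : Euc m} {R h₀ τ δ : ℝ} {dw : Euc m → ℝ}
  {F : Euc n → ℝ} {dF : Euc n → Euc n} {H : Euc n → L n}

/-- the averaged anomaly by the anomaly functional on the ball of radius `e^{l+1}` -/
theorem Gen.abs_bba_le (h : Gen W π κ) (hw : CW dw τ) (hg : Prof g g1 g2) {K Q B l : ℝ}
    (hK : ∀ t, 0 ≤ t → |g t| ≤ K) (hb : BSm W π Q x (l + 1) B)
    (hτ : τ + Real.exp l ≤ Real.exp (l + 1)) :
    |bba dw W π g Q x l| ≤ K * (Real.exp (m - 2) * B) * ∫ h, dw h := by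
  have hK0 : 0 ≤ K := (abs_nonneg _).trans (hK 0 le_rfl)
  have hl1 : l < l + 1 := by linarith
  have c1 : CO x τ (l + 1) (fun y l => bb W π y g Q l) := CO_of_cont (h.cont2_bb hg.k0 Q) x τ (l + 1)
  have c2 : CO x τ (l + 1) (fun (_ : Euc m) (_ : ℝ) => K * (Real.exp (m - 2) * B)) :=
    CO_const _ continuous_const
  have h1 := abs_av_le hw c1 c2 hl1 fun y hy => by
    have hyx : ‖y - x‖ ≤ τ := by rwa [mem_closedBall_iff_norm] at hy
    have h2 := bb_le hg Q hK (hb.mono (y := y) (l := l) (by linarith))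
    have h3 : ((m : ℝ) - 2) * (l + 1 - l) = m - 2 := by ring
    rwa [h3] at h2
  rw [av_const] at h1
  exact h1

/-- sharp energies about the translated centres -/
theorem Gen.tb_le_av (h : Gen W π κ) (hdm : d + 2 = m) (hw : CW dw τ) (hg : Prof g g1 g2)
    {c l A : ℝ} (hc : 0 < c) (hM : 0 < ∫ h, dw h)
    (hcr : ∀ t, 0 ≤ t → t ≤ 1 / 4 → c ≤ g t) (hτ : τ ≤ Real.exp l)
    (hA : eea dw W π g x (l + 4) ≤ A) (hy : y ∈ closedBall x τ) :
    tb W π y l ≤ (Real.exp d * Cg d c (∫ h, dw h)) * A := by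
  have hyx : ‖y - x‖ ≤ τ := by rwa [mem_closedBall_iff_norm] at hy
  have he1 : Real.exp (l + 1) = Real.exp l * Real.exp 1 := Real.exp_add _ _
  have he2 : (2 : ℝ) ≤ Real.exp 1 := by linarith [Real.add_one_le_exp (1:ℝ)]
  have hexp0 : 0 < Real.exp l := Real.exp_pos l
  have h1 := h.eM8 hdm hw hg hc hM hcr (x := x) (l := l + 1) (by rw [he1]; nlinarith) (A := A) (by
      have : l + 1 + 3 = l + 4 := by ring
      rw [this]; exact hA)
  rw [h.eM_toReal measurableSet_closedBall] at h1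
  have h2 : TB W π y (Real.exp l) ≤
      ∫ p in ov π (closedBall x (8 * Real.exp (l + 1))), tl π p.2 ∂W := by
    unfold TB
    refine setIntegral_mono_set h.integrable_tl.integrableOn ?_ ?_
    · exact ae_restrict_of_ae (by filter_upwards [h.tl_ae] with p hp using hp.1)
    · refine LE.le.eventuallyLE ?_
      intro p hp
      have hp' : ‖π p.1 - y‖ < Real.exp l := hp
      change π p.1 ∈ closedBall x (8 * Real.exp (l + 1))
      rw [mem_closedBall, dist_eq_norm]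
      have := norm_sub_le_norm_sub_add_norm_sub (π p.1) y x
      rw [he1]
      nlinarith
  have hm : ((m : ℕ) : ℝ) = d + 2 := by rw [← hdm]; push_cast; ring
  have h3 : Real.exp ((2 - m) * l) * Real.exp (l + 1) ^ d = Real.exp d := by
    rw [← Real.exp_nat_mul, ← Real.exp_add, hm]
    congr 1
    ring
  unfold tb
  calc Real.exp ((2 - m) * l) * TB W π y (Real.exp l)
      ≤ Real.exp ((2 - m) * l) * (Cg d c (∫ h, dw h) * A * Real.exp (l + 1) ^ d) :=
        mul_le_mul_of_nonneg_left (h2.trans h1) (Real.exp_pos _).le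
    _ = Cg d c (∫ h, dw h) * A * (Real.exp ((2 - m) * l) * Real.exp (l + 1) ^ d) := by ring
    _ = _ := by rw [h3]; ring

/-- averaged first variation term of (W2), (W3) -/
theorem abs_av_f2_le (h : CylAS W π κ x₀ R h₀ δ) (h0 : 0 ≤ δ) (hτ : 0 ≤ τ)
    (hd : CW dw τ) (hg : Prof g g1 g2) {K : ℝ} (hK : Bd g g1 K) (hF : Well F dF H) {d₀ B₀ : ℝ}
    (hd₀ : ∀ y, ‖y‖ ≤ h₀ → ‖dF y‖ ≤ d₀) (hB₀ : ∀ y, ‖y‖ ≤ h₀ → ‖H y‖ ≤ B₀) (hd0 : 0 ≤ d₀)
    (hB0 : 0 ≤ B₀) {l : ℝ} (hl : ‖x - x₀‖ + τ + Real.exp l ≤ R)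
    {tM mM : ℝ} (htb : ∀ y ∈ closedBall x τ, tb W π y l ≤ tM)
    (hmb : ∀ y ∈ closedBall x τ, mb W π y l ≤ mM) :
    |av dw (Avg_387.f2 W π κ dF g) x l| ≤
      δ * IFa dw W π κ F g1 x l + ((K * (3 / 2 * δ * (1 + B₀) + √δ * d₀)) * tM +
        K * δ * ((3 + B₀) / 2 * h₀ ^ 2 + d₀ ^ 2) * (Real.exp l ^ 2 * mM)) * ∫ v, dw v := by
  have hf := ff_of_cylAS h
  have hl1 : l < l + 1 := by linarith
  have hK0 := hK.nonneg
  have hA := hf.afr hτ x (l + 1)
  have hHg : Hgt W π κ x (Real.log (Real.exp (l + 1) + τ)) h₀ := hgt_all h.hgt x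
  have c2 : CO x τ (l + 1) (fun y l => Avg_387.f2 W π κ dF g y l) := hA.co_f2 hHg hF hg
  have cI : CO x τ (l + 1) (fun y l => IF W π κ y F g1 l) := hA.co_IF hHg hF hg.k1
  set D₀ : ℝ := (K * (3 / 2 * δ * (1 + B₀) + √δ * d₀)) * tM +
        K * δ * ((3 + B₀) / 2 * h₀ ^ 2 + d₀ ^ 2) * (Real.exp l ^ 2 * mM) with hD₀
  have cD : CO x τ (l + 1) (fun (_ : Euc m) (_ : ℝ) => D₀) := CO_const _ continuous_const
  have h1 := abs_av_le hd c2 ((cI.const_mul δ).add cD) hl1
    fun y hy => by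
      have hyx : ‖y - x‖ ≤ τ := by rwa [mem_closedBall_iff_norm] at hy
      have hy2 : ‖y - x₀‖ + Real.exp l ≤ R := by
        have := norm_sub_le_norm_sub_add_norm_sub y x x₀
        linarith
      have h2 := h.x2_young h0 hg hK hF hd₀ hB₀ hy2
      have h3 : |Avg_387.f2 W π κ dF g y l| =
          Real.exp ((2 - m) * l) * |FV W (X2 π κ y dF g l)| := by
        unfold Avg_387.f2
        rw [abs_mul, abs_of_pos (Real.exp_pos _)]
      rw [h3]
      have := Real.sqrt_nonneg δ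
      have h4 : (K * (3 / 2 * δ * (1 + B₀) + √δ * d₀)) * tb W π y l ≤
          (K * (3 / 2 * δ * (1 + B₀) + √δ * d₀)) * tM :=
        mul_le_mul_of_nonneg_left (htb y hy) (by positivity)
      have h5 : K * δ * ((3 + B₀) / 2 * h₀ ^ 2 + d₀ ^ 2) * (Real.exp l ^ 2 * mb W π y l) ≤
          K * δ * ((3 + B₀) / 2 * h₀ ^ 2 + d₀ ^ 2) * (Real.exp l ^ 2 * mM) :=
        mul_le_mul_of_nonneg_left (mul_le_mul_of_nonneg_left (hmb y hy) (by positivity))
          (by positivity)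
      refine h2.trans ?_
      rw [hD₀]
      linarith
  refine h1.trans (le_of_eq ?_)
  rw [av_add hd (cI.const_mul δ) cD hl1, av_const_mul, av_const]
  rfl

/-- the constant of the Hessians of the wells -/
def Bw : ℝ := 1 + Well_761.etaC / 8

theorem Bw_nonneg : 0 ≤ Bw := by
  have := Well_761.etaC_nonneg
  unfold Bw
  positivity

theorem norm_dFW_le (w : WP n) (y : Euc n) : ‖dFW w y‖ ≤ qW w :=
  (Well_761.test_wells w.2.2 w.2.1).bG y

theorem norm_HW_le (w : WP n) (y : Euc n) : ‖HW w y‖ ≤ Bw :=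
  (Well_761.test_wells w.2.2 w.2.1).bA y

/-- the same for wells -/
theorem abs_av_f2_wells (h : CylAS W π κ x₀ R h₀ δ) (h0 : 0 ≤ δ) (hτ : 0 ≤ τ)
    (hd : CW dw τ) (hg : Prof g g1 g2) {K : ℝ} (hK : Bd g g1 K) (w : WP n)
    {l : ℝ} (hl : ‖x - x₀‖ + τ + Real.exp l ≤ R)
    {tM mM : ℝ} (htb : ∀ y ∈ closedBall x τ, tb W π y l ≤ tM)
    (hmb : ∀ y ∈ closedBall x τ, mb W π y l ≤ mM) :
    |av dw (Avg_387.f2 W π κ (dFW w) g) x l| ≤
      δ * IFw dw W π κ g1 x w l + ((K * (3 / 2 * δ * (1 + Bw) + √δ * qW w)) * tM +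
        K * δ * ((3 + Bw) / 2 * h₀ ^ 2 + qW w ^ 2) * (Real.exp l ^ 2 * mM)) * ∫ v, dw v :=
  abs_av_f2_le h h0 hτ hd hg hK (well_FW w) (fun y _ => norm_dFW_le w y)
    (fun y _ => norm_HW_le w y) w.2.2.le Bw_nonneg hl htb hmb

theorem abs_t_le {t a K : ℝ} (ht : 0 ≤ t) (ht1 : t ≤ 1) (ha : |a| ≤ K) : -2 * (t * a) ≤ 2 * K := by
  have h1 := (abs_le.1 ha).1
  have hK : 0 ≤ K := (abs_nonneg _).trans ha
  nlinarith

/-- the averaged radial tilt energy -/
theorem eta_le_tM (h : CylAS W π κ x₀ R h₀ δ)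
    (hd : CW dw τ) (hg : Prof g g1 g2) {K : ℝ} (hK : Bd g g1 K) {l tM : ℝ}
    (htb : ∀ y ∈ closedBall x τ, tb W π y l ≤ tM) :
    eta dw W π g1 x l ≤ 2 * K * tM * ∫ v, dw v := by
  have hf := ff_of_cylAS h
  have hl1 : l < l + 1 := by linarith
  have hK0 := hK.nonneg
  have ce : CO x τ (l + 1) (fun y l => Raw_387.et W π g1 y l) :=
    CO_of_cont (cont2_et hf hg) x τ (l + 1)
  have cD : CO x τ (l + 1) (fun (_ : Euc m) (_ : ℝ) => 2 * K * tM) := CO_const _ continuous_const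
  have h1 := av_mono hd ce cD hl1 fun y hy =>
    (Wi_870.et_le_tb h hg hK y l).trans (mul_le_mul_of_nonneg_left (htb y hy) (by positivity))
  rw [av_const] at h1
  exact h1

/-- the averaged kernel height -/
theorem Ya_le_mM (h : CylAS W π κ x₀ R h₀ δ)
    (hd : CW dw τ) (hg : Prof g g1 g2) {K : ℝ} (hK : Bd g g1 K) {l mM : ℝ}
    (hmb : ∀ y ∈ closedBall x τ, mb W π y l ≤ mM) :
    Ya dw W π κ g1 x l ≤ 2 * K * (h₀ ^ 2 * (Real.exp l ^ 2 * mM)) * ∫ v, dw v := by
  have : IsFiniteMeasure W := ⟨h.fin⟩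
  have hf := ff_of_cylAS h
  have hl1 : l < l + 1 := by linarith
  have hK0 := hK.nonneg
  have hcy := cf_yc (W := W) (κ := κ) h.hgt
  have cy : CO x τ (l + 1) (fun y l => kt W π (yc κ) g1 y l) :=
    CO_of_cont (cont2_kt hf hcy hg) x τ (l + 1)
  have cD : CO x τ (l + 1) (fun (_ : Euc m) (_ : ℝ) =>
    2 * K * (h₀ ^ 2 * (Real.exp l ^ 2 * mM))) := CO_const _ continuous_const
  have h1 := av_mono hd cy cD hl1 fun y hy => by
    have h2 : ∫ p, yc κ p * (-2 * (Real.exp (-2 * l) * ‖π p.1 - y‖ ^ 2 *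
        g1 (Real.exp (-2 * l) * ‖π p.1 - y‖ ^ 2))) ∂W ≤ 2 * K * h₀ ^ 2 * MB W π y (Real.exp l) := by
      have e1 : 2 * K * h₀ ^ 2 * MB W π y (Real.exp l) =
          ∫ p in ovr π y (Real.exp l), 2 * K * h₀ ^ 2 ∂W := by
        rw [integral_const]
        simp only [Measure.real, Measure.restrict_apply_univ, smul_eq_mul, MB]
        ring
      rw [e1, ← integral_indicator (measurableSet_ovr π y _)]
      refine integral_mono_ae ?_ ?_ ?_
      · refine (Fld_387.integrable_kt hf hcy hg y l |>.const_mul (Real.exp (-2 * l))).congr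
          (Eventually.of_forall fun p => ?_)
        simp only
        ring
      · exact (integrable_const _).indicator (measurableSet_ovr π y _)
      · filter_upwards [h.hgt] with p hp
        have h0' : 0 ≤ yc κ p := by unfold yc; positivity
        by_cases hp2 : p ∈ ovr π y (Real.exp l)
        · rw [indicator_of_mem hp2]
          have h3 := (abs_le.1 (hK.b2 _ (scaled_nonneg l y (π p.1)))).1
          have h4 : -2 * (Real.exp (-2 * l) * ‖π p.1 - y‖ ^ 2 *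
            g1 (Real.exp (-2 * l) * ‖π p.1 - y‖ ^ 2)) ≤ 2 * K := by linarith
          have h5 : yc κ p ≤ h₀ ^ 2 := pow_le_pow_left₀ (norm_nonneg _) hp 2
          calc yc κ p * (-2 * (Real.exp (-2 * l) * ‖π p.1 - y‖ ^ 2 *
                g1 (Real.exp (-2 * l) * ‖π p.1 - y‖ ^ 2))) ≤ yc κ p * (2 * K) :=
                mul_le_mul_of_nonneg_left h4 h0'
            _ ≤ h₀ ^ 2 * (2 * K) := mul_le_mul_of_nonneg_right h5 (by positivity)
            _ = _ := by ring
        · rw [indicator_of_notMem hp2]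
          have h3 : Real.exp l ≤ ‖π p.1 - y‖ := not_lt.1 hp2
          rw [hg.k0.zero' _ (Ker.one_le_of y h3)]
          simp
    have h7 : Real.exp ((2 - m) * l) = Real.exp l ^ 2 * Real.exp (-m * l) := by
      rw [← Real.exp_nat_mul, ← Real.exp_add]
      congr 1; push_cast; ring
    have h8 : Real.exp l ^ 2 * mb W π y l ≤ Real.exp l ^ 2 * mM :=
      mul_le_mul_of_nonneg_left (hmb y hy) (by positivity)
    unfold kt
    calc Real.exp ((2 - m) * l) * _ ≤ Real.exp ((2 - m) * l) *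
          (2 * K * h₀ ^ 2 * MB W π y (Real.exp l)) :=
          mul_le_mul_of_nonneg_left h2 (Real.exp_pos _).le
      _ = 2 * K * h₀ ^ 2 * (Real.exp l ^ 2 * mb W π y l) := by
          unfold mb
          rw [h7]; ring
      _ ≤ 2 * K * h₀ ^ 2 * (Real.exp l ^ 2 * mM) :=
          mul_le_mul_of_nonneg_left h8 (by positivity)
      _ = _ := by ring
  rw [av_const] at h1
  exact h1

theorem sqrt_mul_le_add {a b : ℝ} (ha : 0 ≤ a) (hb : 0 ≤ b) : √(a * b) ≤ a + b := by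
  refine (Real.sqrt_le_left (by positivity)).2 ?_
  nlinarith [mul_nonneg ha hb]

/-- the error part of `IF' / 2` -/
theorem abs_Gm_le_young (h : CylAS W π κ x₀ R h₀ δ) (h0 : 0 ≤ δ) (hh : 0 ≤ h₀) (hτ : 0 ≤ τ)
    (hd : CW dw τ) (hg : Prof g g1 g2) {K : ℝ} (hK : Bd g g1 K) (hK' : Bd g1 g2 K) {l : ℝ}
    (hl : ‖x - x₀‖ + τ + Real.exp l ≤ R) (hl0 : l ≤ 0) {tM mM : ℝ} (htM : 0 ≤ tM)
    (htb : ∀ y ∈ closedBall x τ, tb W π y l ≤ tM)
    (hmb : ∀ y ∈ closedBall x τ, mb W π y l ≤ mM) (w : WP n) :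
    |Gm dw W π κ g1 g2 x w l| ≤
      2 * δ * IFw dw W π κ g1 x w l + δ * (2 * K * tM * ∫ v, dw v) +
      δ * (2 * K * (h₀ ^ 2 * (Real.exp l ^ 2 * mM)) * ∫ v, dw v) +
      tw K δ h₀ (∫ v, dw v) (qW w) tM mM l := by
  have hf := ff_of_cylAS h
  have h1 := abs_Gm_le h h0 hh hτ hd hg hK' hl hl0 htM htb hmb w
  have hI := IFw_nonneg (W := W) (π := π) (κ := κ) hd hg x w l
  have he := eta_nonneg hf hd hg x l
  have hY : 0 ≤ Ya dw W π κ g1 x l := Ya_nonneg h.hgt hd hg x l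
  have h2 := mul_le_mul_of_nonneg_left (sqrt_mul_le_add hI he) h0
  have h3 := mul_le_mul_of_nonneg_left (sqrt_mul_le_add hI hY) h0
  have h4 := mul_le_mul_of_nonneg_left (eta_le_tM h hd hg hK htb) h0
  have h5 := mul_le_mul_of_nonneg_left (Ya_le_mM h hd hg hK hmb) h0
  linarith

end Crest.Agent.R234.Thin_561
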