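import Crest.Agent.R234.Thv3_561

/-!
# Row 234, N5/N7-AV (helper561), part 4: the sum of the terms of `HLoc` at one centre and one scale
-/

set_option autoImplicit false
set_option linter.unusedSectionVars false

open MeasureTheory Set Function Filter Topology Metric
open Crest.GeometryTopology.Submanifold
open Crest.Agent.R234.Vf_884 Crest.Agent.R234.Ar_870 Crest.Agent.R234.Cy_870
open Crest.Agent.R234.Avg_387 Crest.Agent.R234.N5_372 Crest.Agent.R234.Asl_214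
open Crest.Agent.R234.Raw_387 Crest.Agent.R234.Shp_98
open scoped ENNReal NNReal InnerProductSpace

noncomputable section

namespace Crest.Agent.R234.Thin_561

variable {m n k d : ℕ}

variable {π : Euc k →L[ℝ] Euc m} {κ : Euc k →L[ℝ] Euc n} {x y z ν : Euc m} {L₀ : ℝ}
  {V W : Measure (Euc k × L k)} {g g1 g2 : ℝ → ℝ} {x₀ : Euc m} {R h₀ τ δ : ℝ} {dw : Euc m → ℝ}

/-- `EEa = bba + eea / 2` -/
theorem Gen.EEa_eq (h : Gen W π κ) (hw : CW dw τ) (hg : Ker g g1) (Q : ℝ) (x : Euc m) (l : ℝ) :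
    EEa dw W π g Q x l = bba dw W π g Q x l + eea dw W π g x l / 2 := by
  have hl1 : l < l + 1 := by linarith
  have c1 : CO x τ (l + 1) (fun y l => bb W π y g Q l) := CO_of_cont (h.cont2_bb hg Q) x τ (l + 1)
  have c2 : CO x τ (l + 1) (fun y l => ee W π y g l) := CO_of_cont (h.cont2_ee hg) x τ (l + 1)
  have h1 : EEa dw W π g Q x l =
      av dw (fun y l => bb W π y g Q l + (1 / 2) * ee W π y g l) x l := by
    unfold EEa
    refine av_congr hw fun y _ => ?_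
    unfold bb
    ring
  rw [h1, av_add hw c1 (c2.const_mul (1 / 2)) hl1, av_const_mul]
  unfold bba eea
  ring

/-- the constant of the small terms -/
def Ctot (d : ℕ) (K c M : ℝ) : ℝ :=
  1 + (K * (3 / 2 * (1 + Bw) + 1)) * (Real.exp d * Cg d c M) * M + K * (3 + Bw) / 2 * M +
    2 * K * (Real.exp d * Cg d c M) * M + 2 * K * M +
    K * M / 4 * (2 * (Real.exp d * Cg d c M) + 1)

theorem small_sum {K M G A ν δ sδ h₀ q s e2 mM IFv J f2 Gm B : ℝ} (hK : 0 ≤ K) (hM : 0 ≤ M)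
    (hG : 0 ≤ G) (hA : 0 ≤ A) (hν : 0 ≤ ν) (hν1 : ν ≤ 1) (hδ : 0 ≤ δ) (hsδ0 : 0 ≤ sδ)
    (hδs : δ = sδ ^ 2) (hsδ : sδ ≤ ν) (hq0 : 0 ≤ q) (hq1 : q ≤ 1) (hs : s * e2 = 1)
    (he2 : 0 ≤ e2) (hmM : 0 ≤ mM) (hqs : q ^ 2 ≤ ν * s) (hB : 0 ≤ B)
    (hms : δ * (h₀ ^ 2 + q ^ 2) * (s * mM) ≤ ν * A) (_ : 0 ≤ IFv) (hIF : IFv ≤ J)
    (hJ : 3 * δ * J ≤ ν * A)
    (hf2 : f2 ≤ δ * IFv + ((K * (3 / 2 * δ * (1 + B) + sδ * q)) * (G * A) +
        K * δ * ((3 + B) / 2 * h₀ ^ 2 + q ^ 2) * (s * mM)) * M)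
    (hGm : Gm ≤ 2 * δ * IFv + δ * (2 * K * (G * A) * M) + δ * (2 * K * (h₀ ^ 2 * (s * mM)) * M) +
      K * q ^ 2 * M / 4 * (δ * (e2 * (G * A) + h₀ ^ 2 * mM) + e2 * (G * A))) :
    f2 + Gm ≤ ν * (1 + (K * (3 / 2 * (1 + B) + 1)) * G * M + K * (3 + B) / 2 * M +
      2 * K * G * M + 2 * K * M + K * M / 4 * (2 * G + 1)) * A := by
  have hδν : δ ≤ ν := by
    rw [hδs]
    have := mul_le_mul hsδ (hsδ.trans hν1) hsδ0 hν
    nlinarith
  have hδ1 : δ ≤ 1 := hδν.trans hν1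
  have hs0 : 0 < s := by
    by_contra hcon
    push Not at hcon
    have := mul_nonpos_of_nonpos_of_nonneg hcon he2
    linarith
  have hGA : 0 ≤ G * A := mul_nonneg hG hA
  have hsm : 0 ≤ s * mM := mul_nonneg hs0.le hmM
  -- the terms
  have t1 : δ * IFv + 2 * δ * IFv ≤ ν * A := by
    have := mul_le_mul_of_nonneg_left hIF (by positivity : 0 ≤ 3 * δ)
    linarith
  have t2 : (K * (3 / 2 * δ * (1 + B) + sδ * q)) * (G * A) * M ≤
      ν * ((K * (3 / 2 * (1 + B) + 1)) * G * M) * A := by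
    have e1 : 3 / 2 * δ * (1 + B) + sδ * q ≤ ν * (3 / 2 * (1 + B) + 1) := by
      have e2 : sδ * q ≤ ν * 1 := mul_le_mul hsδ hq1 hq0 hν
      have e3 : δ * (3 / 2 * (1 + B)) ≤ ν * (3 / 2 * (1 + B)) :=
        mul_le_mul_of_nonneg_right hδν (by positivity)
      linarith
    calc (K * (3 / 2 * δ * (1 + B) + sδ * q)) * (G * A) * M =
        (3 / 2 * δ * (1 + B) + sδ * q) * (K * (G * A) * M) := by ring
      _ ≤ (ν * (3 / 2 * (1 + B) + 1)) * (K * (G * A) * M) :=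
        mul_le_mul_of_nonneg_right e1 (by positivity)
      _ = _ := by ring
  have t3 : K * δ * ((3 + B) / 2 * h₀ ^ 2 + q ^ 2) * (s * mM) * M ≤
      ν * (K * (3 + B) / 2 * M) * A := by
    have e1 : (3 + B) / 2 * h₀ ^ 2 + q ^ 2 ≤ (3 + B) / 2 * (h₀ ^ 2 + q ^ 2) := by
      have : 0 ≤ (1 + B) / 2 * q ^ 2 := by positivity
      linarith
    calc K * δ * ((3 + B) / 2 * h₀ ^ 2 + q ^ 2) * (s * mM) * M
        = ((3 + B) / 2 * h₀ ^ 2 + q ^ 2) * (K * δ * (s * mM) * M) := by ring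
      _ ≤ ((3 + B) / 2 * (h₀ ^ 2 + q ^ 2)) * (K * δ * (s * mM) * M) :=
          mul_le_mul_of_nonneg_right e1 (by positivity)
      _ = (δ * (h₀ ^ 2 + q ^ 2) * (s * mM)) * ((3 + B) / 2 * K * M) := by ring
      _ ≤ (ν * A) * ((3 + B) / 2 * K * M) := mul_le_mul_of_nonneg_right hms (by positivity)
      _ = _ := by ring
  have t4 : δ * (2 * K * (G * A) * M) ≤ ν * (2 * K * G * M) * A := by
    calc δ * (2 * K * (G * A) * M) ≤ ν * (2 * K * (G * A) * M) :=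
          mul_le_mul_of_nonneg_right hδν (by positivity)
      _ = _ := by ring
  have hh : δ * h₀ ^ 2 * (s * mM) ≤ ν * A := by
    have : 0 ≤ δ * q ^ 2 * (s * mM) := by positivity
    linarith
  have t5 : δ * (2 * K * (h₀ ^ 2 * (s * mM)) * M) ≤ ν * (2 * K * M) * A := by
    calc δ * (2 * K * (h₀ ^ 2 * (s * mM)) * M) = (δ * h₀ ^ 2 * (s * mM)) * (2 * K * M) := by ring
      _ ≤ (ν * A) * (2 * K * M) := mul_le_mul_of_nonneg_right hh (by positivity)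
      _ = _ := by ring
  have hqe : q ^ 2 * e2 ≤ ν := by
    calc q ^ 2 * e2 ≤ ν * s * e2 := mul_le_mul_of_nonneg_right hqs he2
      _ = ν * (s * e2) := by ring
      _ = ν := by rw [hs, mul_one]
  have t6 : K * q ^ 2 * M / 4 * (δ * (e2 * (G * A) + h₀ ^ 2 * mM) + e2 * (G * A)) ≤
      ν * (K * M / 4 * (2 * G + 1)) * A := by
    have e1 : q ^ 2 * (δ * (e2 * (G * A))) ≤ ν * (G * A) := by
      calc q ^ 2 * (δ * (e2 * (G * A))) = δ * ((q ^ 2 * e2) * (G * A)) := by ring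
        _ ≤ 1 * ((q ^ 2 * e2) * (G * A)) := mul_le_mul_of_nonneg_right hδ1 (by positivity)
        _ ≤ 1 * (ν * (G * A)) := by
            refine mul_le_mul_of_nonneg_left ?_ zero_le_one
            exact mul_le_mul_of_nonneg_right hqe hGA
        _ = _ := one_mul _
    have e3 : q ^ 2 * (e2 * (G * A)) ≤ ν * (G * A) := by
      calc q ^ 2 * (e2 * (G * A)) = (q ^ 2 * e2) * (G * A) := by ring
        _ ≤ ν * (G * A) := mul_le_mul_of_nonneg_right hqe hGA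
    have e4 : q ^ 2 * (δ * (h₀ ^ 2 * mM)) ≤ ν * A := by
      have e5 : mM = e2 * (s * mM) := by
        calc mM = (s * e2) * mM := by rw [hs, one_mul]
          _ = _ := by ring
      calc q ^ 2 * (δ * (h₀ ^ 2 * mM)) = q ^ 2 * (δ * (h₀ ^ 2 * (e2 * (s * mM)))) := by rw [← e5]
        _ = (q ^ 2 * e2) * (δ * h₀ ^ 2 * (s * mM)) := by ring
        _ ≤ 1 * (ν * A) := mul_le_mul (hqe.trans hν1) hh (by positivity) zero_le_one
        _ = ν * A := one_mul _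
    calc K * q ^ 2 * M / 4 * (δ * (e2 * (G * A) + h₀ ^ 2 * mM) + e2 * (G * A))
        = K * M / 4 * (q ^ 2 * (δ * (e2 * (G * A))) + q ^ 2 * (δ * (h₀ ^ 2 * mM)) +
          q ^ 2 * (e2 * (G * A))) := by ring
      _ ≤ K * M / 4 * (ν * (G * A) + ν * A + ν * (G * A)) :=
          mul_le_mul_of_nonneg_left (by linarith) (by positivity)
      _ = _ := by ring
  linarith

/-- **the sum of the terms**: `2 EEa ≤ Fm + Gm + small` -/
theorem loc_one (hdm : d + 2 = m) {K c M : ℝ} (hc : 0 < c) (hM0 : 0 < M)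
    (h : CylAS W π κ x₀ R h₀ δ) (h0 : 0 ≤ δ) (hh : 0 ≤ h₀) (hτ0 : 0 ≤ τ) (hw : CW dw τ)
    (hM : ∫ h, dw h = M) (hg : Prof g g1 g2) (hK : Bd g g1 K) (hK' : Bd g1 g2 K)
    (hcr : ∀ t, 0 ≤ t → t ≤ 1 / 4 → c ≤ g t)
    {l : ℝ} (hl : ‖x - x₀‖ + τ + Real.exp l ≤ R) (hl0 : l ≤ 0) (hτl : τ ≤ Real.exp l)
    {A ω' Cw wv ν mM J Q : ℝ} (hA : eea dw W π g x (l + 4) ≤ A)
    (hb : BSm W π Q x (l + 1) (ω' * (Cg d c M * A))) (v : WP n)
    (hwell : eea dw W π g x l ≤ Fm dw W π κ g x v l + av dw (f2 W π κ (dFW v) g) x l +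
      Cw * (Real.exp ((2 - m) * l) * wv))
    (hwv : wv = ω' * (Cg d c M * A) * Real.exp (l + 1) ^ d)
    (hν : 0 ≤ ν) (hν1 : ν ≤ 1) (hδν : √δ ≤ ν) (hq1 : qW v ≤ 1) (hqs : qW v ^ 2 ≤ ν * Real.exp l ^ 2)
    (hmb : ∀ y ∈ closedBall x τ, mb W π y l ≤ mM) (hmM : 0 ≤ mM)
    (hms : δ * (h₀ ^ 2 + qW v ^ 2) * (Real.exp l ^ 2 * mM) ≤ ν * A)
    (hIF : IFw dw W π κ g1 x v l ≤ J) (hJ : 3 * δ * J ≤ ν * A) :
    2 * EEa dw W π g Q x l ≤ Fm dw W π κ g x v l + Gm dw W π κ g1 g2 x v l +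
      (2 * K * (Real.exp d * Cg d c M) * M * ω' + Cw * (Real.exp d * Cg d c M) * ω' +
        ν * Ctot d K c M) * A := by
  have hgen := h.gen
  have hK0 := hK.nonneg
  have hA0 : 0 ≤ A := (hgen.eea_nonneg hw hg _ _).trans hA
  have hCg : 0 < Cg d c M := by unfold Cg; positivity
  have he1 : Real.exp (l + 1) = Real.exp l * Real.exp 1 := Real.exp_add _ _
  have he2 : (2 : ℝ) ≤ Real.exp 1 := by linarith [Real.add_one_le_exp (1:ℝ)]
  have hexp0 : 0 < Real.exp l := Real.exp_pos l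
  have hm : ((m : ℕ) : ℝ) = d + 2 := by rw [← hdm]; push_cast; ring
  have hMi : 0 < ∫ h, dw h := by rw [hM]; exact hM0
  -- the anomaly
  have b1 := hgen.abs_bba_le hw hg hK.b0 hb (by rw [he1]; nlinarith)
  rw [hM] at b1
  have b2 : ((m : ℕ) : ℝ) - 2 = d := by rw [hm]; ring
  rw [b2] at b1
  have b3 := (abs_le.1 b1).2
  -- the well term
  have w1 : Real.exp ((2 - m) * l) * wv = (Real.exp d * Cg d c M) * ω' * A := by
    have w2 : Real.exp ((2 - m) * l) * Real.exp (l + 1) ^ d = Real.exp d := by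
      rw [← Real.exp_nat_mul, ← Real.exp_add, hm]
      congr 1
      ring
    rw [hwv]
    calc Real.exp ((2 - m) * l) * (ω' * (Cg d c M * A) * Real.exp (l + 1) ^ d) =
        ω' * (Cg d c M * A) * (Real.exp ((2 - m) * l) * Real.exp (l + 1) ^ d) := by ring
      _ = _ := by rw [w2]; ring
  rw [w1] at hwell
  -- the tilt
  have htb : ∀ y ∈ closedBall x τ, tb W π y l ≤ (Real.exp d * Cg d c M) * A := by
    intro y hy
    have := hgen.tb_le_av hdm hw hg hc hMi hcr hτl hA hy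
    rwa [hM] at this
  have hGA : 0 ≤ (Real.exp d * Cg d c M) * A := by positivity
  have f1 := abs_av_f2_wells h h0 hτ0 hw hg hK v hl htb hmb
  have f2' := abs_Gm_le_young h h0 hh hτ0 hw hg hK hK' hl hl0 hGA htb hmb v
  rw [hM] at f1 f2'
  have hIF0 := IFw_nonneg (W := W) (π := π) (κ := κ) hw hg x v l
  unfold tw at f2'
  have hse : Real.exp l ^ 2 * Real.exp (-2 * l) = 1 := by
    rw [← Real.exp_nat_mul, ← Real.exp_add]
    have : ((2 : ℕ) : ℝ) * l + -2 * l = 0 := by push_cast; ring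
    rw [this, Real.exp_zero]
  have hsum := small_sum (K := K) (M := M) (G := Real.exp d * Cg d c M) (A := A) (ν := ν) (δ := δ)
    (sδ := √δ) (h₀ := h₀) (q := qW v) (s := Real.exp l ^ 2) (e2 := Real.exp (-2 * l)) (mM := mM)
    (IFv := IFw dw W π κ g1 x v l) (J := J) (f2 := |av dw (f2 W π κ (dFW v) g) x l|)
    (Gm := |Gm dw W π κ g1 g2 x v l|) (B := Bw) hK0 hM0.le (by positivity) hA0 hν hν1 h0
    (Real.sqrt_nonneg _) (Real.sq_sqrt h0).symm hδν v.2.2.le hq1 hse (Real.exp_pos _).le hmM hqs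
    Bw_nonneg hms hIF0 hIF hJ f1 (by
      refine f2'.trans (le_of_eq ?_)
      ring)
  have g1' := neg_abs_le (Gm dw W π κ g1 g2 x v l)
  have g2' := le_abs_self (av dw (f2 W π κ (dFW v) g) x l)
  rw [hgen.EEa_eq hw hg.k0 Q x l]
  unfold Ctot
  linarith

end Crest.Agent.R234.Thin_561
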