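import Crest.Agent.R234.Thv4_561
import Crest.Agent.R234.We13_822

/-!
# Row 234, N5/N7-AV (helper561), part 5: `HLoc` at one centre and one scale from N5 and the well half
-/

set_option autoImplicit false
set_option linter.unusedSectionVars false

open MeasureTheory Set Function Filter Topology Metric
open Crest.GeometryTopology.Submanifold
open Crest.Agent.R234.Vf_884 Crest.Agent.R234.Ar_870 Crest.Agent.R234.Cy_870
open Crest.Agent.R234.Avg_387 Crest.Agent.R234.N5_372 Crest.Agent.R234.Asl_214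
open Crest.Agent.R234.Raw_387 Crest.Agent.R234.Shp_98
open scoped ENNReal NNReal InnerProductSpace

noncomputable section

namespace Crest.Agent.R234.Thin_561

variable {m n k d : ℕ}

variable {π : Euc k →L[ℝ] Euc m} {κ : Euc k →L[ℝ] Euc n} {x y z ν : Euc m} {L₀ : ℝ}
  {V W : Measure (Euc k × L k)} {g g1 g2 : ℝ → ℝ} {x₀ : Euc m} {R h₀ τ δ : ℝ} {dw : Euc m → ℝ}

theorem lip_pr {F G : Type*} [NormedAddCommGroup F] [InnerProductSpace ℝ F]
    [FiniteDimensional ℝ F] [NormedAddCommGroup G] [InnerProductSpace ℝ G]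
    [FiniteDimensional ℝ G] (ι : G →ₗᵢ[ℝ] F) :
    LipschitzWith 1 (Proj_929.pr ι) := by
  refine (Proj_929.pr ι).lipschitz.weaken ?_
  have h1 : ‖Proj_929.pr ι‖ ≤ 1 := by
    unfold Proj_929.pr
    rw [LinearIsometryEquiv.norm_map]
    exact ι.norm_toContinuousLinearMap_le
  exact h1

/-- **HLoc at one centre and one scale**, from N5 (ordinary vertices) and the well half -/
theorem loc_step (hdm : d + 2 = m) {K c M : ℝ} (hc : 0 < c) (hM0 : 0 < M)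
    (h : CylAS W π κ x₀ R h₀ δ) (h0 : 0 ≤ δ) (hh : 0 ≤ h₀) (hτ0 : 0 ≤ τ) (hw : CW dw τ)
    (hM : ∫ h, dw h = M) (hg : Prof g g1 g2) (hK : Bd g g1 K) (hK' : Bd g1 g2 K)
    (hcr : ∀ t, 0 ≤ t → t ≤ 1 / 4 → c ≤ g t)
    {l : ℝ} (hl : ‖x - x₀‖ + τ + Real.exp l ≤ R) (hl0 : l ≤ 0) (hτl : τ ≤ Real.exp l)
    {Qn : ℕ} {X : Set (Euc m)} {lmin lmax : ℝ} {gm : ℝ → ℝ} {ω' θ kf η η₁ : ℝ}
    (hN : N5K W π g1 Qn d X lmin lmax gm ω' θ (3 * kf) η) (hx : x ∈ X) (hl1 : lmin ≤ l + 1)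
    (hl2 : l + 1 ≤ lmax) {v : Fin d → Euc m}
    (hfat : ∀ (c : Fin d → ℝ) (i : Fin d), |c i| * Real.exp l ≤ kf * ‖∑ j, c j • v j‖)
    (hy : ‖y - x‖ ≤ Real.exp l) (hv : ∀ i, ‖y + v i - x‖ ≤ Real.exp l)
    {A Cw ε mM J : ℝ} (hA : eea dw W π g x (l + 4) ≤ A)
    (hgm : gm (l + 1) ≤ Cg d c M * A)
    (hR : RRa dw W π g1 y (l + 4) ≤ η₁ * A) (hRi : ∀ i, RRa dw W π g1 (y + v i) (l + 4) ≤ η₁ * A)
    (hη : (d + 1) * η₁ / M ≤ η * Cg d c M) (u : WP n)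
    (hwell : ∀ pL : Euc m → Euc d, LipschitzWith 1 pL →
      (∀ N : Set (Euc m), N ⊆ closedBall x (Real.exp (l + 1)) →
        volume (pL '' N) ≤ ENNReal.ofReal (θ * Real.exp (l + 1) ^ d) →
        eM W π N ≤ ENNReal.ofReal (ω' * (Cg d c M * A) * Real.exp (l + 1) ^ d)) →
      eea dw W π g x l ≤ Fm dw W π κ g x u l + av dw (f2 W π κ (dFW u) g) x l +
        Cw * (Real.exp ((2 - m) * l) * (ω' * (Cg d c M * A) * Real.exp (l + 1) ^ d)))
    (hε : 0 ≤ ε) (hε1 : ε ≤ 1) (hδε : √δ ≤ ε) (hq1 : qW u ≤ 1) (hqs : qW u ^ 2 ≤ ε * Real.exp l ^ 2)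
    (hmb : ∀ y ∈ closedBall x τ, mb W π y l ≤ mM) (hmM : 0 ≤ mM)
    (hms : δ * (h₀ ^ 2 + qW u ^ 2) * (Real.exp l ^ 2 * mM) ≤ ε * A)
    (hIF : IFw dw W π κ g1 x u l ≤ J) (hJ : 3 * δ * J ≤ ε * A) :
    2 * EEa dw W π g Qn x l ≤ Fm dw W π κ g x u l + Gm dw W π κ g1 g2 x u l +
      (2 * K * (Real.exp d * Cg d c M) * M * ω' + Cw * (Real.exp d * Cg d c M) * ω' +
        ε * Ctot d K c M) * A := by
  have hgen := h.gen
  have hMi : 0 < ∫ h, dw h := by rw [hM]; exact hM0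
  have he1 : Real.exp (l + 1) = Real.exp l * Real.exp 1 := Real.exp_add _ _
  have he2 : (2 : ℝ) ≤ Real.exp 1 := by linarith [Real.add_one_le_exp (1:ℝ)]
  have hexp0 : 0 < Real.exp l := Real.exp_pos l
  have hkf : ∀ (c : Fin d → ℝ) (i : Fin d),
      |c i| * Real.exp (l + 1) ≤ (3 * kf) * ‖∑ j, c j • v j‖ := by
    intro c i
    have h1 := hfat c i
    have h2 : 0 ≤ |c i| * Real.exp l := by positivity
    rw [he1]
    calc |c i| * (Real.exp l * Real.exp 1) = Real.exp 1 * (|c i| * Real.exp l) := by ring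
      _ ≤ 3 * (|c i| * Real.exp l) := mul_le_mul_of_nonneg_right exp_one_le h2
      _ ≤ 3 * (kf * ‖∑ j, c j • v j‖) := mul_le_mul_of_nonneg_left h1 (by norm_num)
      _ = _ := by ring
  have e134 : l + 1 + 3 = l + 4 := by ring
  have hN5 := n5_av hdm hgen hw hMi hg hc hcr hN (x := x) (y := y) (l := l + 1) hx
    hl1 hl2 (by rw [he1]; nlinarith) (v := v) hkf (by rw [he1]; nlinarith)
    (fun i => by have := hv i; rw [he1]; nlinarith)
    (A := A) (η₁ := η₁) (by rw [e134]; exact hA) (by rw [hM]; exact hgm)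
    (by rw [e134]; exact hR) (fun i => by rw [e134]; exact hRi i) (by rw [hM]; exact hη)
  rw [hM] at hN5
  have hbsm : BSm W π Qn x (l + 1) (ω' * (Cg d c M * A)) :=
    N5_372.bsm_of (x := x) (l := l + 1) (Q := (Qn : ℝ)) hdm
      (fun φ h1 h2 h3 => (hN5.1 φ h1 h2 h3))
  obtain ⟨hS, hg2⟩ := hN5.2
  have hwl := hwell (Proj_929.pr (iso _ hS)) (lip_pr _) hg2
  exact loc_one hdm hc hM0 h h0 hh hτ0 hw hM hg hK hK' hcr hl hl0 hτl hA hbsm u hwl rfl hε hε1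
    hδε hq1 hqs hmb hmM hms hIF hJ

end Crest.Agent.R234.Thin_561
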