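import Crest.Agent.R234.Thf1_561
import Crest.Agent.R234.We15_822

/-!
# Row 234 (helper561): NLOC of the core from the facts, N5 and the well half

`nLoc_of : FactsP → N5Sit → ∃ c1 > 0, NLoc`.
-/

set_option autoImplicit false
set_option linter.unusedSectionVars false

open MeasureTheory Set Function Filter Topology Metric
open Crest.GeometryTopology.Submanifold
open Crest.Agent.R234.Vf_884 Crest.Agent.R234.Ar_870 Crest.Agent.R234.Cy_870
open Crest.Agent.R234.Avg_387 Crest.Agent.R234.N5_372 Crest.Agent.R234.Asl_214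
open Crest.Agent.R234.Raw_387 Crest.Agent.R234.Shp_98 Crest.Agent.R234.Core_809
open Crest.Agent.R234.Pot_425 Crest.Agent.R234.Par_504
open Crest.Agent.R234.Well_761 (WCfg)
open Crest.Agent.R234.We_822 (well_sit aI_eq bd_w0 bd_w1)
open scoped ENNReal NNReal InnerProductSpace

noncomputable section

namespace Crest.Agent.R234.Thin_561

/-- the numbers of NLOC (and NTHIN) for large `Λ` -/
theorem nums (m : ℕ) {a : ℝ} (ha : 1 ≤ a) {c' : ℝ} (hc' : 0 ≤ c')
    (hb : c' + 1 ≤ 100 * (m + 1) * (a + 1)) {ε cm CM B' : ℝ} (hε : 0 < ε) (hcm : 0 < cm)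
    (hCM : 0 ≤ CM) (hB' : 0 ≤ B') :
    ∃ l0 : ℝ, ∀ D δ : ℝ, 0 < D → D < 1 → l0 ≤ Real.log (Lam D) → 0 ≤ δ →
      δ ≤ Lam D ^ (-4 : ℝ) →
      √δ ≤ ε ∧ q1Of D ≤ ε * s0Of m a D ^ 2 ∧
      δ * (D + q1Of D) * (stOf m a D ^ 2 * CM) ≤ ε * (Lam D ^ (-c') * D) ∧
      3 * δ * (TOf m a D * B') ≤ ε ∧
      Lam D ^ (-(100 * (m + 1) * (a + 1))) * D ≤ cm * (Lam D ^ (-c') * D) ∧
      1 ≤ Real.log (Lam D) ∧ 0 ≤ TOf m a D ∧ 1 ≤ Lam D := by
  have h4 : (0 : ℝ) ≤ m := Nat.cast_nonneg m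
  have hbb : bb m a = 100 * (m + 1) * (a + 1) := rfl
  have hb2 : c' + 2 < 2 * bb m a := by
    rw [hbb]
    nlinarith
  have hb3 : c' < bb m a := by rw [hbb]; linarith
  have hb4 : 2 < 2 * bb m a := by rw [hbb]; nlinarith
  obtain ⟨l1, hl1⟩ := ev_T m a 1
  obtain ⟨l0, hl0⟩ := ev_l ((ev_small 1 hε (show Lt 0 (-2) 0 0 from Or.inr ⟨rfl, by norm_num⟩)).and
    ((ev_le' 1 hε (show Lt (-1) 2 (-1) (2 * bb m a) from Or.inr ⟨rfl, hb4⟩)).and
    ((ev_le' (2 * CM) hε (show Lt (-1) (2 - 2 * bb m a) (-1) (-c') from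
      Or.inr ⟨rfl, by linarith⟩)).and
    ((ev_small (3 * B') hε (show Lt 0 (-3) 0 0 from Or.inr ⟨rfl, by norm_num⟩)).and
    (ev_le' 1 hcm (show Lt (-1) (-bb m a) (-1) (-c') from Or.inr ⟨rfl, by linarith⟩))))))
  refine ⟨max l0 l1, fun D δ h0 h1 hl hδ0 hδ => ?_⟩
  obtain ⟨e1, e2, e3, e4, e5⟩ := hl0 D h0 h1 ((le_max_left _ _).trans hl)
  obtain ⟨f1, f2, -, -, f5, f6⟩ := hl1 D h0 h1 ((le_max_right _ _).trans hl)
  have hΛ := Lam_pos h0 h1
  have hδX : δ ≤ X 0 (-4) (Lam D) := by rw [← rpow_eq h0 h1]; exact hδ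
  have hδ1 : δ ≤ 1 := hδ.trans (Real.rpow_le_one_of_one_le_of_nonpos f6 (by norm_num))
  have hT0 : 0 ≤ TOf m a D := le_trans (by positivity) f1
  have hcD : Lam D ^ (-c') * D = X (-1) (-c') (Lam D) := by
    rw [rpow_eq h0 h1]
    calc X 0 (-c') (Lam D) * D = X 0 (-c') (Lam D) * X (-1) 0 (Lam D) := by rw [← D_eq h0]
      _ = _ := by rw [X_mul]; congr 1 <;> ring
  have hbD : Lam D ^ (-(100 * (m + 1) * (a + 1))) * D = X (-1) (-bb m a) (Lam D) := by
    rw [rpow_eq h0 h1]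
    calc X 0 (-(100 * (m + 1) * (a + 1))) (Lam D) * D =
        X 0 (-(100 * (m + 1) * (a + 1))) (Lam D) * X (-1) 0 (Lam D) := by rw [← D_eq h0]
      _ = _ := by rw [X_mul, hbb]; congr 1 <;> ring
  refine ⟨?_, ?_, ?_, ?_, ?_, f5, hT0, f6⟩
  · calc √δ ≤ √(X 0 (-4) (Lam D)) := Real.sqrt_le_sqrt hδX
      _ = 1 * X 0 (-2) (Lam D) := by rw [X_sqrt, one_mul]; congr 1 <;> ring
      _ ≤ ε := e1
  · have e6 : s0Of m a D ^ 2 = X (-1) (2 * bb m a) (Lam D) := by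
      rw [s0Of_eq h0 h1, X_pow]
      congr 1 <;> push_cast <;> ring
    rw [q1Of_eq h0 h1, e6]
    linarith
  · have e6 : q1Of D * stOf m a D ^ 2 = X (-1) (2 - 2 * bb m a) (Lam D) := by
      rw [q1Of_eq h0 h1, stOf_eq h0 h1, X_pow, X_mul]
      congr 1 <;> push_cast <;> ring
    have e7 : D ≤ q1Of D := by
      unfold q1Of
      have : 1 ≤ Lam D ^ (2 : ℝ) := Real.one_le_rpow f6 (by norm_num)
      nlinarith
    have e8 : 0 ≤ q1Of D := (q1Of_pos h0 h1).le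
    rw [hcD]
    calc δ * (D + q1Of D) * (stOf m a D ^ 2 * CM) ≤
        1 * (q1Of D + q1Of D) * (stOf m a D ^ 2 * CM) := by gcongr
      _ = 2 * CM * (q1Of D * stOf m a D ^ 2) := by ring
      _ = 2 * CM * X (-1) (2 - 2 * bb m a) (Lam D) := by rw [e6]
      _ ≤ _ := e3
  · have hX4 := X_nonneg 0 (-4) (Lam D)
    have e6 : X 0 (-4) (Lam D) * Lam D = X 0 (-3) (Lam D) := by
      calc X 0 (-4) (Lam D) * Lam D = X 0 (-4) (Lam D) * X 0 1 (Lam D) := by
            rw [← self_eq_X hΛ]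
        _ = _ := by rw [X_mul]; congr 1 <;> ring
    calc 3 * δ * (TOf m a D * B') ≤ 3 * X 0 (-4) (Lam D) * (Lam D * B') := by gcongr
      _ = 3 * B' * (X 0 (-4) (Lam D) * Lam D) := by ring
      _ = 3 * B' * X 0 (-3) (Lam D) := by rw [e6]
      _ ≤ ε := e4
  · rw [hcD, hbD]
    linarith

set_option maxHeartbeats 1000000 in
/-- **NLOC from the facts, N5 and the well half** -/
theorem nLoc_of {m n Q : ℕ} (hm : 3 ≤ m) {K cS a : ℝ} (ha : 1 ≤ a)
    (hF : FactsP m n Q K cS a) (h5 : N5Sit m n Q K cS a) :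
    ∃ c1 : ℝ, 0 < c1 ∧ NLoc m n Q K cS a c1 := by
  have hdm : m - 2 + 2 = m := by omega
  obtain ⟨CE, CM, c', hCE, hCM, hc', hc'b, hF⟩ := hF
  obtain ⟨c1, Cw, hc1, hCw, h7⟩ := well_sit hdm n Q (a := a) (by linarith)
  refine ⟨c1, hc1, fun ω hω => ?_⟩
  have hMd : 0 < Md m := Md_pos (m := m) (by omega)
  set CG : ℝ := Real.exp ((m - 2 : ℕ) : ℝ) * Cg (m - 2) cg0 (Md m) with hCG
  have hcg0 : 0 < cg0 := by unfold cg0; norm_num
  have hCg0 : 0 < Cg (m - 2) cg0 (Md m) := by unfold Cg; positivity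
  have hCG0 : 0 < CG := by positivity
  -- the constants
  set P1 : ℝ := 2 * 12 * CG * Md m + Cw * CG with hP1
  have hP10 : 0 < P1 := by positivity
  set ω' : ℝ := ω / (4 * P1) with hω'
  have hω'0 : 0 < ω' := by positivity
  have hω'1 : P1 * ω' = ω / 4 := by rw [hω']; field_simp
  obtain ⟨θ, hθ, h5⟩ := h5 ω' hω'0
  obtain ⟨Θ, hΘ, lw, h7⟩ := h7 θ hθ
  refine ⟨Θ, hΘ, fun kf => ?_⟩
  obtain ⟨η, hη, l5, h5⟩ := h5 (3 * kf)
  set η1 : ℝ := η * Cg (m - 2) cg0 (Md m) * Md m / (((m - 2 : ℕ) : ℝ) + 1) with hη1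
  have hη10 : 0 < η1 := by positivity
  refine ⟨η1, hη10, fun B => ?_⟩
  have hCt : 0 ≤ Ctot (m - 2) 12 cg0 (Md m) := by
    have := Bw_nonneg
    unfold Ctot
    positivity
  set ε : ℝ := min 1 (ω / (4 * (Ctot (m - 2) 12 cg0 (Md m) + 1))) with hε
  have hε0 : 0 < ε := by positivity
  have hε1 : ε ≤ 1 := min_le_left _ _
  have hε2 : ε * Ctot (m - 2) 12 cg0 (Md m) ≤ ω / 4 := by
    have h1 : ε ≤ ω / (4 * (Ctot (m - 2) 12 cg0 (Md m) + 1)) := min_le_right _ _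
    rw [le_div_iff₀ (by positivity)] at h1
    linarith only [h1, hε0]
  set B' : ℝ := max B 0 * CE with hB'
  have hB'0 : 0 ≤ B' := mul_nonneg (le_max_right _ _) hCE
  obtain ⟨lF, hF⟩ := hF (ω / 8) (by positivity)
  obtain ⟨lN, hnum⟩ := nums m ha hc' hc'b hε0 hCg0 hCM hB'0
  obtain ⟨lN', hnum'⟩ := nums m ha hc' hc'b hε0 one_pos hCM hB'0
  refine ⟨max (max lw l5) (max lF (max lN lN')), fun X hX hl => ?_⟩
  have g1 : lw ≤ Real.log (Lam X.D) := ((le_max_left _ _).trans (le_max_left _ _)).trans hl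
  have g2 : l5 ≤ Real.log (Lam X.D) := ((le_max_right _ _).trans (le_max_left _ _)).trans hl
  have g3 : lF ≤ Real.log (Lam X.D) := ((le_max_left _ _).trans (le_max_right _ _)).trans hl
  have g4 : lN ≤ Real.log (Lam X.D) :=
    (((le_max_left _ _).trans (le_max_right _ _)).trans (le_max_right _ _)).trans hl
  have g5 : lN' ≤ Real.log (Lam X.D) :=
    (((le_max_right _ _).trans (le_max_right _ _)).trans (le_max_right _ _)).trans hl
  have hf := hF X hX g3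
  have hN := h5 X hX g2
  obtain ⟨n1, n2, n3, n4, n5, n6, n7, n8⟩ := hnum X.D X.δ hX.D0 hX.D1 g4 hX.δ0 hX.δ1
  obtain ⟨-, -, -, -, n5', -⟩ := hnum' X.D X.δ hX.D0 hX.D1 g5 hX.δ0 hX.δ1
  rw [one_mul] at n5'
  have hs0 : 0 < s0Of m a X.D := s0Of_pos hX.D0 hX.D1
  have hst : 0 < stOf m a X.D := stOf_pos hX.D0 hX.D1
  have hτ0 : 0 < tauOf a X.D := tauOf_pos hX.D0 hX.D1
  have hq10 : 0 < q1Of X.D := q1Of_pos hX.D0 hX.D1
  have h2r : 2 * (s0Of m a X.D / 2) = s0Of m a X.D := by ring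
  intro x hx t ht ht8 y hy hxy v hv hfat hRs c hq hΘA hIF1 hIFt hIFt1
  change Real.log (Lam X.D) ≤ t at ht
  change t + 8 ≤ TOf m a X.D at ht8
  change dist x y ≤ 2 * (s0Of m a X.D / 2) * Real.exp t at hxy
  change y ∈ X.Z at hy
  change x ∈ X.Z at hx
  change c.q ^ 2 ≤ q1Of X.D at hq
  change ∀ (c : Fin (m - 2) → ℝ) i, |c i| * (2 * (s0Of m a X.D / 2) * Real.exp t) ≤
    kf * ‖∑ l, c l • v l‖ at hfat
  change ∀ j, 0 ≤ j → j ≤ 4 → X.sR Q K cS x (t + j + Real.log (s0Of m a X.D)) ≤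
      η1 * X.se Q K cS x (t + 4 + Real.log (s0Of m a X.D)) ∧
    X.sR Q K cS y (t + j + Real.log (s0Of m a X.D)) ≤
      η1 * X.se Q K cS x (t + 4 + Real.log (s0Of m a X.D)) ∧
    ∀ i, X.sR Q K cS (y + v i) (t + j + Real.log (s0Of m a X.D)) ≤
      η1 * X.se Q K cS x (t + 4 + Real.log (s0Of m a X.D)) at hRs
  change ∀ i, y + v i ∈ X.Z ∧ ‖v i‖ ≤ 2 * (s0Of m a X.D / 2) * Real.exp t ∧
    dist x (y + v i) ≤ 2 * (s0Of m a X.D / 2) * Real.exp t at hv
  change Θ * t * X.se Q K cS x (t + 4 + Real.log (s0Of m a X.D)) ≤ c.q ^ 2 at hΘA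
  change X.aI x c (t + 1 + Real.log (s0Of m a X.D)) ≤ c1 * c.q ^ 2 at hIF1
  change X.aI x c (t + Real.log (s0Of m a X.D)) ≤
    B * t * X.sE Q K x (t + Real.log (s0Of m a X.D)) at hIFt
  change 2 * X.sE Q K x (t + Real.log (s0Of m a X.D)) ≤
    deriv (X.aI x c) (t + Real.log (s0Of m a X.D)) / 2 +
      ω * X.se Q K cS x (t + 4 + Real.log (s0Of m a X.D))
  have eqs : Real.exp (t + Real.log (s0Of m a X.D)) = 2 * (s0Of m a X.D / 2) * Real.exp t := by
    rw [Real.exp_add, Real.exp_log hs0]; ring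
  have eL : L0 X = Real.log (s0Of m a X.D) := rfl
  have eT : TT' X = TOf m a X.D := rfl
  have ell : ll X = Real.log (Lam X.D) := rfl
  have e4 : t + 4 + Real.log (s0Of m a X.D) = t + Real.log (s0Of m a X.D) + 4 := by ring
  have e1 : t + 1 + Real.log (s0Of m a X.D) = t + Real.log (s0Of m a X.D) + 1 := by ring
  rw [e4] at hΘA ⊢
  rw [e1] at hIF1
  set l : ℝ := t + Real.log (s0Of m a X.D) with hldef
  set A : ℝ := X.se Q K cS x (l + 4) with hA
  have ht0 : 0 ≤ t := by linarith only [ht, n6]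
  have r1 : L0 X + ll X ≤ l := by rw [eL, ell, hldef]; linarith only [ht]
  have r2 : l + 4 ≤ L0 X + TT' X := by rw [eL, eT, hldef]; linarith only [ht8]
  have r3 : l ≤ L0 X + TT' X := by linarith only [r2]
  have r4 : L0 X + ll X ≤ l + 4 := by linarith only [r1]
  have hlow : Lam X.D ^ (-c') * X.D ≤ A := hf.low x hx (l + 4) r4 r2
  have hcD0 : 0 < Lam X.D ^ (-c') * X.D := by
    have := Lam_pos hX.D0 hX.D1
    have := hX.D0
    positivity
  have hA0 : 0 < A := hcD0.trans_le hlow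
  have hee : X.ae x (l + 4) ≤ A := hf.ae x hx (l + 4) r4 r2
  have hel : Real.exp l = s0Of m a X.D * Real.exp t := by rw [eqs]; ring
  have hexpT : s0Of m a X.D * Real.exp (TOf m a X.D) = stOf m a X.D := by
    unfold TOf
    rw [Real.exp_log (by positivity)]
    field_simp
  have helT : Real.exp l ≤ stOf m a X.D := by
    rw [hel, ← hexpT]
    have : Real.exp t ≤ Real.exp (TOf m a X.D) := Real.exp_le_exp.2 (by linarith only [ht8])
    exact mul_le_mul_of_nonneg_left this hs0.le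
  have hs0l : s0Of m a X.D ≤ Real.exp l := by
    rw [hel]
    exact le_mul_of_one_le_right hs0.le (Real.one_le_exp ht0)
  have hrng := hf.avs.rng x hx
  have htop := hf.avs.top
  rw [h2r, eT, hexpT] at hrng htop
  have hτr := hf.avs.τr
  have hτl : tauOf a X.D ≤ Real.exp l := by
    have h1 : Real.exp (ll X) ≤ Real.exp t := Real.exp_le_exp.2 (by rw [ell]; exact ht)
    rw [hel]
    have h2 : s0Of m a X.D / 2 * Real.exp (ll X) ≤ s0Of m a X.D / 2 * Real.exp t :=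
      mul_le_mul_of_nonneg_left h1 (by positivity)
    have h3 : 0 < s0Of m a X.D * Real.exp t := by positivity
    linarith only [hτr, h2, h3]
  have hl0' : l ≤ 0 := Real.exp_le_one_iff.1 (helT.trans htop)
  have hxb := hf.ball hx
  rw [mem_closedBall, dist_zero_right] at hxb
  -- the gap
  have hqs : c.q ^ 2 ≤ ε * Real.exp l ^ 2 := by
    refine (hq.trans n2).trans ?_
    refine mul_le_mul_of_nonneg_left ?_ hε0.le
    exact pow_le_pow_left₀ hs0.le hs0l 2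
  have hq1 : c.q ≤ 1 := by
    have h1 : c.q ^ 2 ≤ 1 := by
      refine hqs.trans ?_
      have h2 : Real.exp l ≤ 1 := helT.trans htop
      have h3 : Real.exp l ^ 2 ≤ 1 := pow_le_one₀ (Real.exp_pos l).le h2
      have h4 := mul_le_mul hε1 h3 (by positivity) zero_le_one
      rwa [one_mul] at h4
    have h0 := c.hq
    exact (sq_le_one_iff₀ h0.le).1 h1
  -- IF
  have hIFB : IFw (dd m (tauOf a X.D)) X.V X.π X.κ w0.θ' x (toWP c) l ≤
      TOf m a X.D * B' * A := by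
    rw [← aI_eq]
    have hE0 := hf.sE0 x hx l r1 r3
    have hE1 := hf.sE' x hx l r1 r2
    refine hIFt.trans ?_
    calc B * t * X.sE Q K x l ≤ max B 0 * TOf m a X.D * (CE * A) := by
          refine mul_le_mul ?_ hE1 hE0 (mul_nonneg (le_max_right _ _) n7)
          exact mul_le_mul (le_max_left _ _) (by linarith only [ht8]) ht0 (le_max_right _ _)
      _ = TOf m a X.D * B' * A := by rw [hB']; ring
  -- the masses
  have hmb := hf.mb x hx l r1 r3
  have hD0 := hX.D0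
  have hδ0 := hX.δ0
  have hms : X.δ * ((√X.D) ^ 2 + c.q ^ 2) * (Real.exp l ^ 2 * CM) ≤ ε * A := by
    rw [Real.sq_sqrt hD0.le]
    have h1 : Real.exp l ^ 2 ≤ stOf m a X.D ^ 2 := pow_le_pow_left₀ (Real.exp_pos l).le helT 2
    calc X.δ * (X.D + c.q ^ 2) * (Real.exp l ^ 2 * CM) ≤
        X.δ * (X.D + q1Of X.D) * (stOf m a X.D ^ 2 * CM) := by gcongr
      _ ≤ ε * (Lam X.D ^ (-c') * X.D) := n3
      _ ≤ ε * A := mul_le_mul_of_nonneg_left hlow hε0.le
  have hm2 : (((m - 2 : ℕ) : ℝ) + 1) * η1 / Md m ≤ η * Cg (m - 2) cg0 (Md m) := by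
    rw [hη1]
    refine le_of_eq ?_
    field_simp
  have hstep := loc_step (d := m - 2) (W := X.V) (π := X.π) (κ := X.κ) (x := x) (y := y)
    (x₀ := 0) (R := 4) (h₀ := √X.D) (τ := tauOf a X.D) (δ := X.δ) (dw := dd m (tauOf a X.D))
    (g := w0.θ) (g1 := w0.θ') (g2 := w2) hdm (K := 12) (c := cg0) (M := Md m) hcg0 hMd hf.avs.as
    hδ0 (Real.sqrt_nonneg _) hτ0.le hf.avs.cw hf.avs.Mdw prof0 bd_w0 bd_w1 hf.avs.bc
    (l := l) (by linarith only [hrng, helT]) hl0' hτl (Qn := Q) (X := closedBall 0 2)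
    (lmin := Real.log (s0Of m a X.D)) (lmax := Real.log (stOf m a X.D))
    (gm := fun _ => Lam X.D ^ (-(100 * (m + 1) * (a + 1))) * X.D) (ω' := ω') (θ := θ) (kf := kf)
    (η := η) (η₁ := η1) hN
    (by rw [mem_closedBall, dist_zero_right]; linarith only [hxb])
    (by rw [hldef]; linarith only [ht0])
    (by
      have h1 : Real.log (s0Of m a X.D) + TOf m a X.D = Real.log (stOf m a X.D) := by
        rw [← hexpT, Real.log_mul hs0.ne' (Real.exp_pos _).ne', Real.log_exp]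
      rw [hldef]
      linarith only [h1, ht8])
    (v := v) (by rw [eqs]; exact hfat)
    (by
      rw [eqs, ← dist_eq_norm, dist_comm]; exact hxy)
    (fun i => by
      rw [eqs, ← dist_eq_norm, dist_comm]; exact (hv i).2.2)
    (A := A) (Cw := Cw) (ε := ε) (mM := CM) (J := TOf m a X.D * B' * A) hee
    (n5.trans (mul_le_mul_of_nonneg_left hlow hCg0.le))
    (by
      have h1 := (hRs 4 (by norm_num) le_rfl).2.1
      rw [e4] at h1
      exact (hf.aR y hy (l + 4) r4 r2).trans h1)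
    (fun i => by
      have h1 := (hRs 4 (by norm_num) le_rfl).2.2 i
      rw [e4] at h1
      exact (hf.aR _ (hv i).1 (l + 4) r4 r2).trans h1)
    hm2 (toWP c)
    (fun pL hpL hg2 => h7 K cS X hX g1 x hx t ht ht8 c hq A hee (n5'.trans hlow) hΘA hIF1 hpL
      (w := ω' * (Cg (m - 2) cg0 (Md m) * A) * Real.exp (l + 1) ^ (m - 2))
      (by positivity) hg2)
    hε0.le hε1 n1 hq1 hqs hmb hCM hms hIFB
    (by
      calc 3 * X.δ * (TOf m a X.D * B' * A) = (3 * X.δ * (TOf m a X.D * B')) * A := by ring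
        _ ≤ ε * A := mul_le_mul_of_nonneg_right n4 hA0.le)
  have hder : deriv (X.aI x c) l / 2 = Fm (dd m (tauOf a X.D)) X.V X.π X.κ w0.θ x (toWP c) l +
      Gm (dd m (tauOf a X.D)) X.V X.π X.κ w0.θ' w2 x (toWP c) l := by
    have h1 : X.aI x c = IFw (dd m (tauOf a X.D)) X.V X.π X.κ w0.θ' x (toWP c) := by
      funext l'
      exact aI_eq X x c l'
    rw [h1, (hasDerivAt_IFw (ff_of_cylAS hf.avs.as) hf.avs.as.hgt hτ0.le hf.avs.cw prof0 x
      (toWP c) l).deriv]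
    ring
  have hsE := hf.sE x hx l r1 r2
  rw [hder]
  have hfin : (2 * 12 * CG * Md m * ω' + Cw * CG * ω' + ε * Ctot (m - 2) 12 cg0 (Md m)) * A ≤
      ω / 2 * A := by
    refine mul_le_mul_of_nonneg_right ?_ hA0.le
    have h1 : 2 * 12 * CG * Md m * ω' + Cw * CG * ω' = P1 * ω' := by rw [hP1]; ring
    rw [h1, hω'1]
    linarith only [hε2]
  have hstep' : 2 * X.aE Q x l ≤ Fm (dd m (tauOf a X.D)) X.V X.π X.κ w0.θ x (toWP c) l +
      Gm (dd m (tauOf a X.D)) X.V X.π X.κ w0.θ' w2 x (toWP c) l +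
      (2 * 12 * CG * Md m * ω' + Cw * CG * ω' + ε * Ctot (m - 2) 12 cg0 (Md m)) * A := hstep
  have hωA : 0 < ω * A := by positivity
  linarith only [hωA, hstep', hfin, hsE]

end Crest.Agent.R234.Thin_561
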