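import Crest.Agent.R234.Thv6_561
import Crest.Agent.R234.N5i_372

/-!
# Row 234 (helper561): N5 at the contact situations

`n5Sit : N5Sit m n Q K cS a` from helper372's `n5K_cls`.
-/

set_option autoImplicit false
set_option linter.unusedSectionVars false

open MeasureTheory Set Function Filter Topology Metric
open Crest.GeometryTopology.Submanifold
open Crest.Agent.R234.Vf_884 Crest.Agent.R234.Ar_870 Crest.Agent.R234.Cy_870
open Crest.Agent.R234.Avg_387 Crest.Agent.R234.N5_372 Crest.Agent.R234.Asl_214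
open Crest.Agent.R234.Core_809 Crest.Agent.R234.Pot_425 Crest.Agent.R234.Par_504
open scoped ENNReal NNReal InnerProductSpace

noncomputable section

namespace Crest.Agent.R234.Thin_561

theorem N5K.anti {m k Qn d : ℕ} {W : Measure (Euc k × L k)} {π : Euc k →L[ℝ] Euc m} {g1 : ℝ → ℝ}
    {X Y : Set (Euc m)} {lmin lmax : ℝ} {gm : ℝ → ℝ} {ω θ K η : ℝ}
    (h : N5K W π g1 Qn d X lmin lmax gm ω θ K η) (hXY : Y ⊆ X) :
    N5K W π g1 Qn d Y lmin lmax gm ω θ K η := fun x hx => h x (hXY hx)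

theorem w0_low1 : ∀ t, 0 ≤ t → t ≤ 1 / 4 → (27 / 16 : ℝ) ≤ -w0.θ' t := by
  intro t _ ht
  change (27 / 16 : ℝ) ≤ - -(4 * (max (1 - t) 0) ^ 3)
  have h1 : ((3:ℝ) / 4) ^ 3 ≤ (max (1 - t) 0) ^ 3 :=
    pow_le_pow_left₀ (by norm_num) (le_max_of_le_left (by linarith)) 3
  norm_num at h1
  linarith

/-- **N5 at the contact situations** -/
theorem n5Sit {m n Q : ℕ} (hm : 2 ≤ m) {K cS a : ℝ} (ha : 1 ≤ a) : N5Sit m n Q K cS a := by
  intro om hom
  obtain ⟨θ, hθ, H⟩ := n5K_cls (d := m - 2) (m := m) (by omega) n Q (cP := 27 / 16) (by norm_num)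
    hom
  refine ⟨θ, hθ, fun kf => ?_⟩
  obtain ⟨η, hη, A, hA, c, hc, hc1, H⟩ := H kf
  have h4 : (0 : ℝ) ≤ m := Nat.cast_nonneg m
  have hbb : bb m a = 100 * (m + 1) * (a + 1) := rfl
  have hbp : 0 < bb m a := by rw [hbb]; nlinarith
  obtain ⟨l0, hl0⟩ := ev_l ((ev_small 1 hc (show Lt 0 (-4) 0 0 from Or.inr ⟨rfl, by norm_num⟩)).and
    ((ev_small 1 hc (show Lt (-1) 0 0 0 from Or.inl (by norm_num))).and
    ((ev_le A (show Lt (-1 / 2) 0 (-1 / 2) (bb m a) from Or.inr ⟨rfl, hbp⟩)).and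
    ((ev_small 1 hc (show Lt 0 (-bb m a) 0 0 from Or.inr ⟨rfl, by linarith⟩)).and
    ((ev_le' 1 hη (show Lt (-1) (-(2 * bb m a)) (-1) (-bb m a) from
      Or.inr ⟨rfl, by linarith⟩)).and (eventually_ge_atTop (1 : ℝ)))))))
  refine ⟨η, hη, l0, fun X hX hl => ?_⟩
  obtain ⟨e1, e2, e3, e4, e5, e6⟩ := hl0 X.D hX.D0 hX.D1 hl
  have hD0 := hX.D0
  have hD1 := hX.D1
  have hδ0 := hX.δ0
  have hδX : X.δ ≤ Par_504.X 0 (-4) (Lam X.D) := by rw [← rpow_eq hD0 hD1]; exact hX.δ1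
  have hδ1 : X.δ ≤ 1 := hX.δ1.trans (Real.rpow_le_one_of_one_le_of_nonpos e6 (by norm_num))
  have hst := stOf_pos (m := m) (a := a) hD0 hD1
  have hs0 := s0Of_pos (m := m) (a := a) hD0 hD1
  have hbD : Lam X.D ^ (-(100 * (m + 1) * (a + 1))) * X.D =
      Par_504.X (-1) (-bb m a) (Lam X.D) := by
    rw [rpow_eq hD0 hD1]
    calc Par_504.X 0 (-(100 * (m + 1) * (a + 1))) (Lam X.D) * X.D =
        Par_504.X 0 (-(100 * (m + 1) * (a + 1))) (Lam X.D) * Par_504.X (-1) 0 (Lam X.D) := by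
          rw [← D_eq hD0]
      _ = _ := by rw [X_mul, hbb]; congr 1 <;> ring
  refine (H (k := X.k) (π := X.π) (κ := X.κ) (U := X.U) (Dd := X.Dd) (δ := X.δ) (D := X.D)
    (g := w0.θ) (g1 := w0.θ') (g2 := w2) (lmin := Real.log (s0Of m a X.D))
    (lmax := Real.log (stOf m a X.D))
    (gm := fun _ => Lam X.D ^ (-(100 * (m + 1) * (a + 1))) * X.D) hX.cls hδ0
    (hδX.trans (by linarith)) ?_ prof0 w0_low1 ?_ ?_ ?_).anti
    (closedBall_subset_closedBall (by norm_num))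
  · calc X.D = Par_504.X (-1) 0 (Lam X.D) := D_eq hD0
      _ ≤ c := by linarith
  · rw [Real.exp_log hs0, sqrt_D_eq hD0, s0Of_eq hD0 hD1]
    exact e3
  · rw [Real.exp_log hst, stOf_eq hD0 hD1]
    linarith
  · intro l _ hl2
    have h1 : Real.exp l ≤ stOf m a X.D := by
      rw [← Real.exp_log hst]; exact Real.exp_le_exp.2 hl2
    have h2 : Real.exp l ^ 2 ≤ stOf m a X.D ^ 2 := pow_le_pow_left₀ (Real.exp_pos l).le h1 2
    have h3 : X.D * stOf m a X.D ^ 2 = Par_504.X (-1) (-(2 * bb m a)) (Lam X.D) := by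
      rw [stOf_eq hD0 hD1, X_pow]
      calc X.D * Par_504.X ((2 : ℕ) * 0) ((2 : ℕ) * -bb m a) (Lam X.D) =
          Par_504.X (-1) 0 (Lam X.D) * Par_504.X ((2 : ℕ) * 0) ((2 : ℕ) * -bb m a) (Lam X.D) := by
            rw [← D_eq hD0]
        _ = _ := by
            rw [X_mul]
            congr 1 <;> push_cast <;> ring
    calc X.δ * X.D * Real.exp l ^ 2 ≤ 1 * X.D * stOf m a X.D ^ 2 := by gcongr
      _ = 1 * Par_504.X (-1) (-(2 * bb m a)) (Lam X.D) := by rw [← h3]; ring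
      _ ≤ η * Par_504.X (-1) (-bb m a) (Lam X.D) := e5
      _ = _ := by rw [hbD]

end Crest.Agent.R234.Thin_561
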