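import Crest.Agent.R234.Thya1_685
import Crest.Agent.R234.End10_395

/-!
R234 (helper685): the component `FinAll` of `Thya1_685` from 395's `fin_sta`.
-/

set_option autoImplicit false

open MeasureTheory Filter Topology Set
open scoped ENNReal NNReal

namespace Crest.Agent.R234.Thya_685

open Crest.GeometryTopology.Submanifold Crest.Agent.R234.Vf_884
open Crest.Agent.R234.Main_456
open Crest.Agent.R234.Stp_518

/-- **END** -/
theorem finAll (hG : GLP) (m n : ℕ) (hm : 3 ≤ m) (hn : 1 ≤ n) : FinAll m n := by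
  refine ⟨0, fun Ks _ K hK Q hQ => ?_⟩
  obtain ⟨N₀, H⟩ := End_395.fin_sta hG m n Q hm hn (by omega)
  refine ⟨N₀, fun N hN => ⟨0, fun T hT c₀ _ G CK P K₀ k _ _ _ _ => ⟨1, one_pos, fun κ₀ _ _ =>
    ⟨0, fun L₁ _ => ⟨0, fun Λ₀ _ => ⟨1, one_pos, fun om _ _ => ?_⟩⟩⟩⟩⟩⟩
  refine ⟨4, 8 * Real.exp (T + 5), by positivity, fun U D x r₁ hE hRU _ F => ?_⟩
  obtain ⟨C, HC⟩ := H ⟨N, Ks, T, κ₀, L₁, G, CK⟩ hN hT K hK k (κ₀ * Real.exp (-(4 / 5 * (T + 1)))) F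
  refine ⟨C, fun ε hε => ?_⟩
  obtain ⟨mu, κ₁, ε', h1, h2, H'⟩ := HC ε hε
  refine ⟨mu, κ₁, ε', h1, h2, fun r P' hr hrr hnear M l hl1 hl2 hst hF hκ hmu => ?_⟩
  exact H' U D x hE.opn hE.int hE.st hE.Th r P' hr
    ((Metric.closedBall_subset_closedBall (by gcongr)).trans hRU) hnear M l hl1 hl2 hst hF hκ hmu

end Crest.Agent.R234.Thya_685
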