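import Crest.Agent.R234.Thya2_685
import Crest.Agent.R234.Main7_456

/-!
R234 (helper685): `DblE` (input of `Main7_456`) from `StepAll` (518), `FlAll` (567), `StartAll` (188)
and `GLP` (290).
-/

set_option autoImplicit false

namespace Crest.Agent.R234.Thya_685

/-- **`DblE` from the components** -/
theorem dblE_of (h1 : ∀ m n : ℕ, 3 ≤ m → 1 ≤ n → StepAll m n)
    (h2 : ∀ m n : ℕ, 3 ≤ m → 1 ≤ n → FlAll m n) (h3 : ∀ m n : ℕ, 3 ≤ m → 1 ≤ n → StartAll m n)
    (hG : Stp_518.GLP) : Main_456.DblE :=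
  Skel3_884.dblK_of (thyAll_of h1 h2 h3 (finAll hG))

end Crest.Agent.R234.Thya_685
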