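import Crest.Agent.R234.Thya3_685
import Crest.Agent.R234.Thya4_685
import Crest.Agent.R234.Skel4_884
import Crest.Agent.R234.FL10_567
import Crest.Agent.R234.F11f_188
import Crest.Agent.R234.Qp10_534
import Crest.Agent.R234.LowF20_471
import Crest.Agent.R234.Fin10_618
import Crest.Agent.R234.F41_354

/-!
R234 (helper685): the literal leaves of `Skel4_884` from what is left.
-/

set_option autoImplicit false

namespace Crest.Agent.R234.Thya_685

/-- **F3 at the scale one** (618's `fin`, 354's `lep`) -/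
theorem f3P1 (m n Q : ℕ) (hm : 3 ≤ m) (hn : 1 ≤ n) (hQ : 1 ≤ Q) :
    F36_354.F3P1 m n (m + n) Q :=
  Fin_618.fin (by omega) (F40_354.lep m n (m + n) Q hm hn hQ)

/-- `SgE` of the skeleton -/
theorem sgE : Main_456.SgE := Qp_534.sgE_of f3P1

/-- `F3E` of the skeleton -/
theorem f3E : Main_456.F3E := LowF20_471.f3E_of f3P1

/-- **all leaves of the row from**: the step and `GLP`. -/
theorem leaves_of (h1 : ∀ m n : ℕ, 3 ≤ m → 1 ≤ n → StepAll m n) (hG : Stp_518.GLP) :
    Skel4_884.Leaves where
  step := h1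
  fl m n hm _ := FL10_567.flAll m n (by omega)
  start := F11f_188.startAll hG
  fin := finAll hG
  sg := sgE
  f3 := f3E

/-- the same from 518's text of the step -/
theorem leaves_of' (h1 : ∀ m n : ℕ, 3 ≤ m → 1 ≤ n → StepT m n) (hG : Stp_518.GLP) :
    Skel4_884.Leaves :=
  leaves_of (fun m n hm hn => stepAll_of (h1 m n hm hn)) hG

end Crest.Agent.R234.Thya_685
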