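import Crest.Agent.R234.Thya5_685
import Crest.Agent.R234.Stp9_518
import Crest.Agent.R234.Ng14_290
import Crest.Agent.R234.Sw20_733
import Crest.Agent.R234.Swb20_159
import Crest.Agent.R234.Sp2_685
import Crest.Agent.R234.Sel21_570

/-!
R234 (helper685): all leaves of the row.
-/

set_option autoImplicit false

namespace Crest.Agent.R234.Thya_685

/-- the step -/
theorem stepT (m n : ℕ) (hm : 3 ≤ m) (hn : 1 ≤ n) : StepT m n :=
  Stp_518.stepT Ng_290.glp Sp_685.supP Sw_733.swP Swb_159.blkP MG_570.selP3 m n hm hn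

/-- **all leaves** -/
theorem leaves : Skel4_884.Leaves := leaves_of' stepT Ng_290.glp

end Crest.Agent.R234.Thya_685
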