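import Crest.Agent.R234.Vf6_884

/-!
Row 234 (helper395), file 1 of VF-TOP: the exact scaling identity of the planar excess
`ρ^(-m-2) ∫_{B_ρ(z)} ‖A (x - z)‖² dV` for a stationary varifold (degree-two homogeneous analogue of
the monotonicity identity of helper884, same proof).
-/

set_option autoImplicit false

open MeasureTheory Crest.GeometryTopology.Submanifold Filter Topology
open scoped ENNReal InnerProductSpace

noncomputable section

namespace Crest.Agent.R234.Top_395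

open Crest.Agent.R234.Vf_884

variable {m k : ℕ} {U : Set (Euc k)} {V : Measure (Euc k × L k)}

/-- the algebra of the three zones, with exponent `N` independent of `m`. -/
theorem zones (N : ℕ) {z : Euc k} {p : Euc k × L k} (hp : p.2 ∈ G m k) {σ ρ : ℝ} (hσ : 0 < σ)
    (hσρ : σ < ρ) :
    (N / 2 : ℝ) * (∫ u in (‖p.1 - z‖ ^ 2)..(ρ ^ 2),
        (Set.Ioo (σ ^ 2) (ρ ^ 2)).indicator (cc N (σ ^ 2)) u)
      - (Set.Ioo (σ ^ 2) (ρ ^ 2)).indicator (cc N (σ ^ 2)) (‖p.1 - z‖ ^ 2) *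
        ‖p.2 (p.1 - z)‖ ^ 2 =
    (Prod.fst ⁻¹' (Metric.ball z ρ \ Metric.closedBall z σ)).indicator (perpQ N z) p
      + (σ ^ N)⁻¹ * (Prod.fst ⁻¹' (Metric.closedBall z σ)).indicator (fun _ => (1:ℝ)) p
      - (ρ ^ N)⁻¹ * (Prod.fst ⁻¹' (Metric.ball z ρ)).indicator (fun _ => (1:ℝ)) p := by
  have hρ : 0 < ρ := hσ.trans hσρ
  have hab : σ ^ 2 < ρ ^ 2 := by gcongr
  rw [inner_eq N (by positivity) hab]
  have hsσ : √(σ ^ 2) = σ := Real.sqrt_sq hσ.le
  have hsρ : √(ρ ^ 2) = ρ := Real.sqrt_sq hρ.le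
  have hsr : √(‖p.1 - z‖ ^ 2) = ‖p.1 - z‖ := Real.sqrt_sq (norm_nonneg _)
  rcases le_or_gt ρ ‖p.1 - z‖ with h1 | h1
  · have h2 : ¬ ‖p.1 - z‖ ^ 2 < ρ ^ 2 := by
      rw [not_lt]; gcongr
    rw [if_neg h2, Set.indicator_of_notMem (fun h => h2 h.2)]
    have h3 : p.1 ∉ Metric.ball z ρ := by
      rw [mem_ball_iff_norm]; exact not_lt.2 h1
    have h4 : p.1 ∉ Metric.closedBall z σ := by
      rw [mem_closedBall_iff_norm]; exact not_le.2 (hσρ.trans_le h1)
    rw [Set.indicator_of_notMem (fun h => h3 h.1),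
      Set.indicator_of_notMem (show p ∉ Prod.fst ⁻¹' Metric.closedBall z σ from h4),
      Set.indicator_of_notMem (show p ∉ Prod.fst ⁻¹' Metric.ball z ρ from h3)]
    simp
  · have h2 : ‖p.1 - z‖ ^ 2 < ρ ^ 2 := by gcongr
    have h3 : p.1 ∈ Metric.ball z ρ := by rwa [mem_ball_iff_norm]
    rw [if_pos h2, hsρ, Set.indicator_of_mem (s := Prod.fst ⁻¹' Metric.ball z ρ)
      (show p ∈ Prod.fst ⁻¹' Metric.ball z ρ from h3)]
    rcases le_or_gt ‖p.1 - z‖ σ with h4 | h4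
    · have h5 : p.1 ∈ Metric.closedBall z σ := by rwa [mem_closedBall_iff_norm]
      have h6 : ‖p.1 - z‖ ^ 2 ≤ σ ^ 2 := by gcongr
      rw [max_eq_right h6, hsσ, Set.indicator_of_notMem (fun h => absurd h.1 (not_lt.2 h6)),
        Set.indicator_of_notMem (fun h => h.2 h5),
        Set.indicator_of_mem (show p ∈ Prod.fst ⁻¹' Metric.closedBall z σ from h5)]
      ring
    · have h5 : p.1 ∉ Metric.closedBall z σ := by
        rw [mem_closedBall_iff_norm]; exact not_le.2 h4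
      have h6 : σ ^ 2 < ‖p.1 - z‖ ^ 2 := by gcongr
      rw [max_eq_left h6.le, hsr, Set.indicator_of_mem
          (show ‖p.1 - z‖ ^ 2 ∈ Set.Ioo (σ ^ 2) (ρ ^ 2) from ⟨h6, h2⟩),
        Set.indicator_of_mem (show p ∈ Prod.fst ⁻¹' (Metric.ball z ρ \ Metric.closedBall z σ) from
          ⟨h3, h5⟩),
        Set.indicator_of_notMem (show p ∉ Prod.fst ⁻¹' Metric.closedBall z σ from h5)]
      unfold cc perpQ
      rw [max_eq_left h6.le, hsr]
      have h7 : 0 < ‖p.1 - z‖ := hσ.trans h4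
      have h8 := G_norm_sq_add hp (p.1 - z)
      have h9 : ‖p.1 - z - p.2 (p.1 - z)‖ ^ 2 = ‖p.1 - z‖ ^ 2 - ‖p.2 (p.1 - z)‖ ^ 2 := by
        linarith
      rw [h9, pow_add]
      field_simp
      ring

variable {F : Type*} [NormedAddCommGroup F] [InnerProductSpace ℝ F]

theorem hasFDerivAt_quad (A : Euc k →L[ℝ] F) (z x : Euc k) :
    HasFDerivAt (fun y => ‖A (y - z)‖ ^ 2) (2 • (innerSL ℝ (A (x - z))).comp A) x := by
  have h1 : HasFDerivAt (fun y : Euc k => A (y - z)) A x := by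
    have h2 := (A.hasFDerivAt (x := x - z)).comp x ((hasFDerivAt_id x).sub_const z)
    rw [ContinuousLinearMap.comp_id] at h2
    exact h2
  exact h1.norm_sq

theorem fderiv_quad (A : Euc k →L[ℝ] F) (z x v : Euc k) :
    fderiv ℝ (fun y => ‖A (y - z)‖ ^ 2) x v = 2 * ⟪A (x - z), A v⟫_ℝ := by
  rw [(hasFDerivAt_quad A z x).fderiv]
  simp [inner_sub_left]

theorem contDiff_quad (A : Euc k →L[ℝ] F) (z : Euc k) :
    ContDiff ℝ 1 (fun y : Euc k => ‖A (y - z)‖ ^ 2) := by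
  refine ContDiff.norm_sq ℝ ?_
  exact A.contDiff.comp (contDiff_id.sub contDiff_const)

/-- **the scaling identity of the planar excess.** -/
theorem quad_identity (hV : Stat m k U V) (A : Euc k →L[ℝ] F) {z : Euc k} {σ ρ : ℝ} (hσ : 0 < σ)
    (hσρ : σ < ρ) (hU : Metric.closedBall z ρ ⊆ U) :
    (ρ ^ (m + 2))⁻¹ * (∫ p in Prod.fst ⁻¹' (Metric.ball z ρ), ‖A (p.1 - z)‖ ^ 2 ∂V)
      - (σ ^ (m + 2))⁻¹ * (∫ p in Prod.fst ⁻¹' (Metric.closedBall z σ), ‖A (p.1 - z)‖ ^ 2 ∂V) =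
    (∫ p in Prod.fst ⁻¹' (Metric.ball z ρ \ Metric.closedBall z σ),
        ‖A (p.1 - z)‖ ^ 2 * perpQ (m + 2) z p ∂V)
      - (2 / (m + 2 : ℝ)) * ∫ p in Prod.fst ⁻¹' (Metric.ball z ρ),
        (((max ‖p.1 - z‖ σ) ^ (m + 2))⁻¹ - (ρ ^ (m + 2))⁻¹) *
          ⟪A (p.1 - z), A ((p.1 - z) - p.2 (p.1 - z))⟫_ℝ ∂V := by
  set h : Euc k → ℝ := fun x => ‖A (x - z)‖ ^ 2 with hh0
  have hh : ContDiff ℝ 1 h := contDiff_quad A z
  have hρ : 0 < ρ := hσ.trans hσρ
  obtain ⟨C, hC⟩ := (isCompact_closedBall z ρ).exists_bound_of_continuousOn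
    hh.continuous.continuousOn
  have key := radialh_ind hV (continuous_cc (m + 2) (by positivity : 0 < σ ^ 2)) hh (a := σ ^ 2)
    hρ.le hU
  set A' : Euc k × L k → ℝ := (Prod.fst ⁻¹' (Metric.ball z ρ \ Metric.closedBall z σ)).indicator
    (fun p => h p.1 * perpQ (m + 2) z p) with hA
  set B : Euc k × L k → ℝ := (Prod.fst ⁻¹' (Metric.closedBall z σ)).indicator
    (fun p => h p.1) with hB
  set D : Euc k × L k → ℝ := (Prod.fst ⁻¹' (Metric.ball z ρ)).indicator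
    (fun p => h p.1) with hD
  set E : Euc k × L k → ℝ := (Prod.fst ⁻¹' (Metric.ball z ρ)).indicator
    (fun p => (((max ‖p.1 - z‖ σ) ^ (m + 2))⁻¹ - (ρ ^ (m + 2))⁻¹) *
      ⟪A (p.1 - z), A ((p.1 - z) - p.2 (p.1 - z))⟫_ℝ) with hE
  have hmh : Measurable fun p : Euc k × L k => h p.1 := hh.continuous.measurable.comp measurable_fst
  have hmE : Continuous fun p : Euc k × L k =>
      (((max ‖p.1 - z‖ σ) ^ (m + 2))⁻¹ - (ρ ^ (m + 2))⁻¹) *
        ⟪A (p.1 - z), A ((p.1 - z) - p.2 (p.1 - z))⟫_ℝ := by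
    refine Continuous.mul ?_ ?_
    · refine Continuous.sub (Continuous.inv₀ (by fun_prop) fun p => ?_) continuous_const
      have : 0 < max ‖p.1 - z‖ σ := lt_max_of_lt_right hσ
      positivity
    · have h1 : Continuous fun p : Euc k × L k => p.1 - z := continuous_fst.sub continuous_const
      have h2 : Continuous fun p : Euc k × L k => p.2 (p.1 - z) := continuous_snd.clm_apply h1
      exact (A.continuous.comp h1).inner (A.continuous.comp (h1.sub h2))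
  have hann : ∀ p : Euc k × L k, p.1 ∈ Metric.ball z ρ \ Metric.closedBall z σ → p.2 ∈ G m k →
      |h p.1 * perpQ (m + 2) z p| ≤ C * (σ ^ (m + 2))⁻¹ := by
    intro p hp hp2
    have h1 : ‖h p.1‖ ≤ C := hC _ (Metric.ball_subset_closedBall hp.1)
    have h3 : σ < ‖p.1 - z‖ := by
      have := hp.2
      rwa [mem_closedBall_iff_norm, not_le] at this
    have h2 : perpQ (m + 2) z p ≤ (σ ^ (m + 2))⁻¹ := by
      unfold perpQ
      have h4 := G_norm_sq_add hp2 (p.1 - z)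
      have h5 : ‖(p.1 - z) - p.2 (p.1 - z)‖ ^ 2 ≤ ‖p.1 - z‖ ^ 2 := by
        nlinarith [sq_nonneg ‖p.2 (p.1 - z)‖]
      have h6 : 0 < ‖p.1 - z‖ := hσ.trans h3
      have e1 : ‖p.1 - z‖ ^ (m + 2 + 2) = ‖p.1 - z‖ ^ (m + 2) * ‖p.1 - z‖ ^ 2 := by ring
      rw [e1, ← div_div, div_right_comm]
      calc ‖(p.1 - z) - p.2 (p.1 - z)‖ ^ 2 / ‖p.1 - z‖ ^ 2 / ‖p.1 - z‖ ^ (m + 2)
          ≤ 1 / ‖p.1 - z‖ ^ (m + 2) := by
            gcongr
            exact (div_le_one (by positivity)).2 h5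
        _ ≤ 1 / σ ^ (m + 2) := by gcongr
        _ = _ := one_div _
    rw [abs_mul, abs_of_nonneg (perpQ_nonneg (m + 2) z p)]
    exact mul_le_mul h1 h2 (perpQ_nonneg (m + 2) z p) ((norm_nonneg _).trans h1)
  have iA : Integrable A' V := integrable_ball_ind hV hU (hmh.mul (measurable_perpQ (m + 2) z))
      (measurableSet_ball.diff measurableSet_closedBall)
      (Set.sdiff_subset.trans Metric.ball_subset_closedBall) hann
  have iB : Integrable B V := integrable_ball_ind hV hU hmh measurableSet_closedBall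
    (Metric.closedBall_subset_closedBall hσρ.le) (C := C) fun p hp _ =>
      hC _ (Metric.closedBall_subset_closedBall hσρ.le hp)
  have iD : Integrable D V := integrable_ball_ind hV hU hmh measurableSet_ball
    Metric.ball_subset_closedBall (C := C) fun p hp _ =>
      hC _ (Metric.ball_subset_closedBall hp)
  have iE : Integrable E V := by
    refine integrable_ball_ind hV hU hmE.measurable measurableSet_ball
      Metric.ball_subset_closedBall
      (C := (σ ^ (m + 2))⁻¹ * ((‖A‖ * ρ) * (‖A‖ * ρ))) ?_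
    intro p hp hp2
    rw [mem_ball_iff_norm] at hp
    have h0 : 0 < max ‖p.1 - z‖ σ := lt_max_of_lt_right hσ
    have h3 : max ‖p.1 - z‖ σ ≤ ρ := max_le hp.le hσρ.le
    have h4 : (ρ ^ (m + 2))⁻¹ ≤ ((max ‖p.1 - z‖ σ) ^ (m + 2))⁻¹ := by gcongr
    have h5 : ((max ‖p.1 - z‖ σ) ^ (m + 2))⁻¹ ≤ (σ ^ (m + 2))⁻¹ := by
      gcongr
      exact le_max_right _ _
    have h6 : |((max ‖p.1 - z‖ σ) ^ (m + 2))⁻¹ - (ρ ^ (m + 2))⁻¹| ≤ (σ ^ (m + 2))⁻¹ := by
      rw [abs_of_nonneg (by linarith)]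
      have : 0 ≤ (ρ ^ (m + 2))⁻¹ := by positivity
      linarith
    have h8 := G_norm_sq_add hp2 (p.1 - z)
    have h9 : ‖(p.1 - z) - p.2 (p.1 - z)‖ ≤ ρ := by
      refine le_trans ?_ hp.le
      have : ‖(p.1 - z) - p.2 (p.1 - z)‖ ^ 2 ≤ ‖p.1 - z‖ ^ 2 := by
        nlinarith [sq_nonneg ‖p.2 (p.1 - z)‖]
      exact le_of_sq_le_sq this (norm_nonneg _)
    rw [abs_mul]
    refine mul_le_mul h6 ?_ (abs_nonneg _) (by positivity)
    refine (abs_real_inner_le_norm _ _).trans ?_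
    refine mul_le_mul ?_ ?_ (norm_nonneg _) (by positivity)
    · exact (A.le_opNorm _).trans (by gcongr)
    · exact (A.le_opNorm _).trans (by gcongr)
  have hm2 : ((m + 2 : ℕ) : ℝ) = (m : ℝ) + 2 := by push_cast; ring
  have hid : (fun p : Euc k × L k => h p.1 * ((m / 2 : ℝ) *
        (∫ u in (‖p.1 - z‖ ^ 2)..(ρ ^ 2),
          (Set.Ioo (σ ^ 2) (ρ ^ 2)).indicator (cc (m + 2) (σ ^ 2)) u)
      - (Set.Ioo (σ ^ 2) (ρ ^ 2)).indicator (cc (m + 2) (σ ^ 2)) (‖p.1 - z‖ ^ 2) *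
        ‖p.2 (p.1 - z)‖ ^ 2)
      + (1 / 2 : ℝ) * (∫ u in (‖p.1 - z‖ ^ 2)..(ρ ^ 2),
          (Set.Ioo (σ ^ 2) (ρ ^ 2)).indicator (cc (m + 2) (σ ^ 2)) u) *
        fderiv ℝ h p.1 (p.2 (p.1 - z)))
      =ᵐ[V] fun p => ((A' p + (σ ^ (m + 2))⁻¹ * B p) - (ρ ^ (m + 2))⁻¹ * D p)
        - (2 / (m + 2 : ℝ)) * E p := by
    filter_upwards [hV.conc] with p hp
    have hz := zones (m + 2) hp hσ hσρ (z := z)
    set J : ℝ := ∫ u in (‖p.1 - z‖ ^ 2)..(ρ ^ 2),
          (Set.Ioo (σ ^ 2) (ρ ^ 2)).indicator (cc (m + 2) (σ ^ 2)) u with hJ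
    have hi := inner_eq (m + 2) (t := ‖p.1 - z‖ ^ 2) (by positivity : 0 < σ ^ 2)
      (by gcongr : σ ^ 2 < ρ ^ 2)
    rw [← hJ, hm2] at hi
    rw [hm2] at hz
    have hmx : √(max (‖p.1 - z‖ ^ 2) (σ ^ 2)) = max ‖p.1 - z‖ σ := by
      rcases le_total ‖p.1 - z‖ σ with h | h
      · rw [max_eq_right h, max_eq_right (by gcongr), Real.sqrt_sq hσ.le]
      · rw [max_eq_left h, max_eq_left (by gcongr), Real.sqrt_sq (norm_nonneg _)]
    rw [hmx, Real.sqrt_sq hρ.le] at hi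
    have hder : fderiv ℝ h p.1 (p.2 (p.1 - z)) =
        2 * h p.1 - 2 * ⟪A (p.1 - z), A ((p.1 - z) - p.2 (p.1 - z))⟫_ℝ := by
      have e0 : A ((p.1 - z) - p.2 (p.1 - z)) = A (p.1 - z) - A (p.2 (p.1 - z)) := map_sub _ _ _
      rw [hh0, fderiv_quad, e0, inner_sub_right, real_inner_self_eq_norm_sq]
      ring
    rw [hder]
    have e1 : h p.1 * (Prod.fst ⁻¹' (Metric.ball z ρ \ Metric.closedBall z σ)).indicator
        (perpQ (m + 2) z) p = A' p := by
      simp only [hA, Set.indicator]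
      split_ifs <;> simp
    have e2 : h p.1 * ((σ ^ (m + 2))⁻¹ *
        (Prod.fst ⁻¹' (Metric.closedBall z σ)).indicator (fun _ => (1:ℝ)) p)
        = (σ ^ (m + 2))⁻¹ * B p := by
      simp only [hB, Set.indicator]
      split_ifs <;> ring
    have e3 : h p.1 * ((ρ ^ (m + 2))⁻¹ *
        (Prod.fst ⁻¹' (Metric.ball z ρ)).indicator (fun _ => (1:ℝ)) p)
        = (ρ ^ (m + 2))⁻¹ * D p := by
      simp only [hD, Set.indicator]
      split_ifs <;> ring
    have e4 : J * ⟪A (p.1 - z), A ((p.1 - z) - p.2 (p.1 - z))⟫_ℝ = (2 / (m + 2 : ℝ)) * E p := by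
      have hiff : ‖p.1 - z‖ ^ 2 < ρ ^ 2 ↔ p ∈ Prod.fst ⁻¹' (Metric.ball z ρ) := by
        rw [Set.mem_preimage, mem_ball_iff_norm]
        exact pow_lt_pow_iff_left₀ (norm_nonneg _) hρ.le two_ne_zero
      have hJ2 : J = (2 / (m + 2 : ℝ)) * (if ‖p.1 - z‖ ^ 2 < ρ ^ 2 then
          ((max ‖p.1 - z‖ σ) ^ (m + 2))⁻¹ - (ρ ^ (m + 2))⁻¹ else 0) := by
        rw [← hi]
        field_simp
      rw [hJ2, mul_assoc]
      congr 1
      simp only [hE, Set.indicator]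
      by_cases hc : ‖p.1 - z‖ ^ 2 < ρ ^ 2
      · rw [if_pos hc, if_pos (hiff.1 hc)]
      · rw [if_neg hc, if_neg (fun h => hc (hiff.2 h)), zero_mul]
    rw [← e1, ← e2, ← e3, ← e4]
    have h5 := congrArg (fun t => h p.1 * t) hz
    simp only at h5
    linear_combination h5
  have j1 : Integrable (fun p => (σ ^ (m + 2))⁻¹ * B p) V := iB.const_mul _
  have j2 : Integrable (fun p => (ρ ^ (m + 2))⁻¹ * D p) V := iD.const_mul _
  have j3 : Integrable (fun p => (2 / (m + 2 : ℝ)) * E p) V := iE.const_mul _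
  have j4 : Integrable (fun p => A' p + (σ ^ (m + 2))⁻¹ * B p) V := iA.add j1
  have j5 : Integrable (fun p => A' p + (σ ^ (m + 2))⁻¹ * B p - (ρ ^ (m + 2))⁻¹ * D p) V :=
    j4.sub j2
  rw [integral_congr_ae hid, integral_sub j5 j3, integral_sub j4 j2,
    integral_add iA j1, integral_const_mul, integral_const_mul, integral_const_mul] at key
  rw [← integral_indicator (measurable_fst measurableSet_ball),
    ← integral_indicator (measurable_fst measurableSet_closedBall),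
    ← integral_indicator (measurable_fst (measurableSet_ball.diff measurableSet_closedBall)),
    ← integral_indicator (measurable_fst measurableSet_ball)]
  linarith

end Crest.Agent.R234.Top_395
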