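import Crest.Agent.R234.Up2_456
import Crest.Agent.R234.Thya1_685

/-!
# Row 234, (F8) START (helper456): `top` = the flat plane as a pre-state at the level `S`

* `mg_zero`, `plS_spec`, `plane_of_flat`
* `exists_pst` : the plane is a pre-state when the excess is small
* **`topAll`** : field `top` of `Thy` in the prefix `Ev` of `Thya1_685`
-/

set_option autoImplicit false
set_option linter.unusedVariables false

open MeasureTheory Filter Topology Set
open scoped ENNReal NNReal ContDiff InnerProductSpace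
open Crest.GeometryTopology.Submanifold Crest.Agent.R234.Vf_884
open Crest.Agent.R234.Main_456 (Frame Msys hgt)
open Crest.Agent.R234.AS_456 (hp vp)
open Crest.Agent.R234.MG_570 (MG)
open Crest.Agent.R234.Gi_456
open Crest.Agent.R234.GL_394 (Ok On VK II)
open Crest.Agent.R234.GI_640 (g3 g31)
open Crest.Agent.R234.Stp_518 Crest.Agent.R234.F10w_188
open Crest.Agent.R234.F10a_188 Crest.Agent.R234.F10b_188 Crest.Agent.R234.F10d_188
open Crest.Agent.R234.Top_395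
open Crest.Agent.R234.Lvs_214
open Crest.Agent.R234.End_395 (Cmp cmp_ch ig)

noncomputable section

namespace Crest.Agent.R234.Up_456

variable {m n k : ℕ}

theorem mg_zero (m n N : ℕ) (R : ℝ) : MG (m := m) (n := n) N 0 R (fun _ => 0) := by
  refine ⟨0, fun α => by simp, by simp, fun x α => ?_, fun z hz => ?_⟩
  · simp [Mx1_397.ev_zero]
  · show Msys (fun _ => (0 : Euc n)) z = 0
    unfold Msys
    have e1 : fderiv ℝ (fun _ : Euc m => (0 : Euc n)) = 0 := by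
      ext1 y; simp
    rw [e1]
    simp

/-- the plane chosen by `plS` -/
theorem plS_spec {V : Measure (Euc k × L k)} {x : Euc k} {om r : ℝ}
    (h : ∃ P ∈ G m k, pex m V P x r ≤ om) :
    plS m V x om r ∈ G m k ∧ pex m V (plS m V x om r) x r ≤ om := by
  unfold plS
  rw [dif_pos h]
  exact h.choose_spec

/-- flatness at the scale `e^(S + c₀)` gives a plane at the scale `8 e^(S + 1/8)` -/
theorem plane_of_flat {U : Set (Euc k)} {V : Measure (Euc k × L k)} {x : Euc k} {om c₀ r₁ S : ℝ}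
    (hV : Stat m k U V) (hU : Metric.closedBall x r₁ ⊆ U) (hc₀ : 4 ≤ c₀) (hom : 0 ≤ om)
    (h : flatL m V x om c₀ r₁ S) :
    8 * Real.exp (S + 1 / 8) ≤ r₁ ∧
      ∃ P ∈ G m k, pex m V P x (8 * Real.exp (S + 1 / 8)) ≤ om * Real.exp ((m + 2) * c₀) := by
  obtain ⟨h1, P, hP, h2⟩ := h
  have hE := Real.exp_pos S
  have e8 : (8 : ℝ) ≤ Real.exp 3 := by
    have h1 : Real.exp 3 = Real.exp 1 ^ 3 := by rw [← Real.exp_nat_mul]; norm_num
    rw [h1]
    have h2 : (2.7182818283 : ℝ) < Real.exp 1 := Real.exp_one_gt_d9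
    calc (8 : ℝ) ≤ 2.7182818283 ^ 3 := by norm_num
      _ ≤ Real.exp 1 ^ 3 := pow_le_pow_left₀ (by norm_num) h2.le 3
  have h3 : 8 * Real.exp (S + 1 / 8) ≤ Real.exp (S + c₀) := by
    calc 8 * Real.exp (S + 1 / 8) ≤ Real.exp 3 * Real.exp (S + 1 / 8) :=
          mul_le_mul_of_nonneg_right e8 (Real.exp_pos _).le
      _ = Real.exp (S + 1 / 8 + 3) := by rw [← Real.exp_add]; congr 1; ring
      _ ≤ Real.exp (S + c₀) := Real.exp_le_exp.2 (by linarith)
  refine ⟨h3.trans h1, P, hP, ?_⟩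
  have hp : 0 < 8 * Real.exp (S + 1 / 8) := by positivity
  have h4 := pex_mono (P := P) hV hp h3 ((Metric.closedBall_subset_closedBall h1).trans hU)
  have h5 : Real.exp (S + c₀) ^ (m + 2) * pex m V P x (Real.exp (S + c₀)) ≤
      Real.exp (S + c₀) ^ (m + 2) * om := mul_le_mul_of_nonneg_left h2 (by positivity)
  have h6 : Real.exp (S + c₀) ^ (m + 2) ≤
      (8 * Real.exp (S + 1 / 8)) ^ (m + 2) * Real.exp ((m + 2) * c₀) := by
    have e1 : Real.exp ((m + 2) * c₀) = Real.exp c₀ ^ (m + 2) := by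
      rw [← Real.exp_nat_mul]; push_cast; rfl
    rw [e1, ← mul_pow]
    refine pow_le_pow_left₀ (Real.exp_pos _).le ?_ _
    have e2 : Real.exp (S + c₀) = Real.exp S * Real.exp c₀ := Real.exp_add _ _
    have e3 : Real.exp S ≤ Real.exp (S + 1 / 8) := Real.exp_le_exp.2 (by linarith)
    rw [e2]
    refine mul_le_mul_of_nonneg_right ?_ (Real.exp_pos _).le
    have := Real.exp_pos (S + 1 / 8)
    linarith
  have h7 : Real.exp (S + c₀) ^ (m + 2) * om ≤
      (8 * Real.exp (S + 1 / 8)) ^ (m + 2) * Real.exp ((m + 2) * c₀) * om :=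
    mul_le_mul_of_nonneg_right h6 hom
  have h8 : (8 * Real.exp (S + 1 / 8)) ^ (m + 2) * pex m V P x (8 * Real.exp (S + 1 / 8)) ≤
      (8 * Real.exp (S + 1 / 8)) ^ (m + 2) * (om * Real.exp ((m + 2) * c₀)) := by
    calc _ ≤ _ := h4.trans (h5.trans h7)
      _ = _ := by ring
  exact le_of_mul_le_mul_left h8 (by positivity)

/-- `I` from a bound of the heights -/
theorem I_le_of_hgt {Q : ℕ} {U : Set (Euc k)} {D : VarifoldData m k} {x : Euc k}
    (hD : IsIntegralVarifoldIn U D) (hst : IsStationaryIn U D) {M : Mo m n k} {a ε l : ℝ}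
    (h : Wb M a) (hf : Frame M.π M.ρ) (hU : Metric.closedBall x (8 * M.S) ⊆ U)
    (hrat : rat m (VD D) x (4 * M.S) ≤ ENNReal.ofReal (Q + 1)) (hl : l ≤ M.lb) (hε : 0 ≤ ε)
    (hh : ∀ᵐ p ∂(VD D), p.1 ∈ Metric.ball x (4 * M.S) →
      ‖hgt M.π M.ρ x M.S M.u p.1‖ ≤ ε * M.S) :
    M.I x (VD D) l ≤ Real.exp (-m * l) *
      (27 / 2 * (ε * M.S) ^ 2 * ((Q + 1) * (ome m * (4 * M.S) ^ m))) := by
  have hS := M.S_pos
  have hV := stat_VD hD hst
  have hfin8 : (VD D) (Metric.closedBall x (8 * M.S) ×ˢ univ) < ⊤ :=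
    hV.fin _ (isCompact_closedBall _ _) hU
  have hreg4 : M.reg x ⊆ Metric.ball x (4 * M.S) := reg_sub_ball4 h hf
  have hfin : (VD D) (M.reg x ×ˢ univ) < ⊤ :=
    lt_of_le_of_lt (measure_mono (Set.prod_mono (h.reg_sub_ball hf) le_rfl)) hfin8
  have hint := int_ig (h.ok hf (x := x)) hfin l
  have hm1 : MeasurableSet (M.reg x ×ˢ (univ : Set (L k))) :=
    (h.measurableSet_reg x).prod MeasurableSet.univ
  have hcM := h.cmp hf hl (x := x)
  have hfm : IsFiniteMeasure ((VD D).restrict (M.reg x ×ˢ univ)) := ⟨by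
    rw [Measure.restrict_apply_univ]; exact hfin⟩
  have hle : ∀ᵐ p ∂((VD D).restrict (M.reg x ×ˢ univ)),
      ig (M.ch x) g31 l p ≤ 27 / 2 * (ε * M.S) ^ 2 := by
    filter_upwards [ae_restrict_of_ae hh, ae_restrict_mem hm1] with p hp1 hp2
    by_cases hx : ‖(M.ch x).x p.1‖ ≤ Real.exp l
    · have e1 := hp1 (hreg4 hp2.1)
      have e2 : ‖hgt M.π M.ρ x M.S M.u p.1‖ ^ 2 ≤ (ε * M.S) ^ 2 :=
        pow_le_pow_left₀ (norm_nonneg _) e1 2
      have e3 := hcM.f1 p.1 hp2.1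
      have e4 := (hcM.mu p.1 hp2.1 hx).2
      have e5 := (Wb.mu_pos M x ((M.ch x).x p.1)).le
      have e6 := ker_up (Real.exp (-2 * l) * ‖(M.ch x).x p.1‖ ^ 2) (by positivity)
      have e7 : 0 ≤ -4 * g31 (Real.exp (-2 * l) * ‖(M.ch x).x p.1‖ ^ 2) := by
        have := GI_640.g31_nonpos (Real.exp (-2 * l) * ‖(M.ch x).x p.1‖ ^ 2)
        linarith
      have e8 := Wb.f_nonneg M x p.1
      show ((M.ch x).f p.1 * (M.ch x).mu ((M.ch x).x p.1)) *
        (-4 * g31 (Real.exp (-2 * l) * ‖(M.ch x).x p.1‖ ^ 2)) ≤ _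
      have e9 : (M.ch x).f p.1 * (M.ch x).mu ((M.ch x).x p.1) ≤ (M.ch x).f p.1 * (3 / 2) :=
        mul_le_mul_of_nonneg_left e4 e8
      calc _ ≤ ((M.ch x).f p.1 * (3 / 2)) * 12 := mul_le_mul e9 e6 e7 (by positivity)
        _ = 9 * (2 * (M.ch x).f p.1) := by ring
        _ ≤ 9 * (3 / 2 * ‖hgt M.π M.ρ x M.S M.u p.1‖ ^ 2) := by gcongr
        _ ≤ 9 * (3 / 2 * (ε * M.S) ^ 2) := by gcongr
        _ = _ := by ring
    · rw [ig_zero (M.ch x) hx]
      positivity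
  have hmass : (VD D).real (M.reg x ×ˢ univ) ≤ (Q + 1) * (ome m * (4 * M.S) ^ m) := by
    refine le_trans ?_ (real_ball_le (V := VD D) (x := x) (by positivity) (by positivity) hrat)
    refine ENNReal.toReal_mono ?_ (measure_mono (Set.prod_mono hreg4 le_rfl))
    refine (lt_of_le_of_lt (measure_mono (Set.prod_mono ?_ le_rfl)) hfin8).ne
    exact Metric.ball_subset_closedBall.trans (Metric.closedBall_subset_closedBall (by linarith))
  show Real.exp (-m * l) * ∫ p in M.reg x ×ˢ univ, ig (M.ch x) g31 l p ∂(VD D) ≤ _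
  refine mul_le_mul_of_nonneg_left ?_ (Real.exp_pos _).le
  calc ∫ p in M.reg x ×ˢ univ, ig (M.ch x) g31 l p ∂(VD D)
      ≤ ∫ p in M.reg x ×ˢ univ, 27 / 2 * (ε * M.S) ^ 2 ∂(VD D) :=
        integral_mono_ae hint (integrable_const _) hle
    _ = 27 / 2 * (ε * M.S) ^ 2 * (VD D).real (M.reg x ×ˢ univ) := by
        rw [integral_const, smul_eq_mul, measureReal_restrict_apply_univ, mul_comm]
    _ ≤ _ := mul_le_mul_of_nonneg_left hmass (by positivity)

/-- **the plane is a pre-state** -/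
theorem exists_pst (m n Q : ℕ) (hm : 1 ≤ m) (hQ : 1 ≤ Q) (Lb : ℝ) : ∃ wz : ℝ, 0 < wz ∧ wz ≤ 1 ∧
    ∀ (c : Cn), 2 ≤ c.N → 0 ≤ c.κ₀ → ∀ (U : Set (Euc (m + n))) (D : VarifoldData m (m + n))
      (x : Euc (m + n)) (S : ℝ) (P : L (m + n)), IsOpen U → IsIntegralVarifoldIn U D →
        IsStationaryIn U D → Metric.closedBall x (8 * Real.exp (S + 1 / 8)) ⊆ U →
        Th m (VD D) x = (Q : ℝ≥0∞) →
        rat m (VD D) x (8 * Real.exp (S + 1 / 8)) ≤ (Q : ℝ≥0∞) + ENNReal.ofReal wz →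
        P ∈ G m (m + n) → pex m (VD D) P x (8 * Real.exp (S + 1 / 8)) ≤ wz →
        ∃ M : Mo m n (m + n), M.lb = S + 1 / 8 ∧ M.Lb = Lb ∧ M.κ = 0 ∧ hp M.π = P ∧
          Pst c (VD D) x M S := by
  have ho := ome_pos m
  set C₁ : ℝ := 27 / 2 * ((Q + 1) * (ome m * 4 ^ m)) * Real.exp ((m + 2) * (1 / 8)) with hC₁
  have hC₁0 : 0 < C₁ := by positivity
  set ε : ℝ := Real.exp (-(|Lb| / 2)) / (16 * (1 + C₁)) with hε
  have hE0 : 0 < Real.exp (-(|Lb| / 2)) := Real.exp_pos _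
  have hE1 : Real.exp (-(|Lb| / 2)) ≤ 1 := Real.exp_le_one_iff.2 (by have := abs_nonneg Lb; linarith)
  have hε0 : 0 < ε := by positivity
  have hεE : ε ≤ Real.exp (-(|Lb| / 2)) / 16 := by
    rw [hε]
    exact div_le_div_of_nonneg_left hE0.le (by norm_num) (by linarith)
  have hε1 : ε < 1 := by linarith
  have hε2 : C₁ * ε ^ 2 ≤ Real.exp (-Lb) := by
    have e1 : ε ^ 2 = Real.exp (-|Lb|) / (256 * (1 + C₁) ^ 2) := by
      rw [hε, div_pow, ← Real.exp_nat_mul, mul_pow]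
      congr 1
      · congr 1; push_cast; ring
      · norm_num
    rw [e1]
    have e2 : Real.exp (-|Lb|) ≤ Real.exp (-Lb) := Real.exp_le_exp.2 (by
      have := le_abs_self Lb; linarith)
    have e3 : C₁ * (Real.exp (-|Lb|) / (256 * (1 + C₁) ^ 2)) =
        (C₁ / (256 * (1 + C₁) ^ 2)) * Real.exp (-|Lb|) := by ring
    rw [e3]
    have e4 : C₁ / (256 * (1 + C₁) ^ 2) ≤ 1 := by
      rw [div_le_one (by positivity)]
      nlinarith
    have e5 := Real.exp_pos (-|Lb|)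
    calc _ ≤ 1 * Real.exp (-|Lb|) := mul_le_mul_of_nonneg_right e4 e5.le
      _ ≤ _ := by linarith
  have hε3 : ε ≤ Real.exp (-(Lb / 4)) := by
    have e1 : Real.exp (-(|Lb| / 2)) ≤ Real.exp (-(Lb / 4)) := Real.exp_le_exp.2 (by
      have := le_abs_self Lb; have := abs_nonneg Lb; linarith)
    linarith
  obtain ⟨Λ, hΛ, H⟩ := flatPack_of (m := m) (n := n) (k := m + n) hm Q hQ
  obtain ⟨wz, hwz, hwz1, H⟩ := H ε hε0 hε1
  refine ⟨wz, hwz, hwz1, ?_⟩
  intro c hN hκ₀ U D x S P hU hD hst hxU hTh hrat hP hpex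
  obtain ⟨π, ρ, hf, hhp⟩ := exists_frame (n := n) (k := m + n) rfl hP
  have ht : 0 < Real.exp (S + 1 / 8) := Real.exp_pos _
  have pk := H hU hD hst ht hxU hTh hrat π ρ hf (by rw [hhp]; exact hpex)
  set M : Mo m n (m + n) := ⟨π, ρ, S + 1 / 8, fun _ => 0, 0, 32, Lb, 0, 0⟩ with hM
  have hMS : M.S = Real.exp (S + 1 / 8) := rfl
  have hh : ∀ z, hgt M.π M.ρ x M.S M.u z = ρ (z - x) := by
    intro z
    show ρ (z - x) - M.S • (0 : Euc n) = _
    rw [smul_zero, sub_zero]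
  obtain ⟨Cw, hCw, HC⟩ := exists_wb m n (N := c.N) hN
  have hW : Wb M (Cw * 0) := HC (M := M) (κ := 0) (r := 0) le_rfl (by simp) (mg_zero m n c.N 0)
  refine ⟨M, rfl, rfl, rfl, hhp, ⟨⟨hf, le_rfl, hκ₀, mg_zero m n c.N _, ?_⟩, ?_, ?_⟩⟩
  · show ‖fderiv ℝ (fun _ : Euc m => (0 : Euc n)) 0‖ ≤ 0
    simp
  · have hrat4 : rat m (VD D) x (4 * M.S) ≤ ENNReal.ofReal (Q + 1) := by
      refine pk.near.2.2.trans ?_
      rw [ENNReal.ofReal_add (by positivity) (by norm_num), ENNReal.ofReal_natCast]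
      exact add_le_add le_rfl (ENNReal.ofReal_le_ofReal hε1.le)
    have h1 := I_le_of_hgt (Q := Q) (x := x) (M := M) (ε := ε) (l := S) hD hst hW hf hxU hrat4
      (show S ≤ S + 1 / 8 by linarith) hε0.le (by
        filter_upwards [pk.supae] with p hp h2
        rw [hh]
        exact hp h2)
    refine h1.trans ?_
    have e1 : Real.exp (-m * S) * (27 / 2 * (ε * M.S) ^ 2 * ((Q + 1) * (ome m * (4 * M.S) ^ m))) =
        (C₁ * ε ^ 2) * Real.exp (2 * S) := by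
      rw [hC₁, hMS]
      have e2 : Real.exp (-m * S) * (Real.exp (S + 1 / 8) ^ 2 * Real.exp (S + 1 / 8) ^ m) =
          Real.exp ((m + 2) * (1 / 8)) * Real.exp (2 * S) := by
        rw [← Real.exp_nat_mul, ← Real.exp_nat_mul, ← Real.exp_add, ← Real.exp_add,
          ← Real.exp_add]
        congr 1
        push_cast
        ring
      calc _ = (27 / 2 * ((Q + 1) * (ome m * 4 ^ m)) * ε ^ 2) *
            (Real.exp (-m * S) * (Real.exp (S + 1 / 8) ^ 2 * Real.exp (S + 1 / 8) ^ m)) := by ring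
        _ = _ := by rw [e2]; ring
    rw [e1]
    calc (C₁ * ε ^ 2) * Real.exp (2 * S) ≤ Real.exp (-Lb) * Real.exp (2 * S) :=
          mul_le_mul_of_nonneg_right hε2 (Real.exp_pos _).le
      _ = Real.exp (2 * S - M.Lb) := by
          rw [← Real.exp_add]; congr 1
          show -Lb + 2 * S = 2 * S - Lb
          ring
  · filter_upwards [pk.supae] with p hp h1 h2
    rw [hh]
    have h3 : ‖p.1 - x‖ < 4 * Real.exp (S + 1 / 8) := by
      have e1 : ‖p.1 - x‖ ^ 2 = ‖π (p.1 - x)‖ ^ 2 + ‖ρ (p.1 - x)‖ ^ 2 := by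
        rw [← norm_sq_frame hf, Frame.full_apply hf]
      have e2 : ‖π (p.1 - x)‖ ≤ 3 * Real.exp (S + 1 / 8) := h1
      have e3 : ‖ρ (p.1 - x)‖ ≤ Real.exp (S + 1 / 8) := h2
      have e4 := pow_le_pow_left₀ (norm_nonneg _) e2 2
      have e5 := pow_le_pow_left₀ (norm_nonneg _) e3 2
      refine abs_lt_of_sq_lt_sq' ?_ (by positivity) |>.2
      nlinarith [sq_nonneg (Real.exp (S + 1 / 8)), mul_pos ht ht]
    have h4 := hp (mem_ball_iff_norm.2 h3)
    have h5 : ε * Real.exp (S + 1 / 8) ≤ M.S * Real.exp (-(M.Lb / 4)) := by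
      rw [mul_comm]
      exact mul_le_mul_of_nonneg_left hε3 ht.le
    have h6 : 0 ≤ 1 / 8 * max 0 (‖M.π (p.1 - x)‖ - Real.exp S) := by positivity
    linarith

/-- the accuracy of the planes of the start -/
def om2 (m : ℕ) (d : Thya_685.Dt) : ℝ := d.om * Real.exp ((m + 2) * d.c₀)

/-- **field `top`** -/
theorem topAll (m n : ℕ) (hm : 1 ≤ m) : Thya_685.Ev fun _ Q d =>
    ∀ (U : Set (Euc (m + n))) (D : VarifoldData m (m + n)) (x : Euc (m + n)) (r₁ : ℝ),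
      Env m U D Q x d.om r₁ → ∀ S, d.fl D x r₁ S →
        ∃ M : Mo m n (m + n), (preW d.c (VD D) x (om2 m d) S).pre M S ∧
          d.Λ₀ ≤ (preW d.c (VD D) x (om2 m d) S).L M S ∧
          (preW d.c (VD D) x (om2 m d) S).κ M S ≤ d.κm / 2 := by
  refine ⟨0, fun Ks _ K _ Q hQ => ⟨2, fun N hN => ⟨0, fun T hT c₀ hc₀ G CK P K₀ k _ _ _ _ =>
    ⟨1, one_pos, fun κ₀ hκ0 hκ1 => ⟨0, fun L₁ hL₁ => ⟨0, fun Λ₀ hΛ₀ => ?_⟩⟩⟩⟩⟩⟩
  obtain ⟨wz, hwz, hwz1, H⟩ := exists_pst m n Q hm (by omega) Λ₀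
  refine ⟨min wz (wz * Real.exp (-((m + 2) * c₀))), lt_min hwz (by positivity), ?_⟩
  intro om hom0 hom U D x r₁ hE S hS
  have ho1 := hom.trans (min_le_left _ _)
  have ho2 : om * Real.exp ((m + 2) * c₀) ≤ wz := by
    have h1 := mul_le_mul_of_nonneg_right (hom.trans (min_le_right _ _))
      (Real.exp_pos ((m + 2) * c₀)).le
    rwa [mul_assoc, ← Real.exp_add, neg_add_cancel, Real.exp_zero, mul_one] at h1
  have hV := stat_VD hE.int hE.st
  obtain ⟨f1, f2⟩ := plane_of_flat hV hE.sub (by linarith) hom0.le hS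
  obtain ⟨g1, g2⟩ := plS_spec f2
  have hrat := (hE.drop (8 * Real.exp (S + 1 / 8)) (by positivity) f1).trans
    (add_le_add le_rfl (ENNReal.ofReal_le_ofReal ho1))
  obtain ⟨M, a1, a2, a3, a4, a5⟩ := H ⟨N, Ks, T, κ₀, L₁, G, CK⟩ hN hκ0.le U D x S _ hE.opn hE.int
    hE.st ((Metric.closedBall_subset_closedBall f1).trans hE.sub) hE.Th hrat g1 (g2.trans ho2)
  refine ⟨M, ⟨a1, a5⟩, ?_, ?_⟩
  · show Λ₀ ≤ M.Lb
    rw [a2]
  · show M.κ + ‖hp M.π - plS m (VD D) x (om * Real.exp ((m + 2) * c₀))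
      (8 * Real.exp (S + 1 / 8))‖ ≤ κ₀ * Real.exp (-(4 / 5 * (T + 1))) / 2
    rw [a3, a4, sub_self, norm_zero, add_zero]
    positivity

end Crest.Agent.R234.Up_456
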