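import Crest.Agent.R234.Top1_395

/-!
Row 234 (helper395), file 2 of VF-TOP: small drop of the mass ratio at `z` ==> the planar excess with
respect to any plane is almost the same at comparable scales.
-/

set_option autoImplicit false

open MeasureTheory Crest.GeometryTopology.Submanifold Filter Topology
open scoped ENNReal InnerProductSpace

noncomputable section

namespace Crest.Agent.R234.Top_395

open Crest.Agent.R234.Vf_884

variable {m k : ℕ} {U : Set (Euc k)} {V : Measure (Euc k × L k)}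

theorem measS {S : Set (Euc k)} (hS : MeasurableSet S) :
    MeasurableSet ((Prod.fst : Euc k × L k → Euc k) ⁻¹' S) := measurable_fst hS

theorem fin_ball (hV : Stat m k U V) {z : Euc k} {ρ : ℝ} (hU : Metric.closedBall z ρ ⊆ U)
    {S : Set (Euc k)} (hS : S ⊆ Metric.closedBall z ρ) :
    V ((Prod.fst : Euc k × L k → Euc k) ⁻¹' S) < ⊤ := by
  refine (measure_mono ?_).trans_lt (hV.fin _ (isCompact_closedBall z ρ) hU)
  intro p hp
  exact ⟨hS hp, trivial⟩

/-- integrability of bounded functions over pieces of a ball. -/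
theorem intOn (hV : Stat m k U V) {z : Euc k} {ρ : ℝ} (hU : Metric.closedBall z ρ ⊆ U)
    {S : Set (Euc k)} (hS : MeasurableSet S) (hSρ : S ⊆ Metric.closedBall z ρ)
    {f : Euc k × L k → ℝ}
    (hf : AEStronglyMeasurable f (V.restrict ((Prod.fst : Euc k × L k → Euc k) ⁻¹' S))) {C : ℝ}
    (hC : ∀ p : Euc k × L k, p.1 ∈ S → p.2 ∈ G m k → ‖f p‖ ≤ C) :
    IntegrableOn f ((Prod.fst : Euc k × L k → Euc k) ⁻¹' S) V := by
  refine IntegrableOn.of_bound (fin_ball hV hU hSρ) hf C ?_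
  filter_upwards [ae_restrict_mem (measS hS), ae_restrict_of_ae hV.conc] with p hp hp2
  exact hC p hp hp2

/-- squared length of the normal part of `x - z`. -/
def pp (z : Euc k) (p : Euc k × L k) : ℝ := ‖(p.1 - z) - p.2 (p.1 - z)‖ ^ 2

theorem pp_nonneg (z : Euc k) (p : Euc k × L k) : 0 ≤ pp z p := by unfold pp; positivity

theorem continuous_pp (z : Euc k) : Continuous (pp (k := k) z) := by
  unfold pp
  have h1 : Continuous fun p : Euc k × L k => p.1 - z := continuous_fst.sub continuous_const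
  exact (h1.sub (continuous_snd.clm_apply h1)).norm.pow 2

theorem pp_le {z : Euc k} {p : Euc k × L k} (hp : p.2 ∈ G m k) : pp z p ≤ ‖p.1 - z‖ ^ 2 := by
  unfold pp
  have := G_norm_sq_add hp (p.1 - z)
  nlinarith [sq_nonneg ‖p.2 (p.1 - z)‖]

theorem perpQ_eq (N : ℕ) (z : Euc k) (p : Euc k × L k) : perpQ N z p = pp z p / ‖p.1 - z‖ ^ (N + 2) :=
  rfl

/-- the drop controls the annuli. -/
theorem ann_le (hV : Stat m k U V) (hm : 1 ≤ m) {z : Euc k} {σ ρ θ g : ℝ} (hσ : 0 < σ)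
    (hσρ : σ < ρ) (hU : Metric.closedBall z ρ ⊆ U)
    (hθ : θ * σ ^ m ≤ (mass V).real (Metric.closedBall z σ))
    (hM : (mass V).real (Metric.ball z ρ) ≤ (θ + g) * ρ ^ m) :
    ∫ p in Prod.fst ⁻¹' (Metric.ball z ρ \ Metric.closedBall z σ), perpQ m z p ∂V ≤ g := by
  rw [← mono_identity hV hm hσ hσρ hU]
  have hρ := hσ.trans hσρ
  have h1 : (ρ ^ m)⁻¹ * (mass V).real (Metric.ball z ρ) ≤ θ + g := by
    rw [inv_mul_le_iff₀ (by positivity)]
    linarith [mul_comm (θ + g) (ρ ^ m)]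
  have h2 : θ ≤ (σ ^ m)⁻¹ * (mass V).real (Metric.closedBall z σ) := by
    rw [le_inv_mul_iff₀ (by positivity)]
    linarith [mul_comm θ (σ ^ m)]
  linarith

/-- the normal part is small on the whole ball. -/
theorem pp_ball_le (hV : Stat m k U V) (hm : 1 ≤ m) {z : Euc k} {σ ρ θ g : ℝ} (hσ : 0 < σ)
    (hσρ : σ < ρ) (hU : Metric.closedBall z ρ ⊆ U)
    (hθ : ∀ r ∈ Set.Ioo 0 ρ, θ * r ^ m ≤ (mass V).real (Metric.closedBall z r))
    (hM : (mass V).real (Metric.ball z ρ) ≤ (θ + g) * ρ ^ m) :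
    ∫ p in Prod.fst ⁻¹' (Metric.closedBall z σ), pp z p ∂V ≤ σ ^ (m + 2) * g := by
  have hρ := hσ.trans hσρ
  set M : ℝ := V.real ((Prod.fst : Euc k × L k → Euc k) ⁻¹' (Metric.closedBall z ρ)) with hMdef
  have key : ∀ τ ∈ Set.Ioo 0 σ, ∫ p in Prod.fst ⁻¹' (Metric.closedBall z σ), pp z p ∂V
      ≤ τ ^ 2 * M + σ ^ (m + 2) * g := by
    intro τ hτ
    have hsub : Metric.closedBall z τ ⊆ Metric.closedBall z σ :=
      Metric.closedBall_subset_closedBall hτ.2.le
    have hsρ : Metric.closedBall z σ ⊆ Metric.closedBall z ρ :=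
      Metric.closedBall_subset_closedBall hσρ.le
    have e1 : (Prod.fst : Euc k × L k → Euc k) ⁻¹' (Metric.closedBall z σ) =
        (Prod.fst ⁻¹' (Metric.closedBall z τ)) ∪
          (Prod.fst ⁻¹' (Metric.closedBall z σ \ Metric.closedBall z τ)) := by
      rw [← Set.preimage_union, Set.union_sdiff_cancel hsub]
    have hdis : Disjoint ((Prod.fst : Euc k × L k → Euc k) ⁻¹' (Metric.closedBall z τ))
        (Prod.fst ⁻¹' (Metric.closedBall z σ \ Metric.closedBall z τ)) :=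
      Disjoint.preimage _ Set.disjoint_sdiff_right
    have hb : ∀ (r : ℝ), ∀ p : Euc k × L k, p.1 ∈ Metric.closedBall z r → p.2 ∈ G m k →
        ‖pp z p‖ ≤ r ^ 2 := by
      intro r p hp hp2
      rw [Real.norm_of_nonneg (pp_nonneg z p)]
      rw [mem_closedBall_iff_norm] at hp
      exact (pp_le hp2).trans (by gcongr)
    have i1 : IntegrableOn (pp z) (Prod.fst ⁻¹' (Metric.closedBall z τ)) V :=
      intOn hV hU measurableSet_closedBall (hsub.trans hsρ)
        (continuous_pp z).aestronglyMeasurable (hb τ)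
    have i2 : IntegrableOn (pp z) (Prod.fst ⁻¹' (Metric.closedBall z σ \ Metric.closedBall z τ))
        V :=
      intOn hV hU (measurableSet_closedBall.diff measurableSet_closedBall)
        (Set.sdiff_subset.trans hsρ) (continuous_pp z).aestronglyMeasurable
        fun p hp hp2 => hb σ p hp.1 hp2
    rw [e1, setIntegral_union hdis
      (measS (measurableSet_closedBall.diff measurableSet_closedBall)) i1 i2]
    have b1 : ∫ p in Prod.fst ⁻¹' (Metric.closedBall z τ), pp z p ∂V ≤ τ ^ 2 * M := by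
      have h1 : ∫ p in Prod.fst ⁻¹' (Metric.closedBall z τ), pp z p ∂V ≤
          ∫ p in (Prod.fst : Euc k × L k → Euc k) ⁻¹' (Metric.closedBall z τ), τ ^ 2 ∂V := by
        refine setIntegral_mono_on_ae i1 (integrableOn_const
          (fin_ball hV hU (hsub.trans hsρ)).ne) (measS measurableSet_closedBall) ?_
        filter_upwards [hV.conc] with p hp hp2
        exact (le_abs_self _).trans (hb τ p hp2 hp)
      refine h1.trans ?_
      rw [setIntegral_const, smul_eq_mul, mul_comm]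
      refine mul_le_mul_of_nonneg_left ?_ (sq_nonneg _)
      exact measureReal_mono (Set.preimage_mono (hsub.trans hsρ))
        (fin_ball hV hU subset_rfl).ne
    have i3 : IntegrableOn (perpQ m z) (Prod.fst ⁻¹' (Metric.ball z ρ \ Metric.closedBall z τ))
        V := by
      refine intOn hV hU (measurableSet_ball.diff measurableSet_closedBall)
        (Set.sdiff_subset.trans Metric.ball_subset_closedBall)
        (measurable_perpQ m z).aestronglyMeasurable (C := (τ ^ m)⁻¹) fun p hp hp2 => ?_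
      rw [Real.norm_of_nonneg (perpQ_nonneg m z p)]
      refine perpQ_le m hp2 hτ.1 ?_
      have := hp.2
      rw [mem_closedBall_iff_norm, not_le] at this
      exact this.le
    have hss : (Prod.fst : Euc k × L k → Euc k) ⁻¹' (Metric.closedBall z σ \ Metric.closedBall z τ)
        ⊆ Prod.fst ⁻¹' (Metric.ball z ρ \ Metric.closedBall z τ) := by
      refine Set.preimage_mono (Set.sdiff_subset_sdiff_left ?_)
      exact Metric.closedBall_subset_ball hσρ
    have b2 : ∫ p in Prod.fst ⁻¹' (Metric.closedBall z σ \ Metric.closedBall z τ), pp z p ∂V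
        ≤ σ ^ (m + 2) * g := by
      calc ∫ p in Prod.fst ⁻¹' (Metric.closedBall z σ \ Metric.closedBall z τ), pp z p ∂V
          ≤ ∫ p in Prod.fst ⁻¹' (Metric.closedBall z σ \ Metric.closedBall z τ),
              σ ^ (m + 2) * perpQ m z p ∂V := by
            refine setIntegral_mono_on i2 ((i3.mono_set hss).const_mul _)
              (measS (measurableSet_closedBall.diff measurableSet_closedBall)) ?_
            intro p hp
            have h1 : ‖p.1 - z‖ ≤ σ := mem_closedBall_iff_norm.1 hp.1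
            have h2 : τ < ‖p.1 - z‖ := by
              have := hp.2
              rwa [mem_closedBall_iff_norm, not_le] at this
            have h3 : 0 < ‖p.1 - z‖ := hτ.1.trans h2
            rw [perpQ_eq]
            rw [mul_div_assoc', le_div_iff₀ (by positivity), mul_comm]
            exact mul_le_mul_of_nonneg_right (by gcongr) (pp_nonneg z p)
        _ = σ ^ (m + 2) * ∫ p in Prod.fst ⁻¹' (Metric.closedBall z σ \ Metric.closedBall z τ),
              perpQ m z p ∂V := integral_const_mul _ _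
        _ ≤ σ ^ (m + 2) * g := by
            refine mul_le_mul_of_nonneg_left ?_ (by positivity)
            refine (setIntegral_mono_set i3 (ae_of_all _ fun p => perpQ_nonneg m z p)
              (LE.le.eventuallyLE hss)).trans ?_
            exact ann_le hV hm hτ.1 (hτ.2.trans hσρ) hU
              (hθ τ ⟨hτ.1, hτ.2.trans hσρ⟩) hM
    linarith
  have hlim : Tendsto (fun τ : ℝ => τ ^ 2 * M + σ ^ (m + 2) * g) (𝓝[>] 0)
      (𝓝 (σ ^ (m + 2) * g)) := by
    have h1 : Tendsto (fun τ : ℝ => τ ^ 2 * M + σ ^ (m + 2) * g) (𝓝 0)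
        (𝓝 ((0:ℝ) ^ 2 * M + σ ^ (m + 2) * g)) := by
      exact Continuous.tendsto (by fun_prop) 0
    rw [zero_pow two_ne_zero, zero_mul, zero_add] at h1
    exact h1.mono_left nhdsWithin_le_nhds
  refine ge_of_tendsto hlim ?_
  filter_upwards [Ioo_mem_nhdsGT hσ] with τ hτ
  exact key τ hτ

variable {F : Type*} [NormedAddCommGroup F] [InnerProductSpace ℝ F]

/-- planar excess (height with respect to the plane `ker A` through `z`), open ball. -/
def ex (m : ℕ) (V : Measure (Euc k × L k)) (A : Euc k →L[ℝ] F) (z : Euc k) (r : ℝ) : ℝ :=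
  (r ^ (m + 2))⁻¹ * ∫ p in Prod.fst ⁻¹' (Metric.ball z r), ‖A (p.1 - z)‖ ^ 2 ∂V

/-- the same over the closed ball. -/
def exc (m : ℕ) (V : Measure (Euc k × L k)) (A : Euc k →L[ℝ] F) (z : Euc k) (r : ℝ) : ℝ :=
  (r ^ (m + 2))⁻¹ * ∫ p in Prod.fst ⁻¹' (Metric.closedBall z r), ‖A (p.1 - z)‖ ^ 2 ∂V

theorem continuous_quad (A : Euc k →L[ℝ] F) (z : Euc k) :
    Continuous fun p : Euc k × L k => ‖A (p.1 - z)‖ ^ 2 :=
  (A.continuous.comp (continuous_fst.sub continuous_const)).norm.pow 2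

theorem quad_le (A : Euc k →L[ℝ] F) {z x : Euc k} {r : ℝ} (hx : x ∈ Metric.closedBall z r) :
    ‖A (x - z)‖ ^ 2 ≤ ‖A‖ ^ 2 * r ^ 2 := by
  rw [mem_closedBall_iff_norm] at hx
  rw [← mul_pow]
  have := A.le_opNorm (x - z)
  gcongr
  exact this.trans (by gcongr)

theorem ex_nonneg (A : Euc k →L[ℝ] F) (z : Euc k) {r : ℝ} (hr : 0 ≤ r) : 0 ≤ ex m V A z r :=
  mul_nonneg (by positivity) (integral_nonneg fun _ => sq_nonneg _)

theorem exc_nonneg (A : Euc k →L[ℝ] F) (z : Euc k) {r : ℝ} (hr : 0 ≤ r) : 0 ≤ exc m V A z r :=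
  mul_nonneg (by positivity) (integral_nonneg fun _ => sq_nonneg _)

theorem ex_le_norm (hV : Stat m k U V) (A : Euc k →L[ℝ] F) {z : Euc k} {ρ Λ : ℝ} (hρ : 0 < ρ)
    (hU : Metric.closedBall z ρ ⊆ U) (hM : (mass V).real (Metric.ball z ρ) ≤ Λ * ρ ^ m) :
    ex m V A z ρ ≤ ‖A‖ ^ 2 * Λ := by
  unfold ex
  rw [inv_mul_le_iff₀ (by positivity)]
  have h1 : ∫ p in Prod.fst ⁻¹' (Metric.ball z ρ), ‖A (p.1 - z)‖ ^ 2 ∂V ≤
      ∫ p in (Prod.fst : Euc k × L k → Euc k) ⁻¹' (Metric.ball z ρ), ‖A‖ ^ 2 * ρ ^ 2 ∂V := by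
    refine setIntegral_mono_on ?_ (integrableOn_const
      (fin_ball hV hU Metric.ball_subset_closedBall).ne) (measS measurableSet_ball) ?_
    · refine intOn hV hU measurableSet_ball Metric.ball_subset_closedBall
        (continuous_quad A z).aestronglyMeasurable (C := ‖A‖ ^ 2 * ρ ^ 2) fun p hp _ => ?_
      rw [Real.norm_of_nonneg (sq_nonneg _)]
      exact quad_le A (Metric.ball_subset_closedBall hp)
    · intro p hp
      exact quad_le A (Metric.ball_subset_closedBall hp)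
  refine h1.trans ?_
  rw [setIntegral_const, smul_eq_mul, ← mass_real_apply V measurableSet_ball]
  calc (mass V).real (Metric.ball z ρ) * (‖A‖ ^ 2 * ρ ^ 2)
      ≤ (Λ * ρ ^ m) * (‖A‖ ^ 2 * ρ ^ 2) := by gcongr
    _ = _ := by ring

/-- **(T2) with a free parameter**: small drop ==> the excess is almost constant. -/
theorem quad_close_param (hV : Stat m k U V) (hm : 1 ≤ m) (A : Euc k →L[ℝ] F) {z : Euc k}
    {σ ρ θ g : ℝ} (hσ : 0 < σ) (hσρ : σ < ρ) (hU : Metric.closedBall z ρ ⊆ U)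
    (hθ : ∀ r ∈ Set.Ioo 0 ρ, θ * r ^ m ≤ (mass V).real (Metric.closedBall z r))
    (hM : (mass V).real (Metric.ball z ρ) ≤ (θ + g) * ρ ^ m) {t : ℝ} (ht : 0 < t) :
    |ex m V A z ρ - exc m V A z σ| ≤
      ‖A‖ ^ 2 * g + ‖A‖ * (t * ((ρ / σ) ^ (m + 2) * ex m V A z ρ / 2) + g / t) := by
  have hρ := hσ.trans hσρ
  have hid := quad_identity hV A hσ hσρ hU
  rw [show ex m V A z ρ - exc m V A z σ = _ from hid]
  have hbU : Metric.ball z ρ ⊆ Metric.closedBall z ρ := Metric.ball_subset_closedBall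
  have hdU : Metric.ball z ρ \ Metric.closedBall z σ ⊆ Metric.closedBall z ρ :=
    Set.sdiff_subset.trans hbU
  have hdm : MeasurableSet (Metric.ball z ρ \ Metric.closedBall z σ) :=
    measurableSet_ball.diff measurableSet_closedBall
  -- the drop
  have hdrop := ann_le hV hm hσ hσρ hU (hθ σ ⟨hσ, hσρ⟩) hM
  have hg : 0 ≤ g := le_trans (integral_nonneg fun p => perpQ_nonneg m z p) hdrop
  have i3 : IntegrableOn (perpQ m z) (Prod.fst ⁻¹' (Metric.ball z ρ \ Metric.closedBall z σ))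
      V := by
    refine intOn hV hU hdm hdU
      (measurable_perpQ m z).aestronglyMeasurable (C := (σ ^ m)⁻¹) fun p hp hp2 => ?_
    rw [Real.norm_of_nonneg (perpQ_nonneg m z p)]
    refine perpQ_le m hp2 hσ ?_
    have := hp.2
    rw [mem_closedBall_iff_norm, not_le] at this
    exact this.le
  -- first term
  have t1 : |∫ p in Prod.fst ⁻¹' (Metric.ball z ρ \ Metric.closedBall z σ),
      ‖A (p.1 - z)‖ ^ 2 * perpQ (m + 2) z p ∂V| ≤ ‖A‖ ^ 2 * g := by
    have h1 : ∀ p ∈ (Prod.fst : Euc k × L k → Euc k) ⁻¹'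
        (Metric.ball z ρ \ Metric.closedBall z σ),
        ‖‖A (p.1 - z)‖ ^ 2 * perpQ (m + 2) z p‖ ≤ ‖A‖ ^ 2 * perpQ m z p := by
      intro p hp
      have h2 : σ < ‖p.1 - z‖ := by
        have := hp.2
        rwa [mem_closedBall_iff_norm, not_le] at this
      have h3 : 0 < ‖p.1 - z‖ := hσ.trans h2
      rw [Real.norm_of_nonneg (mul_nonneg (sq_nonneg _) (perpQ_nonneg _ _ _))]
      have h4 : ‖A (p.1 - z)‖ ^ 2 ≤ ‖A‖ ^ 2 * ‖p.1 - z‖ ^ 2 := by
        rw [← mul_pow]
        gcongr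
        exact A.le_opNorm _
      calc ‖A (p.1 - z)‖ ^ 2 * perpQ (m + 2) z p
          ≤ (‖A‖ ^ 2 * ‖p.1 - z‖ ^ 2) * perpQ (m + 2) z p :=
            mul_le_mul_of_nonneg_right h4 (perpQ_nonneg _ _ _)
        _ = ‖A‖ ^ 2 * perpQ m z p := by
            rw [perpQ_eq, perpQ_eq, pow_add ‖p.1 - z‖ (m + 2) 2]
            field_simp
    rw [← Real.norm_eq_abs]
    refine (norm_integral_le_of_norm_le (i3.const_mul (‖A‖ ^ 2))
      ((ae_restrict_mem (measS hdm)).mono h1)).trans ?_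
    rw [integral_const_mul]
    exact mul_le_mul_of_nonneg_left hdrop (sq_nonneg _)
  -- second term
  set I1 : Euc k × L k → ℝ :=
    (Prod.fst ⁻¹' (Metric.ball z ρ \ Metric.closedBall z σ)).indicator (perpQ m z) with hI1
  set I2 : Euc k × L k → ℝ :=
    (Prod.fst ⁻¹' (Metric.closedBall z σ)).indicator (fun p => (σ ^ (m + 2))⁻¹ * pp z p) with hI2
  have iq : IntegrableOn (fun p : Euc k × L k => ‖A (p.1 - z)‖ ^ 2)
      (Prod.fst ⁻¹' (Metric.ball z ρ)) V := by
    refine intOn hV hU measurableSet_ball Metric.ball_subset_closedBall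
      (continuous_quad A z).aestronglyMeasurable (C := ‖A‖ ^ 2 * ρ ^ 2) fun p hp _ => ?_
    rw [Real.norm_of_nonneg (sq_nonneg _)]
    exact quad_le A (Metric.ball_subset_closedBall hp)
  have ipp : IntegrableOn (pp z) (Prod.fst ⁻¹' (Metric.closedBall z σ)) V := by
    refine intOn hV hU measurableSet_closedBall (Metric.closedBall_subset_closedBall hσρ.le)
      (continuous_pp z).aestronglyMeasurable (C := σ ^ 2) fun p hp hp2 => ?_
    rw [Real.norm_of_nonneg (pp_nonneg z p)]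
    rw [mem_closedBall_iff_norm] at hp
    exact (pp_le hp2).trans (by gcongr)
  have j1 : IntegrableOn I1 (Prod.fst ⁻¹' (Metric.ball z ρ)) V := by
    refine Integrable.integrableOn ?_
    exact (integrable_indicator_iff (measS hdm)).2 i3
  have j2 : IntegrableOn I2 (Prod.fst ⁻¹' (Metric.ball z ρ)) V := by
    refine Integrable.integrableOn ?_
    exact (integrable_indicator_iff (measS measurableSet_closedBall)).2 (ipp.const_mul _)
  have v1 : ∫ p in Prod.fst ⁻¹' (Metric.ball z ρ), I1 p ∂V ≤ g := by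
    rw [hI1, setIntegral_indicator (measS hdm), ← Set.preimage_inter,
      Set.inter_eq_right.2 Set.sdiff_subset]
    exact hdrop
  have v2 : ∫ p in Prod.fst ⁻¹' (Metric.ball z ρ), I2 p ∂V ≤ g := by
    rw [hI2, setIntegral_indicator (measS measurableSet_closedBall), ← Set.preimage_inter,
      Set.inter_eq_right.2 (Metric.closedBall_subset_ball hσρ), integral_const_mul,
      inv_mul_le_iff₀ (by positivity)]
    exact pp_ball_le hV hm hσ hσρ hU hθ hM
  have hbd : ∀ p ∈ (Prod.fst : Euc k × L k → Euc k) ⁻¹' (Metric.ball z ρ),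
      ‖(((max ‖p.1 - z‖ σ) ^ (m + 2))⁻¹ - (ρ ^ (m + 2))⁻¹) *
        ⟪A (p.1 - z), A ((p.1 - z) - p.2 (p.1 - z))⟫_ℝ‖ ≤
      ‖A‖ * (t / 2 * ((σ ^ (m + 2))⁻¹ * ‖A (p.1 - z)‖ ^ 2) + (1 / (2 * t)) * (I1 p + I2 p)) := by
    intro p hp
    have hp' : ‖p.1 - z‖ < ρ := mem_ball_iff_norm.1 hp
    set W : ℝ := ((max ‖p.1 - z‖ σ) ^ (m + 2))⁻¹ with hW
    have h0 : 0 < max ‖p.1 - z‖ σ := lt_max_of_lt_right hσ
    have hW0 : 0 ≤ W := by positivity
    have h3 : max ‖p.1 - z‖ σ ≤ ρ := max_le hp'.le hσρ.le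
    have h4 : (ρ ^ (m + 2))⁻¹ ≤ W := by rw [hW]; gcongr
    have h5 : W ≤ (σ ^ (m + 2))⁻¹ := by
      rw [hW]
      gcongr
      exact le_max_right _ _
    have h6 : |W - (ρ ^ (m + 2))⁻¹| ≤ W := by
      rw [abs_of_nonneg (by linarith)]
      have : 0 ≤ (ρ ^ (m + 2))⁻¹ := by positivity
      linarith
    have h7 : W * pp z p = I1 p + I2 p := by
      by_cases hc : p.1 ∈ Metric.closedBall z σ
      · have hc' : ‖p.1 - z‖ ≤ σ := mem_closedBall_iff_norm.1 hc
        rw [hI1, hI2, Set.indicator_of_notMem (fun h => h.2 hc),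
          Set.indicator_of_mem (show p ∈ Prod.fst ⁻¹' Metric.closedBall z σ from hc), hW,
          max_eq_right hc', zero_add]
      · have hc' : σ < ‖p.1 - z‖ := by
          rwa [mem_closedBall_iff_norm, not_le] at hc
        rw [hI1, hI2, Set.indicator_of_mem
          (show p ∈ Prod.fst ⁻¹' (Metric.ball z ρ \ Metric.closedBall z σ) from ⟨hp, hc⟩),
          Set.indicator_of_notMem (show p ∉ Prod.fst ⁻¹' Metric.closedBall z σ from hc), hW,
          max_eq_left hc'.le, add_zero, perpQ_eq, inv_mul_eq_div]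
    set a : ℝ := ‖A (p.1 - z)‖ with ha
    set b : ℝ := ‖(p.1 - z) - p.2 (p.1 - z)‖ with hb
    have hpb : pp z p = b ^ 2 := rfl
    have hab : a * b ≤ t / 2 * a ^ 2 + (1 / (2 * t)) * b ^ 2 := by
      have h8 : 0 ≤ (t * a - b) ^ 2 / (2 * t) := by positivity
      have h9 : (t * a - b) ^ 2 / (2 * t) = t / 2 * a ^ 2 + (1 / (2 * t)) * b ^ 2 - a * b := by
        field_simp
        ring
      linarith
    have ha0 : 0 ≤ a := norm_nonneg _
    have hb0 : 0 ≤ b := norm_nonneg _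
    calc ‖(W - (ρ ^ (m + 2))⁻¹) * ⟪A (p.1 - z), A ((p.1 - z) - p.2 (p.1 - z))⟫_ℝ‖
        = |W - (ρ ^ (m + 2))⁻¹| * |⟪A (p.1 - z), A ((p.1 - z) - p.2 (p.1 - z))⟫_ℝ| := by
          rw [Real.norm_eq_abs, abs_mul]
      _ ≤ W * (a * (‖A‖ * b)) := by
          refine mul_le_mul h6 ?_ (abs_nonneg _) hW0
          refine (abs_real_inner_le_norm _ _).trans ?_
          exact mul_le_mul_of_nonneg_left (A.le_opNorm _) ha0
      _ = ‖A‖ * (W * (a * b)) := by ring
      _ ≤ ‖A‖ * (W * (t / 2 * a ^ 2 + (1 / (2 * t)) * b ^ 2)) := by gcongr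
      _ = ‖A‖ * (t / 2 * (W * a ^ 2) + (1 / (2 * t)) * (W * b ^ 2)) := by ring
      _ ≤ ‖A‖ * (t / 2 * ((σ ^ (m + 2))⁻¹ * a ^ 2) + (1 / (2 * t)) * (I1 p + I2 p)) := by
          rw [← h7, hpb]
          gcongr
  have t2 : |(2 / (m + 2 : ℝ)) * ∫ p in Prod.fst ⁻¹' (Metric.ball z ρ),
        (((max ‖p.1 - z‖ σ) ^ (m + 2))⁻¹ - (ρ ^ (m + 2))⁻¹) *
          ⟪A (p.1 - z), A ((p.1 - z) - p.2 (p.1 - z))⟫_ℝ ∂V| ≤
      ‖A‖ * (t * ((ρ / σ) ^ (m + 2) * ex m V A z ρ / 2) + g / t) := by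
    have k1 : IntegrableOn (fun p : Euc k × L k => t / 2 * ((σ ^ (m + 2))⁻¹ * ‖A (p.1 - z)‖ ^ 2))
        (Prod.fst ⁻¹' (Metric.ball z ρ)) V := (iq.const_mul _).const_mul _
    have k2 : IntegrableOn (fun p : Euc k × L k => (1 / (2 * t)) * (I1 p + I2 p))
        (Prod.fst ⁻¹' (Metric.ball z ρ)) V := (j1.add j2).const_mul _
    have h1 := norm_integral_le_of_norm_le ((k1.add k2).const_mul ‖A‖)
      ((ae_restrict_mem (measS measurableSet_ball)).mono hbd)
    simp only [Pi.add_apply] at h1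
    rw [integral_const_mul, integral_add k1 k2, integral_const_mul, integral_const_mul,
      integral_const_mul, integral_add j1 j2] at h1
    have e1 : (σ ^ (m + 2))⁻¹ * ∫ p in (Prod.fst : Euc k × L k → Euc k) ⁻¹' (Metric.ball z ρ),
        ‖A (p.1 - z)‖ ^ 2 ∂V = (ρ / σ) ^ (m + 2) * ex m V A z ρ := by
      unfold ex
      rw [div_pow]
      field_simp
    rw [e1] at h1
    have h2 : |(2 / (m + 2 : ℝ))| ≤ 1 := by
      rw [abs_of_nonneg (by positivity), div_le_one (by positivity)]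
      have : (0:ℝ) ≤ m := Nat.cast_nonneg m
      linarith
    rw [abs_mul]
    refine (mul_le_mul h2 (h1) (abs_nonneg _) zero_le_one).trans ?_
    rw [one_mul]
    refine mul_le_mul_of_nonneg_left ?_ (norm_nonneg _)
    have h3 : (1 / (2 * t)) * ((∫ p in Prod.fst ⁻¹' (Metric.ball z ρ), I1 p ∂V) +
        ∫ p in Prod.fst ⁻¹' (Metric.ball z ρ), I2 p ∂V) ≤ g / t := by
      calc _ ≤ (1 / (2 * t)) * (g + g) := by gcongr
        _ = g / t := by field_simp; ring
    have h4 : t / 2 * ((ρ / σ) ^ (m + 2) * ex m V A z ρ) =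
        t * ((ρ / σ) ^ (m + 2) * ex m V A z ρ / 2) := by ring
    linarith
  exact (abs_sub _ _).trans (add_le_add t1 t2)

theorem le_sqrt_of_param {D X Y : ℝ} (hX : 0 ≤ X) (hY : 0 ≤ Y)
    (h : ∀ t : ℝ, 0 < t → D ≤ t * X + Y / t) : D ≤ 2 * √(X * Y) := by
  have h1 : ∀ ε : ℝ, 0 < ε → D ≤ 2 * √((X + ε) * (Y + ε)) := by
    intro ε hε
    have hX' : 0 < X + ε := by linarith
    have hY' : 0 < Y + ε := by linarith
    set t : ℝ := √((Y + ε) / (X + ε)) with ht
    have ht0 : 0 < t := Real.sqrt_pos.2 (by positivity)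
    have h2 := h t ht0
    have h3 : t * (X + ε) = √((X + ε) * (Y + ε)) := by
      rw [ht, Real.sqrt_div hY'.le, Real.sqrt_mul hX'.le]
      have : √(X + ε) * √(X + ε) = X + ε := Real.mul_self_sqrt hX'.le
      have h4 : √(X + ε) ≠ 0 := (Real.sqrt_pos.2 hX').ne'
      field_simp
      nlinarith
    have h5 : (Y + ε) / t = √((X + ε) * (Y + ε)) := by
      rw [div_eq_iff ht0.ne', ← h3]
      have h6 : t * t = (Y + ε) / (X + ε) := Real.mul_self_sqrt (by positivity)
      calc Y + ε = ((Y + ε) / (X + ε)) * (X + ε) := by field_simp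
        _ = t * (X + ε) * t := by rw [← h6]; ring
    have h7 : t * X ≤ t * (X + ε) := by gcongr; linarith
    have h8 : Y / t ≤ (Y + ε) / t := by gcongr; linarith
    linarith
  have h2 : Tendsto (fun ε : ℝ => 2 * √((X + ε) * (Y + ε))) (𝓝[>] 0) (𝓝 (2 * √(X * Y))) := by
    have h3 : Tendsto (fun ε : ℝ => 2 * √((X + ε) * (Y + ε))) (𝓝 0)
        (𝓝 (2 * √((X + 0) * (Y + 0)))) := Continuous.tendsto (by fun_prop) 0
    rw [add_zero, add_zero] at h3
    exact h3.mono_left nhdsWithin_le_nhds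
  exact ge_of_tendsto h2 (by filter_upwards [self_mem_nhdsWithin] with ε hε using h1 ε hε)

/-- **(T2)**: small drop of the mass ratio ==> the excess w.r.t. every plane is almost constant. -/
theorem quad_close (hV : Stat m k U V) (hm : 1 ≤ m) (A : Euc k →L[ℝ] F) {z : Euc k}
    {σ ρ θ g : ℝ} (hσ : 0 < σ) (hσρ : σ < ρ) (hU : Metric.closedBall z ρ ⊆ U)
    (hθ : ∀ r ∈ Set.Ioo 0 ρ, θ * r ^ m ≤ (mass V).real (Metric.closedBall z r))
    (hM : (mass V).real (Metric.ball z ρ) ≤ (θ + g) * ρ ^ m) :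
    |ex m V A z ρ - exc m V A z σ| ≤
      ‖A‖ ^ 2 * g + ‖A‖ * √(2 * (ρ / σ) ^ (m + 2) * ex m V A z ρ * g) := by
  have hρ := hσ.trans hσρ
  have hg : 0 ≤ g := le_trans (integral_nonneg fun p => perpQ_nonneg m z p)
    (ann_le hV hm hσ hσρ hU (hθ σ ⟨hσ, hσρ⟩) hM)
  have hex := ex_nonneg (m := m) (V := V) A z hρ.le
  have h1 : |ex m V A z ρ - exc m V A z σ| - ‖A‖ ^ 2 * g ≤
      2 * √((‖A‖ * ((ρ / σ) ^ (m + 2) * ex m V A z ρ / 2)) * (‖A‖ * g)) := by
    refine le_sqrt_of_param (by positivity) (by positivity) fun t ht => ?_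
    have := quad_close_param hV hm A hσ hσρ hU hθ hM ht
    calc _ ≤ ‖A‖ * (t * ((ρ / σ) ^ (m + 2) * ex m V A z ρ / 2) + g / t) := by linarith
      _ = _ := by ring
  have h2 : 2 * √((‖A‖ * ((ρ / σ) ^ (m + 2) * ex m V A z ρ / 2)) * (‖A‖ * g)) =
      ‖A‖ * √(2 * (ρ / σ) ^ (m + 2) * ex m V A z ρ * g) := by
    have e1 : (‖A‖ * ((ρ / σ) ^ (m + 2) * ex m V A z ρ / 2)) * (‖A‖ * g) =
        (‖A‖ / 2) ^ 2 * (2 * (ρ / σ) ^ (m + 2) * ex m V A z ρ * g) := by ring
    rw [e1, Real.sqrt_mul (by positivity), Real.sqrt_sq (by positivity)]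
    ring
  linarith

end Crest.Agent.R234.Top_395
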