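import Crest.Agent.R234.Top2_395

/-!
Row 234 (helper395), file 3 of VF-TOP = node (F9) of #6174, cone-like case: if the mass ratio drops
by little between scale `ρ` and `0` at `z`, and `V` is `L²`-close to the zero set of a `C^2` height
function `Gf` (vertical height over a graph, Fermi height ...), then `V` is flat at scale `ρ`.
Contrapositive: planar excess `≥ δ` and small drop ==> separation from every such set `≥ c(δ)`.
-/

set_option autoImplicit false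
set_option linter.unusedSectionVars false

open MeasureTheory Crest.GeometryTopology.Submanifold Filter Topology
open scoped ENNReal InnerProductSpace

noncomputable section

namespace Crest.Agent.R234.Top_395

open Crest.Agent.R234.Vf_884

variable {m k : ℕ} {U : Set (Euc k)} {V : Measure (Euc k × L k)}
variable {F : Type*} [NormedAddCommGroup F] [InnerProductSpace ℝ F]

/-- separation of `V` from the zero set of `Gf` at scale `r` (scale invariant, `L²`). -/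
def sep (m : ℕ) (V : Measure (Euc k × L k)) (Gf : Euc k → F) (z : Euc k) (r : ℝ) : ℝ :=
  (r ^ (m + 2))⁻¹ * ∫ p in Prod.fst ⁻¹' (Metric.ball z r), ‖Gf p.1‖ ^ 2 ∂V

theorem intOn_sq (hV : Stat m k U V) {z : Euc k} {ρ : ℝ} (hU : Metric.closedBall z ρ ⊆ U)
    {Gf : Euc k → F} (hG : ContinuousOn Gf (Metric.closedBall z ρ)) :
    IntegrableOn (fun p : Euc k × L k => ‖Gf p.1‖ ^ 2) (Prod.fst ⁻¹' (Metric.closedBall z ρ)) V := by
  have hc : ContinuousOn (fun x => ‖Gf x‖ ^ 2) (Metric.closedBall z ρ) := hG.norm.pow 2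
  obtain ⟨C, hC⟩ := (isCompact_closedBall z ρ).exists_bound_of_continuousOn hc
  refine intOn hV hU measurableSet_closedBall subset_rfl ?_ (C := C) fun p hp _ => hC _ hp
  have h2 : ContinuousOn (fun p : Euc k × L k => ‖Gf p.1‖ ^ 2)
      (Prod.fst ⁻¹' (Metric.closedBall z ρ)) :=
    hc.comp continuousOn_fst fun p hp => hp
  exact h2.aestronglyMeasurable (measS measurableSet_closedBall)

/-- the height at the centre. -/
theorem norm_center_le (hV : Stat m k U V) (A : Euc k →L[ℝ] F) {z : Euc k} {ρ K τ θ : ℝ}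
    (hρ : 0 < ρ) (hU : Metric.closedBall z ρ ⊆ U) {Gf : Euc k → F}
    (hG : ContinuousOn Gf (Metric.closedBall z ρ)) (hK : 0 ≤ K)
    (hGA : ∀ x ∈ Metric.closedBall z ρ, ‖Gf x - Gf z - A (x - z)‖ ≤ K * ‖x - z‖ ^ 2 / ρ)
    (hτ : 0 < τ) (hτ1 : τ < 1) (hθ0 : 0 < θ)
    (hθ : θ * (τ * ρ) ^ m ≤ (mass V).real (Metric.closedBall z (τ * ρ))) :
    ‖Gf z‖ ^ 2 ≤ ρ ^ 2 * (2 * sep m V Gf z ρ / (θ * τ ^ m) + 2 * τ ^ 2 * (‖A‖ + K) ^ 2) := by
  have hτρ : τ * ρ < ρ := by nlinarith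
  have hτρ0 : 0 < τ * ρ := by positivity
  set μ : ℝ := V.real ((Prod.fst : Euc k × L k → Euc k) ⁻¹' (Metric.closedBall z (τ * ρ))) with hμ
  rw [mass_real_apply V measurableSet_closedBall, ← hμ] at hθ
  have hμ0 : 0 < μ := lt_of_lt_of_le (by positivity) hθ
  have hsub : Metric.closedBall z (τ * ρ) ⊆ Metric.ball z ρ := Metric.closedBall_subset_ball hτρ
  have hi := intOn_sq hV hU hG
  have hi1 : IntegrableOn (fun p : Euc k × L k => ‖Gf p.1‖ ^ 2)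
      (Prod.fst ⁻¹' (Metric.ball z ρ)) V :=
    hi.mono_set (Set.preimage_mono Metric.ball_subset_closedBall)
  have hi2 : IntegrableOn (fun p : Euc k × L k => ‖Gf p.1‖ ^ 2)
      (Prod.fst ⁻¹' (Metric.closedBall z (τ * ρ))) V :=
    hi1.mono_set (Set.preimage_mono hsub)
  set B : ℝ := 2 * (τ * ρ * (‖A‖ + K)) ^ 2 with hB
  have hpt : ∀ p ∈ (Prod.fst : Euc k × L k → Euc k) ⁻¹' (Metric.closedBall z (τ * ρ)),
      ‖Gf z‖ ^ 2 ≤ 2 * ‖Gf p.1‖ ^ 2 + B := by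
    intro p hp
    have h1 : ‖p.1 - z‖ ≤ τ * ρ := mem_closedBall_iff_norm.1 hp
    have h2 := hGA p.1 (Metric.ball_subset_closedBall (hsub hp))
    have h3 : ‖Gf z‖ ≤ ‖Gf p.1‖ + (τ * ρ * (‖A‖ + K)) := by
      have e1 : Gf z = Gf p.1 - (Gf p.1 - Gf z - A (p.1 - z)) - A (p.1 - z) := by abel
      calc ‖Gf z‖ = ‖Gf p.1 - (Gf p.1 - Gf z - A (p.1 - z)) - A (p.1 - z)‖ := by rw [← e1]
        _ ≤ ‖Gf p.1‖ + ‖Gf p.1 - Gf z - A (p.1 - z)‖ + ‖A (p.1 - z)‖ :=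
            (norm_sub_le _ _).trans (add_le_add (norm_sub_le _ _) le_rfl)
        _ ≤ ‖Gf p.1‖ + K * ‖p.1 - z‖ ^ 2 / ρ + ‖A‖ * ‖p.1 - z‖ :=
            add_le_add (add_le_add le_rfl h2) (A.le_opNorm _)
        _ ≤ ‖Gf p.1‖ + K * (τ * ρ) + ‖A‖ * (τ * ρ) := by
            gcongr
            rw [div_le_iff₀ hρ]
            calc K * ‖p.1 - z‖ ^ 2 ≤ K * (τ * ρ) ^ 2 := by gcongr
              _ = (K * (τ * ρ) * ρ) * τ := by ring
              _ ≤ (K * (τ * ρ) * ρ) * 1 := by gcongr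
              _ = _ := mul_one _
        _ = _ := by ring
    have h4 : 0 ≤ τ * ρ * (‖A‖ + K) := by positivity
    calc ‖Gf z‖ ^ 2 ≤ (‖Gf p.1‖ + (τ * ρ * (‖A‖ + K))) ^ 2 := by gcongr
      _ ≤ 2 * ‖Gf p.1‖ ^ 2 + B := by
        rw [hB]
        nlinarith [sq_nonneg (‖Gf p.1‖ - (τ * ρ * (‖A‖ + K)))]
  have hfin := fin_ball hV hU (hsub.trans Metric.ball_subset_closedBall)
  have h1 : ∫ p in (Prod.fst : Euc k × L k → Euc k) ⁻¹' (Metric.closedBall z (τ * ρ)),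
      ‖Gf z‖ ^ 2 ∂V ≤
      ∫ p in Prod.fst ⁻¹' (Metric.closedBall z (τ * ρ)), (2 * ‖Gf p.1‖ ^ 2 + B) ∂V :=
    setIntegral_mono_on (integrableOn_const hfin.ne)
      ((hi2.const_mul 2).add (integrableOn_const hfin.ne)) (measS measurableSet_closedBall) hpt
  rw [integral_add (hi2.const_mul 2) (integrableOn_const hfin.ne), integral_const_mul,
    setIntegral_const, setIntegral_const, smul_eq_mul, smul_eq_mul, ← hμ] at h1
  have h2 : ∫ p in Prod.fst ⁻¹' (Metric.closedBall z (τ * ρ)), ‖Gf p.1‖ ^ 2 ∂V ≤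
      ρ ^ (m + 2) * sep m V Gf z ρ := by
    have h3 : ρ ^ (m + 2) * sep m V Gf z ρ =
        ∫ p in Prod.fst ⁻¹' (Metric.ball z ρ), ‖Gf p.1‖ ^ 2 ∂V := by
      unfold sep
      rw [← mul_assoc, mul_inv_cancel₀ (by positivity), one_mul]
    rw [h3]
    exact setIntegral_mono_set hi1 (ae_of_all _ fun p => sq_nonneg _)
      (LE.le.eventuallyLE (Set.preimage_mono hsub))
  have hs0 : 0 ≤ sep m V Gf z ρ :=
    mul_nonneg (by positivity) (integral_nonneg fun _ => sq_nonneg _)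
  have h3 : ‖Gf z‖ ^ 2 ≤ 2 * (ρ ^ (m + 2) * sep m V Gf z ρ) / μ + B := by
    rw [div_add' _ _ _ hμ0.ne', le_div_iff₀ hμ0]
    nlinarith
  refine h3.trans ?_
  have h4 : 2 * (ρ ^ (m + 2) * sep m V Gf z ρ) / μ ≤
      2 * (ρ ^ (m + 2) * sep m V Gf z ρ) / (θ * (τ * ρ) ^ m) := by gcongr
  calc 2 * (ρ ^ (m + 2) * sep m V Gf z ρ) / μ + B
      ≤ 2 * (ρ ^ (m + 2) * sep m V Gf z ρ) / (θ * (τ * ρ) ^ m) + B := by linarith
    _ = _ := by
      rw [hB, mul_pow, pow_add]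
      field_simp

/-- the planar excess at a smaller scale. -/
theorem exc_le_of_sep (hV : Stat m k U V) (A : Euc k →L[ℝ] F) {z : Euc k} {ρ K s Λ : ℝ}
    (hρ : 0 < ρ) (hU : Metric.closedBall z ρ ⊆ U) {Gf : Euc k → F}
    (hG : ContinuousOn Gf (Metric.closedBall z ρ)) (hK : 0 ≤ K)
    (hGA : ∀ x ∈ Metric.closedBall z ρ, ‖Gf x - Gf z - A (x - z)‖ ≤ K * ‖x - z‖ ^ 2 / ρ)
    (hs : 0 < s) (hs1 : s < 1)
    (hΛ : (mass V).real (Metric.closedBall z (s * ρ)) ≤ Λ * (s * ρ) ^ m) :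
    exc m V A z (s * ρ) ≤ 3 * (s ^ (m + 2))⁻¹ * sep m V Gf z ρ +
      3 * (s ^ 2)⁻¹ * (‖Gf z‖ ^ 2 / ρ ^ 2 + K ^ 2 * s ^ 4) * Λ := by
  have hsρ : s * ρ < ρ := by nlinarith
  have hsρ0 : 0 < s * ρ := by positivity
  have hsub : Metric.closedBall z (s * ρ) ⊆ Metric.ball z ρ := Metric.closedBall_subset_ball hsρ
  have hi := intOn_sq hV hU hG
  have hi1 : IntegrableOn (fun p : Euc k × L k => ‖Gf p.1‖ ^ 2)
      (Prod.fst ⁻¹' (Metric.ball z ρ)) V :=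
    hi.mono_set (Set.preimage_mono Metric.ball_subset_closedBall)
  have hi2 : IntegrableOn (fun p : Euc k × L k => ‖Gf p.1‖ ^ 2)
      (Prod.fst ⁻¹' (Metric.closedBall z (s * ρ))) V :=
    hi1.mono_set (Set.preimage_mono hsub)
  set B : ℝ := 3 * (‖Gf z‖ ^ 2 + K ^ 2 * s ^ 4 * ρ ^ 2) with hB
  have hpt : ∀ p ∈ (Prod.fst : Euc k × L k → Euc k) ⁻¹' (Metric.closedBall z (s * ρ)),
      ‖A (p.1 - z)‖ ^ 2 ≤ 3 * ‖Gf p.1‖ ^ 2 + B := by
    intro p hp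
    have h1 : ‖p.1 - z‖ ≤ s * ρ := mem_closedBall_iff_norm.1 hp
    have h2 := hGA p.1 (Metric.ball_subset_closedBall (hsub hp))
    have h5 : K * ‖p.1 - z‖ ^ 2 / ρ ≤ K * s ^ 2 * ρ := by
      rw [div_le_iff₀ hρ]
      calc K * ‖p.1 - z‖ ^ 2 ≤ K * (s * ρ) ^ 2 := by gcongr
        _ = _ := by ring
    have h3 : ‖A (p.1 - z)‖ ≤ ‖Gf p.1‖ + ‖Gf z‖ + K * s ^ 2 * ρ := by
      have e1 : A (p.1 - z) = Gf p.1 - Gf z - (Gf p.1 - Gf z - A (p.1 - z)) := by abel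
      rw [e1]
      refine (norm_sub_le _ _).trans (add_le_add (norm_sub_le _ _) ?_)
      exact h2.trans h5
    have h4 : 0 ≤ K * s ^ 2 * ρ := by positivity
    calc ‖A (p.1 - z)‖ ^ 2 ≤ (‖Gf p.1‖ + ‖Gf z‖ + K * s ^ 2 * ρ) ^ 2 := by gcongr
      _ ≤ 3 * ‖Gf p.1‖ ^ 2 + B := by
        rw [hB]
        nlinarith [sq_nonneg (‖Gf p.1‖ - ‖Gf z‖), sq_nonneg (‖Gf p.1‖ - K * s ^ 2 * ρ),
          sq_nonneg (‖Gf z‖ - K * s ^ 2 * ρ)]
  have hfin := fin_ball hV hU (hsub.trans Metric.ball_subset_closedBall)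
  have iq : IntegrableOn (fun p : Euc k × L k => ‖A (p.1 - z)‖ ^ 2)
      (Prod.fst ⁻¹' (Metric.closedBall z (s * ρ))) V := by
    refine intOn hV hU measurableSet_closedBall (hsub.trans Metric.ball_subset_closedBall)
      (continuous_quad A z).aestronglyMeasurable (C := ‖A‖ ^ 2 * (s * ρ) ^ 2) fun p hp _ => ?_
    rw [Real.norm_of_nonneg (sq_nonneg _)]
    exact quad_le A hp
  have h1 : ∫ p in (Prod.fst : Euc k × L k → Euc k) ⁻¹' (Metric.closedBall z (s * ρ)),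
      ‖A (p.1 - z)‖ ^ 2 ∂V ≤
      ∫ p in Prod.fst ⁻¹' (Metric.closedBall z (s * ρ)), (3 * ‖Gf p.1‖ ^ 2 + B) ∂V :=
    setIntegral_mono_on iq
      ((hi2.const_mul 3).add (integrableOn_const hfin.ne)) (measS measurableSet_closedBall) hpt
  rw [integral_add (hi2.const_mul 3) (integrableOn_const hfin.ne), integral_const_mul,
    setIntegral_const, smul_eq_mul, ← mass_real_apply V measurableSet_closedBall] at h1
  have h2 : ∫ p in Prod.fst ⁻¹' (Metric.closedBall z (s * ρ)), ‖Gf p.1‖ ^ 2 ∂V ≤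
      ρ ^ (m + 2) * sep m V Gf z ρ := by
    have h3 : ρ ^ (m + 2) * sep m V Gf z ρ =
        ∫ p in Prod.fst ⁻¹' (Metric.ball z ρ), ‖Gf p.1‖ ^ 2 ∂V := by
      unfold sep
      rw [← mul_assoc, mul_inv_cancel₀ (by positivity), one_mul]
    rw [h3]
    exact setIntegral_mono_set hi1 (ae_of_all _ fun p => sq_nonneg _)
      (LE.le.eventuallyLE (Set.preimage_mono hsub))
  have hB0 : 0 ≤ B := by positivity
  have h3 : (mass V).real (Metric.closedBall z (s * ρ)) * B ≤ Λ * (s * ρ) ^ m * B := by gcongr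
  unfold exc
  rw [inv_mul_le_iff₀ (by positivity)]
  calc _ ≤ 3 * (ρ ^ (m + 2) * sep m V Gf z ρ) + Λ * (s * ρ) ^ m * B := by linarith
    _ = _ := by
      rw [hB, mul_pow, mul_pow, pow_add, pow_add]
      field_simp

theorem small (a : ℝ) {b : ℝ} (hb : 0 < b) : ∃ c : ℝ, 0 < c ∧ c ≤ 1 / 2 ∧ a * c ≤ b := by
  refine ⟨min (1 / 2) (b / (|a| + 1)), lt_min (by norm_num) (by positivity), min_le_left _ _, ?_⟩
  have h1 : 0 < |a| + 1 := by positivity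
  calc a * min (1 / 2) (b / (|a| + 1)) ≤ |a| * min (1 / 2) (b / (|a| + 1)) := by
        refine mul_le_mul_of_nonneg_right (le_abs_self a) ?_
        exact (lt_min (by norm_num) (by positivity)).le
    _ ≤ |a| * (b / (|a| + 1)) := by
        refine mul_le_mul_of_nonneg_left (min_le_right _ _) (abs_nonneg _)
    _ ≤ b := by
        rw [mul_div_assoc', div_le_iff₀ h1]
        nlinarith [abs_nonneg a]

/-- **(T1) = the cone-like case of (F9)**: small drop + `L²`-close to a `C²` zero set ==> flat. -/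
theorem flat_of_sep (m : ℕ) (hm : 1 ≤ m) {θ₁ Λ K₀ δ : ℝ} (hθ₁ : 0 < θ₁) (hΛ : 0 < Λ)
    (hK₀ : 0 ≤ K₀) (hδ : 0 < δ) :
    ∃ c : ℝ, 0 < c ∧ ∃ g₀ : ℝ, 0 < g₀ ∧ g₀ ≤ 1 ∧ ∀ {U : Set (Euc k)} {V : Measure (Euc k × L k)},
      Stat m k U V → ∀ {z : Euc k} {ρ θ : ℝ} (A : Euc k →L[ℝ] F) (Gf : Euc k → F), 0 < ρ →
      Metric.closedBall z ρ ⊆ U → θ₁ ≤ θ → θ + g₀ ≤ Λ →
      (∀ r ∈ Set.Ioo 0 ρ, θ * r ^ m ≤ (mass V).real (Metric.closedBall z r)) →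
      (mass V).real (Metric.ball z ρ) ≤ (θ + g₀) * ρ ^ m → ‖A‖ ≤ K₀ →
      ContinuousOn Gf (Metric.closedBall z ρ) →
      (∀ x ∈ Metric.closedBall z ρ, ‖Gf x - Gf z - A (x - z)‖ ≤ K₀ * ‖x - z‖ ^ 2 / ρ) →
      sep m V Gf z ρ ≤ c → ‖Gf z‖ ≤ δ * ρ ∧ ex m V A z ρ ≤ δ := by
  obtain ⟨s, hs0, hs2, hs⟩ := small (3 * K₀ ^ 2 * Λ) (show 0 < δ / 5 by positivity)
  obtain ⟨τ, hτ0, hτ2, hτ⟩ := small (3 * (s ^ 2)⁻¹ * (2 * (K₀ + K₀) ^ 2) * Λ + 2 * (K₀ + K₀) ^ 2)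
    (show 0 < min (δ / 5) (δ ^ 2 / 2) by positivity)
  obtain ⟨c, hc0, hc2, hc⟩ := small (3 * (s ^ (m + 2))⁻¹ +
    3 * (s ^ 2)⁻¹ * (2 / (θ₁ * τ ^ m)) * Λ + 2 / (θ₁ * τ ^ m))
    (show 0 < min (δ / 5) (δ ^ 2 / 2) by positivity)
  obtain ⟨q, hq0, hq2, hq⟩ := small (K₀ ^ 2 + K₀ * √(2 * (s⁻¹) ^ (m + 2) * (K₀ ^ 2 * Λ)))
    (show 0 < δ / 5 by positivity)
  refine ⟨c, hc0, q ^ 2, by positivity, by nlinarith, ?_⟩
  intro U V hV z ρ θ A Gf hρ hU hθ1 hθΛ hθ hM hA hG hGA hsep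
  have hs1 : s < 1 := by linarith
  have hτ1 : τ < 1 := by linarith
  have hθ0 : 0 < θ := hθ₁.trans_le hθ1
  have hsρ : s * ρ < ρ := by nlinarith
  have hsρ0 : 0 < s * ρ := by positivity
  have hMΛ : (mass V).real (Metric.ball z ρ) ≤ Λ * ρ ^ m := hM.trans (by gcongr)
  have hsep0 : 0 ≤ sep m V Gf z ρ :=
    mul_nonneg (by positivity) (integral_nonneg fun _ => sq_nonneg _)
  -- the centre
  have c1 := norm_center_le (m := m) hV A hρ hU hG hK₀ hGA hτ0 hτ1 hθ0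
    (hθ (τ * ρ) ⟨by positivity, by nlinarith⟩)
  have c2 : ‖Gf z‖ ^ 2 ≤ ρ ^ 2 * (2 / (θ₁ * τ ^ m) * c + 2 * (K₀ + K₀) ^ 2 * τ) := by
    refine c1.trans ?_
    refine mul_le_mul_of_nonneg_left (add_le_add ?_ ?_) (by positivity)
    · calc 2 * sep m V Gf z ρ / (θ * τ ^ m) ≤ 2 * c / (θ₁ * τ ^ m) := by gcongr
        _ = _ := by ring
    · calc 2 * τ ^ 2 * (‖A‖ + K₀) ^ 2 ≤ 2 * (τ * 1) * (K₀ + K₀) ^ 2 := by
            rw [pow_two]
            gcongr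
        _ = _ := by ring
  have p1 : 0 ≤ 3 * (s ^ (m + 2))⁻¹ * c := by positivity
  have p2 : 0 ≤ 3 * (s ^ 2)⁻¹ * (2 / (θ₁ * τ ^ m)) * Λ * c := by positivity
  have p3 : 0 ≤ 2 / (θ₁ * τ ^ m) * c := by positivity
  have p4 : 0 ≤ 3 * (s ^ 2)⁻¹ * (2 * (K₀ + K₀) ^ 2) * Λ * τ := by positivity
  have p5 : 0 ≤ 2 * (K₀ + K₀) ^ 2 * τ := by positivity
  have q1 : 3 * (s ^ (m + 2))⁻¹ * c + 3 * (s ^ 2)⁻¹ * (2 / (θ₁ * τ ^ m)) * Λ * c ≤ δ / 5 := by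
    have := hc.trans (min_le_left _ _)
    linarith
  have q2 : 2 / (θ₁ * τ ^ m) * c ≤ δ ^ 2 / 2 := by
    have := hc.trans (min_le_right _ _)
    linarith
  have q3 : 3 * (s ^ 2)⁻¹ * (2 * (K₀ + K₀) ^ 2) * Λ * τ ≤ δ / 5 := by
    have := hτ.trans (min_le_left _ _)
    linarith
  have q4 : 2 * (K₀ + K₀) ^ 2 * τ ≤ δ ^ 2 / 2 := by
    have := hτ.trans (min_le_right _ _)
    linarith
  constructor
  · have h1 : ‖Gf z‖ ^ 2 ≤ (δ * ρ) ^ 2 := by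
      calc ‖Gf z‖ ^ 2 ≤ ρ ^ 2 * (δ ^ 2 / 2 + δ ^ 2 / 2) := c2.trans (by gcongr)
        _ = _ := by ring
    exact le_of_sq_le_sq h1 (by positivity)
  · -- the mass of the small ball
    have hms : (mass V).real (Metric.closedBall z (s * ρ)) ≤ Λ * (s * ρ) ^ m := by
      have h1 := mono_real hV hm hsρ0 hsρ hU
      rw [inv_mul_le_iff₀ (by positivity)] at h1
      have h2 : (ρ ^ m)⁻¹ * (mass V).real (Metric.ball z ρ) ≤ Λ := by
        rw [inv_mul_le_iff₀ (by positivity)]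
        linarith [mul_comm Λ (ρ ^ m)]
      calc _ ≤ (s * ρ) ^ m * ((ρ ^ m)⁻¹ * (mass V).real (Metric.ball z ρ)) := h1
        _ ≤ (s * ρ) ^ m * Λ := by gcongr
        _ = _ := mul_comm _ _
    have e1 := exc_le_of_sep (m := m) hV A hρ hU hG hK₀ hGA hs0 hs1 hms
    have e2 : ‖Gf z‖ ^ 2 / ρ ^ 2 ≤ 2 / (θ₁ * τ ^ m) * c + 2 * (K₀ + K₀) ^ 2 * τ := by
      rw [div_le_iff₀ (by positivity)]
      linarith [mul_comm (ρ ^ 2) (2 / (θ₁ * τ ^ m) * c + 2 * (K₀ + K₀) ^ 2 * τ)]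
    have e3 : exc m V A z (s * ρ) ≤ 3 * δ / 5 := by
      refine e1.trans ?_
      have e4 : K₀ ^ 2 * s ^ 4 ≤ K₀ ^ 2 * s * s ^ 2 := by
        have : s ^ 4 ≤ s * s ^ 2 := by
          calc s ^ 4 = s * s ^ 2 * s := by ring
            _ ≤ s * s ^ 2 * 1 := by gcongr
            _ = _ := mul_one _
        calc K₀ ^ 2 * s ^ 4 ≤ K₀ ^ 2 * (s * s ^ 2) := by gcongr
          _ = _ := by ring
      calc 3 * (s ^ (m + 2))⁻¹ * sep m V Gf z ρ +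
            3 * (s ^ 2)⁻¹ * (‖Gf z‖ ^ 2 / ρ ^ 2 + K₀ ^ 2 * s ^ 4) * Λ
          ≤ 3 * (s ^ (m + 2))⁻¹ * c +
            3 * (s ^ 2)⁻¹ * ((2 / (θ₁ * τ ^ m) * c + 2 * (K₀ + K₀) ^ 2 * τ) +
              K₀ ^ 2 * s * s ^ 2) * Λ := by gcongr
        _ = (3 * (s ^ (m + 2))⁻¹ * c + 3 * (s ^ 2)⁻¹ * (2 / (θ₁ * τ ^ m)) * Λ * c) +
            3 * (s ^ 2)⁻¹ * (2 * (K₀ + K₀) ^ 2) * Λ * τ + 3 * K₀ ^ 2 * Λ * s := by
            field_simp
            ring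
        _ ≤ δ / 5 + δ / 5 + δ / 5 := by gcongr
        _ = 3 * δ / 5 := by ring
    have e5 := quad_close hV hm A hsρ0 hsρ hU hθ hM
    have e6 : ex m V A z ρ ≤ K₀ ^ 2 * Λ :=
      (ex_le_norm hV A hρ hU hMΛ).trans (by gcongr)
    have e7 : ‖A‖ ^ 2 * q ^ 2 + ‖A‖ * √(2 * (ρ / (s * ρ)) ^ (m + 2) * ex m V A z ρ * q ^ 2) ≤
        δ / 5 := by
      have f1 : ρ / (s * ρ) = s⁻¹ := by field_simp
      have f2 : √(2 * (ρ / (s * ρ)) ^ (m + 2) * ex m V A z ρ * q ^ 2) ≤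
          √(2 * (s⁻¹) ^ (m + 2) * (K₀ ^ 2 * Λ)) * q := by
        rw [f1, Real.sqrt_mul' _ (sq_nonneg q), Real.sqrt_sq hq0.le]
        gcongr
      calc ‖A‖ ^ 2 * q ^ 2 + ‖A‖ * √(2 * (ρ / (s * ρ)) ^ (m + 2) * ex m V A z ρ * q ^ 2)
          ≤ K₀ ^ 2 * (q * 1) + K₀ * (√(2 * (s⁻¹) ^ (m + 2) * (K₀ ^ 2 * Λ)) * q) := by
            refine add_le_add ?_ (mul_le_mul hA f2 (Real.sqrt_nonneg _) hK₀)
            rw [pow_two q]
            have : q ≤ 1 := by linarith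
            gcongr
        _ = (K₀ ^ 2 + K₀ * √(2 * (s⁻¹) ^ (m + 2) * (K₀ ^ 2 * Λ))) * q := by ring
        _ ≤ δ / 5 := hq
    have e8 := (abs_le.1 e5).2
    linarith

end Crest.Agent.R234.Top_395
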