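import Crest.Agent.R234.Top2_456

/-!
# Row 234, (F8) START (helper456): `StartAll` from the field `start`
-/

set_option autoImplicit false

open MeasureTheory Filter Topology Set
open Crest.GeometryTopology.Submanifold Crest.Agent.R234.Vf_884
open Crest.Agent.R234.Stp_518 Crest.Agent.R234.F10w_188
open Crest.Agent.R234.F10a_188 Crest.Agent.R234.F10b_188 Crest.Agent.R234.F10d_188

noncomputable section

namespace Crest.Agent.R234.Up_456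

/-- the field `start` of `Thy` with `Wp := preW d.c (VD D) x (om2 m d)`. -/
def StartS (m n : ℕ) : Prop := ∃ δ γ p : ℝ, 0 ≤ δ ∧ 0 < γ ∧ 1 < p ∧ Thya_685.Ev fun _ Q d =>
  ∀ (U : Set (Euc (m + n))) (D : VarifoldData m (m + n)) (x : Euc (m + n)) (r₁ : ℝ),
    Env m U D Q x d.om r₁ → x ∈ singularSet m (m + n) U D →
      ∀ S, StartH (d.W (n := n) D Q x) (preW d.c (VD D) x (om2 m d) S) (d.fl D x r₁) d.Λ₀ d.κm
        d.P' δ γ p S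

theorem startAll_of {m n : ℕ} (hm : 1 ≤ m) (h : StartS m n) : Thya_685.StartAll m n := by
  obtain ⟨δ, γ, p, hδ, hγ, hp, h⟩ := h
  refine ⟨δ, γ, p, hδ, hγ, hp, ?_⟩
  obtain ⟨Ks₀, H⟩ := (h.and (topAll m n hm)).and (cmpAll m n hm)
  refine ⟨Ks₀, fun Ks hKs K hK Q hQ => ?_⟩
  obtain ⟨N₀, H⟩ := H Ks hKs K hK Q hQ
  refine ⟨N₀, fun N hN => ?_⟩
  obtain ⟨T₀, H⟩ := H N hN
  refine ⟨max T₀ 0, fun T hT c₀ hc₀ G CK P K₀ k a1 a2 a3 a4 => ?_⟩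
  have hT0 : 0 ≤ T := (le_max_right _ _).trans hT
  obtain ⟨κs, hκs, H⟩ := H T ((le_max_left _ _).trans hT) c₀ hc₀ G CK P K₀ k a1 a2 a3 a4
  refine ⟨κs, hκs, fun κ₀ h0 hκ => ?_⟩
  obtain ⟨Ls, H⟩ := H κ₀ h0 hκ
  refine ⟨Ls, fun L₁ hL₁ => ?_⟩
  obtain ⟨Λs, H⟩ := H L₁ hL₁
  refine ⟨Λs, fun Λ₀ hΛ => ?_⟩
  obtain ⟨oms, homs, H⟩ := H Λ₀ hΛ
  refine ⟨oms, homs, fun om ho1 ho2 => ?_⟩
  obtain ⟨⟨H1, H2⟩, Cc, hCc, H3⟩ := H om ho1 ho2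
  intro U D x r₁ hE hx
  obtain ⟨H3, H4⟩ := H3 U D x r₁ hE
  refine ⟨preW _ (VD D) x (om2 m _), 1 / 8, T + 3, 3, Cc, by norm_num, by linarith, by norm_num, hCc,
    H1 U D x r₁ hE hx, fun S hS => H2 U D x r₁ hE S hS, H3, ?_⟩
  intro S M l h1 h2 h3 h4 _
  exact H4 _ S M l h1 h2 h3 h4

end Crest.Agent.R234.Up_456
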