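import Crest.Agent.R234.Top5_395

/-!
Row 234 (helper395), file 6 of VF-TOP: node F9 (POS of helper188): stopping radius and lower bound of
the separation from all references there.
-/

set_option autoImplicit false
set_option linter.unusedSectionVars false

open MeasureTheory Crest.GeometryTopology.Submanifold Filter Topology
open scoped ENNReal InnerProductSpace

noncomputable section

namespace Crest.Agent.R234.Top_395

open Crest.Agent.R234.Vf_884 Crest.Agent.R234.Main_456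

variable {m n k : ℕ}

/-- non-flatness goes down. -/
theorem notFlat_down (m k : ℕ) (hm : 1 ≤ m) {ω Λ b : ℝ} (hω : 0 < ω) (hb : 1 ≤ b) :
    ∃ g₀ : ℝ, 0 < g₀ ∧ g₀ ≤ 1 ∧ ∀ {U : Set (Euc k)} {V : Measure (Euc k × L k)}, Stat m k U V →
      ∀ {x : Euc k} {ρ θ : ℝ}, 0 < ρ → Metric.closedBall x ρ ⊆ U → θ + g₀ ≤ Λ →
      (∀ s ∈ Set.Ioo 0 ρ, θ * s ^ m ≤ (mass V).real (Metric.closedBall x s)) →
      (mass V).real (Metric.ball x ρ) ≤ (θ + g₀) * ρ ^ m → NotFlat m V x ω ρ →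
      ∀ σ, ρ / b ≤ σ → σ ≤ ρ → NotFlat m V x (ω / 2) σ := by
  set q : ℝ := 1 - 1 / (4 * (m + 2)) with hq
  have hm2 : (0:ℝ) < 4 * (m + 2) := by positivity
  have hq1 : q < 1 := by
    have : 0 < 1 / (4 * ((m:ℝ) + 2)) := by positivity
    linarith
  have hq34 : 3 / 4 ≤ q ^ (m + 2) := by
    have h1 := one_add_mul_le_pow (a := -(1 / (4 * ((m:ℝ) + 2)))) (by
      have : 1 / (4 * ((m:ℝ) + 2)) ≤ 1 := by
        rw [div_le_one hm2]
        have : (0:ℝ) ≤ m := Nat.cast_nonneg m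
        linarith
      linarith) (m + 2)
    have h2 : 1 + ((m + 2 : ℕ) : ℝ) * -(1 / (4 * ((m:ℝ) + 2))) = 3 / 4 := by
      push_cast
      field_simp
      ring
    rw [h2] at h1
    calc 3 / 4 ≤ (1 + -(1 / (4 * ((m:ℝ) + 2)))) ^ (m + 2) := h1
      _ = q ^ (m + 2) := by rw [hq, sub_eq_add_neg]
  have hq0 : 0 < q := by
    have : 1 / (4 * ((m:ℝ) + 2)) < 1 := by
      rw [div_lt_one hm2]
      have : (0:ℝ) ≤ m := Nat.cast_nonneg m
      linarith
    linarith
  obtain ⟨t, ht0, ht2, ht⟩ := small (1 + √(2 * (b / q) ^ (m + 2) * Λ))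
    (show 0 < ω / 4 by positivity)
  refine ⟨t ^ 2, by positivity, by nlinarith, ?_⟩
  intro U V hV x ρ θ hρ hU hθΛ hθ hM hnf σ hσ1 hσ2 P hP
  have hσ0 : 0 < σ := lt_of_lt_of_le (by positivity) hσ1
  set A : Euc k →L[ℝ] Euc k := ContinuousLinearMap.id ℝ (Euc k) - P with hA
  have hA1 : ‖A‖ ≤ 1 := norm_one_sub_le hP
  have hexρ : ω < ex m V A x ρ := hnf P hP
  have hex0 : 0 ≤ ex m V A x ρ := ex_nonneg A x hρ.le
  have hMΛ : (mass V).real (Metric.ball x ρ) ≤ Λ * ρ ^ m := hM.trans (by gcongr)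
  have hexΛ : ex m V A x ρ ≤ Λ := by
    refine (ex_le_norm hV A hρ hU hMΛ).trans ?_
    have hΛ0 : 0 ≤ Λ := by
      by_contra hneg
      rw [not_le] at hneg
      have h1 : (mass V).real (Metric.ball x ρ) < 0 :=
        hMΛ.trans_lt (mul_neg_of_neg_of_pos hneg (by positivity))
      exact absurd measureReal_nonneg (not_le.2 h1)
    calc ‖A‖ ^ 2 * Λ ≤ 1 ^ 2 * Λ := by gcongr
      _ = Λ := by ring
  have hqσ0 : 0 < q * σ := by positivity
  have hqσ : q * σ < σ := by nlinarith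
  have hqσρ : q * σ < ρ := hqσ.trans_le hσ2
  have h1 := (abs_le.1 (quad_close hV hm A hqσ0 hqσρ hU hθ hM)).2
  have h2 : ‖A‖ ^ 2 * t ^ 2 + ‖A‖ * √(2 * (ρ / (q * σ)) ^ (m + 2) * ex m V A x ρ * t ^ 2) ≤
      ω / 4 := by
    have e1 : ρ / (q * σ) ≤ b / q := by
      rw [div_le_div_iff₀ hqσ0 hq0]
      have : ρ ≤ b * σ := by
        rw [div_le_iff₀ (by linarith)] at hσ1
        linarith [mul_comm σ b]
      nlinarith
    have e2 : √(2 * (ρ / (q * σ)) ^ (m + 2) * ex m V A x ρ * t ^ 2) ≤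
        √(2 * (b / q) ^ (m + 2) * Λ) * t := by
      rw [Real.sqrt_mul' _ (sq_nonneg t), Real.sqrt_sq ht0.le]
      gcongr
    calc ‖A‖ ^ 2 * t ^ 2 + ‖A‖ * √(2 * (ρ / (q * σ)) ^ (m + 2) * ex m V A x ρ * t ^ 2)
        ≤ 1 ^ 2 * (t * 1) + 1 * (√(2 * (b / q) ^ (m + 2) * Λ) * t) := by
          refine add_le_add ?_ (mul_le_mul hA1 e2 (Real.sqrt_nonneg _) zero_le_one)
          rw [pow_two t]
          have : t ≤ 1 := by linarith
          gcongr
      _ = (1 + √(2 * (b / q) ^ (m + 2) * Λ)) * t := by ring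
      _ ≤ ω / 4 := ht
  have h3 : 3 / 4 * ω < exc m V A x (q * σ) := by linarith
  have h4 : q ^ (m + 2) * exc m V A x (q * σ) ≤ ex m V A x σ := by
    unfold exc ex
    have e1 : q ^ (m + 2) * (((q * σ) ^ (m + 2))⁻¹ *
        ∫ p in Prod.fst ⁻¹' (Metric.closedBall x (q * σ)), ‖A (p.1 - x)‖ ^ 2 ∂V) =
        (σ ^ (m + 2))⁻¹ *
        ∫ p in Prod.fst ⁻¹' (Metric.closedBall x (q * σ)), ‖A (p.1 - x)‖ ^ 2 ∂V := by
      rw [mul_pow]
      field_simp
    rw [e1]
    refine mul_le_mul_of_nonneg_left ?_ (by positivity)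
    refine setIntegral_mono_set ?_ (ae_of_all _ fun p => sq_nonneg _)
      (LE.le.eventuallyLE (Set.preimage_mono (Metric.closedBall_subset_ball hqσ)))
    have hsub : Metric.ball x σ ⊆ Metric.closedBall x ρ :=
      (Metric.ball_subset_ball hσ2).trans Metric.ball_subset_closedBall
    refine intOn hV hU measurableSet_ball hsub
      (continuous_quad A x).aestronglyMeasurable (C := ‖A‖ ^ 2 * ρ ^ 2) fun p hp _ => ?_
    rw [Real.norm_of_nonneg (sq_nonneg _)]
    exact quad_le A (hsub hp)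
  change ω / 2 < ex m V A x σ
  have h5 : 0 ≤ exc m V A x (q * σ) := exc_nonneg A x hqσ0.le
  nlinarith

/-- flatness at a scale. -/
def FlatAt (m : ℕ) (V : Measure (Euc k × L k)) (x : Euc k) (ω r : ℝ) : Prop :=
  ∃ P ∈ G m k, pex m V P x r ≤ ω

theorem not_notFlat {V : Measure (Euc k × L k)} {x : Euc k} {ω r : ℝ} :
    ¬ NotFlat m V x ω r ↔ FlatAt m V x ω r := by
  unfold NotFlat FlatAt
  push Not
  rfl

/-- `C^{1,1}` bounds of a reference on the ball of radius `A`. -/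
structure C11 (κ A : ℝ) (u : Euc m → Euc n) (g : Euc m → Euc m →L[ℝ] Euc n) : Prop where
  der : ∀ w ∈ Metric.ball (0 : Euc m) A, HasFDerivAt u (g w) w
  zero : ‖u 0‖ ≤ κ
  bd : ∀ w ∈ Metric.ball (0 : Euc m) A, ‖g w‖ ≤ κ
  lip : ∀ w ∈ Metric.ball (0 : Euc m) A, ∀ w' ∈ Metric.ball (0 : Euc m) A,
    ‖g w - g w'‖ ≤ κ * ‖w - w'‖

theorem C11.rescale {κ A t : ℝ} {u : Euc m → Euc n} {g : Euc m → Euc m →L[ℝ] Euc n}
    (h : C11 κ A u g) (hκ : 0 ≤ κ) (ht : 0 < t) (htA : t ≤ A) {κ' : ℝ} (h1 : κ ≤ κ')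
    (h2 : κ * t ≤ κ') (h3 : κ / t ≤ κ') :
    C11 κ' 1 (fun w => t⁻¹ • u (t • w)) (fun w => g (t • w)) where
  der := by
    intro w hw
    have hw' : t • w ∈ Metric.ball (0 : Euc m) A := by
      rw [mem_ball_zero_iff] at hw ⊢
      rw [norm_smul, Real.norm_of_nonneg ht.le]
      nlinarith
    have h4 : HasFDerivAt (fun w : Euc m => t • w) (t • ContinuousLinearMap.id ℝ (Euc m)) w :=
      (hasFDerivAt_id w).const_smul t
    have h5 := ((h.der _ hw').comp w h4).const_smul t⁻¹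
    refine h5.congr_fderiv ?_
    rw [ContinuousLinearMap.comp_smul, smul_smul, inv_mul_cancel₀ ht.ne', one_smul,
      ContinuousLinearMap.comp_id]
  zero := by
    simp only [smul_zero, norm_smul, norm_inv, Real.norm_of_nonneg ht.le]
    calc t⁻¹ * ‖u 0‖ ≤ t⁻¹ * κ := by gcongr; exact h.zero
      _ = κ / t := by rw [div_eq_inv_mul]
      _ ≤ κ' := h3
  bd := by
    intro w hw
    refine (h.bd _ ?_).trans h1
    rw [mem_ball_zero_iff] at hw ⊢
    rw [norm_smul, Real.norm_of_nonneg ht.le]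
    nlinarith
  lip := by
    intro w hw w' hw'
    have hm : ∀ w : Euc m, w ∈ Metric.ball (0 : Euc m) 1 → t • w ∈ Metric.ball (0 : Euc m) A := by
      intro w hw
      rw [mem_ball_zero_iff] at hw ⊢
      rw [norm_smul, Real.norm_of_nonneg ht.le]
      nlinarith
    refine (h.lip _ (hm w hw) _ (hm w' hw')).trans ?_
    rw [← smul_sub, norm_smul, Real.norm_of_nonneg ht.le, ← mul_assoc]
    gcongr

theorem hgt_rescale {π : Euc k →L[ℝ] Euc m} {ρ : Euc k →L[ℝ] Euc n} {x : Euc k} {r t : ℝ}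
    (hr : r ≠ 0) (ht : t ≠ 0) (u : Euc m → Euc n) :
    hgt π ρ x (r * t) (fun w => t⁻¹ • u (t • w)) = hgt π ρ x r u := by
  funext z
  unfold hgt
  rw [smul_smul, smul_smul, mul_assoc, mul_inv_cancel₀ ht, mul_one]
  congr 4
  rw [mul_inv, mul_comm r⁻¹, ← mul_assoc, mul_inv_cancel₀ ht, one_mul]

theorem mass_low {U : Set (Euc k)} {V : Measure (Euc k × L k)} (hV : Stat m k U V) (hm : 1 ≤ m)
    {x : Euc k} {Q : ℕ} (hTh : (Q : ℝ≥0∞) ≤ Th m V x) {r s : ℝ} (hU : Metric.closedBall x r ⊆ U)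
    (hs : 0 < s) (hsr : s ≤ r) :
    ome m * Q * s ^ m ≤ (mass V).real (Metric.closedBall x s) := by
  have hsU : Metric.ball x s ⊆ U :=
    (Metric.ball_subset_closedBall.trans (Metric.closedBall_subset_closedBall hsr)).trans hU
  have h1 := mul_le_mass hV hm hs hsU hTh
  have h2 : (Q : ℝ≥0∞) * ENNReal.ofReal (ome m * s ^ m) ≤ mass V (Metric.closedBall x s) :=
    h1.trans (measure_mono Metric.ball_subset_closedBall)
  have hfin : mass V (Metric.closedBall x s) ≠ ⊤ :=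
    (mass_lt_top hV (isCompact_closedBall x s)
      ((Metric.closedBall_subset_closedBall hsr).trans hU)).ne
  have h3 := ENNReal.toReal_mono hfin h2
  rw [ENNReal.toReal_mul, ENNReal.toReal_natCast, ENNReal.toReal_ofReal (den_pos m hs).le] at h3
  calc ome m * Q * s ^ m = Q * (ome m * s ^ m) := by ring
    _ ≤ _ := h3

theorem mass_up {V : Measure (Euc k × L k)} {x : Euc k} {Q : ℕ} {g r : ℝ} (hg : 0 ≤ g)
    (hr : 0 < r) (h : rat m V x r ≤ (Q : ℝ≥0∞) + ENNReal.ofReal (g / ome m)) :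
    (mass V).real (Metric.ball x r) ≤ (ome m * Q + g) * r ^ m := by
  have ho := ome_pos m
  unfold rat at h
  rw [ENNReal.div_le_iff_le_mul (Or.inl (by
    rw [ne_eq, ENNReal.ofReal_eq_zero, not_le]; exact den_pos m hr))
    (Or.inl ENNReal.ofReal_ne_top)] at h
  have hfin : ((Q : ℝ≥0∞) + ENNReal.ofReal (g / ome m)) * ENNReal.ofReal (ome m * r ^ m) ≠ ⊤ :=
    ENNReal.mul_ne_top (ENNReal.add_ne_top.2 ⟨ENNReal.natCast_ne_top Q, ENNReal.ofReal_ne_top⟩)
      ENNReal.ofReal_ne_top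
  have h3 := ENNReal.toReal_mono hfin h
  rw [ENNReal.toReal_mul, ENNReal.toReal_add (ENNReal.natCast_ne_top Q) ENNReal.ofReal_ne_top,
    ENNReal.toReal_natCast, ENNReal.toReal_ofReal (by positivity),
    ENNReal.toReal_ofReal (den_pos m hr).le] at h3
  refine h3.trans (le_of_eq ?_)
  field_simp

/-- **F9 (POS)**: above every flat scale `s` there is a stopping scale `R`, `V` is `ω`-flat at all
scales of `[s, R]`, and the separation from every reference at the scales of `[R / b, R]` is bounded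
from below by a constant independent of `s`. -/
theorem pos' (hC : F9C m n k) {U : Set (Euc k)} {D : VarifoldData m k} (hU : IsOpen U)
    (hm : 1 ≤ m) (hD : IsIntegralVarifoldIn U D) (hst : IsStationaryIn U D) {x : Euc k}
    (hx : x ∈ singularSet m k U D) {Q : ℕ} (hQ : 1 ≤ Q) (hTh : Th m (VD D) x = (Q : ℝ≥0∞))
    {ω κ b a₀ a₁ : ℝ} (hω : 0 < ω) (hκ : 0 ≤ κ) (hb : 1 ≤ b) (ha₀ : 0 < a₀) (ha₁ : a₀ ≤ a₁)
    {r₁ : ℝ} (hr₁ : 0 < r₁) :
    ∃ c r₀ : ℝ, 0 < c ∧ 0 < r₀ ∧ r₀ ≤ r₁ ∧ Metric.closedBall x r₀ ⊆ U ∧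
      ∀ s, 0 < s → s ≤ r₀ → FlatAt m (VD D) x ω s →
        ∃ R, s ≤ R ∧ R ≤ r₀ ∧ (∀ t ∈ Set.Icc s R, FlatAt m (VD D) x ω t) ∧
          ∀ r a : ℝ, 0 < r → a₀ ≤ a → a ≤ a₁ → R / b ≤ a * r → a * r ≤ R →
            ∀ (π : Euc k →L[ℝ] Euc m) (ρ : Euc k →L[ℝ] Euc n), Frame π ρ →
            ∀ (u : Euc m → Euc n) (g : Euc m → Euc m →L[ℝ] Euc n) (A : ℝ), a < A →
              C11 κ A u g → c * (a * r) ^ (m + 2) ≤
                ∫ p in Prod.fst ⁻¹' (Metric.ball x (a * r)), ‖hgt π ρ x r u p.1‖ ^ 2 ∂(VD D) := by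
  have hV := stat_VD hD hst
  have hxU : x ∈ U := hx.1
  have ho := ome_pos m
  have ha₁0 : 0 < a₁ := ha₀.trans_le ha₁
  have hQ1 : (1:ℝ) ≤ Q := by exact_mod_cast hQ
  set θ : ℝ := ome m * Q with hθdef
  have hθ1 : ome m ≤ θ := by rw [hθdef]; nlinarith
  have hb0 : 0 < b := by linarith
  obtain ⟨c₁, hc₁, g₁, hg₁, hg₁1, H1⟩ := sep_low (k := k) m n hm (ω := ω / 2) (κ := κ) (a₁ := a₁)
    (θ₁ := ome m) (Λ := θ + 1) (by positivity) hκ ha₁0 ho (by positivity)
  obtain ⟨g₂, hg₂, hg₂1, H2⟩ := notFlat_down m k hm (ω := ω) (Λ := θ + 1) (b := 2 * b) hω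
    (by linarith)
  set g₀ : ℝ := min g₁ g₂ with hg₀
  have hg₀0 : 0 < g₀ := lt_min hg₁ hg₂
  obtain ⟨ρ₀, hρ₀, hρ₀U⟩ := Metric.isOpen_iff.1 hU x hxU
  -- small drop below `r₀`
  obtain ⟨r₀, hr₀, hr₀ρ, hr₀r₁, hrat⟩ : ∃ r₀ : ℝ, 0 < r₀ ∧ r₀ < ρ₀ ∧ r₀ ≤ r₁ ∧
      rat m (VD D) x r₀ ≤ (Q : ℝ≥0∞) + ENNReal.ofReal (g₀ / ome m) := by
    have h1 := tendsto_rat hV hm hρ₀ hρ₀U
    have h2 : Th m (VD D) x < (Q : ℝ≥0∞) + ENNReal.ofReal (g₀ / ome m) := by
      rw [hTh]
      refine ENNReal.lt_add_right (ENNReal.natCast_ne_top Q) ?_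
      rw [ne_eq, ENNReal.ofReal_eq_zero, not_le]
      positivity
    obtain ⟨r, hr1, hr2⟩ := ((h1.eventually_lt_const h2).and
      (Ioo_mem_nhdsGT (lt_min hρ₀ hr₁))).exists
    exact ⟨r, hr2.1, hr2.2.trans_le (min_le_left _ _), hr2.2.le.trans (min_le_right _ _), hr1.le⟩
  have hr₀U : Metric.closedBall x r₀ ⊆ U := (Metric.closedBall_subset_ball hr₀ρ).trans hρ₀U
  have hMup : ∀ t, 0 < t → t ≤ r₀ →
      (mass (VD D)).real (Metric.ball x t) ≤ (θ + g₀) * t ^ m := fun t ht0 ht =>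
    mass_up hg₀0.le ht0 ((rat_mono hV hm ht0 ht
      (Metric.ball_subset_closedBall.trans hr₀U)).trans hrat)
  have hMlow : ∀ t, 0 < t → t ≤ r₀ → θ * t ^ m ≤ (mass (VD D)).real (Metric.closedBall x t) :=
    fun t ht0 ht => mass_low hV hm hTh.ge hr₀U ht0 ht
  -- the fixed scale
  have hr₀b : 0 < r₀ / b := by positivity
  have hr₀b' : r₀ / b ≤ r₀ := div_le_self hr₀.le hb
  obtain ⟨c₂, hc₂, H3⟩ := sep_pos hC hU hm hD hst hx hQ hTh hr₀b
    ((Metric.closedBall_subset_closedBall hr₀b').trans hr₀U)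
    (κ := κ + κ * a₁ + κ * b / a₀) (by positivity)
  refine ⟨min c₁ (c₂ / r₀ ^ (m + 2)), r₀, by positivity, hr₀, hr₀r₁, hr₀U, ?_⟩
  intro s hs hsr hflat
  -- quadratic bound for references
  have hquad : ∀ (u : Euc m → Euc n) (g : Euc m → Euc m →L[ℝ] Euc n) (A a : ℝ), 0 < a → a < A →
      C11 κ A u g → ContinuousOn u (Metric.closedBall 0 a) ∧ ‖g 0‖ ≤ κ ∧
        ∀ w ∈ Metric.closedBall (0 : Euc m) a, ‖u w - u 0 - g 0 w‖ ≤ κ * ‖w‖ ^ 2 := by
    intro u g A a ha haA hu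
    have hsub : Metric.closedBall (0 : Euc m) a ⊆ Metric.ball 0 A :=
      Metric.closedBall_subset_ball haA
    have h0 : (0 : Euc m) ∈ Metric.ball (0 : Euc m) A := Metric.mem_ball_self (ha.trans haA)
    refine ⟨fun w hw => (hu.der w (hsub hw)).continuousAt.continuousWithinAt, hu.bd 0 h0, ?_⟩
    intro w hw
    have h1 := quad_of_lip hu.der hκ hu.lip h0 (hsub hw)
    simpa using h1
  set S : Set ℝ := {t | s ≤ t ∧ t ≤ r₀ ∧ NotFlat m (VD D) x ω t} with hS
  rcases S.eq_empty_or_nonempty with hE | hne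
  · -- no stopping
    refine ⟨r₀, hsr, le_rfl, ?_, ?_⟩
    · intro t ht
      rw [← not_notFlat]
      intro hcon
      have : t ∈ S := ⟨ht.1, ht.2, hcon⟩
      rw [hE] at this
      exact this
    · intro r a hr haa haa1 har1 har2 π ρ hF u g A haA hu
      have ha : 0 < a := ha₀.trans_le haa
      have har : 0 < a * r := by positivity
      set t : ℝ := r₀ / b / r with ht
      have ht0 : 0 < t := by positivity
      have hrt : r * t = r₀ / b := by rw [ht]; field_simp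
      have hta : t ≤ a := by
        rw [ht, div_le_iff₀ hr]; exact har1
      have htlow : a₀ / b ≤ t := by
        rw [ht, div_div, div_le_div_iff₀ hb0 (by positivity)]
        have h1 : a₀ * r ≤ r₀ := (mul_le_mul_of_nonneg_right haa hr.le).trans har2
        nlinarith
      have hu' : C11 (κ + κ * a₁ + κ * b / a₀) 1 (fun w => t⁻¹ • u (t • w))
          (fun w => g (t • w)) := by
        refine hu.rescale hκ ht0 (hta.trans haA.le) ?_ ?_ ?_
        · have : 0 ≤ κ * a₁ + κ * b / a₀ := by positivity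
          linarith
        · have h1 : κ * t ≤ κ * a₁ := by
            have := hta.trans haa1
            gcongr
          have : 0 ≤ κ * b / a₀ := by positivity
          linarith
        · have h1 : κ / t ≤ κ * b / a₀ := by
            rw [div_le_div_iff₀ ht0 ha₀]
            rw [div_le_iff₀ hb0] at htlow
            nlinarith
          have : 0 ≤ κ * a₁ := by positivity
          linarith
      have h1 := H3 π ρ hF _ _ hu'.der hu'.zero hu'.bd hu'.lip
      rw [← hrt, hgt_rescale hr.ne' ht0.ne' u, hrt] at h1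
      obtain ⟨hcont, -, -⟩ := hquad u g A a ha haA hu
      have hsubU : Metric.closedBall x (a * r) ⊆ U :=
        (Metric.closedBall_subset_closedBall har2).trans hr₀U
      have hcG : ContinuousOn (hgt π ρ x r u) (Metric.closedBall x (a * r)) := by
        have hmaps : ∀ z ∈ Metric.closedBall x (a * r), r⁻¹ • π (z - x) ∈
            Metric.closedBall (0 : Euc m) a := by
          intro z hz
          rw [mem_closedBall_zero_iff, norm_smul, Real.norm_of_nonneg (by positivity),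
            inv_mul_le_iff₀ hr]
          have := fr_norm_p hF (z - x)
          rw [mem_closedBall_iff_norm] at hz
          linarith [mul_comm r a]
        have hpc : Continuous fun z : Euc k => r⁻¹ • π (z - x) :=
          (π.continuous.comp (continuous_id.sub continuous_const)).const_smul r⁻¹
        unfold hgt
        have h1 : ContinuousOn (fun z : Euc k => u (r⁻¹ • π (z - x)))
            (Metric.closedBall x (a * r)) := hcont.comp hpc.continuousOn hmaps
        have h2 : Continuous fun z : Euc k => ρ (z - x) :=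
          ρ.continuous.comp (continuous_id.sub continuous_const)
        exact h2.continuousOn.sub (h1.const_smul r)
      have h2 : ∫ p in Prod.fst ⁻¹' (Metric.ball x (r₀ / b)), ‖hgt π ρ x r u p.1‖ ^ 2 ∂(VD D) ≤
          ∫ p in Prod.fst ⁻¹' (Metric.ball x (a * r)), ‖hgt π ρ x r u p.1‖ ^ 2 ∂(VD D) := by
        refine setIntegral_mono_set ((intOn_sq hV hsubU hcG).mono_set
          (Set.preimage_mono Metric.ball_subset_closedBall)) (ae_of_all _ fun p => sq_nonneg _)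
          (LE.le.eventuallyLE (Set.preimage_mono (Metric.ball_subset_ball har1)))
      have h3 : min c₁ (c₂ / r₀ ^ (m + 2)) * (a * r) ^ (m + 2) ≤ c₂ := by
        calc min c₁ (c₂ / r₀ ^ (m + 2)) * (a * r) ^ (m + 2)
            ≤ (c₂ / r₀ ^ (m + 2)) * r₀ ^ (m + 2) := by
              gcongr
              exact min_le_right _ _
          _ = c₂ := by field_simp
      linarith
  · -- stopping
    have hbdd : BddBelow S := ⟨s, fun t ht => ht.1⟩
    have hinf : s ≤ sInf S := le_csInf hne fun t ht => ht.1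
    obtain ⟨t', ht'S, ht'⟩ := exists_lt_of_csInf_lt hne (show sInf S < 2 * sInf S by linarith)
    have ht'0 : 0 < t' := hs.trans_le ht'S.1
    refine ⟨max s (t' / 2), le_max_left _ _, max_le hsr (by linarith [ht'S.2.1]), ?_, ?_⟩
    · intro t ht
      rcases le_max_iff.1 ht.2 with h1 | h1
      · have : t = s := le_antisymm h1 ht.1
        rw [this]; exact hflat
      · rw [← not_notFlat]
        intro hcon
        have h2 : t ∈ S := ⟨ht.1, by linarith [ht'S.2.1], hcon⟩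
        have h3 := csInf_le hbdd h2
        linarith
    · intro r a hr haa haa1 har1 har2 π ρ hF u g A haA hu
      have ha : 0 < a := ha₀.trans_le haa
      have har : 0 < a * r := by positivity
      have hRt' : max s (t' / 2) ≤ t' := max_le ht'S.1 (by linarith)
      have h1 : t' / (2 * b) ≤ a * r := by
        refine le_trans ?_ har1
        rw [div_le_div_iff₀ (by positivity) hb0]
        have := le_max_right s (t' / 2)
        nlinarith
      have h2 : a * r ≤ t' := har2.trans hRt'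
      have h3 : a * r ≤ r₀ := h2.trans ht'S.2.1
      have hnf : NotFlat m (VD D) x (ω / 2) (a * r) := by
        refine H2 hV ht'0 ((Metric.closedBall_subset_closedBall ht'S.2.1).trans hr₀U)
          (θ := θ) (by linarith) ?_ ?_ ht'S.2.2 (a * r) h1 h2
        · intro w hw
          exact hMlow w hw.1 (hw.2.le.trans ht'S.2.1)
        · refine (hMup t' ht'0 ht'S.2.1).trans ?_
          have : g₀ ≤ g₂ := min_le_right _ _
          gcongr
      obtain ⟨hcont, hg0, hqd⟩ := hquad u g A a ha haA hu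
      have h4 := H1 hV hr ha haa1 ((Metric.closedBall_subset_closedBall h3).trans hr₀U)
        (θ := θ) hθ1 (by linarith) (fun w hw => hMlow w hw.1 (hw.2.le.trans h3))
        ((hMup (a * r) har h3).trans (by
          have : g₀ ≤ g₁ := min_le_left _ _
          gcongr)) hnf π ρ hF u (g 0) hcont hg0 hqd
      refine le_trans ?_ h4.le
      gcongr
      exact min_le_left _ _

/-- `pos'` without prescribed upper bound of the top scale. -/
theorem pos (hC : F9C m n k) {U : Set (Euc k)} {D : VarifoldData m k} (hU : IsOpen U)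
    (hm : 1 ≤ m) (hD : IsIntegralVarifoldIn U D) (hst : IsStationaryIn U D) {x : Euc k}
    (hx : x ∈ singularSet m k U D) {Q : ℕ} (hQ : 1 ≤ Q) (hTh : Th m (VD D) x = (Q : ℝ≥0∞))
    {ω κ b a₀ a₁ : ℝ} (hω : 0 < ω) (hκ : 0 ≤ κ) (hb : 1 ≤ b) (ha₀ : 0 < a₀) (ha₁ : a₀ ≤ a₁) :
    ∃ c r₀ : ℝ, 0 < c ∧ 0 < r₀ ∧ Metric.closedBall x r₀ ⊆ U ∧
      ∀ s, 0 < s → s ≤ r₀ → FlatAt m (VD D) x ω s →
        ∃ R, s ≤ R ∧ R ≤ r₀ ∧ (∀ t ∈ Set.Icc s R, FlatAt m (VD D) x ω t) ∧
          ∀ r a : ℝ, 0 < r → a₀ ≤ a → a ≤ a₁ → R / b ≤ a * r → a * r ≤ R →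
            ∀ (π : Euc k →L[ℝ] Euc m) (ρ : Euc k →L[ℝ] Euc n), Frame π ρ →
            ∀ (u : Euc m → Euc n) (g : Euc m → Euc m →L[ℝ] Euc n) (A : ℝ), a < A →
              C11 κ A u g → c * (a * r) ^ (m + 2) ≤
                ∫ p in Prod.fst ⁻¹' (Metric.ball x (a * r)), ‖hgt π ρ x r u p.1‖ ^ 2 ∂(VD D) := by
  obtain ⟨c, r₀, h1, h2, -, h3, h4⟩ := pos' hC hU hm hD hst hx hQ hTh hω hκ hb ha₀ ha₁ one_pos
  exact ⟨c, r₀, h1, h2, h3, h4⟩

end Crest.Agent.R234.Top_395
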