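import Crest.Agent.R234.Top7_395
import Crest.Agent.R234.Supm4_685
import Crest.Agent.R234.Cy5_870
import Crest.Agent.R234.Al9_182

/-!
Row 234 (helper395), file 8 of VF-TOP: the FLAT PACKAGE (node F8-FLATV).

* `sup_height` : `FlatAt` at `R` bounds the heights of the points of density `≥ 1` in the half ball.
* `int_tilt_le` : planar Caccioppoli, `∫_{B_{R/2}} tilt P ≤ 256 R^m pex P R`.
* `near_of_flat` : `NearQ` at `R / 2`.
* `cylStat_zoom` : the zoomed varifold in the unit cylinder of the frame.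
* `plane_close` : two planes near which `V` is at the same scale are close.
-/

set_option autoImplicit false
set_option linter.unusedSectionVars false

open MeasureTheory Crest.GeometryTopology.Submanifold Filter Topology Set
open scoped ENNReal InnerProductSpace

noncomputable section

namespace Crest.Agent.R234.Top_395

open Crest.Agent.R234.Vf_884 Crest.Agent.R234.Main_456
open Crest.Agent.R234.Strat3_842 (tilt height)
open Crest.Agent.R234.AS_456 (hp vp)

variable {m n k : ℕ} {U : Set (Euc k)} {V : Measure (Euc k × L k)}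
  {π : Euc k →L[ℝ] Euc m} {ρ : Euc k →L[ℝ] Euc n} {x z : Euc k} {R ω : ℝ} {P : L k}

theorem norm_vert (h : Frame π ρ) (v : Euc k) :
    ‖(ContinuousLinearMap.id ℝ (Euc k) - hp π) v‖ = ‖ρ v‖ := by
  have h1 : (ContinuousLinearMap.id ℝ (Euc k) - hp π) v = ContinuousLinearMap.adjoint ρ (ρ v) := by
    have := fr_sum h v
    rw [sub_apply, ContinuousLinearMap.id_apply, hp, ContinuousLinearMap.comp_apply]
    nth_rewrite 1 [← this]
    abel
  have h2 : ‖ContinuousLinearMap.adjoint ρ (ρ v)‖ ^ 2 = ‖ρ v‖ ^ 2 := by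
    rw [← real_inner_self_eq_norm_sq, ContinuousLinearMap.adjoint_inner_left, fr_rr h,
      real_inner_self_eq_norm_sq]
  rw [h1]
  exact (sq_eq_sq₀ (norm_nonneg _) (norm_nonneg _)).1 h2

theorem hp_mem (h : Frame π ρ) : hp π ∈ G m k := by
  have h1 := gpr_mem h (0 : Euc m →L[ℝ] Euc n)
  have h2 : gpr π ρ 0 = hp π := by
    ext1 v
    have h3 := lin_gpr h (0 : Euc m →L[ℝ] Euc n) v
    have h4 := norm_sub_gpr_le h (0 : Euc m →L[ℝ] Euc n) (hp π v)
    have h5 : ρ (hp π v) = 0 := fr_rp h _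
    simp only [ContinuousLinearMap.zero_comp, sub_zero, h5, norm_zero] at h4
    have h6 : hp π v - gpr π ρ 0 (hp π v) = 0 := by
      rw [← norm_eq_zero]
      nlinarith [norm_nonneg (hp π v - gpr π ρ 0 (hp π v))]
    have h7 := norm_sub_gpr_le h (0 : Euc m →L[ℝ] Euc n) (hp π v)
    -- `gpr v` is horizontal, hence fixed by `hp`
    simp only [ContinuousLinearMap.zero_comp, sub_zero] at h3
    have h8 : hp π (gpr π ρ 0 v) = gpr π ρ 0 v := by
      have := fr_sum h (gpr π ρ 0 v)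
      rw [h3, map_zero, add_zero] at this
      exact this
    have h9 : hp π (gpr π ρ 0 v - v) = 0 := by
      refine ext_inner_left ℝ fun w => ?_
      rw [inner_zero_right, hp, ContinuousLinearMap.comp_apply,
        ContinuousLinearMap.adjoint_inner_right, ← ContinuousLinearMap.adjoint_inner_left]
      have e1 : gpr π ρ 0 (hp π w) = hp π w := by
        have h4' := norm_sub_gpr_le h (0 : Euc m →L[ℝ] Euc n) (hp π w)
        have h5' : ρ (hp π w) = 0 := fr_rp h _
        simp only [ContinuousLinearMap.zero_comp, sub_zero, h5', norm_zero] at h4'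
        have h6' : hp π w - gpr π ρ 0 (hp π w) = 0 := by
          rw [← norm_eq_zero]
          nlinarith [norm_nonneg (hp π w - gpr π ρ 0 (hp π w))]
        exact (sub_eq_zero.1 h6').symm
      have e2 : ⟪hp π w, gpr π ρ 0 v⟫_ℝ = ⟪hp π w, v⟫_ℝ := by
        rw [← G_symm h1, e1]
      change ⟪hp π w, gpr π ρ 0 v - v⟫_ℝ = 0
      rw [inner_sub_right, e2, sub_self]
    rw [map_sub, h8, sub_eq_zero] at h9
    exact h9
  rw [← h2]
  exact h1

/-- `pex` in frame coordinates. -/
theorem pex_frame (h : Frame π ρ) : pex m V (hp π) x R = (R ^ (m + 2))⁻¹ *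
    ∫ p in Prod.fst ⁻¹' (Metric.ball x R), ‖ρ (p.1 - x)‖ ^ 2 ∂V := by
  unfold pex ex
  simp only [norm_vert h]

theorem sup_height (hV : Stat m k U V) (hm : 1 ≤ m) (hf : Frame π ρ) (hR : 0 < R)
    (hU : Metric.closedBall x R ⊆ U) (h : pex m V (hp π) x R ≤ ω)
    (hz : z ∈ Metric.ball x (R / 2)) (hTh : 1 ≤ Th m V z) :
    ome m * ‖ρ (z - x)‖ ^ 2 ≤ 2 ^ (m + 1) * ω * R ^ 2 := by
  have hR2 : 0 < R / 2 := by positivity
  have hsub : Metric.closedBall z (R / 2) ⊆ Metric.closedBall x R := by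
    refine Metric.closedBall_subset_closedBall' ?_
    have := Metric.mem_ball.1 hz
    linarith
  have hsub' : Metric.ball z (R / 2) ⊆ Metric.ball x R := by
    refine Metric.ball_subset_ball' ?_
    have := Metric.mem_ball.1 hz
    linarith
  have h1 := Supm_685.height_hgt (u := (0 : Euc m → Euc n)) (κ := 0) (r := 1) (x := x) (A := 1) hV
    hm hf one_pos contDiff_const hR2 (hsub.trans hU) (fun w _ => ⟨by
      have : iteratedFDeriv ℝ 2 (0 : Euc m → Euc n) = 0 := iteratedFDeriv_fun_zero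
      rw [this]; simp, by
      unfold Msys
      have e1 : fderiv ℝ (0 : Euc m → Euc n) = 0 := by
        ext1 y; simp
      rw [e1]
      have e2 : fderiv ℝ (0 : Euc m → Euc m →L[ℝ] Euc n) = 0 := by
        ext1 y; simp
      rw [e2]
      simp⟩) (by simp) zero_le_one (by rwa [ENNReal.ofReal_one])
  simp only [hgt, Pi.zero_apply, smul_zero, sub_zero, one_mul] at h1
  rw [pex_frame hf, inv_mul_le_iff₀ (by positivity)] at h
  have h2 : ∫ p in Prod.fst ⁻¹' Metric.ball z (R / 2), ‖ρ (p.1 - x)‖ ^ 2 ∂V ≤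
      ∫ p in Prod.fst ⁻¹' Metric.ball x R, ‖ρ (p.1 - x)‖ ^ 2 ∂V := by
    refine setIntegral_mono_set ?_ (Filter.Eventually.of_forall fun _ => by positivity)
      (LE.le.eventuallyLE (preimage_mono hsub'))
    have := Strat3_842.integrableOn_of_bdd hV.conc (x := x) (r := R)
      (f := fun p : Euc k × L k => ‖ρ (p.1 - x)‖ ^ 2) (by
        rw [prod_eq]; exact fin_ball hV hU Metric.ball_subset_closedBall) (by fun_prop)
    rwa [prod_eq] at this
  have hpos : 0 < (R / 2) ^ m := by positivity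
  have hω : 0 ≤ ω * R ^ (m + 2) := by
    refine le_trans ?_ (h.trans_eq (mul_comm _ _))
    exact integral_nonneg fun _ => by positivity
  calc ome m * ‖ρ (z - x)‖ ^ 2 ≤ _ := h1
    _ ≤ 33 / 32 * (((R / 2) ^ m)⁻¹ * (R ^ (m + 2) * ω)) := by gcongr; exact h2.trans h
    _ = 33 / 32 * 2 ^ m * (ω * R ^ 2) := by
      rw [pow_add R m 2, div_pow]
      field_simp
    _ ≤ _ := by
      have h3 : 0 ≤ ω * R ^ 2 := by
        have : ω * R ^ (m + 2) = (ω * R ^ 2) * R ^ m := by ring
        rw [this] at hω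
        exact nonneg_of_mul_nonneg_left hω (by positivity)
      have h4 : (0:ℝ) ≤ 2 ^ m := by positivity
      rw [pow_succ (2:ℝ) m]
      nlinarith [mul_nonneg h4 h3]

/-- the radial cut-off. -/
def rc (x : Euc k) (R : ℝ) (z : Euc k) : ℝ := Al1_640.ph (‖z - x‖ ^ 2 / R ^ 2)

theorem rc_contDiff : ContDiff ℝ 1 (rc x R) := by
  unfold rc
  exact Al1_640.contDiff_ph.comp ((((contDiff_id.sub contDiff_const).norm_sq ℝ)).div_const _)

theorem rc_zero (hR : 0 < R) {z : Euc k} (hz : R ≤ ‖z - x‖) : rc x R z = 0 := by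
  unfold rc
  refine Al1_640.ph_zero ?_
  rw [one_le_div (by positivity)]
  gcongr

theorem rc_tsupport (hR : 0 < R) : tsupport (rc x R) ⊆ Metric.closedBall x R := by
  refine closure_minimal ?_ Metric.isClosed_closedBall
  intro z hz
  rw [Function.mem_support] at hz
  by_contra hcon
  refine hz (rc_zero hR ?_)
  rw [Metric.mem_closedBall, dist_eq_norm, not_le] at hcon
  exact hcon.le

theorem rc_fderiv (hR : 0 < R) (z : Euc k) : ‖fderiv ℝ (rc x R) z‖ ≤ 4 / R := by
  have h1 : HasFDerivAt (fun z : Euc k => ‖z - x‖ ^ 2 / R ^ 2)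
      ((R ^ 2)⁻¹ • (2 • (innerSL ℝ (z - x)))) z := by
    have h2 : HasFDerivAt (fun z : Euc k => ‖z - x‖ ^ 2) (2 • (innerSL ℝ (z - x))) z := by
      have := ((hasFDerivAt_id (𝕜 := ℝ) z).sub_const x).norm_sq
      simpa using this
    have h3 := h2.const_mul (R ^ 2)⁻¹
    simpa only [div_eq_inv_mul] using h3
  have h4 := (Al1_640.hasDerivAt_ph (‖z - x‖ ^ 2 / R ^ 2)).comp_hasFDerivAt z h1
  have h5 : fderiv ℝ (rc x R) z = Al1_640.ph' (‖z - x‖ ^ 2 / R ^ 2) •
      ((R ^ 2)⁻¹ • (2 • (innerSL ℝ (z - x)))) := h4.fderiv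
  rw [h5]
  rcases le_or_gt R ‖z - x‖ with h | h
  · rw [Al1_640.ph'_zero (by rw [one_le_div (by positivity)]; gcongr), zero_smul, norm_zero]
    positivity
  · rw [norm_smul, norm_smul, norm_inv, Real.norm_of_nonneg (by positivity : (0:ℝ) ≤ R ^ 2)]
    have h6 : ‖(2 : ℕ) • (innerSL ℝ (z - x))‖ ≤ 2 * R := by
      have h8 : ‖innerSL ℝ (z - x)‖ = ‖z - x‖ := innerSL_apply_norm ℝ _
      have h9 := norm_nsmul_le (n := 2) (a := innerSL ℝ (z - x))
      rw [h8] at h9
      refine h9.trans ?_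
      push_cast
      linarith
    have h7 : ‖Al1_640.ph' (‖z - x‖ ^ 2 / R ^ 2)‖ ≤ 2 := by
      rw [Real.norm_eq_abs]
      exact Al1_640.abs_ph'_le (by positivity)
    calc _ ≤ 2 * ((R ^ 2)⁻¹ * (2 * R)) := by gcongr
      _ = 4 / R := by field_simp; ring

theorem rc_low (hR : 0 < R) {z : Euc k} (hz : z ∈ Metric.ball x (R / 2)) : 9 / 16 ≤ rc x R z := by
  rw [Metric.mem_ball, dist_eq_norm] at hz
  have h1 : ‖z - x‖ ^ 2 / R ^ 2 ≤ 1 / 4 := by
    rw [div_le_iff₀ (by positivity)]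
    have := norm_nonneg (z - x)
    nlinarith
  refine le_trans ?_ (Al1_640.ph_anti h1)
  unfold Al1_640.ph
  rw [max_eq_left (by norm_num)]
  norm_num

/-- planar Caccioppoli. -/
theorem int_tilt_le (hV : Stat m k U V) (hR : 0 < R) (hU : Metric.closedBall x R ⊆ U)
    (hP : P ∈ G m k) :
    ∫ p in Metric.ball x (R / 2) ×ˢ univ, tilt P p ∂V ≤ 256 * R ^ m * pex m V P x R := by
  set q : L k := ContinuousLinearMap.id ℝ (Euc k) - P with hq
  have hqpr : Cacc_113.IsPr q := (Al7_182.isPr_of_G hP).compl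
  have hcs : HasCompactSupport (rc x R) := by
    refine HasCompactSupport.of_support_subset_isCompact (isCompact_closedBall x R) ?_
    exact (subset_tsupport _).trans (rc_tsupport hR)
  have h1 := (Al7_182.st_of_stat hV).caccioppoli (rc_contDiff (x := x) (R := R)) hcs
    ((rc_tsupport hR).trans hU) hqpr x
  have hfin : V (Metric.ball x R ×ˢ univ) < ⊤ := by
    rw [prod_eq]; exact fin_ball hV hU Metric.ball_subset_closedBall
  have hfin2 : V (Metric.ball x (R / 2) ×ˢ univ) < ⊤ :=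
    (measure_mono (Set.prod_mono (Metric.ball_subset_ball (by linarith)) Subset.rfl)).trans_lt hfin
  have htn : ∀ᵐ p ∂V, 0 ≤ tilt P p := by
    filter_upwards [hV.conc] with p hp
    exact Strat3_842.tr_perp_nonneg hp hP
  have hint : Integrable (fun p : Euc k × L k => rc x R p.1 ^ 2 * Cacc_113.tr (q ∘L p.2)) V := by
    refine (Al7_182.st_of_stat hV).integrable ?_ hcs.isCompact ((rc_tsupport hR).trans hU) ?_
    · exact (((rc_contDiff (x := x) (R := R)).continuous.comp continuous_fst).pow 2).mul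
        (Cacc_113.continuous_tr.comp (continuous_const.clm_comp continuous_snd))
    · intro p hp
      rw [image_eq_zero_of_notMem_tsupport hp]; simp
  have h2 : ∫ p in Metric.ball x (R / 2) ×ˢ univ, (81 / 256) * tilt P p ∂V ≤
      ∫ p, rc x R p.1 ^ 2 * Cacc_113.tr (q ∘L p.2) ∂V := by
    calc _ ≤ ∫ p in Metric.ball x (R / 2) ×ˢ univ, rc x R p.1 ^ 2 * Cacc_113.tr (q ∘L p.2) ∂V := by
          refine setIntegral_mono_ae_restrict ?_ hint.integrableOn ?_
          · exact Strat3_842.integrableOn_of_bdd hV.conc hfin2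
              (continuous_const.mul (Strat3_842.continuous_tilt P))
          · filter_upwards [ae_restrict_mem (measurableSet_ball.prod MeasurableSet.univ),
              ae_restrict_of_ae htn] with p hp hp2
            have h3 := rc_low hR hp.1
            have h4 : (81 / 256 : ℝ) ≤ rc x R p.1 ^ 2 := by nlinarith
            exact mul_le_mul_of_nonneg_right h4 hp2
      _ ≤ _ := by
          refine setIntegral_le_integral hint ?_
          filter_upwards [htn] with p hp
          exact mul_nonneg (sq_nonneg _) hp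
  have h3 : ∫ p, ‖fderiv ℝ (rc x R) p.1‖ ^ 2 * ‖q (p.1 - x)‖ ^ 2 ∂V ≤
      16 / R ^ 2 * ∫ p in Metric.ball x R ×ˢ univ, ‖q (p.1 - x)‖ ^ 2 ∂V := by
    rw [← integral_const_mul]
    have e1 : ∫ p, ‖fderiv ℝ (rc x R) p.1‖ ^ 2 * ‖q (p.1 - x)‖ ^ 2 ∂V =
        ∫ p in Metric.ball x R ×ˢ univ, ‖fderiv ℝ (rc x R) p.1‖ ^ 2 * ‖q (p.1 - x)‖ ^ 2 ∂V := by
      symm
      refine setIntegral_eq_integral_of_forall_compl_eq_zero ?_
      intro p hp
      have h4 : R ≤ ‖p.1 - x‖ := by
        by_contra hcon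
        push Not at hcon
        exact hp ⟨by rwa [Metric.mem_ball, dist_eq_norm], mem_univ _⟩
      have h5 : fderiv ℝ (rc x R) p.1 = 0 := by
        have hmin : IsLocalMin (rc x R) p.1 := by
          refine Filter.Eventually.of_forall fun w => ?_
          rw [rc_zero hR h4]
          exact Al1_640.ph_nonneg _
        exact hmin.fderiv_eq_zero
      rw [h5]; simp
    rw [e1]
    refine setIntegral_mono_on ?_ ?_ (measurableSet_ball.prod MeasurableSet.univ) ?_
    · refine Strat3_842.integrableOn_of_bdd hV.conc hfin ?_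
      exact ((((rc_contDiff (x := x) (R := R)).continuous_fderiv one_ne_zero).comp
        continuous_fst).norm.pow 2).mul (by fun_prop)
    · exact Strat3_842.integrableOn_of_bdd hV.conc hfin (by fun_prop)
    · intro p _
      have h6 := rc_fderiv (x := x) hR p.1
      have h7 : ‖fderiv ℝ (rc x R) p.1‖ ^ 2 ≤ 16 / R ^ 2 := by
        calc _ ≤ (4 / R) ^ 2 := by gcongr
          _ = _ := by rw [div_pow]; norm_num
      gcongr
  have h4 : ∫ p in Metric.ball x R ×ˢ univ, ‖q (p.1 - x)‖ ^ 2 ∂V = R ^ (m + 2) * pex m V P x R := by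
    unfold pex ex
    rw [prod_eq, ← mul_assoc, mul_inv_cancel₀ (by positivity), one_mul]
  rw [integral_const_mul] at h2
  have hpex : 0 ≤ pex m V P x R := by
    unfold pex ex
    have : 0 ≤ ∫ p in Prod.fst ⁻¹' Metric.ball x R,
      ‖(ContinuousLinearMap.id ℝ (Euc k) - P) (p.1 - x)‖ ^ 2 ∂V :=
      integral_nonneg fun _ => by positivity
    positivity
  rw [h4] at h3
  have h5 : 16 / R ^ 2 * (R ^ (m + 2) * pex m V P x R) = 16 * (R ^ m * pex m V P x R) := by
    rw [pow_add]; field_simp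
  rw [h5] at h3
  have h6 : 0 ≤ R ^ m * pex m V P x R := by positivity
  linarith

theorem pex_mono (hV : Stat m k U V) {R' : ℝ} (hR' : 0 < R') (hRR : R' ≤ R)
    (hU : Metric.closedBall x R ⊆ U) :
    R' ^ (m + 2) * pex m V P x R' ≤ R ^ (m + 2) * pex m V P x R := by
  have hR : 0 < R := hR'.trans_le hRR
  unfold pex ex
  rw [← mul_assoc, mul_inv_cancel₀ (by positivity), one_mul, ← mul_assoc,
    mul_inv_cancel₀ (by positivity), one_mul]
  refine setIntegral_mono_set ?_ (Filter.Eventually.of_forall fun _ => by positivity)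
    (LE.le.eventuallyLE (preimage_mono (Metric.ball_subset_ball hRR)))
  have := Strat3_842.integrableOn_of_bdd hV.conc (x := x) (r := R)
    (f := fun p : Euc k × L k => ‖(ContinuousLinearMap.id ℝ (Euc k) - P) (p.1 - x)‖ ^ 2) (by
      rw [prod_eq]; exact fin_ball hV hU Metric.ball_subset_closedBall) (by fun_prop)
  rwa [prod_eq] at this

/-- `FlatAt` + small ratio gives `NearQ` in the half ball, same plane. -/
theorem near_of_flat (hV : Stat m k U V) (hm : 1 ≤ m) (hR : 0 < R)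
    (hU : Metric.closedBall x R ⊆ U) (hP : P ∈ G m k) {Q : ℕ} (h : pex m V P x R ≤ ω) {ε : ℝ}
    (hε : 65 * 2 ^ (m + 2) * ω ≤ ε)
    (hrat : rat m V x R ≤ (Q : ℝ≥0∞) + ENNReal.ofReal ε) :
    NearQ m V Q x (R / 2) ε P := by
  refine ⟨hP, ?_, (rat_mono hV hm (by positivity) (by linarith)
    (Metric.ball_subset_closedBall.trans hU)).trans hrat⟩
  have hfin2 : V (Metric.ball x (R / 2) ×ˢ univ) < ⊤ := by
    rw [prod_eq]
    exact fin_ball hV hU ((Metric.ball_subset_ball (by linarith)).trans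
      Metric.ball_subset_closedBall)
  have i1 : IntegrableOn (fun p => (R / 2) ^ 2 * tilt P p) (Metric.ball x (R / 2) ×ˢ univ) V :=
    Strat3_842.integrableOn_of_bdd hV.conc hfin2
      (continuous_const.mul (Strat3_842.continuous_tilt P))
  have i2 : IntegrableOn (fun p => height P x p) (Metric.ball x (R / 2) ×ˢ univ) V :=
    Strat3_842.integrableOn_of_bdd hV.conc hfin2 (Strat3_842.continuous_height P x)
  rw [integral_add i1 i2, integral_const_mul]
  have h1 := int_tilt_le hV hR hU hP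
  have h2 := pex_mono (P := P) (x := x) hV (by positivity : 0 < R / 2) (by linarith) hU
  rw [pex_eq (r := R / 2), ← mul_assoc, mul_inv_cancel₀ (by positivity), one_mul] at h2
  have h3 : 256 * R ^ m * pex m V P x R ≤ 256 * R ^ m * ω := by gcongr
  have h4 : R ^ (m + 2) * pex m V P x R ≤ R ^ (m + 2) * ω := by gcongr
  calc (R / 2) ^ 2 * ∫ p in Metric.ball x (R / 2) ×ˢ univ, tilt P p ∂V +
        ∫ p in Metric.ball x (R / 2) ×ˢ univ, height P x p ∂V
      ≤ (R / 2) ^ 2 * (256 * R ^ m * ω) + R ^ (m + 2) * ω := by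
        refine add_le_add (mul_le_mul_of_nonneg_left (h1.trans h3) (by positivity)) (h2.trans h4)
    _ = (65 * 2 ^ (m + 2) * ω) * (R / 2) ^ (m + 2) := by
        rw [div_pow R 2 (m + 2)]
        field_simp
        ring
    _ ≤ _ := by gcongr

theorem split_of_frame (h : Frame π ρ) : Cy_870.Split π ρ := ⟨h.coπ, h.coρ, h.full⟩

theorem norm_le_of_cyl (h : Frame π ρ) {A : ℝ} (hA : A ≤ 2) {y : Euc k}
    (hy : y ∈ Cy_870.cyl π ρ 0 A 1) : ‖y‖ < 3 := by
  have h1 := fr_norm_sq h y
  have h2 : ‖π y‖ ≤ A := by simpa using hy.1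
  have h3 : ‖ρ y‖ ≤ 1 := hy.2
  have h4 := norm_nonneg (π y)
  have h5 := norm_nonneg (ρ y)
  nlinarith [norm_nonneg y]

/-- the zoomed varifold in the unit cylinder is a stationary cylinder varifold. -/
theorem cylStat_zoom (hV : Stat m k U V) (hf : Frame π ρ) {t : ℝ} (ht : 0 < t)
    (hU : Metric.closedBall x (3 * t) ⊆ U) {A ε : ℝ} (hA : A ≤ 2) (hε : ε < 1)
    (hsup : ∀ᵐ p ∂V, p.1 ∈ Metric.ball x (4 * t) → ‖ρ (p.1 - x)‖ ≤ ε * t) :
    Cy_870.CylStat ((Vc_164.resc m x t V).restrict (Cy_870.cyl π ρ 0 A 1 ×ˢ univ)) π ρ 0 A ε := by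
  refine Cy_870.cylStat_of_stat (Vc_164.resc_stat x ht hV) (split_of_frame hf) hε one_pos ?_ ?_
  · intro y hy
    refine hU ?_
    rw [Metric.mem_closedBall, dist_eq_norm, add_sub_cancel_left, norm_smul,
      Real.norm_of_nonneg ht.le]
    have := norm_le_of_cyl hf hA hy
    nlinarith
  · have h1 : ∀ᵐ p ∂V, (Vc_164.hom x t p).1 ∈ Cy_870.cyl π ρ 0 A 1 →
        ‖ρ (Vc_164.hom x t p).1‖ ≤ ε := by
      filter_upwards [hsup] with p hp hcyl
      have h2 : (Vc_164.hom x t p).1 = t⁻¹ • (p.1 - x) := rfl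
      have h3 := norm_le_of_cyl hf hA hcyl
      rw [h2, norm_smul, norm_inv, Real.norm_of_nonneg ht.le, inv_mul_lt_iff₀ ht] at h3
      have h4 := hp (by rw [Metric.mem_ball, dist_eq_norm]; linarith)
      rw [h2, map_smul, norm_smul, norm_inv, Real.norm_of_nonneg ht.le, inv_mul_le_iff₀ ht]
      linarith
    refine Measure.ae_smul_measure ?_ _
    rw [ae_map_iff (Vc_164.measurable_hom x t).aemeasurable]
    · exact h1
    · have hcl : IsClosed (Cy_870.cyl π ρ (0 : Euc m) A 1) := Cy_870.isClosed_cyl π ρ 0 A 1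
      have e1 : {p : Euc k × L k | p.1 ∈ Cy_870.cyl π ρ 0 A 1 → ‖ρ p.1‖ ≤ ε} =
          (Prod.fst ⁻¹' (Cy_870.cyl π ρ 0 A 1)ᶜ) ∪ {p | ‖ρ p.1‖ ≤ ε} := by
        ext p
        simp only [mem_ofPred_eq, mem_union, mem_preimage, mem_compl_iff]
        tauto
      rw [e1]
      refine (hcl.measurableSet.compl.preimage measurable_fst).union ?_
      exact (isClosed_le (by fun_prop) continuous_const).measurableSet

/-- mass bounds of the zoomed varifold. -/
theorem zoom_mass_le (hf : Frame π ρ) {t : ℝ} (ht : 0 < t) {A : ℝ} (hA : A ≤ 2) {Λ : ℝ≥0∞}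
    (hrat : rat m V x (3 * t) ≤ Λ) :
    ((Vc_164.resc m x t V).restrict (Cy_870.cyl π ρ 0 A 1 ×ˢ univ)) univ ≤
      Λ * ENNReal.ofReal (ome m * 3 ^ m) := by
  rw [Measure.restrict_apply_univ]
  have h1 : (Vc_164.resc m x t V) (Cy_870.cyl π ρ 0 A 1 ×ˢ univ) ≤
      (Vc_164.resc m x t V) (Metric.ball 0 3 ×ˢ univ) := by
    refine measure_mono (Set.prod_mono ?_ Subset.rfl)
    intro y hy
    rw [mem_ball_zero_iff]
    exact norm_le_of_cyl hf hA hy
  refine h1.trans ?_
  rw [Vc_164.resc_ball m x 0 ht, smul_zero, add_zero, mul_comm t 3, prod_eq]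
  unfold rat at hrat
  rw [ENNReal.div_le_iff_le_mul (Or.inl (by
    rw [ne_eq, ENNReal.ofReal_eq_zero, not_le]; exact den_pos m (by positivity)))
    (Or.inl ENNReal.ofReal_ne_top), mass_apply V measurableSet_ball] at hrat
  calc ENNReal.ofReal ((t ^ m)⁻¹) * V (Prod.fst ⁻¹' Metric.ball x (3 * t))
      ≤ ENNReal.ofReal ((t ^ m)⁻¹) * (Λ * ENNReal.ofReal (ome m * (3 * t) ^ m)) := by gcongr
    _ = Λ * (ENNReal.ofReal ((t ^ m)⁻¹) * ENNReal.ofReal (ome m * (3 * t) ^ m)) := by ring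
    _ = _ := by
      rw [← ENNReal.ofReal_mul (by positivity)]
      congr 2
      rw [mul_pow]
      field_simp

theorem le_zoom_mass (hV : Stat m k U V) (hm : 1 ≤ m) (hf : Frame π ρ) {t : ℝ} (ht : 0 < t)
    (hU : Metric.closedBall x (3 * t) ⊆ U) {A σ : ℝ} (hσ : 0 < σ) (hσ1 : σ ≤ 1) (hσA : σ ≤ A)
    {c : ℝ≥0∞} (hTh : c ≤ Th m V x) :
    c * ENNReal.ofReal (ome m * σ ^ m) ≤
      ((Vc_164.resc m x t V).restrict (Cy_870.cyl π ρ 0 A 1 ×ˢ univ))
        ((fun p => π p.1) ⁻¹' Metric.ball 0 σ) := by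
  have hmeas : MeasurableSet ((fun p : Euc k × L k => π p.1) ⁻¹' Metric.ball (0 : Euc m) σ) :=
    measurableSet_ball.preimage (by fun_prop)
  rw [Measure.restrict_apply hmeas]
  have h1 : Metric.ball (0 : Euc k) σ ×ˢ univ ⊆
      ((fun p : Euc k × L k => π p.1) ⁻¹' Metric.ball (0 : Euc m) σ) ∩
        Cy_870.cyl π ρ 0 A 1 ×ˢ univ := by
    rintro p ⟨hp, -⟩
    rw [mem_ball_zero_iff] at hp
    have h2 := fr_norm_p hf p.1
    have h3 := fr_norm_r hf p.1
    refine ⟨?_, ⟨?_, ?_⟩, mem_univ _⟩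
    · rw [mem_preimage, mem_ball_zero_iff]; linarith
    · rw [sub_zero]; linarith
    · linarith
  refine le_trans ?_ (measure_mono h1)
  rw [Vc_164.resc_ball m x 0 ht, smul_zero, add_zero, prod_eq]
  have hsub : Metric.ball x (t * σ) ⊆ U := by
    refine (Metric.ball_subset_ball ?_).trans (Metric.ball_subset_closedBall.trans hU)
    nlinarith
  have h2 := mul_le_mass hV hm (show 0 < t * σ by positivity) hsub hTh
  rw [mass_apply V measurableSet_ball] at h2
  calc c * ENNReal.ofReal (ome m * σ ^ m) = ENNReal.ofReal ((t ^ m)⁻¹) *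
        (c * ENNReal.ofReal (ome m * (t * σ) ^ m)) := by
        have e1 : ENNReal.ofReal ((t ^ m)⁻¹) * (c * ENNReal.ofReal (ome m * (t * σ) ^ m)) =
          c * (ENNReal.ofReal ((t ^ m)⁻¹) * ENNReal.ofReal (ome m * (t * σ) ^ m)) := by ring
        rw [e1, ← ENNReal.ofReal_mul (by positivity)]
        congr 2
        rw [mul_pow]
        field_simp
    _ ≤ _ := by gcongr

/-- two planes near which `V` is (tilt) at the same scale. -/
theorem plane_close (hV : Stat m k U V) (hm : 1 ≤ m) {P' : L k} (hP : P ∈ G m k)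
    (hP' : P' ∈ G m k) (hR : 0 < R) (hU : Metric.closedBall x R ⊆ U) (hTh : 1 ≤ Th m V x)
    {a b : ℝ} (h1 : ∫ p in Metric.ball x R ×ˢ univ, tilt P p ∂V ≤ a * R ^ m)
    (h2 : ∫ p in Metric.ball x R ×ˢ univ, tilt P' p ∂V ≤ b * R ^ m) :
    ome m * ‖P - P'‖ ^ 2 ≤ 4 * (a + b) := by
  have hfin : V (Metric.ball x R ×ˢ univ) < ⊤ := by
    rw [prod_eq]; exact fin_ball hV hU Metric.ball_subset_closedBall
  have hpt : ∀ p : Euc k × L k, p.2 ∈ G m k → ‖P - P'‖ ^ 2 ≤ 4 * (tilt P p + tilt P' p) := by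
    intro p hp
    have e1 : ∀ {T : L k}, T ∈ G m k → ‖p.2 - T‖ ^ 2 ≤ 2 * tilt T p := by
      intro T hT
      have htr : Cacc_113.tr p.2 = Cacc_113.tr T := by
        have a1 := hp.2.2
        have a2 := hT.2.2
        rw [tr_apply] at a1 a2
        exact a1.trans a2.symm
      exact (Al7_182.isPr_of_G hp).norm_sub_sq_le (Al7_182.isPr_of_G hT) htr
    have h3 := e1 hP
    have h4 := e1 hP'
    have h5 : ‖P - P'‖ ≤ ‖p.2 - P‖ + ‖p.2 - P'‖ := by
      have : P - P' = (p.2 - P') - (p.2 - P) := by abel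
      rw [this]
      exact (norm_sub_le _ _).trans (by linarith)
    have h6 := norm_nonneg (P - P')
    nlinarith [sq_nonneg (‖p.2 - P‖ - ‖p.2 - P'‖)]
  have h3 : ∫ p in Metric.ball x R ×ˢ univ, ‖P - P'‖ ^ 2 ∂V ≤
      ∫ p in Metric.ball x R ×ˢ univ, 4 * (tilt P p + tilt P' p) ∂V := by
    refine setIntegral_mono_ae_restrict ?_ ?_ ?_
    · exact Strat3_842.integrableOn_of_bdd hV.conc hfin continuous_const
    · exact Strat3_842.integrableOn_of_bdd hV.conc hfin (continuous_const.mul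
        ((Strat3_842.continuous_tilt P).add (Strat3_842.continuous_tilt P')))
    · filter_upwards [ae_restrict_of_ae hV.conc] with p hp
      exact hpt p hp
  have i1 : IntegrableOn (fun p => tilt P p) (Metric.ball x R ×ˢ univ) V :=
    Strat3_842.integrableOn_of_bdd hV.conc hfin (Strat3_842.continuous_tilt P)
  have i2 : IntegrableOn (fun p => tilt P' p) (Metric.ball x R ×ˢ univ) V :=
    Strat3_842.integrableOn_of_bdd hV.conc hfin (Strat3_842.continuous_tilt P')
  rw [setIntegral_const, integral_const_mul, integral_add i1 i2, smul_eq_mul] at h3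
  have h4 : ome m * R ^ m ≤ V.real (Metric.ball x R ×ˢ univ) := by
    have h5 := mul_le_mass hV hm hR (Metric.ball_subset_closedBall.trans hU) hTh
    rw [one_mul, mass_apply V measurableSet_ball, ← prod_eq] at h5
    have h6 := ENNReal.toReal_mono hfin.ne h5
    rwa [ENNReal.toReal_ofReal (den_pos m hR).le] at h6
  have h5 : ome m * R ^ m * ‖P - P'‖ ^ 2 ≤ 4 * (a + b) * R ^ m := by
    have := mul_le_mul_of_nonneg_right h4 (sq_nonneg ‖P - P'‖)
    linarith
  have h6 : 0 < R ^ m := by positivity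
  have h7 : ome m * R ^ m * ‖P - P'‖ ^ 2 = ome m * ‖P - P'‖ ^ 2 * R ^ m := by ring
  rw [h7] at h5
  exact le_of_mul_le_mul_right h5 h6

end Crest.Agent.R234.Top_395
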