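import Crest.Agent.R234.Ar4_870

/-!
# Row 234, F3-TV, part 1 (helper618)

Area formula with multiplicities for a nonlinear base projection `x : Euc k → Euc m` which is
differentiable on a Borel set `W`, for the part of an integral varifold in `W`:
`∫_(W × L) g (x z) J dV = ∫ N g dv`, `J = √det (dx P dx†)`, `N` integer valued.
-/

set_option autoImplicit false

open MeasureTheory Set Function
open Crest.GeometryTopology.Submanifold
open Crest.Agent.R234.Vf_884 Crest.Agent.R234.Ar_870
open scoped ENNReal NNReal InnerProductSpace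

noncomputable section

namespace Crest.Agent.R234.Tv_618

section Abs

variable {E : Type*} [NormedAddCommGroup E] [NormedSpace ℝ E] [FiniteDimensional ℝ E]
  [MeasurableSpace E] [BorelSpace E]

omit [FiniteDimensional ℝ E] in
theorem measurableSet_noncrit {F' : E → E →L[ℝ] E} {s : Set E} (hs : MeasurableSet s)
    (hF' : ContinuousOn F' s) : MeasurableSet (s ∩ {x | (F' x).det ≠ 0}) := by
  have h1 : ContinuousOn (fun x => (F' x).det) s := ContinuousLinearMap.continuous_det.comp_continuousOn hF'
  obtain ⟨u, hu, hus⟩ := (continuousOn_iff'.1 h1) {y : ℝ | y ≠ 0} isOpen_ne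
  have h2 : s ∩ {x | (F' x).det ≠ 0} = u ∩ s := by
    rw [← hus, inter_comm]
    rfl
  rw [h2]
  exact hu.measurableSet.inter hs

/-- the noncritical part of a Borel set is a countable disjoint union of Borel sets of injectivity -/
theorem exists_pieces {F : E → E} {F' : E → E →L[ℝ] E} {s : Set E} (hs : MeasurableSet s)
    (hF : ∀ x ∈ s, HasFDerivWithinAt F (F' x) s x) (hF' : ContinuousOn F' s) :
    ∃ A : ℕ → Set E, Pairwise (Disjoint on A) ∧ (∀ n, MeasurableSet (A n)) ∧
      (⋃ n, A n) = s ∩ {x | (F' x).det ≠ 0} ∧ ∀ n, InjOn F (A n) := by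
  classical
  set s' := s ∩ {x | (F' x).det ≠ 0} with hs'def
  have hs' : MeasurableSet s' := measurableSet_noncrit hs hF'
  rcases subsingleton_or_nontrivial E with hE | hE
  · refine ⟨fun n => if n = 0 then s' else ∅, ?_, ?_, ?_, ?_⟩
    · intro i j hij
      simp only [Function.onFun]
      by_cases hi : i = 0
      · have hj : j ≠ 0 := fun h => hij (hi.trans h.symm)
        simp [hj]
      · simp [hi]
    · intro n
      by_cases hn : n = 0
      · simp only [hn, if_true]; exact hs'
      · simp only [hn, if_false]; exact MeasurableSet.empty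
    · ext x
      simp only [mem_iUnion]
      constructor
      · rintro ⟨n, hn⟩
        by_cases h : n = 0
        · simpa [h] using hn
        · simp [h] at hn
      · intro hx
        exact ⟨0, by simpa using hx⟩
    · intro n
      exact fun a _ b _ _ => Subsingleton.elim a b
  · let r : (E →L[ℝ] E) → ℝ≥0 := fun A =>
      if h : A.det ≠ 0 then
        ‖((A.toContinuousLinearEquivOfDetNeZero h).symm : E →L[ℝ] E)‖₊⁻¹ / 2 else 1
    have rpos : ∀ A, r A ≠ 0 := by
      intro A
      by_cases h : A.det ≠ 0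
      · simp only [r, dif_pos h]
        have : ‖((A.toContinuousLinearEquivOfDetNeZero h).symm : E →L[ℝ] E)‖₊ ≠ 0 := by
          rw [Ne, nnnorm_eq_zero]
          intro h0
          obtain ⟨v, hv⟩ := exists_ne (0 : E)
          apply hv
          have h1 : (A.toContinuousLinearEquivOfDetNeZero h).symm
              ((A.toContinuousLinearEquivOfDetNeZero h) v) = v :=
            (A.toContinuousLinearEquivOfDetNeZero h).symm_apply_apply v
          have h2 : ((A.toContinuousLinearEquivOfDetNeZero h).symm : E →L[ℝ] E)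
              ((A.toContinuousLinearEquivOfDetNeZero h) v) = 0 := by rw [h0]; rfl
          rw [← h1]
          exact h2
        positivity
      · simp only [r, dif_neg h]; exact one_ne_zero
    obtain ⟨t, A, td, tm, st, ta, tA⟩ :=
      exists_partition_approximatesLinearOn_of_hasFDerivWithinAt F s' F'
        (fun x hx => (hF x hx.1).mono inter_subset_left) r rpos
    refine ⟨fun n => s' ∩ t n, ?_, fun n => hs'.inter (tm n), ?_, ?_⟩
    · intro i j hij
      exact (td hij).mono inter_subset_right inter_subset_right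
    · rw [← inter_iUnion]
      exact inter_eq_left.2 st
    · intro n
      rcases eq_empty_or_nonempty s' with h0 | h0
      · simp [h0]
      · obtain ⟨y, hy, hAy⟩ := tA h0 n
        have hdet : (A n).det ≠ 0 := by rw [hAy]; exact hy.2
        have happ := ta n
        have hr : r (A n) = ‖(((A n).toContinuousLinearEquivOfDetNeZero hdet).symm : E →L[ℝ] E)‖₊⁻¹ / 2 := by
          simp only [r, dif_pos hdet]
        have hlt : r (A n) <
            ‖(((A n).toContinuousLinearEquivOfDetNeZero hdet).symm : E →L[ℝ] E)‖₊⁻¹ := by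
          have h1 := rpos (A n)
          rw [hr] at h1 ⊢
          refine half_lt_self ?_
          rw [pos_iff_ne_zero]
          intro h2
          apply h1
          rw [h2, zero_div]
        have hcoe : (((A n).toContinuousLinearEquivOfDetNeZero hdet) : E →L[ℝ] E) = A n :=
          (A n).coe_toContinuousLinearEquivOfDetNeZero hdet
        have happ' : ApproximatesLinearOn F
            (((A n).toContinuousLinearEquivOfDetNeZero hdet) : E →L[ℝ] E) (s' ∩ t n) (r (A n)) := by
          rw [hcoe]; exact happ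
        exact happ'.injOn (Or.inr hlt)

/-- functions which are countable sums of integers on Borel sets -/
def IsCount (N : E → ℝ≥0∞) : Prop :=
  ∃ (B : ℕ → Set E) (q : ℕ → ℕ), (∀ j, MeasurableSet (B j)) ∧
    N = fun v => ∑' j, (B j).indicator (fun _ => (q j : ℝ≥0∞)) v

omit [NormedAddCommGroup E] [NormedSpace ℝ E] [FiniteDimensional ℝ E] [BorelSpace E] in
theorem IsCount.measurable {N : E → ℝ≥0∞} (h : IsCount N) : Measurable N := by
  obtain ⟨B, q, hB, rfl⟩ := h
  exact Measurable.tsum fun j => measurable_const.indicator (hB j)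

omit [NormedAddCommGroup E] [NormedSpace ℝ E] [FiniteDimensional ℝ E] [BorelSpace E] in
theorem IsCount.nat {N : E → ℝ≥0∞} (h : IsCount N) {x : E} (hx : N x ≠ ⊤) :
    ∃ n : ℕ, N x = n := by
  classical
  obtain ⟨B, q, hB, rfl⟩ := h
  simp only at hx ⊢
  set f : ℕ → ℝ≥0∞ := fun j => (B j).indicator (fun _ => (q j : ℝ≥0∞)) x with hf
  have hnat : ∀ j, ∃ n : ℕ, f j = n := by
    intro j
    by_cases h : x ∈ B j
    · exact ⟨q j, by simp only [hf]; rw [Set.indicator_of_mem h]⟩
    · exact ⟨0, by simp only [hf]; rw [Set.indicator_of_notMem h]; simp⟩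
  choose c hc using hnat
  have hfin : (support f).Finite := by
    have h1 := ENNReal.finite_const_le_of_tsum_ne_top hx (ε := 1) one_ne_zero
    refine h1.subset fun j hj => ?_
    rw [mem_support] at hj
    change 1 ≤ f j
    rw [hc j] at hj ⊢
    have : c j ≠ 0 := by
      intro h0
      rw [h0] at hj
      simp at hj
    exact_mod_cast Nat.one_le_iff_ne_zero.2 this
  refine ⟨∑ j ∈ hfin.toFinset, c j, ?_⟩
  rw [tsum_eq_sum (s := hfin.toFinset)]
  · push_cast
    exact Finset.sum_congr rfl fun j _ => hc j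
  · intro j hj
    by_contra h
    exact hj (hfin.mem_toFinset.2 h)

omit [NormedAddCommGroup E] [NormedSpace ℝ E] [FiniteDimensional ℝ E] [BorelSpace E] in
theorem IsCount.tsum {N : ℕ → E → ℝ≥0∞} (h : ∀ i, IsCount (N i)) :
    IsCount fun v => ∑' i, N i v := by
  choose B q hB hN using h
  refine ⟨fun j => B j.unpair.1 j.unpair.2, fun j => q j.unpair.1 j.unpair.2, fun j => hB _ _, ?_⟩
  funext v
  have h7 : ∀ F : ℕ → ℕ → ℝ≥0∞, ∑' i, ∑' j, F i j = ∑' j : ℕ, F j.unpair.1 j.unpair.2 := by
    intro F
    rw [← ENNReal.tsum_prod]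
    exact (Nat.pairEquiv.symm.tsum_eq (fun p : ℕ × ℕ => F p.1 p.2)).symm
  have h8 := h7 fun i j => (B i j).indicator (fun _ => (q i j : ℝ≥0∞)) v
  rw [← h8]
  exact tsum_congr fun i => by rw [hN i]

variable (μ : Measure E) [μ.IsAddHaarMeasure]

/-- **area formula with multiplicity** -/
theorem exists_count {F : E → E} {F' : E → E →L[ℝ] E} {s : Set E} (hs : MeasurableSet s)
    (hF : ∀ x ∈ s, HasFDerivWithinAt F (F' x) s x) (hF' : ContinuousOn F' s) {mult : E → ℕ}
    (hmult : Measurable mult) :
    ∃ N : E → ℝ≥0∞, IsCount N ∧ ∀ g : E → ℝ≥0∞, Measurable g →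
      ∫⁻ a in s, ENNReal.ofReal |(F' a).det| * ((mult a : ℝ≥0∞) * g (F a)) ∂μ =
        ∫⁻ v, N v * g v ∂μ := by
  obtain ⟨A', hdis', hmeas', hU', hinj'⟩ := exists_pieces hs hF hF'
  set A : ℕ → Set E := fun j => A' j.unpair.1 ∩ mult ⁻¹' {j.unpair.2} with hA
  have hAm : ∀ j, MeasurableSet (A j) := fun j =>
    (hmeas' _).inter (hmult (measurableSet_singleton _))
  have hAinj : ∀ j, InjOn F (A j) := fun j => (hinj' _).mono inter_subset_left
  have hAdis : Pairwise (Disjoint on A) := by
    intro i j hij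
    simp only [Function.onFun]
    rw [Set.disjoint_left]
    intro a hi hj
    apply hij
    have h1 : i.unpair.1 = j.unpair.1 := by
      by_contra hne
      exact Set.disjoint_left.1 (hdis' hne) hi.1 hj.1
    have h2 : i.unpair.2 = j.unpair.2 := by
      have e1 : mult a = i.unpair.2 := hi.2
      have e2 : mult a = j.unpair.2 := hj.2
      rw [← e1, e2]
    have h3 : i.unpair = j.unpair := Prod.ext h1 h2
    rw [← Nat.pair_unpair i, ← Nat.pair_unpair j, h3]
  have hAU : (⋃ j, A j) = s ∩ {x | (F' x).det ≠ 0} := by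
    rw [← hU']
    ext a
    simp only [mem_iUnion]
    constructor
    · rintro ⟨j, hj⟩; exact ⟨_, hj.1⟩
    · rintro ⟨n, hn⟩
      refine ⟨Nat.pair n (mult a), ?_⟩
      simp only [hA, Nat.unpair_pair]
      exact ⟨hn, rfl⟩
  have hAs : ∀ j, A j ⊆ s := fun j a ha => by
    have h1 : a ∈ ⋃ j, A j := mem_iUnion.2 ⟨j, ha⟩
    rw [hAU] at h1
    exact h1.1
  have hFA : ∀ j, ∀ a ∈ A j, HasFDerivWithinAt F (F' a) (A j) a := fun j a ha =>
    (hF a (hAs j ha)).mono (hAs j)
  refine ⟨fun v => ∑' j, (F '' A j).indicator (fun _ => ((j.unpair.2 : ℕ) : ℝ≥0∞)) v,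
    ⟨fun j => F '' A j, fun j => j.unpair.2, fun j => ?_, rfl⟩, fun g hg => ?_⟩
  · exact measurable_image_of_fderivWithin (hAm j) (hFA j) (hAinj j)
  · have h1 : ∫⁻ a in s, ENNReal.ofReal |(F' a).det| * ((mult a : ℝ≥0∞) * g (F a)) ∂μ =
        ∫⁻ a in ⋃ j, A j, ENNReal.ofReal |(F' a).det| * ((mult a : ℝ≥0∞) * g (F a)) ∂μ := by
      have hmn := measurableSet_noncrit hs hF'
      have hsp := lintegral_inter_add_sdiff (μ := μ)
        (fun a => ENNReal.ofReal |(F' a).det| * ((mult a : ℝ≥0∞) * g (F a))) s hmn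
      have e1 : s ∩ (s ∩ {x | (F' x).det ≠ 0}) = s ∩ {x | (F' x).det ≠ 0} := by
        rw [← inter_assoc, inter_self]
      rw [hAU, ← hsp, e1]
      have h2 : ∫⁻ a in s \ (s ∩ {x | (F' x).det ≠ 0}),
          ENNReal.ofReal |(F' a).det| * ((mult a : ℝ≥0∞) * g (F a)) ∂μ = 0 := by
        rw [setLIntegral_congr_fun (g := fun _ => 0) (hs.diff hmn)]
        · simp
        · intro a ha
          have : (F' a).det = 0 := by
            by_contra hne
            exact ha.2 ⟨ha.1, hne⟩
          simp [this]
      rw [h2, add_zero]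
    rw [h1, lintegral_iUnion hAm hAdis]
    have hts : ∫⁻ v, (∑' j, (F '' A j).indicator (fun _ => ((j.unpair.2 : ℕ) : ℝ≥0∞)) v) * g v ∂μ =
        ∑' j, ∫⁻ v, (F '' A j).indicator (fun _ => ((j.unpair.2 : ℕ) : ℝ≥0∞)) v * g v ∂μ := by
      simp_rw [← ENNReal.tsum_mul_right]
      exact lintegral_tsum fun j => ((measurable_const.indicator
        (measurable_image_of_fderivWithin (hAm j) (hFA j) (hAinj j))).mul hg).aemeasurable
    rw [hts]
    refine tsum_congr fun j => ?_
    have h3 := lintegral_image_eq_lintegral_abs_det_fderiv_mul μ (hAm j) (hFA j) (hAinj j)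
      (fun v => ((j.unpair.2 : ℕ) : ℝ≥0∞) * g v)
    have h4 : ∫⁻ v, (F '' A j).indicator (fun _ => ((j.unpair.2 : ℕ) : ℝ≥0∞)) v * g v ∂μ =
        ∫⁻ v in F '' A j, ((j.unpair.2 : ℕ) : ℝ≥0∞) * g v ∂μ := by
      rw [← lintegral_indicator (measurable_image_of_fderivWithin (hAm j) (hFA j) (hAinj j))]
      refine lintegral_congr fun v => ?_
      by_cases hv : v ∈ F '' A j
      · rw [Set.indicator_of_mem hv, Set.indicator_of_mem hv]
      · rw [Set.indicator_of_notMem hv, Set.indicator_of_notMem hv, zero_mul]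
    rw [h4, h3]
    refine setLIntegral_congr_fun (hAm j) fun a ha => ?_
    have : mult a = j.unpair.2 := ha.2
    simp only [this]

end Abs

variable {m k : ℕ}

theorem continuous_Jh₂ : Continuous fun q : (Euc k →L[ℝ] Euc m) × L k => Jh q.1 q.2 := by
  unfold Jh Jq
  refine Continuous.sqrt ?_
  refine ContinuousLinearMap.continuous_det.comp ?_
  exact continuous_fst.clm_comp (continuous_snd.clm_comp
    (ContinuousLinearMap.adjoint.continuous.comp continuous_fst))

variable {U : Set (Euc k)} {D : VarifoldData m k}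

/-- **area formula for a nonlinear base projection** -/
theorem exists_N (hD : IsIntegralVarifoldIn U D) {W : Set (Euc k)} (hW : MeasurableSet W)
    {x : Euc k → Euc m} {dx : Euc k → Euc k →L[ℝ] Euc m}
    (hx : ∀ z ∈ W, HasFDerivAt x (dx z) z) (hdx : ContinuousOn dx W) :
    ∃ N : Euc m → ℝ≥0∞, IsCount N ∧ ∀ g : Euc m → ℝ≥0∞, Measurable g →
      ∫⁻ p in W ×ˢ univ, ENNReal.ofReal (Jh (dx p.1) p.2) * g (x p.1) ∂(VD D) =
        ∫⁻ v, N v * g v := by
  classical
  set s : ℕ → Set (Euc m) := fun i => D.dom i ∩ (D.chart i) ⁻¹' W with hs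
  have hsm : ∀ i, MeasurableSet (s i) := fun i =>
    (hD.measurableSet i).inter ((hD.contDiff i).continuous.measurable hW)
  have hF : ∀ i, ∀ a ∈ s i, HasFDerivWithinAt (fun a => x (D.chart i a))
      (dx (D.chart i a) ∘L fderiv ℝ (D.chart i) a) (s i) a := by
    intro i a ha
    exact ((hx _ ha.2).comp a (((hD.contDiff i).differentiable one_ne_zero) a).hasFDerivAt).hasFDerivWithinAt
  have hF' : ∀ i, ContinuousOn (fun a => dx (D.chart i a) ∘L fderiv ℝ (D.chart i) a) (s i) := by
    intro i
    refine ContinuousOn.clm_comp ?_ ((hD.contDiff i).continuous_fderiv one_ne_zero).continuousOn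
    exact hdx.comp (hD.contDiff i).continuous.continuousOn fun a ha => ha.2
  choose N hN hNg using fun i => exists_count (volume : Measure (Euc m)) (hsm i) (hF i) (hF' i)
    (hD.measurable_mult i)
  refine ⟨fun v => ∑' i, N i v, IsCount.tsum hN, fun g hg => ?_⟩
  have hxc : ContinuousOn x W := fun z hz => (hx z hz).continuousAt.continuousWithinAt
  set x' : Euc k → Euc m := W.piecewise x 0 with hx'
  set dx' : Euc k → Euc k →L[ℝ] Euc m := W.piecewise dx 0 with hdx'
  have hx'm : Measurable x' := hxc.measurable_piecewise continuousOn_const hW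
  have hdx'm : Measurable dx' := hdx.measurable_piecewise continuousOn_const hW
  have hWm : MeasurableSet (W ×ˢ (univ : Set (L k))) := hW.prod MeasurableSet.univ
  set G : Euc k × L k → ℝ≥0∞ := (W ×ˢ univ).indicator
    (fun p => ENNReal.ofReal (Jh (dx' p.1) p.2) * g (x' p.1)) with hG
  have hGm : Measurable G := by
    refine Measurable.indicator ?_ hWm
    refine Measurable.mul ?_ (hg.comp (hx'm.comp measurable_fst))
    refine Measurable.ennreal_ofReal ?_
    exact continuous_Jh₂.measurable.comp ((hdx'm.comp measurable_fst).prodMk measurable_snd)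
  have e1 : ∫⁻ p in W ×ˢ univ, ENNReal.ofReal (Jh (dx p.1) p.2) * g (x p.1) ∂(VD D) =
      ∫⁻ p, G p ∂(VD D) := by
    rw [← lintegral_indicator hWm]
    refine lintegral_congr fun p => ?_
    by_cases hp : p ∈ W ×ˢ (univ : Set (L k))
    · simp only [hG]
      rw [Set.indicator_of_mem hp, Set.indicator_of_mem hp, hx', hdx',
        Set.piecewise_eq_of_mem _ _ _ hp.1, Set.piecewise_eq_of_mem _ _ _ hp.1]
    · simp only [hG]
      rw [Set.indicator_of_notMem hp, Set.indicator_of_notMem hp]
  rw [e1, lintegral_VD hD hGm]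
  have e2 : ∫⁻ v, (∑' i, N i v) * g v = ∑' i, ∫⁻ v, N i v * g v := by
    simp_rw [← ENNReal.tsum_mul_right]
    exact lintegral_tsum fun i => ((hN i).measurable.mul hg).aemeasurable
  rw [e2]
  refine tsum_congr fun i => ?_
  rw [← hNg i g hg]
  have e3 : ∫⁻ a in D.dom i, ENNReal.ofReal ((D.mult i a : ℝ) * jac (D.chart i) a) *
      G (lift D i a) = ∫⁻ a in D.dom i, (s i).indicator (fun a =>
        ENNReal.ofReal |(dx (D.chart i a) ∘L fderiv ℝ (D.chart i) a).det| *
          ((D.mult i a : ℝ≥0∞) * g (x (D.chart i a)))) a := by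
    refine setLIntegral_congr_fun (hD.measurableSet i) fun a ha => ?_
    simp only
    by_cases haW : D.chart i a ∈ W
    · have h1 : a ∈ s i := ⟨ha, haW⟩
      have h2 : lift D i a ∈ W ×ˢ (univ : Set (L k)) := ⟨haW, trivial⟩
      rw [Set.indicator_of_mem h1]
      simp only [hG]
      rw [Set.indicator_of_mem h2]
      have h3 : (lift D i a).1 = D.chart i a := rfl
      have h4 : (lift D i a).2 = tp (D.chart i) a := rfl
      have h7 : 0 ≤ jac (D.chart i) a := Real.sqrt_nonneg _
      rw [h3, h4, hx', hdx', Set.piecewise_eq_of_mem _ _ _ haW, Set.piecewise_eq_of_mem _ _ _ haW,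
        ← jac_mul_Jh (dx (D.chart i a)) (D.chart i) a (hD.injective_fderiv i a ha),
        ENNReal.ofReal_mul (Nat.cast_nonneg _), ENNReal.ofReal_mul h7,
        ENNReal.ofReal_natCast]
      ring
    · have h1 : a ∉ s i := fun h => haW h.2
      have h2 : lift D i a ∉ W ×ˢ (univ : Set (L k)) := fun h => haW h.1
      rw [Set.indicator_of_notMem h1]
      simp only [hG]
      rw [Set.indicator_of_notMem h2, mul_zero]
  rw [e3, lintegral_indicator (hsm i), Measure.restrict_restrict (hsm i)]
  have h5 : s i ∩ D.dom i = s i := inter_eq_left.2 inter_subset_left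
  rw [h5]

end Crest.Agent.R234.Tv_618
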