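import Crest.Agent.R234.Th5_164

/-!
# Row 234, F3-TV, part 3 (helper618)

Variant of 164's `TH1`, `cover`, `summed`: the lower order error measure `G` of the first variation is
dominated by the mass (`G ≤ g₀ μ`, `g₀` small), instead of the a priori bounds on all balls.
-/

set_option autoImplicit false

open Set Filter Topology MeasureTheory Metric
open scoped ENNReal NNReal ContDiff

noncomputable section

namespace Crest.Agent.R234.Tv_618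

open Crest.Agent.R234.Th_164

variable {d : ℕ}

/-- the first variation of an integral varifold tested with horizontal fields: `N` multiplicity function,
`μ` mass, `e` tilt energy, `es` energy of the steep part, `G` lower order errors. -/
structure Hyp (C₁ c₀ : ℝ) (R : Set (Eu d)) (N : Eu d → ℝ) (μ e es G : Measure (Eu d)) : Prop where
  isOpen : IsOpen R
  meas : Measurable N
  nonneg : ∀ y, 0 ≤ N y
  int : IntegrableOn N R
  nat : ∀ᵐ y ∂(volume.restrict R), ∃ n : ℕ, N y = n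
  fin : μ R ≠ ⊤
  tilt : ∀ S, MeasurableSet S → S ⊆ R → e S ≤ ENNReal.ofReal c₀ * μ S + es S
  mass : ∀ S, MeasurableSet S → S ⊆ R → μ S ≤ ENNReal.ofReal (∫ y in S, N y) + e S
  stat : ∀ X : Eu d → Eu d, ContDiff ℝ ∞ X → HasCompactSupport X → tsupport X ⊆ R →
    |∫ y in R, N y * divg X y| ≤ C₁ * (∫ y, ‖fderiv ℝ X y‖ ∂e) + ∫ y, ‖X y‖ ∂G

namespace Hyp

variable {C₁ c₀ : ℝ} {R : Set (Eu d)} {N : Eu d → ℝ} {μ e es G : Measure (Eu d)}

/-- tilt energy of a ball -/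
theorem e_le (H : Hyp C₁ c₀ R N μ e es G) (hc0 : 0 ≤ c₀) (hc : c₀ ≤ 1 / 2) {S : Set (Eu d)}
    (hS : MeasurableSet S) (hSR : S ⊆ R) {a b : ℝ} (ha : ∫ y in S, N y ≤ a) (hb : 0 ≤ b)
    (hes : es S ≤ ENNReal.ofReal b) : e S ≤ ENNReal.ofReal (2 * c₀ * a + 2 * b) := by
  have hμ : μ S ≠ ⊤ := ne_top_of_le_ne_top H.fin (measure_mono hSR)
  have h0 : 0 ≤ ∫ y in S, N y := integral_nonneg fun y => H.nonneg y
  have ha0 : 0 ≤ a := h0.trans ha
  have h1 := H.tilt S hS hSR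
  have hesf : es S ≠ ⊤ := ne_top_of_le_ne_top ENNReal.ofReal_ne_top hes
  have hef : e S ≠ ⊤ := ne_top_of_le_ne_top
    (ENNReal.add_ne_top.2 ⟨ENNReal.mul_ne_top ENNReal.ofReal_ne_top hμ, hesf⟩) h1
  have h2 := H.mass S hS hSR
  have h1' : (e S).toReal ≤ c₀ * (μ S).toReal + (es S).toReal := by
    have h := ENNReal.toReal_mono
      (ENNReal.add_ne_top.2 ⟨ENNReal.mul_ne_top ENNReal.ofReal_ne_top hμ, hesf⟩) h1
    rwa [ENNReal.toReal_add (ENNReal.mul_ne_top ENNReal.ofReal_ne_top hμ) hesf,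
      ENNReal.toReal_mul, ENNReal.toReal_ofReal hc0] at h
  have h2' : (μ S).toReal ≤ (∫ y in S, N y) + (e S).toReal := by
    have h := ENNReal.toReal_mono (ENNReal.add_ne_top.2 ⟨ENNReal.ofReal_ne_top, hef⟩) h2
    rwa [ENNReal.toReal_add ENNReal.ofReal_ne_top hef, ENNReal.toReal_ofReal h0] at h
  have h3 : (es S).toReal ≤ b := ENNReal.toReal_le_of_le_ofReal hb hes
  rw [← ENNReal.ofReal_toReal hef]
  refine ENNReal.ofReal_le_ofReal ?_
  have h4 : 0 ≤ (e S).toReal := ENNReal.toReal_nonneg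
  nlinarith

/-- mass of a ball -/
theorem μ_le (H : Hyp C₁ c₀ R N μ e es G) (hc0 : 0 ≤ c₀) (hc : c₀ ≤ 1 / 2) {S : Set (Eu d)}
    (hS : MeasurableSet S) (hSR : S ⊆ R) {a b : ℝ} (ha : ∫ y in S, N y ≤ a) (hb : 0 ≤ b)
    (hes : es S ≤ ENNReal.ofReal b) : μ S ≤ ENNReal.ofReal (2 * a + 2 * b) := by
  have h0 : 0 ≤ ∫ y in S, N y := integral_nonneg fun y => H.nonneg y
  have h1 := H.e_le hc0 hc hS hSR ha hb hes
  refine (H.mass S hS hSR).trans ?_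
  have ha0 : 0 ≤ a := h0.trans ha
  calc ENNReal.ofReal (∫ y in S, N y) + e S ≤ ENNReal.ofReal a + ENNReal.ofReal (2 * c₀ * a + 2 * b) :=
        add_le_add (ENNReal.ofReal_le_ofReal ha) h1
    _ = ENNReal.ofReal (a + (2 * c₀ * a + 2 * b)) := (ENNReal.ofReal_add ha0 (by positivity)).symm
    _ ≤ _ := ENNReal.ofReal_le_ofReal (by nlinarith)

/-- the strong constancy lemma at one scale -/
theorem constancy (H : Hyp C₁ c₀ R N μ e es G) {C : ℝ} (hSC : SC2 d C) (hC₁ : 0 ≤ C₁) {x : Eu d}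
    {r M δ : ℝ} (hr : 0 < r) (hδ : 0 ≤ δ) (hδM : δ ≤ M) (hR : ball x (4 * r) ⊆ R)
    (hA : ∫ y in ball x (4 * r), N y ≤ M)
    (hE : ENNReal.ofReal C₁ * e (ball x (4 * r)) ≤ ENNReal.ofReal δ)
    (hG : G (ball x (4 * r)) ≤ ENNReal.ofReal (δ / r)) :
    ∃ c : ℝ, ∀ S, MeasurableSet S → S ⊆ ball x r →
      |(∫ y in S, N y) - c * volume.real S| ≤ C * Real.sqrt (M * δ) := by
  set A : Measure (Eu d) := (volume.restrict R).withDensity fun y => ENNReal.ofReal (N y) with hAdef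
  have hAS : ∀ S, MeasurableSet S → S ⊆ R → A S = ENNReal.ofReal (∫ y in S, N y) := by
    intro S hS hSR
    rw [hAdef, withDensity_apply _ hS, Measure.restrict_restrict hS, inter_eq_left.2 hSR,
      ofReal_integral_eq_lintegral_ofReal (H.int.mono_set hSR)
        (Eventually.of_forall fun y => H.nonneg y)]
  have hAr : ∀ S, MeasurableSet S → S ⊆ R → A.real S = ∫ y in S, N y := by
    intro S hS hSR
    rw [measureReal_def, hAS S hS hSR, ENNReal.toReal_ofReal (integral_nonneg fun y => H.nonneg y)]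
  obtain ⟨c, hc⟩ := hSC A (ENNReal.ofReal C₁ • e) G x r M δ hr hδ hδM
    (by rw [hAS _ measurableSet_ball hR]; exact ENNReal.ofReal_le_ofReal hA)
    (by rw [Measure.smul_apply, smul_eq_mul]; exact hE) hG
    (by
      intro X hX hXc hXs
      have h1 : ∫ z, divg X z ∂A = ∫ y in R, N y * divg X y := by
        rw [hAdef, integral_withDensity_eq_integral_toReal_smul
          (H.meas.ennreal_ofReal) (Eventually.of_forall fun y => ENNReal.ofReal_lt_top)]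
        refine integral_congr_ae (Eventually.of_forall fun y => ?_)
        simp only [smul_eq_mul]
        rw [ENNReal.toReal_ofReal (H.nonneg y)]
      have h2 : ∫ z, ‖fderiv ℝ X z‖ ∂(ENNReal.ofReal C₁ • e) = C₁ * ∫ z, ‖fderiv ℝ X z‖ ∂e := by
        rw [integral_smul_measure, ENNReal.toReal_ofReal hC₁, smul_eq_mul]
      rw [h1, h2]
      exact H.stat X hX hXc (hXs.trans hR))
  refine ⟨c, fun S hS hSx => ?_⟩
  rw [← hAr S hS ((hSx.trans (ball_subset_ball (by linarith))).trans hR)]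
  exact hc S hS hSx

end Hyp

/-- small energy at all scales in `[s, ρ₀]` ==> `N` is close to `Q` at all these scales. -/
theorem TH1' {C : ℝ} (hSC : SC2 d C) (Q : ℕ) {C₁ : ℝ} (hC₁ : 0 ≤ C₁) {ε : ℝ} (hε : 0 < ε) (hε1 : ε ≤ 1)
    (hεω : ε * (1 + 4 ^ d) < om d) :
    ∃ g₁ : ℝ, 0 < g₁ ∧ ∃ δ₁ : ℝ, 0 < δ₁ ∧ δ₁ ≤ 1 ∧
      ∀ (g₀ : ℝ) (R : Set (Eu d)) (N : Eu d → ℝ) (μ e G : Measure (Eu d)),
        0 ≤ g₀ → g₀ ≤ g₁ → Hyp C₁ 0 R N μ e e G →
        (∀ S, MeasurableSet S → S ⊆ R → G S ≤ ENNReal.ofReal g₀ * μ S) →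
        ∀ (x : Eu d) (s ρ₀ : ℝ), ρ₀ ≤ 1 → ball x ρ₀ ⊆ R →
          ∫ y in ball x ρ₀, |N y - Q| ≤ ε * ρ₀ ^ d →
          (∀ ρ, 0 < ρ → s ≤ ρ → ρ ≤ ρ₀ → e (ball x ρ) ≤ ENNReal.ofReal (δ₁ * ρ ^ d)) →
          ∀ r, 0 < r → s ≤ r → r ≤ ρ₀ → ∫ y in ball x r, |N y - Q| ≤ 4 ^ d * ε * r ^ d := by
  set K : ℝ := Q * om d + 1 with hK
  have hom := om_pos d
  have hK1 : 1 ≤ K := by rw [hK]; nlinarith [Nat.cast_nonneg (α := ℝ) Q]
  set L : ℝ := ε / (4 ^ (d + 1) * (|C| + 1)) with hL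
  have hL0 : 0 < L := by positivity
  set δ₀ : ℝ := min K (L ^ 2 / K) with hδ₀
  have hδ0 : 0 < δ₀ := lt_min (by linarith) (by positivity)
  have hsq : Real.sqrt (K * δ₀) ≤ L := by
    rw [Real.sqrt_le_left hL0.le]
    calc K * δ₀ ≤ K * (L ^ 2 / K) := by gcongr; exact min_le_right _ _
      _ = L ^ 2 := by field_simp
  have hη : 4 ^ (d + 1) * (|C| * L) ≤ ε := by
    have h1 : 4 ^ (d + 1) * (|C| * L) = ε * (|C| / (|C| + 1)) := by
      rw [hL]; field_simp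
    rw [h1]
    have h2 : |C| / (|C| + 1) ≤ 1 := by
      rw [div_le_one (by positivity)]; linarith
    calc ε * (|C| / (|C| + 1)) ≤ ε * 1 := by gcongr
      _ = ε := mul_one _
  refine ⟨δ₀ / (K + 1), by positivity, min 1 (δ₀ / (8 * (C₁ + 1))), lt_min one_pos (by positivity),
    min_le_left _ _, ?_⟩
  intro g₀ R N μ e G hg0 hg01 H hlow x s ρ₀ hρ1 hR h0 hes r hr0 hsr hr
  set δ₁ : ℝ := min 1 (δ₀ / (8 * (C₁ + 1))) with hδ₁
  have hδ1 : 0 < δ₁ := lt_min one_pos (by positivity)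
  have hδ1' : δ₁ ≤ δ₀ / (8 * (C₁ + 1)) := min_le_right _ _
  have hδ11 : δ₁ ≤ 1 := min_le_left _ _
  refine chain (η := |C| * L) H.meas (H.int.mono_set hR)
    (ae_mono (Measure.restrict_mono hR le_rfl) H.nat) hε.le hε1 h0 hη hεω ?_ hr0 hsr hr
  intro ρ hρ0 hsρ hρ hN
  have h44 : 4 * (ρ / 4) = ρ := by ring
  have he1 := hes ρ hρ0 hsρ hρ
  have hRρ : ball x ρ ⊆ R := (ball_subset_ball hρ).trans hR
  have hpos : 0 < ρ ^ d := pow_pos hρ0 d
  have hμ := H.μ_le le_rfl (by norm_num) measurableSet_ball hRρ hN (by positivity) he1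
  obtain ⟨c, hc⟩ := H.constancy hSC hC₁ (x := x) (r := ρ / 4) (M := K * ρ ^ d) (δ := δ₀ * ρ ^ d)
    (by positivity) (by positivity) (by gcongr; exact min_le_left _ _) (by rw [h44]; exact hRρ)
    (by rw [h44]; exact hN)
    (by
      rw [h44]
      calc ENNReal.ofReal C₁ * e (ball x ρ)
          ≤ ENNReal.ofReal C₁ * ENNReal.ofReal (δ₁ * ρ ^ d) := by gcongr
        _ = ENNReal.ofReal (C₁ * (δ₁ * ρ ^ d)) := (ENNReal.ofReal_mul hC₁).symm
        _ ≤ ENNReal.ofReal (δ₀ * ρ ^ d) := by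
            refine ENNReal.ofReal_le_ofReal ?_
            have h1 : C₁ * δ₁ ≤ δ₀ := by
              calc C₁ * δ₁ ≤ C₁ * (δ₀ / (8 * (C₁ + 1))) := by gcongr
                _ = δ₀ * (C₁ / (8 * (C₁ + 1))) := by ring
                _ ≤ δ₀ * 1 := by
                    gcongr
                    rw [div_le_one (by positivity)]
                    linarith
                _ = δ₀ := mul_one _
            calc C₁ * (δ₁ * ρ ^ d) = C₁ * δ₁ * ρ ^ d := by ring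
              _ ≤ δ₀ * ρ ^ d := by gcongr)
    (by
      rw [h44]
      refine (hlow _ measurableSet_ball hRρ).trans ?_
      calc ENNReal.ofReal g₀ * μ (ball x ρ)
          ≤ ENNReal.ofReal g₀ * ENNReal.ofReal (2 * (K * ρ ^ d) + 2 * (δ₁ * ρ ^ d)) := by gcongr
        _ = ENNReal.ofReal (g₀ * (2 * (K * ρ ^ d) + 2 * (δ₁ * ρ ^ d))) :=
            (ENNReal.ofReal_mul hg0).symm
        _ ≤ _ := by
            refine ENNReal.ofReal_le_ofReal ?_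
            have h1 : g₀ * (2 * (K * ρ ^ d) + 2 * (δ₁ * ρ ^ d)) ≤ 2 * δ₀ * ρ ^ d := by
              calc g₀ * (2 * (K * ρ ^ d) + 2 * (δ₁ * ρ ^ d))
                  ≤ (δ₀ / (K + 1)) * (2 * (K * ρ ^ d) + 2 * (1 * ρ ^ d)) := by gcongr
                _ = 2 * δ₀ * ρ ^ d := by field_simp
            have h2 : ρ ≤ 1 := hρ.trans hρ1
            rw [le_div_iff₀ (by positivity)]
            have h3 : 0 ≤ δ₀ * ρ ^ d := by positivity
            nlinarith)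
  refine ⟨c, fun S hS hSx => (hc S hS hSx).trans ?_⟩
  have h5 : Real.sqrt (K * ρ ^ d * (δ₀ * ρ ^ d)) = Real.sqrt (K * δ₀) * ρ ^ d := by
    rw [show K * ρ ^ d * (δ₀ * ρ ^ d) = K * δ₀ * (ρ ^ d) ^ 2 by ring, Real.sqrt_mul (by positivity),
      Real.sqrt_sq hpos.le]
  rw [h5]
  calc C * (Real.sqrt (K * δ₀) * ρ ^ d) ≤ |C| * (L * ρ ^ d) := by
        gcongr
        exact le_abs_self C
    _ = |C| * L * ρ ^ d := by ring

/-- off the points with a bad radius the multiplicity is `Q`; at the bad points everything is controlled. -/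
theorem cover' {C : ℝ} (hSC : SC2 d C) (Q : ℕ) {C₁ : ℝ} (hC₁ : 0 ≤ C₁) {ε : ℝ} (hε : 0 < ε) (hε1 : ε ≤ 1)
    (hεω : ε * (1 + 4 ^ d) < om d) :
    ∃ g₁ : ℝ, 0 < g₁ ∧ ∃ δ₁ : ℝ, 0 < δ₁ ∧ δ₁ ≤ 1 ∧
      ∀ (g₀ : ℝ) (R : Set (Eu d)) (N : Eu d → ℝ) (μ e G : Measure (Eu d)),
        0 ≤ g₀ → g₀ ≤ g₁ → Hyp C₁ 0 R N μ e e G →
        (∀ S, MeasurableSet S → S ⊆ R → G S ≤ ENNReal.ofReal g₀ * μ S) →
        ∀ (B : Set (Eu d)) (ρ₀ : ℝ), 0 < ρ₀ → 8 * ρ₀ ≤ 1 → (∀ x ∈ B, ball x (8 * ρ₀) ⊆ R) →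
          (∀ x ∈ B, ∫ y in ball x (8 * ρ₀), |N y - Q| ≤ ε * ρ₀ ^ d) →
          (∀ x ∈ B, e (ball x (8 * ρ₀)) ≤ ENNReal.ofReal (δ₁ * ρ₀ ^ d)) →
          (∀ᵐ x, x ∈ B → x ∉ Bad δ₁ ρ₀ e B → N x = Q) ∧
          (∀ x ∈ Bad δ₁ ρ₀ e B, ∃ ρ, 0 < ρ ∧ ρ ≤ ρ₀ ∧ ENNReal.ofReal (δ₁ * ρ ^ d) < e (ball x ρ) ∧
            (∀ r, 3 * ρ ≤ r → r ≤ 8 * ρ₀ → e (ball x r) ≤ ENNReal.ofReal (δ₁ * r ^ d) ∧
              ∫ y in ball x r, |N y - Q| ≤ 4 ^ d * ε * r ^ d ∧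
              μ (ball x r) ≤ ENNReal.ofReal (2 * (Q * om d + 4 ^ d * ε + 1) * r ^ d))) := by
  obtain ⟨g₁, hg1, δ₁, hδ1, hδ1', hT⟩ := TH1' hSC Q hC₁ hε hε1 hεω
  refine ⟨g₁, hg1, δ₁, hδ1, hδ1', ?_⟩
  intro g₀ R N μ e G hg0 hg01 H hlow B ρ₀ hρ0 hρ1 hBR hQ hes
  -- good radii above `s`
  have key : ∀ x ∈ B, ∀ s : ℝ, (∀ ρ, 0 < ρ → s ≤ ρ → ρ ≤ ρ₀ → e (ball x ρ) ≤ ENNReal.ofReal (δ₁ * ρ ^ d)) →
      ∀ r, 0 < r → s ≤ r → r ≤ 8 * ρ₀ → e (ball x r) ≤ ENNReal.ofReal (δ₁ * r ^ d) ∧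
        ∫ y in ball x r, |N y - Q| ≤ 4 ^ d * ε * r ^ d := by
    intro x hx s hs
    have hes' : ∀ ρ, 0 < ρ → s ≤ ρ → ρ ≤ 8 * ρ₀ → e (ball x ρ) ≤ ENNReal.ofReal (δ₁ * ρ ^ d) := by
      intro ρ h1 h2 h3
      rcases le_or_gt ρ ρ₀ with h4 | h4
      · exact hs ρ h1 h2 h4
      · calc e (ball x ρ) ≤ e (ball x (8 * ρ₀)) := measure_mono (ball_subset_ball h3)
          _ ≤ ENNReal.ofReal (δ₁ * ρ₀ ^ d) := hes x hx
          _ ≤ ENNReal.ofReal (δ₁ * ρ ^ d) := ENNReal.ofReal_le_ofReal (by gcongr)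
    intro r hr0 hsr hr
    refine ⟨hes' r hr0 hsr hr, ?_⟩
    refine hT g₀ R N μ e G hg0 hg01 H hlow x s (8 * ρ₀) hρ1 (hBR x hx) ((hQ x hx).trans ?_)
      (fun ρ h1 h2 h3 => hes' ρ h1 h2 h3) r hr0 hsr hr
    gcongr
    linarith
  refine ⟨?_, ?_⟩
  · have h1 : ∀ᵐ x, x ∈ {x | x ∈ B ∧ x ∉ Bad δ₁ ρ₀ e B} → N x = Q := by
      refine eq_of_averages (ε := 4 ^ d * ε) H.isOpen H.int (by nlinarith)
        (fun x hx => hBR x hx.1 (mem_ball_self (by positivity))) H.nat ?_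
      intro x hx
      refine Eventually.frequently ?_
      filter_upwards [Ioo_mem_nhdsGT (show (0 : ℝ) < ρ₀ from hρ0)] with r hr
      refine (key x hx.1 0 ?_ r hr.1 hr.1.le (by linarith [hr.2, hr.1])).2
      intro ρ h1 _ h3
      by_contra hcon
      rw [not_le] at hcon
      exact hx.2 ⟨hx.1, ρ, h1, h3, hcon⟩
    filter_upwards [h1] with x hx h2 h3
    exact hx ⟨h2, h3⟩
  · intro x hx
    obtain ⟨ρ, h1, h2, h3, h4⟩ := exists_radius hx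
    refine ⟨ρ, h1, h2, h3, fun r hr1 hr2 => ?_⟩
    have hr0 : 0 < r := by linarith
    obtain ⟨k1, k2⟩ := key x hx.1 (3 * ρ) (fun ρ' h5 h6 h7 => h4 ρ' (by linarith) h7) r hr0 hr1 hr2
    refine ⟨k1, k2, ?_⟩
    have hRr : ball x r ⊆ R := (ball_subset_ball hr2).trans (hBR x hx.1)
    have hN := integral_N_le (Q := Q) hr0 (H.int.mono_set hRr) k2
    have hμ := H.μ_le le_rfl (by norm_num) measurableSet_ball hRr hN (by positivity) k1
    refine hμ.trans (ENNReal.ofReal_le_ofReal ?_)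
    have h5 : δ₁ * r ^ d ≤ 1 * r ^ d := by gcongr
    calc 2 * ((Q * om d + 4 ^ d * ε) * r ^ d) + 2 * (δ₁ * r ^ d)
        ≤ 2 * ((Q * om d + 4 ^ d * ε) * r ^ d) + 2 * (1 * r ^ d) := by linarith
      _ = 2 * (Q * om d + 4 ^ d * ε + 1) * r ^ d := by ring

/-- **summed form**, on subsets, with the top radius `r` of the bad balls -/
theorem summed2 {C : ℝ} (hSC : SC2 d C) (Q : ℕ) {C₁ : ℝ} (hC₁ : 0 ≤ C₁) {ε : ℝ} (hε : 0 < ε) (hε1 : ε ≤ 1)
    (hεω : ε * (1 + 4 ^ d) < om d) :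
    ∃ g₁ : ℝ, 0 < g₁ ∧ ∃ δ₁ : ℝ, 0 < δ₁ ∧ δ₁ ≤ 1 ∧
      ∀ (g₀ : ℝ) (R : Set (Eu d)) (N : Eu d → ℝ) (μ e G : Measure (Eu d)),
        0 ≤ g₀ → g₀ ≤ g₁ → Hyp C₁ 0 R N μ e e G →
        (∀ S, MeasurableSet S → S ⊆ R → G S ≤ ENNReal.ofReal g₀ * μ S) →
        ∀ (B : Set (Eu d)) (ρ₀ : ℝ), 0 < ρ₀ → 8 * ρ₀ ≤ 1 → (∀ x ∈ B, ball x (8 * ρ₀) ⊆ R) →
          (∀ x ∈ B, ∫ y in ball x (8 * ρ₀), |N y - Q| ≤ ε * ρ₀ ^ d) →
          (∀ x ∈ B, e (ball x (8 * ρ₀)) ≤ ENNReal.ofReal (δ₁ * ρ₀ ^ d)) →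
          ∀ (B' : Set (Eu d)) (r : ℝ), MeasurableSet B' → B' ⊆ B → 0 < r → r ≤ ρ₀ →
            (∀ x ∈ B, e (ball x ρ₀) ≤ ENNReal.ofReal (δ₁ * r ^ d)) →
            ∫⁻ y in B', ENNReal.ofReal |N y - Q| ≤
              ENNReal.ofReal (6 ^ d * (4 ^ d * ε) / δ₁) * e (⋃ x ∈ B', closedBall x r) := by
  obtain ⟨g₁, hg1, δ₁, hδ1, hδ1', hT⟩ := cover' hSC Q hC₁ hε hε1 hεω
  refine ⟨g₁, hg1, δ₁, hδ1, hδ1', ?_⟩
  intro g₀ R N μ e G hg0 hg01 H hlow B ρ₀ hρ0 hρ1 hBR hQ hes B' r hB' hB'B hr0 hrρ hr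
  have hom := om_pos d
  obtain ⟨h1, h2⟩ := hT g₀ R N μ e G hg0 hg01 H hlow B ρ₀ hρ0 hρ1 hBR hQ hes
  have hQn : (0 : ℝ) ≤ Q := Nat.cast_nonneg Q
  -- bad radii are `≤ r`
  have hbr : ∀ x ∈ B, ∀ ρ, 0 < ρ → ρ ≤ ρ₀ → ENNReal.ofReal (δ₁ * ρ ^ d) < e (ball x ρ) → ρ ≤ r := by
    intro x hx ρ hρ hρ' hlt
    by_contra hcon
    rw [not_le] at hcon
    have h3 : e (ball x ρ) ≤ ENNReal.ofReal (δ₁ * r ^ d) :=
      (measure_mono (ball_subset_ball hρ')).trans (hr x hx)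
    have h4 : ENNReal.ofReal (δ₁ * r ^ d) ≤ ENNReal.ofReal (δ₁ * ρ ^ d) :=
      ENNReal.ofReal_le_ofReal (by gcongr)
    exact absurd (hlt.trans_le (h3.trans h4)) (lt_irrefl _)
  set ν : Measure (Eu d) := (volume.restrict R).withDensity fun y => ENNReal.ofReal |N y - Q| with hν
  have h3 : ν (Bad δ₁ r e B') ≤
      ENNReal.ofReal (6 ^ d * (4 ^ d * ε) / δ₁) * e (⋃ x ∈ B', closedBall x r) := by
    refine measure_bad_le hδ1 (by positivity) fun x hx => ?_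
    have hxB : x ∈ B := hB'B hx.1
    have hx' : x ∈ Bad δ₁ ρ₀ e B := by
      obtain ⟨hx1, ρ, k1, k2, k3⟩ := hx
      exact ⟨hxB, ρ, k1, k2.trans hrρ, k3⟩
    obtain ⟨ρ, k1, k2, k3, k4⟩ := h2 x hx'
    refine ⟨ρ, k1, hbr x hxB ρ k1 k2 k3, k3, ?_⟩
    have hRr : ball x (6 * ρ) ⊆ R := (ball_subset_ball (by linarith)).trans (hBR x hxB)
    have hNb := H.int.mono_set hRr
    have hQi : IntegrableOn (fun _ : Eu d => (Q : ℝ)) (ball x (6 * ρ)) :=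
      integrableOn_const measure_ball_lt_top.ne
    have hNQ : IntegrableOn (fun y => |N y - (Q : ℝ)|) (ball x (6 * ρ)) := (hNb.sub hQi).abs
    rw [hν, withDensity_apply _ measurableSet_ball, Measure.restrict_restrict measurableSet_ball,
      inter_eq_left.2 hRr, ← ofReal_integral_eq_lintegral_ofReal hNQ
        (Eventually.of_forall fun y => abs_nonneg _)]
    exact ENNReal.ofReal_le_ofReal (k4 (6 * ρ) (by linarith) (by linarith)).2.1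
  refine le_trans ?_ h3
  -- `N = Q` off the bad set
  have hsub : ∀ᵐ y ∂(volume : Measure (Eu d)), B'.indicator (fun y => ENNReal.ofReal |N y - Q|) y ≤
      (toMeasurable ν (Bad δ₁ r e B') ∩ R).indicator (fun y => ENNReal.ofReal |N y - Q|) y := by
    filter_upwards [h1] with y hy
    by_cases hyB : y ∈ B'
    · have hyBB : y ∈ B := hB'B hyB
      have hyR : y ∈ R := hBR y hyBB (mem_ball_self (by positivity))
      rw [Set.indicator_of_mem hyB]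
      by_cases hbad : y ∈ Bad δ₁ r e B'
      · have hmem : y ∈ toMeasurable ν (Bad δ₁ r e B') ∩ R := ⟨subset_toMeasurable _ _ hbad, hyR⟩
        rw [Set.indicator_of_mem hmem]
      · have hnb : y ∉ Bad δ₁ ρ₀ e B := by
          rintro ⟨-, ρ, k1, k2, k3⟩
          exact hbad ⟨hyB, ρ, k1, hbr y hyBB ρ k1 k2 k3, k3⟩
        rw [hy hyBB hnb]
        simp
    · rw [Set.indicator_of_notMem hyB]
      exact bot_le
  calc ∫⁻ y in B', ENNReal.ofReal |N y - Q|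
      = ∫⁻ y, B'.indicator (fun y => ENNReal.ofReal |N y - Q|) y := (lintegral_indicator hB' _).symm
    _ ≤ ∫⁻ y, (toMeasurable ν (Bad δ₁ r e B') ∩ R).indicator (fun y => ENNReal.ofReal |N y - Q|) y :=
        lintegral_mono_ae hsub
    _ = ∫⁻ y in toMeasurable ν (Bad δ₁ r e B') ∩ R, ENNReal.ofReal |N y - Q| :=
        lintegral_indicator ((measurableSet_toMeasurable _ _).inter H.isOpen.measurableSet) _
    _ = ν (toMeasurable ν (Bad δ₁ r e B')) := by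
        rw [hν, withDensity_apply _ (measurableSet_toMeasurable _ _),
          Measure.restrict_restrict (measurableSet_toMeasurable _ _)]
    _ = ν (Bad δ₁ r e B') := measure_toMeasurable _

/-- at one scale with small tilt energy the multiplicity function is close to an integer (which replaces the
integrality theorem for nearly flat varifolds). -/
theorem exists_integer {C : ℝ} (hSC : SC2 d C) {C₁ c₀ : ℝ} (hC₁ : 0 ≤ C₁) {R : Set (Eu d)}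
    {N : Eu d → ℝ} {μ e es G : Measure (Eu d)} (H : Hyp C₁ c₀ R N μ e es G) {x : Eu d} {r M δ : ℝ}
    (hr : 0 < r) (hδ : 0 ≤ δ) (hδM : δ ≤ M) (hR : ball x (4 * r) ⊆ R)
    (hA : ∫ y in ball x (4 * r), N y ≤ M)
    (hE : ENNReal.ofReal C₁ * e (ball x (4 * r)) ≤ ENNReal.ofReal δ)
    (hG : G (ball x (4 * r)) ≤ ENNReal.ofReal (δ / r)) :
    ∃ k : ℕ, ∫ y in ball x r, |N y - k| ≤ 4 * (C * Real.sqrt (M * δ)) := by
  obtain ⟨c, hc⟩ := H.constancy hSC hC₁ hr hδ hδM hR hA hE hG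
  have hsub : ball x r ⊆ R := (ball_subset_ball (by linarith)).trans hR
  exact exists_nat_close measurableSet_ball H.meas (H.int.mono_set hsub) measure_ball_lt_top.ne
    (ae_mono (Measure.restrict_mono hsub le_rfl) H.nat) hc

end Crest.Agent.R234.Tv_618
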