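import Crest.Agent.R234.Tv3_618

/-!
# Row 234, F3-TV, part 4 (helper618)

`small` : for the base ball of radius `1 + ε`, energy at most `δ ε^(2d)`, mass on one fixed ball close to
`Q`: `∫_{closedBall 0 (1 + ε/2)} |N - Q| ≤ C e (ball 0 (1 + ε))`.
-/

set_option autoImplicit false

open Set Filter Topology MeasureTheory Metric
open scoped ENNReal NNReal ContDiff

noncomputable section

namespace Crest.Agent.R234.Tv_618

open Crest.Agent.R234.Th_164

variable {d : ℕ}

theorem close_mono {N : Eu d → ℝ} {S T : Set (Eu d)} (hST : S ⊆ T) (hT : volume T ≠ ⊤)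
    (hN : IntegrableOn N T) {k : ℕ} {η : ℝ} (h : ∫ y in T, |N y - k| ≤ η) :
    ∫ y in S, |N y - k| ≤ η := by
  have hk : IntegrableOn (fun _ : Eu d => (k : ℝ)) T := integrableOn_const hT
  have hNk : IntegrableOn (fun y => |N y - (k : ℝ)|) T := (hN.sub hk).abs
  exact (setIntegral_mono_set hNk (Eventually.of_forall fun y => abs_nonneg _)
    hST.eventuallyLE).trans h

set_option maxHeartbeats 2000000 in
/-- **small energy** -/
theorem small {C : ℝ} (hSC : SC2 d C) (Q : ℕ) {C₁ : ℝ} (hC₁ : 0 ≤ C₁) {Λ : ℝ} (hΛ : 0 ≤ Λ) :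
    ∃ g₁ : ℝ, 0 < g₁ ∧ ∃ δs : ℝ, 0 < δs ∧ δs ≤ 1 ∧ ∃ Cs : ℝ, 0 ≤ Cs ∧ ∃ δ₁ : ℝ, 0 < δ₁ ∧
      δs ≤ δ₁ / 64 ^ d ∧ ∀ (ε : ℝ), 0 < ε → ε ≤ 1 → ∀ (g₀ : ℝ) (N : Eu d → ℝ) (μ e G : Measure (Eu d)),
        0 ≤ g₀ → g₀ ≤ g₁ → Hyp C₁ 0 (ball 0 (1 + ε)) N μ e e G →
        (∀ S, MeasurableSet S → S ⊆ ball 0 (1 + ε) → G S ≤ ENNReal.ofReal g₀ * μ S) →
        (∀ S, MeasurableSet S → S ⊆ ball 0 (1 + ε) → ∫ y in S, N y ≤ μ.real S + e.real S) →
        μ (ball 0 (1 + ε)) ≤ ENNReal.ofReal Λ →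
        |μ.real (ball 0 (1 / 4)) - Q * volume.real (ball (0 : Eu d) (1 / 4))| ≤
          3 / 8 * volume.real (ball (0 : Eu d) (1 / 4)) →
        e (ball 0 (1 + ε)) ≤ ENNReal.ofReal (δs * ε ^ (2 * d)) →
        G (ball 0 (1 + ε)) ≤ ENNReal.ofReal (δs * ε ^ (2 * d)) →
        ∀ (B' : Set (Eu d)) (r : ℝ), MeasurableSet B' → B' ⊆ closedBall 0 (1 + ε / 2) → 0 < r →
          r ≤ ε / 64 → e (ball 0 (1 + ε)) ≤ ENNReal.ofReal (δ₁ * r ^ d) →
          ∫⁻ y in B', ENNReal.ofReal |N y - Q| ≤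
            ENNReal.ofReal Cs * e (⋃ x ∈ B', closedBall x r) := by
  have hom := om_pos d
  set εT : ℝ := min 1 (om d / (2 * (1 + 4 ^ d))) with hεT
  have hεT0 : 0 < εT := lt_min one_pos (by positivity)
  have hεT1 : εT ≤ 1 := min_le_left _ _
  have hεω : εT * (1 + 4 ^ d) < om d := by
    calc εT * (1 + 4 ^ d) ≤ (om d / (2 * (1 + 4 ^ d))) * (1 + 4 ^ d) := by
          gcongr; exact min_le_right _ _
      _ = om d / 2 := by field_simp
      _ < om d := by linarith
  obtain ⟨g₁, hg1, δ₁, hδ1, hδ11, hT⟩ := summed2 hSC Q hC₁ hεT0 hεT1 hεω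
  set M : ℝ := Λ + 1 with hM
  have hM1 : 1 ≤ M := by linarith
  set cη : ℝ := min 1 (min (εT / 64 ^ d) (om d / (4 * 16 ^ d))) with hcη
  have hcη0 : 0 < cη := lt_min one_pos (lt_min (by positivity) (by positivity))
  have hcη1 : cη ≤ 1 := min_le_left _ _
  have hcη2 : cη ≤ εT / 64 ^ d := (min_le_right _ _).trans (min_le_left _ _)
  have hcη3 : cη ≤ om d / (4 * 16 ^ d) := (min_le_right _ _).trans (min_le_right _ _)
  set b : ℝ := cη / (4 * (|C| + 1)) with hb
  have hb0 : 0 < b := by positivity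
  have hb1 : b ≤ 1 / 4 := by
    rw [hb, div_le_div_iff₀ (by positivity) (by norm_num)]
    nlinarith [abs_nonneg C]
  set δs : ℝ := min (min 1 (b ^ 2 / (M * (C₁ + 1)))) (min (δ₁ / 64 ^ d) (om d / (4 * 4 ^ d))) with hδs
  have hδs0 : 0 < δs := lt_min (lt_min one_pos (by positivity)) (lt_min (by positivity) (by positivity))
  have hδs1 : δs ≤ 1 := (min_le_left _ _).trans (min_le_left _ _)
  have hδs2 : δs ≤ b ^ 2 / (M * (C₁ + 1)) := (min_le_left _ _).trans (min_le_right _ _)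
  have hδs3 : δs ≤ δ₁ / 64 ^ d := (min_le_right _ _).trans (min_le_left _ _)
  have hδs4 : δs ≤ om d / (4 * 4 ^ d) := (min_le_right _ _).trans (min_le_right _ _)
  refine ⟨g₁, hg1, δs, hδs0, hδs1, 6 ^ d * (4 ^ d * εT) / δ₁, by positivity, δ₁, hδ1, hδs3, ?_⟩
  intro ε hε0 hε1 g₀ N μ e G hg0 hg01 H hlow hup hμ hQ he hG B' r hB'm hB'B hr0 hr64 her
  have hεd : 0 < ε ^ d := pow_pos hε0 d
  have hεd1 : ε ^ d ≤ 1 := pow_le_one₀ hε0.le hε1
  have hε2d : ε ^ (2 * d) = ε ^ d * ε ^ d := by rw [two_mul, pow_add]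
  have hε2d0 : 0 < ε ^ (2 * d) := pow_pos hε0 _
  have hε2d1 : ε ^ (2 * d) ≤ ε ^ d := by rw [hε2d]; nlinarith
  set δE : ℝ := (b * ε ^ d) ^ 2 / M with hδE
  have hδE0 : 0 < δE := by positivity
  have hδEM : δE ≤ M := by
    rw [hδE, div_le_iff₀ (by positivity)]
    have h1 : b * ε ^ d ≤ 1 := by nlinarith
    have h2 : 0 ≤ b * ε ^ d := by positivity
    nlinarith
  have hsq : Real.sqrt (M * δE) = b * ε ^ d := by
    rw [hδE, mul_div_cancel₀ _ (by positivity : M ≠ 0), Real.sqrt_sq (by positivity)]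
  have hηC : 4 * (C * Real.sqrt (M * δE)) ≤ cη * ε ^ d := by
    rw [hsq]
    calc 4 * (C * (b * ε ^ d)) ≤ 4 * ((|C| + 1) * (b * ε ^ d)) := by
          gcongr
          linarith [le_abs_self C]
      _ = cη * ε ^ d := by rw [hb]; field_simp
  have hδsE : δs * ε ^ (2 * d) * (C₁ + 1) ≤ δE := by
    have h1 : δs * ε ^ (2 * d) * (C₁ + 1) ≤ b ^ 2 / (M * (C₁ + 1)) * ε ^ (2 * d) * (C₁ + 1) :=
      mul_le_mul_of_nonneg_right (mul_le_mul_of_nonneg_right hδs2 hε2d0.le) (by positivity)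
    refine h1.trans_eq ?_
    rw [hδE, hε2d]
    have hC1 : C₁ + 1 ≠ 0 := by positivity
    have hM0 : M ≠ 0 := by positivity
    field_simp
  have hδsE' : δs * ε ^ (2 * d) ≤ δE := by
    refine le_trans ?_ hδsE
    have : 0 ≤ δs * ε ^ (2 * d) := by positivity
    nlinarith
  have hδsE1 : C₁ * (δs * ε ^ (2 * d)) ≤ δE := by
    refine le_trans ?_ hδsE
    have : 0 ≤ δs * ε ^ (2 * d) := by positivity
    nlinarith
  have heR : ∀ S ⊆ ball (0 : Eu d) (1 + ε), e S ≤ ENNReal.ofReal (δs * ε ^ (2 * d)) := fun S hS =>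
    (measure_mono hS).trans he
  have hGR : ∀ S ⊆ ball (0 : Eu d) (1 + ε), G S ≤ ENNReal.ofReal (δs * ε ^ (2 * d)) := fun S hS =>
    (measure_mono hS).trans hG
  have herR : ∀ S ⊆ ball (0 : Eu d) (1 + ε), e.real S ≤ δs * ε ^ (2 * d) := fun S hS =>
    ENNReal.toReal_le_of_le_ofReal (by positivity) (heR S hS)
  have hNM : ∀ S, MeasurableSet S → S ⊆ ball (0 : Eu d) (1 + ε) → ∫ y in S, N y ≤ M := by
    intro S hSm hS
    refine (hup S hSm hS).trans ?_
    have h1 : μ.real S ≤ Λ := ENNReal.toReal_le_of_le_ofReal hΛ ((measure_mono hS).trans hμ)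
    have h2 := herR S hS
    have h3 : δs * ε ^ (2 * d) ≤ 1 := by nlinarith
    rw [hM]; linarith
  -- the integer at one ball
  have hint : ∀ (x : Eu d) (r : ℝ), 0 < r → r ≤ 1 → ball x (4 * r) ⊆ ball 0 (1 + ε) →
      ∃ k : ℕ, ∫ y in ball x r, |N y - k| ≤ cη * ε ^ d := by
    intro x r hr hr1 hsub
    obtain ⟨k, hk⟩ := exists_integer hSC hC₁ H hr hδE0.le hδEM hsub (hNM _ measurableSet_ball hsub)
      (by
        calc ENNReal.ofReal C₁ * e (ball x (4 * r))
            ≤ ENNReal.ofReal C₁ * ENNReal.ofReal (δs * ε ^ (2 * d)) := by gcongr; exact heR _ hsub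
          _ = ENNReal.ofReal (C₁ * (δs * ε ^ (2 * d))) := (ENNReal.ofReal_mul hC₁).symm
          _ ≤ _ := ENNReal.ofReal_le_ofReal hδsE1)
      (by
        refine (hGR _ hsub).trans (ENNReal.ofReal_le_ofReal ?_)
        rw [le_div_iff₀ hr]
        nlinarith)
    exact ⟨k, hk.trans hηC⟩
  set B : Set (Eu d) := closedBall 0 (1 + ε / 2) with hB
  have hBsub : ∀ x ∈ B, ball x (ε / 2) ⊆ ball 0 (1 + ε) := by
    intro x hx y hy
    rw [mem_ball_zero_iff]
    rw [hB, mem_closedBall_zero_iff] at hx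
    rw [mem_ball, dist_eq_norm] at hy
    calc ‖y‖ = ‖(y - x) + x‖ := by rw [sub_add_cancel]
      _ ≤ ‖y - x‖ + ‖x‖ := norm_add_le _ _
      _ < 1 + ε := by linarith
  have h8 : ∀ x ∈ B, ∃ k : ℕ, ∫ y in ball x (ε / 8), |N y - k| ≤ cη * ε ^ d := by
    intro x hx
    refine hint x (ε / 8) (by positivity) (by linarith) ?_
    have : 4 * (ε / 8) = ε / 2 := by ring
    rw [this]
    exact hBsub x hx
  choose! kf hkf using h8
  have hNint : ∀ S ⊆ ball (0 : Eu d) (1 + ε), IntegrableOn N S := fun S hS => H.int.mono_set hS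
  have h8sub : ∀ x ∈ B, ball x (ε / 8) ⊆ ball 0 (1 + ε) := fun x hx =>
    (ball_subset_ball (by linarith)).trans (hBsub x hx)
  have h2η : ∀ r : ℝ, ε / 16 ≤ r → cη * ε ^ d + cη * ε ^ d < om d * r ^ d := by
    intro r hr
    calc cη * ε ^ d + cη * ε ^ d = 2 * cη * ε ^ d := by ring
      _ ≤ 2 * (om d / (4 * 16 ^ d)) * ε ^ d := by gcongr
      _ = 1 / 2 * (om d * (ε / 16) ^ d) := by rw [div_pow]; field_simp; ring
      _ < om d * (ε / 16) ^ d := by
          have : 0 < om d * (ε / 16) ^ d := by positivity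
          linarith
      _ ≤ om d * r ^ d := by gcongr
  -- locally constant
  have hloc : ∀ x ∈ B, ∀ x' ∈ B, dist x x' < ε / 8 → kf x = kf x' := by
    intro x hx x' hx' hxx
    set y : Eu d := midpoint ℝ x x' with hy
    have hd1 : dist y x < ε / 16 := by
      rw [hy, dist_midpoint_left]
      norm_num
      linarith
    have hd2 : dist y x' < ε / 16 := by
      rw [hy, dist_midpoint_right]
      norm_num
      linarith
    have hs1 : ball y (ε / 16) ⊆ ball x (ε / 8) := ball_subset_ball' (by linarith)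
    have hs2 : ball y (ε / 16) ⊆ ball x' (ε / 8) := ball_subset_ball' (by linarith)
    have e1 := close_mono hs1 measure_ball_lt_top.ne (hNint _ (h8sub x hx)) (hkf x hx)
    have e2 := close_mono hs2 measure_ball_lt_top.ne (hNint _ (h8sub x' hx')) (hkf x' hx')
    refine eq_of_close (hNint _ (hs1.trans (h8sub x hx))) measure_ball_lt_top.ne ?_
    rw [vol_ball y (by positivity)]
    exact (add_le_add e1 e2).trans_lt (h2η _ le_rfl)
  have hconst : ∀ x ∈ B, ∀ x' ∈ B, kf x = kf x' := by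
    intro x hx x' hx'
    have hpre : IsPreconnected B := (convex_closedBall _ _).isPreconnected
    refine hpre.constant (f := kf) ?_ hx hx'
    intro z hz
    rw [ContinuousWithinAt]
    refine tendsto_nhds_of_eventually_eq ?_
    have h1 : ∀ᶠ w in 𝓝[B] z, dist w z < ε / 8 :=
      mem_nhdsWithin_of_mem_nhds (ball_mem_nhds z (by positivity))
    filter_upwards [h1, self_mem_nhdsWithin] with w hw hwB
    exact hloc w hwB z hz hw
  have h0B : (0 : Eu d) ∈ B := by
    rw [hB, mem_closedBall_zero_iff, norm_zero]; positivity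
  -- the central ball
  have hc1 : ball (0 : Eu d) (4 * (1 / 4)) ⊆ ball 0 (1 + ε) := ball_subset_ball (by linarith)
  have hc2 : ball (0 : Eu d) (1 / 4) ⊆ ball 0 (1 + ε) := ball_subset_ball (by linarith)
  obtain ⟨k', hk'⟩ := hint 0 (1 / 4) (by norm_num) (by norm_num) hc1
  have hk'Q : k' = Q := by
    have hvol : volume.real (ball (0 : Eu d) (1 / 4)) = om d * (1 / 4) ^ d :=
      vol_ball 0 (by norm_num)
    set vv : ℝ := volume.real (ball (0 : Eu d) (1 / 4)) with hvv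
    have hvv0 : 0 < vv := by rw [hvol]; positivity
    have hN' := hNint _ hc2
    have hk'i : IntegrableOn (fun _ : Eu d => (k' : ℝ)) (ball 0 (1 / 4)) :=
      integrableOn_const measure_ball_lt_top.ne
    have hI1 : |(∫ y in ball (0 : Eu d) (1 / 4), N y) - k' * vv| ≤ cη * ε ^ d := by
      have h1 : (∫ y in ball (0 : Eu d) (1 / 4), N y) - k' * vv =
          ∫ y in ball (0 : Eu d) (1 / 4), (N y - k') := by
        rw [integral_sub hN' hk'i, setIntegral_const, smul_eq_mul, mul_comm]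
      rw [h1]
      exact (abs_integral_le_integral_abs).trans hk'
    have hμf : μ (ball 0 (1 / 4)) ≠ ⊤ := ne_top_of_le_ne_top H.fin (measure_mono hc2)
    have hef : e (ball 0 (1 / 4)) ≠ ⊤ := ne_top_of_le_ne_top ENNReal.ofReal_ne_top (heR _ hc2)
    have hI2 : |(∫ y in ball (0 : Eu d) (1 / 4), N y) - μ.real (ball 0 (1 / 4))| ≤
        e.real (ball 0 (1 / 4)) := by
      rw [abs_le]
      constructor
      · have h1 := H.mass _ measurableSet_ball hc2
        have h0 : 0 ≤ ∫ y in ball (0 : Eu d) (1 / 4), N y := integral_nonneg fun y => H.nonneg y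
        have h2 : μ.real (ball 0 (1 / 4)) ≤
            (∫ y in ball (0 : Eu d) (1 / 4), N y) + e.real (ball 0 (1 / 4)) := by
          have h3 := ENNReal.toReal_mono (ENNReal.add_ne_top.2 ⟨ENNReal.ofReal_ne_top, hef⟩) h1
          rwa [ENNReal.toReal_add ENNReal.ofReal_ne_top hef, ENNReal.toReal_ofReal h0] at h3
        linarith
      · have h1 := hup _ measurableSet_ball hc2
        linarith
    have h3 := herR _ hc2
    have h4 : δs * ε ^ (2 * d) ≤ vv / 4 := by
      calc δs * ε ^ (2 * d) ≤ (om d / (4 * 4 ^ d)) * 1 := by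
            gcongr
            exact hε2d1.trans hεd1
        _ = vv / 4 := by rw [hvol, div_pow, one_pow]; field_simp
    have h5 : cη * ε ^ d ≤ vv / 4 := by
      calc cη * ε ^ d ≤ (om d / (4 * 16 ^ d)) * 1 := by gcongr
        _ ≤ om d / (4 * 4 ^ d) := by
            rw [mul_one]
            gcongr
            norm_num
        _ = vv / 4 := by rw [hvol, div_pow, one_pow]; field_simp
    have h6 : |((k' : ℝ) - Q)| * vv ≤ 7 / 8 * vv := by
      have h7 : ((k' : ℝ) - Q) * vv = -((∫ y in ball (0 : Eu d) (1 / 4), N y) - k' * vv) +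
          ((∫ y in ball (0 : Eu d) (1 / 4), N y) - μ.real (ball 0 (1 / 4))) +
          (μ.real (ball 0 (1 / 4)) - Q * vv) := by ring
      have h8 : |((k' : ℝ) - Q) * vv| ≤ cη * ε ^ d + e.real (ball 0 (1 / 4)) + 3 / 8 * vv := by
        rw [h7]
        refine (abs_add_le _ _).trans ?_
        refine add_le_add ((abs_add_le _ _).trans ?_) hQ
        rw [abs_neg]
        exact add_le_add hI1 hI2
      rw [abs_mul, abs_of_pos hvv0] at h8
      linarith
    have h9 : |((k' : ℝ) - Q)| < 1 := by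
      have := le_of_mul_le_mul_right h6 hvv0
      linarith
    have h10 : |(k' : ℤ) - Q| < 1 := by exact_mod_cast h9
    rw [Int.abs_lt_one_iff] at h10
    omega
  have hk0 : kf 0 = Q := by
    rw [← hk'Q]
    have hs : ball (0 : Eu d) (ε / 8) ⊆ ball 0 (1 / 4) := ball_subset_ball (by linarith)
    have e2 := close_mono hs measure_ball_lt_top.ne (hNint _ hc2) hk'
    refine eq_of_close (hNint _ (h8sub 0 h0B)) measure_ball_lt_top.ne ?_
    rw [vol_ball 0 (by positivity)]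
    exact (add_le_add (hkf 0 h0B) e2).trans_lt (h2η _ (by linarith))
  have hkQ : ∀ x ∈ B, kf x = Q := fun x hx => (hconst x hx 0 h0B).trans hk0
  have h64 : 8 * (ε / 64) = ε / 8 := by ring
  exact hT g₀ (ball 0 (1 + ε)) N μ e G hg0 hg01 H hlow B (ε / 64) (by positivity)
    (by linarith) (fun x hx => by rw [h64]; exact h8sub x hx)
    (fun x hx => by
      rw [h64]
      have h1 := hkf x hx
      rw [hkQ x hx] at h1
      refine h1.trans ?_
      calc cη * ε ^ d ≤ (εT / 64 ^ d) * ε ^ d := by gcongr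
        _ = εT * (ε / 64) ^ d := by rw [div_pow]; field_simp)
    (fun x hx => by
      rw [h64]
      refine (heR _ (h8sub x hx)).trans (ENNReal.ofReal_le_ofReal ?_)
      calc δs * ε ^ (2 * d) ≤ (δ₁ / 64 ^ d) * ε ^ d := by gcongr
        _ = δ₁ * (ε / 64) ^ d := by rw [div_pow]; field_simp)
    B' r hB'm hB'B hr0 hr64
    (fun x hx => (measure_mono ((ball_subset_ball (by linarith)).trans (h8sub x hx))).trans her)

end Crest.Agent.R234.Tv_618
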