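import Crest.Agent.R234.Tv2_618
import Crest.Agent.R234.Tv4_618
import Crest.Agent.R234.Vf3_884

/-!
# Row 234, F3-TV, part 5 (helper618)

Abstract data (`Dat`): a measure `V` over the base, foot map `x`, tangential Jacobian `J`, tilt `τ`,
squared height `q`, horizontal block `T`, connection term `Γ`, density `j`, multiplicity `N`.
`Dat.hyp` : `N`, mass, energy and error measures satisfy 164's structure `Hyp`.
-/

set_option autoImplicit false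

open Set Filter Topology MeasureTheory Metric Function
open Crest.GeometryTopology.Submanifold
open Crest.Agent.R234.Vf_884
open scoped ENNReal NNReal ContDiff InnerProductSpace

noncomputable section

namespace Crest.Agent.R234.Tv_618

open Crest.Agent.R234.Th_164

variable {m : ℕ} {Ω : Type} [MeasurableSpace Ω]

/-- data over the base ball of radius `R` -/
structure Dat (V : Measure Ω) (x : Ω → Euc m) (J τ q : Ω → ℝ) (T : Ω → L m)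
    (Γ : Ω → Euc m →L[ℝ] ℝ) (j : Euc m → ℝ) (lam : Euc m → Euc m) (N : Euc m → ℝ≥0∞)
    (R C₀ κ : ℝ) : Prop where
  fin : IsFiniteMeasure V
  mx : Measurable x
  mJ : AEMeasurable J V
  mτ : AEMeasurable τ V
  mq : AEMeasurable q V
  mT : AEStronglyMeasurable T V
  mΓ : AEStronglyMeasurable Γ V
  J0 : ∀ᵐ p ∂V, 0 ≤ J p
  τ0 : ∀ᵐ p ∂V, 0 ≤ τ p ∧ τ p ≤ m
  q0 : ∀ᵐ p ∂V, 0 ≤ q p ∧ q p ≤ 1
  mN : Measurable N
  nN : ∀ v, N v ≠ ⊤ → ∃ n : ℕ, N v = n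
  area : ∀ g : Euc m → ℝ≥0∞, Measurable g →
    ∫⁻ p, ENNReal.ofReal (J p) * g (x p) ∂V = ∫⁻ v, N v * g v
  mj : Measurable j
  js : ContDiffOn ℝ 1 j (ball 0 R)
  j1 : ∀ v ∈ ball (0 : Euc m) R, |j v - 1| ≤ κ
  dj : ∀ v ∈ ball (0 : Euc m) R, HasFDerivAt j (j v • innerSL ℝ (lam v)) v
  lam1 : ∀ v ∈ ball (0 : Euc m) R, ‖lam v‖ ≤ κ
  anom : ∀ᵐ p ∂V, x p ∈ ball (0 : Euc m) R →
    |1 - j (x p) * J p - τ p / 2| ≤ C₀ * (τ p + κ * q p)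
  hT : ∀ᵐ p ∂V, x p ∈ ball (0 : Euc m) R →
    ‖ContinuousLinearMap.id ℝ (Euc m) - T p‖ ≤ C₀ * (τ p + κ * q p)
  hΓ : ∀ᵐ p ∂V, x p ∈ ball (0 : Euc m) R →
    ∀ v, |Γ p v - ⟪lam (x p), v⟫_ℝ| ≤ κ * ‖v‖ * (τ p + q p)
  st : ∀ X : Euc m → Euc m, ContDiff ℝ 1 X → HasCompactSupport X → tsupport X ⊆ ball 0 R →
    ∫ p, (tr (fderiv ℝ X (x p) ∘L T p) + Γ p (X (x p))) ∂V = 0

theorem abs_tr_le (A : L m) : |tr A| ≤ m * ‖A‖ := by
  rw [tr_eq_sum]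
  refine (Finset.abs_sum_le_sum_abs _ _).trans ?_
  have h : ∀ i ∈ (Finset.univ : Finset (Fin m)), |⟪stdVec m i, A (stdVec m i)⟫_ℝ| ≤ ‖A‖ := by
    intro i _
    have h1 : ‖stdVec m i‖ = 1 := by simp [stdVec]
    calc |⟪stdVec m i, A (stdVec m i)⟫_ℝ| ≤ ‖stdVec m i‖ * ‖A (stdVec m i)‖ :=
          abs_real_inner_le_norm _ _
      _ ≤ 1 * (‖A‖ * 1) := by
          rw [h1]
          refine mul_le_mul_of_nonneg_left ?_ zero_le_one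
          exact (A.le_opNorm _).trans (by rw [h1])
      _ = ‖A‖ := by ring
  refine (Finset.sum_le_sum h).trans ?_
  simp

theorem divg_eq (X : Euc m → Euc m) (z : Euc m) : divg X z = tr (fderiv ℝ X z) := by
  rw [tr_eq_sum]
  unfold divg
  refine Finset.sum_congr rfl fun i _ => ?_
  rw [show stdVec m i = EuclideanSpace.single i 1 from rfl, EuclideanSpace.inner_single_left]
  simp

/-- the tested integrand for the field `Z / j` -/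
theorem pt_id {j : Euc m → ℝ} {lam : Euc m → Euc m} {Z : Euc m → Euc m} {v : Euc m}
    (hj : 0 < j v) (dj : HasFDerivAt j (j v • innerSL ℝ (lam v)) v) (hZ : DifferentiableAt ℝ Z v)
    (T : L m) (Γ : Euc m →L[ℝ] ℝ) :
    tr (fderiv ℝ (fun w => (j w)⁻¹ • Z w) v ∘L T) + Γ ((j v)⁻¹ • Z v) =
      (j v)⁻¹ * (divg Z v - tr (fderiv ℝ Z v ∘L (ContinuousLinearMap.id ℝ (Euc m) - T)) +
        ⟪lam v, (ContinuousLinearMap.id ℝ (Euc m) - T) (Z v)⟫_ℝ + (Γ (Z v) - ⟪lam v, Z v⟫_ℝ)) := by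
  have h1 : HasFDerivAt (fun w => (j w)⁻¹) (-(j v)⁻¹ • innerSL ℝ (lam v)) v := by
    have h2 := (hasDerivAt_inv hj.ne').comp_hasFDerivAt v dj
    have h3 : -(j v ^ 2)⁻¹ • (j v • innerSL ℝ (lam v)) = -(j v)⁻¹ • innerSL ℝ (lam v) := by
      rw [smul_smul]
      congr 1
      field_simp
    rw [h3] at h2
    exact h2
  have h2 : HasFDerivAt (fun w => (j w)⁻¹ • Z w) ((j v)⁻¹ • fderiv ℝ Z v +
      (-(j v)⁻¹ • innerSL ℝ (lam v)).smulRight (Z v)) v := h1.smul hZ.hasFDerivAt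
  have h3 : ((j v)⁻¹ • fderiv ℝ Z v) ∘L T = (j v)⁻¹ • (fderiv ℝ Z v ∘L T) := by
    ext w; simp
  rw [h2.fderiv, ContinuousLinearMap.add_comp, map_add, tr_smulRight_comp, h3, map_smul,
    ContinuousLinearMap.comp_sub, map_sub, ContinuousLinearMap.comp_id, divg_eq, map_smul]
  have h4 : (-(j v)⁻¹ • innerSL ℝ (lam v)) (T (Z v)) = -(j v)⁻¹ * ⟪lam v, T (Z v)⟫_ℝ := by
    simp
  have h5 : ⟪lam v, (ContinuousLinearMap.id ℝ (Euc m) - T) (Z v)⟫_ℝ =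
      ⟪lam v, Z v⟫_ℝ - ⟪lam v, T (Z v)⟫_ℝ := by
    rw [_root_.sub_apply, inner_sub_right]
    rfl
  rw [h4, h5]
  simp only [smul_eq_mul]
  ring

/-- push forward of a density -/
def nu (V : Measure Ω) (x : Ω → Euc m) (w : Ω → ℝ) : Measure (Euc m) :=
  (V.withDensity fun p => ENNReal.ofReal (w p)).map x

theorem nu_apply {V : Measure Ω} {x : Ω → Euc m} (hx : Measurable x) (w : Ω → ℝ) {S : Set (Euc m)}
    (hS : MeasurableSet S) : nu V x w S = ∫⁻ p in x ⁻¹' S, ENNReal.ofReal (w p) ∂V := by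
  unfold nu
  rw [Measure.map_apply hx hS, withDensity_apply _ (hx hS)]

theorem integral_nu {V : Measure Ω} {x : Ω → Euc m} (hx : Measurable x) {w : Ω → ℝ}
    (hw : AEMeasurable w V) (hw0 : ∀ᵐ p ∂V, 0 ≤ w p) {F : Euc m → ℝ}
    (hF : Measurable F) : ∫ v, F v ∂(nu V x w) = ∫ p, w p * F (x p) ∂V := by
  unfold nu
  rw [integral_map hx.aemeasurable hF.aestronglyMeasurable,
    integral_withDensity_eq_integral_toReal_smul₀ hw.ennreal_ofReal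
      (Eventually.of_forall fun p => ENNReal.ofReal_lt_top)]
  refine integral_congr_ae ?_
  filter_upwards [hw0] with p hp
  rw [ENNReal.toReal_ofReal hp, smul_eq_mul]

/-- energy density -/
def hh (C₀ κ : ℝ) (τ q : Ω → ℝ) (p : Ω) : ℝ := 2 * (C₀ + 1) * (τ p + κ * q p)

/-- error density -/
def gg (C₀ κ : ℝ) (τ q : Ω → ℝ) (p : Ω) : ℝ := 2 * κ * (C₀ + 1) * (τ p + q p)

namespace Dat

variable {V : Measure Ω} {x : Ω → Euc m} {J τ q : Ω → ℝ} {T : Ω → L m}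
  {Γ : Ω → Euc m →L[ℝ] ℝ} {j : Euc m → ℝ} {lam : Euc m → Euc m} {N : Euc m → ℝ≥0∞}
  {R C₀ κ : ℝ}

theorem jb (h : Dat V x J τ q T Γ j lam N R C₀ κ) (hκ : κ ≤ 1 / 2) {v : Euc m}
    (hv : v ∈ ball (0 : Euc m) R) : 0 < j v ∧ (j v)⁻¹ ≤ 2 ∧ 1 / 2 ≤ (j v)⁻¹ ∧ j v ≤ 2 := by
  have h1 := abs_le.1 (h.j1 v hv)
  have h2 : 1 / 2 ≤ j v := by linarith
  have h3 : j v ≤ 2 := by linarith
  have h4 : 0 < j v := by linarith
  refine ⟨h4, ?_, ?_, h3⟩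
  · rw [inv_le_comm₀ h4 two_pos]; linarith
  · rw [one_div]; exact inv_anti₀ h4 h3

theorem hh_nonneg (h : Dat V x J τ q T Γ j lam N R C₀ κ) (hC : 0 ≤ C₀) (hκ0 : 0 ≤ κ) :
    ∀ᵐ p ∂V, 0 ≤ hh C₀ κ τ q p := by
  filter_upwards [h.τ0, h.q0] with p h1 h2
  unfold hh
  have := h1.1
  have := h2.1
  positivity

theorem gg_nonneg (h : Dat V x J τ q T Γ j lam N R C₀ κ) (hC : 0 ≤ C₀) (hκ0 : 0 ≤ κ) :
    ∀ᵐ p ∂V, 0 ≤ gg C₀ κ τ q p := by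
  filter_upwards [h.τ0, h.q0] with p h1 h2
  unfold gg
  have := h1.1
  have := h2.1
  positivity

theorem mhh (h : Dat V x J τ q T Γ j lam N R C₀ κ) : AEMeasurable (hh C₀ κ τ q) V := by
  unfold hh
  exact (h.mτ.add (h.mq.const_mul κ)).const_mul _

theorem mgg (h : Dat V x J τ q T Γ j lam N R C₀ κ) : AEMeasurable (gg C₀ κ τ q) V := by
  unfold gg
  exact (h.mτ.add h.mq).const_mul _

/-- `|J - 1/j| ≤ hh` -/
theorem J_sub (h : Dat V x J τ q T Γ j lam N R C₀ κ) (hC : 0 ≤ C₀) (hκ0 : 0 ≤ κ) (hκ : κ ≤ 1 / 2) :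
    ∀ᵐ p ∂V, x p ∈ ball (0 : Euc m) R → |J p - (j (x p))⁻¹| ≤ hh C₀ κ τ q p := by
  filter_upwards [h.anom, h.τ0, h.q0] with p h1 h2 h3 hp
  obtain ⟨k1, k2, k3, k4⟩ := h.jb hκ hp
  have h4 := h1 hp
  have h5 : J p - (j (x p))⁻¹ = -((j (x p))⁻¹ * ((1 - j (x p) * J p - τ p / 2) + τ p / 2)) := by
    field_simp
    ring
  have hq := h3.1
  have hτ := h2.1
  rw [h5, abs_neg, abs_mul, abs_of_pos (inv_pos.2 k1)]
  have h6 : |1 - j (x p) * J p - τ p / 2 + τ p / 2| ≤ (C₀ + 1) * (τ p + κ * q p) := by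
    refine (abs_add_le _ _).trans ?_
    rw [abs_of_nonneg (by positivity : 0 ≤ τ p / 2)]
    have : 0 ≤ κ * q p := by positivity
    nlinarith
  calc (j (x p))⁻¹ * |1 - j (x p) * J p - τ p / 2 + τ p / 2|
      ≤ 2 * ((C₀ + 1) * (τ p + κ * q p)) := by gcongr
    _ = hh C₀ κ τ q p := by unfold hh; ring

/-- the pointwise error of the first variation -/
theorem pt_err (h : Dat V x J τ q T Γ j lam N R C₀ κ) (hC : 0 ≤ C₀) (hκ0 : 0 ≤ κ) (hκ : κ ≤ 1 / 2)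
    {Z : Euc m → Euc m} (hZ : Differentiable ℝ Z) :
    ∀ᵐ p ∂V, x p ∈ ball (0 : Euc m) R →
      |J p * divg Z (x p) - (tr (fderiv ℝ (fun w => (j w)⁻¹ • Z w) (x p) ∘L T p) +
        Γ p ((j (x p))⁻¹ • Z (x p)))| ≤
      (2 * m) * (hh C₀ κ τ q p * ‖fderiv ℝ Z (x p)‖) + gg C₀ κ τ q p * ‖Z (x p)‖ := by
  filter_upwards [h.J_sub hC hκ0 hκ, h.τ0, h.q0, h.hT, h.hΓ] with p h1 h2 h3 h4 h5 hp
  obtain ⟨k1, k2, k3, k4⟩ := h.jb hκ hp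
  have e1 := h1 hp
  have e4 := h4 hp
  have e5 := h5 hp (Z (x p))
  have hq := h3.1
  have hτ := h2.1
  have hlam := h.lam1 _ hp
  rw [pt_id k1 (h.dj _ hp) (hZ _)]
  set v := x p
  set S := ContinuousLinearMap.id ℝ (Euc m) - T p
  have e6 : J p * divg Z v - (j v)⁻¹ * (divg Z v - tr (fderiv ℝ Z v ∘L S) +
        ⟪lam v, S (Z v)⟫_ℝ + (Γ p (Z v) - ⟪lam v, Z v⟫_ℝ)) =
      (J p - (j v)⁻¹) * divg Z v + (j v)⁻¹ * tr (fderiv ℝ Z v ∘L S) -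
        (j v)⁻¹ * ⟪lam v, S (Z v)⟫_ℝ - (j v)⁻¹ * (Γ p (Z v) - ⟪lam v, Z v⟫_ℝ) := by ring
  rw [e6]
  have hD0 := norm_nonneg (fderiv ℝ Z v)
  have hZ0 := norm_nonneg (Z v)
  have hm0 : (0 : ℝ) ≤ m := Nat.cast_nonneg m
  have hji : 0 ≤ (j v)⁻¹ := (inv_pos.2 k1).le
  have hs0 : 0 ≤ τ p + κ * q p := by positivity
  have hhp : 0 ≤ hh C₀ κ τ q p := by unfold hh; positivity
  have a1 : |(J p - (j v)⁻¹) * divg Z v| ≤ m * (hh C₀ κ τ q p * ‖fderiv ℝ Z v‖) := by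
    rw [abs_mul, divg_eq]
    calc |J p - (j v)⁻¹| * |tr (fderiv ℝ Z v)| ≤ hh C₀ κ τ q p * (m * ‖fderiv ℝ Z v‖) := by
          gcongr
          exact abs_tr_le _
      _ = _ := by ring
  have a2 : |(j v)⁻¹ * tr (fderiv ℝ Z v ∘L S)| ≤ m * (hh C₀ κ τ q p * ‖fderiv ℝ Z v‖) := by
    rw [abs_mul, abs_of_nonneg hji]
    calc (j v)⁻¹ * |tr (fderiv ℝ Z v ∘L S)| ≤ 2 * (m * (‖fderiv ℝ Z v‖ * ‖S‖)) := by
          gcongr
          exact (abs_tr_le _).trans (by gcongr; exact ContinuousLinearMap.opNorm_comp_le _ _)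
      _ ≤ 2 * (m * (‖fderiv ℝ Z v‖ * (C₀ * (τ p + κ * q p)))) := by gcongr
      _ ≤ 2 * (m * (‖fderiv ℝ Z v‖ * ((C₀ + 1) * (τ p + κ * q p)))) := by
          gcongr
          linarith
      _ = _ := by unfold hh; ring
  have a3 : |(j v)⁻¹ * ⟪lam v, S (Z v)⟫_ℝ| ≤ 2 * (κ * (C₀ * (τ p + q p))) * ‖Z v‖ := by
    rw [abs_mul, abs_of_nonneg hji]
    have b1 : τ p + κ * q p ≤ τ p + q p := by nlinarith
    calc (j v)⁻¹ * |⟪lam v, S (Z v)⟫_ℝ| ≤ 2 * (‖lam v‖ * (‖S‖ * ‖Z v‖)) := by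
          gcongr
          exact (abs_real_inner_le_norm _ _).trans (by gcongr; exact S.le_opNorm _)
      _ ≤ 2 * (κ * ((C₀ * (τ p + κ * q p)) * ‖Z v‖)) := by gcongr
      _ ≤ 2 * (κ * ((C₀ * (τ p + q p)) * ‖Z v‖)) := by gcongr
      _ = _ := by ring
  have a4 : |(j v)⁻¹ * (Γ p (Z v) - ⟪lam v, Z v⟫_ℝ)| ≤ 2 * (κ * (τ p + q p)) * ‖Z v‖ := by
    rw [abs_mul, abs_of_nonneg hji]
    calc (j v)⁻¹ * |Γ p (Z v) - ⟪lam v, Z v⟫_ℝ| ≤ 2 * (κ * ‖Z v‖ * (τ p + q p)) := by gcongr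
      _ = _ := by ring
  have a5 : gg C₀ κ τ q p * ‖Z v‖ =
      2 * (κ * (C₀ * (τ p + q p))) * ‖Z v‖ + 2 * (κ * (τ p + q p)) * ‖Z v‖ := by unfold gg; ring
  rw [a5]
  have b1 := abs_sub ((J p - (j v)⁻¹) * divg Z v + (j v)⁻¹ * tr (fderiv ℝ Z v ∘L S) -
        (j v)⁻¹ * ⟪lam v, S (Z v)⟫_ℝ) ((j v)⁻¹ * (Γ p (Z v) - ⟪lam v, Z v⟫_ℝ))
  have b2 := abs_sub ((J p - (j v)⁻¹) * divg Z v + (j v)⁻¹ * tr (fderiv ℝ Z v ∘L S))
        ((j v)⁻¹ * ⟪lam v, S (Z v)⟫_ℝ)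
  have b3 := abs_add_le ((J p - (j v)⁻¹) * divg Z v) ((j v)⁻¹ * tr (fderiv ℝ Z v ∘L S))
  linarith

end Dat

end Crest.Agent.R234.Tv_618
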