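import Crest.Agent.R234.Tv5_618

/-!
# Row 234, F3-TV, part 6 (helper618)

`Dat.hyp` : 164's structure `Hyp` (base = ball of radius `R`) for the multiplicity function of `Dat`,
and the comparison of the measures.
-/

set_option autoImplicit false

open Set Filter Topology MeasureTheory Metric Function
open Crest.GeometryTopology.Submanifold
open Crest.Agent.R234.Vf_884
open scoped ENNReal NNReal ContDiff InnerProductSpace

noncomputable section

namespace Crest.Agent.R234.Tv_618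

open Crest.Agent.R234.Th_164

variable {m : ℕ} {Ω : Type} [MeasurableSpace Ω]

namespace Dat

variable {V : Measure Ω} {x : Ω → Euc m} {J τ q : Ω → ℝ} {T : Ω → L m}
  {Γ : Ω → Euc m →L[ℝ] ℝ} {j : Euc m → ℝ} {lam : Euc m → Euc m} {N : Euc m → ℝ≥0∞}
  {R C₀ κ : ℝ}

/-- the mass measure, the energy measure, the error measure -/
abbrev μm (V : Measure Ω) (x : Ω → Euc m) (j : Euc m → ℝ) : Measure (Euc m) :=
  nu V x fun p => (j (x p))⁻¹

theorem hh_le (h : Dat V x J τ q T Γ j lam N R C₀ κ) (hC : 0 ≤ C₀) (hκ0 : 0 ≤ κ)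
    (hκ : κ ≤ 1 / 2) : ∀ᵐ p ∂V, hh C₀ κ τ q p ≤ 2 * (C₀ + 1) * (m + 1) := by
  filter_upwards [h.τ0, h.q0] with p h1 h2
  unfold hh
  have e1 : κ * q p ≤ 1 := by nlinarith [h2.1, h2.2]
  have e2 : τ p + κ * q p ≤ m + 1 := by linarith [h1.2]
  have e3 : 0 ≤ 2 * (C₀ + 1) := by positivity
  exact mul_le_mul_of_nonneg_left e2 e3

theorem gg_le (h : Dat V x J τ q T Γ j lam N R C₀ κ) (hC : 0 ≤ C₀) (hκ0 : 0 ≤ κ) :
    ∀ᵐ p ∂V, gg C₀ κ τ q p ≤ 2 * κ * (C₀ + 1) * (m + 1) := by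
  filter_upwards [h.τ0, h.q0] with p h1 h2
  unfold gg
  have e2 : τ p + q p ≤ m + 1 := by linarith [h1.2, h2.2]
  have e3 : 0 ≤ 2 * κ * (C₀ + 1) := by positivity
  exact mul_le_mul_of_nonneg_left e2 e3

theorem J_le (h : Dat V x J τ q T Γ j lam N R C₀ κ) (hC : 0 ≤ C₀) (hκ0 : 0 ≤ κ) (hκ : κ ≤ 1 / 2) :
    ∀ᵐ p ∂V, x p ∈ ball (0 : Euc m) R → J p ≤ 2 + 2 * (C₀ + 1) * (m + 1) := by
  filter_upwards [h.J_sub hC hκ0 hκ, h.hh_le hC hκ0 hκ] with p h1 h2 hp
  obtain ⟨k1, k2, k3, k4⟩ := h.jb hκ hp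
  have := le_abs_self (J p - (j (x p))⁻¹)
  have := h1 hp
  linarith

/-- area formula on sets -/
theorem area_set (h : Dat V x J τ q T Γ j lam N R C₀ κ) {S : Set (Euc m)} (hS : MeasurableSet S) :
    ∫⁻ p in x ⁻¹' S, ENNReal.ofReal (J p) ∂V = ∫⁻ v in S, N v := by
  have h1 := h.area (S.indicator 1) (measurable_one.indicator hS)
  rw [← lintegral_indicator (h.mx hS), ← lintegral_indicator hS]
  have h2 : ∫⁻ p, (x ⁻¹' S).indicator (fun p => ENNReal.ofReal (J p)) p ∂V =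
      ∫⁻ p, ENNReal.ofReal (J p) * S.indicator 1 (x p) ∂V := by
    refine lintegral_congr fun p => ?_
    by_cases hp : x p ∈ S
    · rw [Set.indicator_of_mem (show p ∈ x ⁻¹' S from hp), Set.indicator_of_mem hp]
      simp
    · rw [Set.indicator_of_notMem (show p ∉ x ⁻¹' S from hp), Set.indicator_of_notMem hp, mul_zero]
  have h3 : ∫⁻ v, S.indicator (fun v => N v) v = ∫⁻ v, N v * S.indicator 1 v := by
    refine lintegral_congr fun v => ?_
    by_cases hv : v ∈ S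
    · rw [Set.indicator_of_mem hv, Set.indicator_of_mem hv]; simp
    · rw [Set.indicator_of_notMem hv, Set.indicator_of_notMem hv, mul_zero]
  rw [h2, h1, h3]

theorem nu_J (h : Dat V x J τ q T Γ j lam N R C₀ κ) :
    nu V x J = (volume : Measure (Euc m)).withDensity N := by
  refine Measure.ext fun S hS => ?_
  rw [nu_apply h.mx J hS, withDensity_apply _ hS, h.area_set hS]

theorem lintegral_N_lt (h : Dat V x J τ q T Γ j lam N R C₀ κ) (hC : 0 ≤ C₀) (hκ0 : 0 ≤ κ)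
    (hκ : κ ≤ 1 / 2) : ∫⁻ v in ball (0 : Euc m) R, N v < ⊤ := by
  have := h.fin
  rw [← h.area_set measurableSet_ball]
  have h1 : ∫⁻ p in x ⁻¹' ball 0 R, ENNReal.ofReal (J p) ∂V ≤
      ∫⁻ p in x ⁻¹' ball 0 R, ENNReal.ofReal (2 + 2 * (C₀ + 1) * (m + 1)) ∂V := by
    refine lintegral_mono_ae ?_
    filter_upwards [ae_restrict_of_ae (h.J_le hC hκ0 hκ),
      ae_restrict_mem (h.mx measurableSet_ball)] with p h2 hp
    exact ENNReal.ofReal_le_ofReal (h2 hp)
  refine h1.trans_lt ?_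
  rw [lintegral_const]
  exact ENNReal.mul_lt_top ENNReal.ofReal_lt_top (measure_lt_top _ _)

theorem ae_N_lt (h : Dat V x J τ q T Γ j lam N R C₀ κ) (hC : 0 ≤ C₀) (hκ0 : 0 ≤ κ)
    (hκ : κ ≤ 1 / 2) : ∀ᵐ v ∂(volume.restrict (ball (0 : Euc m) R)), N v < ⊤ :=
  ae_lt_top h.mN (h.lintegral_N_lt hC hκ0 hκ).ne

theorem integrableOn_N (h : Dat V x J τ q T Γ j lam N R C₀ κ) (hC : 0 ≤ C₀) (hκ0 : 0 ≤ κ)
    (hκ : κ ≤ 1 / 2) : IntegrableOn (fun v => (N v).toReal) (ball (0 : Euc m) R) :=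
  integrable_toReal_of_lintegral_ne_top h.mN.aemeasurable (h.lintegral_N_lt hC hκ0 hκ).ne

/-- **area formula**, real form -/
theorem area_real (h : Dat V x J τ q T Γ j lam N R C₀ κ) (hC : 0 ≤ C₀) (hκ0 : 0 ≤ κ)
    (hκ : κ ≤ 1 / 2) {F : Euc m → ℝ} (hF : Measurable F) (h0 : ∀ v, v ∉ ball (0 : Euc m) R → F v = 0) :
    ∫ p, J p * F (x p) ∂V = ∫ v, (N v).toReal * F v := by
  rw [← integral_nu h.mx h.mJ h.J0 hF, h.nu_J,
    ← setIntegral_eq_integral_of_forall_compl_eq_zero (s := ball (0 : Euc m) R) (fun v hv => h0 v hv),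
    restrict_withDensity measurableSet_ball,
    integral_withDensity_eq_integral_toReal_smul₀ h.mN.aemeasurable (h.ae_N_lt hC hκ0 hκ)]
  simp only [smul_eq_mul]
  refine setIntegral_eq_integral_of_forall_compl_eq_zero fun v hv => ?_
  rw [h0 v hv, mul_zero]

theorem μm_fin (h : Dat V x J τ q T Γ j lam N R C₀ κ) (hκ : κ ≤ 1 / 2) :
    μm V x j (ball 0 R) ≤ ENNReal.ofReal 2 * V (x ⁻¹' ball 0 R) := by
  have := h.fin
  unfold μm
  rw [nu_apply h.mx _ measurableSet_ball]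
  have h1 : ∫⁻ p in x ⁻¹' ball 0 R, ENNReal.ofReal ((j (x p))⁻¹) ∂V ≤
      ∫⁻ p in x ⁻¹' ball 0 R, ENNReal.ofReal 2 ∂V := by
    refine lintegral_mono_ae ?_
    filter_upwards [ae_restrict_mem (h.mx measurableSet_ball)] with p hp
    exact ENNReal.ofReal_le_ofReal (h.jb hκ hp).2.1
  refine h1.trans_eq ?_
  rw [lintegral_const, Measure.restrict_apply_univ]

theorem μm_S (h : Dat V x J τ q T Γ j lam N R C₀ κ) (hC : 0 ≤ C₀) (hκ0 : 0 ≤ κ)
    (hκ : κ ≤ 1 / 2) {S : Set (Euc m)} (hS : MeasurableSet S) (hSR : S ⊆ ball 0 R) :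
    μm V x j S ≤ (∫⁻ v in S, N v) + nu V x (hh C₀ κ τ q) S := by
  unfold μm
  rw [nu_apply h.mx _ hS, nu_apply h.mx _ hS, ← h.area_set hS, ← lintegral_add_left' ?_]
  · refine lintegral_mono_ae ?_
    filter_upwards [ae_restrict_of_ae (h.J_sub hC hκ0 hκ), ae_restrict_of_ae h.J0,
      ae_restrict_of_ae (h.hh_nonneg hC hκ0), ae_restrict_mem (h.mx hS)] with p h1 h2 h3 hp
    rw [← ENNReal.ofReal_add h2 h3]
    refine ENNReal.ofReal_le_ofReal ?_
    have := neg_abs_le (J p - (j (x p))⁻¹)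
    have := h1 (hSR hp)
    linarith
  · exact h.mJ.ennreal_ofReal.restrict

theorem N_S (h : Dat V x J τ q T Γ j lam N R C₀ κ) (hC : 0 ≤ C₀) (hκ0 : 0 ≤ κ)
    (hκ : κ ≤ 1 / 2) {S : Set (Euc m)} (hS : MeasurableSet S) (hSR : S ⊆ ball 0 R) :
    (∫⁻ v in S, N v) ≤ μm V x j S + nu V x (hh C₀ κ τ q) S := by
  unfold μm
  rw [nu_apply h.mx _ hS, nu_apply h.mx _ hS, ← h.area_set hS, ← lintegral_add_left' ?_]
  · refine lintegral_mono_ae ?_
    filter_upwards [ae_restrict_of_ae (h.J_sub hC hκ0 hκ), ae_restrict_of_ae h.J0,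
      ae_restrict_of_ae (h.hh_nonneg hC hκ0), ae_restrict_mem (h.mx hS)] with p h1 h2 h3 hp
    have h4 : 0 ≤ (j (x p))⁻¹ := (inv_pos.2 (h.jb hκ (hSR hp)).1).le
    rw [← ENNReal.ofReal_add h4 h3]
    refine ENNReal.ofReal_le_ofReal ?_
    have := le_abs_self (J p - (j (x p))⁻¹)
    have := h1 (hSR hp)
    linarith
  · exact ((h.mj.comp h.mx).inv.ennreal_ofReal).aemeasurable.restrict

theorem integral_N_eq (h : Dat V x J τ q T Γ j lam N R C₀ κ) (hC : 0 ≤ C₀) (hκ0 : 0 ≤ κ)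
    (hκ : κ ≤ 1 / 2) {S : Set (Euc m)} (hSR : S ⊆ ball 0 R) :
    ENNReal.ofReal (∫ v in S, (N v).toReal) = ∫⁻ v in S, N v := by
  have h1 := (h.integrableOn_N hC hκ0 hκ).mono_set hSR
  rw [ofReal_integral_eq_lintegral_ofReal h1 (Eventually.of_forall fun v => ENNReal.toReal_nonneg)]
  refine lintegral_congr_ae ?_
  have h2 : ∀ᵐ v ∂(volume.restrict S), N v < ⊤ :=
    ae_mono (Measure.restrict_mono hSR le_rfl) (h.ae_N_lt hC hκ0 hκ)
  filter_upwards [h2] with v hv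
  exact ENNReal.ofReal_toReal hv.ne

theorem e_fin (h : Dat V x J τ q T Γ j lam N R C₀ κ) (hC : 0 ≤ C₀) (hκ0 : 0 ≤ κ)
    (hκ : κ ≤ 1 / 2) (S : Set (Euc m)) : nu V x (hh C₀ κ τ q) S ≠ ⊤ := by
  have := h.fin
  refine ne_top_of_le_ne_top ?_ (measure_mono (subset_univ S))
  rw [nu_apply h.mx _ MeasurableSet.univ, preimage_univ, Measure.restrict_univ]
  have h1 : ∫⁻ p, ENNReal.ofReal (hh C₀ κ τ q p) ∂V ≤
      ∫⁻ p, ENNReal.ofReal (2 * (C₀ + 1) * (m + 1)) ∂V := by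
    refine lintegral_mono_ae ?_
    filter_upwards [h.hh_le hC hκ0 hκ] with p hp
    exact ENNReal.ofReal_le_ofReal hp
  refine (h1.trans_lt ?_).ne
  rw [lintegral_const]
  exact ENNReal.mul_lt_top ENNReal.ofReal_lt_top (measure_lt_top _ _)

theorem up (h : Dat V x J τ q T Γ j lam N R C₀ κ) (hC : 0 ≤ C₀) (hκ0 : 0 ≤ κ)
    (hκ : κ ≤ 1 / 2) {S : Set (Euc m)} (hS : MeasurableSet S) (hSR : S ⊆ ball 0 R) :
    ∫ v in S, (N v).toReal ≤ (μm V x j).real S + (nu V x (hh C₀ κ τ q)).real S := by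
  have := h.fin
  have hμ : μm V x j S ≠ ⊤ := by
    refine ne_top_of_le_ne_top ?_ ((measure_mono hSR).trans (h.μm_fin hκ))
    exact ENNReal.mul_ne_top ENNReal.ofReal_ne_top (measure_ne_top _ _)
  have he := h.e_fin hC hκ0 hκ S
  have h1 := h.N_S hC hκ0 hκ hS hSR
  rw [← h.integral_N_eq hC hκ0 hκ hSR] at h1
  have h2 : 0 ≤ ∫ v in S, (N v).toReal := integral_nonneg fun v => ENNReal.toReal_nonneg
  have h3 := ENNReal.toReal_mono (ENNReal.add_ne_top.2 ⟨hμ, he⟩) h1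
  rwa [ENNReal.toReal_ofReal h2, ENNReal.toReal_add hμ he] at h3

theorem low (h : Dat V x J τ q T Γ j lam N R C₀ κ) (hC : 0 ≤ C₀) (hκ0 : 0 ≤ κ)
    (hκ : κ ≤ 1 / 2) {S : Set (Euc m)} (hS : MeasurableSet S) (hSR : S ⊆ ball 0 R) :
    nu V x (gg C₀ κ τ q) S ≤ ENNReal.ofReal (4 * κ * (C₀ + 1) * (m + 1)) * μm V x j S := by
  unfold μm
  rw [nu_apply h.mx _ hS, nu_apply h.mx _ hS, ← lintegral_const_mul' _ _ ENNReal.ofReal_ne_top]
  refine lintegral_mono_ae ?_
  filter_upwards [ae_restrict_of_ae (h.gg_le hC hκ0), ae_restrict_mem (h.mx hS)] with p h1 hp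
  rw [← ENNReal.ofReal_mul (by positivity)]
  refine ENNReal.ofReal_le_ofReal (h1.trans ?_)
  have h2 := (h.jb hκ (hSR hp)).2.2.1
  calc 2 * κ * (C₀ + 1) * (m + 1) = 4 * κ * (C₀ + 1) * (m + 1) * (1 / 2) := by ring
    _ ≤ 4 * κ * (C₀ + 1) * (m + 1) * (j (x p))⁻¹ := by gcongr

end Dat

/-- division of a test field by the density -/
theorem contDiff_div {j : Euc m → ℝ} {R : ℝ} (js : ContDiffOn ℝ 1 j (ball 0 R))
    (hj : ∀ v ∈ ball (0 : Euc m) R, j v ≠ 0) {X : Euc m → Euc m} (hX : ContDiff ℝ 1 X)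
    (hs : tsupport X ⊆ ball 0 R) : ContDiff ℝ 1 fun w => (j w)⁻¹ • X w := by
  rw [contDiff_iff_contDiffAt]
  intro v
  by_cases hv : v ∈ tsupport X
  · have h1 : ContDiffAt ℝ 1 j v := js.contDiffAt (isOpen_ball.mem_nhds (hs hv))
    exact (h1.inv (hj v (hs hv))).smul hX.contDiffAt
  · have h1 : ∀ᶠ w in 𝓝 v, X w = 0 := by
      have := (isClosed_tsupport X).isOpen_compl.mem_nhds hv
      filter_upwards [this] with w hw
      exact image_eq_zero_of_notMem_tsupport hw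
    refine (contDiffAt_const (c := (0 : Euc m))).congr_of_eventuallyEq ?_
    filter_upwards [h1] with w hw
    rw [hw, smul_zero]

theorem tsupport_div {j : Euc m → ℝ} {X : Euc m → Euc m} :
    tsupport (fun w => (j w)⁻¹ • X w) ⊆ tsupport X := by
  refine closure_mono fun w hw => ?_
  rw [mem_support] at hw ⊢
  intro h0
  exact hw (by rw [h0, smul_zero])

namespace Dat

variable {V : Measure Ω} {x : Ω → Euc m} {J τ q : Ω → ℝ} {T : Ω → L m}
  {Γ : Ω → Euc m →L[ℝ] ℝ} {j : Euc m → ℝ} {lam : Euc m → Euc m} {N : Euc m → ℝ≥0∞}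
  {R C₀ κ : ℝ}

theorem stat (h : Dat V x J τ q T Γ j lam N R C₀ κ) (hC : 0 ≤ C₀) (hκ0 : 0 ≤ κ)
    (hκ : κ ≤ 1 / 2) {X : Euc m → Euc m} (hX : ContDiff ℝ ∞ X) (hXc : HasCompactSupport X)
    (hXs : tsupport X ⊆ ball 0 R) :
    |∫ y in ball (0 : Euc m) R, (N y).toReal * divg X y| ≤
      (2 * m) * (∫ y, ‖fderiv ℝ X y‖ ∂(nu V x (hh C₀ κ τ q))) +
        ∫ y, ‖X y‖ ∂(nu V x (gg C₀ κ τ q)) := by
  have := h.fin
  have hX0 : ∀ v, v ∉ ball (0 : Euc m) R → X v = 0 := fun v hv =>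
    image_eq_zero_of_notMem_tsupport fun hc => hv (hXs hc)
  have hD0 : ∀ v, v ∉ ball (0 : Euc m) R → fderiv ℝ X v = 0 := fun v hv => by
    by_contra hne
    exact hv (hXs (support_fderiv_subset ℝ (mem_support.2 hne)))
  have hdiv0 : ∀ v, v ∉ ball (0 : Euc m) R → divg X v = 0 := fun v hv => by
    rw [divg_eq, hD0 v hv, map_zero]
  have hDc : Continuous (fderiv ℝ X) := hX.continuous_fderiv (by simp)
  have hdivc : Continuous (divg X) := by
    have : divg X = fun z => tr (fderiv ℝ X z) := funext fun z => divg_eq X z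
    rw [this]
    exact tr.continuous.comp hDc
  set X' : Euc m → Euc m := fun w => (j w)⁻¹ • X w with hX'
  have hjne : ∀ v ∈ ball (0 : Euc m) R, j v ≠ 0 := fun v hv => (h.jb hκ hv).1.ne'
  have hX's : ContDiff ℝ 1 X' := contDiff_div h.js hjne (hX.of_le (by simp)) hXs
  have hX't : tsupport X' ⊆ tsupport X := tsupport_div
  have hX'c : HasCompactSupport X' := hXc.of_isClosed_subset (isClosed_tsupport _) hX't
  have hst := h.st X' hX's hX'c (hX't.trans hXs)
  have hX'0 : ∀ v, v ∉ ball (0 : Euc m) R → X' v = 0 := fun v hv => by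
    simp only [hX']
    rw [hX0 v hv, smul_zero]
  have hD'0 : ∀ v, v ∉ ball (0 : Euc m) R → fderiv ℝ X' v = 0 := fun v hv => by
    by_contra hne
    exact hv (hXs (hX't (support_fderiv_subset ℝ (mem_support.2 hne))))
  have hD'c : Continuous (fderiv ℝ X') := hX's.continuous_fderiv one_ne_zero
  set i : Ω → ℝ := fun p => tr (fderiv ℝ X' (x p) ∘L T p) + Γ p (X' (x p)) with hi
  have hxm : AEStronglyMeasurable x V := h.mx.aestronglyMeasurable
  have him : AEStronglyMeasurable i V := by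
    refine AEStronglyMeasurable.add ?_ ?_
    · have h1 : AEStronglyMeasurable (fun p => (fderiv ℝ X' (x p), T p)) V :=
        (hD'c.comp_aestronglyMeasurable hxm).prodMk h.mT
      have h2 : Continuous fun q : (L m) × (L m) => tr (q.1 ∘L q.2) :=
        tr.continuous.comp (continuous_fst.clm_comp continuous_snd)
      exact h2.comp_aestronglyMeasurable h1
    · have h1 : AEStronglyMeasurable (fun p => (Γ p, X' (x p))) V :=
        h.mΓ.prodMk (hX's.continuous.comp_aestronglyMeasurable hxm)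
      have h2 : Continuous fun q : (Euc m →L[ℝ] ℝ) × (Euc m) => q.1 q.2 :=
        isBoundedBilinearMap_apply.continuous
      exact h2.comp_aestronglyMeasurable h1
  -- bounds of the test field
  obtain ⟨B1, hB1⟩ := hXc.exists_bound_of_continuous hX.continuous
  obtain ⟨B2, hB2⟩ := (hXc.fderiv (𝕜 := ℝ)).exists_bound_of_continuous hDc
  have hB10 : 0 ≤ B1 := (norm_nonneg _).trans (hB1 0)
  have hB20 : 0 ≤ B2 := (norm_nonneg _).trans (hB2 0)
  set err : Ω → ℝ := fun p => J p * divg X (x p) - i p with herr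
  have hJd : AEStronglyMeasurable (fun p => J p * divg X (x p)) V :=
    h.mJ.aestronglyMeasurable.mul (hdivc.comp_aestronglyMeasurable hxm)
  have herrm : AEStronglyMeasurable err V := hJd.sub him
  have hpt : ∀ᵐ p ∂V, |err p| ≤
      (2 * m) * (hh C₀ κ τ q p * ‖fderiv ℝ X (x p)‖) + gg C₀ κ τ q p * ‖X (x p)‖ := by
    filter_upwards [h.pt_err hC hκ0 hκ (hX.differentiable (by simp)), h.hh_nonneg hC hκ0,
      h.gg_nonneg hC hκ0] with p h1 h2 h3
    by_cases hp : x p ∈ ball (0 : Euc m) R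
    · exact h1 hp
    · have e1 : err p = 0 := by
        simp only [herr, hi]
        rw [hdiv0 _ hp, hD'0 _ hp, hX'0 _ hp]
        simp
      rw [e1, abs_zero]
      positivity
  have hint1 : Integrable (fun p => hh C₀ κ τ q p * ‖fderiv ℝ X (x p)‖) V := by
    refine Integrable.mono' (integrable_const (2 * (C₀ + 1) * (m + 1) * B2))
      (h.mhh.aestronglyMeasurable.mul (hDc.norm.comp_aestronglyMeasurable hxm)) ?_
    filter_upwards [h.hh_nonneg hC hκ0, h.hh_le hC hκ0 hκ] with p h1 h2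
    rw [Real.norm_eq_abs, abs_mul, abs_of_nonneg h1, abs_of_nonneg (norm_nonneg _)]
    have := hB2 (x p)
    gcongr
  have hint2 : Integrable (fun p => gg C₀ κ τ q p * ‖X (x p)‖) V := by
    refine Integrable.mono' (integrable_const (2 * κ * (C₀ + 1) * (m + 1) * B1))
      (h.mgg.aestronglyMeasurable.mul (hX.continuous.norm.comp_aestronglyMeasurable hxm)) ?_
    filter_upwards [h.gg_nonneg hC hκ0, h.gg_le hC hκ0] with p h1 h2
    rw [Real.norm_eq_abs, abs_mul, abs_of_nonneg h1, abs_of_nonneg (norm_nonneg _)]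
    have := hB1 (x p)
    gcongr
  have hbint : Integrable (fun p => (2 * (m : ℝ)) * (hh C₀ κ τ q p * ‖fderiv ℝ X (x p)‖) +
      gg C₀ κ τ q p * ‖X (x p)‖) V := (hint1.const_mul _).add hint2
  have herri : Integrable err V := Integrable.mono' hbint herrm hpt
  have hJi : Integrable (fun p => J p * divg X (x p)) V := by
    refine Integrable.mono' (integrable_const ((2 + 2 * (C₀ + 1) * (m + 1)) * (m * B2))) hJd ?_
    filter_upwards [h.J_le hC hκ0 hκ, h.J0] with p h1 h2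
    by_cases hp : x p ∈ ball (0 : Euc m) R
    · rw [Real.norm_eq_abs, abs_mul, abs_of_nonneg h2]
      have e1 := h1 hp
      have e2 : |divg X (x p)| ≤ m * B2 := by
        rw [divg_eq]
        refine (abs_tr_le _).trans ?_
        have := hB2 (x p)
        gcongr
      exact mul_le_mul e1 e2 (abs_nonneg _) (by positivity)
    · rw [hdiv0 _ hp, mul_zero, norm_zero]
      positivity
  have hii : Integrable i V := by
    have h1 : i = fun p => J p * divg X (x p) - err p := by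
      funext p
      simp only [herr]; ring
    rw [h1]
    exact hJi.sub herri
  have e1 : ∫ y in ball (0 : Euc m) R, (N y).toReal * divg X y = ∫ p, J p * divg X (x p) ∂V := by
    rw [h.area_real hC hκ0 hκ hdivc.measurable hdiv0]
    refine setIntegral_eq_integral_of_forall_compl_eq_zero fun v hv => ?_
    rw [hdiv0 v hv, mul_zero]
  have e2 : ∫ p, J p * divg X (x p) ∂V = ∫ p, err p ∂V := by
    have h1 : ∫ p, err p ∂V = ∫ p, J p * divg X (x p) ∂V - ∫ p, i p ∂V := integral_sub hJi hii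
    rw [h1, show ∫ p, i p ∂V = 0 from hst, sub_zero]
  rw [e1, e2, integral_nu h.mx h.mhh (h.hh_nonneg hC hκ0) hDc.norm.measurable,
    integral_nu h.mx h.mgg (h.gg_nonneg hC hκ0) hX.continuous.norm.measurable,
    ← integral_const_mul, ← integral_add (hint1.const_mul _) hint2]
  exact (abs_integral_le_integral_abs).trans (integral_mono_ae herri.abs hbint hpt)

/-- **164's hypotheses** -/
theorem hyp (h : Dat V x J τ q T Γ j lam N R C₀ κ) (hC : 0 ≤ C₀) (hκ0 : 0 ≤ κ)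
    (hκ : κ ≤ 1 / 2) :
    Hyp (2 * m) 0 (ball 0 R) (fun v => (N v).toReal) (μm V x j) (nu V x (hh C₀ κ τ q))
      (nu V x (hh C₀ κ τ q)) (nu V x (gg C₀ κ τ q)) where
  isOpen := isOpen_ball
  meas := h.mN.ennreal_toReal
  nonneg := fun _ => ENNReal.toReal_nonneg
  int := h.integrableOn_N hC hκ0 hκ
  nat := by
    filter_upwards [h.ae_N_lt hC hκ0 hκ] with v hv
    obtain ⟨n, hn⟩ := h.nN v hv.ne
    exact ⟨n, by rw [hn]; simp⟩
  fin := by
    have := h.fin
    refine ne_top_of_le_ne_top ?_ (h.μm_fin hκ)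
    exact ENNReal.mul_ne_top ENNReal.ofReal_ne_top (measure_ne_top _ _)
  tilt := fun S _ _ => le_add_self
  mass := fun S hS hSR => by
    rw [h.integral_N_eq hC hκ0 hκ hSR]
    exact h.μm_S hC hκ0 hκ hS hSR
  stat := fun X hX hXc hXs => h.stat hC hκ0 hκ hX hXc hXs

end Dat

end Crest.Agent.R234.Tv_618
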