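import Crest.Agent.R234.Tv6_618

/-!
# Row 234, F3-TV, part 7 (helper618)

**`tv`** : the total variation of the anomaly measure `b = x_# V - Q j dv - (1/2) x_#(τ V)`.
-/

set_option autoImplicit false

open Set Filter Topology MeasureTheory Metric Function
open Crest.GeometryTopology.Submanifold
open Crest.Agent.R234.Vf_884
open scoped ENNReal NNReal ContDiff InnerProductSpace

noncomputable section

namespace Crest.Agent.R234.Tv_618

open Crest.Agent.R234.Th_164

variable {m : ℕ} {Ω : Type} [MeasurableSpace Ω]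

/-- the anomaly density -/
def ww (J τ : Ω → ℝ) (x : Ω → Euc m) (j : Euc m → ℝ) (p : Ω) : ℝ :=
  |1 - j (x p) * J p - τ p / 2|

/-- the dominating measure -/
def e2 (V : Measure Ω) (x : Ω → Euc m) (J τ : Ω → ℝ) (j : Euc m → ℝ) (N : Euc m → ℝ≥0∞) (Q : ℕ)
    (B : Set (Euc m)) : Measure (Euc m) :=
  (nu V x (ww J τ x j)).restrict B +
    (volume.restrict B).withDensity fun v => ENNReal.ofReal |j v * ((N v).toReal - Q)|

/-- total energy -/
def tot (V : Measure Ω) (x : Ω → Euc m) (τ q : Ω → ℝ) (κ R : ℝ) : ℝ :=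
  ∫ p in x ⁻¹' ball 0 R, (τ p + κ * q p) ∂V

namespace Dat

variable {V : Measure Ω} {x : Ω → Euc m} {J τ q : Ω → ℝ} {T : Ω → L m}
  {Γ : Ω → Euc m →L[ℝ] ℝ} {j : Euc m → ℝ} {lam : Euc m → Euc m} {N : Euc m → ℝ≥0∞}
  {R C₀ κ : ℝ}

theorem mww (h : Dat V x J τ q T Γ j lam N R C₀ κ) : AEMeasurable (ww J τ x j) V := by
  unfold ww
  have h1 : AEMeasurable (fun p => 1 - j (x p) * J p - τ p / 2) V :=
    ((aemeasurable_const).sub ((h.mj.comp h.mx).aemeasurable.mul h.mJ)).sub (h.mτ.div_const 2)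
  have h2 : (fun p => |1 - j (x p) * J p - τ p / 2|) =
      fun p => ‖1 - j (x p) * J p - τ p / 2‖ := by
    funext p; rw [Real.norm_eq_abs]
  rw [h2]
  exact h1.norm

theorem e2_fin (h : Dat V x J τ q T Γ j lam N R C₀ κ) (hC : 0 ≤ C₀) (hκ0 : 0 ≤ κ)
    (hκ : κ ≤ 1 / 2) {Q : ℕ} {B : Set (Euc m)} (hB : MeasurableSet B) (hBR : B ⊆ ball 0 R) :
    (nu V x (ww J τ x j)) B < ⊤ ∧
      ∫⁻ v in B, ENNReal.ofReal |j v * ((N v).toReal - Q)| < ⊤ := by
  have := h.fin
  constructor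
  · rw [nu_apply h.mx _ hB]
    have h1 : ∫⁻ p in x ⁻¹' B, ENNReal.ofReal (ww J τ x j p) ∂V ≤
        ∫⁻ p in x ⁻¹' B, ENNReal.ofReal (2 * (C₀ + 1) * (m + 1)) ∂V := by
      refine lintegral_mono_ae ?_
      filter_upwards [ae_restrict_of_ae h.anom, ae_restrict_of_ae (h.hh_le hC hκ0 hκ),
        ae_restrict_of_ae h.τ0, ae_restrict_of_ae h.q0, ae_restrict_mem (h.mx hB)]
        with p h2 h3 h4 h5 hp
      refine ENNReal.ofReal_le_ofReal ((h2 (hBR hp)).trans (le_trans ?_ h3))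
      unfold hh
      have e1 : 0 ≤ κ * q p := mul_nonneg hκ0 h5.1
      have e2 : 0 ≤ τ p := h4.1
      nlinarith
    refine h1.trans_lt ?_
    rw [lintegral_const]
    exact ENNReal.mul_lt_top ENNReal.ofReal_lt_top (measure_lt_top _ _)
  · have hvB : volume B < ⊤ := (measure_mono hBR).trans_lt measure_ball_lt_top
    have h1 : ∫⁻ v in B, ENNReal.ofReal |j v * ((N v).toReal - Q)| ≤
        ∫⁻ v in B, (ENNReal.ofReal 2 * N v + ENNReal.ofReal (2 * Q)) := by
      refine lintegral_mono_ae ?_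
      have hlt := ae_mono (Measure.restrict_mono hBR le_rfl) (h.ae_N_lt hC hκ0 hκ)
      filter_upwards [ae_restrict_mem hB, hlt] with v hv h2
      obtain ⟨k1, k2, k3, k4⟩ := h.jb hκ (hBR hv)
      have h3 : |j v * ((N v).toReal - Q)| ≤ 2 * (N v).toReal + 2 * Q := by
        rw [abs_mul, abs_of_pos k1]
        have h4 : |(N v).toReal - Q| ≤ (N v).toReal + Q := by
          refine (abs_sub _ _).trans (le_of_eq ?_)
          rw [abs_of_nonneg ENNReal.toReal_nonneg, abs_of_nonneg (Nat.cast_nonneg Q)]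
        have h5 := abs_nonneg ((N v).toReal - (Q : ℝ))
        nlinarith
      calc ENNReal.ofReal |j v * ((N v).toReal - Q)| ≤ ENNReal.ofReal (2 * (N v).toReal + 2 * Q) :=
            ENNReal.ofReal_le_ofReal h3
        _ = ENNReal.ofReal 2 * N v + ENNReal.ofReal (2 * Q) := by
            rw [ENNReal.ofReal_add (by positivity) (by positivity), ENNReal.ofReal_mul two_pos.le,
              ENNReal.ofReal_toReal h2.ne]
    refine h1.trans_lt ?_
    rw [lintegral_add_right _ measurable_const, lintegral_const_mul' _ _ ENNReal.ofReal_ne_top,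
      lintegral_const, Measure.restrict_apply_univ]
    refine ENNReal.add_lt_top.2 ⟨ENNReal.mul_lt_top ENNReal.ofReal_lt_top ?_,
      ENNReal.mul_lt_top ENNReal.ofReal_lt_top hvB⟩
    exact (lintegral_mono_set hBR).trans_lt (h.lintegral_N_lt hC hκ0 hκ)

theorem e2_isFinite (h : Dat V x J τ q T Γ j lam N R C₀ κ) (hC : 0 ≤ C₀) (hκ0 : 0 ≤ κ)
    (hκ : κ ≤ 1 / 2) {Q : ℕ} {B : Set (Euc m)} (hB : MeasurableSet B) (hBR : B ⊆ ball 0 R) :
    IsFiniteMeasure ((nu V x (ww J τ x j)).restrict B) ∧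
      IsFiniteMeasure ((volume.restrict B).withDensity
        fun v => ENNReal.ofReal |j v * ((N v).toReal - Q)|) := by
  obtain ⟨h1, h2⟩ := h.e2_fin (Q := Q) hC hκ0 hκ hB hBR
  refine ⟨⟨?_⟩, ⟨?_⟩⟩
  · rw [Measure.restrict_apply_univ]; exact h1
  · rw [withDensity_apply _ MeasurableSet.univ, Measure.restrict_univ]; exact h2

/-- `b` is dominated by `e2` -/
theorem dom (h : Dat V x J τ q T Γ j lam N R C₀ κ) (hC : 0 ≤ C₀) (hκ0 : 0 ≤ κ)
    (hκ : κ ≤ 1 / 2) (Q : ℕ) {B : Set (Euc m)} (hB : MeasurableSet B) (hBR : B ⊆ ball 0 R)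
    {F : Euc m → ℝ} (hF : Measurable F) {b : ℝ} (hb : ∀ v, |F v| ≤ b) (h0 : ∀ v, v ∉ B → F v = 0) :
    |∫ p, F (x p) * (1 - τ p / 2) ∂V - Q * ∫ v, F v * j v| ≤ ∫ v, |F v| ∂(e2 V x J τ j N Q B) := by
  have := h.fin
  obtain ⟨i1, i2⟩ := h.e2_isFinite (Q := Q) hC hκ0 hκ hB hBR
  have hb0 : 0 ≤ b := (abs_nonneg _).trans (hb 0)
  have hFx : AEStronglyMeasurable (fun p => F (x p)) V := (hF.comp h.mx).aestronglyMeasurable
  have hwm : AEStronglyMeasurable (fun p => 1 - j (x p) * J p - τ p / 2) V :=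
    (((aemeasurable_const).sub ((h.mj.comp h.mx).aemeasurable.mul h.mJ)).sub
      (h.mτ.div_const 2)).aestronglyMeasurable
  -- first term
  have hI1 : Integrable (fun p => F (x p) * (1 - j (x p) * J p - τ p / 2)) V := by
    refine Integrable.mono' (integrable_const (b * (2 * (C₀ + 1) * (m + 1)))) (hFx.mul hwm) ?_
    filter_upwards [h.anom, h.hh_le hC hκ0 hκ, h.τ0, h.q0] with p h2 h3 h4 h5
    by_cases hp : x p ∈ B
    · rw [Real.norm_eq_abs, abs_mul]
      have e1 := h2 (hBR hp)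
      have e3 : 0 ≤ κ * q p := mul_nonneg hκ0 h5.1
      have e4 : 0 ≤ τ p := h4.1
      have e5 : |1 - j (x p) * J p - τ p / 2| ≤ 2 * (C₀ + 1) * (m + 1) := by
        refine e1.trans (le_trans ?_ h3)
        unfold hh
        nlinarith
      exact mul_le_mul (hb _) e5 (abs_nonneg _) hb0
    · rw [h0 _ hp, zero_mul, norm_zero]
      positivity
  have hI2 : Integrable (fun p => J p * (F (x p) * j (x p))) V := by
    have hm2 : AEStronglyMeasurable (fun p => J p * (F (x p) * j (x p))) V :=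
      h.mJ.aestronglyMeasurable.mul (hFx.mul (h.mj.comp h.mx).aestronglyMeasurable)
    refine Integrable.mono' (integrable_const ((2 + 2 * (C₀ + 1) * (m + 1)) * (b * 2))) hm2 ?_
    filter_upwards [h.J_le hC hκ0 hκ, h.J0] with p h1 h2
    by_cases hp : x p ∈ B
    · obtain ⟨k1, k2, k3, k4⟩ := h.jb hκ (hBR hp)
      rw [Real.norm_eq_abs, abs_mul, abs_of_nonneg h2, abs_mul, abs_of_pos k1]
      have e1 := h1 (hBR hp)
      have e2 := hb (x p)
      gcongr
    · rw [h0 _ hp, zero_mul, mul_zero, norm_zero]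
      positivity
  have e1 : ∫ p, F (x p) * (1 - τ p / 2) ∂V =
      ∫ p, F (x p) * (1 - j (x p) * J p - τ p / 2) ∂V + ∫ p, J p * (F (x p) * j (x p)) ∂V := by
    rw [← integral_add hI1 hI2]
    refine integral_congr_ae (Eventually.of_forall fun p => ?_)
    simp only
    ring
  have hFj : Measurable fun v => F v * j v := hF.mul h.mj
  have hFj0 : ∀ v, v ∉ ball (0 : Euc m) R → F v * j v = 0 := fun v hv => by
    rw [h0 v (fun hc => hv (hBR hc)), zero_mul]
  have e2 : ∫ p, J p * (F (x p) * j (x p)) ∂V = ∫ v, (N v).toReal * (F v * j v) :=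
    h.area_real hC hκ0 hκ hFj hFj0
  -- integrals over the base
  have hvB : volume B ≠ ⊤ := ((measure_mono hBR).trans_lt measure_ball_lt_top).ne
  have hNi : IntegrableOn (fun v => (N v).toReal * (F v * j v)) B := by
    refine Integrable.mul_bdd (c := b * 2) ((h.integrableOn_N hC hκ0 hκ).mono_set hBR)
      hFj.aestronglyMeasurable ?_
    filter_upwards [ae_restrict_mem hB] with v hv
    obtain ⟨k1, k2, k3, k4⟩ := h.jb hκ (hBR hv)
    rw [Real.norm_eq_abs, abs_mul, abs_of_pos k1]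
    exact mul_le_mul (hb v) k4 k1.le hb0
  have hQi : IntegrableOn (fun v => F v * j v) B := by
    refine IntegrableOn.of_bound hvB.lt_top hFj.aestronglyMeasurable (b * 2) ?_
    filter_upwards [ae_restrict_mem hB] with v hv
    obtain ⟨k1, k2, k3, k4⟩ := h.jb hκ (hBR hv)
    rw [Real.norm_eq_abs, abs_mul, abs_of_pos k1]
    exact mul_le_mul (hb v) k4 k1.le hb0
  have e3 : (∫ v, (N v).toReal * (F v * j v)) - Q * ∫ v, F v * j v =
      ∫ v in B, F v * (j v * ((N v).toReal - Q)) := by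
    have e4 : ∫ v, (N v).toReal * (F v * j v) = ∫ v in B, (N v).toReal * (F v * j v) :=
      (setIntegral_eq_integral_of_forall_compl_eq_zero fun v hv => by
        rw [h0 v hv, zero_mul, mul_zero]).symm
    have e5 : ∫ v, F v * j v = ∫ v in B, F v * j v :=
      (setIntegral_eq_integral_of_forall_compl_eq_zero fun v hv => by
        rw [h0 v hv, zero_mul]).symm
    rw [e4, e5, ← integral_const_mul, ← integral_sub hNi (hQi.const_mul _)]
    refine integral_congr_ae (Eventually.of_forall fun v => ?_)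
    simp only
    ring
  have e6 : ∫ p, F (x p) * (1 - τ p / 2) ∂V - Q * ∫ v, F v * j v =
      ∫ p, F (x p) * (1 - j (x p) * J p - τ p / 2) ∂V +
        ∫ v in B, F v * (j v * ((N v).toReal - Q)) := by
    rw [e1, e2, ← e3]
    ring
  rw [e6]
  refine (abs_add_le _ _).trans ?_
  unfold Tv_618.e2
  have hbd1 : Integrable (fun v => |F v|) ((nu V x (ww J τ x j)).restrict B) :=
    Integrable.of_bound (hF.abs).aestronglyMeasurable b (Eventually.of_forall fun v => by
      rw [Real.norm_eq_abs, abs_abs]; exact hb v)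
  have hbd2 : Integrable (fun v => |F v|) ((volume.restrict B).withDensity
        fun v => ENNReal.ofReal |j v * ((N v).toReal - Q)|) :=
    Integrable.of_bound (hF.abs).aestronglyMeasurable b (Eventually.of_forall fun v => by
      rw [Real.norm_eq_abs, abs_abs]; exact hb v)
  rw [integral_add_measure hbd1 hbd2]
  refine add_le_add ?_ ?_
  · have k1 : ∫ v in B, |F v| ∂(nu V x (ww J τ x j)) = ∫ v, |F v| ∂(nu V x (ww J τ x j)) :=
      setIntegral_eq_integral_of_forall_compl_eq_zero fun v hv => by rw [h0 v hv, abs_zero]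
    rw [k1, integral_nu h.mx h.mww (Eventually.of_forall fun p => abs_nonneg _) hF.abs]
    refine (abs_integral_le_integral_abs).trans (le_of_eq ?_)
    refine integral_congr_ae (Eventually.of_forall fun p => ?_)
    simp only [ww]
    rw [abs_mul, mul_comm]
  · have hmd : Measurable fun v => |j v * ((N v).toReal - Q)| :=
      (h.mj.mul (h.mN.ennreal_toReal.sub_const _)).abs
    rw [integral_withDensity_eq_integral_toReal_smul₀ hmd.ennreal_ofReal.aemeasurable
      (Eventually.of_forall fun v => ENNReal.ofReal_lt_top)]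
    refine (abs_integral_le_integral_abs).trans (le_of_eq ?_)
    refine integral_congr_ae (Eventually.of_forall fun v => ?_)
    simp only [smul_eq_mul]
    rw [ENNReal.toReal_ofReal (abs_nonneg _), abs_mul, mul_comm]

theorem integrable_tq (h : Dat V x J τ q T Γ j lam N R C₀ κ) (hκ0 : 0 ≤ κ)
    (hκ : κ ≤ 1 / 2) : Integrable (fun p => τ p + κ * q p) V := by
  have := h.fin
  refine Integrable.mono' (integrable_const ((m : ℝ) + 1))
    (h.mτ.add (h.mq.const_mul κ)).aestronglyMeasurable ?_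
  filter_upwards [h.τ0, h.q0] with p h1 h2
  have e1 : κ * q p ≤ 1 := by nlinarith [h2.1, h2.2]
  have e2 : 0 ≤ κ * q p := mul_nonneg hκ0 h2.1
  rw [Real.norm_eq_abs, abs_of_nonneg (by linarith [h1.1])]
  linarith [h1.2]

theorem e_eq (h : Dat V x J τ q T Γ j lam N R C₀ κ) (hC : 0 ≤ C₀) (hκ0 : 0 ≤ κ)
    (hκ : κ ≤ 1 / 2) : nu V x (hh C₀ κ τ q) (ball 0 R) =
      ENNReal.ofReal (2 * (C₀ + 1) * tot V x τ q κ R) := by
  rw [nu_apply h.mx _ measurableSet_ball]
  unfold tot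
  rw [← integral_const_mul, ofReal_integral_eq_lintegral_ofReal
    ((h.integrable_tq hκ0 hκ).integrableOn.const_mul _)
    (ae_restrict_of_ae (h.hh_nonneg hC hκ0))]
  rfl

theorem G_le (h : Dat V x J τ q T Γ j lam N R C₀ κ) (hC : 0 ≤ C₀) (hκ0 : 0 ≤ κ)
    (hκ : κ ≤ 1 / 2) : nu V x (gg C₀ κ τ q) (ball 0 R) ≤ nu V x (hh C₀ κ τ q) (ball 0 R) := by
  rw [nu_apply h.mx _ measurableSet_ball, nu_apply h.mx _ measurableSet_ball]
  refine lintegral_mono_ae ?_
  filter_upwards [ae_restrict_of_ae h.τ0, ae_restrict_of_ae h.q0] with p h1 h2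
  refine ENNReal.ofReal_le_ofReal ?_
  unfold gg hh
  have e1 := h1.1
  have e2 : 0 ≤ (C₀ + 1) * ((1 - κ) * τ p) :=
    mul_nonneg (by linarith) (mul_nonneg (by linarith) e1)
  nlinarith

theorem tot_nonneg (h : Dat V x J τ q T Γ j lam N R C₀ κ) (hκ0 : 0 ≤ κ) :
    0 ≤ tot V x τ q κ R := by
  unfold tot
  refine integral_nonneg_of_ae ?_
  filter_upwards [ae_restrict_of_ae h.τ0, ae_restrict_of_ae h.q0] with p h1 h2
  have e2 : 0 ≤ κ * q p := mul_nonneg hκ0 h2.1
  change 0 ≤ τ p + κ * q p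
  linarith [h1.1]

theorem μm_close (h : Dat V x J τ q T Γ j lam N R C₀ κ) (hκ0 : 0 ≤ κ)
    (hκ : κ ≤ 1 / 2) {S : Set (Euc m)} (hS : MeasurableSet S) (hSR : S ⊆ ball 0 R) :
    |(μm V x j).real S - V.real (x ⁻¹' S)| ≤ 2 * κ * V.real (x ⁻¹' S) := by
  have := h.fin
  have hmi : Measurable fun p => (j (x p))⁻¹ := (h.mj.comp h.mx).inv
  have hint : IntegrableOn (fun p => (j (x p))⁻¹) (x ⁻¹' S) V := by
    refine IntegrableOn.of_bound (measure_lt_top _ _) hmi.aestronglyMeasurable 2 ?_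
    filter_upwards [ae_restrict_mem (h.mx hS)] with p hp
    obtain ⟨k1, k2, k3, k4⟩ := h.jb hκ (hSR hp)
    rw [Real.norm_eq_abs, abs_of_pos (inv_pos.2 k1)]
    exact k2
  have e1 : (μm V x j).real S = ∫ p in x ⁻¹' S, (j (x p))⁻¹ ∂V := by
    unfold μm
    rw [measureReal_def, nu_apply h.mx _ hS, integral_eq_lintegral_of_nonneg_ae ?_
      hmi.aestronglyMeasurable]
    filter_upwards [ae_restrict_mem (h.mx hS)] with p hp
    exact (inv_pos.2 (h.jb hκ (hSR hp)).1).le
  have e2 : V.real (x ⁻¹' S) = ∫ p in x ⁻¹' S, (1 : ℝ) ∂V := by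
    rw [setIntegral_const, smul_eq_mul, mul_one]
  have h1i : IntegrableOn (fun _ : Ω => (1 : ℝ)) (x ⁻¹' S) V := integrableOn_const (measure_ne_top _ _)
  have e3 : (μm V x j).real S - V.real (x ⁻¹' S) = ∫ p in x ⁻¹' S, ((j (x p))⁻¹ - 1) ∂V := by
    rw [e1, integral_sub hint h1i, e2]
  rw [e3]
  refine (abs_integral_le_integral_abs).trans ?_
  have e4 : ∫ p in x ⁻¹' S, |(j (x p))⁻¹ - 1| ∂V ≤ ∫ p in x ⁻¹' S, 2 * κ ∂V := by
    refine setIntegral_mono_on (hint.sub h1i).abs (integrableOn_const (measure_ne_top _ _))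
      (h.mx hS) fun p hp => ?_
    obtain ⟨k1, k2, k3, k4⟩ := h.jb hκ (hSR hp)
    have e5 := h.j1 _ (hSR hp)
    have e6 : (j (x p))⁻¹ - 1 = -((j (x p))⁻¹ * (j (x p) - 1)) := by field_simp; ring
    rw [e6, abs_neg, abs_mul, abs_of_pos (inv_pos.2 k1)]
    gcongr
  refine e4.trans (le_of_eq ?_)
  rw [setIntegral_const, smul_eq_mul]
  ring

end Dat

/-- layer cake: from sets to Lipschitz functions -/
theorem layer {ν e : Measure (Euc m)} [IsFiniteMeasure ν] [IsFiniteMeasure e] {B b : Set (Euc m)}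
    {K r : ℝ} (hK : 0 ≤ K) (hr : 0 ≤ r) (hb : MeasurableSet b)
    (h : ∀ B', MeasurableSet B' → B' ⊆ B → ν B' ≤ ENNReal.ofReal K * e (⋃ x ∈ B', closedBall x r))
    (hBb : ∀ x ∈ B, closedBall x r ⊆ b) {F : Euc m → ℝ} {Lf : ℝ≥0} (hF0 : ∀ v, 0 ≤ F v)
    (hL : LipschitzWith Lf F) (h0 : ∀ v, v ∉ B → F v = 0) {c : ℝ} (hc : ∀ v, F v ≤ c) :
    ∫ v, F v ∂ν ≤ K * ((∫ v in b, F v ∂e) + Lf * r * e.real b) := by
  have hFm : Measurable F := hL.continuous.measurable
  have hLr : 0 ≤ (Lf : ℝ) * r := mul_nonneg Lf.2 hr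
  have hFi : ∀ (ρ : Measure (Euc m)) [IsFiniteMeasure ρ], Integrable F ρ := fun ρ _ =>
    Integrable.of_bound hFm.aestronglyMeasurable c (Eventually.of_forall fun v => by
      rw [Real.norm_eq_abs, abs_of_nonneg (hF0 v)]; exact hc v)
  have key : ∫⁻ v, ENNReal.ofReal (F v) ∂ν ≤
      ENNReal.ofReal K * ∫⁻ v, ENNReal.ofReal (F v + Lf * r) ∂(e.restrict b) := by
    rw [lintegral_eq_lintegral_meas_lt ν (Eventually.of_forall hF0) hFm.aemeasurable,
      lintegral_eq_lintegral_meas_lt (e.restrict b)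
        (Eventually.of_forall fun v => add_nonneg (hF0 v) hLr) (hFm.add_const _).aemeasurable,
      ← lintegral_const_mul' _ _ ENNReal.ofReal_ne_top]
    refine lintegral_mono_ae ?_
    filter_upwards [ae_restrict_mem measurableSet_Ioi] with t ht
    have ht0 : 0 < t := ht
    have hm1 : MeasurableSet {a | t < F a} := measurableSet_lt measurable_const hFm
    have hsub : {a | t < F a} ⊆ B := by
      intro a ha
      by_contra hcon
      have ha' : t < F a := ha
      rw [h0 a hcon] at ha'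
      linarith
    refine (h _ hm1 hsub).trans ?_
    refine mul_le_mul' le_rfl ?_
    have hm2 : MeasurableSet {a | t < F a + Lf * r} :=
      measurableSet_lt measurable_const (hFm.add_const _)
    rw [Measure.restrict_apply hm2]
    refine measure_mono ?_
    refine iUnion₂_subset fun x hx a ha => ⟨?_, hBb x (hsub hx) ha⟩
    have h1 := hL.dist_le_mul x a
    rw [mem_closedBall, dist_comm] at ha
    have h2 : F x - F a ≤ Lf * r := by
      calc F x - F a ≤ |F x - F a| := le_abs_self _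
        _ = dist (F x) (F a) := (Real.dist_eq _ _).symm
        _ ≤ Lf * dist x a := h1
        _ ≤ Lf * r := by gcongr
    have hx' : t < F x := hx
    change t < F a + Lf * r
    linarith
  have hi2 : Integrable (fun v => F v + Lf * r) (e.restrict b) :=
    (hFi _).add (integrable_const _)
  rw [← ofReal_integral_eq_lintegral_ofReal (hFi ν) (Eventually.of_forall hF0),
    ← ofReal_integral_eq_lintegral_ofReal hi2
      (Eventually.of_forall fun v => add_nonneg (hF0 v) hLr), ← ENNReal.ofReal_mul hK] at key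
  have h3 : 0 ≤ K * ∫ v, (F v + Lf * r) ∂(e.restrict b) :=
    mul_nonneg hK (integral_nonneg fun v => add_nonneg (hF0 v) hLr)
  have h4 := (ENNReal.ofReal_le_ofReal_iff h3).1 key
  refine h4.trans (le_of_eq ?_)
  congr 1
  rw [integral_add (hFi _) (integrable_const _), integral_const, smul_eq_mul]
  congr 1
  rw [measureReal_restrict_apply MeasurableSet.univ, univ_inter]
  ring

namespace Dat

variable {V : Measure Ω} {x : Ω → Euc m} {J τ q : Ω → ℝ} {T : Ω → L m}
  {Γ : Ω → Euc m →L[ℝ] ℝ} {j : Euc m → ℝ} {lam : Euc m → Euc m} {N : Euc m → ℝ≥0∞}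
  {R C₀ κ : ℝ}

theorem e_isFinite (h : Dat V x J τ q T Γ j lam N R C₀ κ) (hC : 0 ≤ C₀) (hκ0 : 0 ≤ κ)
    (hκ : κ ≤ 1 / 2) : IsFiniteMeasure (nu V x (hh C₀ κ τ q)) :=
  ⟨(h.e_fin hC hκ0 hκ univ).lt_top⟩

/-- the energy tested with a nonnegative function -/
theorem integral_w_le (h : Dat V x J τ q T Γ j lam N R C₀ κ) (hC : 0 ≤ C₀) (hκ0 : 0 ≤ κ)
    (hκ : κ ≤ 1 / 2) {B : Set (Euc m)} (hBR : B ⊆ ball 0 R)
    {F : Euc m → ℝ} (hF : Measurable F) (hF0 : ∀ v, 0 ≤ F v) {b : ℝ} (hb : ∀ v, F v ≤ b)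
    (h0 : ∀ v, v ∉ B → F v = 0) :
    ∫ v in B, F v ∂(nu V x (ww J τ x j)) ≤ C₀ * ∫ p, F (x p) * (τ p + κ * q p) ∂V ∧
      (∫ v in ball 0 R, F v ∂(nu V x (hh C₀ κ τ q))) =
        2 * (C₀ + 1) * ∫ p, F (x p) * (τ p + κ * q p) ∂V := by
  have := h.fin
  have hb0 : 0 ≤ b := (hF0 0).trans (hb 0)
  have hFx : AEStronglyMeasurable (fun p => F (x p)) V := (hF.comp h.mx).aestronglyMeasurable
  have hint : Integrable (fun p => F (x p) * (τ p + κ * q p)) V := by
    refine Integrable.bdd_mul (c := b) (h.integrable_tq hκ0 hκ) hFx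
      (Eventually.of_forall fun p => ?_)
    rw [Real.norm_eq_abs, abs_of_nonneg (hF0 _)]
    exact hb _
  constructor
  · rw [setIntegral_eq_integral_of_forall_compl_eq_zero fun v hv => h0 v hv,
      integral_nu h.mx h.mww (Eventually.of_forall fun p => abs_nonneg _) hF,
      ← integral_const_mul]
    refine integral_mono_of_nonneg (Eventually.of_forall fun p =>
      mul_nonneg (abs_nonneg _) (hF0 _)) (hint.const_mul _) ?_
    filter_upwards [h.anom] with p hp
    by_cases hxB : x p ∈ B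
    · have h1 := hp (hBR hxB)
      change ww J τ x j p * F (x p) ≤ C₀ * (F (x p) * (τ p + κ * q p))
      calc ww J τ x j p * F (x p) ≤ (C₀ * (τ p + κ * q p)) * F (x p) :=
            mul_le_mul_of_nonneg_right h1 (hF0 _)
        _ = _ := by ring
    · change ww J τ x j p * F (x p) ≤ C₀ * (F (x p) * (τ p + κ * q p))
      rw [h0 _ hxB]
      simp
  · rw [setIntegral_eq_integral_of_forall_compl_eq_zero fun v hv => h0 v fun hc => hv (hBR hc),
      integral_nu h.mx h.mhh (h.hh_nonneg hC hκ0) hF, ← integral_const_mul]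
    refine integral_congr_ae (Eventually.of_forall fun p => ?_)
    simp only [hh]
    ring

end Dat

set_option maxHeartbeats 1000000 in
/-- **F3-TV, abstract form** -/
theorem tv (hm0 : 0 < m) {C : ℝ} (hSC : SC2 m C) (Q : ℕ) {C₀ : ℝ} (hC : 0 ≤ C₀) {Λ : ℝ}
    (hΛ : 0 ≤ Λ) :
    ∃ κ₀ : ℝ, 0 < κ₀ ∧ ∃ C1 : ℝ, 0 ≤ C1 ∧ ∃ Ct : ℝ, 0 ≤ Ct ∧ ∀ ε : ℝ, 0 < ε → ε ≤ 1 → ∀ κ : ℝ, 0 ≤ κ → κ ≤ κ₀ →
      ∀ {Ω : Type} [MeasurableSpace Ω] {V : Measure Ω} {x : Ω → Euc m} {J τ q : Ω → ℝ}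
        {T : Ω → L m} {Γ : Ω → Euc m →L[ℝ] ℝ} {j : Euc m → ℝ} {lam : Euc m → Euc m}
        {N : Euc m → ℝ≥0∞},
        Dat V x J τ q T Γ j lam N (1 + ε) C₀ κ →
        V.real (x ⁻¹' ball 0 (1 + ε)) ≤ Λ →
        |V.real (x ⁻¹' ball 0 (1 / 4)) - Q * volume.real (ball (0 : Euc m) (1 / 4))| ≤
          1 / 4 * volume.real (ball (0 : Euc m) (1 / 4)) →
        ∃ e : Measure (Euc m), IsFiniteMeasure e ∧
          (∀ F : Euc m → ℝ, Measurable F → (∃ b : ℝ, ∀ v, |F v| ≤ b) →
            (∀ v, v ∉ closedBall (0 : Euc m) (1 + ε / 2) → F v = 0) →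
            |∫ p, F (x p) * (1 - τ p / 2) ∂V - Q * ∫ v, F v * j v| ≤ ∫ v, |F v| ∂e) ∧
          e.real (closedBall 0 (1 + ε / 2)) ≤ Ct / ε ^ (2 * m) * tot V x τ q κ (1 + ε) ∧
          ∀ (F : Euc m → ℝ) (Lf : ℝ≥0), (∀ v, 0 ≤ F v) → LipschitzWith Lf F →
            (∀ v, v ∉ closedBall (0 : Euc m) (1 + ε / 2) → F v = 0) →
            ∫ v, F v ∂e ≤ C1 * ∫ p, F (x p) * (τ p + κ * q p) ∂V +
              Lf * (Ct * (tot V x τ q κ (1 + ε) * tot V x τ q κ (1 + ε) ^ (1 / (m : ℝ))) /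
                ε ^ (2 * m + 2)) := by
  have hom := om_pos m
  obtain ⟨g₁, hg1, δs, hδ0, hδ1, Cs, hCs, δ₁, hδ₁, hδs1, hsm⟩ := small hSC Q (C₁ := 2 * m)
    (by positivity) (Λ := 2 * Λ) (by positivity)
  set κ₀ : ℝ := min (1 / 2) (min (1 / (16 * (Q + 1))) (g₁ / (4 * (C₀ + 1) * (m + 1)))) with hκ₀
  have hκ₀0 : 0 < κ₀ := lt_min (by norm_num) (lt_min (by positivity) (by positivity))
  set K1 : ℝ := C₀ + 4 * Cs * (C₀ + 1) with hK1
  set K2 : ℝ := C₀ + 4 * (C₀ + 1) + 2 * (2 * Λ + Q * (om m * 2 ^ m)) * (2 * (C₀ + 1) / δs) with hK2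
  have hK10 : 0 ≤ K1 := by positivity
  have hK20 : 0 ≤ K2 := by positivity
  set K3 : ℝ := 2 * Cs * (2 * (C₀ + 1)) * (2 * (C₀ + 1) / δ₁) ^ (1 / (m : ℝ)) with hK3
  set K4 : ℝ := 5 * K2 / (δs / (2 * (C₀ + 1))) ^ (1 / (m : ℝ)) with hK4
  have hK30 : 0 ≤ K3 := by positivity
  have hK40 : 0 ≤ K4 := by positivity
  have hm0' : (m : ℝ) ≠ 0 := by exact_mod_cast hm0.ne'
  refine ⟨κ₀, hκ₀0, K1, hK10, K1 + K2 + K3 + K4, by positivity, ?_⟩
  intro ε hε0 hε1 κ hκ0 hκ1 Ω _ V x J τ q T Γ j lam N h hVΛ hQ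
  have := h.fin
  have hκ : κ ≤ 1 / 2 := hκ1.trans (min_le_left _ _)
  have hκ2 : κ ≤ 1 / (16 * (Q + 1)) := hκ1.trans ((min_le_right _ _).trans (min_le_left _ _))
  have hκ3 : κ ≤ g₁ / (4 * (C₀ + 1) * (m + 1)) :=
    hκ1.trans ((min_le_right _ _).trans (min_le_right _ _))
  set B : Set (Euc m) := closedBall 0 (1 + ε / 2) with hBdef
  have hB : MeasurableSet B := measurableSet_closedBall
  have hBR : B ⊆ ball 0 (1 + ε) := closedBall_subset_ball (by linarith)
  obtain ⟨i1, i2⟩ := h.e2_isFinite (Q := Q) hC hκ0 hκ hB hBR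
  have hefin : IsFiniteMeasure (e2 V x J τ j N Q B) := by unfold e2; infer_instance
  refine ⟨e2 V x J τ j N Q B, hefin, ?_, ?_⟩
  · rintro F hF ⟨b, hb⟩ h0
    exact h.dom hC hκ0 hκ Q hB hBR hF hb h0
  -- the mass of e2
  set t : ℝ := tot V x τ q κ (1 + ε) with ht
  have ht0 : 0 ≤ t := h.tot_nonneg hκ0
  have hεp : 0 < ε ^ (2 * m) := pow_pos hε0 _
  have hεp1 : ε ^ (2 * m) ≤ 1 := pow_le_one₀ hε0.le hε1
  have hInt : IntegrableOn (fun v => |(N v).toReal - (Q : ℝ)|) B := by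
    have hvB : volume B ≠ ⊤ := ((measure_mono hBR).trans_lt measure_ball_lt_top).ne
    exact (((h.integrableOn_N hC hκ0 hκ).mono_set hBR).sub (integrableOn_const hvB)).abs
  set D : ℝ := ∫ v in B, |(N v).toReal - (Q : ℝ)| with hD
  have hD0 : 0 ≤ D := integral_nonneg fun v => abs_nonneg _
  have hmass : (e2 V x J τ j N Q B).real B ≤ C₀ * t + 2 * D := by
    have k1 : ((nu V x (ww J τ x j)).restrict B) B ≤ ENNReal.ofReal (C₀ * t) := by
      rw [Measure.restrict_apply hB, inter_self, nu_apply h.mx _ hB]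
      have k2 : ∫⁻ p in x ⁻¹' B, ENNReal.ofReal (ww J τ x j p) ∂V ≤
          ∫⁻ p in x ⁻¹' ball 0 (1 + ε), ENNReal.ofReal (C₀ * (τ p + κ * q p)) ∂V := by
        refine (lintegral_mono_set (preimage_mono hBR)).trans ?_
        refine lintegral_mono_ae ?_
        filter_upwards [ae_restrict_of_ae h.anom, ae_restrict_mem (h.mx measurableSet_ball)]
          with p h2 hp
        exact ENNReal.ofReal_le_ofReal (h2 hp)
      refine k2.trans (le_of_eq ?_)
      rw [ht]
      unfold tot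
      rw [← integral_const_mul, ofReal_integral_eq_lintegral_ofReal
        ((h.integrable_tq hκ0 hκ).integrableOn.const_mul _)]
      filter_upwards [ae_restrict_of_ae h.τ0, ae_restrict_of_ae h.q0] with p h1 h2
      have e1 : 0 ≤ κ * q p := mul_nonneg hκ0 h2.1
      have e2 := h1.1
      change 0 ≤ C₀ * (τ p + κ * q p)
      positivity
    have k3 : ((volume.restrict B).withDensity
        fun v => ENNReal.ofReal |j v * ((N v).toReal - Q)|) B ≤ ENNReal.ofReal (2 * D) := by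
      rw [withDensity_apply _ hB, Measure.restrict_restrict hB, inter_self, hD,
        ← integral_const_mul, ofReal_integral_eq_lintegral_ofReal (hInt.const_mul _)
          (Eventually.of_forall fun v => by positivity)]
      refine lintegral_mono_ae ?_
      filter_upwards [ae_restrict_mem hB] with v hv
      refine ENNReal.ofReal_le_ofReal ?_
      obtain ⟨a1, a2, a3, a4⟩ := h.jb hκ (hBR hv)
      rw [abs_mul, abs_of_pos a1]
      gcongr
    unfold e2
    refine ENNReal.toReal_le_of_le_ofReal (by positivity) ?_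
    rw [Measure.add_apply, ENNReal.ofReal_add (by positivity) (by positivity)]
    exact add_le_add k1 k3
  have hee := h.e_eq hC hκ0 hκ
  have htt : t ≤ t / ε ^ (2 * m) := by
    rw [le_div_iff₀ hεp]
    nlinarith
  have htt0 : 0 ≤ t / ε ^ (2 * m) := by positivity
  -- Lipschitz functions vanishing off `B` are bounded
  have hsup : ∀ (F : Euc m → ℝ) (Lf : ℝ≥0), (∀ v, 0 ≤ F v) → LipschitzWith Lf F →
      (∀ v, v ∉ B → F v = 0) → ∀ v, F v ≤ 5 * Lf := by
    intro F Lf hF0 hL h0 v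
    by_cases hv : v ∈ B
    · set w : Euc m := EuclideanSpace.single ⟨0, hm0⟩ 3 with hw
      have hwn : ‖w‖ = 3 := by rw [hw]; simp
      have hwB : w ∉ B := by
        rw [hBdef, mem_closedBall_zero_iff, hwn]; linarith
      have h1 := hL.dist_le_mul v w
      rw [h0 w hwB, Real.dist_eq, sub_zero, abs_of_nonneg (hF0 v), dist_eq_norm] at h1
      have h2 : ‖v - w‖ ≤ 5 := by
        rw [hBdef, mem_closedBall_zero_iff] at hv
        refine (norm_sub_le _ _).trans ?_
        rw [hwn]; linarith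
      calc F v ≤ Lf * ‖v - w‖ := h1
        _ ≤ Lf * 5 := by gcongr
        _ = 5 * Lf := by ring
    · rw [h0 v hv]; positivity
  have hti : 0 ≤ t ^ (1 / (m : ℝ)) := Real.rpow_nonneg ht0 _
  have hε2 : ε ^ (2 * m + 2) = ε ^ (2 * m) * ε ^ 2 := by rw [pow_add]
  have hε22 : 0 < ε ^ (2 * m + 2) := pow_pos hε0 _
  have hε221 : ε ^ (2 * m + 2) ≤ 1 := pow_le_one₀ hε0.le hε1
  have hFint : ∀ (F : Euc m → ℝ) (Lf : ℝ≥0), (∀ v, 0 ≤ F v) → LipschitzWith Lf F →
      (∀ v, v ∉ B → F v = 0) → 0 ≤ ∫ p, F (x p) * (τ p + κ * q p) ∂V := by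
    intro F Lf hF0 _ _
    refine integral_nonneg_of_ae ?_
    filter_upwards [h.τ0, h.q0] with p h1 h2
    have e1 : 0 ≤ κ * q p := mul_nonneg hκ0 h2.1
    exact mul_nonneg (hF0 _) (by linarith [h1.1])
  suffices hfin : (e2 V x J τ j N Q B).real B ≤ (K1 + K2) * (t / ε ^ (2 * m)) ∧
      ∀ (F : Euc m → ℝ) (Lf : ℝ≥0), (∀ v, 0 ≤ F v) → LipschitzWith Lf F → (∀ v, v ∉ B → F v = 0) →
        ∫ v, F v ∂(e2 V x J τ j N Q B) ≤ K1 * ∫ p, F (x p) * (τ p + κ * q p) ∂V +
          Lf * ((K3 + K4) * (t * t ^ (1 / (m : ℝ))) / ε ^ (2 * m + 2)) by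
    obtain ⟨f1, f2⟩ := hfin
    constructor
    · refine f1.trans ?_
      have e9 : (K1 + K2 + K3 + K4) / ε ^ (2 * m) * t =
          (K1 + K2) * (t / ε ^ (2 * m)) + (K3 + K4) * (t / ε ^ (2 * m)) := by ring
      rw [e9]
      have a1 : 0 ≤ (K3 + K4) * (t / ε ^ (2 * m)) := by positivity
      linarith
    · intro F Lf hF0 hL h0
      refine (f2 F Lf hF0 hL h0).trans ?_
      have a1 : (K3 + K4) * (t * t ^ (1 / (m : ℝ))) / ε ^ (2 * m + 2) ≤
          (K1 + K2 + K3 + K4) * (t * t ^ (1 / (m : ℝ))) / ε ^ (2 * m + 2) := by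
        gcongr
        linarith
      have a2 : (Lf : ℝ) * ((K3 + K4) * (t * t ^ (1 / (m : ℝ))) / ε ^ (2 * m + 2)) ≤
          Lf * ((K1 + K2 + K3 + K4) * (t * t ^ (1 / (m : ℝ))) / ε ^ (2 * m + 2)) :=
        mul_le_mul_of_nonneg_left a1 Lf.2
      linarith
  rcases le_or_gt (2 * (C₀ + 1) * t) (δs * ε ^ (2 * m)) with hcase | hcase
  · -- small energy
    have hclose := h.μm_close hκ0 hκ (S := ball 0 (1 / 4)) measurableSet_ball
      (ball_subset_ball (by linarith))
    set vv : ℝ := volume.real (ball (0 : Euc m) (1 / 4)) with hvv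
    have hvv0 : 0 ≤ vv := measureReal_nonneg
    have hVq : V.real (x ⁻¹' ball 0 (1 / 4)) ≤ (Q + 1) * vv := by
      have := (abs_le.1 hQ).2
      linarith
    have hm2 : 2 * κ * V.real (x ⁻¹' ball 0 (1 / 4)) ≤ 1 / 8 * vv := by
      calc 2 * κ * V.real (x ⁻¹' ball 0 (1 / 4)) ≤ 2 * (1 / (16 * (Q + 1))) * ((Q + 1) * vv) := by
            gcongr
        _ = 1 / 8 * vv := by
            have hQ1 : (Q : ℝ) + 1 ≠ 0 := by positivity
            field_simp
            ring
    have hQ' : |(Dat.μm V x j).real (ball 0 (1 / 4)) - Q * vv| ≤ 3 / 8 * vv := by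
      have e1 : (Dat.μm V x j).real (ball 0 (1 / 4)) - Q * vv =
          ((Dat.μm V x j).real (ball 0 (1 / 4)) - V.real (x ⁻¹' ball 0 (1 / 4))) +
            (V.real (x ⁻¹' ball 0 (1 / 4)) - Q * vv) := by ring
      rw [e1]
      refine (abs_add_le _ _).trans ?_
      linarith
    have hGe := h.G_le hC hκ0 hκ
    have hs := hsm ε hε0 hε1 (4 * κ * (C₀ + 1) * (m + 1)) (fun v => (N v).toReal) (Dat.μm V x j)
      (nu V x (hh C₀ κ τ q)) (nu V x (gg C₀ κ τ q)) (by positivity)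
      (by
        calc 4 * κ * (C₀ + 1) * (m + 1) = κ * (4 * (C₀ + 1) * (m + 1)) := by ring
          _ ≤ (g₁ / (4 * (C₀ + 1) * (m + 1))) * (4 * (C₀ + 1) * (m + 1)) := by gcongr
          _ = g₁ := by field_simp)
      (h.hyp hC hκ0 hκ) (fun S hS hSR => h.low hC hκ0 hκ hS hSR)
      (fun S hS hSR => h.up hC hκ0 hκ hS hSR)
      (by
        refine (h.μm_fin hκ).trans ?_
        rw [ENNReal.ofReal_mul two_pos.le]
        gcongr
        rw [← ENNReal.ofReal_toReal (measure_ne_top V _)]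
        exact ENNReal.ofReal_le_ofReal hVΛ)
      hQ' (by rw [hee]; exact ENNReal.ofReal_le_ofReal hcase)
      (by
        refine hGe.trans ?_
        rw [hee]
        exact ENNReal.ofReal_le_ofReal hcase)
    have hBb : ∀ r : ℝ, r ≤ ε / 64 → ∀ x ∈ B, closedBall x r ⊆ ball (0 : Euc m) (1 + ε) := by
      intro r hr y hy z hz
      rw [hBdef, mem_closedBall_zero_iff] at hy
      rw [mem_closedBall, dist_eq_norm] at hz
      rw [mem_ball_zero_iff]
      calc ‖z‖ = ‖(z - y) + y‖ := by rw [sub_add_cancel]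
        _ ≤ ‖z - y‖ + ‖y‖ := norm_add_le _ _
        _ < 1 + ε := by linarith
    have hE64 : 2 * (C₀ + 1) * t ≤ δ₁ * (ε / 64) ^ m := by
      refine hcase.trans ?_
      have e1 : ε ^ (2 * m) ≤ ε ^ m := pow_le_pow_of_le_one hε0.le hε1 (by omega)
      calc δs * ε ^ (2 * m) ≤ (δ₁ / 64 ^ m) * ε ^ m := by gcongr
        _ = δ₁ * (ε / 64) ^ m := by rw [div_pow]; field_simp
    constructor
    · have hs1 := hs B (ε / 64) hB subset_rfl (by positivity) le_rfl
        (by rw [hee]; exact ENNReal.ofReal_le_ofReal hE64)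
      have hD1 : D ≤ Cs * (2 * (C₀ + 1) * t) := by
        have e1 : ENNReal.ofReal D ≤ ENNReal.ofReal (Cs * (2 * (C₀ + 1) * t)) := by
          rw [hD, ofReal_integral_eq_lintegral_ofReal hInt
            (Eventually.of_forall fun v => abs_nonneg _), ENNReal.ofReal_mul hCs, ht, ← hee]
          refine hs1.trans ?_
          gcongr
          exact iUnion₂_subset fun y hy => hBb _ le_rfl y hy
        exact (ENNReal.ofReal_le_ofReal_iff (by positivity)).1 e1
      calc (e2 V x J τ j N Q B).real B ≤ C₀ * t + 2 * D := hmass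
        _ ≤ C₀ * t + 2 * (Cs * (2 * (C₀ + 1) * t)) := by gcongr
        _ = K1 * t := by rw [hK1]; ring
        _ ≤ K1 * (t / ε ^ (2 * m)) := by gcongr
        _ ≤ (K1 + K2) * (t / ε ^ (2 * m)) := by gcongr; linarith
    · intro F Lf hF0 hL h0
      have hFm : Measurable F := hL.continuous.measurable
      have hFb := hsup F Lf hF0 hL h0
      have hFi : ∀ (ρ : Measure (Euc m)) [IsFiniteMeasure ρ], Integrable F ρ := fun ρ _ =>
        Integrable.of_bound hFm.aestronglyMeasurable (5 * Lf) (Eventually.of_forall fun v => by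
          rw [Real.norm_eq_abs, abs_of_nonneg (hF0 v)]; exact hFb v)
      obtain ⟨w1, w2⟩ := h.integral_w_le hC hκ0 hκ hBR hFm hF0 hFb h0
      have hef := h.e_isFinite hC hκ0 hκ
      -- the radius
      obtain ⟨r, hr0, hr64, hrE, hrt⟩ : ∃ r : ℝ, 0 < r ∧ r ≤ ε / 64 ∧
          2 * (C₀ + 1) * t ≤ δ₁ * r ^ m ∧
          r * t = (2 * (C₀ + 1) / δ₁) ^ (1 / (m : ℝ)) * (t * t ^ (1 / (m : ℝ))) := by
        rcases eq_or_lt_of_le ht0 with h00 | h00
        · refine ⟨ε / 64, by positivity, le_rfl, hE64, ?_⟩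
          rw [← h00]; simp
        · set E : ℝ := 2 * (C₀ + 1) * t with hE
          have hE0 : 0 < E := by positivity
          refine ⟨(E / δ₁) ^ (1 / (m : ℝ)), by positivity, ?_, ?_, ?_⟩
          · have e1 : E / δ₁ ≤ (ε / 64) ^ m := by rw [div_le_iff₀ hδ₁]; linarith
            calc (E / δ₁) ^ (1 / (m : ℝ)) ≤ ((ε / 64) ^ m) ^ (1 / (m : ℝ)) :=
                  Real.rpow_le_rpow (by positivity) e1 (by positivity)
              _ = ε / 64 := by
                  rw [one_div, Real.pow_rpow_inv_natCast (by positivity) hm0.ne']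
          · have e1 : ((E / δ₁) ^ (1 / (m : ℝ))) ^ m = E / δ₁ := by
              rw [one_div, Real.rpow_inv_natCast_pow (by positivity) hm0.ne']
            rw [e1, mul_div_cancel₀ _ hδ₁.ne']
          · have e1 : E / δ₁ = (2 * (C₀ + 1) / δ₁) * t := by rw [hE]; ring
            rw [e1, Real.mul_rpow (by positivity) ht0]
            ring
      have hnu2 : ∀ B' : Set (Euc m), MeasurableSet B' → B' ⊆ B →
          ((volume.restrict B).withDensity
            fun v => ENNReal.ofReal |j v * ((N v).toReal - Q)|) B' ≤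
          ENNReal.ofReal (2 * Cs) * (nu V x (hh C₀ κ τ q)) (⋃ x ∈ B', closedBall x r) := by
        intro B' hB'm hB'B
        have k1 := hs B' r hB'm hB'B hr0 hr64 (by rw [hee]; exact ENNReal.ofReal_le_ofReal hrE)
        rw [withDensity_apply _ hB'm, Measure.restrict_restrict hB'm, inter_eq_left.2 hB'B,
          ENNReal.ofReal_mul two_pos.le, mul_assoc]
        refine le_trans ?_ (mul_le_mul_right k1 (ENNReal.ofReal 2))
        rw [← lintegral_const_mul' _ _ ENNReal.ofReal_ne_top]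
        refine lintegral_mono_ae ?_
        filter_upwards [ae_restrict_mem hB'm] with v hv
        obtain ⟨a1, a2, a3, a4⟩ := h.jb hκ (hBR (hB'B hv))
        rw [← ENNReal.ofReal_mul two_pos.le, abs_mul, abs_of_pos a1]
        exact ENNReal.ofReal_le_ofReal (by gcongr)
      have hlay := layer (B := B) (b := ball 0 (1 + ε)) (K := 2 * Cs) (r := r) (by positivity)
        hr0.le measurableSet_ball hnu2 (hBb r hr64) hF0 hL h0 hFb
      have hI : ∫ v, F v ∂(e2 V x J τ j N Q B) =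
          ∫ v in B, F v ∂(nu V x (ww J τ x j)) + ∫ v, F v ∂((volume.restrict B).withDensity
            fun v => ENNReal.ofReal |j v * ((N v).toReal - Q)|) := by
        unfold e2
        exact integral_add_measure (hFi _) (hFi _)
      have hR2 : (nu V x (hh C₀ κ τ q)).real (ball 0 (1 + ε)) = 2 * (C₀ + 1) * t := by
        rw [measureReal_def, hee, ENNReal.toReal_ofReal (by positivity)]
      rw [hI]
      rw [w2, hR2] at hlay
      set I0 : ℝ := ∫ p, F (x p) * (τ p + κ * q p) ∂V with hI0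
      have hI00 : 0 ≤ I0 := hFint F Lf hF0 hL h0
      have e5 : 2 * Cs * (2 * (C₀ + 1) * I0 + Lf * r * (2 * (C₀ + 1) * t)) =
          4 * Cs * (C₀ + 1) * I0 + Lf * (K3 * (t * t ^ (1 / (m : ℝ)))) := by
        have : K3 * (t * t ^ (1 / (m : ℝ))) = 2 * Cs * (2 * (C₀ + 1)) * (r * t) := by
          rw [hrt, hK3]; ring
        rw [this]; ring
      rw [e5] at hlay
      have e6 : K3 * (t * t ^ (1 / (m : ℝ))) ≤
          (K3 + K4) * (t * t ^ (1 / (m : ℝ))) / ε ^ (2 * m + 2) := by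
        rw [le_div_iff₀ hε22]
        have e7 : 0 ≤ t * t ^ (1 / (m : ℝ)) := by positivity
        calc K3 * (t * t ^ (1 / (m : ℝ))) * ε ^ (2 * m + 2) ≤ K3 * (t * t ^ (1 / (m : ℝ))) * 1 := by
              gcongr
          _ ≤ (K3 + K4) * (t * t ^ (1 / (m : ℝ))) := by nlinarith
      have e8 : (Lf : ℝ) * (K3 * (t * t ^ (1 / (m : ℝ)))) ≤
          Lf * ((K3 + K4) * (t * t ^ (1 / (m : ℝ))) / ε ^ (2 * m + 2)) :=
        mul_le_mul_of_nonneg_left e6 Lf.2
      have e9 : K1 * I0 = C₀ * I0 + 4 * Cs * (C₀ + 1) * I0 := by rw [hK1]; ring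
      rw [e9]
      linarith
  · -- large energy
    have hone : 1 ≤ 2 * (C₀ + 1) / δs * (t / ε ^ (2 * m)) := by
      rw [div_mul_div_comm, le_div_iff₀ (by positivity), one_mul]
      exact hcase.le
    have hR1 : (Dat.μm V x j).real (ball 0 (1 + ε)) ≤ 2 * Λ := by
      refine ENNReal.toReal_le_of_le_ofReal (by positivity) ?_
      refine (h.μm_fin hκ).trans ?_
      rw [ENNReal.ofReal_mul two_pos.le]
      gcongr
      rw [← ENNReal.ofReal_toReal (measure_ne_top V _)]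
      exact ENNReal.ofReal_le_ofReal hVΛ
    have hR2 : (nu V x (hh C₀ κ τ q)).real (ball 0 (1 + ε)) = 2 * (C₀ + 1) * t := by
      rw [measureReal_def, hee, ENNReal.toReal_ofReal (by positivity)]
    have hup := h.up hC hκ0 hκ (S := ball 0 (1 + ε)) measurableSet_ball subset_rfl
    have hNi := h.integrableOn_N hC hκ0 hκ
    have hQi : IntegrableOn (fun _ : Euc m => (Q : ℝ)) (ball 0 (1 + ε)) :=
      integrableOn_const measure_ball_lt_top.ne
    have hD2 : D ≤ ∫ v in ball (0 : Euc m) (1 + ε), ((N v).toReal + Q) := by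
      have e1 : D ≤ ∫ v in ball (0 : Euc m) (1 + ε), |(N v).toReal - (Q : ℝ)| :=
        setIntegral_mono_set (hNi.sub hQi).abs (Eventually.of_forall fun v => abs_nonneg _)
          hBR.eventuallyLE
      refine e1.trans ?_
      refine integral_mono (hNi.sub hQi).abs (hNi.add hQi) fun v => ?_
      simp only
      refine (abs_sub _ _).trans (le_of_eq ?_)
      rw [abs_of_nonneg ENNReal.toReal_nonneg, abs_of_nonneg (Nat.cast_nonneg Q)]
    have hvol : volume.real (ball (0 : Euc m) (1 + ε)) ≤ om m * 2 ^ m := by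
      rw [vol_ball (0 : Euc m) (by positivity : (0 : ℝ) < 1 + ε)]
      gcongr
      linarith
    have hD3 : D ≤ 2 * Λ + 2 * (C₀ + 1) * t + Q * (om m * 2 ^ m) := by
      refine hD2.trans ?_
      rw [integral_add hNi hQi, setIntegral_const, smul_eq_mul]
      have : volume.real (ball (0 : Euc m) (1 + ε)) * Q ≤ Q * (om m * 2 ^ m) := by
        rw [mul_comm]; gcongr
      linarith
    have hK : 2 * (2 * Λ + Q * (om m * 2 ^ m)) ≤
        2 * (2 * Λ + Q * (om m * 2 ^ m)) * (2 * (C₀ + 1) / δs * (t / ε ^ (2 * m))) :=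
      le_mul_of_one_le_right (by positivity) hone
    have hb2 : (e2 V x J τ j N Q B).real B ≤ K2 * (t / ε ^ (2 * m)) := by
      calc (e2 V x J τ j N Q B).real B ≤ C₀ * t + 2 * D := hmass
        _ ≤ C₀ * t + 2 * (2 * Λ + 2 * (C₀ + 1) * t + Q * (om m * 2 ^ m)) := by gcongr
        _ = (C₀ + 4 * (C₀ + 1)) * t + 2 * (2 * Λ + Q * (om m * 2 ^ m)) := by ring
        _ ≤ (C₀ + 4 * (C₀ + 1)) * (t / ε ^ (2 * m)) +
            2 * (2 * Λ + Q * (om m * 2 ^ m)) * (2 * (C₀ + 1) / δs * (t / ε ^ (2 * m))) := by gcongr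
        _ = K2 * (t / ε ^ (2 * m)) := by rw [hK2]; ring
    refine ⟨hb2.trans (by gcongr; linarith), ?_⟩
    intro F Lf hF0 hL h0
    have hFm : Measurable F := hL.continuous.measurable
    have hFb := hsup F Lf hF0 hL h0
    have k1 : ∫ v, F v ∂(e2 V x J τ j N Q B) ≤ 5 * Lf * (K2 * (t / ε ^ (2 * m))) := by
      have k2 : ∫ v, F v ∂(e2 V x J τ j N Q B) = ∫ v in B, F v ∂(e2 V x J τ j N Q B) :=
        (setIntegral_eq_integral_of_forall_compl_eq_zero fun v hv => h0 v hv).symm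
      have hFi : IntegrableOn F B (e2 V x J τ j N Q B) :=
        IntegrableOn.of_bound (measure_lt_top _ _) hFm.aestronglyMeasurable (5 * Lf)
          (Eventually.of_forall fun v => by
            rw [Real.norm_eq_abs, abs_of_nonneg (hF0 v)]; exact hFb v)
      rw [k2]
      calc ∫ v in B, F v ∂(e2 V x J τ j N Q B) ≤ ∫ v in B, 5 * (Lf : ℝ) ∂(e2 V x J τ j N Q B) :=
            integral_mono hFi (integrableOn_const (measure_ne_top _ _)) hFb
        _ = 5 * Lf * (e2 V x J τ j N Q B).real B := by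
            rw [setIntegral_const, smul_eq_mul, mul_comm]
        _ ≤ _ := by gcongr
    refine k1.trans ?_
    have hI00 : 0 ≤ ∫ p, F (x p) * (τ p + κ * q p) ∂V := hFint F Lf hF0 hL h0
    have hK1I : 0 ≤ K1 * ∫ p, F (x p) * (τ p + κ * q p) ∂V := mul_nonneg hK10 hI00
    set c2 : ℝ := (δs / (2 * (C₀ + 1))) ^ (1 / (m : ℝ)) with hc2
    have hc20 : 0 < c2 := by positivity
    have hti2 : c2 * ε ^ 2 ≤ t ^ (1 / (m : ℝ)) := by
      have e1 : δs / (2 * (C₀ + 1)) * ε ^ (2 * m) ≤ t := by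
        rw [div_mul_eq_mul_div, div_le_iff₀ (by positivity)]
        linarith
      calc c2 * ε ^ 2 = (δs / (2 * (C₀ + 1)) * ε ^ (2 * m)) ^ (1 / (m : ℝ)) := by
            rw [Real.mul_rpow (by positivity) hεp.le, pow_mul, one_div,
              Real.pow_rpow_inv_natCast (by positivity) hm0.ne', hc2, one_div]
        _ ≤ t ^ (1 / (m : ℝ)) := Real.rpow_le_rpow (by positivity) e1 (by positivity)
    have hfinal : 5 * K2 * (t / ε ^ (2 * m)) ≤
        (K3 + K4) * (t * t ^ (1 / (m : ℝ))) / ε ^ (2 * m + 2) := by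
      rw [le_div_iff₀ hε22, hε2]
      have e1 : 5 * K2 * (t / ε ^ (2 * m)) * (ε ^ (2 * m) * ε ^ 2) = 5 * K2 * t * ε ^ 2 := by
        field_simp
      rw [e1]
      have e2 : 5 * K2 * t * ε ^ 2 = K4 * (t * (c2 * ε ^ 2)) := by
        rw [hK4]; field_simp
      rw [e2]
      calc K4 * (t * (c2 * ε ^ 2)) ≤ K4 * (t * t ^ (1 / (m : ℝ))) := by gcongr
        _ ≤ (K3 + K4) * (t * t ^ (1 / (m : ℝ))) := by gcongr; linarith
    have hL0 : (0 : ℝ) ≤ Lf := Lf.2
    have e3 : 5 * (Lf : ℝ) * (K2 * (t / ε ^ (2 * m))) = Lf * (5 * K2 * (t / ε ^ (2 * m))) := by ring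
    rw [e3]
    have := mul_le_mul_of_nonneg_left hfinal hL0
    linarith

end Crest.Agent.R234.Tv_618
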