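import Crest.Agent.R234.Tv8_618

/-!
# Row 234, F3-TV, part 9 (helper618)

`exists_dat` : the structure `Dat` for an integral stationary varifold over 394's chart data.
-/

set_option autoImplicit false

open Set Filter Topology MeasureTheory Metric Function
open Crest.GeometryTopology.Submanifold
open Crest.Agent.R234.Vf_884 Crest.Agent.R234.Ar_870 Crest.Agent.R234.GL_394
open scoped ENNReal NNReal ContDiff InnerProductSpace

noncomputable section

namespace Crest.Agent.R234.Tv_618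

open Crest.Agent.R234.Th_164 (SC2 om)
open Crest.Agent.R234.Cy_870 (FV)

variable {m k : ℕ} {c : Ch m k} {K W U : Set (Euc k)} {D : Set (Euc m)}
  {V : Measure (Euc k × L k)} {s R Lv C₀ κ : ℝ}

theorem cxK (hR : Reg c W D) (hL : Loc c U W K V Lv) : ContinuousOn c.x K :=
  hR.cx.mono fun _ hz => (hL.sub hz).1

theorem ae_Vs (hR : Reg c W D) (hL : Loc c U W K V Lv) (s R : ℝ) :
    ∀ᵐ p ∂(Vs c V K s R), (p.1 ∈ K ∧ ‖c.x p.1‖ < R * s) ∧ p.2 ∈ G m k := by
  have hW := measurableSet_Wr hL.cpt (cxK hR hL) (R * s)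
  unfold Vs
  refine Measure.ae_smul_measure ?_ _
  filter_upwards [ae_restrict_of_ae hL.st.conc,
    ae_restrict_mem (hW.prod MeasurableSet.univ)] with p h1 h2
  exact ⟨h2.1, h1⟩

theorem aesm_Vs (hR : Reg c W D) (hL : Loc c U W K V Lv) (s R : ℝ) {E : Type*}
    [NormedAddCommGroup E] [SecondCountableTopology E] {F : Euc k × L k → E}
    (hF : ContinuousOn F (K ×ˢ G m k)) : AEStronglyMeasurable F (Vs c V K s R) := by
  have hS : MeasurableSet (K ×ˢ G m k) := hL.cpt.isClosed.measurableSet.prod (measurableSet_G m k)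
  have h1 : AEStronglyMeasurable F (V.restrict (K ×ˢ G m k)) := hF.aestronglyMeasurable hS
  unfold Vs
  refine h1.mono_ac ?_
  refine (Measure.smul_absolutelyContinuous).trans ?_
  refine Measure.absolutelyContinuous_of_le (Measure.restrict_mono' ?_ le_rfl)
  filter_upwards [hL.st.conc] with p hp hp2
  exact ⟨hp2.1.1, hp⟩

theorem lintegral_Vs (c : Ch m k) (V : Measure (Euc k × L k)) (K : Set (Euc k)) (s R : ℝ)
    (F : Euc k × L k → ℝ≥0∞) : ∫⁻ p, F p ∂(Vs c V K s R) =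
      ENNReal.ofReal ((s ^ m)⁻¹) * ∫⁻ p in Wr c K (R * s) ×ˢ univ, F p ∂V := by
  unfold Vs
  rw [lintegral_smul_measure, smul_eq_mul]

theorem integral_Vs (c : Ch m k) (V : Measure (Euc k × L k)) (K : Set (Euc k)) (hs : 0 < s) (R : ℝ)
    (F : Euc k × L k → ℝ) : ∫ p, F p ∂(Vs c V K s R) =
      (s ^ m)⁻¹ * ∫ p in Wr c K (R * s) ×ˢ univ, F p ∂V := by
  unfold Vs
  rw [integral_smul_measure, ENNReal.toReal_ofReal (by positivity), smul_eq_mul]

/-- the tested first variation at the scale `s` -/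
theorem st_Vs (hs : 0 < s) (hR : Reg c W D) (hL : Loc c U W K V Lv) (hRL : R * s ≤ Real.exp Lv)
    {X : Euc m → Euc m} (hX : ContDiff ℝ 1 X)
    (hXs : tsupport X ⊆ ball 0 R) :
    ∫ p, (tr (fderiv ℝ X (s⁻¹ • xt c K p.1) ∘L GL_394.T c p) +
      (s • GamL c p) (X (s⁻¹ • xt c K p.1))) ∂(Vs c V K s R) = 0 := by
  set ξ : Euc m → Euc m := fun v => X (s⁻¹ • v) with hξ
  set ξ' : Euc m → L m := fun v => s⁻¹ • fderiv ℝ X (s⁻¹ • v) with hξ'
  have hd : ∀ v, HasFDerivAt ξ (ξ' v) v := by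
    intro v
    have h1 : HasFDerivAt X (fderiv ℝ X (s⁻¹ • v)) (s⁻¹ • v) :=
      (hX.differentiable one_ne_zero _).hasFDerivAt
    have h2 : HasFDerivAt (fun v : Euc m => s⁻¹ • v) (s⁻¹ • ContinuousLinearMap.id ℝ (Euc m)) v :=
      (hasFDerivAt_id v).const_smul s⁻¹
    have h3 := h1.comp v h2
    refine h3.congr_fderiv ?_
    ext u; simp [hξ']
  have hξ'c : Continuous ξ' := by
    have := hX.continuous_fderiv one_ne_zero
    exact (this.comp (continuous_const_smul s⁻¹)).const_smul s⁻¹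
  have hξ0 : ∀ v, ¬ ‖v‖ < R * s → ξ v = 0 ∧ ξ' v = 0 := by
    intro v hv
    have h1 : s⁻¹ • v ∉ ball (0 : Euc m) R := fun hc => hv ((mem_ball_scale hs).1 hc)
    constructor
    · have h2 : X (s⁻¹ • v) = 0 := image_eq_zero_of_notMem_tsupport fun hc => h1 (hXs hc)
      exact h2
    · have h2 : fderiv ℝ X (s⁻¹ • v) = 0 := by
        by_contra hne
        exact h1 (hXs (support_fderiv_subset ℝ (mem_support.2 hne)))
      have h3 : s⁻¹ • fderiv ℝ X (s⁻¹ • v) = 0 := by rw [h2]; ext u; simp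
      exact h3
  set Y : Euc k → Euc k := fun z => c.A z (ξ (c.x z)) with hY
  have hYc : ContDiffOn ℝ 1 Y W := hR.contDiffOn_Axi (fun v _ => hd v) hξ'c.continuousOn
  have hFV : FV (V.restrict (K ×ˢ univ)) Y = 0 := by
    refine FV_eq_zero hL.st hL.opU hR.opnW hL.cpt hL.sub hYc ?_
    filter_upwards [hL.gap] with p hp h1 h2
    have h3 : ¬ ‖c.x p.1‖ ≤ Real.exp Lv := fun h => h2 (hp h1 h)
    have h4 : Y =ᶠ[𝓝 p.1] fun _ => 0 := by
      have h5 : ∀ᶠ w in 𝓝 p.1, Real.exp Lv < ‖c.x w‖ :=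
        continuousAt_const.eventually_lt (hR.hx _ h1.1).continuousAt.norm (not_le.1 h3)
      filter_upwards [h5] with w hw
      simp only [hY]
      rw [(hξ0 (c.x w) (by linarith)).1, map_zero]
    exact ⟨h4.eq_of_nhds, by rw [h4.fderiv_eq, fderiv_fun_const]; rfl⟩
  have hK := hL.cpt.isClosed.measurableSet
  have hWm := measurableSet_Wr hL.cpt (cxK hR hL) (R * s)
  rw [integral_Vs c V K hs R]
  have e1 : ∫ p in Wr c K (R * s) ×ˢ univ, (tr (fderiv ℝ X (s⁻¹ • xt c K p.1) ∘L GL_394.T c p) +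
      (s • GamL c p) (X (s⁻¹ • xt c K p.1))) ∂V =
      ∫ p in Wr c K (R * s) ×ˢ univ, s * tr (fderiv ℝ Y p.1 ∘L p.2) ∂V := by
    refine setIntegral_congr_fun (hWm.prod MeasurableSet.univ) fun p hp => ?_
    have hpK : p.1 ∈ K := hp.1.1
    have hpW : p.1 ∈ W := (hL.sub hpK).1
    have h1 := tr_Axi (hR.hx _ hpW) (hR.hA _ hpW) (hd (c.x p.1)) p.2
    simp only
    rw [show (fun z => c.A z (ξ (c.x z))) = Y from rfl] at h1
    rw [h1, xt_eq c hpK]
    have h2 : tr (ξ' (c.x p.1) ∘L GL_394.T c p) =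
        s⁻¹ * tr (fderiv ℝ X (s⁻¹ • c.x p.1) ∘L GL_394.T c p) := by
      simp only [hξ']
      rw [show (s⁻¹ • fderiv ℝ X (s⁻¹ • c.x p.1)) ∘L GL_394.T c p =
        s⁻¹ • (fderiv ℝ X (s⁻¹ • c.x p.1) ∘L GL_394.T c p) from by ext u; simp, map_smul, smul_eq_mul]
    have h3 : GL_394.T c (p.1, p.2) = GL_394.T c p := rfl
    have h4 : Gam c (p.1, p.2) (ξ (c.x p.1)) = GamL c p (X (s⁻¹ • c.x p.1)) := rfl
    rw [h3, h4, h2, _root_.smul_apply, smul_eq_mul, mul_add, ← mul_assoc,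
      mul_inv_cancel₀ hs.ne', one_mul]
  have e2 : ∫ p in Wr c K (R * s) ×ˢ univ, s * tr (fderiv ℝ Y p.1 ∘L p.2) ∂V =
      ∫ p in K ×ˢ univ, s * tr (fderiv ℝ Y p.1 ∘L p.2) ∂V := by
    refine (setIntegral_eq_of_subset_of_forall_sdiff_eq_zero (hK.prod MeasurableSet.univ)
      (prod_mono (fun z hz => hz.1) subset_rfl) fun p hp => ?_).symm
    have hpK : p.1 ∈ K := hp.1.1
    have hpW : p.1 ∈ W := (hL.sub hpK).1
    have hn : ¬ ‖c.x p.1‖ < R * s := fun h => hp.2 ⟨⟨hpK, h⟩, trivial⟩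
    have h1 := tr_Axi (hR.hx _ hpW) (hR.hA _ hpW) (hd (c.x p.1)) p.2
    rw [show (fun z => c.A z (ξ (c.x z))) = Y from rfl] at h1
    rw [h1, (hξ0 _ hn).1, (hξ0 _ hn).2]
    have h5 : (0 : L m) ∘L GL_394.T c (p.1, p.2) = 0 := ContinuousLinearMap.zero_comp _
    rw [h5, map_zero]
    have h6 : Gam c (p.1, p.2) 0 = 0 := (GamL c (p.1, p.2)).map_zero
    rw [h6]
    ring
  rw [e1, e2, integral_const_mul]
  have e3 : ∫ p in K ×ˢ univ, tr (fderiv ℝ Y p.1 ∘L p.2) ∂V = 0 := hFV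
  rw [e3, mul_zero, mul_zero]

/-- **`Dat` for an integral stationary varifold near `M`** -/
theorem exists_dat {Dd : VarifoldData m k} (hs : 0 < s) (hD : IsIntegralVarifoldIn U Dd)
    (hR : Reg c W D) (hL : Loc c U W K (VD Dd) Lv) (hRL : R * s ≤ Real.exp Lv)
    (hBD : ball 0 (R * s) ⊆ D) (hT : KT c K s (R * s) C₀ κ) :
    ∃ N : Euc m → ℝ≥0∞, Dat (Vs c (VD Dd) K s R) (fun p => s⁻¹ • xt c K p.1)
      (fun p => Jh (c.dx p.1) p.2) (fun p => c.tau p.1 p.2) (fun p => 2 * c.f p.1 / s ^ 2)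
      (fun p => GL_394.T c p) (fun p => s • GamL c p) (jt c s R) (fun v => s • c.lam (s • v))
      N R C₀ κ := by
  have hcx := cxK hR hL
  have hKm := hL.cpt.isClosed.measurableSet
  have hKW : K ⊆ W := fun z hz => (hL.sub hz).1
  have hWm := measurableSet_Wr hL.cpt hcx (R * s)
  have hWK : Wr c K (R * s) ⊆ K := fun z hz => hz.1
  obtain ⟨N, hN, hNa⟩ := exists_N hD hWm (x := c.x) (dx := c.dx)
    (fun z hz => hR.hx z (hKW (hWK hz))) (hR.cdx.mono (hWK.trans hKW))
  have hae := ae_Vs hR hL s R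
  have hfinK : VD Dd (K ×ˢ univ) < ⊤ := hL.st.fin K hL.cpt fun z hz => (hL.sub hz).2
  have hcK : ∀ {E : Type} [TopologicalSpace E] {f : Euc k → E}, ContinuousOn f K →
      ContinuousOn (fun p : Euc k × L k => f p.1) (K ×ˢ G m k) := fun hf =>
    hf.comp continuousOn_fst fun p hp => hp.1
  have hdx : ContinuousOn (fun p : Euc k × L k => c.dx p.1) (K ×ˢ G m k) := hcK (hR.cdx.mono hKW)
  have hA : ContinuousOn (fun p : Euc k × L k => c.A p.1) (K ×ˢ G m k) := hcK (hR.cA.mono hKW)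
  have hdA : ContinuousOn (fun p : Euc k × L k => (c.dA p.1).flip) (K ×ˢ G m k) :=
    (ContinuousLinearMap.flipₗᵢ ℝ (Euc k) (Euc m) (Euc k)).continuous.comp_continuousOn
      (hcK (hR.cdA.mono hKW))
  have hP : ContinuousOn (fun p : Euc k × L k => p.2) (K ×ˢ G m k) := continuousOn_snd
  have hTc : ContinuousOn (fun p => GL_394.T c p) (K ×ˢ G m k) := by
    unfold GL_394.T
    exact hdx.clm_comp (hP.clm_comp hA)
  have hGc : ContinuousOn (fun p => GamL c p) (K ×ˢ G m k) := by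
    unfold GamL
    have h1 : ContinuousOn (fun p : Euc k × L k =>
        (ContinuousLinearMap.compL ℝ (Euc k) (Euc k) (Euc k)).flip p.2) (K ×ˢ G m k) :=
      (ContinuousLinearMap.continuous _).comp_continuousOn hP
    exact continuousOn_const.clm_comp (h1.clm_comp hdA)
  have hJc : ContinuousOn (fun p : Euc k × L k => Jh (c.dx p.1) p.2) (K ×ˢ G m k) :=
    continuous_Jh₂.comp_continuousOn (hdx.prodMk hP)
  have hqc : ContinuousOn (fun p : Euc k × L k => 2 * c.f p.1 / s ^ 2) (K ×ˢ G m k) :=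
    ((hcK (hR.cf.mono hKW)).const_mul 2).div_const _
  have htc : ContinuousOn (fun p : Euc k × L k => c.tau p.1 p.2) (K ×ˢ G m k) :=
    hR.ctau.mono (prod_mono hKW le_rfl)
  have hjt : ∀ v ∈ ball (0 : Euc m) R, jt c s R v = c.j (s • v) := fun v hv =>
    Set.indicator_of_mem hv _
  have hjd : ∀ v ∈ ball (0 : Euc m) R, jt c s R =ᶠ[𝓝 v] fun w => c.j (s • w) := by
    intro v hv
    filter_upwards [isOpen_ball.mem_nhds hv] with w hw
    exact hjt w hw
  have hsD : ∀ v ∈ ball (0 : Euc m) R, s • v ∈ D := fun v hv =>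
    hBD (mem_ball_zero_iff.2 ((mem_ball_scale' hs).1 hv))
  refine ⟨fun v => N (s • v), ?_⟩
  exact {
    fin := by
      refine ⟨?_⟩
      unfold Vs
      rw [Measure.smul_apply, smul_eq_mul, Measure.restrict_apply_univ]
      exact ENNReal.mul_lt_top ENNReal.ofReal_lt_top
        ((measure_mono (prod_mono hWK subset_rfl)).trans_lt hfinK)
    mx := ((measurable_xt hL.cpt hcx).comp measurable_fst).const_smul s⁻¹
    mJ := (aesm_Vs hR hL s R hJc).aemeasurable
    mτ := (aesm_Vs hR hL s R htc).aemeasurable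
    mq := (aesm_Vs hR hL s R hqc).aemeasurable
    mT := aesm_Vs hR hL s R hTc
    mΓ := (aesm_Vs hR hL s R hGc).const_smul s
    J0 := Eventually.of_forall fun p => Jh_nonneg _ _
    τ0 := by
      filter_upwards [hae] with p hp
      exact hT.t0 p ⟨hp.1.1, hp.2⟩ hp.1.2
    q0 := by
      filter_upwards [hae] with p hp
      refine ⟨?_, hT.q1 p.1 hp.1.1 hp.1.2⟩
      have h1 := hR.nusq p.1 (hKW hp.1.1)
      rw [← h1]
      positivity
    mN := hN.measurable.comp (measurable_const_smul s)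
    nN := fun v hv => hN.nat hv
    area := by
      intro g hg
      have hgs : Measurable fun v : Euc m => g (s⁻¹ • v) := hg.comp (measurable_const_smul s⁻¹)
      have h1 := hNa (fun v => g (s⁻¹ • v)) hgs
      rw [lintegral_Vs]
      have h2 : ∫⁻ p in Wr c K (R * s) ×ˢ univ, ENNReal.ofReal (Jh (c.dx p.1) p.2) *
          g (s⁻¹ • xt c K p.1) ∂(VD Dd) = ∫⁻ p in Wr c K (R * s) ×ˢ univ,
            ENNReal.ofReal (Jh (c.dx p.1) p.2) * g (s⁻¹ • c.x p.1) ∂(VD Dd) := by
        refine setLIntegral_congr_fun (hWm.prod MeasurableSet.univ) fun p hp => ?_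
        rw [xt_eq c hp.1.1]
      have h3 : ∫⁻ v, N v * g (s⁻¹ • v) =
          ENNReal.ofReal (s ^ m) * ∫⁻ v, N (s • v) * g (s⁻¹ • s • v) :=
        lintegral_scale hs (F := fun v => N v * g (s⁻¹ • v)) (hN.measurable.mul hgs)
      rw [h2, h1, h3, ← mul_assoc,
        ← ENNReal.ofReal_mul (by positivity), inv_mul_cancel₀ (by positivity), ENNReal.ofReal_one,
        one_mul]
      refine lintegral_congr fun v => ?_
      rw [smul_smul, inv_mul_cancel₀ hs.ne', one_smul]
    mj := by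
      refine measurable_indicator_of measurableSet_ball ?_
      exact (Reg.cj hR).continuousOn.comp (continuous_const_smul s).continuousOn hsD
    js := by
      have h1 : ContDiffOn ℝ 1 (fun v : Euc m => c.j (s • v)) (ball 0 R) :=
        (Reg.cj hR).comp (contDiff_const_smul s).contDiffOn hsD
      exact h1.congr hjt
    j1 := fun v hv => by
      rw [hjt v hv]
      exact hT.jb _ ((mem_ball_scale' hs).1 hv)
    dj := fun v hv => by
      refine HasFDerivAt.congr_of_eventuallyEq ?_ (hjd v hv)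
      rw [hjt v hv]
      have h1 := hR.hj _ (hsD v hv)
      have h2 : HasFDerivAt (fun v : Euc m => s • v) (s • ContinuousLinearMap.id ℝ (Euc m)) v :=
        (hasFDerivAt_id v).const_smul s
      refine (h1.comp v h2).congr_fderiv ?_
      ext u
      simp only [ContinuousLinearMap.comp_apply, _root_.smul_apply, innerSL_apply_apply,
        ContinuousLinearMap.id_apply, inner_smul_left, inner_smul_right, smul_eq_mul]
      rfl
    lam1 := fun v hv => by
      rw [norm_smul, Real.norm_eq_abs, abs_of_pos hs]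
      exact hT.lb _ ((mem_ball_scale' hs).1 hv)
    anom := by
      filter_upwards [hae] with p hp hpb
      rw [hjt _ hpb, smul_smul, mul_inv_cancel₀ hs.ne', one_smul, xt_eq c hp.1.1]
      exact hT.an p ⟨hp.1.1, hp.2⟩ hp.1.2
    hT := by
      filter_upwards [hae] with p hp hpb
      exact hT.hT p ⟨hp.1.1, hp.2⟩ hp.1.2
    hΓ := by
      filter_upwards [hae] with p hp hpb v
      rw [smul_smul, mul_inv_cancel₀ hs.ne', one_smul, xt_eq c hp.1.1, _root_.smul_apply,
        inner_smul_left, smul_eq_mul]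
      have h1 := hT.k3 p ⟨hp.1.1, hp.2⟩ hp.1.2 v
      have h2 : s * GamL c p v - (starRingEnd ℝ) s * ⟪c.lam (c.x p.1), v⟫_ℝ =
          s * (Gam c p v - ⟪c.lam (c.x p.1), v⟫_ℝ) := by
        rw [GamL_apply]
        simp only [conj_trivial]
        ring
      rw [h2, abs_mul, abs_of_pos hs]
      calc s * |Gam c p v - ⟪c.lam (c.x p.1), v⟫_ℝ| ≤
            s * (κ * (‖v‖ / s) * (c.tau p.1 p.2 + 2 * c.f p.1 / s ^ 2)) := by gcongr
        _ = _ := by field_simp
    st := fun X hX _ hXs => st_Vs hs hR hL hRL hX hXs }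

end Crest.Agent.R234.Tv_618
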