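import Crest.Agent.R234.Lvs1_214

/-!
# Row 234, (F8) START (helper456): `UpV` (two references in the same frame)

* `foot_cmp` : feet of a point in the charts of two close graphs
* `x_cmp` : the normalised base coordinates
* **`upV : F10w_188.UpV`**
-/

set_option autoImplicit false
set_option linter.unusedVariables false

open MeasureTheory Filter Topology Set
open scoped ENNReal NNReal ContDiff InnerProductSpace
open Crest.GeometryTopology.Submanifold Crest.Agent.R234.Vf_884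
open Crest.Agent.R234.Main_456 (Frame Msys hgt)
open Crest.Agent.R234.MG_570 (MG)
open Crest.Agent.R234.Gi_456
open Crest.Agent.R234.GL_394 (Ok On VK II)
open Crest.Agent.R234.GI_640 (g3 g31)
open Crest.Agent.R234.Stp_518
open Crest.Agent.R234.Lvs_214
open Crest.Agent.R234.End_395 (Cmp cmp_ch ig norm_x_le le_norm_x x_eq)

noncomputable section

namespace Crest.Agent.R234.Up_456

variable {m n k : ℕ}

local notation "adj" => ContinuousLinearMap.adjoint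

section geo

variable {π : Euc k →L[ℝ] Euc m} {ρ : Euc k →L[ℝ] Euc n} {x : Euc k} {S τ : ℝ}
  {w w' : Euc m → Euc n}

/-- feet in the charts of two close graphs -/
theorem foot_cmp (h : Gr S w) (h' : Gr S w') (hτ0 : ∀ X, ‖w' X - w X‖ ≤ τ * S)
    (hτ1 : ∀ X, ‖fderiv ℝ w' X - fderiv ℝ w X‖ ≤ τ) {z : Euc k} (hz : z ∈ tube π ρ x S w)
    (hz' : z ∈ tube π ρ x S w') (hy : ‖yy π ρ x S w' z‖ ≤ S / 2) :
    ‖foot π ρ x S w z - foot π ρ x S w' z‖ ≤ τ * S := by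
  have hS := h.pos
  have e1 := h.foot_fix hz
  have e2 := h'.foot_fix hz'
  have hτ : 0 ≤ τ := (norm_nonneg _).trans (hτ1 0)
  set X := foot π ρ x S w z with hX
  set X' := foot π ρ x S w' z with hX'
  have y1 : yy π ρ x S w z = ρ (z - x) - w X := rfl
  have y2 : yy π ρ x S w' z = ρ (z - x) - w' X' := rfl
  set y := yy π ρ x S w z with hyy
  set y' := yy π ρ x S w' z with hyy'
  have d1 : ‖y - y'‖ ≤ τ * S + 1 / 8 * ‖X - X'‖ := by
    have : y - y' = (w' X' - w X') - (w X - w X') := by rw [y1, y2]; abel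
    rw [this]
    refine (norm_sub_le _ _).trans (add_le_add (hτ0 X') (h.lip X X'))
  have d2 : ‖fderiv ℝ w X - fderiv ℝ w' X'‖ ≤ 1 / (8 * S) * ‖X - X'‖ + τ := by
    have : fderiv ℝ w X - fderiv ℝ w' X' = (fderiv ℝ w X - fderiv ℝ w X') -
      (fderiv ℝ w' X' - fderiv ℝ w X') := by abel
    rw [this]
    exact (norm_sub_le _ _).trans (add_le_add (h.lip' X X') (hτ1 X'))
  have e3 : X - X' = adj (fderiv ℝ w X) (y - y') + adj (fderiv ℝ w X - fderiv ℝ w' X') y' := by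
    have e1' : X = π (z - x) + adj (fderiv ℝ w X) y := e1
    have e2' : X' = π (z - x) + adj (fderiv ℝ w' X') y' := e2
    rw [map_sub, map_sub, sub_apply]
    nth_rewrite 1 [e1']
    nth_rewrite 1 [e2']
    abel
  have e4 : ‖X - X'‖ ≤ 1 / 8 * ‖y - y'‖ + ‖fderiv ℝ w X - fderiv ℝ w' X'‖ * ‖y'‖ := by
    nth_rewrite 1 [e3]
    refine (norm_add_le _ _).trans (add_le_add ?_ ?_)
    · exact End_395.adj_le h X (y - y')
    · refine (ContinuousLinearMap.le_opNorm _ _).trans (le_of_eq ?_)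
      rw [GLK_128.norm_adj]
  have e5 : ‖fderiv ℝ w X - fderiv ℝ w' X'‖ * ‖y'‖ ≤
      (1 / (8 * S) * ‖X - X'‖ + τ) * (S / 2) :=
    mul_le_mul d2 hy (norm_nonneg _) (by positivity)
  have e6 : (1 / (8 * S) * ‖X - X'‖ + τ) * (S / 2) = 1 / 16 * ‖X - X'‖ + τ * S / 2 := by
    field_simp
    ring
  have hτS : 0 ≤ τ * S := by positivity
  linarith

/-- normalisations at the centre -/
theorem Lo_cmp {q q' : Euc m →L[ℝ] Euc n} {v : Euc m} {t : ℝ} (ht : 0 ≤ t)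
    (h : ‖q v‖ ≤ ‖q' v‖ + t) : ‖Lo q v‖ ≤ ‖Lo q' v‖ + t := by
  have e1 := norm_Lo_sq q v
  have e2 := norm_Lo_sq q' v
  have h0 := norm_nonneg (Lo q' v)
  have h1 : ‖q' v‖ ≤ ‖Lo q' v‖ := by
    refine abs_le_of_sq_le_sq' ?_ h0 |>.2
    nlinarith [sq_nonneg ‖v‖]
  have h2 : ‖q v‖ ^ 2 ≤ (‖q' v‖ + t) ^ 2 := pow_le_pow_left₀ (norm_nonneg _) h 2
  refine abs_le_of_sq_le_sq' ?_ (by positivity) |>.2
  nlinarith [mul_le_mul_of_nonneg_left h1 ht]

/-- base coordinates in the charts of two close graphs -/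
theorem x_cmp (h : Gr S w) (h' : Gr S w') (hτ0 : ∀ X, ‖w' X - w X‖ ≤ τ * S)
    (hτ1 : ∀ X, ‖fderiv ℝ w' X - fderiv ℝ w X‖ ≤ τ) {z : Euc k} (hz : z ∈ tube π ρ x S w)
    (hz' : z ∈ tube π ρ x S w') (hy : ‖yy π ρ x S w' z‖ ≤ S / 2)
    (hx : ‖(ch π ρ x S w' 0).x z‖ ≤ S) :
    ‖(ch π ρ x S w 0).x z‖ ≤ ‖(ch π ρ x S w' 0).x z‖ + 21 / 10 * (τ * S) := by
  have hS := h.pos
  have hτ : 0 ≤ τ := (norm_nonneg _).trans (hτ1 0)
  have e1 := foot_cmp h h' hτ0 hτ1 hz hz' hy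
  have e2 := (le_norm_x (π := π) (ρ := ρ) (x := x) (S := S) (w := w') z).trans hx
  rw [x_eq, x_eq]
  set X := foot π ρ x S w z with hX
  set X' := foot π ρ x S w' z with hX'
  have e3 : ‖Lo (fderiv ℝ w 0) X‖ ≤ ‖Lo (fderiv ℝ w 0) X'‖ + 65 / 64 * (τ * S) := by
    have e4 : Lo (fderiv ℝ w 0) X = Lo (fderiv ℝ w 0) X' + Lo (fderiv ℝ w 0) (X - X') := by
      rw [← map_add]; congr 1; abel
    rw [e4]
    refine (norm_add_le _ _).trans (add_le_add le_rfl ?_)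
    have e5 := norm_Lo_le (h.d1 0) (X - X')
    linarith
  have e6 : ‖Lo (fderiv ℝ w 0) X'‖ ≤ ‖Lo (fderiv ℝ w' 0) X'‖ + τ * S := by
    refine Lo_cmp (by positivity) ?_
    have e7 : fderiv ℝ w 0 X' = fderiv ℝ w' 0 X' - (fderiv ℝ w' 0 - fderiv ℝ w 0) X' := by
      rw [sub_apply]; abel
    rw [e7]
    refine (norm_sub_le _ _).trans (add_le_add le_rfl ?_)
    exact (ContinuousLinearMap.le_opNorm _ _).trans
      (mul_le_mul (hτ1 0) e2 (norm_nonneg _) hτ)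
  have : 0 ≤ τ * S := by positivity
  linarith

end geo

/-- the kernel at the inner ball -/
theorem ker_low {l l₁ ε a b : ℝ} (hε : 0 < ε) (hε4 : ε ≤ 1 / 4) (hl : l₁ ≤ l - ε) (ha : 0 ≤ a)
    (hb : b ≤ Real.exp l₁) (hab : a ≤ b + ε / 200 * Real.exp l₁) :
    3 * ε ^ 2 ≤ -4 * g31 (Real.exp (-2 * l) * a ^ 2) := by
  have h1 : Real.exp l₁ ≤ Real.exp (-ε) * Real.exp l := by
    rw [← Real.exp_add]; exact Real.exp_le_exp.2 (by linarith)
  have h2 : Real.exp (-ε) * (1 + ε) ≤ 1 := by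
    have h3 := Real.add_one_le_exp ε
    have h4 : Real.exp (-ε) * Real.exp ε = 1 := by rw [← Real.exp_add]; simp
    have h5 := Real.exp_pos (-ε)
    nlinarith
  have h0 := Real.exp_pos l
  have h6 : a ≤ (1 + ε / 200) * Real.exp l₁ := by linarith
  have h7 : (1 + ε) * a ≤ (1 + ε / 200) * Real.exp l := by
    have e1 : (1 + ε) * a ≤ (1 + ε) * ((1 + ε / 200) * (Real.exp (-ε) * Real.exp l)) := by
      refine mul_le_mul_of_nonneg_left (h6.trans ?_) (by linarith)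
      exact mul_le_mul_of_nonneg_left h1 (by linarith)
    have e2 : (1 + ε) * ((1 + ε / 200) * (Real.exp (-ε) * Real.exp l)) =
        (Real.exp (-ε) * (1 + ε)) * ((1 + ε / 200) * Real.exp l) := by ring
    rw [e2] at e1
    refine e1.trans ?_
    have : 0 ≤ (1 + ε / 200) * Real.exp l := by positivity
    nlinarith
  set t := Real.exp (-l) * a with ht
  have ht0 : 0 ≤ t := by positivity
  have e3 : Real.exp (-2 * l) * a ^ 2 = t ^ 2 := by
    rw [ht, mul_pow, ← Real.exp_nat_mul]; congr 2; push_cast; ring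
  have e4 : (1 + ε) * t ≤ 1 + ε / 200 := by
    have e5 : Real.exp (-l) * Real.exp l = 1 := by rw [← Real.exp_add]; simp
    have e6 := mul_le_mul_of_nonneg_left h7 (Real.exp_pos (-l)).le
    calc (1 + ε) * t = Real.exp (-l) * ((1 + ε) * a) := by rw [ht]; ring
      _ ≤ Real.exp (-l) * ((1 + ε / 200) * Real.exp l) := e6
      _ = (1 + ε / 200) * (Real.exp (-l) * Real.exp l) := by ring
      _ = 1 + ε / 200 := by rw [e5, mul_one]
  have e7 : t ≤ 1 - ε / 2 := by nlinarith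
  have e8 : ε / 2 ≤ 1 - t ^ 2 := by nlinarith
  rw [e3]
  have e9 : ε / 2 ≤ max 0 (1 - t ^ 2) := e8.trans (le_max_right _ _)
  unfold GI_640.g31
  nlinarith

/-- upper bound of the kernel -/
theorem ker_up (t : ℝ) (ht : 0 ≤ t) : -4 * g31 t ≤ 12 := by
  unfold GI_640.g31
  have h1 : max 0 (1 - t) ≤ 1 := max_le (by norm_num) (by linarith)
  have h0 : (0 : ℝ) ≤ max 0 (1 - t) := le_max_left _ _
  nlinarith

theorem sq_ar {a b t : ℝ} (ha : 0 ≤ a) (h : a ≤ b + t) : a ^ 2 ≤ 2 * b ^ 2 + 2 * t ^ 2 := by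
  have e1 := pow_le_pow_left₀ ha h 2
  have e2 : 0 ≤ (b - t) ^ 2 := sq_nonneg _
  nlinarith

theorem final_ar {f f' mu mu' k k' ε τ2 hh hh' : ℝ} (hε : 0 < ε) (f0 : 0 ≤ f) (f0' : 0 ≤ f')
    (r1 : mu' ≤ 3 / 2) (r2 : 1 / 2 ≤ mu) (r3 : 2 * f' ≤ 3 / 2 * hh' ^ 2)
    (r4 : hh ^ 2 ≤ 3 / 2 * (2 * f)) (r6 : hh' ^ 2 ≤ 2 * hh ^ 2 + 2 * τ2)
    (q3 : 3 * ε ^ 2 ≤ k) (q4 : k' ≤ 12) (q4' : 0 ≤ k') :
    (f' * mu') * k' ≤ 54 / ε ^ 2 * ((f * mu) * k) + 27 * τ2 := by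
  have hε2 : 0 < ε ^ 2 := by positivity
  have s1 : f' ≤ 9 / 2 * f + 3 / 2 * τ2 := by linarith
  have s2 : (f' * mu') * k' ≤ 18 * f' := by
    have e1 : f' * mu' ≤ f' * (3 / 2) := mul_le_mul_of_nonneg_left r1 f0'
    calc _ ≤ (f' * (3 / 2)) * 12 := mul_le_mul e1 q4 q4' (by positivity)
      _ = 18 * f' := by ring
  have s3 : 3 / 2 * ε ^ 2 * f ≤ (f * mu) * k := by
    have e1 : f * (1 / 2) ≤ f * mu := mul_le_mul_of_nonneg_left r2 f0
    calc 3 / 2 * ε ^ 2 * f = (f * (1 / 2)) * (3 * ε ^ 2) := by ring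
      _ ≤ _ := mul_le_mul e1 q3 (by positivity) ((by positivity : 0 ≤ f * (1 / 2)).trans e1)
  have s4 : 81 * f ≤ 54 / ε ^ 2 * ((f * mu) * k) := by
    calc 81 * f = 54 / ε ^ 2 * (3 / 2 * ε ^ 2 * f) := by field_simp; ring
      _ ≤ _ := mul_le_mul_of_nonneg_left s3 (by positivity)
  linarith

/-- **pointwise estimate** -/
theorem up_pt {π : Euc k →L[ℝ] Euc m} {ρ : Euc k →L[ℝ] Euc n} {x : Euc k} {S lb τ l l₁ ε : ℝ}
    {w w' : Euc m → Euc n} (hSlb : S = Real.exp lb)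
    (h : Gr S w) (h' : Gr S w') (hf : Frame π ρ)
    (hτ0 : ∀ X, ‖w' X - w X‖ ≤ τ * S) (hτ1 : ∀ X, ‖fderiv ℝ w' X - fderiv ℝ w X‖ ≤ τ)
    (hw : ∀ X, ‖w X‖ ≤ 1 / 8 * S)
    (hc : Cmp (ch π ρ x S w 0) (Kc π ρ x w 0 (2 * S) (S / 2)) (fun z => ρ (z - x) - w (π (z - x)))
      (fun z => π (z - x)) l)
    (hc' : Cmp (ch π ρ x S w' 0) (Kc π ρ x w' 0 (2 * S) (S / 2))
      (fun z => ρ (z - x) - w' (π (z - x))) (fun z => π (z - x)) l₁)
    (hε : 0 < ε) (hε4 : ε ≤ 1 / 4) (hl1 : l₁ ≤ l - ε) (hlb : lb - 3 ≤ l₁) (hl : l ≤ lb)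
    (hτ : 10000 * τ ≤ ε) {z : Euc k} (hz : z ∈ Kc π ρ x w' 0 (2 * S) (S / 2))
    (hρ : ‖ρ (z - x)‖ ≤ 1 / 16 * S) (hx : ‖(ch π ρ x S w' 0).x z‖ ≤ Real.exp l₁) :
    z ∈ Kc π ρ x w 0 (2 * S) (S / 2) ∧ ∀ P : L k,
      ig (ch π ρ x S w' 0) g31 l₁ (z, P) ≤
        54 / ε ^ 2 * ig (ch π ρ x S w 0) g31 l (z, P) + 27 * (τ ^ 2 * S ^ 2) := by
  have hS := h.pos
  have hτn : 0 ≤ τ := (norm_nonneg _).trans (hτ1 0)
  have ht0 : 65 / 64 * (S / 2) < S := by linarith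
  obtain ⟨z1, z2, z3⟩ := (h'.mem_Kc hf ht0).1 hz
  rw [sub_zero] at z2
  have hl1S : Real.exp l₁ ≤ S := by
    rw [hSlb]; exact Real.exp_le_exp.2 (by linarith)
  have hlS : Real.exp l ≤ S := by
    rw [hSlb]; exact Real.exp_le_exp.2 hl
  have hS21 : S ≤ 21 * Real.exp l₁ := by
    have e1 : Real.exp 3 ≤ (21 : ℝ) := by
      have h1 : Real.exp 3 = Real.exp 1 ^ 3 := by rw [← Real.exp_nat_mul]; norm_num
      rw [h1]
      have h2 : Real.exp 1 < (2.7182818286 : ℝ) := Real.exp_one_lt_d9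
      calc Real.exp 1 ^ 3 ≤ (2.7182818286 : ℝ) ^ 3 := pow_le_pow_left₀ (Real.exp_pos 1).le h2.le 3
        _ ≤ 21 := by norm_num
    have e2 : S ≤ Real.exp 3 * Real.exp l₁ := by
      rw [hSlb, ← Real.exp_add]; exact Real.exp_le_exp.2 (by linarith)
    have := Real.exp_pos l₁
    nlinarith
  -- the point in the first chart
  have hX' : ‖foot π ρ x S w' z‖ ≤ S :=
    (le_norm_x (π := π) (ρ := ρ) (x := x) (S := S) (w := w') z).trans (hx.trans hl1S)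
  have p1 := h'.norm_foot_sub z1
  have p2 : ‖ρ (z - x) - w' (π (z - x))‖ < S := z1
  have p3 : ‖π (z - x)‖ ≤ 5 / 4 * S := by
    have := norm_le_norm_add_norm_sub (foot π ρ x S w' z) (π (z - x))
    linarith
  have p4 : ‖ρ (z - x) - w (π (z - x))‖ ≤ 3 / 16 * S := by
    have h1 := hw (π (z - x))
    have h2 := norm_sub_le (ρ (z - x)) (w (π (z - x)))
    linarith
  have p5 : z ∈ tube π ρ x S w := by
    show ‖ρ (z - x) - w (π (z - x))‖ < S
    linarith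
  have p6 := h.norm_yy_le p5
  have p7 := h.norm_foot_sub p5
  have p8 : ‖foot π ρ x S w z‖ ≤ 2 * S := by
    have := norm_le_norm_add_norm_sub' (foot π ρ x S w z) (π (z - x))
    linarith
  have p9 : z ∈ Kc π ρ x w 0 (2 * S) (S / 2) :=
    (h.mem_Kc hf ht0).2 ⟨p5, by rwa [sub_zero], by linarith⟩
  refine ⟨p9, fun P => ?_⟩
  -- kernels
  have q1 := x_cmp h h' hτ0 hτ1 p5 z1 z3 (hx.trans hl1S)
  have q2 : 21 / 10 * (τ * S) ≤ ε / 200 * Real.exp l₁ := by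
    have e0 := Real.exp_pos l₁
    have e1 : τ * S ≤ τ * (21 * Real.exp l₁) := mul_le_mul_of_nonneg_left hS21 hτn
    have e2 : 10000 * τ * Real.exp l₁ ≤ ε * Real.exp l₁ := mul_le_mul_of_nonneg_right hτ e0.le
    have e3 : 0 ≤ τ * Real.exp l₁ := mul_nonneg hτn e0.le
    linarith
  have q3 := ker_low (l := l) (a := ‖(ch π ρ x S w 0).x z‖) hε hε4 hl1 (norm_nonneg _) hx
    (by linarith)
  have q4 := ker_up (Real.exp (-2 * l₁) * ‖(ch π ρ x S w' 0).x z‖ ^ 2) (by positivity)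
  have q4' : 0 ≤ -4 * g31 (Real.exp (-2 * l₁) * ‖(ch π ρ x S w' 0).x z‖ ^ 2) := by
    have := GI_640.g31_nonpos (Real.exp (-2 * l₁) * ‖(ch π ρ x S w' 0).x z‖ ^ 2)
    linarith
  have q5 : ‖(ch π ρ x S w 0).x z‖ ≤ Real.exp l := by
    have e0 := Real.exp_pos l₁
    have e1 : Real.exp l₁ * (1 + ε) ≤ Real.exp l := by
      have h1 : Real.exp l₁ * Real.exp ε ≤ Real.exp l := by
        rw [← Real.exp_add]; exact Real.exp_le_exp.2 (by linarith)
      have h2 := mul_le_mul_of_nonneg_left (Real.add_one_le_exp ε) e0.le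
      linarith
    have e2 : 0 ≤ ε * Real.exp l₁ := mul_nonneg hε.le e0.le
    linarith
  -- heights
  have r1 := (hc'.mu z hz hx).2
  have r1' := (hc'.mu z hz hx).1
  have r2 := (hc.mu z p9 q5).1
  have r3 := hc'.f1 z hz
  have r4 := hc.f2 z p9
  have r5 : ‖ρ (z - x) - w' (π (z - x))‖ ≤ ‖ρ (z - x) - w (π (z - x))‖ + τ * S := by
    have e : ρ (z - x) - w' (π (z - x)) = (ρ (z - x) - w (π (z - x))) -
      (w' (π (z - x)) - w (π (z - x))) := by abel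
    rw [e]
    exact (norm_sub_le _ _).trans (add_le_add le_rfl (hτ0 _))
  have r6 : ‖ρ (z - x) - w' (π (z - x))‖ ^ 2 ≤
      2 * ‖ρ (z - x) - w (π (z - x))‖ ^ 2 + 2 * (τ ^ 2 * S ^ 2) := by
    rw [← mul_pow]
    exact sq_ar (norm_nonneg _) r5
  have f0 : 0 ≤ (ch π ρ x S w 0).f z := by
    show 0 ≤ ‖Bt π ρ w (foot π ρ x S w z) (yy π ρ x S w z)‖ ^ 2 / 2
    positivity
  have f0' : 0 ≤ (ch π ρ x S w' 0).f z := by
    show 0 ≤ ‖Bt π ρ w' (foot π ρ x S w' z) (yy π ρ x S w' z)‖ ^ 2 / 2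
    positivity
  exact final_ar hε f0 f0' r1 r2 r3 r4 r6 q3 q4 q4'

end Crest.Agent.R234.Up_456
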