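import Crest.Agent.R234.Vc1_164

/-!
Row 234, leaf VF-COMP, file 2: semicontinuity of vague limits on compact and open sets, continuity
sets, uniqueness of limits.
-/

set_option autoImplicit false
set_option linter.unusedSectionVars false

open MeasureTheory Filter Topology Set
open scoped ENNReal NNReal CompactlySupported

namespace Crest.Agent.R234.Vc_164

variable {X : Type*} {ι : Type*} [TopologicalSpace X] [T2Space X] [LocallyCompactSpace X]
  [MeasurableSpace X] [BorelSpace X]

variable {l : Filter ι} {W : Set X} {V : ι → Measure X} {V₀ : Measure X}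

/-- convergence of the lower integrals of nonnegative test functions. -/
theorem VConv.lintegral (h : VConv l W V V₀) {f : X → ℝ} (hf : Continuous f)
    (hfc : HasCompactSupport f) (hfW : tsupport f ⊆ W) (h0 : ∀ x, 0 ≤ f x) :
    Tendsto (fun i => ∫⁻ x, ENNReal.ofReal (f x) ∂(V i)) l
      (𝓝 (∫⁻ x, ENNReal.ofReal (f x) ∂V₀)) := by
  obtain ⟨i0, i1⟩ := h.integrable hf hfc hfW
  have h1 := (ENNReal.continuous_ofReal.tendsto _).comp (h.lim f hf hfc hfW)
  rw [ofReal_integral_eq_lintegral_ofReal i0 (Eventually.of_forall h0)] at h1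
  refine h1.congr' ?_
  filter_upwards [i1] with i hi
  exact ofReal_integral_eq_lintegral_ofReal hi (Eventually.of_forall h0)

theorem lintegral_cutoff_ge {μ : Measure X} {K : Set X} (hK : IsCompact K) {f : X → ℝ}
    (hf : ∀ x ∈ K, f x = 1) : μ K ≤ ∫⁻ x, ENNReal.ofReal (f x) ∂μ := by
  calc μ K = ∫⁻ _x in K, 1 ∂μ := by simp
    _ = ∫⁻ x in K, ENNReal.ofReal (f x) ∂μ := by
        refine setLIntegral_congr_fun hK.measurableSet fun x hx => ?_
        simp [hf x hx]
    _ ≤ ∫⁻ x, ENNReal.ofReal (f x) ∂μ := setLIntegral_le_lintegral _ _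

theorem lintegral_cutoff_le {μ : Measure X} {O : Set X} (hO : MeasurableSet O) {f : X → ℝ}
    (hf : tsupport f ⊆ O) (hf1 : ∀ x, f x ≤ 1) : ∫⁻ x, ENNReal.ofReal (f x) ∂μ ≤ μ O := by
  calc ∫⁻ x, ENNReal.ofReal (f x) ∂μ ≤ ∫⁻ x, O.indicator 1 x ∂μ := by
        refine lintegral_mono fun x => ?_
        by_cases hx : x ∈ O
        · rw [indicator_of_mem hx]
          simpa using hf1 x
        · rw [indicator_of_notMem hx, image_eq_zero_of_notMem_tsupport fun h => hx (hf h)]
          simp
    _ = μ O := by simp [lintegral_indicator_one hO]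

/-- upper semicontinuity on compact sets. -/
theorem VConv.compact_lt [SecondCountableTopology X] (h : VConv l W V V₀) (hW : IsOpen W)
    {K : Set X} (hK : IsCompact K) (hKW : K ⊆ W) {c : ℝ≥0∞} (hc : V₀ K < c) :
    ∀ᶠ i in l, V i K < c := by
  obtain ⟨K₁, hK₁, hKK₁, hK₁W⟩ := exists_compact_between hK hW hKW
  have hfin : IsFiniteMeasure (V₀.restrict K₁) := ⟨by simpa using h.fin K₁ hK₁ hK₁W⟩
  have h1 : V₀.restrict K₁ K < c := by
    rw [Measure.restrict_apply hK.measurableSet,
      inter_eq_left.2 (hKK₁.trans interior_subset)]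
    exact hc
  obtain ⟨O, hKO, hO, hOc⟩ := K.exists_isOpen_lt_of_lt _ h1
  have hO' : IsOpen (O ∩ interior K₁) := hO.inter isOpen_interior
  obtain ⟨f, hf1, hfc, hfO, hf01⟩ := exists_cutoff hK hO' (subset_inter hKO hKK₁)
  have h2 : ∫⁻ x, ENNReal.ofReal (f x) ∂V₀ < c := by
    refine (lintegral_cutoff_le hO'.measurableSet hfO fun x => (hf01 x).2).trans_lt ?_
    refine lt_of_le_of_lt ?_ hOc
    rw [Measure.restrict_apply hO.measurableSet]
    exact measure_mono (inter_subset_inter_right _ interior_subset)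
  have h3 := h.lintegral f.continuous hfc
    (hfO.trans (inter_subset_right.trans (interior_subset.trans hK₁W))) fun x => (hf01 x).1
  filter_upwards [(tendsto_order.1 h3).2 _ h2] with i hi
  exact (lintegral_cutoff_ge hK hf1).trans_lt hi

/-- lower semicontinuity on open sets. -/
theorem VConv.lt_open [SecondCountableTopology X] (h : VConv l W V V₀) (hW : IsOpen W)
    {O : Set X} (hO : IsOpen O) {c : ℝ≥0∞} (hc : c < V₀ O) : ∀ᶠ i in l, c < V i O := by
  have h1 : c < V₀ (O ∩ W) := by
    refine hc.trans_le ?_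
    calc V₀ O ≤ V₀ (O ∩ W ∪ Wᶜ) := measure_mono fun x hx => by
          by_cases hxW : x ∈ W
          · exact Or.inl ⟨hx, hxW⟩
          · exact Or.inr hxW
      _ ≤ V₀ (O ∩ W) + V₀ Wᶜ := measure_union_le _ _
      _ = V₀ (O ∩ W) := by rw [h.off, add_zero]
  obtain ⟨K, hKc, hKs, hKm, hKu, -⟩ := exists_exhaustion (hO.inter hW)
  rw [← hKu, hKm.measure_iUnion] at h1
  obtain ⟨n, hn⟩ := lt_iSup_iff.1 h1
  obtain ⟨f, hf1, hfc, hfO, hf01⟩ := exists_cutoff (hKc n) (hO.inter hW) (hKs n)
  have h2 : c < ∫⁻ x, ENNReal.ofReal (f x) ∂V₀ := hn.trans_le (lintegral_cutoff_ge (hKc n) hf1)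
  have h3 := h.lintegral f.continuous hfc (hfO.trans inter_subset_right) fun x => (hf01 x).1
  filter_upwards [(tendsto_order.1 h3).1 _ h2] with i hi
  exact hi.trans_le (lintegral_cutoff_le hO.measurableSet (hfO.trans inter_subset_left)
    fun x => (hf01 x).2)

/-- `limsup V i K ≤ V₀ K` for compact `K`. -/
theorem VConv.limsup_compact_le [SecondCountableTopology X] (h : VConv l W V V₀) (hW : IsOpen W)
    {K : Set X} (hK : IsCompact K) (hKW : K ⊆ W) : limsup (fun i => V i K) l ≤ V₀ K := by
  refine le_of_forall_gt fun c hc => ?_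
  obtain ⟨c', hc', hcc⟩ := exists_between hc
  refine lt_of_le_of_lt ?_ hcc
  refine limsup_le_of_le (by isBoundedDefault) ?_
  filter_upwards [h.compact_lt hW hK hKW hc'] with i hi
  exact hi.le

/-- `V₀ O ≤ liminf V i O` for open `O`. -/
theorem VConv.le_liminf_open [SecondCountableTopology X] (h : VConv l W V V₀) (hW : IsOpen W)
    {O : Set X} (hO : IsOpen O) : V₀ O ≤ liminf (fun i => V i O) l := by
  refine le_of_forall_lt fun c hc => ?_
  obtain ⟨c', hc', hcc⟩ := exists_between hc
  refine lt_of_lt_of_le hc' ?_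
  refine le_liminf_of_le (by isBoundedDefault) ?_
  filter_upwards [h.lt_open hW hO hcc] with i hi
  exact hi.le

theorem VConv.open_le [SecondCountableTopology X] [l.NeBot] (h : VConv l W V V₀) (hW : IsOpen W)
    {O : Set X} (hO : IsOpen O) {c : ℝ≥0∞} (hc : ∃ᶠ i in l, V i O ≤ c) : V₀ O ≤ c := by
  by_contra hlt
  rw [not_le] at hlt
  have h1 := h.lt_open hW hO hlt
  obtain ⟨i, hi1, hi2⟩ := (hc.and_eventually h1).exists
  exact absurd hi2 (not_lt.2 hi1)

theorem VConv.le_compact [SecondCountableTopology X] [l.NeBot] (h : VConv l W V V₀)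
    (hW : IsOpen W) {K : Set X} (hK : IsCompact K) (hKW : K ⊆ W) {c : ℝ≥0∞}
    (hc : ∃ᶠ i in l, c ≤ V i K) : c ≤ V₀ K := by
  by_contra hlt
  rw [not_le] at hlt
  have h1 := h.compact_lt hW hK hKW hlt
  obtain ⟨i, hi1, hi2⟩ := (hc.and_eventually h1).exists
  exact absurd hi2 (not_lt.2 hi1)

/-- a set which is negligible for all `V i` and whose part in `W` is open is negligible in the
limit. -/
theorem VConv.open_null [SecondCountableTopology X] [l.NeBot] (h : VConv l W V V₀)
    (hW : IsOpen W) {O : Set X} (hO : IsOpen O) (hc : ∃ᶠ i in l, V i O = 0) : V₀ O = 0 :=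
  le_antisymm (h.open_le hW hO (hc.mono fun _ hi => hi.le)) bot_le

/-- convergence on continuity sets. -/
theorem VConv.tendsto_of_frontier [SecondCountableTopology X] (h : VConv l W V V₀)
    (hW : IsOpen W) {B : Set X} (hB : IsCompact (closure B)) (hBW : closure B ⊆ W)
    (h0 : V₀ (frontier B) = 0) : Tendsto (fun i => V i B) l (𝓝 (V₀ B)) := by
  have e1 : V₀ (closure B) = V₀ B := by
    refine le_antisymm ?_ (measure_mono subset_closure)
    calc V₀ (closure B) ≤ V₀ (B ∪ frontier B) :=
          measure_mono (by rw [closure_eq_self_union_frontier])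
      _ ≤ V₀ B + V₀ (frontier B) := measure_union_le _ _
      _ = V₀ B := by rw [h0, add_zero]
  have e2 : V₀ (interior B) = V₀ B := by
    refine le_antisymm (measure_mono interior_subset) ?_
    calc V₀ B ≤ V₀ (interior B ∪ frontier B) := measure_mono fun x hx => by
          by_cases hx' : x ∈ interior B
          · exact Or.inl hx'
          · exact Or.inr ⟨subset_closure hx, hx'⟩
      _ ≤ V₀ (interior B) + V₀ (frontier B) := measure_union_le _ _
      _ = V₀ (interior B) := by rw [h0, add_zero]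
  refine tendsto_order.2 ⟨fun c hc => ?_, fun c hc => ?_⟩
  · rw [← e2] at hc
    filter_upwards [h.lt_open hW isOpen_interior hc] with i hi
    exact hi.trans_le (measure_mono interior_subset)
  · rw [← e1] at hc
    filter_upwards [h.compact_lt hW hB hBW hc] with i hi
    exact (measure_mono subset_closure).trans_lt hi

end Crest.Agent.R234.Vc_164
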