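import Crest.Agent.R234.Vc2_164

/-!
Row 234, leaf VF-COMP, file 3: uniqueness of vague limits; convergence of integrals of bounded
compactly supported functions which are continuous almost everywhere for the limit.
-/

set_option autoImplicit false
set_option linter.unusedSectionVars false

open MeasureTheory Filter Topology Set
open scoped ENNReal NNReal CompactlySupported

namespace Crest.Agent.R234.Vc_164

variable {X : Type*} {ι : Type*}

section Unique

variable [TopologicalSpace X] [T2Space X] [LocallyCompactSpace X]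
  [MeasurableSpace X] [BorelSpace X]

variable {l : Filter ι} {W : Set X} {V : ι → Measure X} {V₀ V₁ : Measure X}

/-- two measures, finite on compact subsets of `W` and carried by `W`, with the same integrals
against test functions are equal. -/
theorem ext_of_cc [SecondCountableTopology X] (hW : IsOpen W)
    (h0 : ∀ K, IsCompact K → K ⊆ W → V₀ K < ⊤) (h0' : V₀ Wᶜ = 0)
    (h1 : ∀ K, IsCompact K → K ⊆ W → V₁ K < ⊤) (h1' : V₁ Wᶜ = 0)
    (h : ∀ f : X → ℝ, Continuous f → HasCompactSupport f → tsupport f ⊆ W →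
      ∫ x, f x ∂V₀ = ∫ x, f x ∂V₁) : V₀ = V₁ := by
  have hme : MeasurableEmbedding (Subtype.val : W → X) :=
    MeasurableEmbedding.subtype_coe hW.measurableSet
  have : LocallyCompactSpace W := hW.locallyCompactSpace
  have key : ∀ μ : Measure X, (∀ K, IsCompact K → K ⊆ W → μ K < ⊤) →
      (μ.comap (Subtype.val : W → X)).Regular := by
    intro μ hμ
    have : IsFiniteMeasureOnCompacts (μ.comap (Subtype.val : W → X)) := by
      refine ⟨fun K hK => ?_⟩
      rw [hme.comap_apply]
      exact hμ _ (hK.image continuous_subtype_val) (Subtype.coe_image_subset _ _)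
    infer_instance
  have r0 := key V₀ h0
  have r1 := key V₁ h1
  have hint : ∀ (μ : Measure X), μ Wᶜ = 0 → ∀ f : C_c(W, ℝ),
      ∫ x, f x ∂(μ.comap (Subtype.val : W → X)) = ∫ x, ext0 (W := W) f x ∂μ := by
    intro μ hμ f
    have e1 : ∫ x, ext0 (W := W) f x ∂μ = ∫ x in W, ext0 (W := W) f x ∂μ :=
      (setIntegral_eq_integral_of_forall_compl_eq_zero fun x hx => ext0_notMem _ hx).symm
    rw [e1, ← integral_subtype_comap hW.measurableSet]
    refine integral_congr_ae (Eventually.of_forall fun x => ?_)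
    exact (ext0_val (W := W) f x).symm
  have e : V₀.comap (Subtype.val : W → X) = V₁.comap (Subtype.val : W → X) := by
    refine Measure.ext_of_integral_eq_on_compactlySupported fun f => ?_
    rw [hint V₀ h0' f, hint V₁ h1' f]
    exact h _ (ext0_continuous hW f) (ext0_hasCompactSupport f) (ext0_tsupport f)
  have key2 : ∀ μ : Measure X, μ Wᶜ = 0 →
      (μ.comap (Subtype.val : W → X)).map Subtype.val = μ := by
    intro μ hμ
    rw [hme.map_comap, Subtype.range_coe]
    exact Measure.restrict_eq_self_of_ae_mem (by rw [ae_iff]; exact hμ)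
  rw [← key2 V₀ h0', ← key2 V₁ h1', e]

theorem VConv.unique [SecondCountableTopology X] [l.NeBot] (hW : IsOpen W)
    (h : VConv l W V V₀) (h' : VConv l W V V₁) : V₀ = V₁ :=
  ext_of_cc hW h.fin h.off h'.fin h'.off fun f hf hfc hfW =>
    tendsto_nhds_unique (h.lim f hf hfc hfW) (h'.lim f hf hfc hfW)

end Unique


section Envelope

variable [PseudoMetricSpace X]

/-- Lipschitz lower envelope. -/
noncomputable def lowEnv (n : ℕ) (g : X → ℝ) (x : X) : ℝ := ⨅ y, (g y + n * dist x y)

variable {g : X → ℝ} {B : ℝ}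

theorem lowEnv_bdd (hB : ∀ x, |g x| ≤ B) (n : ℕ) (x : X) :
    BddBelow (range fun y => g y + n * dist x y) := by
  refine ⟨-B, ?_⟩
  rintro _ ⟨y, rfl⟩
  have h1 := (abs_le.1 (hB y)).1
  have h2 : 0 ≤ (n : ℝ) * dist x y := by positivity
  simp only
  linarith

theorem lowEnv_le (hB : ∀ x, |g x| ≤ B) (n : ℕ) (x : X) : lowEnv n g x ≤ g x := by
  have h := ciInf_le (lowEnv_bdd hB n x) x
  simp only [dist_self, mul_zero, add_zero] at h
  exact h

theorem neg_le_lowEnv (hB : ∀ x, |g x| ≤ B) (n : ℕ) (x : X) : -B ≤ lowEnv n g x := by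
  have : Nonempty X := ⟨x⟩
  refine le_ciInf fun y => ?_
  have h1 := (abs_le.1 (hB y)).1
  have h2 : 0 ≤ (n : ℝ) * dist x y := by positivity
  linarith

theorem abs_lowEnv_le (hB : ∀ x, |g x| ≤ B) (n : ℕ) (x : X) : |lowEnv n g x| ≤ B :=
  abs_le.2 ⟨neg_le_lowEnv hB n x, (lowEnv_le hB n x).trans (abs_le.1 (hB x)).2⟩

theorem lowEnv_sub_le (hB : ∀ x, |g x| ≤ B) (n : ℕ) (x y : X) :
    lowEnv n g x ≤ lowEnv n g y + n * dist x y := by
  have : Nonempty X := ⟨x⟩
  rw [← sub_le_iff_le_add]
  refine le_ciInf fun z => ?_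
  have h1 : lowEnv n g x ≤ g z + n * dist x z := ciInf_le (lowEnv_bdd hB n x) z
  have h2 : (n : ℝ) * dist x z ≤ n * (dist x y + dist y z) := by
    gcongr
    exact dist_triangle _ _ _
  linarith

theorem lowEnv_continuous (hB : ∀ x, |g x| ≤ B) (n : ℕ) : Continuous (lowEnv n g) := by
  have h : LipschitzWith n (lowEnv n g) := by
    refine LipschitzWith.of_dist_le_mul fun x y => ?_
    rw [Real.dist_eq, abs_le]
    have h1 := lowEnv_sub_le hB n x y
    have h2 := lowEnv_sub_le hB n y x
    rw [dist_comm y x] at h2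
    simp only [NNReal.coe_natCast]
    constructor <;> linarith
  exact h.continuous

theorem lowEnv_tendsto (hB : ∀ x, |g x| ≤ B) {x : X} (hx : ContinuousAt g x) :
    Tendsto (fun n : ℕ => lowEnv n g x) atTop (𝓝 (g x)) := by
  refine tendsto_order.2 ⟨fun c hc => ?_, fun c hc => ?_⟩
  · have : Nonempty X := ⟨x⟩
    obtain ⟨c', hc1, hc2⟩ := exists_between hc
    obtain ⟨δ, hδ, hg⟩ := Metric.continuousAt_iff.1 hx (g x - c') (sub_pos.2 hc2)
    obtain ⟨N, hN⟩ := exists_nat_ge ((2 * B) / δ)
    filter_upwards [eventually_ge_atTop N] with n hn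
    refine hc1.trans_le (le_ciInf fun y => ?_)
    by_cases hy : dist y x < δ
    · have h1 := hg hy
      rw [Real.dist_eq, abs_lt] at h1
      have h2 : 0 ≤ (n : ℝ) * dist x y := by positivity
      linarith [h1.1]
    · rw [not_lt] at hy
      have hnN : (N : ℝ) ≤ n := by exact_mod_cast hn
      have h2 : 2 * B ≤ n * dist x y := by
        rw [dist_comm x y]
        calc 2 * B = (2 * B) / δ * δ := by field_simp
          _ ≤ n * δ := by
              gcongr
              exact hN.trans hnN
          _ ≤ n * dist y x := by gcongr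
      have h3 := (abs_le.1 (hB y)).1
      have h4 := (abs_le.1 (hB x)).2
      linarith
  · exact Eventually.of_forall fun n => (lowEnv_le hB n x).trans_lt hc

end Envelope

section Portmanteau

variable [PseudoMetricSpace X] [T2Space X] [LocallyCompactSpace X]
  [MeasurableSpace X] [BorelSpace X]

variable {l : Filter ι} {W : Set X} {V : ι → Measure X} {V₀ : Measure X}

theorem VConv.lt_integral (h : VConv l W V V₀) (hW : IsOpen W) {g : X → ℝ} {B : ℝ}
    (hg : Measurable g) (hB : ∀ x, |g x| ≤ B) {K : Set X} (hK : IsCompact K) (hKW : K ⊆ W)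
    (hgK : ∀ x, x ∉ K → g x = 0) (h0 : ∀ᵐ x ∂V₀, ContinuousAt g x) {c : ℝ}
    (hc : c < ∫ x, g x ∂V₀) : ∀ᶠ i in l, c < ∫ x, g x ∂(V i) := by
  obtain ⟨χ, hχ1, hχc, hχW, hχ01⟩ := exists_cutoff hK hW hKW
  have hχg : ∀ x, χ x * g x = g x := by
    intro x
    by_cases hx : x ∈ K
    · rw [hχ1 x hx, one_mul]
    · rw [hgK x hx, mul_zero]
  have hcont : ∀ n, Continuous fun x => χ x * lowEnv n g x := fun n =>
    χ.continuous.mul (lowEnv_continuous hB n)
  have hcs : ∀ n, HasCompactSupport fun x => χ x * lowEnv n g x := fun n => hχc.mul_right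
  have hsub : ∀ n, tsupport (fun x => χ x * lowEnv n g x) ⊆ W := by
    intro n
    refine (closure_mono fun x hx => ?_).trans hχW
    rw [Function.mem_support] at hx ⊢
    exact left_ne_zero_of_mul hx
  have hχi : ∀ μ : Measure X, μ (tsupport χ) < ⊤ → Integrable (fun x => χ x * B) μ := by
    intro μ hμ
    exact (integrable_cc χ.continuous hχc hμ).mul_const B
  have hgi : ∀ μ : Measure X, μ (tsupport χ) < ⊤ → Integrable g μ := by
    intro μ hμ
    refine (hχi μ hμ).mono' hg.aestronglyMeasurable (Eventually.of_forall fun x => ?_)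
    rw [Real.norm_eq_abs, ← hχg x, abs_mul, abs_of_nonneg (hχ01 x).1]
    exact mul_le_mul_of_nonneg_left (hB x) (hχ01 x).1
  have hlim : Tendsto (fun n : ℕ => ∫ x, χ x * lowEnv n g x ∂V₀) atTop (𝓝 (∫ x, g x ∂V₀)) := by
    refine tendsto_integral_of_dominated_convergence (fun x => χ x * B)
      (fun n => (hcont n).aestronglyMeasurable) (hχi _ (h.fin _ hχc hχW))
      (fun n => Eventually.of_forall fun x => ?_) ?_
    · rw [Real.norm_eq_abs, abs_mul, abs_of_nonneg (hχ01 x).1]
      exact mul_le_mul_of_nonneg_left (abs_lowEnv_le hB n x) (hχ01 x).1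
    · filter_upwards [h0] with x hx
      have h1 := (lowEnv_tendsto hB hx).const_mul (χ x)
      rwa [hχg x] at h1
  obtain ⟨n, hn⟩ := ((tendsto_order.1 hlim).1 c hc).exists
  have h2 := h.lim _ (hcont n) (hcs n) (hsub n)
  obtain ⟨C, hC⟩ := h.bdd _ hχc hχW
  obtain ⟨-, hint⟩ := h.integrable (hcont n) (hcs n) (hsub n)
  filter_upwards [(tendsto_order.1 h2).1 c hn, hC, hint] with i hi hCi hinti
  refine hi.trans_le (integral_mono hinti (hgi _ (hCi.trans_lt ENNReal.coe_lt_top)) fun x => ?_)
  calc χ x * lowEnv n g x ≤ χ x * g x := mul_le_mul_of_nonneg_left (lowEnv_le hB n x) (hχ01 x).1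
    _ = g x := hχg x

/-- convergence of integrals of bounded, compactly supported functions, continuous `V₀`-a.e. -/
theorem VConv.tendsto_integral (h : VConv l W V V₀) (hW : IsOpen W) {g : X → ℝ} {B : ℝ}
    (hg : Measurable g) (hB : ∀ x, |g x| ≤ B) {K : Set X} (hK : IsCompact K) (hKW : K ⊆ W)
    (hgK : ∀ x, x ∉ K → g x = 0) (h0 : ∀ᵐ x ∂V₀, ContinuousAt g x) :
    Tendsto (fun i => ∫ x, g x ∂(V i)) l (𝓝 (∫ x, g x ∂V₀)) := by
  refine tendsto_order.2 ⟨fun c hc => h.lt_integral hW hg hB hK hKW hgK h0 hc, fun c hc => ?_⟩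
  have h1 := h.lt_integral hW (g := fun x => - g x) (B := B) hg.neg (fun x => by simpa using hB x)
    hK hKW (fun x hx => by simp [hgK x hx]) (by filter_upwards [h0] with x hx using hx.neg)
    (c := -c) (by rw [integral_neg]; linarith)
  filter_upwards [h1] with i hi
  rw [integral_neg] at hi
  linarith

end Portmanteau

end Crest.Agent.R234.Vc_164
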