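import Crest.Agent.R234.Vc3_164
import Crest.Agent.R234.Vf3_884

/-!
Row 234, leaf VF-COMP, file 4: compactness for general varifolds (language of `Vf0_884`).
Convergence of varifolds in `U` is `VConv l (U ×ˢ univ) V V₀`.
-/

set_option autoImplicit false
set_option linter.unusedSectionVars false

open MeasureTheory Filter Topology Set
open scoped ENNReal NNReal CompactlySupported
open Crest.GeometryTopology.Submanifold Crest.Agent.R234.Vf_884

namespace Crest.Agent.R234.Vc_164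

variable {m k : ℕ} {ι : Type*} {l : Filter ι} {U : Set (Euc k)}
  {V : ι → Measure (Euc k × L k)} {V₀ : Measure (Euc k × L k)}

theorem isOpen_prod_univ (hU : IsOpen U) : IsOpen (U ×ˢ (univ : Set (L k))) :=
  hU.prod isOpen_univ

/-- mass of `K ×ˢ univ` for a measure concentrated on `G m k`. -/
theorem conc_prod_univ {μ : Measure (Euc k × L k)} (hc : ∀ᵐ p ∂μ, p.2 ∈ G m k)
    (K : Set (Euc k)) : μ (K ×ˢ univ) = μ (K ×ˢ G m k) := by
  refine measure_congr ?_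
  filter_upwards [hc] with p hp
  refine propext ⟨fun h => ?_, fun h => ?_⟩
  · exact ⟨h.1, hp⟩
  · exact ⟨h.1, mem_univ _⟩

theorem exists_prod_subset {S : Set (Euc k × L k)} (hS : IsCompact S)
    (hSU : S ⊆ U ×ˢ (univ : Set (L k))) :
    ∃ K : Set (Euc k), IsCompact K ∧ K ⊆ U ∧ S ⊆ K ×ˢ univ :=
  ⟨Prod.fst '' S, hS.image continuous_fst, by rintro _ ⟨p, hp, rfl⟩; exact (hSU hp).1,
    fun p hp => ⟨⟨p, hp, rfl⟩, mem_univ _⟩⟩

/-- concentration on the Grassmannian passes to the limit. -/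
theorem VConv.conc [l.NeBot] (h : VConv l (U ×ˢ (univ : Set (L k))) V V₀) (hU : IsOpen U)
    (hc : ∃ᶠ i in l, ∀ᵐ p ∂(V i), p.2 ∈ G m k) : ∀ᵐ p ∂V₀, p.2 ∈ G m k := by
  rw [ae_iff]
  refine h.open_null (isOpen_prod_univ hU) ?_ ?_
  · exact (isClosed_G m k).isOpen_compl.preimage continuous_snd
  · refine hc.mono fun i hi => ?_
    exact ae_iff.1 hi

theorem VConv.fin_prod (h : VConv l (U ×ˢ (univ : Set (L k))) V V₀)
    (hc : ∀ᵐ p ∂V₀, p.2 ∈ G m k) {K : Set (Euc k)} (hK : IsCompact K) (hKU : K ⊆ U) :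
    V₀ (K ×ˢ univ) < ⊤ := by
  rw [conc_prod_univ hc]
  exact h.fin _ (hK.prod (isCompact_G m k)) (prod_mono hKU (subset_univ _))

theorem VConv.bdd_prod (h : VConv l (U ×ˢ (univ : Set (L k))) V V₀)
    (hc : ∀ᶠ i in l, ∀ᵐ p ∂(V i), p.2 ∈ G m k) {K : Set (Euc k)} (hK : IsCompact K)
    (hKU : K ⊆ U) : ∃ C : ℝ≥0, ∀ᶠ i in l, V i (K ×ˢ univ) ≤ C := by
  obtain ⟨C, hC⟩ := h.bdd _ (hK.prod (isCompact_G m k)) (prod_mono hKU (subset_univ _))
  refine ⟨C, ?_⟩
  filter_upwards [hC, hc] with i hi hci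
  rwa [conc_prod_univ hci]

/-- a cut-off function on the space of operators. -/
theorem exists_cutoff_G (m k : ℕ) : ∃ ψ : C(L k, ℝ), (∀ P ∈ G m k, ψ P = 1) ∧
    HasCompactSupport ψ ∧ ∀ P, 0 ≤ ψ P ∧ ψ P ≤ 1 := by
  obtain ⟨f, h1, h2, -, h4⟩ := exists_cutoff (isCompact_G m k) isOpen_univ (subset_univ _)
  exact ⟨f, h1, h2, h4⟩

/-- convergence for continuous functions on `ℝ^k × L k` supported over a compact subset of `U`. -/
theorem VConv.lim_fst (h : VConv l (U ×ˢ (univ : Set (L k))) V V₀)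
    (hc : ∀ᶠ i in l, ∀ᵐ p ∂(V i), p.2 ∈ G m k) (hc₀ : ∀ᵐ p ∂V₀, p.2 ∈ G m k)
    {f : Euc k × L k → ℝ} (hf : Continuous f) {K : Set (Euc k)} (hK : IsCompact K)
    (hKU : K ⊆ U) (hfK : ∀ p : Euc k × L k, p.1 ∉ K → f p = 0) :
    Tendsto (fun i => ∫ p, f p ∂(V i)) l (𝓝 (∫ p, f p ∂V₀)) := by
  obtain ⟨ψ, hψ1, hψc, -⟩ := exists_cutoff_G m k
  have hg : Continuous fun p : Euc k × L k => f p * ψ p.2 :=
    hf.mul (ψ.continuous.comp continuous_snd)
  have hsub : tsupport (fun p : Euc k × L k => f p * ψ p.2) ⊆ K ×ˢ tsupport ψ := by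
    refine closure_minimal ?_ (hK.isClosed.prod (isClosed_tsupport _))
    intro p hp
    rw [Function.mem_support] at hp
    refine ⟨?_, ?_⟩
    · by_contra hpK
      exact left_ne_zero_of_mul hp (hfK p hpK)
    · exact subset_tsupport _ (right_ne_zero_of_mul hp)
  have hcs : HasCompactSupport fun p : Euc k × L k => f p * ψ p.2 :=
    (hK.prod hψc).of_isClosed_subset (isClosed_tsupport _) hsub
  have h1 := h.lim _ hg hcs (hsub.trans (prod_mono hKU (subset_univ _)))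
  have h2 : ∀ μ : Measure (Euc k × L k), (∀ᵐ p ∂μ, p.2 ∈ G m k) →
      ∫ p, f p * ψ p.2 ∂μ = ∫ p, f p ∂μ := by
    intro μ hμ
    refine integral_congr_ae ?_
    filter_upwards [hμ] with p hp
    rw [hψ1 _ hp, mul_one]
  rw [h2 V₀ hc₀] at h1
  refine h1.congr' ?_
  filter_upwards [hc] with i hi
  exact h2 _ hi

theorem tsupport_fderiv_subset' {X : Euc k → Euc k} {x : Euc k} (hx : x ∉ tsupport X) :
    fderiv ℝ X x = 0 := by
  have h1 : x ∉ tsupport (fderiv ℝ X) := fun h => hx (tsupport_fderiv_subset ℝ h)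
  exact image_eq_zero_of_notMem_tsupport h1

theorem continuous_tr_fderiv {X : Euc k → Euc k} (hX : ContDiff ℝ 1 X) :
    Continuous fun p : Euc k × L k => tr ((fderiv ℝ X p.1) ∘L p.2) :=
  tr.continuous.comp (((hX.continuous_fderiv one_ne_zero).comp continuous_fst).clm_comp
    continuous_snd)

/-- convergence of first variations. -/
theorem VConv.lim_fv (h : VConv l (U ×ˢ (univ : Set (L k))) V V₀)
    (hc : ∀ᶠ i in l, ∀ᵐ p ∂(V i), p.2 ∈ G m k) (hc₀ : ∀ᵐ p ∂V₀, p.2 ∈ G m k)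
    {X : Euc k → Euc k} (hX : ContDiff ℝ 1 X) (hXc : HasCompactSupport X)
    (hXU : tsupport X ⊆ U) :
    Tendsto (fun i => ∫ p, tr ((fderiv ℝ X p.1) ∘L p.2) ∂(V i)) l
      (𝓝 (∫ p, tr ((fderiv ℝ X p.1) ∘L p.2) ∂V₀)) := by
  refine h.lim_fst hc hc₀ (continuous_tr_fderiv hX) hXc hXU fun p hp => ?_
  rw [tsupport_fderiv_subset' hp]
  simp

/-- limits of (asymptotically) stationary varifolds are stationary. -/
theorem VConv.stat [l.NeBot] (h : VConv l (U ×ˢ (univ : Set (L k))) V V₀) (hU : IsOpen U)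
    (hc : ∀ᶠ i in l, ∀ᵐ p ∂(V i), p.2 ∈ G m k)
    (hs : ∀ X : Euc k → Euc k, ContDiff ℝ 1 X → HasCompactSupport X → tsupport X ⊆ U →
      Tendsto (fun i => ∫ p, tr ((fderiv ℝ X p.1) ∘L p.2) ∂(V i)) l (𝓝 0)) :
    Stat m k U V₀ where
  conc := h.conc hU hc.frequently
  fin K hK hKU := h.fin_prod (h.conc hU hc.frequently) hK hKU
  stat X hX hXc hXU :=
    tendsto_nhds_unique (h.lim_fv hc (h.conc hU hc.frequently) hX hXc hXU) (hs X hX hXc hXU)

theorem VConv.stat_of_stat [l.NeBot] (h : VConv l (U ×ˢ (univ : Set (L k))) V V₀)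
    (hU : IsOpen U) (hs : ∀ᶠ i in l, Stat m k U (V i)) : Stat m k U V₀ := by
  refine h.stat hU (hs.mono fun i hi => hi.conc) fun X hX hXc hXU => ?_
  refine tendsto_const_nhds.congr' ?_
  filter_upwards [hs] with i hi
  exact (hi.stat X hX hXc hXU).symm

/-- existence of limits along ultrafilters. -/
theorem exists_limit (F : Ultrafilter ι) (hU : IsOpen U) (V : ι → Measure (Euc k × L k))
    (hc : ∀ᶠ i in (F : Filter ι), ∀ᵐ p ∂(V i), p.2 ∈ G m k)
    (hb : ∀ K : Set (Euc k), IsCompact K → K ⊆ U →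
      ∃ C : ℝ≥0, ∀ᶠ i in (F : Filter ι), V i (K ×ˢ univ) ≤ C) :
    ∃ V₀, VConv (F : Filter ι) (U ×ˢ univ) V V₀ ∧ (∀ᵐ p ∂V₀, p.2 ∈ G m k) ∧
      ∀ K : Set (Euc k), IsCompact K → K ⊆ U → V₀ (K ×ˢ univ) < ⊤ := by
  obtain ⟨V₀, h⟩ := exists_vconv F (isOpen_prod_univ (k := k) hU) V (fun S hS hSU => by
    obtain ⟨K, hK, hKU, hSK⟩ := exists_prod_subset hS hSU
    obtain ⟨C, hC⟩ := hb K hK hKU
    exact ⟨C, hC.mono fun i hi => (measure_mono hSK).trans hi⟩)
  exact ⟨V₀, h, h.conc hU hc.frequently,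
    fun K hK hKU => h.fin_prod (h.conc hU hc.frequently) hK hKU⟩

/-- existence of limits along subsequences. -/
theorem exists_limit_subseq (hU : IsOpen U) (V : ℕ → Measure (Euc k × L k))
    (hc : ∀ᶠ i in atTop, ∀ᵐ p ∂(V i), p.2 ∈ G m k)
    (hb : ∀ K : Set (Euc k), IsCompact K → K ⊆ U →
      ∃ C : ℝ≥0, ∀ᶠ i in atTop, V i (K ×ˢ univ) ≤ C) :
    ∃ φ : ℕ → ℕ, StrictMono φ ∧ ∃ V₀, VConv atTop (U ×ˢ univ) (fun i => V (φ i)) V₀ ∧
      (∀ᵐ p ∂V₀, p.2 ∈ G m k) ∧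
      ∀ K : Set (Euc k), IsCompact K → K ⊆ U → V₀ (K ×ˢ univ) < ⊤ := by
  obtain ⟨φ, hφ, V₀, h⟩ := exists_subseq (isOpen_prod_univ (k := k) hU) V (fun S hS hSU => by
    obtain ⟨K, hK, hKU, hSK⟩ := exists_prod_subset hS hSU
    obtain ⟨C, hC⟩ := hb K hK hKU
    exact ⟨C, hC.mono fun i hi => (measure_mono hSK).trans hi⟩)
  have hc' := (hφ.tendsto_atTop.eventually hc).frequently
  exact ⟨φ, hφ, V₀, h, h.conc hU hc', fun K hK hKU => h.fin_prod (h.conc hU hc') hK hKU⟩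

/-- convergence of the mass measures. -/
theorem VConv.map_fst [l.NeBot] (h : VConv l (U ×ˢ (univ : Set (L k))) V V₀) (hU : IsOpen U)
    (hc : ∀ᶠ i in l, ∀ᵐ p ∂(V i), p.2 ∈ G m k) :
    VConv l U (fun i => (V i).map Prod.fst) (V₀.map Prod.fst) where
  fin K hK hKU := by
    rw [Measure.map_apply measurable_fst hK.measurableSet]
    have : (Prod.fst : Euc k × L k → Euc k) ⁻¹' K = K ×ˢ univ := by ext; simp
    rw [this]
    exact h.fin_prod (h.conc hU hc.frequently) hK hKU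
  off := by
    rw [Measure.map_apply measurable_fst hU.measurableSet.compl]
    have : (Prod.fst : Euc k × L k → Euc k) ⁻¹' Uᶜ = (U ×ˢ univ)ᶜ := by ext; simp
    rw [this]
    exact h.off
  bdd K hK hKU := by
    obtain ⟨C, hC⟩ := h.bdd_prod hc hK hKU
    refine ⟨C, ?_⟩
    filter_upwards [hC] with i hi
    rw [Measure.map_apply measurable_fst hK.measurableSet]
    have : (Prod.fst : Euc k × L k → Euc k) ⁻¹' K = K ×ˢ univ := by ext; simp
    rwa [this]
  lim f hf hfc hfU := by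
    have h1 := h.lim_fst hc (h.conc hU hc.frequently) (f := fun p => f p.1)
      (hf.comp continuous_fst) hfc hfU
      (fun p hp => image_eq_zero_of_notMem_tsupport hp)
    have h2 : ∀ μ : Measure (Euc k × L k),
        ∫ x, f x ∂(μ.map Prod.fst) = ∫ p, f p.1 ∂μ := fun μ =>
      integral_map measurable_fst.aemeasurable hf.aestronglyMeasurable
    simp only [h2]
    exact h1

end Crest.Agent.R234.Vc_164
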