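import Crest.Agent.R234.Vf0_884

/-!
Row 234, base library (helper884), file 1: the general varifold `VD D` of the frozen
`VarifoldData`, its mass measure `weight D`, its first variation, stationarity.
-/

set_option autoImplicit false

open MeasureTheory Crest.GeometryTopology.Submanifold
open scoped ENNReal InnerProductSpace

noncomputable section

namespace Crest.Agent.R234.Vf_884

variable {m k : ℕ}

section Proj

variable {f : Euc m → Euc k} {a : Euc m}

theorem sum_smul_pd (f : Euc m → Euc k) (a : Euc m) (c : Euc m) :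
    ∑ i, c i • pd f a i = fderiv ℝ f a c := by
  unfold pd
  have h : c = ∑ i, c i • stdVec m i := by
    ext j
    simp [stdVec, Pi.single_apply]
  conv_rhs => rw [h, map_sum]
  simp_rw [map_smul]

theorem tangentAt_eq_range (f : Euc m → Euc k) (a : Euc m) :
    tangentAt f a = LinearMap.range (fderiv ℝ f a).toLinearMap := by
  refine le_antisymm ?_ ?_
  · refine Submodule.span_le.2 ?_
    rintro _ ⟨i, rfl⟩
    exact ⟨stdVec m i, rfl⟩
  · rintro _ ⟨c, rfl⟩
    change fderiv ℝ f a c ∈ tangentAt f a
    rw [← sum_smul_pd]
    exact Submodule.sum_mem _ fun i _ => Submodule.smul_mem _ _ (Submodule.subset_span ⟨i, rfl⟩)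

theorem finrank_tangentAt (h : Function.Injective (fderiv ℝ f a)) :
    Module.finrank ℝ (tangentAt f a) = m := by
  rw [tangentAt_eq_range, LinearMap.finrank_range_of_inj h]
  simp

theorem metricMat_mulVec (f : Euc m → Euc k) (a : Euc m) (c : Fin m → ℝ) (i : Fin m) :
    (metricMat f a).mulVec c i = ⟪pd f a i, ∑ j, c j • pd f a j⟫_ℝ := by
  rw [inner_sum, Matrix.mulVec, dotProduct]
  refine Finset.sum_congr rfl fun j _ => ?_
  rw [inner_smul_right, metricMat, Matrix.of_apply, mul_comm]

theorem det_metricMat_ne_zero (h : Function.Injective (fderiv ℝ f a)) :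
    (metricMat f a).det ≠ 0 := by
  intro h0
  obtain ⟨c, hc, hc0⟩ := Matrix.exists_mulVec_eq_zero_iff.2 h0
  set c' : Euc m := WithLp.toLp 2 c with hc'
  have h1 : ⟪∑ j, c j • pd f a j, ∑ j, c j • pd f a j⟫_ℝ = 0 := by
    rw [sum_inner]
    refine Finset.sum_eq_zero fun i _ => ?_
    rw [inner_smul_left, ← metricMat_mulVec, hc0]
    simp
  have h2 : fderiv ℝ f a c' = 0 := by
    rw [← sum_smul_pd]
    exact inner_self_eq_zero.1 h1
  have h3 : c' = 0 := h (by rw [h2, map_zero])
  apply hc
  funext i
  have := congrArg (fun v : Euc m => v i) h3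
  simpa [hc'] using this

theorem isSymm_metricMat (f : Euc m → Euc k) (a : Euc m) : (metricMat f a).IsSymm := by
  ext i j
  simp only [metricMat, Matrix.transpose_apply, Matrix.of_apply]
  exact real_inner_comm _ _

/-- the projection onto the tangent space of the chart. -/
def projF (f : Euc m → Euc k) (a : Euc m) : L k := (tangentAt f a).starProjection

/-- explicit formula for the projection. -/
def projG (f : Euc m → Euc k) (a : Euc m) : L k :=
  ∑ i, ∑ j, (metricMat f a)⁻¹ i j • (innerSL ℝ (pd f a i)).smulRight (pd f a j)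

theorem projG_apply (f : Euc m → Euc k) (a : Euc m) (v : Euc k) :
    projG f a v = ∑ i, ∑ j, (metricMat f a)⁻¹ i j • (⟪pd f a i, v⟫_ℝ • pd f a j) := by
  simp [projG]

theorem projF_eq (h : (metricMat f a).det ≠ 0) : projF f a = projG f a := by
  ext1 v
  unfold projF
  refine Submodule.eq_starProjection_of_mem_orthogonal (K := tangentAt f a) ?_ ?_
  · rw [projG_apply]
    exact Submodule.sum_mem _ fun i _ => Submodule.sum_mem _ fun j _ =>
      Submodule.smul_mem _ _ (Submodule.smul_mem _ _ (Submodule.subset_span ⟨j, rfl⟩))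
  · rw [Submodule.mem_orthogonal]
    intro u hu
    refine Submodule.span_induction (p := fun u _ => ⟪u, v - projG f a v⟫_ℝ = 0) ?_ ?_ ?_ ?_ hu
    · rintro _ ⟨l, rfl⟩
      rw [inner_sub_right, projG_apply, inner_sum]
      have h1 : ∀ i, ⟪pd f a l, ∑ j, (metricMat f a)⁻¹ i j • (⟪pd f a i, v⟫_ℝ • pd f a j)⟫_ℝ
          = ⟪pd f a i, v⟫_ℝ * ((metricMat f a)⁻¹ * metricMat f a) i l := by
        intro i
        rw [inner_sum, Matrix.mul_apply, Finset.mul_sum]
        refine Finset.sum_congr rfl fun j _ => ?_
        rw [inner_smul_right, inner_smul_right, metricMat, Matrix.of_apply,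
          real_inner_comm (pd f a l) (pd f a j)]
        ring
      simp_rw [h1, Matrix.nonsing_inv_mul _ (isUnit_iff_ne_zero.2 h)]
      simp [Matrix.one_apply]
    · simp
    · intro x y _ _ hx hy
      rw [inner_add_left, hx, hy, add_zero]
    · intro c x _ hx
      rw [inner_smul_left, hx, mul_zero]

theorem continuous_pd (hf : ContDiff ℝ 1 f) (i : Fin m) : Continuous fun a => pd f a i :=
  (hf.continuous_fderiv one_ne_zero).clm_apply continuous_const

theorem continuous_metricMat (hf : ContDiff ℝ 1 f) : Continuous fun a => metricMat f a :=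
  continuous_matrix fun i j => (continuous_pd hf i).inner (continuous_pd hf j)

theorem continuousOn_projF (hf : ContDiff ℝ 1 f) :
    ContinuousOn (projF f) {a | (metricMat f a).det ≠ 0} := by
  have h1 : ContinuousOn (fun a => (metricMat f a)⁻¹) {a | (metricMat f a).det ≠ 0} := by
    have h2 : ContinuousOn (fun a => ((metricMat f a).det)⁻¹ • (metricMat f a).adjugate)
        {a | (metricMat f a).det ≠ 0} := by
      exact ((continuous_metricMat hf).matrix_det.continuousOn.inv₀ fun a ha => ha).fun_smul
        (continuous_metricMat hf).matrix_adjugate.continuousOn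
    refine h2.congr fun a ha => ?_
    simp only
    rw [Matrix.inv_def, Ring.inverse_eq_inv']
  have h3 : ContinuousOn (projG f) {a | (metricMat f a).det ≠ 0} := by
    unfold projG
    refine continuousOn_finsetSum _ fun i _ => continuousOn_finsetSum _ fun j _ => ?_
    refine ContinuousOn.fun_smul ?_ (Continuous.continuousOn ?_)
    · exact (continuous_apply_apply i j).comp_continuousOn h1
    · have h4 : Continuous fun p : (Euc k →L[ℝ] ℝ) × Euc k => p.1.smulRight p.2 := by
        exact (ContinuousLinearMap.smulRightL ℝ (Euc k) (Euc k)).continuous₂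
      exact h4.comp (((innerSL ℝ).continuous.comp (continuous_pd hf i)).prodMk (continuous_pd hf j))
  exact h3.congr fun a ha => projF_eq ha

theorem projF_mem_G (h : Function.Injective (fderiv ℝ f a)) : projF f a ∈ G m k :=
  starProjection_mem_G _ (finrank_tangentAt h)

theorem continuous_jac (hf : ContDiff ℝ 1 f) : Continuous (jac f) :=
  ((continuous_metricMat hf).matrix_det).sqrt

end Proj

end Crest.Agent.R234.Vf_884
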