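import Crest.Agent.R234.Vf3_884

/-!
Row 234, base library (helper884), file 4: weighted radial identities, discontinuous profiles,
the exact monotonicity identity.
-/

set_option autoImplicit false

open MeasureTheory Crest.GeometryTopology.Submanifold Filter Topology
open scoped ENNReal InnerProductSpace

noncomputable section

namespace Crest.Agent.R234.Vf_884

variable {m k : ℕ}

theorem tr_radialh {g : ℝ → ℝ} (hg : ContDiff ℝ 1 g) {h : Euc k → ℝ} (hh : ContDiff ℝ 1 h)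
    (z x : Euc k) {P : L k} (hP : P ∈ G m k) :
    tr ((fderiv ℝ (fun x : Euc k => h x • (g (‖x - z‖ ^ 2) • (x - z))) x) ∘L P)
      = h x * (m * g (‖x - z‖ ^ 2) + 2 * deriv g (‖x - z‖ ^ 2) * ‖P (x - z)‖ ^ 2)
        + g (‖x - z‖ ^ 2) * fderiv ℝ h x (P (x - z)) := by
  have h1 := hasFDerivAt_radial hg z x
  have h2 : HasFDerivAt h (fderiv ℝ h x) x := (hh.differentiable one_ne_zero x).hasFDerivAt
  have h3 : HasFDerivAt (fun x : Euc k => h x • (g (‖x - z‖ ^ 2) • (x - z))) _ x := h2.smul h1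
  rw [h3.fderiv, ContinuousLinearMap.add_comp, map_add, tr_smulRight_comp]
  have h4 := tr_radial hg z x hP
  rw [h1.fderiv] at h4
  rw [ContinuousLinearMap.smul_comp, map_smul, h4, map_smul, map_smul, smul_eq_mul, smul_eq_mul]

variable {U : Set (Euc k)} {V : Measure (Euc k × L k)}

theorem radialh_C1 (hV : Stat m k U V) {g : ℝ → ℝ} (hg : ContDiff ℝ 1 g)
    {h : Euc k → ℝ} (hh : ContDiff ℝ 1 h) {z : Euc k} {ρ : ℝ}
    (hρ : 0 ≤ ρ) (hU : Metric.closedBall z ρ ⊆ U) (hg0 : ∀ t, ρ ^ 2 ≤ t → g t = 0) :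
    ∫ p, (h p.1 * (m * g (‖p.1 - z‖ ^ 2) + 2 * deriv g (‖p.1 - z‖ ^ 2) * ‖p.2 (p.1 - z)‖ ^ 2)
      + g (‖p.1 - z‖ ^ 2) * fderiv ℝ h p.1 (p.2 (p.1 - z))) ∂V = 0 := by
  have hts := tsupport_radial (k := k) (z := z) hρ hg0
  have hts2 : tsupport (fun x : Euc k => h x • (g (‖x - z‖ ^ 2) • (x - z)))
      ⊆ Metric.closedBall z ρ := by
    refine (closure_mono ?_).trans hts
    intro x hx
    exact fun hcon => hx (by simp only at hcon ⊢; rw [hcon, smul_zero])
  have h := hV.stat _ (hh.smul (contDiff_radial hg z))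
    (HasCompactSupport.of_support_subset_isCompact (isCompact_closedBall z ρ)
      (subset_closure.trans hts2)) (hts2.trans hU)
  rw [← h]
  refine integral_congr_ae ?_
  filter_upwards [hV.conc] with p hp
  exact (tr_radialh hg hh z p.1 hp).symm

/-- the weighted radial identity, continuous profile. -/
theorem radialh_C0 (hV : Stat m k U V) {ψ : ℝ → ℝ} (hψ : Continuous ψ)
    {h : Euc k → ℝ} (hh : ContDiff ℝ 1 h) {z : Euc k} {ρ : ℝ}
    (hρ : 0 ≤ ρ) (hU : Metric.closedBall z ρ ⊆ U) (hψ0 : ∀ t, ρ ^ 2 ≤ t → ψ t = 0) :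
    ∫ p, (h p.1 * ((m / 2 : ℝ) * (∫ u in (‖p.1 - z‖ ^ 2)..(ρ ^ 2), ψ u)
      - ψ (‖p.1 - z‖ ^ 2) * ‖p.2 (p.1 - z)‖ ^ 2)
      + (1 / 2 : ℝ) * (∫ u in (‖p.1 - z‖ ^ 2)..(ρ ^ 2), ψ u) *
        fderiv ℝ h p.1 (p.2 (p.1 - z))) ∂V = 0 := by
  set g : ℝ → ℝ := fun t => (1 / 2 : ℝ) * ∫ u in t..(ρ ^ 2), ψ u with hgdef
  have hd : ∀ t, HasDerivAt g ((1 / 2 : ℝ) * (-ψ t)) t := by
    intro t
    refine HasDerivAt.const_mul _ ?_
    exact intervalIntegral.integral_hasDerivAt_left (hψ.intervalIntegrable _ _)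
      hψ.aestronglyMeasurable.stronglyMeasurableAtFilter hψ.continuousAt
  have hderiv : deriv g = fun t => (1 / 2 : ℝ) * (-ψ t) := funext fun t => (hd t).deriv
  have hg : ContDiff ℝ 1 g := by
    rw [contDiff_one_iff_deriv]
    refine ⟨fun t => (hd t).differentiableAt, ?_⟩
    rw [hderiv]
    fun_prop
  have hg0 : ∀ t, ρ ^ 2 ≤ t → g t = 0 := by
    intro t ht
    simp only [hgdef]
    rw [intervalIntegral.integral_symm, intervalIntegral.integral_congr (g := fun _ => (0:ℝ))]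
    · simp
    · intro u hu
      rw [Set.uIcc_of_le ht] at hu
      exact hψ0 u hu.1
  have h := radialh_C1 hV hg hh hρ hU hg0
  rw [← h]
  refine integral_congr_ae (Filter.Eventually.of_forall fun p => ?_)
  simp only
  rw [hderiv, hgdef]
  ring

/-- cutoffs increasing to the indicator of `(a, b)`. -/
def chi (a b : ℝ) (j : ℕ) (u : ℝ) : ℝ := min 1 (j * max 0 (min (u - a) (b - u)))

theorem chi_nonneg (a b : ℝ) (j : ℕ) (u : ℝ) : 0 ≤ chi a b j u :=
  le_min zero_le_one (mul_nonneg (Nat.cast_nonneg _) (le_max_left _ _))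

theorem chi_le_one (a b : ℝ) (j : ℕ) (u : ℝ) : chi a b j u ≤ 1 := min_le_left _ _

theorem continuous_chi (a b : ℝ) (j : ℕ) : Continuous (chi a b j) := by
  unfold chi
  fun_prop

theorem chi_eq_zero {a b u : ℝ} (j : ℕ) (h : u ∉ Set.Ioo a b) : chi a b j u = 0 := by
  unfold chi
  have : min (u - a) (b - u) ≤ 0 := by
    by_contra hcon
    rw [not_le, lt_min_iff] at hcon
    exact h ⟨by linarith [hcon.1], by linarith [hcon.2]⟩
  rw [max_eq_left this, mul_zero, min_eq_right zero_le_one]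

theorem tendsto_chi {a b u : ℝ} (h : u ∈ Set.Ioo a b) :
    ∀ᶠ j in atTop, chi a b j u = 1 := by
  have hpos : 0 < min (u - a) (b - u) := lt_min (by linarith [h.1]) (by linarith [h.2])
  obtain ⟨N, hN⟩ := exists_nat_ge (1 / min (u - a) (b - u))
  filter_upwards [eventually_ge_atTop N] with j hj
  unfold chi
  rw [max_eq_right hpos.le]
  refine min_eq_left ?_
  have h1 : 1 / min (u - a) (b - u) ≤ j := hN.trans (by exact_mod_cast hj)
  rwa [div_le_iff₀ hpos] at h1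

theorem tendsto_chi_mul (c : ℝ → ℝ) (a b u : ℝ) :
    Tendsto (fun j : ℕ => c u * chi a b j u) atTop (𝓝 ((Set.Ioo a b).indicator c u)) := by
  by_cases h : u ∈ Set.Ioo a b
  · rw [Set.indicator_of_mem h]
    refine tendsto_const_nhds.congr' ?_
    filter_upwards [tendsto_chi h] with j hj
    rw [hj, mul_one]
  · rw [Set.indicator_of_notMem h]
    refine tendsto_const_nhds.congr fun j => ?_
    rw [chi_eq_zero j h, mul_zero]

theorem integrable_of_bound_ball {V : Measure (Euc k × L k)} {z : Euc k} {ρ : ℝ}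
    (hV : V (Metric.closedBall z ρ ×ˢ Set.univ) < ⊤) {B : Euc k → ℝ} (hB : Continuous B) :
    Integrable (fun p : Euc k × L k =>
      (Metric.closedBall z ρ ×ˢ (Set.univ : Set (L k))).indicator (fun p => B p.1) p) V := by
  have hm : MeasurableSet (Metric.closedBall z ρ ×ˢ (Set.univ : Set (L k))) :=
    measurableSet_closedBall.prod MeasurableSet.univ
  rw [integrable_indicator_iff hm]
  obtain ⟨C, hC⟩ := (isCompact_closedBall z ρ).exists_bound_of_continuousOn hB.continuousOn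
  refine IntegrableOn.of_bound hV (hB.comp continuous_fst).aestronglyMeasurable C ?_
  filter_upwards [ae_restrict_mem hm] with p hp
  exact hC p.1 hp.1

/-- the weighted radial identity, profile `1_(a, ρ²) c`. -/
theorem radialh_ind (hV : Stat m k U V) {c : ℝ → ℝ} (hc : Continuous c)
    {h : Euc k → ℝ} (hh : ContDiff ℝ 1 h) {z : Euc k} {a ρ : ℝ}
    (hρ : 0 ≤ ρ) (hU : Metric.closedBall z ρ ⊆ U) :
    ∫ p, (h p.1 * ((m / 2 : ℝ) *
        (∫ u in (‖p.1 - z‖ ^ 2)..(ρ ^ 2), (Set.Ioo a (ρ ^ 2)).indicator c u)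
      - (Set.Ioo a (ρ ^ 2)).indicator c (‖p.1 - z‖ ^ 2) * ‖p.2 (p.1 - z)‖ ^ 2)
      + (1 / 2 : ℝ) * (∫ u in (‖p.1 - z‖ ^ 2)..(ρ ^ 2), (Set.Ioo a (ρ ^ 2)).indicator c u) *
        fderiv ℝ h p.1 (p.2 (p.1 - z))) ∂V = 0 := by
  obtain ⟨M, hM⟩ : ∃ M, ∀ u ∈ Set.Icc (0:ℝ) (ρ ^ 2), ‖c u‖ ≤ M :=
    isCompact_Icc.exists_bound_of_continuousOn hc.continuousOn
  have hM0 : 0 ≤ M := (norm_nonneg _).trans (hM 0 ⟨le_rfl, sq_nonneg ρ⟩)
  set ψ : ℕ → ℝ → ℝ := fun j u => c u * chi a (ρ ^ 2) j u with hψ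
  have hψc : ∀ j, Continuous (ψ j) := fun j => hc.mul (continuous_chi _ _ j)
  have hψ0 : ∀ j t, ρ ^ 2 ≤ t → ψ j t = 0 := fun j t ht => by
    simp only [hψ]
    rw [chi_eq_zero j (fun hcon => absurd hcon.2 (not_lt.2 ht)), mul_zero]
  have hψb : ∀ j, ∀ u ∈ Set.Icc (0:ℝ) (ρ ^ 2), ‖ψ j u‖ ≤ M := fun j u hu => by
    simp only [hψ]
    rw [norm_mul, Real.norm_of_nonneg (chi_nonneg _ _ _ _)]
    calc ‖c u‖ * chi a (ρ ^ 2) j u ≤ ‖c u‖ * 1 :=
          mul_le_mul_of_nonneg_left (chi_le_one _ _ _ _) (norm_nonneg _)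
      _ ≤ M := by rw [mul_one]; exact hM u hu
  -- the inner integrals
  have hI0 : ∀ j t, ρ ^ 2 ≤ t → ∫ u in t..(ρ ^ 2), ψ j u = 0 := fun j t ht => by
    rw [intervalIntegral.integral_symm, intervalIntegral.integral_congr (g := fun _ => (0:ℝ))]
    · simp
    · intro u hu
      rw [Set.uIcc_of_le ht] at hu
      exact hψ0 j u hu.1
  have hIb : ∀ j, ∀ t ∈ Set.Icc (0:ℝ) (ρ ^ 2), ‖∫ u in t..(ρ ^ 2), ψ j u‖ ≤ M * ρ ^ 2 := by
    intro j t ht
    refine (intervalIntegral.norm_integral_le_of_norm_le_const (C := M) fun u hu => ?_).trans ?_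
    · rw [Set.uIoc_of_le ht.2] at hu
      exact hψb j u ⟨ht.1.trans hu.1.le, hu.2⟩
    · rw [abs_of_nonneg (by linarith [ht.2])]
      exact mul_le_mul_of_nonneg_left (by linarith [ht.1]) hM0
  have hIlim : ∀ t, 0 ≤ t → Tendsto (fun j => ∫ u in t..(ρ ^ 2), ψ j u) atTop
      (𝓝 (∫ u in t..(ρ ^ 2), (Set.Ioo a (ρ ^ 2)).indicator c u)) := by
    intro t ht
    refine intervalIntegral.tendsto_integral_filter_of_dominated_convergence (fun _ => ‖c 0‖ + M +
      0) ?_ ?_ ?_ ?_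
    · exact Eventually.of_forall fun j => (hψc j).aestronglyMeasurable
    · refine Eventually.of_forall fun j => Eventually.of_forall fun u hu => ?_
      by_cases hu2 : ρ ^ 2 ≤ u
      · rw [hψ0 j u hu2, norm_zero]
        positivity
      · rw [not_le] at hu2
        have h0 : 0 ≤ u := by
          rcases le_total t (ρ ^ 2) with h1 | h1
          · rw [Set.uIoc_of_le h1] at hu
            linarith [hu.1]
          · rw [Set.uIoc_of_ge h1] at hu
            linarith [hu.1]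
        have := hψb j u ⟨h0, hu2.le⟩
        have h3 : 0 ≤ ‖c 0‖ := norm_nonneg _
        linarith
    · exact intervalIntegrable_const
    · exact Eventually.of_forall fun u _ => tendsto_chi_mul c a (ρ ^ 2) u
  -- dominated convergence
  set B : Euc k → ℝ := fun x => ‖h x‖ * ((m / 2 : ℝ) * (M * ρ ^ 2) + M * ‖x - z‖ ^ 2) +
    (1 / 2 : ℝ) * (M * ρ ^ 2) * (‖fderiv ℝ h x‖ * ‖x - z‖) with hB
  have hBc : Continuous B := by
    have h1 : Continuous (fderiv ℝ h) := hh.continuous_fderiv one_ne_zero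
    have h2 : Continuous h := hh.continuous
    simp only [hB]
    fun_prop
  have key := tendsto_integral_of_dominated_convergence (μ := V)
    (F := fun (j : ℕ) (p : Euc k × L k) => h p.1 * ((m / 2 : ℝ) *
        (∫ u in (‖p.1 - z‖ ^ 2)..(ρ ^ 2), ψ j u) - ψ j (‖p.1 - z‖ ^ 2) * ‖p.2 (p.1 - z)‖ ^ 2)
      + (1 / 2 : ℝ) * (∫ u in (‖p.1 - z‖ ^ 2)..(ρ ^ 2), ψ j u) *
        fderiv ℝ h p.1 (p.2 (p.1 - z)))
    (f := fun (p : Euc k × L k) => h p.1 * ((m / 2 : ℝ) *
        (∫ u in (‖p.1 - z‖ ^ 2)..(ρ ^ 2), (Set.Ioo a (ρ ^ 2)).indicator c u)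
      - (Set.Ioo a (ρ ^ 2)).indicator c (‖p.1 - z‖ ^ 2) * ‖p.2 (p.1 - z)‖ ^ 2)
      + (1 / 2 : ℝ) * (∫ u in (‖p.1 - z‖ ^ 2)..(ρ ^ 2), (Set.Ioo a (ρ ^ 2)).indicator c u) *
        fderiv ℝ h p.1 (p.2 (p.1 - z)))
    (fun p => (Metric.closedBall z ρ ×ˢ (Set.univ : Set (L k))).indicator (fun p => B p.1) p)
    ?_ (integrable_of_bound_ball (hV.fin _ (isCompact_closedBall z ρ) hU) hBc) ?_ ?_
  · have hz : ∀ j, ∫ p, (h p.1 * ((m / 2 : ℝ) *
        (∫ u in (‖p.1 - z‖ ^ 2)..(ρ ^ 2), ψ j u) - ψ j (‖p.1 - z‖ ^ 2) * ‖p.2 (p.1 - z)‖ ^ 2)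
      + (1 / 2 : ℝ) * (∫ u in (‖p.1 - z‖ ^ 2)..(ρ ^ 2), ψ j u) *
        fderiv ℝ h p.1 (p.2 (p.1 - z))) ∂V = 0 := fun j =>
      radialh_C0 hV (hψc j) hh hρ hU (hψ0 j)
    simp only [hz] at key
    exact tendsto_nhds_unique key tendsto_const_nhds
  · intro j
    refine Continuous.aestronglyMeasurable ?_
    have h1 : Continuous (fderiv ℝ h) := hh.continuous_fderiv one_ne_zero
    have h2 : Continuous h := hh.continuous
    have h3 : Continuous fun t => ∫ u in t..(ρ ^ 2), ψ j u := by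
      have : (fun t => ∫ u in t..(ρ ^ 2), ψ j u) = fun t => -∫ u in (ρ ^ 2)..t, ψ j u :=
        funext fun t => intervalIntegral.integral_symm _ _
      rw [this]
      exact (intervalIntegral.continuous_primitive
        (fun a b => (hψc j).intervalIntegrable a b) _).neg
    have h4 : Continuous fun p : Euc k × L k => ∫ u in (‖p.1 - z‖ ^ 2)..(ρ ^ 2), ψ j u :=
      h3.comp (by fun_prop)
    have h5 : Continuous fun p : Euc k × L k => fderiv ℝ h p.1 (p.2 (p.1 - z)) :=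
      (h1.comp continuous_fst).clm_apply
        (continuous_snd.clm_apply (continuous_fst.sub continuous_const))
    have h6 : Continuous fun p : Euc k × L k => ψ j (‖p.1 - z‖ ^ 2) :=
      (hψc j).comp (by fun_prop)
    have h7 : Continuous fun p : Euc k × L k => ‖p.2 (p.1 - z)‖ ^ 2 :=
      (continuous_snd.clm_apply (continuous_fst.sub continuous_const)).norm.pow 2
    exact (((h2.comp continuous_fst).mul ((continuous_const.mul h4).sub (h6.mul h7))).add
      ((continuous_const.mul h4).mul h5))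
  · intro j
    filter_upwards [hV.conc] with p hp
    by_cases hx : p.1 ∈ Metric.closedBall z ρ
    · rw [Set.indicator_of_mem (show p ∈ Metric.closedBall z ρ ×ˢ (Set.univ : Set (L k)) from
        ⟨hx, trivial⟩)]
      have hx1 : ‖p.1 - z‖ ≤ ρ := by rwa [mem_closedBall_iff_norm] at hx
      have hx2 : ‖p.1 - z‖ ^ 2 ∈ Set.Icc (0:ℝ) (ρ ^ 2) := ⟨sq_nonneg _, by gcongr⟩
      have e1 := hIb j _ hx2
      have e2 := hψb j _ hx2
      have e3 : ‖p.2 (p.1 - z)‖ ≤ ‖p.1 - z‖ := G_norm_apply_le hp _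
      have e4 : ‖fderiv ℝ h p.1 (p.2 (p.1 - z))‖ ≤ ‖fderiv ℝ h p.1‖ * ‖p.1 - z‖ :=
        (ContinuousLinearMap.le_opNorm _ _).trans (by gcongr)
      simp only [hB]
      refine (norm_add_le _ _).trans (add_le_add ?_ ?_)
      · rw [norm_mul]
        refine mul_le_mul_of_nonneg_left ?_ (norm_nonneg _)
        refine (norm_sub_le _ _).trans (add_le_add ?_ ?_)
        · rw [norm_mul, Real.norm_of_nonneg (by positivity : (0:ℝ) ≤ m / 2)]
          gcongr
        · rw [norm_mul, norm_pow, norm_norm]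
          gcongr
      · rw [norm_mul, norm_mul, Real.norm_of_nonneg (by norm_num : (0:ℝ) ≤ 1 / 2)]
        gcongr
    · rw [Set.indicator_of_notMem (fun hcon => hx hcon.1)]
      have hx1 : ρ ^ 2 ≤ ‖p.1 - z‖ ^ 2 := by
        rw [mem_closedBall_iff_norm, not_le] at hx
        gcongr
      rw [hI0 j _ hx1, hψ0 j _ hx1]
      simp
  · refine Eventually.of_forall fun p => ?_
    have e1 := hIlim (‖p.1 - z‖ ^ 2) (sq_nonneg _)
    have e2 := tendsto_chi_mul c a (ρ ^ 2) (‖p.1 - z‖ ^ 2)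
    exact (((e1.const_mul _).sub (e2.mul_const _)).const_mul _).add
      ((e1.const_mul _).mul_const _)

end Crest.Agent.R234.Vf_884
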