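import Crest.Agent.R234.Vf6_884

/-!
Row 234, base library (helper884), file 7: local density of a `C¹` piece (ellipsoids).
-/

set_option autoImplicit false

open MeasureTheory Crest.GeometryTopology.Submanifold Filter Topology
open scoped ENNReal InnerProductSpace

noncomputable section

namespace Crest.Agent.R234.Vf_884

variable {m k : ℕ}

/-- an isometric copy of an injective `Lf : ℝ^m → ℝ^k` as an endomorphism of `ℝ^m`. -/
theorem exists_sq (Lf : Euc m →L[ℝ] Euc k) (hL : Function.Injective Lf) :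
    ∃ M : Euc m →ₗ[ℝ] Euc m, (∀ v w, ⟪M v, M w⟫_ℝ = ⟪Lf v, Lf w⟫_ℝ) := by
  have hfr : Module.finrank ℝ (LinearMap.range Lf.toLinearMap) = m := by
    rw [LinearMap.finrank_range_of_inj hL]; simp
  let b : OrthonormalBasis (Fin m) ℝ (LinearMap.range Lf.toLinearMap) :=
    (stdOrthonormalBasis ℝ _).reindex (finCongr hfr)
  refine ⟨b.repr.toLinearEquiv.toLinearMap ∘ₗ Lf.toLinearMap.rangeRestrict, fun v w => ?_⟩
  change ⟪b.repr (Lf.toLinearMap.rangeRestrict v), b.repr (Lf.toLinearMap.rangeRestrict w)⟫_ℝ = _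
  rw [b.repr.inner_map_map]
  rfl

theorem jac_eq_abs_det {f : Euc m → Euc k} {a : Euc m} {M : Euc m →ₗ[ℝ] Euc m}
    (hM : ∀ v w, ⟪M v, M w⟫_ℝ = ⟪fderiv ℝ f a v, fderiv ℝ f a w⟫_ℝ) :
    jac f a = |LinearMap.det M| := by
  set b := (EuclideanSpace.basisFun (Fin m) ℝ).toBasis with hb
  have h1 : metricMat f a = (LinearMap.toMatrix b b M).transpose * LinearMap.toMatrix b b M := by
    ext i j
    rw [Matrix.mul_apply]
    simp only [Matrix.transpose_apply, LinearMap.toMatrix_apply, metricMat, Matrix.of_apply, pd]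
    rw [← hM]
    have e1 : ∀ l, b l = stdVec m l := fun l => by simp [hb, stdVec]
    have e2 : ∀ (x : Euc m) l, b.repr x l = x l := fun x l => by simp [hb]
    simp only [e1, e2]
    rw [PiLp.inner_apply]
    refine Finset.sum_congr rfl fun l _ => ?_
    simp [mul_comm]
  unfold jac
  rw [h1, Matrix.det_mul, Matrix.det_transpose, LinearMap.det_toMatrix, ← sq, Real.sqrt_sq_eq_abs]

theorem volume_ellipsoid {Lf : Euc m →L[ℝ] Euc k} {M : Euc m →ₗ[ℝ] Euc m}
    (hM : ∀ v w, ⟪M v, M w⟫_ℝ = ⟪Lf v, Lf w⟫_ℝ) (hdet : LinearMap.det M ≠ 0) (a : Euc m) {s : ℝ}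
    (hs : 0 < s) :
    volume {y : Euc m | ‖Lf (y - a)‖ ≤ s} = ENNReal.ofReal (ome m * s ^ m / |LinearMap.det M|) := by
  have hn : ∀ v, ‖M v‖ = ‖Lf v‖ := fun v => by
    rw [← sq_eq_sq₀ (norm_nonneg _) (norm_nonneg _), ← real_inner_self_eq_norm_sq,
      ← real_inner_self_eq_norm_sq, hM]
  have h1 : {y : Euc m | ‖Lf (y - a)‖ ≤ s} =
      (fun y => y + (-a)) ⁻¹' (M ⁻¹' (Metric.closedBall 0 s)) := by
    ext y
    simp only [Set.mem_ofPred_eq, Set.mem_preimage, mem_closedBall_zero_iff, hn, sub_eq_add_neg]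
  rw [h1, measure_preimage_add_right, Measure.addHaar_preimage_linearMap _ hdet,
    Measure.addHaar_closedBall _ _ hs.le, ← ofReal_ome, ← ENNReal.ofReal_mul (by positivity),
    ← ENNReal.ofReal_mul (abs_nonneg _), abs_inv]
  congr 1
  simp
  ring

theorem measurableSet_ellipsoid (Lf : Euc m →L[ℝ] Euc k) (a : Euc m) (s : ℝ) :
    MeasurableSet {y : Euc m | ‖Lf (y - a)‖ ≤ s} :=
  (isClosed_le (by fun_prop) continuous_const).measurableSet

/-- averages over shrinking ellipsoids at a Lebesgue point. -/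
theorem tendsto_ellipsoid {Lf : Euc m →L[ℝ] Euc k} {M : Euc m →ₗ[ℝ] Euc m}
    (hM : ∀ v w, ⟪M v, M w⟫_ℝ = ⟪Lf v, Lf w⟫_ℝ) (hdet : LinearMap.det M ≠ 0) {c : ℝ} (hc : 0 < c)
    (hL : ∀ v, c * ‖v‖ ≤ ‖Lf v‖) {g : Euc m → ℝ} (hg : Integrable g) {a : Euc m}
    (hLeb : Tendsto (fun δ : ℝ => ⨍ y in Metric.closedBall a δ, ‖g y - g a‖) (𝓝[>] 0) (𝓝 0)) :
    Tendsto (fun s : ℝ => (∫ y in {y : Euc m | ‖Lf (y - a)‖ ≤ s}, g y) / (ome m * s ^ m)) (𝓝[>] 0)
      (𝓝 (g a / |LinearMap.det M|)) := by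
  have hscale : Tendsto (fun s : ℝ => s / c) (𝓝[>] 0) (𝓝[>] 0) := by
    refine tendsto_nhdsWithin_iff.2 ⟨?_, ?_⟩
    · have : Tendsto (fun s : ℝ => s / c) (𝓝 0) (𝓝 (0 / c)) :=
        (continuous_id.div_const c).tendsto 0
      rw [zero_div] at this
      exact this.mono_left nhdsWithin_le_nhds
    · filter_upwards [self_mem_nhdsWithin] with s hs
      exact div_pos hs hc
  have h1 : Tendsto (fun s : ℝ => (c ^ m)⁻¹ *
      ⨍ y in Metric.closedBall a (s / c), ‖g y - g a‖) (𝓝[>] 0) (𝓝 0) := by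
    have := (hLeb.comp hscale).const_mul (c ^ m)⁻¹
    rwa [mul_zero] at this
  rw [tendsto_iff_dist_tendsto_zero]
  refine squeeze_zero' (Eventually.of_forall fun _ => dist_nonneg) ?_ h1
  filter_upwards [self_mem_nhdsWithin] with s hs
  have hs0 : 0 < s := hs
  have hD := den_pos m hs0
  have hvol := volume_ellipsoid hM hdet a hs0
  have hdp : 0 < |LinearMap.det M| := abs_pos.2 hdet
  set E := {y : Euc m | ‖Lf (y - a)‖ ≤ s} with hE
  have hEm : MeasurableSet E := measurableSet_ellipsoid Lf a s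
  have hEfin : volume E < ⊤ := by rw [hvol]; exact ENNReal.ofReal_lt_top
  have hEr : volume.real E = ome m * s ^ m / |LinearMap.det M| := by
    rw [measureReal_def, hvol, ENNReal.toReal_ofReal (by positivity)]
  have hsub : E ⊆ Metric.closedBall a (s / c) := by
    intro y hy
    rw [mem_closedBall_iff_norm, le_div_iff₀ hc, mul_comm]
    exact (hL _).trans hy
  have e1 : (∫ y in E, g y) / (ome m * s ^ m) - g a / |LinearMap.det M|
      = (∫ y in E, (g y - g a)) / (ome m * s ^ m) := by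
    rw [integral_sub hg.integrableOn (integrableOn_const hEfin.ne), setIntegral_const, hEr,
      smul_eq_mul]
    have ho := ome_pos m
    field_simp
  rw [Real.dist_eq, e1, abs_div, abs_of_pos hD, div_le_iff₀ hD]
  have hball : volume.real (Metric.closedBall a (s / c)) = (c ^ m)⁻¹ * (ome m * s ^ m) := by
    rw [measureReal_def, Measure.addHaar_closedBall _ _ (by positivity), ← ofReal_ome,
      ← ENNReal.ofReal_mul (by positivity), ENNReal.toReal_ofReal
        (mul_nonneg (by positivity) (ome_pos m).le)]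
    simp only [finrank_euclideanSpace, Fintype.card_fin, div_pow]
    field_simp
  have hbfin : volume (Metric.closedBall a (s / c)) ≠ ⊤ := measure_closedBall_lt_top.ne
  have hi : IntegrableOn (fun y => ‖g y - g a‖) (Metric.closedBall a (s / c)) :=
    (hg.integrableOn.sub (integrableOn_const hbfin)).norm
  have hni := norm_integral_le_integral_norm (μ := volume.restrict E) (fun y => g y - g a)
  rw [Real.norm_eq_abs] at hni
  calc |∫ y in E, (g y - g a)| ≤ ∫ y in E, ‖g y - g a‖ := hni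
    _ ≤ ∫ y in Metric.closedBall a (s / c), ‖g y - g a‖ :=
        setIntegral_mono_set hi (Eventually.of_forall fun _ => norm_nonneg _)
          hsub.eventuallyLE
    _ = volume.real (Metric.closedBall a (s / c)) *
          ⨍ y in Metric.closedBall a (s / c), ‖g y - g a‖ := by
        rw [← smul_eq_mul, measure_smul_setAverage _ hbfin]
    _ = _ := by rw [hball]; ring

/-- preimages of small balls under a map which is bi-Lipschitz at `a` on the carrier of `g`. -/
theorem tendsto_preimage {f : Euc m → Euc k} {Lf : Euc m →L[ℝ] Euc k} {M : Euc m →ₗ[ℝ] Euc m}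
    (hM : ∀ v w, ⟪M v, M w⟫_ℝ = ⟪Lf v, Lf w⟫_ℝ) (hdet : LinearMap.det M ≠ 0) {c : ℝ} (hc : 0 < c)
    (hL : ∀ v, c * ‖v‖ ≤ ‖Lf v‖) {g : Euc m → ℝ} (hg : Integrable g) (hg0 : ∀ y, 0 ≤ g y)
    {a : Euc m} (hf : HasFDerivAt f Lf a) (hfc : Continuous f)
    (hfA : ∀ y, g y ≠ 0 → c * ‖y - a‖ ≤ ‖f y - f a‖)
    (hLeb : Tendsto (fun δ : ℝ => ⨍ y in Metric.closedBall a δ, ‖g y - g a‖) (𝓝[>] 0) (𝓝 0)) :
    Tendsto (fun r : ℝ => (∫ y in f ⁻¹' (Metric.closedBall (f a) r), g y) / (ome m * r ^ m))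
      (𝓝[>] 0) (𝓝 (g a / |LinearMap.det M|)) := by
  set ℓ := g a / |LinearMap.det M| with hℓ
  have hell := tendsto_ellipsoid hM hdet hc hL hg hLeb
  -- scaled ellipsoid limits
  have hsc : ∀ t : ℝ, 0 < t → Tendsto (fun r : ℝ =>
      (∫ y in {y : Euc m | ‖Lf (y - a)‖ ≤ r / t}, g y) / (ome m * r ^ m)) (𝓝[>] 0)
      (𝓝 ((t ^ m)⁻¹ * ℓ)) := by
    intro t ht
    have hscale : Tendsto (fun s : ℝ => s / t) (𝓝[>] 0) (𝓝[>] 0) := by
      refine tendsto_nhdsWithin_iff.2 ⟨?_, ?_⟩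
      · have : Tendsto (fun s : ℝ => s / t) (𝓝 0) (𝓝 (0 / t)) :=
          (continuous_id.div_const t).tendsto 0
        rw [zero_div] at this
        exact this.mono_left nhdsWithin_le_nhds
      · filter_upwards [self_mem_nhdsWithin] with s hs
        exact div_pos hs ht
    refine ((hell.comp hscale).const_mul (t ^ m)⁻¹).congr fun r => ?_
    simp only [Function.comp_apply, div_pow]
    generalize (∫ y in {y : Euc m | ‖Lf (y - a)‖ ≤ r / t}, g y) = I
    field_simp
  have hmeasF : ∀ r, MeasurableSet (f ⁻¹' (Metric.closedBall (f a) r)) := fun r =>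
    (Metric.isClosed_closedBall.preimage hfc).measurableSet
  -- inclusions
  have hinc : ∀ ε : ℝ, 0 < ε → ε < 1 → ∀ᶠ r in 𝓝[>] (0:ℝ),
      {y : Euc m | ‖Lf (y - a)‖ ≤ r / (1 + ε)} ⊆ f ⁻¹' (Metric.closedBall (f a) r) ∧
      ∀ y, y ∈ f ⁻¹' (Metric.closedBall (f a) r) → g y ≠ 0 → ‖Lf (y - a)‖ ≤ r / (1 - ε) := by
    intro ε hε hε1
    have h1 := hf.isLittleO.def (show 0 < ε * c by positivity)
    obtain ⟨δ, hδ, h2⟩ := Metric.eventually_nhds_iff_ball.1 h1
    have h3 : ∀ y, ‖y - a‖ < δ → ‖f y - f a - Lf (y - a)‖ ≤ ε * ‖Lf (y - a)‖ := by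
      intro y hy
      refine (h2 y (by rwa [mem_ball_iff_norm])).trans ?_
      rw [mul_assoc]
      exact mul_le_mul_of_nonneg_left (hL _) hε.le
    filter_upwards [Ioo_mem_nhdsGT (show 0 < c * δ by positivity)] with r hr
    refine ⟨fun y hy => ?_, fun y hy hgy => ?_⟩
    · have hy1 : ‖Lf (y - a)‖ ≤ r / (1 + ε) := hy
      have hy2 : ‖Lf (y - a)‖ * (1 + ε) ≤ r := by rwa [le_div_iff₀ (by linarith)] at hy1
      have hy3 : ‖y - a‖ < δ := by
        have e1 := hL (y - a)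
        have e2 : ‖Lf (y - a)‖ ≤ r := by nlinarith [norm_nonneg (Lf (y - a))]
        have e3 : c * ‖y - a‖ < c * δ := (e1.trans e2).trans_lt hr.2
        exact lt_of_mul_lt_mul_left e3 hc.le
      have hy4 := h3 y hy3
      rw [Set.mem_preimage, mem_closedBall_iff_norm]
      have e4 : ‖f y - f a‖ ≤ ‖f y - f a - Lf (y - a)‖ + ‖Lf (y - a)‖ := by
        have := norm_add_le (f y - f a - Lf (y - a)) (Lf (y - a))
        rwa [sub_add_cancel] at this
      nlinarith
    · rw [Set.mem_preimage, mem_closedBall_iff_norm] at hy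
      have hy3 : ‖y - a‖ < δ := by
        have e3 : c * ‖y - a‖ < c * δ := ((hfA y hgy).trans hy).trans_lt hr.2
        exact lt_of_mul_lt_mul_left e3 hc.le
      have hy4 := h3 y hy3
      rw [le_div_iff₀ (by linarith)]
      have e4 : ‖Lf (y - a)‖ ≤ ‖f y - f a - Lf (y - a)‖ + ‖f y - f a‖ := by
        have := norm_sub_le (f y - f a) (f y - f a - Lf (y - a))
        rw [sub_sub_cancel] at this
        linarith
      nlinarith
  have hI : ∀ r ε : ℝ, 0 < r → 0 < ε → ε < 1 →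
      ({y : Euc m | ‖Lf (y - a)‖ ≤ r / (1 + ε)} ⊆ f ⁻¹' (Metric.closedBall (f a) r) ∧
      ∀ y, y ∈ f ⁻¹' (Metric.closedBall (f a) r) → g y ≠ 0 → ‖Lf (y - a)‖ ≤ r / (1 - ε)) →
      (∫ y in {y : Euc m | ‖Lf (y - a)‖ ≤ r / (1 + ε)}, g y) / (ome m * r ^ m) ≤
        (∫ y in f ⁻¹' (Metric.closedBall (f a) r), g y) / (ome m * r ^ m) ∧
      (∫ y in f ⁻¹' (Metric.closedBall (f a) r), g y) / (ome m * r ^ m) ≤
        (∫ y in {y : Euc m | ‖Lf (y - a)‖ ≤ r / (1 - ε)}, g y) / (ome m * r ^ m) := by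
    intro r ε hr hε hε1 ⟨hi1, hi2⟩
    have hD := (den_pos m hr).le
    refine ⟨div_le_div_of_nonneg_right ?_ hD, div_le_div_of_nonneg_right ?_ hD⟩
    · exact setIntegral_mono_set hg.integrableOn (Eventually.of_forall hg0) hi1.eventuallyLE
    · rw [← integral_indicator (hmeasF r), ← integral_indicator (measurableSet_ellipsoid Lf a _)]
      refine integral_mono (hg.indicator (hmeasF r))
        (hg.indicator (measurableSet_ellipsoid Lf a _)) fun y => ?_
      by_cases hy : y ∈ f ⁻¹' (Metric.closedBall (f a) r)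
      · rw [Set.indicator_of_mem hy]
        by_cases hgy : g y = 0
        · rw [hgy]
          exact Set.indicator_nonneg (fun _ _ => hg0 _) _
        · rw [Set.indicator_of_mem (show y ∈ {y : Euc m | ‖Lf (y - a)‖ ≤ r / (1 - ε)} from
            hi2 y hy hgy)]
      · rw [Set.indicator_of_notMem hy]
        exact Set.indicator_nonneg (fun _ _ => hg0 _) _
  refine tendsto_order.2 ⟨fun b hb => ?_, fun b hb => ?_⟩
  · have hlim : Tendsto (fun ε : ℝ => ((1 + ε) ^ m)⁻¹ * ℓ) (𝓝[>] 0) (𝓝 ℓ) := by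
      have : ContinuousAt (fun ε : ℝ => ((1 + ε) ^ m)⁻¹ * ℓ) 0 := by
        refine ContinuousAt.mul (ContinuousAt.inv₀ (by fun_prop) (by simp)) continuousAt_const
      have h := this.tendsto
      simp only [add_zero, one_pow, inv_one, one_mul] at h
      exact h.mono_left nhdsWithin_le_nhds
    obtain ⟨ε, hε1, hε2⟩ := ((hlim.eventually_const_lt hb).and
      (Ioo_mem_nhdsGT (show (0:ℝ) < 1 by norm_num))).exists
    filter_upwards [hinc ε hε2.1 hε2.2, self_mem_nhdsWithin,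
      (hsc (1 + ε) (by linarith [hε2.1])).eventually_const_lt hε1] with r h1 h2 h3
    exact h3.trans_le (hI r ε h2 hε2.1 hε2.2 h1).1
  · have hlim : Tendsto (fun ε : ℝ => ((1 - ε) ^ m)⁻¹ * ℓ) (𝓝[>] 0) (𝓝 ℓ) := by
      have : ContinuousAt (fun ε : ℝ => ((1 - ε) ^ m)⁻¹ * ℓ) 0 := by
        refine ContinuousAt.mul (ContinuousAt.inv₀ (by fun_prop) (by simp)) continuousAt_const
      have h := this.tendsto
      simp only [sub_zero, one_pow, inv_one, one_mul] at h
      exact h.mono_left nhdsWithin_le_nhds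
    obtain ⟨ε, hε1, hε2⟩ := ((hlim.eventually_lt_const hb).and
      (Ioo_mem_nhdsGT (show (0:ℝ) < 1 by norm_num))).exists
    filter_upwards [hinc ε hε2.1 hε2.2, self_mem_nhdsWithin,
      (hsc (1 - ε) (by linarith [hε2.2])).eventually_lt_const hε1] with r h1 h2 h3
    exact (hI r ε h2 hε2.1 hε2.2 h1).2.trans_lt h3

end Crest.Agent.R234.Vf_884
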