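import Mathlib
import Crest.Agent.R234.Vit1_534

/-!
Row 234, core (helper534): kernel (weighted) forms of Vit1_534, in the frame of 504 #5326:
normalised densities  s^{2-m} ∫ φ(|x'-x|/s) dε  with a nonincreasing profile φ.
-/

set_option autoImplicit false

open Set Filter Topology MeasureTheory Metric Module Function
open scoped ENNReal NNReal

namespace Crest.Agent.R234.Vit_534

section kernel

variable {X : Type*} [PseudoMetricSpace X] [MeasurableSpace X] [OpensMeasurableSpace X]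

/-- the weighted mass at scale `s` -/
noncomputable def km (φ : ℝ → ℝ) (ε : Measure X) (x : X) (s : ℝ) : ℝ := ∫ y, φ (dist y x / s) ∂ε

structure Prof (φ : ℝ → ℝ) : Prop where
  anti : AntitoneOn φ (Ici 0)
  nonneg : ∀ t, 0 ≤ t → 0 ≤ φ t
  le_one : ∀ t, 0 ≤ t → φ t ≤ 1
  zero : ∀ t, 1 < t → φ t = 0
  meas : Measurable φ

theorem km_nonneg {φ : ℝ → ℝ} (h : Prof φ) (ε : Measure X) (x : X) {s : ℝ} (hs : 0 < s) :
    0 ≤ km φ ε x s :=
  integral_nonneg fun y => h.nonneg _ (by positivity)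

theorem meas_comp {φ : ℝ → ℝ} (h : Prof φ) (x : X) (s : ℝ) :
    Measurable fun y : X => φ (dist y x / s) := by
  refine h.meas.comp ?_
  have : Continuous fun y : X => dist y x / s := by fun_prop
  exact this.measurable

theorem integrable_km {φ : ℝ → ℝ} (h : Prof φ) (ε : Measure X) (x : X) {s : ℝ} (hs : 0 < s)
    (hfin : ε (closedBall x s) ≠ ∞) : Integrable (fun y : X => φ (dist y x / s)) ε := by
  have h1 : Integrable ((closedBall x s).indicator fun _ : X => (1:ℝ)) ε := by
    rw [integrable_indicator_iff measurableSet_closedBall]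
    exact integrableOn_const hfin
  refine h1.mono' (meas_comp h x s).aestronglyMeasurable (Eventually.of_forall fun y => ?_)
  have hy : 0 ≤ dist y x / s := by positivity
  rw [Real.norm_of_nonneg (h.nonneg _ hy)]
  by_cases hyx : y ∈ closedBall x s
  · rw [indicator_of_mem hyx]; exact h.le_one _ hy
  · rw [indicator_of_notMem hyx, h.zero _ ?_]
    rw [lt_div_iff₀ hs, one_mul]
    exact not_le.1 hyx

theorem km_le {φ : ℝ → ℝ} (h : Prof φ) (ε : Measure X) (x : X) {s : ℝ} (hs : 0 < s) :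
    ENNReal.ofReal (km φ ε x s) ≤ ε (closedBall x s) := by
  rcases eq_or_ne (ε (closedBall x s)) ∞ with hfin | hfin
  · rw [hfin]; exact le_top
  have hi := integrable_km h ε x hs hfin
  unfold km
  rw [ofReal_integral_eq_lintegral_ofReal hi
    (Eventually.of_forall fun y => h.nonneg _ (by positivity))]
  calc ∫⁻ y, ENNReal.ofReal (φ (dist y x / s)) ∂ε
      ≤ ∫⁻ y, (closedBall x s).indicator 1 y ∂ε := by
        refine lintegral_mono fun y => ?_
        by_cases hyx : y ∈ closedBall x s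
        · rw [indicator_of_mem hyx]
          have := h.le_one (dist y x / s) (by positivity)
          simpa using ENNReal.ofReal_le_ofReal this
        · rw [indicator_of_notMem hyx, h.zero _ ?_]
          · simp
          · rw [lt_div_iff₀ hs, one_mul]
            exact not_le.1 hyx
    _ = ε (closedBall x s) := by rw [lintegral_indicator_one measurableSet_closedBall]

theorem le_km {φ : ℝ → ℝ} (h : Prof φ) (ε : Measure X) (x : X) {r s : ℝ} (hr : 0 ≤ r) (hs : 0 < s)
    (hfin : ε (closedBall x s) ≠ ∞) :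
    ENNReal.ofReal (φ (r / s)) * ε (closedBall x r) ≤ ENNReal.ofReal (km φ ε x s) := by
  have hi := integrable_km h ε x hs hfin
  unfold km
  rw [ofReal_integral_eq_lintegral_ofReal hi
    (Eventually.of_forall fun y => h.nonneg _ (by positivity))]
  calc ENNReal.ofReal (φ (r / s)) * ε (closedBall x r)
      = ∫⁻ y, (closedBall x r).indicator (fun _ => ENNReal.ofReal (φ (r / s))) y ∂ε := by
        rw [lintegral_indicator_const measurableSet_closedBall]
    _ ≤ ∫⁻ y, ENNReal.ofReal (φ (dist y x / s)) ∂ε := by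
        refine lintegral_mono fun y => ?_
        by_cases hyx : y ∈ closedBall x r
        · rw [indicator_of_mem hyx]
          apply ENNReal.ofReal_le_ofReal
          apply h.anti (by simp only [mem_Ici]; positivity) (by simp only [mem_Ici]; positivity)
          gcongr
          exact hyx
        · rw [indicator_of_notMem hyx]; exact zero_le

/-- (V3) kernel form: `κ · km φ e x (C ρ) ≤ km φ g x ρ` at every point of `A`, `φ (5/C) > 0`. -/
theorem compare_km [SecondCountableTopology X] {φ : ℝ → ℝ} (h : Prof φ) (e g : Measure X)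
    (A B : Set X) (ρ : X → ℝ) (s C κ : ℝ) (hκ : 0 ≤ κ) (hC : 0 < C)
    (hρ : ∀ x ∈ A, ρ x ≤ s) (hρ0 : ∀ x ∈ A, 0 < ρ x)
    (hfin : ∀ x ∈ A, e (closedBall x (C * ρ x)) ≠ ∞)
    (hA : ∀ x ∈ A, κ * km φ e x (C * ρ x) ≤ km φ g x (ρ x))
    (hB : ∀ x ∈ A, closedBall x (ρ x) ⊆ B) :
    ENNReal.ofReal (κ * φ (5 / C)) * e A ≤ g B := by
  refine compare' e g A B ρ s hρ hρ0 _ (fun x hx => ?_) hB
  have hx0 := hρ0 x hx
  have h1 := le_km h e x (r := 5 * ρ x) (s := C * ρ x) (by positivity) (by positivity) (hfin x hx)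
  have h2 : 5 * ρ x / (C * ρ x) = 5 / C := by field_simp
  rw [h2] at h1
  calc ENNReal.ofReal (κ * φ (5 / C)) * e (closedBall x (5 * ρ x))
      = ENNReal.ofReal κ * (ENNReal.ofReal (φ (5 / C)) * e (closedBall x (5 * ρ x))) := by
        rw [ENNReal.ofReal_mul hκ, mul_assoc]
    _ ≤ ENNReal.ofReal κ * ENNReal.ofReal (km φ e x (C * ρ x)) := by gcongr
    _ = ENNReal.ofReal (κ * km φ e x (C * ρ x)) := (ENNReal.ofReal_mul hκ).symm
    _ ≤ ENNReal.ofReal (km φ g x (ρ x)) := ENNReal.ofReal_le_ofReal (hA x hx)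
    _ ≤ g (closedBall x (ρ x)) := km_le h g x hx0

/-- (V4) kernel form of the simple bound: `p x l = e^{-n l} km φ ε x (e^l)` (`n = m - 2`), `E x l` any
normalised energy dominated by the measure `a`. -/
theorem simple_bound_km [SecondCountableTopology X] {φ : ℝ → ℝ} (h : Prof φ) (ε a : Measure X)
    (Z B : Set X) (n : ℝ) (P E : X → ℝ → ℝ) (l0 c δ D0 D1 : ℝ) (N : ℕ) (hc : 0 < c) (hδ : 0 < δ)
    (hfin : ∀ x ∈ Z, ∀ s, 0 < s → ε (closedBall x s) ≠ ∞)
    (hint : ∀ x ∈ Z, ∀ u v, l0 ≤ u → u ≤ v → v ≤ l0 + 2 * c * (N + 1) →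
      IntervalIntegrable (fun l => Real.exp (-(n * l)) * km φ ε x (Real.exp l)) volume u v ∧
        P x v - P x u = ∫ l in u..v, Real.exp (-(n * l)) * km φ ε x (Real.exp l))
    (h0 : ∀ x ∈ Z, 0 ≤ P x l0)
    (hPE : ∀ x ∈ Z, ∀ l ∈ Icc l0 (l0 + 2 * c * (N + 1)), P x l ≤ E x l)
    (hD0 : ∀ x ∈ Z, ∀ l ∈ Icc l0 (l0 + 2 * c * (N + 1)), D0 ≤ E x l)
    (hD1 : ∀ x ∈ Z, E x (l0 + 2 * c * (N + 1)) ≤ D1)
    (hbig : D1 < (1 + c * δ) ^ N * (c * δ * D0))
    (hup : ∀ x ∈ Z, ∀ l, l0 ≤ l → l + c ≤ l0 + 2 * c * (N + 1) →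
      ENNReal.ofReal (Real.exp (n * l) * E x l) ≤ a (closedBall x (Real.exp l)))
    (hB : ∀ x ∈ Z, closedBall x (Real.exp (l0 + 2 * c * (N + 1) - c)) ⊆ B) :
    ENNReal.ofReal (Real.exp (-(n * c)) * φ (5 * Real.exp (-c))) * ε Z ≤ ENNReal.ofReal δ * a B := by
  refine simple_bound ε a Z B n (fun x l => Real.exp (-(n * l)) * km φ ε x (Real.exp l)) P E
    l0 c δ D0 D1 N hc hδ hint (fun x _ l _ => mul_nonneg (Real.exp_pos _).le
      (km_nonneg h ε x (Real.exp_pos l))) h0 hPE hD0 hD1 hbig _ (fun x hx l hl hl' => ?_) hup hB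
  have h1 := le_km h ε x (r := 5 * Real.exp l) (s := Real.exp (l + c)) (by positivity)
    (Real.exp_pos _) (hfin x hx _ (Real.exp_pos _))
  have h2 : 5 * Real.exp l / Real.exp (l + c) = 5 * Real.exp (-c) := by
    rw [mul_div_assoc, ← Real.exp_sub]; ring_nf
  rw [h2] at h1
  calc ENNReal.ofReal (Real.exp (-(n * c)) * φ (5 * Real.exp (-c))) * ε (closedBall x (5 * Real.exp l))
      = ENNReal.ofReal (Real.exp (-(n * c))) *
          (ENNReal.ofReal (φ (5 * Real.exp (-c))) * ε (closedBall x (5 * Real.exp l))) := by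
        rw [ENNReal.ofReal_mul (Real.exp_pos _).le, mul_assoc]
    _ ≤ ENNReal.ofReal (Real.exp (-(n * c))) * ENNReal.ofReal (km φ ε x (Real.exp (l + c))) := by
        gcongr
    _ = ENNReal.ofReal (Real.exp (n * l) * (Real.exp (-(n * (l + c))) * km φ ε x (Real.exp (l + c)))) := by
        rw [← ENNReal.ofReal_mul (Real.exp_pos _).le, ← mul_assoc, ← Real.exp_add]
        ring_nf

end kernel

end Crest.Agent.R234.Vit_534
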