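import Crest.Agent.R234.We9_822

/-!
Row 234 (helper822), WELL-AS part 1: upper mass bound of the solid cylinders at centres with small
energies at all scales, when the first variation of `χ (x' - x)` is bounded by
`η (energy + h² mass)` (class AS).
-/

set_option autoImplicit false

open MeasureTheory Set Function Filter Topology
open Crest.GeometryTopology.Submanifold
open Crest.Agent.R234.Vf_884 Crest.Agent.R234.Ar_870 Crest.Agent.R234.Cy_870
open Crest.Agent.R234.Wi_870
open scoped ENNReal NNReal InnerProductSpace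

noncomputable section

namespace Crest.Agent.R234.We_822

variable {m n k : ℕ} {π : Euc k →L[ℝ] Euc m} {κ : Euc k →L[ℝ] Euc n} {x x₀ : Euc m}
  {V : Measure (Euc k × L k)} {g g1 g2 : ℝ → ℝ}

/-- real mass of the solid cylinder -/
def muR (V : Measure (Euc k × L k)) (π : Euc k →L[ℝ] Euc m) (κ : Euc k →L[ℝ] Euc n)
    (x : Euc m) (l : ℝ) : ℝ := (muOf V π κ (Well_761.cyl x (Real.exp l) univ)).toReal

/-- real energy of the solid cylinder -/
def enR (V : Measure (Euc k × L k)) (π : Euc k →L[ℝ] Euc m) (κ : Euc k →L[ℝ] Euc n)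
    (x : Euc m) (l : ℝ) : ℝ := (enOf V π κ (Well_761.cyl x (Real.exp l) univ)).toReal

theorem muR_nonneg (l : ℝ) : 0 ≤ muR V π κ x l := ENNReal.toReal_nonneg
theorem enR_nonneg (l : ℝ) : 0 ≤ enR V π κ x l := ENNReal.toReal_nonneg

theorem muR_mono (hfr : ∀ L₀, Fr V π κ x L₀) {l l' : ℝ} (h : l ≤ l') :
    muR V π κ x l ≤ muR V π κ x l' :=
  ENNReal.toReal_mono (muOf_cyl_ne_top hfr _) (measure_mono (Set.prod_mono
    (Metric.closedBall_subset_closedBall (Real.exp_le_exp.2 h)) le_rfl))

theorem enR_mono (hfr : ∀ L₀, Fr V π κ x L₀) {l l' : ℝ} (h : l ≤ l') :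
    enR V π κ x l ≤ enR V π κ x l' :=
  ENNReal.toReal_mono (enOf_cyl_ne_top hfr _) (measure_mono (Set.prod_mono
    (Metric.closedBall_subset_closedBall (Real.exp_le_exp.2 h)) le_rfl))

/-- the open base ball has at most the mass of the solid cylinder -/
theorem base_le_muR (hfr : ∀ L₀, Fr V π κ x L₀) (l : ℝ) :
    (V {p | ‖π p.1 - x‖ ^ 2 < Real.exp (2 * l)}).toReal ≤ muR V π κ x l := by
  have hcm : MeasurableSet (Well_761.cyl x (Real.exp l) (univ : Set (Euc n))) :=
    Metric.isClosed_closedBall.measurableSet.prod MeasurableSet.univ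
  have h1 : V {p | ‖π p.1 - x‖ ^ 2 < Real.exp (2 * l)} ≤
      muOf V π κ (Well_761.cyl x (Real.exp l) univ) := by
    unfold muOf
    rw [Measure.map_apply (measurable_bh π κ) hcm]
    refine measure_mono ?_
    intro p (hp : ‖π p.1 - x‖ ^ 2 < Real.exp (2 * l))
    refine ⟨?_, trivial⟩
    rw [Metric.mem_closedBall, bh, dist_eq_norm]
    have h2 : ‖π p.1 - x‖ ^ 2 ≤ Real.exp l ^ 2 := by
      rw [← Real.exp_nat_mul]; push_cast; exact hp.le
    exact (sq_le_sq₀ (norm_nonneg _) (Real.exp_pos _).le).1 h2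
  exact ENNReal.toReal_mono (muOf_cyl_ne_top hfr _) h1

/-- **upper mass bound at centres with small energies** -/
theorem mass_good (hfr : ∀ L₀, Fr V π κ x L₀) (hg : Prof g g1 g2) (hg0 : ∀ t, 0 ≤ t → 0 ≤ g t)
    {Kg : ℝ} (hKg : ∀ t, 0 ≤ t → g t ≤ Kg) {c a : ℝ} (hc : 0 < c) (ha : 0 ≤ a)
    (hgc : ∀ t, 0 ≤ t → t ≤ Real.exp (-2 * a) → c ≤ g t) {l0 l1 lam η C1 h : ℝ}
    (hl : l0 ≤ l1) (hη : 0 ≤ η) (hlam : 0 ≤ lam) (hC1 : 0 ≤ C1)
    (hen : ∀ t ∈ Icc l0 l1, enR V π κ x t ≤ lam * Real.exp (m * t))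
    (hFV : ∀ t ∈ Icc l0 l1,
      |FV V (X1 π x g t)| ≤ η * (enR V π κ x t + h ^ 2 * muR V π κ x t))
    (htop : muR V π κ x l1 ≤ C1 * Real.exp (m * l1))
    (hsmall : c⁻¹ * Real.exp (m * a) * (η * h ^ 2) * (l1 - l0) ≤ 1 / 2) :
    ∀ l ∈ Icc l0 l1, muR V π κ x l ≤
      2 * (c⁻¹ * Real.exp (m * a) * (Kg * C1 + (Kg + η) * lam * (l1 - l0))) *
        Real.exp (m * l) := by
  have hKg0 : 0 ≤ Kg := (hg0 0 le_rfl).trans (hKg 0 le_rfl)
  have hcKg : c ≤ Kg := (hgc 0 le_rfl (Real.exp_pos _).le).trans (hKg 0 le_rfl)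
  have hci : 0 < c⁻¹ := inv_pos.2 hc
  have h1cK : 1 ≤ c⁻¹ * Kg := by
    rw [← div_eq_inv_mul, le_div_iff₀ hc, one_mul]; exact hcKg
  set f : ℝ → ℝ := fun l => Real.exp (-(m * l)) * muR V π κ x l with hf
  have hEf : ∀ l, muR V π κ x l = Real.exp (m * l) * f l := by
    intro l
    simp only [hf]
    rw [← mul_assoc, ← Real.exp_add]
    simp
  have hf0 : ∀ l, 0 ≤ f l := fun l => mul_nonneg (Real.exp_pos _).le (muR_nonneg l)
  set B : ℝ := c⁻¹ * Real.exp (m * a) * (Kg * C1 + (Kg + η) * lam * (l1 - l0)) with hB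
  -- the supremum
  have hbdd : BddAbove (f '' Icc l0 l1) := by
    refine ⟨Real.exp (-(m * l0)) * muR V π κ x l1, ?_⟩
    rintro _ ⟨l, hl', rfl⟩
    simp only [hf]
    have h1 : Real.exp (-(m * l)) ≤ Real.exp (-(m * l0)) := by
      refine Real.exp_le_exp.2 (neg_le_neg ?_)
      exact mul_le_mul_of_nonneg_left hl'.1 (Nat.cast_nonneg m)
    exact mul_le_mul h1 (muR_mono hfr hl'.2) (muR_nonneg l) (Real.exp_pos _).le
  set M : ℝ := sSup (f '' Icc l0 l1) with hM
  have hfM : ∀ l ∈ Icc l0 l1, f l ≤ M := fun l hl' => le_csSup hbdd ⟨l, hl', rfl⟩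
  have hM0 : 0 ≤ M := (hf0 l1).trans (hfM l1 ⟨hl, le_rfl⟩)
  have key : ∀ l ∈ Icc l0 l1, f l ≤ B + M / 2 := by
    intro l hl'
    rcases le_or_gt (l + a) l1 with hla | hla
    · -- from the top
      have hsubI : ∀ t ∈ Icc (l + a) l1, t ∈ Icc l0 l1 := fun t ht =>
        ⟨by linarith [hl'.1, ht.1], ht.2⟩
      have e1 := mass_cyl_le (x := x) hfr hg hg0 hKg (c := c) (a := a) hc hgc (l := l)
        (l1 := l1) (lam := lam) (θ := η * (lam + h ^ 2 * M)) (C1 := Kg * C1) hla
        (fun t ht => hen t (hsubI t ht)) (fun t ht => by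
          have h1 := (le_abs_self _).trans (hFV t (hsubI t ht))
          refine h1.trans ?_
          have h2 := hen t (hsubI t ht)
          have h3 := hfM t (hsubI t ht)
          rw [hEf t]
          have h4 : h ^ 2 * (Real.exp (m * t) * f t) ≤ h ^ 2 * M * Real.exp (m * t) := by
            calc h ^ 2 * (Real.exp (m * t) * f t) = h ^ 2 * Real.exp (m * t) * f t := by ring
              _ ≤ h ^ 2 * Real.exp (m * t) * M := by gcongr
              _ = _ := by ring
          calc η * (enR V π κ x t + h ^ 2 * (Real.exp (m * t) * f t))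
              ≤ η * (lam * Real.exp (m * t) + h ^ 2 * M * Real.exp (m * t)) := by gcongr
            _ = η * (lam + h ^ 2 * M) * Real.exp (m * t) := by ring) (by
          have h1 := MS_le_mass (x := x) (hfr l1) hg hg0 hKg (le_refl l1)
          refine h1.trans ?_
          have h2 := (base_le_muR hfr l1).trans htop
          calc Kg * (Real.exp (-(m * l1)) *
                (V {p | ‖π p.1 - x‖ ^ 2 < Real.exp (2 * l1)}).toReal)
              ≤ Kg * (Real.exp (-(m * l1)) * (C1 * Real.exp (m * l1))) := by gcongr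
            _ = Kg * C1 * (Real.exp (-(m * l1)) * Real.exp (m * l1)) := by ring
            _ = Kg * C1 := by rw [← Real.exp_add]; simp)
      have hpos : 0 ≤ c⁻¹ * Real.exp (m * a) * (Kg * C1 + (Kg * lam + η * (lam + h ^ 2 * M)) *
          (l1 - l - a)) * Real.exp (m * l) := by
        have : 0 ≤ l1 - l - a := by linarith
        positivity
      have e2 := ENNReal.toReal_mono ENNReal.ofReal_ne_top e1
      rw [ENNReal.toReal_ofReal hpos] at e2
      change muR V π κ x l ≤ _ at e2
      rw [hEf l] at e2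
      have e3 : f l ≤ c⁻¹ * Real.exp (m * a) * (Kg * C1 + (Kg * lam + η * (lam + h ^ 2 * M)) *
          (l1 - l - a)) := by
        have hE := Real.exp_pos (m * l)
        nlinarith
      refine e3.trans ?_
      have e4 : l1 - l - a ≤ l1 - l0 := by linarith [hl'.1]
      calc c⁻¹ * Real.exp (m * a) * (Kg * C1 + (Kg * lam + η * (lam + h ^ 2 * M)) *
            (l1 - l - a))
          ≤ c⁻¹ * Real.exp (m * a) * (Kg * C1 + (Kg * lam + η * (lam + h ^ 2 * M)) *
            (l1 - l0)) := by gcongr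
        _ = B + c⁻¹ * Real.exp (m * a) * (η * h ^ 2) * (l1 - l0) * M := by rw [hB]; ring
        _ ≤ B + 1 / 2 * M := by gcongr
        _ = B + M / 2 := by ring
    · -- near the top
      have e1 : f l ≤ Real.exp (m * a) * C1 := by
        simp only [hf]
        calc Real.exp (-(m * l)) * muR V π κ x l
            ≤ Real.exp (-(m * l)) * (C1 * Real.exp (m * l1)) := by
              have := (muR_mono hfr hl'.2).trans htop
              gcongr
          _ = Real.exp (m * (l1 - l)) * C1 := by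
              have : Real.exp (m * (l1 - l)) = Real.exp (-(m * l)) * Real.exp (m * l1) := by
                rw [← Real.exp_add]; congr 1; ring
              rw [this]; ring
          _ ≤ Real.exp (m * a) * C1 := by
              have : l1 - l ≤ a := by linarith
              gcongr
      have e2 : Real.exp (m * a) * C1 ≤ B := by
        rw [hB]
        have h1 : Real.exp (m * a) * C1 ≤ c⁻¹ * Real.exp (m * a) * (Kg * C1) := by
          have h2 : 0 ≤ Real.exp (m * a) * C1 := by positivity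
          calc Real.exp (m * a) * C1 = 1 * (Real.exp (m * a) * C1) := by ring
            _ ≤ c⁻¹ * Kg * (Real.exp (m * a) * C1) := mul_le_mul_of_nonneg_right h1cK h2
            _ = _ := by ring
        have h2 : 0 ≤ c⁻¹ * Real.exp (m * a) * ((Kg + η) * lam * (l1 - l0)) := by
          have : 0 ≤ l1 - l0 := by linarith
          positivity
        calc Real.exp (m * a) * C1 ≤ c⁻¹ * Real.exp (m * a) * (Kg * C1) := h1
          _ ≤ c⁻¹ * Real.exp (m * a) * (Kg * C1) +
              c⁻¹ * Real.exp (m * a) * ((Kg + η) * lam * (l1 - l0)) := by linarith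
          _ = _ := by ring
      linarith
  have hMB : M ≤ B + M / 2 := csSup_le ⟨_, ⟨l1, ⟨hl, le_rfl⟩, rfl⟩⟩ (by
    rintro _ ⟨l, hl', rfl⟩
    exact key l hl')
  intro l hl'
  rw [hEf l]
  have h1 := hfM l hl'
  have h2 : f l ≤ 2 * B := by linarith
  calc Real.exp (m * l) * f l ≤ Real.exp (m * l) * (2 * B) := by gcongr
    _ = 2 * B * Real.exp (m * l) := by ring

end Crest.Agent.R234.We_822
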