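import Crest.Agent.R234.We15_822
import Crest.Agent.R234.Thf1_561

/-!
Row 234 (helper822): `Thin_561.WellSit` with the bound `c' ≤ 100 (m+1) (a+1)`.
-/

set_option autoImplicit false

open MeasureTheory Set Function Filter Topology Metric
open Crest.GeometryTopology.Submanifold
open Crest.Agent.R234.Vf_884 Crest.Agent.R234.Ar_870 Crest.Agent.R234.Cy_870
open Crest.Agent.R234.Avg_387 Crest.Agent.R234.N5_372
open Crest.Agent.R234.Shp_98 Crest.Agent.R234.Core_809 Crest.Agent.R234.Thin_561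
open Crest.Agent.R234.Well_761 (WCfg)
open scoped ENNReal NNReal InnerProductSpace

noncomputable section

namespace Crest.Agent.R234.We_822

/-- `Thin_561.WellSit` with the bound for `c'` -/
def WellSitB (m n Q : ℕ) (K cS a : ℝ) : Prop :=
  ∃ c1 : ℝ, 0 < c1 ∧ ∃ Cw : ℝ, 0 ≤ Cw ∧ ∀ c' : ℝ, c' ≤ 100 * (m + 1) * (a + 1) →
    ∀ θ : ℝ, 0 < θ → ∃ Θ : ℝ, 0 < Θ ∧ ∃ l0 : ℝ,
    ∀ X : Sit m n a, IsSit Q K cS X → l0 ≤ Real.log (Lam X.D) → ∀ x ∈ X.Z, ∀ t, ll X ≤ t →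
      t + 8 ≤ TT' X → ∀ c : WCfg (Euc n), c.q ^ 2 ≤ q1Of X.D → ∀ A : ℝ,
      X.ae x (t + L0 X + 4) ≤ A → Lam X.D ^ (-c') * X.D ≤ A → Θ * t * A ≤ c.q ^ 2 →
      X.aI x c (t + L0 X + 1) ≤ c1 * c.q ^ 2 →
      ∀ pL : Euc m → Euc (m - 2), LipschitzWith 1 pL → ∀ w : ℝ, 0 ≤ w →
      (∀ N : Set (Euc m), N ⊆ closedBall x (Real.exp (t + L0 X + 1)) →
        volume (pL '' N) ≤ ENNReal.ofReal (θ * Real.exp (t + L0 X + 1) ^ (m - 2)) →
        eM X.V X.π N ≤ ENNReal.ofReal w) →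
      X.ae x (t + L0 X) ≤
        Fm (dd m (tauOf a X.D)) X.V X.π X.κ w0.θ x (toWP c) (t + L0 X) +
        av (dd m (tauOf a X.D)) (f2 X.V X.π X.κ (dFW (toWP c)) w0.θ) x (t + L0 X) +
        Cw * (Real.exp ((2 - m) * (t + L0 X)) * w)

theorem wellSitB {m : ℕ} (hm : 3 ≤ m) (n Q : ℕ) (K cS : ℝ) {a : ℝ} (ha : 0 ≤ a) :
    WellSitB m n Q K cS a := by
  obtain ⟨c1, CW, hc1, hCW, h⟩ := well_sit (d := m - 2) (m := m) (by lia) n Q ha
  refine ⟨c1, hc1, CW, hCW.le, fun c' hc' θ hθ => ?_⟩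
  obtain ⟨Θ, hΘ, l0, h⟩ := h θ hθ
  refine ⟨Θ, hΘ, max l0 0, ?_⟩
  intro X hX hl x hx t ht htT c hq A hA hAl hΘA hI pL hpL w hw hN
  have hL0 : 0 < Lam X.D := by
    unfold Lam
    exact Real.log_pos (by rw [one_div]; exact (one_lt_inv₀ hX.D0).2 hX.D1)
  have hL1 : 1 ≤ Lam X.D := by
    have := (le_max_right _ _).trans hl
    rwa [← Real.log_one, Real.log_le_log_iff one_pos hL0] at this
  refine h K cS X hX ((le_max_left _ _).trans hl) x hx t ht htT c hq A hA ?_ hΘA hI hpL hw hN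
  refine le_trans ?_ hAl
  refine mul_le_mul_of_nonneg_right ?_ hX.D0.le
  exact Real.rpow_le_rpow_of_exponent_le hL1 (neg_le_neg hc')

end Crest.Agent.R234.We_822
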