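import Mathlib

/-!
Row 234 (helper822), VF-WELL part 1: smooth multi-well functions on a real inner product space.
`wellF q C` has wells at the points of the finite set `C` (mutual distances `≥ q`), equals
`‖y - c‖² / 2` near the wells, is constant away from them, and satisfies
`‖∇F‖² ≤ 2 F`, `D²F ≤ 1`.
-/

open MeasureTheory Metric Set Filter Topology
open scoped ContDiff InnerProductSpace

set_option autoImplicit false

noncomputable section

namespace Crest.Agent.R234.We_822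

/-- smooth antitone profile, `1` for `t ≤ 1/64`, `0` for `t ≥ 1/4`. -/
def psi (t : ℝ) : ℝ := Real.smoothTransition ((16 - 64 * t) / 15)

lemma psi_contDiff : ContDiff ℝ ∞ psi :=
  Real.smoothTransition.contDiff.comp
    ((contDiff_const.sub (contDiff_const.mul contDiff_id)).div_const _)

lemma psi_continuous : Continuous psi := psi_contDiff.continuous

lemma psi_nonneg (t : ℝ) : 0 ≤ psi t := Real.smoothTransition.nonneg _

lemma psi_le_one (t : ℝ) : psi t ≤ 1 := Real.smoothTransition.le_one _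

lemma psi_antitone : Antitone psi := fun a b h =>
  Real.smoothTransition.monotone (by linarith)

lemma psi_eq_one {t : ℝ} (h : t ≤ 1 / 64) : psi t = 1 :=
  Real.smoothTransition.one_of_one_le (by linarith)

lemma psi_eq_zero {t : ℝ} (h : 1 / 4 ≤ t) : psi t = 0 :=
  Real.smoothTransition.zero_of_nonpos (by linarith)

lemma psi_deriv_nonpos (t : ℝ) : deriv psi t ≤ 0 := psi_antitone.deriv_nonpos

lemma psi_deriv_continuous : Continuous (deriv psi) :=
  psi_contDiff.continuous_deriv (by simp)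

lemma psi_deriv_eq_zero {t : ℝ} (h : 1 / 4 < t) : deriv psi t = 0 := by
  have h1 : psi =ᶠ[𝓝 t] fun _ => (0 : ℝ) := by
    filter_upwards [lt_mem_nhds h] with s hs
    exact psi_eq_zero hs.le
  rw [h1.deriv_eq]
  simp

/-- a bound for `t * |psi' t|` -/
lemma exists_psi_bound : ∃ K : ℝ, 0 ≤ K ∧ ∀ t : ℝ, 0 ≤ t → -K ≤ 2 * deriv psi t * t := by
  have hc : Continuous fun t : ℝ => 2 * deriv psi t * t :=
    (continuous_const.mul psi_deriv_continuous).mul continuous_id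
  obtain ⟨M, hM⟩ := (isCompact_Icc (a := (0:ℝ)) (b := 1)).exists_bound_of_continuousOn
    hc.continuousOn
  have hM0 : 0 ≤ M := le_trans (norm_nonneg _) (hM 0 (by simp))
  refine ⟨M, hM0, fun t ht => ?_⟩
  by_cases h1 : t ≤ 1
  · have := hM t ⟨ht, h1⟩
    rw [Real.norm_eq_abs] at this
    have := (abs_le.1 this).1
    linarith
  · rw [psi_deriv_eq_zero (by linarith)]
    simp [hM0]

/-- concave primitive -/
def Gp (t : ℝ) : ℝ := (1 / 2) * ∫ s in (0:ℝ)..t, psi s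

lemma Gp_hasDerivAt (t : ℝ) : HasDerivAt Gp (psi t / 2) t := by
  have h := (psi_continuous.integral_hasStrictDerivAt 0 t).hasDerivAt.const_mul (1 / 2 : ℝ)
  have e : (1 / 2 : ℝ) * psi t = psi t / 2 := by ring
  rw [e] at h
  exact h

lemma Gp_contDiff : ContDiff ℝ ∞ Gp := by
  rw [contDiff_infty_iff_deriv]
  refine ⟨fun t => (Gp_hasDerivAt t).differentiableAt, ?_⟩
  have e : deriv Gp = fun t => psi t / 2 := funext fun t => (Gp_hasDerivAt t).deriv
  rw [e]
  exact psi_contDiff.div_const _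

lemma Gp_zero : Gp 0 = 0 := by simp [Gp]

lemma Gp_le {t : ℝ} (ht : 0 ≤ t) : Gp t ≤ t / 2 := by
  have h : ∫ s in (0:ℝ)..t, psi s ≤ ∫ s in (0:ℝ)..t, (1:ℝ) :=
    intervalIntegral.integral_mono_on ht (psi_continuous.intervalIntegrable _ _)
      (continuous_const.intervalIntegrable _ _) (fun s _ => psi_le_one s)
  simp at h
  unfold Gp
  linarith

lemma mul_psi_le {t : ℝ} (ht : 0 ≤ t) : t * psi t ≤ 2 * Gp t := by
  have h : ∫ s in (0:ℝ)..t, psi t ≤ ∫ s in (0:ℝ)..t, psi s :=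
    intervalIntegral.integral_mono_on ht (continuous_const.intervalIntegrable _ _)
      (psi_continuous.intervalIntegrable _ _) (fun s hs => psi_antitone hs.2)
  simp at h
  unfold Gp
  linarith

lemma Gp_nonneg {t : ℝ} (ht : 0 ≤ t) : 0 ≤ Gp t := by
  have := mul_psi_le ht
  have := mul_nonneg ht (psi_nonneg t)
  linarith

lemma Gp_mono : Monotone Gp :=
  monotone_of_deriv_nonneg (fun t => (Gp_hasDerivAt t).differentiableAt)
    (fun t => by rw [(Gp_hasDerivAt t).deriv]; have := psi_nonneg t; linarith)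

lemma Gp_eq_half {t : ℝ} (ht : 0 ≤ t) (h : t ≤ 1 / 64) : Gp t = t / 2 := by
  have h1 : ∫ s in (0:ℝ)..t, psi s = ∫ s in (0:ℝ)..t, (1:ℝ) :=
    intervalIntegral.integral_congr fun s hs => by
      rw [uIcc_of_le ht] at hs
      exact psi_eq_one (hs.2.trans h)
  simp at h1
  unfold Gp
  rw [h1]
  ring

/-- the limit value -/
def Ginf : ℝ := Gp (1 / 4)

lemma Gp_eq_inf {t : ℝ} (h : 1 / 4 ≤ t) : Gp t = Ginf := by
  have h1 : (∫ s in (0:ℝ)..t, psi s) = (∫ s in (0:ℝ)..(1/4), psi s) + ∫ s in (1/4:ℝ)..t, psi s :=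
    (intervalIntegral.integral_add_adjacent_intervals (psi_continuous.intervalIntegrable _ _)
      (psi_continuous.intervalIntegrable _ _)).symm
  have h2 : ∫ s in (1/4:ℝ)..t, psi s = ∫ s in (1/4:ℝ)..t, (0:ℝ) :=
    intervalIntegral.integral_congr fun s hs => by
      rw [uIcc_of_le h] at hs
      exact psi_eq_zero hs.1
  simp at h2
  unfold Ginf Gp
  rw [h1]
  simp [h2]

lemma Ginf_le : Ginf ≤ 1 / 8 := by
  have := Gp_le (t := 1 / 4) (by norm_num)
  unfold Ginf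
  linarith

lemma le_Ginf : 1 / 128 ≤ Ginf := by
  have h1 : Gp (1 / 64) = 1 / 128 := by
    rw [Gp_eq_half (by norm_num) le_rfl]; norm_num
  rw [← h1]
  exact Gp_mono (by norm_num)

lemma Gp_le_inf (t : ℝ) : Gp t ≤ Ginf := by
  by_cases h : t ≤ 1 / 4
  · exact Gp_mono h
  · exact (Gp_eq_inf (by linarith)).le

lemma Ginf_pos : 0 < Ginf := lt_of_lt_of_le (by norm_num) le_Ginf

lemma le_Gp {t : ℝ} (ht : 0 ≤ t) (h : t ≤ 1 / 4) : t / 32 ≤ Gp t := by
  by_cases h1 : t ≤ 1 / 64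
  · rw [Gp_eq_half ht h1]; linarith
  · have h2 : Gp (1 / 64) = 1 / 128 := by
      rw [Gp_eq_half (by norm_num) le_rfl]; norm_num
    have h3 : Gp (1 / 64) ≤ Gp t := Gp_mono (by linarith)
    linarith

variable {W : Type*} [NormedAddCommGroup W] [InnerProductSpace ℝ W]

/-- the multi-well function -/
def wellF (q : ℝ) (C : Finset W) (y : W) : ℝ :=
  q ^ 2 * (Ginf - ∑ c ∈ C, (Ginf - Gp (‖y - c‖ ^ 2 / q ^ 2)))

/-- its gradient -/
def wellG (q : ℝ) (C : Finset W) (y : W) : W :=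
  ∑ c ∈ C, psi (‖y - c‖ ^ 2 / q ^ 2) • (y - c)

/-- its Hessian -/
def wellH (q : ℝ) (C : Finset W) (y : W) : W →L[ℝ] W :=
  ∑ c ∈ C, (psi (‖y - c‖ ^ 2 / q ^ 2) • ContinuousLinearMap.id ℝ W +
    ((2 / q ^ 2 * deriv psi (‖y - c‖ ^ 2 / q ^ 2)) • innerSL ℝ (y - c)).smulRight (y - c))

/-- separation of the wells -/
def Sep (q : ℝ) (C : Finset W) : Prop := ∀ c ∈ C, ∀ c' ∈ C, c ≠ c' → q ≤ ‖c - c'‖

variable {q : ℝ} {C : Finset W}

lemma wellF_contDiff (q : ℝ) (C : Finset W) : ContDiff ℝ ∞ (wellF q C) := by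
  unfold wellF
  refine contDiff_const.mul (contDiff_const.sub (ContDiff.sum fun c _ => ?_))
  refine contDiff_const.sub (Gp_contDiff.comp ?_)
  exact ((contDiff_id.sub contDiff_const).norm_sq ℝ).div_const _

lemma hasFDerivAt_normsq (c y : W) :
    HasFDerivAt (fun y : W => ‖y - c‖ ^ 2) (2 • innerSL ℝ (y - c)) y := by
  have h1 : HasFDerivAt (fun y : W => y - c) (ContinuousLinearMap.id ℝ W) y :=
    (hasFDerivAt_id y).sub_const c
  have h2 := h1.norm_sq
  refine h2.congr_fderiv ?_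
  ext v
  simp

lemma wellF_hasFDerivAt (hq : q ≠ 0) (y : W) :
    HasFDerivAt (wellF q C) (innerSL ℝ (wellG q C y)) y := by
  have h1 : ∀ c ∈ C, HasFDerivAt (fun y : W => Ginf - Gp (‖y - c‖ ^ 2 / q ^ 2))
      (-((psi (‖y - c‖ ^ 2 / q ^ 2) / q ^ 2) • innerSL ℝ (y - c))) y := by
    intro c _
    have h2 : HasFDerivAt (fun y : W => ‖y - c‖ ^ 2 / q ^ 2)
        ((q ^ 2)⁻¹ • (2 • innerSL ℝ (y - c))) y := by
      have := (hasFDerivAt_normsq c y).mul_const (q ^ 2)⁻¹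
      simpa [div_eq_mul_inv] using this
    have h3 := (Gp_hasDerivAt (‖y - c‖ ^ 2 / q ^ 2)).comp_hasFDerivAt y h2
    have h4 := h3.const_sub Ginf
    refine h4.congr_fderiv ?_
    ext v
    simp
    field_simp
  have h5 := ((HasFDerivAt.fun_sum h1).const_sub Ginf).const_mul (q ^ 2)
  refine h5.congr_fderiv ?_
  ext v
  simp only [wellG, innerSL_apply_apply, sum_inner, inner_smul_left,
    ContinuousLinearMap.smul_apply, ContinuousLinearMap.neg_apply, ContinuousLinearMap.sum_apply,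
    smul_eq_mul, Finset.mul_sum, Finset.sum_neg_distrib, neg_neg, RCLike.conj_to_real]
  refine Finset.sum_congr rfl fun c _ => ?_
  field_simp

lemma wellG_hasFDerivAt (y : W) :
    HasFDerivAt (wellG q C) (wellH q C y) y := by
  refine HasFDerivAt.fun_sum fun c _ => ?_
  have h2 : HasFDerivAt (fun y : W => ‖y - c‖ ^ 2 / q ^ 2)
      ((q ^ 2)⁻¹ • (2 • innerSL ℝ (y - c))) y := by
    have := (hasFDerivAt_normsq c y).mul_const (q ^ 2)⁻¹
    simpa [div_eq_mul_inv] using this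
  have hd : HasDerivAt psi (deriv psi (‖y - c‖ ^ 2 / q ^ 2)) (‖y - c‖ ^ 2 / q ^ 2) :=
    ((psi_contDiff.differentiable (by simp)) _).hasDerivAt
  have h3 := hd.comp_hasFDerivAt y h2
  have h4 := h3.smul ((hasFDerivAt_id y).sub_const c)
  refine h4.congr_fderiv ?_
  ext v
  simp
  congr 1
  ring

/-- every point is close to at most one well -/
lemma cases_well (hq : 0 < q) (hC : Sep q C) (y : W) :
    (∃ c ∈ C, ‖y - c‖ < q / 2 ∧ ∀ c' ∈ C, c' ≠ c → q / 2 < ‖y - c'‖) ∨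
      ∀ c ∈ C, q / 2 ≤ ‖y - c‖ := by
  by_cases h : ∃ c ∈ C, ‖y - c‖ < q / 2
  · obtain ⟨c, hc, h1⟩ := h
    left
    refine ⟨c, hc, h1, fun c' hc' hne => ?_⟩
    have h2 := hC c hc c' hc' (Ne.symm hne)
    have h3 : ‖c - c'‖ ≤ ‖y - c‖ + ‖y - c'‖ := by
      have : c - c' = (y - c') - (y - c) := by abel
      rw [this, add_comm]
      exact norm_sub_le _ _
    linarith
  · right
    intro c hc
    by_contra hcon
    exact h ⟨c, hc, not_le.1 hcon⟩

lemma quot_ge {q : ℝ} (hq : 0 < q) {x : ℝ} (h : q / 2 ≤ x) : 1 / 4 ≤ x ^ 2 / q ^ 2 := by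
  rw [le_div_iff₀ (by positivity)]
  nlinarith

lemma quot_gt {q : ℝ} (hq : 0 < q) {x : ℝ} (h : q / 2 < x) : 1 / 4 < x ^ 2 / q ^ 2 := by
  rw [lt_div_iff₀ (by positivity)]
  nlinarith

lemma quot_le {q : ℝ} (hq : 0 < q) {x : ℝ} (hx : 0 ≤ x) (h : x ≤ q / 2) :
    x ^ 2 / q ^ 2 ≤ 1 / 4 := by
  rw [div_le_iff₀ (by positivity)]
  nlinarith

/-- values near a well -/
lemma wellF_near (hq : 0 < q) {c : W} (hc : c ∈ C) {y : W}
    (h : ∀ c' ∈ C, c' ≠ c → q / 2 ≤ ‖y - c'‖) :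
    wellF q C y = q ^ 2 * Gp (‖y - c‖ ^ 2 / q ^ 2) := by
  unfold wellF
  rw [Finset.sum_eq_single_of_mem c hc]
  · ring
  · intro c' hc' hne
    rw [Gp_eq_inf (quot_ge hq (h c' hc' hne))]
    ring

lemma wellF_far (hq : 0 < q) {y : W} (h : ∀ c ∈ C, q / 2 ≤ ‖y - c‖) :
    wellF q C y = q ^ 2 * Ginf := by
  unfold wellF
  rw [Finset.sum_eq_zero]
  · ring
  · intro c' hc'
    rw [Gp_eq_inf (quot_ge hq (h c' hc'))]
    ring

lemma wellG_near (hq : 0 < q) {c : W} (hc : c ∈ C) {y : W}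
    (h : ∀ c' ∈ C, c' ≠ c → q / 2 ≤ ‖y - c'‖) :
    wellG q C y = psi (‖y - c‖ ^ 2 / q ^ 2) • (y - c) := by
  unfold wellG
  rw [Finset.sum_eq_single_of_mem c hc]
  intro c' hc' hne
  rw [psi_eq_zero (quot_ge hq (h c' hc' hne)), zero_smul]

lemma wellG_far (hq : 0 < q) {y : W} (h : ∀ c ∈ C, q / 2 ≤ ‖y - c‖) :
    wellG q C y = 0 := by
  unfold wellG
  refine Finset.sum_eq_zero fun c' hc' => ?_
  rw [psi_eq_zero (quot_ge hq (h c' hc')), zero_smul]

lemma psi_deriv_quarter : deriv psi (1 / 4) = 0 := by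
  have h1 : Tendsto (deriv psi) (𝓝[>] (1 / 4 : ℝ)) (𝓝 (deriv psi (1 / 4))) :=
    psi_deriv_continuous.continuousAt.tendsto.mono_left nhdsWithin_le_nhds
  have h2 : Tendsto (deriv psi) (𝓝[>] (1 / 4 : ℝ)) (𝓝 0) := by
    refine Tendsto.congr' ?_ tendsto_const_nhds
    filter_upwards [self_mem_nhdsWithin] with s hs
    exact (psi_deriv_eq_zero hs).symm
  exact tendsto_nhds_unique h1 h2

lemma psi_deriv_eq_zero' {t : ℝ} (h : 1 / 4 ≤ t) : deriv psi t = 0 := by
  rcases h.eq_or_lt with h1 | h1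
  · rw [← h1]; exact psi_deriv_quarter
  · exact psi_deriv_eq_zero h1

lemma wellH_near (hq : 0 < q) {c : W} (hc : c ∈ C) {y : W}
    (h : ∀ c' ∈ C, c' ≠ c → q / 2 ≤ ‖y - c'‖) :
    wellH q C y = psi (‖y - c‖ ^ 2 / q ^ 2) • ContinuousLinearMap.id ℝ W +
    ((2 / q ^ 2 * deriv psi (‖y - c‖ ^ 2 / q ^ 2)) • innerSL ℝ (y - c)).smulRight (y - c) := by
  unfold wellH
  rw [Finset.sum_eq_single_of_mem c hc]
  intro c' hc' hne
  rw [psi_eq_zero (quot_ge hq (h c' hc' hne)), psi_deriv_eq_zero' (quot_ge hq (h c' hc' hne))]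
  ext v
  simp

lemma wellH_far (hq : 0 < q) {y : W} (h : ∀ c ∈ C, q / 2 ≤ ‖y - c‖) :
    wellH q C y = 0 := by
  unfold wellH
  refine Finset.sum_eq_zero fun c' hc' => ?_
  rw [psi_eq_zero (quot_ge hq (h c' hc')), psi_deriv_eq_zero' (quot_ge hq (h c' hc'))]
  ext v
  simp

lemma wellF_nonneg (hq : 0 < q) (hC : Sep q C) (y : W) : 0 ≤ wellF q C y := by
  rcases cases_well hq hC y with ⟨c, hc, _, h2⟩ | h
  · rw [wellF_near hq hc fun c' hc' hne => (h2 c' hc' hne).le]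
    exact mul_nonneg (by positivity) (Gp_nonneg (by positivity))
  · rw [wellF_far hq h]
    exact mul_nonneg (by positivity) Ginf_pos.le

lemma wellF_le_const (hq : 0 < q) (hC : Sep q C) (y : W) : wellF q C y ≤ q ^ 2 * Ginf := by
  rcases cases_well hq hC y with ⟨c, hc, _, h2⟩ | h
  · rw [wellF_near hq hc fun c' hc' hne => (h2 c' hc' hne).le]
    exact mul_le_mul_of_nonneg_left (Gp_le_inf _) (by positivity)
  · rw [wellF_far hq h]

/-- `‖∇F‖² ≤ 2 F` -/
lemma wellG_sq_le (hq : 0 < q) (hC : Sep q C) (y : W) : ‖wellG q C y‖ ^ 2 ≤ 2 * wellF q C y := by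
  rcases cases_well hq hC y with ⟨c, hc, _, h2⟩ | h
  · have h3 : ∀ c' ∈ C, c' ≠ c → q / 2 ≤ ‖y - c'‖ := fun c' hc' hne => (h2 c' hc' hne).le
    rw [wellF_near hq hc h3, wellG_near hq hc h3, norm_smul, mul_pow, Real.norm_eq_abs, sq_abs]
    set t := ‖y - c‖ ^ 2 / q ^ 2 with ht
    have ht0 : 0 ≤ t := by positivity
    have h4 : ‖y - c‖ ^ 2 = q ^ 2 * t := by
      rw [ht]; field_simp
    rw [h4]
    have h5 := mul_psi_le ht0
    have h6 : psi t ^ 2 ≤ psi t := by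
      have := psi_nonneg t
      have := psi_le_one t
      nlinarith
    have h7 : t * psi t ^ 2 ≤ 2 * Gp t := (mul_le_mul_of_nonneg_left h6 ht0).trans h5
    have h8 : 0 ≤ q ^ 2 := by positivity
    nlinarith [mul_le_mul_of_nonneg_left h7 h8]
  · rw [wellG_far hq h]
    simp [wellF_nonneg hq hC y]

lemma wellG_norm_le (hq : 0 < q) (hC : Sep q C) (y : W) : ‖wellG q C y‖ ≤ q / 2 := by
  have h1 := wellG_sq_le hq hC y
  have h2 := wellF_le_const hq hC y
  have h3 := Ginf_le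
  have h4 : ‖wellG q C y‖ ^ 2 ≤ (q / 2) ^ 2 := by nlinarith [sq_nonneg q]
  exact (sq_le_sq₀ (norm_nonneg _) (by positivity)).1 h4

/-- `D²F ≤ 1` -/
lemma wellH_le (hq : 0 < q) (hC : Sep q C) (y v : W) : ⟪wellH q C y v, v⟫_ℝ ≤ ‖v‖ ^ 2 := by
  rcases cases_well hq hC y with ⟨c, hc, _, h2⟩ | h
  · have h3 : ∀ c' ∈ C, c' ≠ c → q / 2 ≤ ‖y - c'‖ := fun c' hc' hne => (h2 c' hc' hne).le
    rw [wellH_near hq hc h3]
    set t := ‖y - c‖ ^ 2 / q ^ 2 with ht
    simp only [ContinuousLinearMap.add_apply, ContinuousLinearMap.smul_apply,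
      ContinuousLinearMap.id_apply, ContinuousLinearMap.smulRight_apply, innerSL_apply_apply,
      inner_add_left, inner_smul_left, real_inner_self_eq_norm_sq, RCLike.conj_to_real,
      smul_eq_mul]
    have h5 : 2 / q ^ 2 * deriv psi t * ⟪y - c, v⟫_ℝ * ⟪y - c, v⟫_ℝ ≤ 0 := by
      have h6 : 2 / q ^ 2 * deriv psi t ≤ 0 :=
        mul_nonpos_of_nonneg_of_nonpos (by positivity) (psi_deriv_nonpos t)
      nlinarith [mul_self_nonneg ⟪y - c, v⟫_ℝ]
    have h7 := psi_le_one t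
    nlinarith [sq_nonneg ‖v‖]
  · rw [wellH_far hq h]
    simp

/-- lower bound of the Hessian -/
lemma exists_wellH_ge : ∃ K : ℝ, 0 ≤ K ∧ ∀ {W : Type*} [NormedAddCommGroup W]
    [InnerProductSpace ℝ W] {q : ℝ} {C : Finset W}, 0 < q → Sep q C → ∀ y v : W,
      -K * ‖v‖ ^ 2 ≤ ⟪wellH q C y v, v⟫_ℝ := by
  obtain ⟨K, hK0, hK⟩ := exists_psi_bound
  refine ⟨K, hK0, ?_⟩
  intro W _ _ q C hq hC y v
  rcases cases_well hq hC y with ⟨c, hc, _, h2⟩ | h
  · have h3 : ∀ c' ∈ C, c' ≠ c → q / 2 ≤ ‖y - c'‖ := fun c' hc' hne => (h2 c' hc' hne).le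
    rw [wellH_near hq hc h3]
    set t := ‖y - c‖ ^ 2 / q ^ 2 with ht
    have ht0 : 0 ≤ t := by positivity
    simp only [ContinuousLinearMap.add_apply, ContinuousLinearMap.smul_apply,
      ContinuousLinearMap.id_apply, ContinuousLinearMap.smulRight_apply, innerSL_apply_apply,
      inner_add_left, inner_smul_left, real_inner_self_eq_norm_sq, RCLike.conj_to_real,
      smul_eq_mul]
    have h4 : ‖y - c‖ ^ 2 = q ^ 2 * t := by
      rw [ht]; field_simp
    have h5 : ⟪y - c, v⟫_ℝ * ⟪y - c, v⟫_ℝ ≤ (q ^ 2 * t) * ‖v‖ ^ 2 := by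
      have := abs_real_inner_le_norm (y - c) v
      have h8 : ⟪y - c, v⟫_ℝ * ⟪y - c, v⟫_ℝ = |⟪y - c, v⟫_ℝ| ^ 2 := by rw [sq_abs]; ring
      rw [h8, ← h4, ← mul_pow]
      exact pow_le_pow_left₀ (abs_nonneg _) this 2
    have h6 : 2 / q ^ 2 * deriv psi t ≤ 0 :=
      mul_nonpos_of_nonneg_of_nonpos (by positivity) (psi_deriv_nonpos t)
    have h7 : 2 / q ^ 2 * deriv psi t * (q ^ 2 * t * ‖v‖ ^ 2) ≤
        2 / q ^ 2 * deriv psi t * (⟪y - c, v⟫_ℝ * ⟪y - c, v⟫_ℝ) :=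
      mul_le_mul_of_nonpos_left h5 h6
    have h8 : 2 / q ^ 2 * deriv psi t * (q ^ 2 * t * ‖v‖ ^ 2) = 2 * deriv psi t * t * ‖v‖ ^ 2 := by
      field_simp
    have h9 := mul_le_mul_of_nonneg_right (hK t ht0) (sq_nonneg ‖v‖)
    have h10 := mul_nonneg (psi_nonneg t) (sq_nonneg ‖v‖)
    nlinarith
  · rw [wellH_far hq h]
    simp only [ContinuousLinearMap.zero_apply, inner_zero_left]
    nlinarith [mul_nonneg hK0 (sq_nonneg ‖v‖)]

lemma wellH_symm (q : ℝ) (C : Finset W) (y v w : W) :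
    ⟪wellH q C y v, w⟫_ℝ = ⟪v, wellH q C y w⟫_ℝ := by
  simp only [wellH, ContinuousLinearMap.sum_apply, sum_inner, inner_sum,
    ContinuousLinearMap.add_apply, ContinuousLinearMap.smul_apply,
    ContinuousLinearMap.id_apply, ContinuousLinearMap.smulRight_apply, innerSL_apply_apply,
    inner_add_left, inner_add_right, inner_smul_left, inner_smul_right, RCLike.conj_to_real,
    smul_eq_mul]
  refine Finset.sum_congr rfl fun c _ => ?_
  rw [real_inner_comm (y - c) v]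
  ring

/-- upper bound by the distance to every well -/
lemma wellF_le (hq : 0 < q) (hC : Sep q C) (y : W) {c : W} (hc : c ∈ C) :
    wellF q C y ≤ ‖y - c‖ ^ 2 / 2 := by
  by_cases h : ‖y - c‖ < q / 2
  · rcases cases_well hq hC y with ⟨c', hc', _, h2⟩ | h'
    · have he : c = c' := by
        by_contra hne
        have := h2 c hc hne
        linarith
      subst he
      rw [wellF_near hq hc fun c' hc' hne => (h2 c' hc' hne).le]
      have h3 := Gp_le (t := ‖y - c‖ ^ 2 / q ^ 2) (by positivity)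
      have h4 := mul_le_mul_of_nonneg_left h3 (sq_nonneg q)
      refine h4.trans (le_of_eq ?_)
      field_simp
    · exact absurd h (not_lt.2 (h' c hc))
  · have h1 := wellF_le_const hq hC y
    have h2 := Ginf_le
    have h3 : q / 2 ≤ ‖y - c‖ := not_lt.1 h
    have h4 : (q / 2) ^ 2 ≤ ‖y - c‖ ^ 2 := pow_le_pow_left₀ (by positivity) h3 2
    nlinarith [sq_nonneg q]

/-- lower bound -/
lemma le_wellF (hq : 0 < q) (hC : Sep q C) (y : W) {d : ℝ} (hd0 : 0 ≤ d) (hdq : d ≤ q / 2)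
    (hd : ∀ c ∈ C, d ≤ ‖y - c‖) : d ^ 2 / 32 ≤ wellF q C y := by
  rcases cases_well hq hC y with ⟨c, hc, h1, h2⟩ | h
  · rw [wellF_near hq hc fun c' hc' hne => (h2 c' hc' hne).le]
    have h3 := le_Gp (t := ‖y - c‖ ^ 2 / q ^ 2) (by positivity)
      (quot_le hq (norm_nonneg _) h1.le)
    have h4 := mul_le_mul_of_nonneg_left h3 (sq_nonneg q)
    have h5 : q ^ 2 * (‖y - c‖ ^ 2 / q ^ 2 / 32) = ‖y - c‖ ^ 2 / 32 := by field_simp
    rw [h5] at h4
    have h6 := pow_le_pow_left₀ hd0 (hd c hc) 2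
    linarith
  · rw [wellF_far hq h]
    have h3 := le_Ginf
    have h4 := pow_le_pow_left₀ hd0 hdq 2
    nlinarith [sq_nonneg q]

/-- exactly quadratic near the wells -/
lemma wellF_eq_quadratic (hq : 0 < q) (hC : Sep q C) {y c : W} (hc : c ∈ C)
    (h : ‖y - c‖ ≤ q / 8) : wellF q C y = ‖y - c‖ ^ 2 / 2 := by
  rcases cases_well hq hC y with ⟨c', hc', _, h2⟩ | h'
  · have he : c = c' := by
      by_contra hne
      have := h2 c hc hne
      linarith
    subst he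
    rw [wellF_near hq hc fun c' hc' hne => (h2 c' hc' hne).le, Gp_eq_half (by positivity)]
    · field_simp
    · rw [div_le_iff₀ (by positivity)]
      nlinarith [norm_nonneg (y - c)]
  · have := h' c hc
    linarith

lemma wellH_eq_id (hq : 0 < q) (hC : Sep q C) {y c : W} (hc : c ∈ C)
    (h : ‖y - c‖ < q / 8) : wellH q C y = ContinuousLinearMap.id ℝ W := by
  rcases cases_well hq hC y with ⟨c', hc', _, h2⟩ | h'
  · have he : c = c' := by
      by_contra hne
      have := h2 c hc hne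
      linarith
    subst he
    rw [wellH_near hq hc fun c' hc' hne => (h2 c' hc' hne).le]
    have h3 : ‖y - c‖ ^ 2 / q ^ 2 < 1 / 64 := by
      rw [div_lt_iff₀ (by positivity)]
      nlinarith [norm_nonneg (y - c)]
    have h4 : deriv psi (‖y - c‖ ^ 2 / q ^ 2) = 0 := by
      have h5 : psi =ᶠ[𝓝 (‖y - c‖ ^ 2 / q ^ 2)] fun _ => (1 : ℝ) := by
        filter_upwards [gt_mem_nhds h3] with s hs
        exact psi_eq_one hs.le
      rw [h5.deriv_eq]
      simp
    rw [psi_eq_one h3.le, h4]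
    ext v
    simp
  · have := h' c hc
    linarith [norm_nonneg (y - c)]

end Crest.Agent.R234.We_822
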