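import Crest.Agent.R234.We1_822

/-!
Row 234 (helper822), VF-WELL part 2: smooth bumps `bumpF q c y = psi (‖y - c‖² / q²)` with
gradient and Hessian bounds, and the crossing lemma over an abstract form of (N1) of 761 #5614.
-/

open MeasureTheory Metric Set Filter Topology
open scoped ContDiff InnerProductSpace

set_option autoImplicit false

noncomputable section

namespace Crest.Agent.R234.We_822

variable {W : Type*} [NormedAddCommGroup W] [InnerProductSpace ℝ W]

/-- bump: `1` on `closedBall c (q/8)`, `0` off `ball c (q/2)` -/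
def bumpF (q : ℝ) (c y : W) : ℝ := psi (‖y - c‖ ^ 2 / q ^ 2)

/-- gradient of the bump -/
def bumpG (q : ℝ) (c y : W) : W := (2 / q ^ 2 * deriv psi (‖y - c‖ ^ 2 / q ^ 2)) • (y - c)

/-- Hessian of the bump -/
def bumpH (q : ℝ) (c y : W) : W →L[ℝ] W :=
  (2 / q ^ 2 * deriv psi (‖y - c‖ ^ 2 / q ^ 2)) • ContinuousLinearMap.id ℝ W +
    ((4 / q ^ 4 * deriv (deriv psi) (‖y - c‖ ^ 2 / q ^ 2)) •
      innerSL ℝ (y - c)).smulRight (y - c)

lemma dpsi_contDiff : ContDiff ℝ ∞ (deriv psi) := by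
  have h : ContDiff ℝ (∞ + 1) psi := by simpa using psi_contDiff
  exact (contDiff_succ_iff_deriv.1 h).2.2

lemma ddpsi_continuous : Continuous (deriv (deriv psi)) :=
  dpsi_contDiff.continuous_deriv (by simp)

lemma ddpsi_eq_zero {t : ℝ} (h : 1 / 4 < t) : deriv (deriv psi) t = 0 := by
  have h1 : deriv psi =ᶠ[𝓝 t] fun _ => (0 : ℝ) := by
    filter_upwards [lt_mem_nhds h] with s hs
    exact psi_deriv_eq_zero hs
  rw [h1.deriv_eq]
  simp

lemma bumpF_contDiff (q : ℝ) (c : W) : ContDiff ℝ ∞ (bumpF q c) :=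
  psi_contDiff.comp (((contDiff_id.sub contDiff_const).norm_sq ℝ).div_const _)

lemma bumpF_nonneg (q : ℝ) (c y : W) : 0 ≤ bumpF q c y := psi_nonneg _

lemma bumpF_le_one (q : ℝ) (c y : W) : bumpF q c y ≤ 1 := psi_le_one _

lemma bumpF_eq_one {q : ℝ} (hq : 0 < q) {c y : W} (h : ‖y - c‖ ≤ q / 8) : bumpF q c y = 1 := by
  refine psi_eq_one ?_
  rw [div_le_iff₀ (by positivity)]
  nlinarith [norm_nonneg (y - c)]

lemma bumpF_eq_zero {q : ℝ} (hq : 0 < q) {c y : W} (h : q / 2 ≤ ‖y - c‖) : bumpF q c y = 0 :=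
  psi_eq_zero (quot_ge hq h)

lemma bumpF_hasFDerivAt (q : ℝ) (c y : W) :
    HasFDerivAt (bumpF q c) (innerSL ℝ (bumpG q c y)) y := by
  have h2 : HasFDerivAt (fun y : W => ‖y - c‖ ^ 2 / q ^ 2)
      ((q ^ 2)⁻¹ • (2 • innerSL ℝ (y - c))) y := by
    have := (hasFDerivAt_normsq c y).mul_const (q ^ 2)⁻¹
    simpa [div_eq_mul_inv] using this
  have hd : HasDerivAt psi (deriv psi (‖y - c‖ ^ 2 / q ^ 2)) (‖y - c‖ ^ 2 / q ^ 2) :=
    ((psi_contDiff.differentiable (by simp)) _).hasDerivAt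
  refine (hd.comp_hasFDerivAt y h2).congr_fderiv ?_
  ext v
  simp [bumpG, inner_smul_left]
  ring

lemma bumpG_hasFDerivAt (q : ℝ) (c y : W) :
    HasFDerivAt (bumpG q c) (bumpH q c y) y := by
  have h2 : HasFDerivAt (fun y : W => ‖y - c‖ ^ 2 / q ^ 2)
      ((q ^ 2)⁻¹ • (2 • innerSL ℝ (y - c))) y := by
    have := (hasFDerivAt_normsq c y).mul_const (q ^ 2)⁻¹
    simpa [div_eq_mul_inv] using this
  have hd : HasDerivAt (deriv psi) (deriv (deriv psi) (‖y - c‖ ^ 2 / q ^ 2))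
      (‖y - c‖ ^ 2 / q ^ 2) :=
    ((dpsi_contDiff.differentiable (by simp)) _).hasDerivAt
  have h3 := (hd.comp_hasFDerivAt y h2).const_mul (2 / q ^ 2)
  have h4 := h3.smul ((hasFDerivAt_id y).sub_const c)
  refine h4.congr_fderiv ?_
  ext v
  simp [bumpH]
  congr 1
  ring

lemma bumpG_eq_zero {q : ℝ} (hq : 0 < q) {c y : W} (h : q / 2 ≤ ‖y - c‖) : bumpG q c y = 0 := by
  unfold bumpG
  rw [psi_deriv_eq_zero' (quot_ge hq h)]
  simp

lemma ddpsi_eq_zero' {t : ℝ} (h : 1 / 4 ≤ t) : deriv (deriv psi) t = 0 := by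
  rcases h.eq_or_lt with h1 | h1
  · rw [← h1]
    have h1 : Tendsto (deriv (deriv psi)) (𝓝[>] (1 / 4 : ℝ)) (𝓝 (deriv (deriv psi) (1 / 4))) :=
      ddpsi_continuous.continuousAt.tendsto.mono_left nhdsWithin_le_nhds
    have h2 : Tendsto (deriv (deriv psi)) (𝓝[>] (1 / 4 : ℝ)) (𝓝 0) := by
      refine Tendsto.congr' ?_ tendsto_const_nhds
      filter_upwards [self_mem_nhdsWithin] with s hs
      exact (ddpsi_eq_zero hs).symm
    exact tendsto_nhds_unique h1 h2
  · exact ddpsi_eq_zero h1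

lemma bumpH_eq_zero {q : ℝ} (hq : 0 < q) {c y : W} (h : q / 2 ≤ ‖y - c‖) : bumpH q c y = 0 := by
  unfold bumpH
  rw [psi_deriv_eq_zero' (quot_ge hq h), ddpsi_eq_zero' (quot_ge hq h)]
  ext v
  simp

/-- universal bounds of gradient and Hessian of the bumps -/
lemma exists_bump_bound : ∃ K : ℝ, 1 ≤ K ∧ ∀ {W : Type*} [NormedAddCommGroup W]
    [InnerProductSpace ℝ W] {q : ℝ}, 0 < q → ∀ c y : W,
      ‖bumpG q c y‖ ≤ K / q ∧ ‖bumpH q c y‖ ≤ K / q ^ 2 := by
  obtain ⟨M1, hM1⟩ := (isCompact_Icc (a := (0:ℝ)) (b := 1)).exists_bound_of_continuousOn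
    psi_deriv_continuous.continuousOn
  obtain ⟨M2, hM2⟩ := (isCompact_Icc (a := (0:ℝ)) (b := 1)).exists_bound_of_continuousOn
    ddpsi_continuous.continuousOn
  have hM10 : 0 ≤ M1 := le_trans (norm_nonneg _) (hM1 0 (by simp))
  have hM20 : 0 ≤ M2 := le_trans (norm_nonneg _) (hM2 0 (by simp))
  refine ⟨2 * M1 + M2 + 1, by linarith, ?_⟩
  intro W _ _ q hq c y
  by_cases hfar : q / 2 ≤ ‖y - c‖
  · rw [bumpG_eq_zero hq hfar, bumpH_eq_zero hq hfar]
    simp only [norm_zero]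
    constructor <;> positivity
  · have hnear : ‖y - c‖ ≤ q / 2 := (not_le.1 hfar).le
    have ht : ‖y - c‖ ^ 2 / q ^ 2 ∈ Icc (0:ℝ) 1 :=
      ⟨by positivity, (quot_le hq (norm_nonneg _) hnear).trans (by norm_num)⟩
    have h1 := hM1 _ ht
    have h2 := hM2 _ ht
    have hn0 := norm_nonneg (y - c)
    constructor
    · unfold bumpG
      rw [norm_smul, norm_mul, Real.norm_eq_abs (2 / q ^ 2), abs_of_nonneg (by positivity)]
      have h3 : 2 / q ^ 2 * ‖deriv psi (‖y - c‖ ^ 2 / q ^ 2)‖ * ‖y - c‖ ≤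
          2 / q ^ 2 * M1 * (q / 2) := by gcongr
      refine h3.trans ?_
      rw [div_mul_eq_mul_div, div_mul_eq_mul_div, div_le_div_iff₀ (by positivity) hq]
      have : 2 * M1 * (q / 2) * q = M1 * q ^ 2 := by ring
      rw [this]
      have : M1 ≤ 2 * M1 + M2 + 1 := by linarith
      exact mul_le_mul_of_nonneg_right this (by positivity)
    · unfold bumpH
      refine (norm_add_le _ _).trans ?_
      have h4 : ‖(2 / q ^ 2 * deriv psi (‖y - c‖ ^ 2 / q ^ 2)) • ContinuousLinearMap.id ℝ W‖ ≤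
          2 / q ^ 2 * M1 := by
        rw [norm_smul, norm_mul, Real.norm_eq_abs (2 / q ^ 2), abs_of_nonneg (by positivity)]
        have h5 : ‖ContinuousLinearMap.id ℝ W‖ ≤ 1 := ContinuousLinearMap.norm_id_le
        calc 2 / q ^ 2 * ‖deriv psi (‖y - c‖ ^ 2 / q ^ 2)‖ * ‖ContinuousLinearMap.id ℝ W‖
            ≤ 2 / q ^ 2 * M1 * 1 := by gcongr
          _ = _ := by ring
      have h6 : ‖((4 / q ^ 4 * deriv (deriv psi) (‖y - c‖ ^ 2 / q ^ 2)) •
          innerSL ℝ (y - c)).smulRight (y - c)‖ ≤ 4 / q ^ 4 * M2 * (q / 2) * (q / 2) := by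
        rw [ContinuousLinearMap.norm_smulRight_apply, norm_smul, norm_mul,
          Real.norm_eq_abs (4 / q ^ 4), abs_of_nonneg (by positivity), innerSL_apply_norm]
        gcongr
      have h7 : 4 / q ^ 4 * M2 * (q / 2) * (q / 2) = M2 / q ^ 2 := by field_simp; ring
      rw [h7] at h6
      have h8 : 2 / q ^ 2 * M1 + M2 / q ^ 2 = (2 * M1 + M2) / q ^ 2 := by ring
      calc _ ≤ 2 / q ^ 2 * M1 + M2 / q ^ 2 := add_le_add h4 h6
        _ = (2 * M1 + M2) / q ^ 2 := h8
        _ ≤ (2 * M1 + M2 + 1) / q ^ 2 :=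
          div_le_div_of_nonneg_right (by linarith) (by positivity)

/-- from a change of `ν` between two scales to one scale with much energy (no integrability of
`φ` is needed) -/
lemma exists_scale {nu nu' φ : ℝ → ℝ} {l1 l2 A B c : ℝ} (h12 : l1 ≤ l2) (hA : 0 < A) (hB : 0 < B)
    (hd : ∀ l ∈ Icc l1 l2, HasDerivAt nu (nu' l) l)
    (hb : ∀ l ∈ Icc l1 l2, |nu' l| ≤ (A + B * Real.exp (-2 * l)) * φ l)
    (hc : 0 < c) (hnu : c ≤ |nu l2 - nu l1|) :
    ∃ l ∈ Icc l1 l2, c ≤ 2 * (A * (l2 - l1) + B / 2 * Real.exp (-2 * l1)) * φ l := by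
  by_contra hcon
  push Not at hcon
  set T := A * (l2 - l1) + B / 2 * Real.exp (-2 * l1) with hT
  have hTpos : 0 < T := by
    have h1 : 0 ≤ A * (l2 - l1) := mul_nonneg hA.le (by linarith)
    have h2 : 0 < B / 2 * Real.exp (-2 * l1) := by positivity
    linarith
  -- comparison function
  set H : ℝ → ℝ := fun l => c / (2 * T) * (A * l - B / 2 * Real.exp (-2 * l)) with hH
  have hHd : ∀ l, HasDerivAt H (c / (2 * T) * (A + B * Real.exp (-2 * l))) l := by
    intro l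
    have h1 : HasDerivAt (fun l : ℝ => -2 * l) (-2) l := by
      simpa using (hasDerivAt_id l).const_mul (-2 : ℝ)
    have h2 := (((hasDerivAt_id l).const_mul A).sub ((h1.exp).const_mul (B / 2))).const_mul
      (c / (2 * T))
    refine h2.congr_deriv ?_
    ring
  have hlt : ∀ l ∈ Icc l1 l2, |nu' l| ≤ c / (2 * T) * (A + B * Real.exp (-2 * l)) := by
    intro l hl
    have h1 := hcon l hl
    have h2 : φ l ≤ c / (2 * T) := by
      rw [le_div_iff₀ (by positivity)]
      linarith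
    have h3 : 0 ≤ A + B * Real.exp (-2 * l) := by positivity
    calc |nu' l| ≤ (A + B * Real.exp (-2 * l)) * φ l := hb l hl
      _ ≤ (A + B * Real.exp (-2 * l)) * (c / (2 * T)) := mul_le_mul_of_nonneg_left h2 h3
      _ = _ := by ring
  have hup : ∀ x ∈ Icc l1 l2, ‖nu x - nu l1‖ ≤ H x - H l1 := by
    intro x hx
    have hcont : ContinuousOn (fun x => nu x - nu l1) (Icc l1 l2) :=
      fun y hy => ((hd y hy).continuousAt.sub continuousAt_const).continuousWithinAt
    refine image_norm_le_of_norm_deriv_right_le_deriv_boundary (f := fun x => nu x - nu l1)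
      (f' := nu') (B := fun x => H x - H l1)
      (B' := fun l => c / (2 * T) * (A + B * Real.exp (-2 * l))) hcont ?_ ?_ ?_ ?_ hx
    · intro y hy
      exact ((hd y ⟨hy.1, hy.2.le⟩).sub_const _).hasDerivWithinAt
    · simp
    · intro y
      exact (hHd y).sub_const _
    · intro y hy
      exact hlt y ⟨hy.1, hy.2.le⟩
  have h1 := hup l2 ⟨h12, le_rfl⟩
  rw [Real.norm_eq_abs] at h1
  have h2 : H l2 - H l1 < c := by
    have h3 : H l2 - H l1 = c / (2 * T) * (T - B / 2 * Real.exp (-2 * l2)) := by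
      simp only [hH, hT]
      ring
    rw [h3]
    have h4 : 0 < c / (2 * T) * (B / 2 * Real.exp (-2 * l2)) := by positivity
    have h5 : c / (2 * T) * T = c / 2 := by field_simp
    nlinarith
  linarith

end Crest.Agent.R234.We_822
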