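import Crest.Agent.R234.We2_822
import Crest.Agent.R234.Cy4_870

/-!
Row 234 (helper822), VF-CROSS part 1: `‖∇F‖² ≤ 2 K F` for `F ≥ 0`, `D²F ≤ K`; trace bound
`|tr (A S_vv)| ≤ ‖A‖ tr S_vv`; the crossing lemma (X1) at the level of a general varifold, in
the frame of helper870 (`IF`, `eF`, `err3`).
-/

set_option autoImplicit false

open MeasureTheory Set Function Filter Topology
open Crest.GeometryTopology.Submanifold
open Crest.Agent.R234.Vf_884 Crest.Agent.R234.Ar_870 Crest.Agent.R234.Cy_870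
open scoped ENNReal NNReal InnerProductSpace

noncomputable section

namespace Crest.Agent.R234.We_822

/-- nonnegative functions with Hessian `≤ K` have `‖∇F‖² ≤ 2 K F` -/
lemma grad_sq_le {W : Type*} [NormedAddCommGroup W] [InnerProductSpace ℝ W] {F : W → ℝ}
    {dF : W → W} {H : W → W →L[ℝ] W} {K : ℝ} (hK : 0 < K)
    (hF : ∀ y, HasFDerivAt F (innerSL ℝ (dF y)) y) (hdF : ∀ y, HasFDerivAt dF (H y) y)
    (hH : ∀ y v, ⟪H y v, v⟫_ℝ ≤ K * ‖v‖ ^ 2) (h0 : ∀ y, 0 ≤ F y) (y : W) :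
    ‖dF y‖ ^ 2 ≤ 2 * K * F y := by
  set d := dF y with hd
  have hline : ∀ t : ℝ, HasDerivAt (fun t : ℝ => y - t • d) (-d) t := by
    intro t
    have h1 := ((hasDerivAt_id t).smul_const d).const_sub y
    simpa using h1
  -- first derivative
  have h1 : ∀ t : ℝ, HasDerivAt (fun t : ℝ => F (y - t • d)) (-⟪dF (y - t • d), d⟫_ℝ) t := by
    intro t
    have h2 := (hF (y - t • d)).comp_hasDerivAt t (hline t)
    refine h2.congr_deriv ?_
    simp
  have h2 : ∀ t : ℝ, HasDerivAt (fun t : ℝ => ⟪dF (y - t • d), d⟫_ℝ)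
      (-⟪H (y - t • d) d, d⟫_ℝ) t := by
    intro t
    have h3 := (hdF (y - t • d)).comp_hasDerivAt t (hline t)
    have h4 := h3.inner ℝ (hasDerivAt_const t d)
    refine h4.congr_deriv ?_
    simp
  -- second order comparison
  set ψ1 : ℝ → ℝ := fun t => -‖d‖ ^ 2 + K * t * ‖d‖ ^ 2 + ⟪dF (y - t • d), d⟫_ℝ with hψ1
  have h3 : ∀ t : ℝ, HasDerivAt ψ1 (K * ‖d‖ ^ 2 - ⟪H (y - t • d) d, d⟫_ℝ) t := by
    intro t
    have h4 : HasDerivAt (fun t : ℝ => -‖d‖ ^ 2 + K * t * ‖d‖ ^ 2) (K * ‖d‖ ^ 2) t := by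
      have := (((hasDerivAt_id t).const_mul K).mul_const (‖d‖ ^ 2)).const_add (-‖d‖ ^ 2)
      simpa using this
    have h5 := h4.add (h2 t)
    refine h5.congr_deriv ?_
    ring
  have h4 : MonotoneOn ψ1 (Ici 0) := by
    refine monotoneOn_of_deriv_nonneg (convex_Ici 0)
      (fun t _ => (h3 t).continuousAt.continuousWithinAt)
      (fun t _ => (h3 t).differentiableAt.differentiableWithinAt) (fun t _ => ?_)
    rw [(h3 t).deriv]
    have := hH (y - t • d) d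
    linarith
  have h5 : ∀ t : ℝ, 0 ≤ t → 0 ≤ ψ1 t := by
    intro t ht
    have h6 := h4 (mem_Ici.2 le_rfl) (mem_Ici.2 ht) ht
    have h7 : ψ1 0 = 0 := by
      simp only [hψ1]
      simp [hd]
    rwa [h7] at h6
  set ψ : ℝ → ℝ := fun t => F y - t * ‖d‖ ^ 2 + K * t ^ 2 / 2 * ‖d‖ ^ 2 - F (y - t • d) with hψ
  have h6 : ∀ t : ℝ, HasDerivAt ψ (ψ1 t) t := by
    intro t
    have h7 : HasDerivAt (fun t : ℝ => F y - t * ‖d‖ ^ 2 + K * t ^ 2 / 2 * ‖d‖ ^ 2)
        (-‖d‖ ^ 2 + K * t * ‖d‖ ^ 2) t := by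
      have h8 := (((hasDerivAt_id t).mul_const (‖d‖ ^ 2)).const_sub (F y)).add
        (((((hasDerivAt_id t).pow 2).const_mul K).div_const 2).mul_const (‖d‖ ^ 2))
      refine h8.congr_deriv ?_
      have e1 : (id t : ℝ) ^ (2 - 1) = t := by simp
      rw [e1]
      push_cast
      ring
    have h9 := h7.sub (h1 t)
    refine h9.congr_deriv ?_
    simp only [hψ1]
    ring
  have h7 : MonotoneOn ψ (Ici 0) := by
    refine monotoneOn_of_deriv_nonneg (convex_Ici 0)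
      (fun t _ => (h6 t).continuousAt.continuousWithinAt)
      (fun t _ => (h6 t).differentiableAt.differentiableWithinAt) (fun t ht => ?_)
    rw [(h6 t).deriv]
    rw [interior_Ici] at ht
    exact h5 t (le_of_lt ht)
  have h8 := h7 (mem_Ici.2 le_rfl) (mem_Ici.2 (by positivity : (0:ℝ) ≤ 1 / K)) (by positivity)
  have h9 : ψ 0 = 0 := by simp [hψ]
  rw [h9] at h8
  have h10 := h0 (y - (1 / K) • d)
  simp only [hψ] at h8
  have h11 : K * (1 / K) ^ 2 / 2 * ‖d‖ ^ 2 = 1 / K * ‖d‖ ^ 2 / 2 := by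
    field_simp
  rw [h11] at h8
  have h12 : 1 / K * ‖d‖ ^ 2 / 2 ≤ F y := by linarith
  have h13 : 1 / K * ‖d‖ ^ 2 / 2 * (2 * K) = ‖d‖ ^ 2 := by field_simp
  have h14 := mul_le_mul_of_nonneg_right h12 (by positivity : (0:ℝ) ≤ 2 * K)
  rw [h13] at h14
  linarith

variable {m n k : ℕ}

/-- `|tr (A S_vv)| ≤ ‖A‖ tr S_vv` -/
lemma abs_tr_comp_Shh_le {κ : Euc k →L[ℝ] Euc n} {P : L k} (hP : IsPr P) (A : L n) :
    |tr (A ∘L Shh κ P)| ≤ ‖A‖ * tr (Shh κ P) := by
  have h1 : ∀ B : L n, tr (B ∘L Shh κ P) =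
      ∑ j, ⟪κ (P (stdVec k j)), B (κ (P (stdVec k j)))⟫_ℝ := by
    intro B
    have h2 : B ∘L Shh κ P = (B ∘L κ ∘L P) ∘L (P ∘L ContinuousLinearMap.adjoint κ) := by
      unfold Shh
      ext v i
      simp only [ContinuousLinearMap.comp_apply]
      have h3 : P (P (ContinuousLinearMap.adjoint κ v)) = P (ContinuousLinearMap.adjoint κ v) :=
        congrArg (fun T : L k => T (ContinuousLinearMap.adjoint κ v)) hP.1
      rw [h3]
    have h4 : tr ((B ∘L κ ∘L P) ∘L (P ∘L ContinuousLinearMap.adjoint κ)) =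
        tr ((P ∘L ContinuousLinearMap.adjoint κ) ∘L (B ∘L κ ∘L P)) := by
      rw [tr_apply, tr_apply]
      exact (LinearMap.trace_comp_comm' (B ∘L κ ∘L P : Euc k →ₗ[ℝ] Euc n)
        (P ∘L ContinuousLinearMap.adjoint κ : Euc n →ₗ[ℝ] Euc k)).symm
    rw [h2, h4, tr_eq_sum]
    refine Finset.sum_congr rfl fun j _ => ?_
    simp only [ContinuousLinearMap.comp_apply]
    have h5 : ⟪stdVec k j, P (ContinuousLinearMap.adjoint κ (B (κ (P (stdVec k j)))))⟫_ℝ =
        ⟪P (stdVec k j), ContinuousLinearMap.adjoint κ (B (κ (P (stdVec k j))))⟫_ℝ := by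
      nth_rewrite 1 [← hP.2]
      rw [ContinuousLinearMap.adjoint_inner_right]
    rw [h5, ContinuousLinearMap.adjoint_inner_right]
  have h2 : tr (Shh κ P) = ∑ j, ‖κ (P (stdVec k j))‖ ^ 2 := by
    have := h1 (ContinuousLinearMap.id ℝ (Euc n))
    rw [ContinuousLinearMap.id_comp] at this
    rw [this]
    refine Finset.sum_congr rfl fun j _ => ?_
    simp only [ContinuousLinearMap.id_apply]
    exact real_inner_self_eq_norm_sq _
  rw [h1 A, h2, Finset.mul_sum]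
  refine (Finset.abs_sum_le_sum_abs _ _).trans (Finset.sum_le_sum fun j _ => ?_)
  calc |⟪κ (P (stdVec k j)), A (κ (P (stdVec k j)))⟫_ℝ|
      ≤ ‖κ (P (stdVec k j))‖ * ‖A (κ (P (stdVec k j)))‖ := abs_real_inner_le_norm _ _
    _ ≤ ‖κ (P (stdVec k j))‖ * (‖A‖ * ‖κ (P (stdVec k j))‖) := by
        gcongr
        exact A.le_opNorm _
    _ = _ := by ring

/-- the set over the ball `‖π p - x‖ < ρ` with heights in a set -/
def Zs (π : Euc k →L[ℝ] Euc m) (κ : Euc k →L[ℝ] Euc n) (x : Euc m) (ρ : ℝ) (Y : Set (Euc n)) :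
    Set (Euc k × L k) := {p | ‖π p.1 - x‖ < ρ ∧ κ p.1 ∈ Y}

lemma measurableSet_Zs (π : Euc k →L[ℝ] Euc m) (κ : Euc k →L[ℝ] Euc n) (x : Euc m) (ρ : ℝ)
    {Y : Set (Euc n)} (hY : MeasurableSet Y) : MeasurableSet (Zs π κ x ρ Y) := by
  refine MeasurableSet.inter ?_ ?_
  · exact measurableSet_lt (((π.continuous.comp continuous_fst).sub
      continuous_const).norm.measurable) measurable_const
  · exact (κ.continuous.measurable.comp measurable_fst) hY

/-- tilt energy over a ball with heights in a set -/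
def enr (V : Measure (Euc k × L k)) (π : Euc k →L[ℝ] Euc m) (κ : Euc k →L[ℝ] Euc n) (x : Euc m)
    (ρ : ℝ) (Y : Set (Euc n)) : ℝ := ∫ p in Zs π κ x ρ Y, tl π p.2 ∂V

variable {π : Euc k →L[ℝ] Euc m} {κ : Euc k →L[ℝ] Euc n} {x : Euc m} {L₀ : ℝ}
  {V : Measure (Euc k × L k)} {g g1 g2 : ℝ → ℝ}

lemma Zs_subset {ρ : ℝ} {Y : Set (Euc n)} {l : ℝ} (hρ : ρ ≤ Real.exp l) :
    Zs π κ x ρ Y ⊆ {p | ‖π p.1 - x‖ ^ 2 < Real.exp (2 * l)} := by
  intro p hp
  have h1 : ‖π p.1 - x‖ < Real.exp l := lt_of_lt_of_le hp.1 hρ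
  have h2 : Real.exp (2 * l) = Real.exp l ^ 2 := by rw [← Real.exp_nat_mul]; norm_num
  simp only [mem_setOf_eq]
  rw [h2]
  exact pow_lt_pow_left₀ h1 (norm_nonneg _) two_ne_zero

lemma integrableOn_tl (h : Fr V π κ x L₀) {S : Set (Euc k × L k)}
    (hS : S ⊆ {p | ‖π p.1 - x‖ ^ 2 < Real.exp (2 * L₀)}) :
    IntegrableOn (fun p => tl π p.2) S V := by
  have hfin : V S < ⊤ := (measure_mono hS).trans_lt h.fin
  refine IntegrableOn.of_bound hfin (aestronglyMeasurable_tl π V).restrict m ?_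
  refine ae_restrict_of_ae ?_
  filter_upwards [h.conc] with p hp
  rw [Real.norm_eq_abs, abs_of_nonneg (tl_nonneg h.sp.hh (isPr_of_G hp))]
  exact tl_le h.sp.hh (isPr_of_G hp)

/-- bound of kernel integrals by the tilt energy -/
lemma abs_ker_le (h : Fr V π κ x L₀) {l : ℝ} (hl : l ≤ L₀) {Y : Set (Euc n)}
    (hY : MeasurableSet Y) {f : Euc k × L k → ℝ} {C : ℝ} (hC : 0 ≤ C)
    (hf : ∀ p, p.2 ∈ G m k → |f p| ≤ C * (Zs π κ x (Real.exp l) Y).indicator
      (fun p => tl π p.2) p) :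
    |∫ p, f p ∂V| ≤ C * enr V π κ x (Real.exp l) Y := by
  have hS := measurableSet_Zs π κ x (Real.exp l) hY
  have hint : Integrable ((Zs π κ x (Real.exp l) Y).indicator (fun p => tl π p.2)) V := by
    rw [integrable_indicator_iff hS]
    exact integrableOn_tl h ((Zs_subset le_rfl).trans fun p hp => by
      simp only [mem_setOf_eq] at hp ⊢
      exact hp.trans_le (Real.exp_le_exp.2 (by linarith)))
  have h1 : ‖∫ p, f p ∂V‖ ≤ ∫ p, C * (Zs π κ x (Real.exp l) Y).indicator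
      (fun p => tl π p.2) p ∂V := by
    refine norm_integral_le_of_norm_le (hint.const_mul C) ?_
    filter_upwards [h.conc] with p hp
    exact hf p hp
  rw [integral_const_mul, integral_indicator hS] at h1
  exact h1

end Crest.Agent.R234.We_822
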