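import Crest.Agent.R234.Well3_761
import Crest.Agent.R234.Vit1_534

/-!
Row 234 (helper822), VF-CROSS part 2: the crossing lemma over the abstract height flow of
helper761 (`nu`), and the content of the crossing set (with `proj_le` of helper534).
-/

set_option autoImplicit false
set_option linter.unusedSectionVars false

open Set Filter Topology MeasureTheory Metric
open scoped ContDiff InnerProductSpace ENNReal NNReal
open Crest.Agent.R234.Well_761

noncomputable section

namespace Crest.Agent.R234.We_822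

/-- from a change between two scales to one scale with much energy -/
lemma exists_scale_add {nu φ : ℝ → ℝ} {l1 l2 A ε c : ℝ} (h12 : l1 ≤ l2) (hA : 0 < A) (hε : 0 ≤ ε)
    (hd : ∀ l ∈ Icc l1 l2, ∃ d, HasDerivAt nu d l ∧ |d| ≤ A * φ l + ε)
    (hc : 0 < c) (hnu : c ≤ |nu l2 - nu l1|) (hεc : ε * (l2 - l1) ≤ c / 4) :
    ∃ l ∈ Icc l1 l2, c / (2 * A * (1 + (l2 - l1))) ≤ φ l := by
  by_contra hcon
  push Not at hcon
  set T := l2 - l1 with hT
  have hT0 : 0 ≤ T := by linarith
  have hb : ∀ l ∈ Icc l1 l2, ∃ d, HasDerivAt nu d l ∧ ‖d‖ ≤ c / (2 * (1 + T)) + ε := by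
    intro l hl
    obtain ⟨d, h1, h2⟩ := hd l hl
    refine ⟨d, h1, ?_⟩
    have h3 := (hcon l hl).le
    have h4 : A * φ l ≤ c / (2 * (1 + T)) := by
      have h5 := mul_le_mul_of_nonneg_left h3 hA.le
      refine h5.trans (le_of_eq ?_)
      field_simp
    rw [Real.norm_eq_abs]
    linarith
  have hd1 : ∀ l ∈ Icc l1 l2, HasDerivWithinAt nu (deriv nu l) (Icc l1 l2) l := by
    intro l hl
    obtain ⟨d, h1, -⟩ := hb l hl
    rw [h1.deriv]
    exact h1.hasDerivWithinAt
  have hd2 : ∀ l ∈ Icc l1 l2, ‖deriv nu l‖ ≤ c / (2 * (1 + T)) + ε := by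
    intro l hl
    obtain ⟨d, h1, h2⟩ := hb l hl
    rw [h1.deriv]
    exact h2
  have h1 := (convex_Icc l1 l2).norm_image_sub_le_of_norm_hasDerivWithin_le hd1 hd2
    (left_mem_Icc.2 h12) (right_mem_Icc.2 h12)
  rw [Real.norm_eq_abs, Real.norm_eq_abs, ← hT, abs_of_nonneg hT0, add_mul] at h1
  have h2 : c / (2 * (1 + T)) * T ≤ c / 2 := by
    rw [div_mul_eq_mul_div, div_le_div_iff₀ (by positivity) two_pos]
    nlinarith
  linarith

variable {H : Type*} [PseudoMetricSpace H] [MeasurableSpace H] [OpensMeasurableSpace H]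
variable {W : Type*} [NormedAddCommGroup W] [InnerProductSpace ℝ W] [MeasurableSpace W]
  [OpensMeasurableSpace W]

/-- the test bump `top - well` -/
def topF (p : W) (q : ℝ) (y : W) : ℝ := wellTop q - well p q y

lemma topF_nonneg (p : W) (q : ℝ) (y : W) : 0 ≤ topF p q y := sub_nonneg.2 (well_le_top p q y)

lemma topF_le (p : W) (q : ℝ) (y : W) : topF p q y ≤ q ^ 2 / 32 := by
  have h1 := well_nonneg p q y
  have h2 := wellTop_le q
  unfold topF
  linarith

lemma topF_abs_le (p : W) (q : ℝ) (y : W) : |topF p q y| ≤ q ^ 2 := by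
  rw [abs_of_nonneg (topF_nonneg p q y)]
  have := topF_le p q y
  nlinarith [sq_nonneg q]

lemma topF_eq_zero {p : W} {q : ℝ} (hq : 0 < q) {y : W} (hy : y ∉ ball p (q / 4)) :
    topF p q y = 0 := by
  unfold topF
  rw [well_eq_top hq, sub_self]
  rw [mem_ball, dist_eq_norm, not_lt] at hy
  exact hy

lemma topF_ge {p : W} {q : ℝ} (hq : 0 < q) {y : W} (hy : y ∈ closedBall p (q / 16)) :
    q ^ 2 * (3 / 512) ≤ topF p q y := by
  rw [mem_closedBall, dist_eq_norm] at hy
  exact top_sub_well_ge hq hy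

lemma topF_measurable (p : W) (q : ℝ) : Measurable (topF p q) :=
  (continuous_const.sub (well_contDiff p q).continuous).measurable

variable {m : ℕ} {κ : ℝ → ℝ} {Kκ cκ : ℝ} {mu en : Measure (H × W)}

/-- **(A) crossing lemma**: a support point `(x, p)` with the lower density bound whose
neighbourhood of heights carries little mass at scale `s` sees, at one scale between `q / 4` and
`s`, the tilt energy `c q² / (1 + log (4 s / q))` at heights within `q / 4` of `p`. -/
theorem crossing (hκ : Ker κ Kκ cκ) {x : H} {p : W} {q s K c0 c1 er : ℝ} (hq : 0 < q)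
    (hqs : q / 4 ≤ s) (hK : 0 < K) (hc0 : 0 < c0) (hm : 2 ≤ m) (hc10 : 0 ≤ c1)
    (hfin : mu (cyl x s univ) ≠ ⊤)
    (hlow : ENNReal.ofReal (c0 * (q / 16) ^ m) ≤ mu (cyl x (q / 16) (closedBall p (q / 16))))
    (hup : mu (cyl x s (ball p (q / 4))) ≤ ENNReal.ofReal (c1 * s ^ m))
    (hc1 : Kκ * c1 / 32 ≤ 3 / 1024 * cκ * (c0 / 4 ^ m)) (her0 : 0 ≤ er)
    (hflow : ∀ l ∈ Icc (Real.log (q / 4)) (Real.log s),
      ∃ d, HasDerivAt (fun l => nu m κ mu x l (topF p q)) d l ∧
        |d| ≤ K * (Real.exp (2 * l) + q ^ 2) * Real.exp (-(m * l)) *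
          (en (cyl x (Real.exp l) (ball p (q / 4)))).toReal + er)
    (her : er * Real.log (4 * s / q) ≤ 3 / 4096 * cκ * (c0 / 4 ^ m) * q ^ 2) :
    ∃ ρ, q / 4 ≤ ρ ∧ ρ ≤ s ∧
      (3 / 1024 * cκ * (c0 / 4 ^ m) / (34 * K)) * q ^ 2 / (1 + Real.log (4 * s / q)) *
        ρ ^ (m - 2) ≤ (en (cyl x ρ (ball p (q / 4)))).toReal := by
  have hs0 : 0 < s := by linarith
  set l1 := Real.log (q / 4) with hl1
  set l2 := Real.log s with hl2
  have he1 : Real.exp l1 = q / 4 := Real.exp_log (by positivity)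
  have he2 : Real.exp l2 = s := Real.exp_log hs0
  have h12 : l1 ≤ l2 := Real.log_le_log (by positivity) hqs
  have hlog : l2 - l1 = Real.log (4 * s / q) := by
    rw [hl2, hl1, ← Real.log_div hs0.ne' (by positivity)]
    congr 1
    field_simp
  set b := 3 / 512 * cκ * (c0 / 4 ^ m) * q ^ 2 with hb
  have hcκ := hκ.cpos
  have hbpos : 0 < b := by positivity
  -- bottom
  have hbot : b ≤ nu m κ mu x l1 (topF p q) := by
    have hf1 : mu (cyl x (Real.exp l1) univ) ≠ ⊤ := by
      refine ne_top_of_le_ne_top hfin (measure_mono (prod_mono ?_ le_rfl))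
      rw [he1]
      exact closedBall_subset_closedBall hqs
    have h1 := nu_ge (m := m) hκ (x := x) (x' := x) (p := p) (l := l1) (topF_measurable p q)
      (topF_abs_le p q) (topF_nonneg p q) (b := q ^ 2 * (3 / 512)) (by positivity)
      (fun y hy => topF_ge hq (by
        rw [he1] at hy
        have : q / 4 / 4 = q / 16 := by ring
        rwa [this] at hy)) (by rw [dist_self]; positivity) (c0 := c0) hc0.le hf1 (by
        rw [he1]
        have : q / 4 / 4 = q / 16 := by ring
        rw [this]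
        exact hlow)
    refine le_trans (le_of_eq ?_) h1
    rw [hb]
    ring
  -- top
  have htop : nu m κ mu x l2 (topF p q) ≤ b / 2 := by
    have hf2 : mu (cyl x (Real.exp l2) univ) ≠ ⊤ := by rw [he2]; exact hfin
    have hBm : MeasurableSet (cyl x s (ball p (q / 4))) := cyl_meas _ _ measurableSet_ball
    have hBfin : mu (cyl x s (ball p (q / 4))) ≠ ⊤ :=
      ne_top_of_le_ne_top ENNReal.ofReal_ne_top hup
    have h1 : ∫ z, κ (dist z.1 x * Real.exp (-l2)) * topF p q z.2 ∂mu ≤
        ∫ z in cyl x s (ball p (q / 4)), (Kκ * (q ^ 2 / 32)) ∂mu := by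
      rw [← integral_indicator hBm]
      refine integral_mono (kerF_integrable hκ (topF_measurable p q) (topF_abs_le p q) hf2) ?_ ?_
      · exact (integrableOn_const hBfin).integrable_indicator hBm
      · intro z
        simp only
        by_cases hz : z ∈ cyl x s (ball p (q / 4))
        · rw [indicator_of_mem hz]
          exact mul_le_mul (hκ.le _) (topF_le p q _) (topF_nonneg p q _) hκ.Kpos.le
        · rw [indicator_of_notMem hz]
          by_cases hz2 : z.2 ∈ ball p (q / 4)
          · have hz1 : z ∉ cyl x (Real.exp l2) (univ : Set W) := by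
              rw [he2]
              intro h
              exact hz ⟨h.1, hz2⟩
            rw [ker_zero hκ hz1, zero_mul]
          · rw [topF_eq_zero hq hz2, mul_zero]
    rw [setIntegral_const, smul_eq_mul] at h1
    have h2 : (mu.real (cyl x s (ball p (q / 4)))) ≤ c1 * s ^ m := by
      have := ENNReal.toReal_mono ENNReal.ofReal_ne_top hup
      rwa [ENNReal.toReal_ofReal (by positivity)] at this
    have h3 : Real.exp (-(m * l2)) * s ^ m = 1 := by
      rw [← he2, ← Real.exp_nat_mul, ← Real.exp_add]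
      simp
    unfold nu
    calc Real.exp (-(m * l2)) * ∫ z, κ (dist z.1 x * Real.exp (-l2)) * topF p q z.2 ∂mu
        ≤ Real.exp (-(m * l2)) * ((c1 * s ^ m) * (Kκ * (q ^ 2 / 32))) := by
          refine mul_le_mul_of_nonneg_left (h1.trans ?_) (Real.exp_pos _).le
          have := hκ.Kpos
          exact mul_le_mul_of_nonneg_right h2 (by positivity)
      _ = (Real.exp (-(m * l2)) * s ^ m) * (Kκ * c1 / 32) * q ^ 2 := by ring
      _ = (Kκ * c1 / 32) * q ^ 2 := by rw [h3, one_mul]
      _ ≤ (3 / 1024 * cκ * (c0 / 4 ^ m)) * q ^ 2 := by gcongr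
      _ = b / 2 := by rw [hb]; ring
  -- one scale
  set φ : ℝ → ℝ := fun l => Real.exp ((2 - m) * l) *
    (en (cyl x (Real.exp l) (ball p (q / 4)))).toReal with hφ
  have hφ0 : ∀ l, 0 ≤ φ l := fun l => mul_nonneg (Real.exp_pos _).le ENNReal.toReal_nonneg
  have hdd : ∀ l ∈ Icc l1 l2, ∃ d, HasDerivAt (fun l => nu m κ mu x l (topF p q)) d l ∧
      |d| ≤ (17 * K) * φ l + er := by
    intro l hl
    obtain ⟨d, h1, h2⟩ := hflow l hl
    refine ⟨d, h1, h2.trans ?_⟩
    have h3 : q ^ 2 ≤ 16 * Real.exp (2 * l) := by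
      have h4 : q / 4 ≤ Real.exp l := by rw [← he1]; exact Real.exp_le_exp.2 hl.1
      have h5 : Real.exp (2 * l) = Real.exp l ^ 2 := by rw [← Real.exp_nat_mul]; norm_num
      rw [h5]
      nlinarith
    have h4 : K * (Real.exp (2 * l) + q ^ 2) * Real.exp (-(m * l)) *
        (en (cyl x (Real.exp l) (ball p (q / 4)))).toReal ≤ 17 * K * φ l := by
      have h5 : Real.exp ((2 - m) * l) = Real.exp (2 * l) * Real.exp (-(m * l)) := by
        rw [← Real.exp_add]; congr 1; ring
      simp only [hφ]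
      rw [h5]
      have h6 : K * (Real.exp (2 * l) + q ^ 2) ≤ 17 * K * Real.exp (2 * l) := by nlinarith
      calc K * (Real.exp (2 * l) + q ^ 2) * Real.exp (-(m * l)) *
            (en (cyl x (Real.exp l) (ball p (q / 4)))).toReal
          ≤ (17 * K * Real.exp (2 * l)) * Real.exp (-(m * l)) *
            (en (cyl x (Real.exp l) (ball p (q / 4)))).toReal := by gcongr
        _ = _ := by ring
    linarith
  obtain ⟨l, hl, hge⟩ := exists_scale_add h12 (by positivity : 0 < 17 * K) her0 hdd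
    (by positivity : 0 < b / 2) (by
      have : b / 2 ≤ nu m κ mu x l1 (topF p q) - nu m κ mu x l2 (topF p q) := by linarith
      refine this.trans ?_
      rw [abs_sub_comm]
      exact le_abs_self _) (by
      rw [hlog]
      refine her.trans (le_of_eq ?_)
      rw [hb]; ring)
  refine ⟨Real.exp l, ?_, ?_, ?_⟩
  · rw [← he1]; exact Real.exp_le_exp.2 hl.1
  · rw [← he2]; exact Real.exp_le_exp.2 hl.2
  · rw [hlog] at hge
    have hpow : Real.exp ((2 - m) * l) * Real.exp l ^ (m - 2) = 1 := by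
      rw [← Real.exp_nat_mul, ← Real.exp_add, Nat.cast_sub hm]
      push_cast
      rw [show (2 - (m:ℝ)) * l + ((m:ℝ) - 2) * l = 0 by ring, Real.exp_zero]
    have h1 : (3 / 1024 * cκ * (c0 / 4 ^ m) / (34 * K)) * q ^ 2 / (1 + Real.log (4 * s / q)) =
        b / 2 / (2 * (17 * K) * (1 + Real.log (4 * s / q))) := by
      rw [hb]
      field_simp
      ring
    rw [h1]
    have h2 := mul_le_mul_of_nonneg_right hge (by positivity : 0 ≤ Real.exp l ^ (m - 2))
    refine h2.trans (le_of_eq ?_)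
    simp only [hφ]
    calc Real.exp ((2 - m) * l) * (en (cyl x (Real.exp l) (ball p (q / 4)))).toReal *
          Real.exp l ^ (m - 2)
        = (Real.exp ((2 - m) * l) * Real.exp l ^ (m - 2)) *
          (en (cyl x (Real.exp l) (ball p (q / 4)))).toReal := by ring
      _ = _ := by rw [hpow, one_mul]

/-- heights away from the wells -/
def away (C : Set W) (r : ℝ) : Set W := {y | ∀ c ∈ C, r ≤ ‖y - c‖}

lemma isClosed_away (C : Set W) (r : ℝ) : IsClosed (away C r) := by
  have : away C r = ⋂ c ∈ C, {y | r ≤ ‖y - c‖} := by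
    ext y; simp [away]
  rw [this]
  exact isClosed_biInter fun c _ =>
    isClosed_le continuous_const ((continuous_id.sub continuous_const).norm)

lemma measurableSet_away (C : Set W) (r : ℝ) : MeasurableSet (away C r) :=
  (isClosed_away C r).measurableSet

lemma ball_subset_away {C : Set W} {q : ℝ} {p : W} (hp : p ∈ away C q) :
    ball p (q / 4) ⊆ away C (3 * q / 4) := by
  intro y hy c hc
  rw [mem_ball, dist_eq_norm] at hy
  have h1 := hp c hc
  have h2 : ‖p - c‖ ≤ ‖y - p‖ + ‖y - c‖ := by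
    have : p - c = (y - c) - (y - p) := by abel
    rw [this, add_comm]
    exact norm_sub_le _ _
  linarith

/-- the crossing set: base points over `closedBall x₀ s` of support points with heights at
distance at least `q` from the wells -/
def crossSet (T : Set (H × W)) (x₀ : H) (s : ℝ) (C : Set W) (q : ℝ) : Set H :=
  {x | x ∈ closedBall x₀ s ∧ ∃ p, (x, p) ∈ T ∧ p ∈ away C q}

/-- the constant of the crossing lemma -/
def cX (m : ℕ) (cκ c0 K : ℝ) : ℝ := 3 / 1024 * cκ * (c0 / 4 ^ m) / (34 * K)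

/-- **content of the crossing set** (N7): its Lipschitz images of dimension `m - 2` are small -/
theorem crossing_content {L : Type*} [NormedAddCommGroup L] [NormedSpace ℝ L]
    [FiniteDimensional ℝ L] [MeasurableSpace L] [BorelSpace L] [SecondCountableTopology H]
    (ν : Measure L) [ν.IsAddHaarMeasure] (hL : Module.finrank ℝ L + 2 = m)
    (hκ : Ker κ Kκ cκ) {x₀ : H} {C : Set W} {T : Set (H × W)} {q s K c0 c1 er : ℝ} (hq : 0 < q)
    (hqs : q / 4 ≤ s) (hK : 0 < K) (hc0 : 0 < c0) (hc10 : 0 ≤ c1)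
    (hfin : mu (cyl x₀ (2 * s) univ) ≠ ⊤) (hfinE : en (cyl x₀ (2 * s) univ) ≠ ⊤)
    (hlow : ∀ x ∈ closedBall x₀ s, ∀ p, (x, p) ∈ T → p ∈ away C q →
      ENNReal.ofReal (c0 * (q / 16) ^ m) ≤ mu (cyl x (q / 16) (closedBall p (q / 16))))
    (hup : mu (cyl x₀ (2 * s) (away C (3 * q / 4))) ≤ ENNReal.ofReal (c1 * s ^ m))
    (hc1 : Kκ * c1 / 32 ≤ 3 / 1024 * cκ * (c0 / 4 ^ m)) (her0 : 0 ≤ er)
    (hflow : ∀ x ∈ closedBall x₀ s, ∀ p ∈ away C q,
      ∀ l ∈ Icc (Real.log (q / 4)) (Real.log s),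
      ∃ d, HasDerivAt (fun l => nu m κ mu x l (topF p q)) d l ∧
        |d| ≤ K * (Real.exp (2 * l) + q ^ 2) * Real.exp (-(m * l)) *
          (en (cyl x (Real.exp l) (ball p (q / 4)))).toReal + er)
    (her : er * Real.log (4 * s / q) ≤ 3 / 4096 * cκ * (c0 / 4 ^ m) * q ^ 2)
    {Kπ : ℝ≥0} {π : H → L} (hπ : LipschitzWith Kπ π) :
    ENNReal.ofReal (cX m cκ c0 K * q ^ 2 / (1 + Real.log (4 * s / q))) *
        ν (π '' crossSet T x₀ s C q) ≤
      ENNReal.ofReal ((5 * Kπ) ^ (m - 2)) * ν (ball 0 1) *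
        en (cyl x₀ (2 * s) (away C (3 * q / 4))) := by
  have hs0 : 0 < s := by linarith
  have hm2 : 2 ≤ m := by omega
  have hmd : Module.finrank ℝ L = m - 2 := by omega
  have hbm : ∀ x ∈ closedBall x₀ s, closedBall x s ⊆ closedBall x₀ (2 * s) := by
    intro x hx
    refine closedBall_subset_closedBall' ?_
    rw [mem_closedBall] at hx
    linarith
  have key : ∀ x ∈ crossSet T x₀ s C q, ∃ ρ, q / 4 ≤ ρ ∧ ρ ≤ s ∧
      ENNReal.ofReal (cX m cκ c0 K * q ^ 2 / (1 + Real.log (4 * s / q))) *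
        ENNReal.ofReal (ρ ^ (m - 2)) ≤ en (cyl x ρ (away C (3 * q / 4))) := by
    rintro x ⟨hx, p, hpT, hp⟩
    have hsub : cyl x s (ball p (q / 4)) ⊆ cyl x₀ (2 * s) (away C (3 * q / 4)) :=
      prod_mono (hbm x hx) (ball_subset_away hp)
    obtain ⟨ρ, h1, h2, h3⟩ := crossing (m := m) (mu := mu) (en := en) hκ (x := x) (p := p) hq hqs
      hK hc0 hm2 hc10 (ne_top_of_le_ne_top hfin (measure_mono (prod_mono (hbm x hx) le_rfl)))
      (hlow x hx p hpT hp) ((measure_mono hsub).trans hup) hc1 her0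
      (hflow x hx p hp) her
    refine ⟨ρ, h1, h2, ?_⟩
    have hρ0 : 0 < ρ := by linarith
    have hfin2 : en (cyl x ρ (ball p (q / 4))) ≠ ⊤ :=
      ne_top_of_le_ne_top hfinE (measure_mono (prod_mono
        ((closedBall_subset_closedBall h2).trans (hbm x hx)) (subset_univ _)))
    have hlog0 : 0 ≤ Real.log (4 * s / q) := by
      refine Real.log_nonneg ?_
      rw [le_div_iff₀ hq]
      linarith
    rw [← ENNReal.ofReal_mul (by
      have := hκ.cpos
      unfold cX
      positivity)]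
    calc ENNReal.ofReal (cX m cκ c0 K * q ^ 2 / (1 + Real.log (4 * s / q)) * ρ ^ (m - 2))
        ≤ ENNReal.ofReal ((en (cyl x ρ (ball p (q / 4)))).toReal) :=
          ENNReal.ofReal_le_ofReal h3
      _ = en (cyl x ρ (ball p (q / 4))) := ENNReal.ofReal_toReal hfin2
      _ ≤ _ := measure_mono (prod_mono le_rfl (ball_subset_away hp))
  choose! ρ hρ1 hρ2 hρ3 using key
  have hf : ∀ x r, ((en.restrict (univ ×ˢ away C (3 * q / 4))).map Prod.fst) (closedBall x r) =
      en (cyl x r (away C (3 * q / 4))) := by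
    intro x r
    rw [Measure.map_apply measurable_fst measurableSet_closedBall,
      Measure.restrict_apply (measurable_fst measurableSet_closedBall)]
    congr 1
    ext z
    simp [cyl]
  have h := Vit_534.proj_le ν ((en.restrict (univ ×ˢ away C (3 * q / 4))).map Prod.fst)
    (crossSet T x₀ s C q) (closedBall x₀ (2 * s)) ρ s hρ2
    (fun x hx => by have := hρ1 x hx; linarith)
    (ENNReal.ofReal (cX m cκ c0 K * q ^ 2 / (1 + Real.log (4 * s / q))))
    (fun x hx => by rw [hf, hmd]; exact hρ3 x hx)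
    (fun x hx => (closedBall_subset_closedBall (hρ2 x hx)).trans (hbm x hx.1)) Kπ π hπ
  rw [hf, hmd] at h
  exact h

end Crest.Agent.R234.We_822
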