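import Crest.Agent.R234.We3_822
import Crest.Agent.R234.We4_822
import Crest.Agent.R234.Cy6_870

/-!
Row 234 (helper822), VF-CROSS part 3: (X3) the crossing energy `e - e_F` is carried by the
crossing set, on the quantities `ee`, `eF` of helper870.
-/

set_option autoImplicit false

open MeasureTheory Set Function Filter Topology
open Crest.GeometryTopology.Submanifold
open Crest.Agent.R234.Vf_884 Crest.Agent.R234.Ar_870 Crest.Agent.R234.Cy_870
open scoped ENNReal NNReal InnerProductSpace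

noncomputable section

namespace Crest.Agent.R234.We_822

variable {m n k : ℕ}

/-- trace against `S_vv` as a sum of squares -/
lemma tr_comp_Shh {κ : Euc k →L[ℝ] Euc n} {P : L k} (hP : IsPr P) (B : L n) :
    tr (B ∘L Shh κ P) = ∑ j, ⟪κ (P (stdVec k j)), B (κ (P (stdVec k j)))⟫_ℝ := by
  have h2 : B ∘L Shh κ P = (B ∘L κ ∘L P) ∘L (P ∘L ContinuousLinearMap.adjoint κ) := by
    unfold Shh
    ext v i
    simp only [ContinuousLinearMap.comp_apply]
    have h3 : P (P (ContinuousLinearMap.adjoint κ v)) = P (ContinuousLinearMap.adjoint κ v) :=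
      congrArg (fun T : L k => T (ContinuousLinearMap.adjoint κ v)) hP.1
    rw [h3]
  have h4 : tr ((B ∘L κ ∘L P) ∘L (P ∘L ContinuousLinearMap.adjoint κ)) =
      tr ((P ∘L ContinuousLinearMap.adjoint κ) ∘L (B ∘L κ ∘L P)) := by
    rw [tr_apply, tr_apply]
    exact (LinearMap.trace_comp_comm' (B ∘L κ ∘L P : Euc k →ₗ[ℝ] Euc n)
      (P ∘L ContinuousLinearMap.adjoint κ : Euc n →ₗ[ℝ] Euc k)).symm
  rw [h2, h4, tr_eq_sum]
  refine Finset.sum_congr rfl fun j _ => ?_
  simp only [ContinuousLinearMap.comp_apply]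
  have h5 : ⟪stdVec k j, P (ContinuousLinearMap.adjoint κ (B (κ (P (stdVec k j)))))⟫_ℝ =
      ⟪P (stdVec k j), ContinuousLinearMap.adjoint κ (B (κ (P (stdVec k j))))⟫_ℝ := by
    nth_rewrite 1 [← hP.2]
    rw [ContinuousLinearMap.adjoint_inner_right]
  rw [h5, ContinuousLinearMap.adjoint_inner_right]

/-- positivity of the trace against `S_vv` -/
lemma tr_comp_Shh_nonneg {κ : Euc k →L[ℝ] Euc n} {P : L k} (hP : IsPr P) {B : L n}
    (hB : ∀ v, 0 ≤ ⟪B v, v⟫_ℝ) : 0 ≤ tr (B ∘L Shh κ P) := by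
  rw [tr_comp_Shh hP]
  refine Finset.sum_nonneg fun j _ => ?_
  rw [real_inner_comm]
  exact hB _

variable {π : Euc k →L[ℝ] Euc m} {κ : Euc k →L[ℝ] Euc n} {x : Euc m} {L₀ : ℝ}
  {V : Measure (Euc k × L k)} {g g1 g2 : ℝ → ℝ}

/-- the difference of the tilt energy and the well energy as one integral -/
lemma ee_sub_eF (h : Fr V π κ x L₀) {H : Euc n → L n} (hHc : Continuous H) {KH : ℝ}
    (hHb : ∀ y, ‖ContinuousLinearMap.id ℝ (Euc n) - H y‖ ≤ KH) (hg : Ker g g1) {l : ℝ}
    (hl : l ≤ L₀) :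
    ee V π x g l - eF V π κ x H g l = Real.exp ((2 - m) * l) *
      ∫ p, tr ((ContinuousLinearMap.id ℝ (Euc n) - H (κ p.1)) ∘L Shh κ p.2) *
        g (Real.exp (-2 * l) * ‖π p.1 - x‖ ^ 2) ∂V := by
  have hKH : 0 ≤ KH := (norm_nonneg _).trans (hHb 0)
  have hb : ∀ᵐ p ∂V, ‖π p.1 - x‖ ^ 2 < Real.exp (2 * L₀) →
      |tr ((ContinuousLinearMap.id ℝ (Euc n) - H (κ p.1)) ∘L Shh κ p.2)| ≤ KH * m := by
    filter_upwards [h.conc] with p hp _
    refine (abs_tr_comp_Shh_le (isPr_of_G hp) _).trans ?_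
    rw [tr_Svv h.sp hp]
    exact mul_le_mul (hHb _) (tl_le h.sp.hh (isPr_of_G hp))
      (tl_nonneg h.sp.hh (isPr_of_G hp)) hKH
  have hc1 : Continuous fun p : Euc k × L k => Shh κ p.2 := (continuous_Shh κ).comp continuous_snd
  have hc2 : Continuous fun p : Euc k × L k =>
      tr ((ContinuousLinearMap.id ℝ (Euc n) - H (κ p.1)) ∘L Shh κ p.2) :=
    tr.continuous.comp ((continuous_const.sub
      (hHc.comp (κ.continuous.comp continuous_fst))).clm_comp hc1)
  have i1 := h.integrable_c (aestronglyMeasurable_tl π V) h.tl_bound hg hl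
  have i2 := h.integrable_c hc2.aestronglyMeasurable hb hg hl
  have i3 : Integrable (fun p : Euc k × L k => tr (H (κ p.1) ∘L Shh κ p.2) *
      g (Real.exp (-2 * l) * ‖π p.1 - x‖ ^ 2)) V := by
    have h3 := i1.sub i2
    refine h3.congr ?_
    filter_upwards [h.conc] with p hp
    simp only [Pi.sub_apply]
    rw [ContinuousLinearMap.sub_comp, map_sub, ContinuousLinearMap.id_comp, tr_Svv h.sp hp]
    ring
  unfold ee eF
  rw [← mul_sub, ← integral_sub i1 i3]
  congr 1
  refine integral_congr_ae ?_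
  filter_upwards [h.conc] with p hp
  rw [ContinuousLinearMap.sub_comp, map_sub, ContinuousLinearMap.id_comp, tr_Svv h.sp hp]
  ring

/-- **(X3)** the crossing energy is nonnegative and at most a constant times the tilt energy of the
part of `V` with heights away from the wells -/
theorem crossing_energy (h : Fr V π κ x L₀) {H : Euc n → L n} (hHc : Continuous H) {KH : ℝ}
    (hHb : ∀ y, ‖ContinuousLinearMap.id ℝ (Euc n) - H y‖ ≤ KH)
    (hH0 : ∀ y v, ⟪H y v, v⟫_ℝ ≤ ‖v‖ ^ 2) {Y : Set (Euc n)} (hY : MeasurableSet Y)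
    (hHY : ∀ y, y ∉ Y → H y = ContinuousLinearMap.id ℝ (Euc n))
    (hg : Ker g g1) (hg0 : ∀ t, 0 ≤ t → 0 ≤ g t) {Kg : ℝ} (hKg : ∀ t, 0 ≤ t → g t ≤ Kg) {l : ℝ}
    (hl : l ≤ L₀) :
    0 ≤ ee V π x g l - eF V π κ x H g l ∧
      ee V π x g l - eF V π κ x H g l ≤
        Real.exp ((2 - m) * l) * (KH * Kg * enr V π κ x (Real.exp l) Y) := by
  have hKH : 0 ≤ KH := (norm_nonneg _).trans (hHb 0)
  have hKg0 : 0 ≤ Kg := (hg0 0 le_rfl).trans (hKg 0 le_rfl)
  rw [ee_sub_eF h hHc hHb hg hl]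
  constructor
  · refine mul_nonneg (Real.exp_pos _).le (integral_nonneg_of_ae ?_)
    filter_upwards [h.conc] with p hp
    refine mul_nonneg (tr_comp_Shh_nonneg (isPr_of_G hp) fun v => ?_) (hg0 _ (by positivity))
    rw [ContinuousLinearMap.sub_apply, inner_sub_left, ContinuousLinearMap.id_apply,
      real_inner_self_eq_norm_sq]
    linarith [hH0 (κ p.1) v]
  · refine mul_le_mul_of_nonneg_left ((le_abs_self _).trans ?_) (Real.exp_pos _).le
    refine abs_ker_le h hl hY (by positivity) fun p hp => ?_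
    have ht := tl_nonneg h.sp.hh (isPr_of_G hp)
    by_cases hz : p ∈ Zs π κ x (Real.exp l) Y
    · rw [indicator_of_mem hz, abs_mul]
      have h1 := abs_tr_comp_Shh_le (κ := κ) (isPr_of_G hp)
        (ContinuousLinearMap.id ℝ (Euc n) - H (κ p.1))
      rw [tr_Svv h.sp hp] at h1
      have h2 : |g (Real.exp (-2 * l) * ‖π p.1 - x‖ ^ 2)| ≤ Kg := by
        rw [abs_of_nonneg (hg0 _ (by positivity))]
        exact hKg _ (by positivity)
      calc _ ≤ (‖ContinuousLinearMap.id ℝ (Euc n) - H (κ p.1)‖ * tl π p.2) * Kg :=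
            mul_le_mul h1 h2 (abs_nonneg _) (by positivity)
        _ ≤ (KH * tl π p.2) * Kg := by
            gcongr
            exact hHb _
        _ = _ := by ring
    · rw [indicator_of_notMem hz, mul_zero]
      have h0 : tr ((ContinuousLinearMap.id ℝ (Euc n) - H (κ p.1)) ∘L Shh κ p.2) *
          g (Real.exp (-2 * l) * ‖π p.1 - x‖ ^ 2) = 0 := by
        by_cases hy : κ p.1 ∈ Y
        · have hx : ¬ ‖π p.1 - x‖ < Real.exp l := fun hlt => hz ⟨hlt, hy⟩
          have h1 : (1:ℝ) ≤ Real.exp (-2 * l) * ‖π p.1 - x‖ ^ 2 := Ker.one_le_of x (not_lt.1 hx)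
          rw [hg.zero _ h1, mul_zero]
        · rw [hHY _ hy, sub_self, ContinuousLinearMap.zero_comp, map_zero, zero_mul]
      rw [h0, abs_zero]

/-- the tilt energy measure on the base (heights in `Y`) -/
def enM (V : Measure (Euc k × L k)) (π : Euc k →L[ℝ] Euc m) : Measure (Euc m) :=
  (V.withDensity fun p => ENNReal.ofReal (tl π p.2)).map fun p => π p.1

/-- the energy at heights in `Y` is at most the energy of `V` over any base set that contains all
base points of support points with heights in `Y` -/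
theorem enr_le_enM (h : Fr V π κ x L₀) {l : ℝ} (hl : l ≤ L₀) {Y : Set (Euc n)}
    (hY : MeasurableSet Y) {N : Set (Euc m)}
    (hN : ∀ᵐ p ∂V, p ∈ Zs π κ x (Real.exp l) Y → π p.1 ∈ N) :
    ENNReal.ofReal (enr V π κ x (Real.exp l) Y) ≤ enM V π N := by
  have hS := measurableSet_Zs π κ x (Real.exp l) hY
  have hsub : Zs π κ x (Real.exp l) Y ⊆ {p | ‖π p.1 - x‖ ^ 2 < Real.exp (2 * L₀)} :=
    (Zs_subset le_rfl).trans fun p hp => by
      simp only [mem_setOf_eq] at hp ⊢
      exact hp.trans_le (Real.exp_le_exp.2 (by linarith))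
  have hπm : Measurable fun p : Euc k × L k => π p.1 := π.continuous.measurable.comp measurable_fst
  -- measurable hull of `N`
  set N' := toMeasurable (enM V π) N with hN'
  have hN'm : MeasurableSet N' := measurableSet_toMeasurable _ _
  have h1 : enM V π N = enM V π N' := (measure_toMeasurable N).symm
  rw [h1]
  unfold enM
  rw [Measure.map_apply hπm hN'm, withDensity_apply _ (hπm hN'm)]
  have h2 : ENNReal.ofReal (enr V π κ x (Real.exp l) Y) =
      ∫⁻ p in Zs π κ x (Real.exp l) Y, ENNReal.ofReal (tl π p.2) ∂V := by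
    unfold enr
    refine ofReal_integral_eq_lintegral_ofReal (integrableOn_tl h hsub) ?_
    refine ae_restrict_of_ae ?_
    filter_upwards [h.conc] with p hp
    exact tl_nonneg h.sp.hh (isPr_of_G hp)
  rw [h2]
  refine lintegral_mono_set' ?_
  filter_upwards [hN] with p hp hpz
  exact subset_toMeasurable _ _ (hp hpz)

end Crest.Agent.R234.We_822
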