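import Crest.Agent.R234.We4_822

/-!
Row 234 (helper822), VF-CROSS part 4: the mass at heights away from the wells is controlled by the
well height `nu (wells C q)`, and N7 in terms of the well height.
-/

set_option autoImplicit false
set_option linter.unusedSectionVars false

open Set Filter Topology MeasureTheory Metric
open scoped ContDiff InnerProductSpace ENNReal NNReal
open Crest.Agent.R234.Well_761

noncomputable section

namespace Crest.Agent.R234.We_822

variable {H : Type*} [PseudoMetricSpace H] [MeasurableSpace H] [OpensMeasurableSpace H]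
variable {W : Type*} [NormedAddCommGroup W] [InnerProductSpace ℝ W] [MeasurableSpace W]
  [OpensMeasurableSpace W]

lemma well_ge' {c : W} {q : ℝ} (hq : 0 < q) {y : W} (hy : 3 * q / 32 ≤ ‖y - c‖) :
    9 / 2048 * q ^ 2 ≤ well c q y := by
  have h : 9 / 1024 ≤ ‖y - c‖ ^ 2 / q ^ 2 := by
    rw [le_div_iff₀ (by positivity)]
    nlinarith [norm_nonneg (y - c)]
  have h2 := cut_mono h
  rw [cut_eq_id (by norm_num)] at h2
  unfold well
  nlinarith [sq_nonneg q]

lemma wells_ge' {C : Finset W} {q : ℝ} (hq : 0 < q) (h : Well_761.Sep C q) {y : W}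
    (hy : y ∈ away (C : Set W) (3 * q / 32)) : 9 / 2048 * q ^ 2 ≤ wells C q y := by
  rcases wells_cases hq h y with ⟨c, hc, -, h1, -⟩ | ⟨-, h1, -⟩
  · rw [h1]; exact well_ge' hq (hy c hc)
  · rw [h1]
    have := wellTop_ge q
    nlinarith [sq_nonneg q]

variable {m : ℕ} {κ : ℝ → ℝ} {Kκ cκ : ℝ} {mu en : Measure (H × W)}

/-- the mass at heights away from the wells is controlled by the well height -/
theorem mass_away_le (hκ : Ker κ Kκ cκ) {x₀ : H} {l : ℝ} {C : Finset W} {q : ℝ} (hq : 0 < q)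
    (hC : Well_761.Sep C q) (hfin : mu (cyl x₀ (Real.exp l) univ) ≠ ⊤) :
    mu (cyl x₀ (Real.exp l / 2) (away (C : Set W) (3 * q / 32))) ≤
      ENNReal.ofReal (2048 / (9 * cκ * q ^ 2) * Real.exp (m * l) *
        nu m κ mu x₀ l (wells C q)) := by
  set B := cyl x₀ (Real.exp l / 2) (away (C : Set W) (3 * q / 32)) with hB
  have hBm : MeasurableSet B := cyl_meas _ _ (measurableSet_away _ _)
  have hexp := Real.exp_pos l
  have hsub : B ⊆ cyl x₀ (Real.exp l) univ :=
    prod_mono (closedBall_subset_closedBall (by linarith)) (subset_univ _)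
  have hBfin : mu B ≠ ⊤ := ne_top_of_le_ne_top hfin (measure_mono hsub)
  have hwm : Measurable (wells C q) := (wells_contDiff C q).continuous.measurable
  have hwb : ∀ y, |wells C q y| ≤ q ^ 2 := fun y => by
    rw [abs_of_nonneg (wells_nonneg hq hC y)]
    have h1 := wells_le_top (C := C) (q := q) y
    have h2 := wellTop_le q
    nlinarith [sq_nonneg q]
  have hcκ := hκ.cpos
  have h1 : ∫ z in B, (cκ * (9 / 2048 * q ^ 2)) ∂mu ≤
      ∫ z, κ (dist z.1 x₀ * Real.exp (-l)) * wells C q z.2 ∂mu := by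
    rw [← integral_indicator hBm]
    refine integral_mono ((integrableOn_const hBfin).integrable_indicator hBm)
      (kerF_integrable hκ hwm hwb hfin) fun z => ?_
    simp only
    by_cases hz : z ∈ B
    · rw [indicator_of_mem hz]
      have h2 : dist z.1 x₀ * Real.exp (-l) ≤ 1 / 2 := by
        have h3 : dist z.1 x₀ ≤ Real.exp l / 2 := mem_closedBall.1 hz.1
        rw [Real.exp_neg, ← div_eq_mul_inv, div_le_iff₀ hexp]
        linarith
      exact mul_le_mul (hκ.ge _ (by positivity) h2) (wells_ge' hq hC hz.2) (by positivity)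
        (hκ.nonneg _)
    · rw [indicator_of_notMem hz]
      exact mul_nonneg (hκ.nonneg _) (wells_nonneg hq hC _)
  rw [setIntegral_const, smul_eq_mul] at h1
  have h3 : Real.exp (m * l) * nu m κ mu x₀ l (wells C q) =
      ∫ z, κ (dist z.1 x₀ * Real.exp (-l)) * wells C q z.2 ∂mu := by
    unfold nu
    rw [← mul_assoc, ← Real.exp_add]
    simp
  rw [← ENNReal.ofReal_toReal hBfin]
  refine ENNReal.ofReal_le_ofReal ?_
  rw [mul_assoc, h3, div_mul_eq_mul_div, le_div_iff₀ (by positivity)]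
  have h4 : mu.real B = (mu B).toReal := rfl
  rw [← h4]
  nlinarith

/-- **N7**: content of the crossing set in terms of the well height at scale `4 s`. -/
theorem cross_content {L : Type*} [NormedAddCommGroup L] [NormedSpace ℝ L]
    [FiniteDimensional ℝ L] [MeasurableSpace L] [BorelSpace L] [SecondCountableTopology H]
    (ν : Measure L) [ν.IsAddHaarMeasure] (hL : Module.finrank ℝ L + 2 = m)
    (hκ : Ker κ Kκ cκ) {x₀ : H} {C : Finset W} {T : Set (H × W)} {q s K c0 er : ℝ} (hq : 0 < q)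
    (hC : Well_761.Sep C q) (hqs : q ≤ 32 * s) (hK : 0 < K) (hc0 : 0 < c0)
    (hfin : mu (cyl x₀ (4 * s) univ) ≠ ⊤) (hfinE : en (cyl x₀ (2 * s) univ) ≠ ⊤)
    (hlow : ∀ x ∈ closedBall x₀ s, ∀ p, (x, p) ∈ T → p ∈ away (C : Set W) (q / 8) →
      ENNReal.ofReal (c0 * (q / 128) ^ m) ≤ mu (cyl x (q / 128) (closedBall p (q / 128))))
    (hup : nu m κ mu x₀ (Real.log (4 * s)) (wells C q) ≤
      27 / 65536 * cκ ^ 2 * (c0 / 16 ^ m) / Kκ * q ^ 2) (her0 : 0 ≤ er)
    (hflow : ∀ x ∈ closedBall x₀ s, ∀ p ∈ away (C : Set W) (q / 8),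
      ∀ l ∈ Icc (Real.log (q / 32)) (Real.log s),
      ∃ d, HasDerivAt (fun l => nu m κ mu x l (topF p (q / 8))) d l ∧
        |d| ≤ K * (Real.exp (2 * l) + (q / 8) ^ 2) * Real.exp (-(m * l)) *
          (en (cyl x (Real.exp l) (ball p (q / 32)))).toReal + er)
    (her : er * Real.log (32 * s / q) ≤ 3 / 262144 * cκ * (c0 / 4 ^ m) * q ^ 2)
    {Kπ : ℝ≥0} {π : H → L} (hπ : LipschitzWith Kπ π) :
    ENNReal.ofReal (cX m cκ c0 K * (q / 8) ^ 2 / (1 + Real.log (32 * s / q))) *
        ν (π '' crossSet T x₀ s (C : Set W) (q / 8)) ≤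
      ENNReal.ofReal ((5 * Kπ) ^ (m - 2)) * ν (ball 0 1) *
        en (cyl x₀ (2 * s) (away (C : Set W) (3 * q / 32))) := by
  have hs0 : 0 < s := by linarith
  have hKκ := hκ.Kpos
  have hcκ := hκ.cpos
  have e1 : q / 8 / 4 = q / 32 := by ring
  have e2 : q / 8 / 16 = q / 128 := by ring
  have e3 : 3 * (q / 8) / 4 = 3 * q / 32 := by ring
  have e4 : 4 * s / (q / 8) = 32 * s / q := by field_simp; ring
  have he : Real.exp (Real.log (4 * s)) = 4 * s := Real.exp_log (by linarith)
  set c1 : ℝ := 3 / 32 * cκ * (c0 / 4 ^ m) / Kκ with hc1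
  have hmass := mass_away_le (m := m) hκ (l := Real.log (4 * s)) hq hC
    (by rw [he]; exact hfin)
  have e5 : Real.exp (Real.log (4 * s)) / 2 = 2 * s := by rw [he]; ring
  have e6 : Real.exp (m * Real.log (4 * s)) = 4 ^ m * s ^ m := by
    rw [mul_comm, Real.exp_mul, he, Real.rpow_natCast, mul_pow]
  rw [e5, e6] at hmass
  have hup2 : mu (cyl x₀ (2 * s) (away (C : Set W) (3 * (q / 8) / 4))) ≤
      ENNReal.ofReal (c1 * s ^ m) := by
    rw [e3]
    refine hmass.trans (ENNReal.ofReal_le_ofReal ?_)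
    calc 2048 / (9 * cκ * q ^ 2) * (4 ^ m * s ^ m) *
          nu m κ mu x₀ (Real.log (4 * s)) (wells C q)
        ≤ 2048 / (9 * cκ * q ^ 2) * (4 ^ m * s ^ m) *
          (27 / 65536 * cκ ^ 2 * (c0 / 16 ^ m) / Kκ * q ^ 2) := by gcongr
      _ = c1 * s ^ m := by
          rw [hc1]
          have e7 : (16:ℝ) ^ m = 4 ^ m * 4 ^ m := by
            rw [← mul_pow]; norm_num
          rw [e7]
          field_simp
          ring
  have h := crossing_content (m := m) (mu := mu) (en := en) ν hL hκ (x₀ := x₀)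
    (C := (C : Set W)) (T := T) (q := q / 8) (s := s) (K := K) (c0 := c0) (c1 := c1) (er := er)
    (by positivity) (by linarith) hK hc0 (by positivity)
    (ne_top_of_le_ne_top hfin (measure_mono (prod_mono
      (closedBall_subset_closedBall (by linarith)) le_rfl))) hfinE
    (by rw [e2]; exact hlow) hup2 (by
      rw [hc1]
      refine le_of_eq ?_
      field_simp
      ring) her0 (by rw [e1]; exact hflow) (by
      rw [e4]
      refine her.trans (le_of_eq ?_)
      ring) hπ
  rw [e3, e4] at h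
  exact h

end Crest.Agent.R234.We_822
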