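import Crest.Agent.R234.Well5_761
import Crest.Agent.R234.We6_822

/-!
Row 234 (helper822), VF-CROSS part 5: N7 from the structures `Flow` and `Geo` of helper761.
-/

set_option autoImplicit false
set_option linter.unusedSectionVars false

open Set Filter Topology MeasureTheory Metric
open scoped ContDiff InnerProductSpace ENNReal NNReal
open Crest.Agent.R234.Well_761

noncomputable section

namespace Crest.Agent.R234.We_822

variable {H : Type*} [PseudoMetricSpace H] [MeasurableSpace H] [OpensMeasurableSpace H]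
variable {W : Type*} [NormedAddCommGroup W] [InnerProductSpace ℝ W] [MeasurableSpace W]
  [BorelSpace W]

variable {m : ℕ} {κ : ℝ → ℝ} {Kκ cκ : ℝ} {mu en : Measure (H × W)}
  {R : H → ℝ → ℝ} {er : H → ℝ → ℝ → ℝ} {K : ℝ} {x₀ : H} {ρ₀ : ℝ}

lemma topF_eq_bump (p : W) (q : ℝ) : topF p q = bump p q := rfl

/-- the drift of the bump at heights near `p` only sees the energy at heights near `p`. -/
theorem flow_topF (hfl : Flow m κ mu en R er K x₀ ρ₀) {x : H} {l q : ℝ} (hq : 0 < q)
    (hdom : dist x x₀ + Real.exp l ≤ ρ₀) (p : W) :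
    ∃ d, HasDerivAt (fun l => nu m κ mu x l (topF p q)) d l ∧
      |d| ≤ K * (Real.exp (2 * l) + q ^ 2) * Real.exp (-(m * l)) *
        (en (cyl x (Real.exp l) (ball p (q / 4)))).toReal + er x l q := by
  obtain ⟨d, h1, -, h2⟩ := hfl.flow x l hdom _ _ _ q hq (test_bump p hq)
  obtain ⟨d', h3, -, h4⟩ := hfl.flow x l hdom _ _ _ q hq (test_bump p hq).neg
  have hz : ∀ y ∉ ball p (q / 4), q / 4 ≤ ‖y - p‖ := by
    intro y hy
    rw [mem_ball, dist_eq_norm, not_lt] at hy
    exact hy
  have h5 := h2 (ball p (q / 4)) measurableSet_ball (fun y hy => ⟨bump_eq_zero hq (hz y hy), by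
    intro v
    rw [wellH_eq_zero hq (hz y hy)]
    simp⟩)
  have h6 := h4 (ball p (q / 4)) measurableSet_ball (fun y hy => ⟨by
    rw [bump_eq_zero hq (hz y hy), neg_zero], by
    intro v
    rw [wellH_eq_zero hq (hz y hy)]
    simp⟩)
  have h7 : d' = -d := by
    have h8 : HasDerivAt (fun l => nu m κ mu x l fun y => -bump p q y) (-d) l := by
      have h9 := h1.neg
      refine h9.congr_of_eventuallyEq (Eventually.of_forall fun l => ?_)
      simp only [nu_neg, Pi.neg_apply]
    exact h3.unique h8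
  refine ⟨d, h1, ?_⟩
  rw [abs_le]
  constructor
  · linarith
  · exact h5

/-- **N7 over the interface `Flow`, `Geo`**: content of the crossing set. -/
theorem cross_content_flow {L : Type*} [NormedAddCommGroup L] [NormedSpace ℝ L]
    [FiniteDimensional ℝ L] [MeasurableSpace L] [BorelSpace L] [SecondCountableTopology H]
    (ν : Measure L) [ν.IsAddHaarMeasure] (hL : Module.finrank ℝ L + 2 = m)
    (hfl : Flow m κ mu en R er K x₀ ρ₀) (hK : 0 < K) (hκ : Ker κ Kκ cκ)
    {T : Set (H × W)} {c0 : ℝ} (hg : Geo m mu T c0 x₀ ρ₀)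
    {x : H} {C : Finset W} {q s e0 : ℝ} (hq : 0 < q)
    (hC : Well_761.Sep C q) (hqs : q ≤ 32 * s) (hdom : dist x x₀ + 4 * s ≤ ρ₀)
    (hfinM : mu (cyl x (4 * s) univ) ≠ ⊤) (hfinE : en (cyl x (2 * s) univ) ≠ ⊤)
    (hup : nu m κ mu x (Real.log (4 * s)) (wells C q) ≤
      27 / 65536 * cκ ^ 2 * (c0 / 16 ^ m) / Kκ * q ^ 2) (her0 : 0 ≤ e0)
    (her1 : ∀ x' ∈ closedBall x s, ∀ l ∈ Icc (Real.log (q / 32)) (Real.log s),
      er x' l (q / 8) ≤ e0)
    (her : e0 * Real.log (32 * s / q) ≤ 3 / 262144 * cκ * (c0 / 4 ^ m) * q ^ 2)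
    {Kπ : ℝ≥0} {π : H → L} (hπ : LipschitzWith Kπ π) :
    ENNReal.ofReal (cX m cκ c0 K * (q / 8) ^ 2 / (1 + Real.log (32 * s / q))) *
        ν (π '' crossSet T x s (C : Set W) (q / 8)) ≤
      ENNReal.ofReal ((5 * Kπ) ^ (m - 2)) * ν (ball 0 1) *
        en (cyl x (2 * s) (away (C : Set W) (3 * q / 32))) := by
  have hs0 : 0 < s := by linarith
  have hd : ∀ x' ∈ closedBall x s, dist x' x₀ + s ≤ ρ₀ := by
    intro x' hx'
    have h1 := dist_triangle x' x x₀
    rw [mem_closedBall] at hx'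
    linarith
  refine cross_content (m := m) ν hL hκ (x₀ := x) (T := T) (er := e0) hq hC hqs hK hg.cpos
    hfinM hfinE ?_ hup her0 ?_ her hπ
  · intro x' hx' p hp _
    refine hg.lower x' p hp _ (by positivity) ?_
    have := hd x' hx'
    linarith
  · intro x' hx' p _ l hl
    have hel : Real.exp l ≤ s := by
      have := Real.exp_le_exp.2 hl.2
      rwa [Real.exp_log hs0] at this
    obtain ⟨d, h1, h2⟩ := flow_topF hfl (x := x') (l := l) (q := q / 8) (by positivity)
      (by have := hd x' hx'; linarith) p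
    have e1 : q / 8 / 4 = q / 32 := by ring
    rw [e1] at h2
    exact ⟨d, h1, h2.trans (by have := her1 x' hx' l hl; linarith)⟩

end Crest.Agent.R234.We_822
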