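import Crest.Agent.R234.We7_822

/-!
Row 234 (helper822), VF-CROSS part 6: N7 with a conditional error (for the class AS): the error of
the flow has to be small only as long as the energies at all scales are small.  The base ball has
radius `s`, the scales of the crossing lemma are `[q / 32, s']`.
-/

set_option autoImplicit false
set_option linter.unusedSectionVars false

open Set Filter Topology MeasureTheory Metric
open scoped ContDiff InnerProductSpace ENNReal NNReal
open Crest.Agent.R234.Well_761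

noncomputable section

namespace Crest.Agent.R234.We_822

variable {H : Type*} [PseudoMetricSpace H] [MeasurableSpace H] [OpensMeasurableSpace H]
variable {W : Type*} [NormedAddCommGroup W] [InnerProductSpace ℝ W] [MeasurableSpace W]
  [OpensMeasurableSpace W]

variable {m : ℕ} {κ : ℝ → ℝ} {Kκ cκ : ℝ} {mu en : Measure (H × W)}

/-- the scaled energy over the ball `B(x, e^l)` -/
def enS (m : ℕ) (en : Measure (H × W)) (x : H) (l : ℝ) : ℝ :=
  Real.exp ((2 - m) * l) * (en (cyl x (Real.exp l) univ)).toReal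

lemma enS_nonneg (en : Measure (H × W)) (x : H) (l : ℝ) : 0 ≤ enS m en x l :=
  mul_nonneg (Real.exp_pos _).le ENNReal.toReal_nonneg

/-- **crossing lemma, conditional error**: a support point `(x, p)` with the lower density bound
whose neighbourhood of heights carries little mass at scale `s` sees, at one scale `ρ` between
`q / 4` and `s`, the tilt energy `≥ κ₀ ρ^{m-2}`, `κ₀ = cX q² / (1 + log (4 s / q))`. -/
theorem crossing_univ (hκ : Ker κ Kκ cκ) {x : H} {p : W} {q s K c0 c1 er : ℝ} (hq : 0 < q)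
    (hqs : q / 4 ≤ s) (hK : 0 < K) (hc0 : 0 < c0) (hm : 2 ≤ m) (hc10 : 0 ≤ c1)
    (hfin : mu (cyl x s univ) ≠ ⊤)
    (hlow : ENNReal.ofReal (c0 * (q / 16) ^ m) ≤ mu (cyl x (q / 16) (closedBall p (q / 16))))
    (hup : mu (cyl x s (ball p (q / 4))) ≤ ENNReal.ofReal (c1 * s ^ m))
    (hc1 : Kκ * c1 / 32 ≤ 3 / 1024 * cκ * (c0 / 4 ^ m)) (her0 : 0 ≤ er)
    (hflow : (∀ l ∈ Icc (Real.log (q / 4)) (Real.log s), enS m en x l <
        cX m cκ c0 K * q ^ 2 / (1 + Real.log (4 * s / q))) →
      ∀ l ∈ Icc (Real.log (q / 4)) (Real.log s),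
      ∃ d, HasDerivAt (fun l => nu m κ mu x l (topF p q)) d l ∧
        |d| ≤ K * (Real.exp (2 * l) + q ^ 2) * Real.exp (-(m * l)) *
          (en (cyl x (Real.exp l) univ)).toReal + er)
    (her : er * Real.log (4 * s / q) ≤ 3 / 4096 * cκ * (c0 / 4 ^ m) * q ^ 2) :
    ∃ ρ, q / 4 ≤ ρ ∧ ρ ≤ s ∧
      cX m cκ c0 K * q ^ 2 / (1 + Real.log (4 * s / q)) * ρ ^ (m - 2) ≤
        (en (cyl x ρ univ)).toReal := by
  have hs0 : 0 < s := by linarith
  set l1 := Real.log (q / 4) with hl1
  set l2 := Real.log s with hl2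
  have he1 : Real.exp l1 = q / 4 := Real.exp_log (by positivity)
  have he2 : Real.exp l2 = s := Real.exp_log hs0
  have h12 : l1 ≤ l2 := Real.log_le_log (by positivity) hqs
  have hlog : l2 - l1 = Real.log (4 * s / q) := by
    rw [hl2, hl1, ← Real.log_div hs0.ne' (by positivity)]
    congr 1
    field_simp
  set b := 3 / 512 * cκ * (c0 / 4 ^ m) * q ^ 2 with hb
  have hcκ := hκ.cpos
  have hbpos : 0 < b := by positivity
  set κ₀ := cX m cκ c0 K * q ^ 2 / (1 + Real.log (4 * s / q)) with hκ₀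
  -- bottom
  have hbot : b ≤ nu m κ mu x l1 (topF p q) := by
    have hf1 : mu (cyl x (Real.exp l1) univ) ≠ ⊤ := by
      refine ne_top_of_le_ne_top hfin (measure_mono (prod_mono ?_ le_rfl))
      rw [he1]
      exact closedBall_subset_closedBall hqs
    have h1 := nu_ge (m := m) hκ (x := x) (x' := x) (p := p) (l := l1) (topF_measurable p q)
      (topF_abs_le p q) (topF_nonneg p q) (b := q ^ 2 * (3 / 512)) (by positivity)
      (fun y hy => topF_ge hq (by
        rw [he1] at hy
        have : q / 4 / 4 = q / 16 := by ring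
        rwa [this] at hy)) (by rw [dist_self]; positivity) (c0 := c0) hc0.le hf1 (by
        rw [he1]
        have : q / 4 / 4 = q / 16 := by ring
        rw [this]
        exact hlow)
    refine le_trans (le_of_eq ?_) h1
    rw [hb]
    ring
  -- top
  have htop : nu m κ mu x l2 (topF p q) ≤ b / 2 := by
    have hf2 : mu (cyl x (Real.exp l2) univ) ≠ ⊤ := by rw [he2]; exact hfin
    have hBm : MeasurableSet (cyl x s (ball p (q / 4))) := cyl_meas _ _ measurableSet_ball
    have hBfin : mu (cyl x s (ball p (q / 4))) ≠ ⊤ :=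
      ne_top_of_le_ne_top ENNReal.ofReal_ne_top hup
    have h1 : ∫ z, κ (dist z.1 x * Real.exp (-l2)) * topF p q z.2 ∂mu ≤
        ∫ z in cyl x s (ball p (q / 4)), (Kκ * (q ^ 2 / 32)) ∂mu := by
      rw [← integral_indicator hBm]
      refine integral_mono (kerF_integrable hκ (topF_measurable p q) (topF_abs_le p q) hf2) ?_ ?_
      · exact (integrableOn_const hBfin).integrable_indicator hBm
      · intro z
        simp only
        by_cases hz : z ∈ cyl x s (ball p (q / 4))
        · rw [indicator_of_mem hz]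
          exact mul_le_mul (hκ.le _) (topF_le p q _) (topF_nonneg p q _) hκ.Kpos.le
        · rw [indicator_of_notMem hz]
          by_cases hz2 : z.2 ∈ ball p (q / 4)
          · have hz1 : z ∉ cyl x (Real.exp l2) (univ : Set W) := by
              rw [he2]
              intro h
              exact hz ⟨h.1, hz2⟩
            rw [ker_zero hκ hz1, zero_mul]
          · rw [topF_eq_zero hq hz2, mul_zero]
    rw [setIntegral_const, smul_eq_mul] at h1
    have h2 : (mu.real (cyl x s (ball p (q / 4)))) ≤ c1 * s ^ m := by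
      have := ENNReal.toReal_mono ENNReal.ofReal_ne_top hup
      rwa [ENNReal.toReal_ofReal (by positivity)] at this
    have h3 : Real.exp (-(m * l2)) * s ^ m = 1 := by
      rw [← he2, ← Real.exp_nat_mul, ← Real.exp_add]
      simp
    unfold nu
    calc Real.exp (-(m * l2)) * ∫ z, κ (dist z.1 x * Real.exp (-l2)) * topF p q z.2 ∂mu
        ≤ Real.exp (-(m * l2)) * ((c1 * s ^ m) * (Kκ * (q ^ 2 / 32))) := by
          refine mul_le_mul_of_nonneg_left (h1.trans ?_) (Real.exp_pos _).le
          have := hκ.Kpos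
          exact mul_le_mul_of_nonneg_right h2 (by positivity)
      _ = (Real.exp (-(m * l2)) * s ^ m) * (Kκ * c1 / 32) * q ^ 2 := by ring
      _ = (Kκ * c1 / 32) * q ^ 2 := by rw [h3, one_mul]
      _ ≤ (3 / 1024 * cκ * (c0 / 4 ^ m)) * q ^ 2 := by gcongr
      _ = b / 2 := by rw [hb]; ring
  -- one scale
  have hkey : ∃ l ∈ Icc l1 l2, κ₀ ≤ enS m en x l := by
    by_contra hcon
    push Not at hcon
    have hfl := hflow hcon
    have hdd : ∀ l ∈ Icc l1 l2, ∃ d, HasDerivAt (fun l => nu m κ mu x l (topF p q)) d l ∧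
        |d| ≤ (17 * K) * enS m en x l + er := by
      intro l hl
      obtain ⟨d, h1, h2⟩ := hfl l hl
      refine ⟨d, h1, h2.trans ?_⟩
      have h3 : q ^ 2 ≤ 16 * Real.exp (2 * l) := by
        have h4 : q / 4 ≤ Real.exp l := by rw [← he1]; exact Real.exp_le_exp.2 hl.1
        have h5 : Real.exp (2 * l) = Real.exp l ^ 2 := by rw [← Real.exp_nat_mul]; norm_num
        rw [h5]
        nlinarith
      have h4 : K * (Real.exp (2 * l) + q ^ 2) * Real.exp (-(m * l)) *
          (en (cyl x (Real.exp l) univ)).toReal ≤ 17 * K * enS m en x l := by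
        have h5 : Real.exp ((2 - m) * l) = Real.exp (2 * l) * Real.exp (-(m * l)) := by
          rw [← Real.exp_add]; congr 1; ring
        unfold enS
        rw [h5]
        have h6 : K * (Real.exp (2 * l) + q ^ 2) ≤ 17 * K * Real.exp (2 * l) := by nlinarith
        calc K * (Real.exp (2 * l) + q ^ 2) * Real.exp (-(m * l)) *
              (en (cyl x (Real.exp l) univ)).toReal
            ≤ (17 * K * Real.exp (2 * l)) * Real.exp (-(m * l)) *
              (en (cyl x (Real.exp l) univ)).toReal := by gcongr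
          _ = _ := by ring
      linarith
    obtain ⟨l, hl, hge⟩ := exists_scale_add h12 (by positivity : 0 < 17 * K) her0 hdd
      (by positivity : 0 < b / 2) (by
        have : b / 2 ≤ nu m κ mu x l1 (topF p q) - nu m κ mu x l2 (topF p q) := by linarith
        refine this.trans ?_
        rw [abs_sub_comm]
        exact le_abs_self _) (by
        rw [hlog]
        refine her.trans (le_of_eq ?_)
        rw [hb]; ring)
    have h1 : κ₀ = b / 2 / (2 * (17 * K) * (1 + (l2 - l1))) := by
      rw [hκ₀, hb, hlog]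
      unfold cX
      field_simp
      ring
    rw [← h1] at hge
    exact absurd hge (not_le.2 (hcon l hl))
  obtain ⟨l, hl, hge⟩ := hkey
  refine ⟨Real.exp l, ?_, ?_, ?_⟩
  · rw [← he1]; exact Real.exp_le_exp.2 hl.1
  · rw [← he2]; exact Real.exp_le_exp.2 hl.2
  · have hpow : Real.exp ((2 - m) * l) * Real.exp l ^ (m - 2) = 1 := by
      rw [← Real.exp_nat_mul, ← Real.exp_add, Nat.cast_sub hm]
      push_cast
      rw [show (2 - (m:ℝ)) * l + ((m:ℝ) - 2) * l = 0 by ring, Real.exp_zero]
    have h2 := mul_le_mul_of_nonneg_right hge (by positivity : 0 ≤ Real.exp l ^ (m - 2))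
    refine h2.trans (le_of_eq ?_)
    unfold enS
    calc Real.exp ((2 - m) * l) * (en (cyl x (Real.exp l) univ)).toReal *
          Real.exp l ^ (m - 2)
        = (Real.exp ((2 - m) * l) * Real.exp l ^ (m - 2)) *
          (en (cyl x (Real.exp l) univ)).toReal := by ring
      _ = _ := by rw [hpow, one_mul]

/-- **N7, general form**: content of the crossing set over `closedBall x₀ s`, scales up to `s'`,
in terms of the well height at scale `e^L ≥ 2 (s + s')`; conditional error. -/
theorem cross_content_univ {L : Type*} [NormedAddCommGroup L] [NormedSpace ℝ L]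
    [FiniteDimensional ℝ L] [MeasurableSpace L] [BorelSpace L] [SecondCountableTopology H]
    (ν : Measure L) [ν.IsAddHaarMeasure] (hL : Module.finrank ℝ L + 2 = m)
    (hκ : Ker κ Kκ cκ) {x₀ : H} {C : Finset W} {T : Set (H × W)} {q s s' t K c0 er : ℝ}
    (hq : 0 < q) (hC : Well_761.Sep C q) (hqs : q ≤ 32 * s')
    (hst : s + s' ≤ Real.exp t / 2) (hK : 0 < K) (hc0 : 0 < c0)
    (hfin : mu (cyl x₀ (Real.exp t) univ) ≠ ⊤) (hfinE : en (cyl x₀ (s + s') univ) ≠ ⊤)
    (hlow : ∀ x ∈ closedBall x₀ s, ∀ p, (x, p) ∈ T → p ∈ away (C : Set W) (q / 8) →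
      ENNReal.ofReal (c0 * (q / 128) ^ m) ≤ mu (cyl x (q / 128) (closedBall p (q / 128))))
    (hup : nu m κ mu x₀ t (wells C q) ≤
      27 / 65536 * cκ ^ 2 * (c0 / 4 ^ m) / Kκ * (s' / Real.exp t) ^ m * q ^ 2) (her0 : 0 ≤ er)
    (hflow : ∀ x ∈ closedBall x₀ s, ∀ p ∈ away (C : Set W) (q / 8),
      (∀ l ∈ Icc (Real.log (q / 32)) (Real.log s'), enS m en x l <
        cX m cκ c0 K * (q / 8) ^ 2 / (1 + Real.log (32 * s' / q))) →
      ∀ l ∈ Icc (Real.log (q / 32)) (Real.log s'),
      ∃ d, HasDerivAt (fun l => nu m κ mu x l (topF p (q / 8))) d l ∧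
        |d| ≤ K * (Real.exp (2 * l) + (q / 8) ^ 2) * Real.exp (-(m * l)) *
          (en (cyl x (Real.exp l) univ)).toReal + er)
    (her : er * Real.log (32 * s' / q) ≤ 3 / 262144 * cκ * (c0 / 4 ^ m) * q ^ 2)
    {Kπ : ℝ≥0} {π : H → L} (hπ : LipschitzWith Kπ π) :
    ENNReal.ofReal (cX m cκ c0 K * (q / 8) ^ 2 / (1 + Real.log (32 * s' / q))) *
        ν (π '' crossSet T x₀ s (C : Set W) (q / 8)) ≤
      ENNReal.ofReal ((5 * Kπ) ^ (m - 2)) * ν (ball 0 1) * en (cyl x₀ (s + s') univ) := by
  have hs'0 : 0 < s' := by linarith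
  have hKκ := hκ.Kpos
  have hcκ := hκ.cpos
  have hm2 : 2 ≤ m := by omega
  have hmd : Module.finrank ℝ L = m - 2 := by omega
  have e1 : q / 8 / 4 = q / 32 := by ring
  have e2 : q / 8 / 16 = q / 128 := by ring
  have e3 : 3 * (q / 8) / 4 = 3 * q / 32 := by ring
  have e4 : 4 * s' / (q / 8) = 32 * s' / q := by field_simp; ring
  have het := Real.exp_pos t
  set c1 : ℝ := 3 / 32 * cκ * (c0 / 4 ^ m) / Kκ with hc1
  have hmass := mass_away_le (m := m) hκ (l := t) hq hC hfin
  have e6 : Real.exp (m * t) = Real.exp t ^ m := by rw [← Real.exp_nat_mul]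
  have hmass2 : mu (cyl x₀ (s + s') (away (C : Set W) (3 * q / 32))) ≤
      ENNReal.ofReal (c1 * s' ^ m) := by
    refine (measure_mono (Set.prod_mono (closedBall_subset_closedBall hst) le_rfl)).trans
      (hmass.trans (ENNReal.ofReal_le_ofReal ?_))
    rw [e6]
    calc 2048 / (9 * cκ * q ^ 2) * Real.exp t ^ m * nu m κ mu x₀ t (wells C q)
        ≤ 2048 / (9 * cκ * q ^ 2) * Real.exp t ^ m *
          (27 / 65536 * cκ ^ 2 * (c0 / 4 ^ m) / Kκ * (s' / Real.exp t) ^ m * q ^ 2) := by gcongr
      _ = c1 * s' ^ m := by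
          rw [hc1, div_pow]
          field_simp
          ring
  have hbm : ∀ x ∈ closedBall x₀ s, closedBall x s' ⊆ closedBall x₀ (s + s') := by
    intro x hx
    refine closedBall_subset_closedBall' ?_
    rw [mem_closedBall] at hx
    linarith
  set κ₀ := cX m cκ c0 K * (q / 8) ^ 2 / (1 + Real.log (32 * s' / q)) with hκ₀
  have hlog0 : 0 ≤ Real.log (32 * s' / q) := by
    refine Real.log_nonneg ?_
    rw [le_div_iff₀ hq]
    linarith
  have hκ₀0 : 0 ≤ κ₀ := by
    rw [hκ₀]
    unfold cX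
    positivity
  have key : ∀ x ∈ crossSet T x₀ s (C : Set W) (q / 8), ∃ ρ, q / 32 ≤ ρ ∧ ρ ≤ s' ∧
      ENNReal.ofReal κ₀ * ENNReal.ofReal (ρ ^ (m - 2)) ≤ en (cyl x ρ univ) := by
    rintro x ⟨hx, p, hpT, hp⟩
    have hsub : cyl x s' (ball p (q / 8 / 4)) ⊆
        cyl x₀ (s + s') (away (C : Set W) (3 * q / 32)) := by
      have h3 := ball_subset_away hp
      rw [e3] at h3
      exact prod_mono (hbm x hx) h3
    have hfl := hflow x hx p hp
    rw [← e1] at hfl
    obtain ⟨ρ, h1, h2, h3⟩ := crossing_univ (m := m) (mu := mu) (en := en) hκ (x := x) (p := p)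
      (q := q / 8) (s := s') (K := K) (c0 := c0) (c1 := c1) (er := er)
      (by positivity) (by linarith) hK hc0 hm2 (by positivity)
      (ne_top_of_le_ne_top hfin (measure_mono (prod_mono ((hbm x hx).trans
        (closedBall_subset_closedBall (by linarith))) le_rfl)))
      (by rw [e2]; exact hlow x hx p hpT hp) ((measure_mono hsub).trans hmass2) (by
        rw [hc1]
        refine le_of_eq ?_
        field_simp
        ring) her0 (by rw [e4]; exact hfl) (by
        rw [e4]
        refine her.trans (le_of_eq ?_)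
        ring)
    rw [e4] at h3
    rw [e1] at h1
    refine ⟨ρ, h1, h2, ?_⟩
    have hρ0 : 0 < ρ := by linarith
    have hfin2 : en (cyl x ρ univ) ≠ ⊤ :=
      ne_top_of_le_ne_top hfinE (measure_mono (prod_mono
        ((closedBall_subset_closedBall h2).trans (hbm x hx)) (subset_univ _)))
    rw [← ENNReal.ofReal_mul hκ₀0]
    calc ENNReal.ofReal (κ₀ * ρ ^ (m - 2))
        ≤ ENNReal.ofReal ((en (cyl x ρ univ)).toReal) := ENNReal.ofReal_le_ofReal h3
      _ = en (cyl x ρ univ) := ENNReal.ofReal_toReal hfin2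
  choose! ρ hρ1 hρ2 hρ3 using key
  have hf : ∀ x r, (en.map Prod.fst) (closedBall x r) = en (cyl x r univ) := by
    intro x r
    rw [Measure.map_apply measurable_fst measurableSet_closedBall]
    congr 1
    ext z
    simp [cyl]
  have h := Vit_534.proj_le ν (en.map Prod.fst)
    (crossSet T x₀ s (C : Set W) (q / 8)) (closedBall x₀ (s + s')) ρ s' hρ2
    (fun x hx => by have := hρ1 x hx; linarith)
    (ENNReal.ofReal κ₀)
    (fun x hx => by rw [hf, hmd]; exact hρ3 x hx)
    (fun x hx => (closedBall_subset_closedBall (hρ2 x hx)).trans (hbm x hx.1)) Kπ π hπ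
  rw [hf, hmd] at h
  exact h

/-- the same over `Flow`. -/
theorem cross_content_flow' {W : Type*} [NormedAddCommGroup W] [InnerProductSpace ℝ W]
    [MeasurableSpace W] [BorelSpace W] {mu en : Measure (H × W)}
    {R : H → ℝ → ℝ} {er : H → ℝ → ℝ → ℝ} {K : ℝ} {x₀ : H} {ρ₀ : ℝ}
    {L : Type*} [NormedAddCommGroup L] [NormedSpace ℝ L]
    [FiniteDimensional ℝ L] [MeasurableSpace L] [BorelSpace L] [SecondCountableTopology H]
    (ν : Measure L) [ν.IsAddHaarMeasure] (hL : Module.finrank ℝ L + 2 = m)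
    (hfl : Flow m κ mu en R er K x₀ ρ₀) (hK : 0 < K) (hκ : Ker κ Kκ cκ)
    {T : Set (H × W)} {c0 : ℝ} (hc0 : 0 < c0) {x : H} {C : Finset W} {q s s' t e0 : ℝ}
    (hlow : ∀ x' ∈ closedBall x s, ∀ p, (x', p) ∈ T →
      ENNReal.ofReal (c0 * (q / 128) ^ m) ≤ mu (cyl x' (q / 128) (closedBall p (q / 128))))
    (hq : 0 < q) (hC : Well_761.Sep C q) (hqs : q ≤ 32 * s') (hst : s + s' ≤ Real.exp t / 2)
    (hdom : dist x x₀ + (s + s') ≤ ρ₀)
    (hfin : mu (cyl x (Real.exp t) univ) ≠ ⊤) (hfinE : en (cyl x (s + s') univ) ≠ ⊤)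
    (hup : nu m κ mu x t (wells C q) ≤
      27 / 65536 * cκ ^ 2 * (c0 / 4 ^ m) / Kκ * (s' / Real.exp t) ^ m * q ^ 2) (her0 : 0 ≤ e0)
    (her1 : ∀ x' ∈ closedBall x s,
      (∀ l ∈ Icc (Real.log (q / 32)) (Real.log s'), enS m en x' l <
        cX m cκ c0 K * (q / 8) ^ 2 / (1 + Real.log (32 * s' / q))) →
      ∀ l ∈ Icc (Real.log (q / 32)) (Real.log s'), er x' l (q / 8) ≤ e0)
    (her : e0 * Real.log (32 * s' / q) ≤ 3 / 262144 * cκ * (c0 / 4 ^ m) * q ^ 2)
    {Kπ : ℝ≥0} {π : H → L} (hπ : LipschitzWith Kπ π) :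
    ENNReal.ofReal (cX m cκ c0 K * (q / 8) ^ 2 / (1 + Real.log (32 * s' / q))) *
        ν (π '' crossSet T x s (C : Set W) (q / 8)) ≤
      ENNReal.ofReal ((5 * Kπ) ^ (m - 2)) * ν (ball 0 1) * en (cyl x (s + s') univ) := by
  have hs'0 : 0 < s' := by linarith
  refine cross_content_univ (m := m) ν hL hκ (x₀ := x) (T := T) (er := e0) hq hC hqs hst hK hc0
    hfin hfinE (fun x' hx' p hp _ => hlow x' hx' p hp) hup her0 ?_ her hπ
  intro x' hx' p _ hsmall l hl
  have hel : Real.exp l ≤ s' := by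
    have := Real.exp_le_exp.2 hl.2
    rwa [Real.exp_log hs'0] at this
  have hd : dist x' x₀ + Real.exp l ≤ ρ₀ := by
    have h1 := dist_triangle x' x x₀
    rw [mem_closedBall] at hx'
    linarith
  obtain ⟨d, h1, h2⟩ := flow_topF hfl (x := x') (l := l) (q := q / 8) (by positivity) hd p
  have e1 : q / 8 / 4 = q / 32 := by ring
  rw [e1] at h2
  refine ⟨d, h1, h2.trans (add_le_add ?_ (her1 x' hx' hsmall l hl))⟩
  refine mul_le_mul_of_nonneg_left ?_ (by positivity)
  have hsub : closedBall x' (Real.exp l) ⊆ closedBall x (s + s') := by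
    refine closedBall_subset_closedBall' ?_
    rw [mem_closedBall] at hx'
    linarith
  refine ENNReal.toReal_mono ?_ (measure_mono (prod_mono le_rfl (subset_univ _)))
  exact ne_top_of_le_ne_top hfinE (measure_mono (prod_mono hsub le_rfl))

end Crest.Agent.R234.We_822
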