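import Crest.Agent.R234.Wi3_870

/-!
# Row 234, VF-GEOINST (helper870)

(MASS) derivative of the normalised mass `e^{-ml} ∫ g dV` (first variation kept), upper mass bound of
solid cylinders at good centres, lower mass bound at the points of the support.
-/

set_option autoImplicit false

open MeasureTheory Set Function Filter Topology
open Crest.GeometryTopology.Submanifold
open Crest.Agent.R234.Vf_884 Crest.Agent.R234.Ar_870 Crest.Agent.R234.Cy_870
open scoped ENNReal NNReal InnerProductSpace ContDiff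

noncomputable section

namespace Crest.Agent.R234.Wi_870

variable {m n k : ℕ} {π : Euc k →L[ℝ] Euc m} {κ : Euc k →L[ℝ] Euc n} {x x₀ : Euc m}
  {L₀ h₀ ρ₀ : ℝ} {V : Measure (Euc k × L k)} {g g1 g2 : ℝ → ℝ}

/-- normalised mass -/
def MS (V : Measure (Euc k × L k)) (π : Euc k →L[ℝ] Euc m) (x : Euc m) (g : ℝ → ℝ) (l : ℝ) : ℝ :=
  Real.exp (-m * l) * ∫ p, 1 * g (Real.exp (-2 * l) * ‖π p.1 - x‖ ^ 2) ∂V

/-- **(MASS)**: `dM/dl = s^{-2} (R - e) - s^{-m} δV(χ (x' - x))` -/
theorem hasDerivAt_MS (h : Fr V π κ x L₀) (hg : Prof g g1 g2) {l : ℝ} (hl : l < L₀) :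
    HasDerivAt (MS V π x g)
      (Real.exp (-2 * l) * (RR V π x g1 l - ee V π x g l)
        - Real.exp (-m * l) * FV V (X1 π x g l)) l := by
  have h1 := h.deriv_c (c := fun _ => 1) (C := 1) aestronglyMeasurable_const ae_one_bound hg.k0 hl
  have h3 : HasDerivAt (fun l : ℝ => Real.exp (-m * l)) (Real.exp (-m * l) * (-m)) l := by
    have h4 : HasDerivAt (fun l : ℝ => (-m : ℝ) * l) (-m) l := by
      simpa using (hasDerivAt_id l).const_mul (-m : ℝ)
    exact h4.exp
  refine (h3.mul h1).congr_deriv ?_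
  rw [FV_X1 h hg.k0 hl.le]
  unfold ee RR
  have h6 : Real.exp (-m * l) = Real.exp (-2 * l) * Real.exp ((2 - m) * l) := by
    rw [← Real.exp_add]; congr 1; ring
  have h7 : ∫ p, 1 * (-2 * (Real.exp (-2 * l) * ‖π p.1 - x‖ ^ 2 *
      g1 (Real.exp (-2 * l) * ‖π p.1 - x‖ ^ 2))) ∂V =
      -2 * ∫ p, 1 * (Real.exp (-2 * l) * ‖π p.1 - x‖ ^ 2 *
      g1 (Real.exp (-2 * l) * ‖π p.1 - x‖ ^ 2)) ∂V := by
    rw [← integral_const_mul]
    refine integral_congr_ae (Eventually.of_forall fun p => ?_)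
    simp only
    ring
  rw [h7, h6]
  ring

/-- the weighted tilt energy is bounded by the energy measure of the cylinder -/
theorem ee_le_en (h : Fr V π κ x L₀) (hg : Prof g g1 g2) (hg0 : ∀ t, 0 ≤ t → 0 ≤ g t) {Kg : ℝ}
    (hKg : ∀ t, 0 ≤ t → g t ≤ Kg) {l : ℝ} (hl : l < L₀) :
    Real.exp (-2 * l) * ee V π x g l ≤
      Kg * (Real.exp (-(m * l)) * (enOf V π κ (Well_761.cyl x (Real.exp l) univ)).toReal) := by
  have hK0 : 0 ≤ Kg := (hg0 0 le_rfl).trans (hKg 0 le_rfl)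
  have h1 : ∫ p, tl π p.2 * g (Real.exp (-2 * l) * ‖π p.1 - x‖ ^ 2) ∂V ≤
      1 * Kg * tS V π κ x l univ := by
    refine ker_le_S h hl.le MeasurableSet.univ
      (h.integrable_c (aestronglyMeasurable_tl π V) h.tl_bound hg.k0 hl.le) ?_ ?_ hg.k0.zero
    · filter_upwards [h.conc] with p hp _
      rw [one_mul]
      exact mul_le_mul_of_nonneg_left (hKg _ (by positivity))
        (tl_nonneg h.sp.hh (isPr_of_G hp))
    · exact Eventually.of_forall fun p hp => (hp (mem_univ _)).elim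
  have h2 := tS_le_en h hl (S := (univ : Set (Euc n))) MeasurableSet.univ
  unfold ee
  have h6 : Real.exp (-2 * l) * Real.exp ((2 - m) * l) = Real.exp (-(m * l)) := by
    rw [← Real.exp_add]; congr 1; ring
  rw [← mul_assoc, h6]
  calc Real.exp (-(m * l)) * ∫ p, tl π p.2 * g (Real.exp (-2 * l) * ‖π p.1 - x‖ ^ 2) ∂V
      ≤ Real.exp (-(m * l)) * (1 * Kg * tS V π κ x l univ) :=
        mul_le_mul_of_nonneg_left h1 (Real.exp_pos _).le
    _ ≤ Real.exp (-(m * l)) * (1 * Kg *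
        (enOf V π κ (Well_761.cyl x (Real.exp l) univ)).toReal) := by gcongr
    _ = _ := by ring

/-- monotonicity up to the energy: `M(l) ≤ M(l₁) + (Kg lam + θ)(l₁ - l)` -/
theorem MS_le (hfr : ∀ L, Fr V π κ x L) (hg : Prof g g1 g2) (hg0 : ∀ t, 0 ≤ t → 0 ≤ g t) {Kg : ℝ}
    (hKg : ∀ t, 0 ≤ t → g t ≤ Kg) {l l1 lam θ : ℝ} (hl : l ≤ l1)
    (hen : ∀ t ∈ Icc l l1,
      (enOf V π κ (Well_761.cyl x (Real.exp t) univ)).toReal ≤ lam * Real.exp (m * t))
    (hFV : ∀ t ∈ Icc l l1, FV V (X1 π x g t) ≤ θ * Real.exp (m * t)) :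
    MS V π x g l ≤ MS V π x g l1 + (Kg * lam + θ) * (l1 - l) := by
  have hK0 : 0 ≤ Kg := (hg0 0 le_rfl).trans (hKg 0 le_rfl)
  have hmono : MonotoneOn (fun t => MS V π x g t + (Kg * lam + θ) * t) (Icc l l1) := by
    have hd : ∀ t, HasDerivAt (fun t => MS V π x g t + (Kg * lam + θ) * t)
        ((Real.exp (-2 * t) * (RR V π x g1 t - ee V π x g t)
          - Real.exp (-m * t) * FV V (X1 π x g t)) + (Kg * lam + θ) * 1) t := fun t =>
      (hasDerivAt_MS (hfr (t + 1)) hg (by linarith)).add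
        ((hasDerivAt_id t).const_mul (Kg * lam + θ))
    refine monotoneOn_of_deriv_nonneg (convex_Icc l l1)
      (fun t _ => (hd t).continuousAt.continuousWithinAt)
      (fun t _ => (hd t).differentiableAt.differentiableWithinAt) ?_
    intro t ht
    have ht' : t ∈ Icc l l1 := interior_subset ht
    rw [(hd t).deriv]
    have hE := Real.exp_pos (-(m * t) : ℝ)
    have e0 : Real.exp (-m * t) = Real.exp (-(m * t)) := by congr 1; ring
    have e00 : Real.exp (-(m * t)) * Real.exp (m * t) = 1 := by rw [← Real.exp_add]; simp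
    have e1 := ee_le_en (hfr (t + 1)) hg hg0 hKg (by linarith : t < t + 1)
    have e2 : Kg * (Real.exp (-(m * t)) *
        (enOf V π κ (Well_761.cyl x (Real.exp t) univ)).toReal) ≤ Kg * lam := by
      refine mul_le_mul_of_nonneg_left ?_ hK0
      calc Real.exp (-(m * t)) * (enOf V π κ (Well_761.cyl x (Real.exp t) univ)).toReal
          ≤ Real.exp (-(m * t)) * (lam * Real.exp (m * t)) :=
            mul_le_mul_of_nonneg_left (hen t ht') hE.le
        _ = lam * (Real.exp (-(m * t)) * Real.exp (m * t)) := by ring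
        _ = lam := by rw [e00, mul_one]
    have e3 : Real.exp (-m * t) * FV V (X1 π x g t) ≤ θ := by
      rw [e0]
      calc Real.exp (-(m * t)) * FV V (X1 π x g t)
          ≤ Real.exp (-(m * t)) * (θ * Real.exp (m * t)) :=
            mul_le_mul_of_nonneg_left (hFV t ht') hE.le
        _ = θ * (Real.exp (-(m * t)) * Real.exp (m * t)) := by ring
        _ = θ := by rw [e00, mul_one]
    have e4 : 0 ≤ Real.exp (-2 * t) * RR V π x g1 t :=
      mul_nonneg (Real.exp_pos _).le (RR_nonneg' hg (hfr (t + 1)) x t)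
    nlinarith
  have := hmono (left_mem_Icc.2 hl) (right_mem_Icc.2 hl) hl
  simp only at this
  linarith

/-- mass of a solid cylinder from the kernel mass of a larger one -/
theorem mass_cyl_le_MS (h : Fr V π κ x L₀) (hg : Prof g g1 g2) (hg0 : ∀ t, 0 ≤ t → 0 ≤ g t)
    {c a : ℝ} (hc : 0 < c)
    (hgc : ∀ t, 0 ≤ t → t ≤ Real.exp (-2 * a) → c ≤ g t) {l : ℝ} (hl : l + a ≤ L₀) :
    muOf V π κ (Well_761.cyl x (Real.exp l) univ) ≤
      ENNReal.ofReal (c⁻¹ * (Real.exp (m * (l + a)) * MS V π x g (l + a))) := by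
  have hcm : MeasurableSet (Well_761.cyl x (Real.exp l) (univ : Set (Euc n))) :=
    Metric.isClosed_closedBall.measurableSet.prod MeasurableSet.univ
  have i0 := h.integrable_c (c := fun _ => (1:ℝ)) (C := 1) aestronglyMeasurable_const
    ae_one_bound hg.k0 hl
  have e1 : Real.exp (m * (l + a)) * MS V π x g (l + a) =
      ∫ p, 1 * g (Real.exp (-2 * (l + a)) * ‖π p.1 - x‖ ^ 2) ∂V := by
    unfold MS
    rw [← mul_assoc, ← Real.exp_add]
    have : (m * (l + a) + -m * (l + a) : ℝ) = 0 := by ring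
    rw [this, Real.exp_zero, one_mul]
  rw [e1, ← integral_const_mul]
  unfold muOf
  rw [Measure.map_apply (measurable_bh π κ) hcm]
  have hnn : 0 ≤ᵐ[V] fun p => c⁻¹ * (1 * g (Real.exp (-2 * (l + a)) * ‖π p.1 - x‖ ^ 2)) := by
    refine Eventually.of_forall fun p => ?_
    have := hg0 (Real.exp (-2 * (l + a)) * ‖π p.1 - x‖ ^ 2) (by positivity)
    simp only [Pi.zero_apply]
    positivity
  rw [ofReal_integral_eq_lintegral_ofReal (i0.const_mul _) hnn]
  rw [← lintegral_indicator_one (measurable_bh (m := m) π κ hcm)]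
  refine lintegral_mono fun p => ?_
  by_cases hp : p ∈ bh π κ ⁻¹' Well_761.cyl x (Real.exp l) univ
  · rw [indicator_of_mem hp, Pi.one_apply]
    have h1 : ‖π p.1 - x‖ ≤ Real.exp l := by
      have := hp.1
      rwa [Metric.mem_closedBall, bh, dist_eq_norm] at this
    have h2 : Real.exp (-2 * (l + a)) * ‖π p.1 - x‖ ^ 2 ≤ Real.exp (-2 * a) := by
      calc Real.exp (-2 * (l + a)) * ‖π p.1 - x‖ ^ 2 ≤
          Real.exp (-2 * (l + a)) * Real.exp l ^ 2 := by gcongr
        _ = Real.exp (-2 * a) := by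
          rw [← Real.exp_nat_mul, ← Real.exp_add]; congr 1; push_cast; ring
    have h3 := hgc _ (by positivity) h2
    rw [← ENNReal.ofReal_one]
    refine ENNReal.ofReal_le_ofReal ?_
    rw [one_mul, ← div_eq_inv_mul, le_div_iff₀ hc, one_mul]
    exact h3
  · rw [indicator_of_notMem hp]
    exact zero_le

/-- **upper mass bound of solid cylinders at good centres** -/
theorem mass_cyl_le (hfr : ∀ L, Fr V π κ x L) (hg : Prof g g1 g2) (hg0 : ∀ t, 0 ≤ t → 0 ≤ g t)
    {Kg : ℝ} (hKg : ∀ t, 0 ≤ t → g t ≤ Kg) {c a : ℝ} (hc : 0 < c)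
    (hgc : ∀ t, 0 ≤ t → t ≤ Real.exp (-2 * a) → c ≤ g t) {l l1 lam θ C1 : ℝ} (hl : l + a ≤ l1)
    (hen : ∀ t ∈ Icc (l + a) l1,
      (enOf V π κ (Well_761.cyl x (Real.exp t) univ)).toReal ≤ lam * Real.exp (m * t))
    (hFV : ∀ t ∈ Icc (l + a) l1, FV V (X1 π x g t) ≤ θ * Real.exp (m * t))
    (htop : MS V π x g l1 ≤ C1) :
    muOf V π κ (Well_761.cyl x (Real.exp l) univ) ≤
      ENNReal.ofReal (c⁻¹ * Real.exp (m * a) * (C1 + (Kg * lam + θ) * (l1 - l - a)) *
        Real.exp (m * l)) := by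
  refine (mass_cyl_le_MS (hfr (l + a)) hg hg0 hc hgc le_rfl).trans
    (ENNReal.ofReal_le_ofReal ?_)
  have h1 := MS_le hfr hg hg0 hKg hl hen hFV
  have h2 : Real.exp (m * (l + a)) = Real.exp (m * a) * Real.exp (m * l) := by
    rw [← Real.exp_add]; congr 1; ring
  calc c⁻¹ * (Real.exp (m * (l + a)) * MS V π x g (l + a))
      ≤ c⁻¹ * (Real.exp (m * (l + a)) * (C1 + (Kg * lam + θ) * (l1 - (l + a)))) := by
        have : 0 < c⁻¹ := inv_pos.2 hc
        gcongr
        linarith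
    _ = _ := by rw [h2]; ring

/-- the top value is bounded by the mass -/
theorem MS_le_mass (h : Fr V π κ x L₀) (hg : Prof g g1 g2) (hg0 : ∀ t, 0 ≤ t → 0 ≤ g t)
    {Kg : ℝ} (hKg : ∀ t, 0 ≤ t → g t ≤ Kg) {l : ℝ} (hl : l ≤ L₀) :
    MS V π x g l ≤ Kg * (Real.exp (-(m * l)) *
      (V {p | ‖π p.1 - x‖ ^ 2 < Real.exp (2 * l)}).toReal) := by
  have hK0 : 0 ≤ Kg := (hg0 0 le_rfl).trans (hKg 0 le_rfl)
  have hfin : V {p | ‖π p.1 - x‖ ^ 2 < Real.exp (2 * l)} ≠ ⊤ := by
    refine ne_top_of_le_ne_top h.fin.ne (measure_mono ?_)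
    intro p (hp : ‖π p.1 - x‖ ^ 2 < Real.exp (2 * l))
    exact lt_of_lt_of_le hp (Real.exp_le_exp.2 (by linarith))
  have i0 := h.integrable_c (c := fun _ => (1:ℝ)) (C := 1) aestronglyMeasurable_const
    ae_one_bound hg.k0 hl
  have h1 : ∫ p, 1 * g (Real.exp (-2 * l) * ‖π p.1 - x‖ ^ 2) ∂V ≤
      Kg * (V {p | ‖π p.1 - x‖ ^ 2 < Real.exp (2 * l)}).toReal := by
    have hM := measurableSet_base π x l
    have e1 : Kg * (V {p | ‖π p.1 - x‖ ^ 2 < Real.exp (2 * l)}).toReal =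
        ∫ _p in {p : Euc k × L k | ‖π p.1 - x‖ ^ 2 < Real.exp (2 * l)}, Kg ∂V := by
      rw [setIntegral_const, smul_eq_mul, mul_comm]; rfl
    rw [e1, ← integral_indicator hM]
    have hI : IntegrableOn (fun _ : Euc k × L k => Kg)
        {p | ‖π p.1 - x‖ ^ 2 < Real.exp (2 * l)} V := integrableOn_const hfin
    refine integral_mono i0 (hI.integrable_indicator hM) fun p => ?_
    by_cases hp : p ∈ {p : Euc k × L k | ‖π p.1 - x‖ ^ 2 < Real.exp (2 * l)}
    · rw [indicator_of_mem hp, one_mul]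
      exact hKg _ (by positivity)
    · rw [indicator_of_notMem hp, one_mul, hg.k0.zero _ (one_le_of_not hp)]
  unfold MS
  have e0 : Real.exp (-m * l) = Real.exp (-(m * l)) := by congr 1; ring
  rw [e0]
  calc Real.exp (-(m * l)) * ∫ p, 1 * g (Real.exp (-2 * l) * ‖π p.1 - x‖ ^ 2) ∂V
      ≤ Real.exp (-(m * l)) * (Kg * (V {p | ‖π p.1 - x‖ ^ 2 < Real.exp (2 * l)}).toReal) :=
        mul_le_mul_of_nonneg_left h1 (Real.exp_pos _).le
    _ = _ := by ring

/-! ### the support -/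

/-- the support of the push-forward -/
def TT (V : Measure (Euc k × L k)) (π : Euc k →L[ℝ] Euc m) (κ : Euc k →L[ℝ] Euc n) :
    Set (Euc m × Euc n) := (muOf V π κ).support

theorem null_TT (V : Measure (Euc k × L k)) (π : Euc k →L[ℝ] Euc m) (κ : Euc k →L[ℝ] Euc n) :
    muOf V π κ (TT V π κ)ᶜ = 0 := Measure.measure_compl_support

/-- **lower mass bound at all points of the support** from the bound at `V`-almost all points -/
theorem lower_TT (hs : Split π κ) {c0 : ℝ}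
    (hlow : ∀ᵐ p ∂V, ∀ r, 0 < r → ‖π p.1 - x₀‖ + r ≤ ρ₀ →
      ENNReal.ofReal (c0 * r ^ m) ≤ V (Metric.closedBall p.1 r ×ˢ univ))
    {x : Euc m} {y : Euc n} (hxy : (x, y) ∈ TT V π κ) {r : ℝ} (hr : 0 < r)
    (hdom : dist x x₀ + r ≤ ρ₀) :
    ENNReal.ofReal (c0 * r ^ m) ≤ muOf V π κ (Well_761.cyl x r (Metric.closedBall y r)) := by
  -- smaller radii
  have key : ∀ r', 0 < r' → r' < r →
      ENNReal.ofReal (c0 * r' ^ m) ≤ muOf V π κ (Well_761.cyl x r (Metric.closedBall y r)) := by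
    intro r' hr' hrr
    set ε := r - r' with hε
    have hε0 : 0 < ε := by linarith
    have hpos : 0 < muOf V π κ (Metric.ball (x, y) ε) :=
      (Measure.mem_support_iff_forall _).1 hxy _ (Metric.ball_mem_nhds _ hε0)
    have hmap : muOf V π κ (Metric.ball (x, y) ε) = V (bh π κ ⁻¹' Metric.ball (x, y) ε) := by
      unfold muOf
      rw [Measure.map_apply (measurable_bh π κ) Metric.isOpen_ball.measurableSet]
    rw [hmap] at hpos
    have hfreq : ∃ p, p ∈ bh π κ ⁻¹' Metric.ball (x, y) ε ∧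
        ∀ r, 0 < r → ‖π p.1 - x₀‖ + r ≤ ρ₀ →
          ENNReal.ofReal (c0 * r ^ m) ≤ V (Metric.closedBall p.1 r ×ˢ univ) := by
      by_contra hcon
      push Not at hcon
      have h0 : V (bh π κ ⁻¹' Metric.ball (x, y) ε) = 0 := by
        refine measure_mono_null ?_ (ae_iff.1 hlow)
        intro p hp
        obtain ⟨r, h1, h2, h3⟩ := hcon p hp
        intro hcon2
        exact absurd (hcon2 r h1 h2) (not_le.2 h3)
      rw [h0] at hpos
      exact lt_irrefl _ hpos
    obtain ⟨p, hp, hpl⟩ := hfreq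
    have hp' : dist (π p.1) x < ε ∧ dist (κ p.1) y < ε := by
      have h1 : dist (bh π κ p) (x, y) < ε := hp
      rw [Prod.dist_eq, max_lt_iff] at h1
      exact h1
    have hd : ‖π p.1 - x₀‖ + r' ≤ ρ₀ := by
      have h1 : dist (π p.1) x₀ ≤ dist (π p.1) x + dist x x₀ := dist_triangle _ _ _
      rw [← dist_eq_norm]
      linarith [hp'.1]
    refine (hpl r' hr' hd).trans ?_
    have hcm : MeasurableSet (Well_761.cyl x r (Metric.closedBall y r)) :=
      Metric.isClosed_closedBall.measurableSet.prod Metric.isClosed_closedBall.measurableSet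
    unfold muOf
    rw [Measure.map_apply (measurable_bh π κ) hcm]
    refine measure_mono ?_
    rintro q ⟨hq, -⟩
    rw [Metric.mem_closedBall, dist_eq_norm] at hq
    have hn := hs.norm_sq (q.1 - p.1)
    have hq2 : ‖q.1 - p.1‖ ^ 2 ≤ r' ^ 2 := pow_le_pow_left₀ (norm_nonneg _) hq 2
    have h1 : ‖π (q.1 - p.1)‖ ≤ r' :=
      (sq_le_sq₀ (norm_nonneg _) hr'.le).1 (by nlinarith [sq_nonneg ‖κ (q.1 - p.1)‖])
    have h2 : ‖κ (q.1 - p.1)‖ ≤ r' :=
      (sq_le_sq₀ (norm_nonneg _) hr'.le).1 (by nlinarith [sq_nonneg ‖π (q.1 - p.1)‖])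
    rw [map_sub, ← dist_eq_norm] at h1 h2
    refine ⟨?_, ?_⟩
    · rw [Metric.mem_closedBall]
      have := dist_triangle (π q.1) (π p.1) x
      change dist (π q.1) x ≤ r
      linarith [hp'.1]
    · rw [Metric.mem_closedBall]
      have := dist_triangle (κ q.1) (κ p.1) y
      change dist (κ q.1) y ≤ r
      linarith [hp'.2]
  -- limit
  have hcont : Tendsto (fun r' : ℝ => ENNReal.ofReal (c0 * r' ^ m)) (𝓝[<] r)
      (𝓝 (ENNReal.ofReal (c0 * r ^ m))) := by
    have h1 : Continuous fun r' : ℝ => ENNReal.ofReal (c0 * r' ^ m) :=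
      ENNReal.continuous_ofReal.comp (continuous_const.mul (continuous_pow m))
    exact h1.continuousAt.tendsto.mono_left nhdsWithin_le_nhds
  refine le_of_tendsto hcont ?_
  have h2 : ∀ᶠ r' in 𝓝[<] r, 0 < r' ∧ r' < r := by
    have h3 : Ioo 0 r ∈ 𝓝[<] r := Ioo_mem_nhdsLT hr
    exact h3
  filter_upwards [h2] with r' hr'
  exact key r' hr'.1 hr'.2

end Crest.Agent.R234.Wi_870
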