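import Crest.Agent.R234.We8_822
import Crest.Agent.R234.We5_822
import Crest.Agent.R234.Wi4_870
import Crest.Agent.R234.N5a_372

/-!
Row 234 (helper822), VF-CROSS part 7: node N7 on varifolds: if every set over `ball x s` whose
projection is small carries little tilt energy (N5), then the energy at crossing heights over
`ball x s` is small, and `0 ≤ e - e_F` is small at all centres `x'` with `|x' - x| + e^l ≤ s`.
-/

set_option autoImplicit false

open MeasureTheory Set Function Filter Topology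
open Crest.GeometryTopology.Submanifold
open Crest.Agent.R234.Vf_884 Crest.Agent.R234.Ar_870 Crest.Agent.R234.Cy_870
open Crest.Agent.R234.Wi_870
open scoped ENNReal NNReal InnerProductSpace

noncomputable section

namespace Crest.Agent.R234.We_822

variable {m n k : ℕ} {π : Euc k →L[ℝ] Euc m} {κ : Euc k →L[ℝ] Euc n} {x x₀ : Euc m}
  {V : Measure (Euc k × L k)} {g g1 g2 : ℝ → ℝ}

/-- the energy of solid cylinders is the base energy of balls -/
theorem enOf_cyl (V : Measure (Euc k × L k)) (π : Euc k →L[ℝ] Euc m) (κ : Euc k →L[ℝ] Euc n)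
    (x : Euc m) (r : ℝ) :
    enOf V π κ (Well_761.cyl x r univ) = N5_372.eM V π (Metric.closedBall x r) := by
  have hcm : MeasurableSet (Well_761.cyl x r (univ : Set (Euc n))) :=
    Metric.isClosed_closedBall.measurableSet.prod MeasurableSet.univ
  unfold enOf N5_372.eM N5_372.bm
  rw [Measure.map_apply (measurable_bh π κ) hcm,
    Measure.map_apply (N5_372.measurable_base π) Metric.isClosed_closedBall.measurableSet]
  congr 1
  ext p
  simp [bh, Well_761.cyl]

theorem muOf_cyl_ne_top (hfr : ∀ L₀, Fr V π κ x L₀) (r : ℝ) :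
    muOf V π κ (Well_761.cyl x r univ) ≠ ⊤ := by
  have hcm : MeasurableSet (Well_761.cyl x r (univ : Set (Euc n))) :=
    Metric.isClosed_closedBall.measurableSet.prod MeasurableSet.univ
  obtain ⟨L₀, hL₀⟩ : ∃ L₀ : ℝ, |r| < Real.exp L₀ := by
    refine ⟨Real.log (|r| + 1), ?_⟩
    rw [Real.exp_log (by positivity)]
    linarith
  unfold muOf
  rw [Measure.map_apply (measurable_bh π κ) hcm]
  refine ne_top_of_le_ne_top (hfr L₀).fin.ne (measure_mono ?_)
  intro p hp
  have h1 : ‖π p.1 - x‖ ≤ r := by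
    have := hp.1
    rwa [Metric.mem_closedBall, bh, dist_eq_norm] at this
  have h2 : ‖π p.1 - x‖ < Real.exp L₀ := lt_of_le_of_lt (h1.trans (le_abs_self r)) hL₀
  simp only [mem_ofPred_eq]
  have h3 : ‖π p.1 - x‖ ^ 2 < Real.exp L₀ ^ 2 :=
    pow_lt_pow_left₀ h2 (norm_nonneg _) two_ne_zero
  rw [← Real.exp_nat_mul] at h3
  exact_mod_cast h3

theorem enOf_cyl_ne_top (hfr : ∀ L₀, Fr V π κ x L₀) (r : ℝ) :
    enOf V π κ (Well_761.cyl x r univ) ≠ ⊤ := by
  have hcm : MeasurableSet (Well_761.cyl x r (univ : Set (Euc n))) :=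
    Metric.isClosed_closedBall.measurableSet.prod MeasurableSet.univ
  obtain ⟨L₀, hL₀⟩ : ∃ L₀ : ℝ, |r| < Real.exp L₀ := by
    refine ⟨Real.log (|r| + 1), ?_⟩
    rw [Real.exp_log (by positivity)]
    linarith
  have hpre : MeasurableSet (bh π κ ⁻¹' Well_761.cyl x r (univ : Set (Euc n))) :=
    measurable_bh (m := m) π κ hcm
  unfold enOf
  rw [Measure.map_apply (measurable_bh π κ) hcm, withDensity_apply _ hpre]
  have hsub : bh π κ ⁻¹' Well_761.cyl x r (univ : Set (Euc n)) ⊆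
      {p | ‖π p.1 - x‖ ^ 2 < Real.exp (2 * L₀)} := by
    intro p hp
    have h1 : ‖π p.1 - x‖ ≤ r := by
      have := hp.1
      rwa [Metric.mem_closedBall, bh, dist_eq_norm] at this
    have h2 : ‖π p.1 - x‖ < Real.exp L₀ := lt_of_le_of_lt (h1.trans (le_abs_self r)) hL₀
    simp only [mem_ofPred_eq]
    have h3 : ‖π p.1 - x‖ ^ 2 < Real.exp L₀ ^ 2 :=
      pow_lt_pow_left₀ h2 (norm_nonneg _) two_ne_zero
    rw [← Real.exp_nat_mul] at h3
    exact_mod_cast h3
  have hint := We_822.integrableOn_tl (hfr L₀) hsub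
  have h1 := hint.2
  refine ne_top_of_le_ne_top h1.ne (lintegral_mono fun p => ?_)
  rw [← ofReal_norm]
  exact ENNReal.ofReal_le_ofReal (le_abs_self _)

/-- the crossing energy of the wells -/
theorem wells_crossing_energy {L₀ : ℝ} (h : Fr V π κ x L₀) {C : Finset (Euc n)} {q : ℝ}
    (hq : 0 < q) (hC : Well_761.Sep C q) (hg : Ker g g1) (hg0 : ∀ t, 0 ≤ t → 0 ≤ g t) {Kg : ℝ}
    (hKg : ∀ t, 0 ≤ t → g t ≤ Kg) {l : ℝ} (hl : l ≤ L₀) :
    0 ≤ ee V π x g l - eF V π κ x (Well_761.wellsH C q) g l ∧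
      ee V π x g l - eF V π κ x (Well_761.wellsH C q) g l ≤
        Real.exp ((2 - m) * l) * ((2 + Well_761.etaC / 8) * Kg *
          enr V π κ x (Real.exp l) (away (C : Set (Euc n)) (q / 8))) := by
  have ht := Well_761.test_wells hq hC
  refine crossing_energy h (test_c2w ht).contH (KH := 2 + Well_761.etaC / 8) ?_ ?_
    (measurableSet_away _ _) ?_ hg hg0 hKg hl
  · intro y
    calc ‖ContinuousLinearMap.id ℝ (Euc n) - Well_761.wellsH C q y‖
        ≤ ‖ContinuousLinearMap.id ℝ (Euc n)‖ + ‖Well_761.wellsH C q y‖ := norm_sub_le _ _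
      _ ≤ 1 + (1 + Well_761.etaC / 8) :=
          add_le_add ContinuousLinearMap.norm_id_le (ht.bA y)
      _ = _ := by ring
  · exact fun y v => Well_761.wellsH_le_sq hq hC y v
  · intro y hy
    have : ∃ c ∈ C, ‖y - c‖ < q / 8 := by
      by_contra hcon
      push Not at hcon
      exact hy fun c hc => hcon c hc
    obtain ⟨c, hc, hlt⟩ := this
    exact (Well_761.wells_eq_sq hq hC hc hlt.le).2.2

/-- **NODE N7 on varifolds**: energy at crossing heights over `ball x s` -/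
theorem cross_enr {L' : Type*} [NormedAddCommGroup L'] [NormedSpace ℝ L']
    [FiniteDimensional ℝ L'] [MeasurableSpace L'] [BorelSpace L']
    (ν : Measure L') [ν.IsAddHaarMeasure] (hL : Module.finrank ℝ L' + 2 = m)
    (hfr : ∀ y L₀, Fr V π κ y L₀) {R : Euc m → ℝ → ℝ} {er : Euc m → ℝ → ℝ → ℝ}
    {K ρ₀ Kκ cκ : ℝ}
    (hfl : Well_761.Flow m (kap g1) (muOf V π κ) (enOf V π κ) R er K x₀ ρ₀) (hK : 0 < K)
    (hκ : Well_761.Ker (kap g1) Kκ cκ) {c0 : ℝ} (hc0 : 0 < c0)
    {C : Finset (Euc n)} {q s s' t e0 : ℝ}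
    (hlow : ∀ x' ∈ Metric.closedBall x s, ∀ p, (x', p) ∈ TT V π κ →
      ENNReal.ofReal (c0 * (q / 128) ^ m) ≤
        muOf V π κ (Well_761.cyl x' (q / 128) (Metric.closedBall p (q / 128))))
    (hq : 0 < q) (hC : Well_761.Sep C q) (hqs : q ≤ 32 * s') (hs : 0 < s)
    (hst : s + s' ≤ Real.exp t / 2) (hdom : dist x x₀ + (s + s') ≤ ρ₀)
    (hup : Well_761.nu m (kap g1) (muOf V π κ) x t (Well_761.wells C q) ≤
      27 / 65536 * cκ ^ 2 * (c0 / 4 ^ m) / Kκ * (s' / Real.exp t) ^ m * q ^ 2)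
    (her0 : 0 ≤ e0)
    (her1 : ∀ x' ∈ Metric.closedBall x s,
      (∀ l ∈ Icc (Real.log (q / 32)) (Real.log s'), enS m (enOf V π κ) x' l <
        cX m cκ c0 K * (q / 8) ^ 2 / (1 + Real.log (32 * s' / q))) →
      ∀ l ∈ Icc (Real.log (q / 32)) (Real.log s'), er x' l (q / 8) ≤ e0)
    (her : e0 * Real.log (32 * s' / q) ≤ 3 / 262144 * cκ * (c0 / 4 ^ m) * q ^ 2)
    {Kp : ℝ≥0} {pL : Euc m → L'} (hpL : LipschitzWith Kp pL) {G' θ' w : ℝ}
    (hG0 : 0 ≤ G')
    (hG : N5_372.eM V π (Metric.closedBall x (s + s')) ≤ ENNReal.ofReal G')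
    (hθ : (5 * Kp) ^ (m - 2) * (ν (Metric.ball 0 1)).toReal * G' *
      (1 + Real.log (32 * s' / q)) ≤ θ' * (cX m cκ c0 K * (q / 8) ^ 2))
    (hw : 0 ≤ w)
    (hN5 : ∀ N : Set (Euc m), N ⊆ Metric.ball x s → ν (pL '' N) ≤ ENNReal.ofReal θ' →
      N5_372.eM V π N ≤ ENNReal.ofReal w) :
    enr V π κ x s (away (C : Set (Euc n)) (q / 8)) ≤ w := by
  have hs'0 : 0 < s' := by linarith
  have hcont := cross_content_flow' (m := m) ν hL hfl hK hκ (T := TT V π κ) hc0 (x := x)
    hlow hq hC hqs hst hdom (muOf_cyl_ne_top (hfr x) _) (enOf_cyl_ne_top (hfr x) _) hup her0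
    her1 her hpL
  rw [enOf_cyl] at hcont
  have hlog0 : 0 ≤ Real.log (32 * s' / q) := by
    refine Real.log_nonneg ?_
    rw [le_div_iff₀ hq]
    linarith
  have hcκ := hκ.cpos
  have hcX : 0 < cX m cκ c0 K * (q / 8) ^ 2 := by unfold cX; positivity
  have hκ₀ : 0 < cX m cκ c0 K * (q / 8) ^ 2 / (1 + Real.log (32 * s' / q)) := by positivity
  set κ₀ := cX m cκ c0 K * (q / 8) ^ 2 / (1 + Real.log (32 * s' / q)) with hκ₀def
  have hνb : ν (Metric.ball 0 1) ≠ ⊤ := Metric.isBounded_ball.measure_lt_top.ne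
  have hθ'0 : 0 ≤ θ' := by
    have h1 : 0 ≤ (5 * (Kp:ℝ)) ^ (m - 2) * (ν (Metric.ball 0 1)).toReal * G' *
      (1 + Real.log (32 * s' / q)) := by positivity
    exact nonneg_of_mul_nonneg_left (h1.trans hθ) hcX
  -- content of the crossing set
  have hcs : ν (pL '' crossSet (TT V π κ) x s (C : Set (Euc n)) (q / 8)) ≤
      ENNReal.ofReal θ' := by
    have h1 : ENNReal.ofReal ((5 * (Kp:ℝ)) ^ (m - 2)) * ν (Metric.ball 0 1) *
        N5_372.eM V π (Metric.closedBall x (s + s')) ≤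
        ENNReal.ofReal ((5 * (Kp:ℝ)) ^ (m - 2) * (ν (Metric.ball 0 1)).toReal * G') := by
      rw [ENNReal.ofReal_mul (by positivity), ENNReal.ofReal_mul (by positivity),
        ENNReal.ofReal_toReal hνb]
      gcongr
    have h2 : (5 * (Kp:ℝ)) ^ (m - 2) * (ν (Metric.ball 0 1)).toReal * G' ≤ κ₀ * θ' := by
      rw [hκ₀def, div_mul_eq_mul_div, le_div_iff₀ (by positivity)]
      linarith
    have h3 := (hcont.trans h1).trans (ENNReal.ofReal_le_ofReal h2)
    rw [ENNReal.ofReal_mul hκ₀.le] at h3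
    exact (ENNReal.mul_le_mul_iff_right (by simpa using hκ₀) ENNReal.ofReal_ne_top).1 h3
  set N : Set (Euc m) := crossSet (TT V π κ) x s (C : Set (Euc n)) (q / 8) ∩ Metric.ball x s
    with hN
  have h1 := hN5 N inter_subset_right ((measure_mono (image_mono inter_subset_left)).trans hcs)
  have hT : ∀ᵐ p ∂V, bh π κ p ∈ TT V π κ := by
    have h2 : ∀ᵐ z ∂(muOf V π κ), z ∈ TT V π κ := by
      rw [ae_iff]; exact null_TT V π κ
    exact ae_of_ae_map (measurable_bh π κ).aemeasurable h2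
  have hse : Real.exp (Real.log s) = s := Real.exp_log hs
  have h2 := enr_le_enM (hfr x (Real.log s)) (le_refl (Real.log s))
    (measurableSet_away (C : Set (Euc n)) (q / 8)) (N := N) (by
      filter_upwards [hT] with p hp hpz
      rw [hse] at hpz
      obtain ⟨hz1, hz2⟩ := hpz
      refine ⟨⟨?_, κ p.1, hp, hz2⟩, ?_⟩
      · rw [Metric.mem_closedBall, dist_eq_norm]; exact le_of_lt hz1
      · rw [Metric.mem_ball, dist_eq_norm]; exact hz1)
  rw [hse] at h2
  exact (ENNReal.ofReal_le_ofReal_iff hw).1 (h2.trans h1)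

/-- **`e - e_F` at all centres near `x`** -/
theorem cross_node (hfr : ∀ y L₀, Fr V π κ y L₀) {C : Finset (Euc n)} {q s w : ℝ}
    (hq : 0 < q) (hC : Well_761.Sep C q) (hg : Ker g g1) (hg0 : ∀ t, 0 ≤ t → 0 ≤ g t) {Kg : ℝ}
    (hKg : ∀ t, 0 ≤ t → g t ≤ Kg) {x' : Euc m} {l : ℝ} (hx' : ‖x' - x‖ + Real.exp l ≤ s)
    (henr : enr V π κ x s (away (C : Set (Euc n)) (q / 8)) ≤ w) :
    0 ≤ ee V π x' g l - eF V π κ x' (Well_761.wellsH C q) g l ∧
      ee V π x' g l - eF V π κ x' (Well_761.wellsH C q) g l ≤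
        (2 + Well_761.etaC / 8) * Kg * (Real.exp ((2 - m) * l) * w) := by
  obtain ⟨h1, h2⟩ := wells_crossing_energy (hfr x' l) hq hC hg hg0 hKg le_rfl
  refine ⟨h1, h2.trans ?_⟩
  have hKg0 : 0 ≤ Kg := (hg0 0 le_rfl).trans (hKg 0 le_rfl)
  have he := Well_761.etaC_nonneg
  have hs : 0 < s := by
    have := norm_nonneg (x' - x)
    have := Real.exp_pos l
    linarith
  have h3 : enr V π κ x' (Real.exp l) (away (C : Set (Euc n)) (q / 8)) ≤
      enr V π κ x s (away (C : Set (Euc n)) (q / 8)) := by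
    unfold enr
    refine setIntegral_mono_set ?_ ?_ ?_
    · refine We_822.integrableOn_tl (hfr x (Real.log s)) ?_
      intro p hp
      have h4 : ‖π p.1 - x‖ < s := hp.1
      simp only [mem_ofPred_eq]
      have h5 : ‖π p.1 - x‖ ^ 2 < s ^ 2 := pow_lt_pow_left₀ h4 (norm_nonneg _) two_ne_zero
      have h6 : Real.exp (2 * Real.log s) = s ^ 2 := by
        rw [mul_comm, Real.exp_mul, Real.exp_log hs]
        norm_cast
      rwa [h6]
    · refine ae_restrict_of_ae ?_
      filter_upwards [(hfr x 0).conc] with p hp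
      exact tl_nonneg (hfr x 0).sp.hh (isPr_of_G hp)
    · refine LE.le.eventuallyLE ?_
      intro p hp
      refine ⟨?_, hp.2⟩
      have h4 : ‖π p.1 - x'‖ < Real.exp l := hp.1
      have h5 : ‖π p.1 - x‖ ≤ ‖π p.1 - x'‖ + ‖x' - x‖ :=
        norm_sub_le_norm_sub_add_norm_sub _ _ _
      change ‖π p.1 - x‖ < s
      linarith
  have hE := Real.exp_pos ((2 - m) * l)
  calc Real.exp ((2 - m) * l) * ((2 + Well_761.etaC / 8) * Kg *
        enr V π κ x' (Real.exp l) (away (C : Set (Euc n)) (q / 8)))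
      ≤ Real.exp ((2 - m) * l) * ((2 + Well_761.etaC / 8) * Kg * w) := by
        have := h3.trans henr
        gcongr
    _ = _ := by ring

end Crest.Agent.R234.We_822
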