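import Crest.Agent.R234.Well10_761

/-!
Row 234, VF-N8AV (helper761), file 11: N8 at one averaged contact centre in the class `CylAS`.
-/

set_option autoImplicit false
set_option linter.unusedSectionVars false

open MeasureTheory Set Function Filter Topology Metric
open Crest.GeometryTopology.Submanifold
open Crest.Agent.R234.Vf_884 Crest.Agent.R234.Ar_870 Crest.Agent.R234.Cy_870
open Crest.Agent.R234.Wi_870 Crest.Agent.R234.Asl_214 Crest.Agent.R234.Avg_387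
open Crest.Agent.R234.Shp_98
open scoped ENNReal NNReal InnerProductSpace

noncomputable section

namespace Crest.Agent.R234.Well_761

/-- facts about the profile -/
structure PC (g g1 g2 : ℝ → ℝ) (K c cg : ℝ) : Prop where
  pr : Prof g g1 g2
  b : Bd g g1 K
  b1 : Bd g1 g2 K
  g0 : ∀ t, 0 ≤ t → 0 ≤ g t
  c0 : 0 < c
  g1c : ∀ t, 0 ≤ t → t ≤ 1 / 4 → g1 t ≤ -c
  cg0 : 0 < cg
  gc : ∀ t, 0 ≤ t → t ≤ Real.exp (-2 * (1 / 4)) → cg ≤ g t

/-- the constant of the flow -/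
def Kw (K : ℝ) : ℝ := K * (1 + etaC / 8) + K * (22 + 3 / 2 * (2 + etaC / 8))

/-- the constant of the errors -/
def Cw (K : ℝ) : ℝ := K * (15 + etaC / 8)

/-- the constant of the averaged centre -/
def C5 (m : ℕ) (K c M : ℝ) : ℝ :=
  max 1 (max (2 * K / (2 * c) * 4 ^ m * M) (2 * K / (2 * c) * 4 ^ m / M))

/-- the constant of the energy -/
def Cen (m : ℕ) (cg M : ℝ) : ℝ := cg⁻¹ * M⁻¹ * Real.exp (4 * (m - 2))

variable {m n k : ℕ} {π : Euc k →L[ℝ] Euc m} {κ : Euc k →L[ℝ] Euc n} {x x₀ : Euc m}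
  {R h₀ δ τ ρ₀ K c cg : ℝ} {V W : Measure (Euc k × L k)} {g g1 g2 : ℝ → ℝ} {d : Euc m → ℝ}

theorem PC.K0 (P : PC g g1 g2 K c cg) : 0 ≤ K := P.b.nonneg

theorem PC.Kpos (P : PC g g1 g2 K c cg) : 0 < K := by
  have h1 := P.g1c 0 le_rfl (by norm_num)
  have h2 := (abs_le.1 (P.b.b1 0 le_rfl)).1
  have h3 := P.c0
  linarith

theorem PC.ker (P : PC g g1 g2 K c cg) : Ker (kap g1) (2 * K) (2 * c) :=
  ker_kap P.pr P.b.b1 P.c0 P.g1c

theorem Kw_nonneg (hK : 0 ≤ K) : 0 ≤ Kw K := by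
  have := etaC_nonneg
  unfold Kw; positivity

theorem Cw_nonneg (hK : 0 ≤ K) : 0 ≤ Cw K := by
  have := etaC_nonneg
  unfold Cw; positivity

theorem one_le_C5 (m : ℕ) (K c M : ℝ) : 1 ≤ C5 m K c M := le_max_left _ _

theorem enOf_ne_top (h : CylAS W π κ x₀ R h₀ δ) (S : Set (Euc m × Euc n)) :
    enOf W π κ S ≠ ⊤ := by
  refine ne_top_of_le_ne_top ?_ (measure_mono (subset_univ S))
  unfold enOf
  rw [Measure.map_apply (measurable_bh π κ) MeasurableSet.univ, preimage_univ,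
    withDensity_apply _ MeasurableSet.univ, Measure.restrict_univ]
  have h1 : ∫⁻ p, ENNReal.ofReal (tl π p.2) ∂W ≤ ∫⁻ _p, ENNReal.ofReal m ∂W := by
    refine lintegral_mono_ae ?_
    filter_upwards [h.conc] with p hp
    exact ENNReal.ofReal_le_ofReal (tl_le h.sp.hh (isPr_of_G hp))
  refine ne_top_of_le_ne_top ?_ h1
  rw [lintegral_const]
  exact ENNReal.mul_ne_top ENNReal.ofReal_ne_top h.fin.ne

theorem geo_as (h : CylAS W π κ x₀ R h₀ δ) {c0 : ℝ} (hc0 : 0 < c0)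
    (hlow : ∀ᵐ p ∂W, ∀ r, 0 < r → ‖π p.1 - x₀‖ + r ≤ ρ₀ →
      ENNReal.ofReal (c0 * r ^ m) ≤ W (Metric.closedBall p.1 r ×ˢ univ)) :
    Geo m (muOf W π κ) (TT W π κ) c0 x₀ ρ₀ where
  null := null_TT W π κ
  cpos := hc0
  lower _ _ hxy _ hr hdom := lower_TT h.sp hlow hxy hr hdom

theorem exp_four_ge : (54 : ℝ) ≤ Real.exp 4 := by
  have h1 := Real.exp_one_gt_d9
  have h2 : Real.exp 4 = Real.exp 1 ^ 4 := by
    rw [← Real.exp_nat_mul]; norm_num
  rw [h2]
  have h3 : (2.718 : ℝ) ≤ Real.exp 1 := by linarith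
  calc (54 : ℝ) ≤ 2.718 ^ 4 := by norm_num
    _ ≤ _ := pow_le_pow_left₀ (by norm_num) h3 4

theorem exp_half_ge : (1 / 9 : ℝ) ≤ Real.exp (-2 * (1 / 4)) := by
  have h := Real.add_one_le_exp (-2 * (1 / 4) : ℝ)
  linarith

set_option maxHeartbeats 1000000 in
/-- **N8 at one averaged contact centre**, class `CylAS`. -/
theorem net_pt (P : PC g g1 g2 K c cg) (h : CylAS W π κ x₀ R h₀ δ) (h0 : 0 ≤ δ) (hδ : δ ≤ 1)
    (hh : 0 ≤ h₀) (hh1 : h₀ ≤ 1) (hρ : ρ₀ ≤ R) (hρ1 : ρ₀ ≤ 1)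
    (hd : CW d τ) (hτ : 0 ≤ τ) {M : ℝ} (hM : ∫ z, d z = M) (hM0 : 0 < M)
    {c0 C1 : ℝ} (hc0 : 0 < c0) (hC1 : 0 ≤ C1)
    (hlow : ∀ᵐ p ∂W, ∀ r, 0 < r → ‖π p.1 - x₀‖ + r ≤ ρ₀ →
      ENNReal.ofReal (c0 * r ^ m) ≤ W (Metric.closedBall p.1 r ×ˢ univ))
    {L0 t : ℝ} (htop : ∀ y l, dist y x₀ + Real.exp l ≤ ρ₀ → L0 ≤ l →
      We_822.muR W π κ y l ≤ C1 * Real.exp (m * l))
    (hτ0 : τ ≤ 3 / 4 * Real.exp L0)
    {N : ℕ} (hN1 : 1 ≤ N) (hN : 2 ^ m * We_822.CMU m cg (1 / 4) K C1 1 / c0 ≤ N)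
    {Θ E c2 c1 Lg A : ℝ} (ht : 1 ≤ t) (hdom : dist x x₀ + 17 * Real.exp (L0 + t) ≤ ρ₀)
    (hE : 0 < E) (hEe : eea d W π g x (L0 + t + 4) ≤ E) (hc2 : 0 ≤ c2)
    (hmas : c2 * Real.exp (m * (L0 + t)) ≤ We_822.muR W π κ x (L0 + t))
    (hA : 1 ≤ A) (hΘ : 0 < Θ) (hLg1 : 1 ≤ Lg)
    (hLg : Real.log (64 * Real.exp (L0 + t + 1) / √(Θ * t * E)) ≤ Lg)
    (hw1 : Θ * t * E * Lg ≤ Real.exp (2 * (L0 + t))) (hw5 : 4 * δ * Lg ≤ 1)
    (hwh : (16 * Real.exp (L0 + t)) ^ 2 * h₀ ^ 2 ≤ Θ * t * E)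
    (hsmall : cg⁻¹ * Real.exp (m * (1 / 4)) * (4 * K * δ * h₀ ^ 2) * (2 * Lg) ≤ 1 / 2)
    (hA1 : 3 * C5 m K c M * (2 * K * We_822.CMU m cg (1 / 4) K C1 1 / (2 * A ^ 2) +
      60 * Kw K * (2 * 80 ^ m * Cen m cg M * 1 / Θ) +
      (Kw K * (2 * 80 ^ m * Cen m cg M * 1 / Θ) +
        3 * Cw K * We_822.CMU m cg (1 / 4) K C1 1 * δ * Lg)) ≤ c1 / 2)
    (hA2 : 128 * (2 * 80 ^ m * Cen m cg M * 1) ≤ Θ)
    (hA3 : 3 * (60 * Kw K * (2 * 80 ^ m * Cen m cg M * 1 / Θ) +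
      (Kw K * (2 * 80 ^ m * Cen m cg M * 1 / Θ) +
        3 * Cw K * We_822.CMU m cg (1 / 4) K C1 1 * δ * Lg)) <
      Real.exp (-m) * (2 * c * c2) * M / C5 m K c M / 128) :
    ∃ v : WCfg (Euc n), Θ * t * E ≤ v.q ^ 2 ∧ v.q ^ 2 ≤ A ^ (2 * N) * (Θ * t * E) ∧
      ∀ l ∈ Icc (L0 + t) (L0 + t + 1),
        2 * Nav d W π κ g1 x l (wells v.C v.q) ≤ c1 * v.q ^ 2 := by
  have hK0 := P.K0
  have hg := P.pr
  have hker := P.ker
  have hfr := h.fr
  have hCμ := We_822.CMU_nonneg (m := m) (a := 1 / 4) P.cg0 hK0 hC1 (zero_le_one (α := ℝ))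
  have hCen : 0 ≤ Cen m cg M := by
    unfold Cen
    have := P.cg0
    positivity
  have hwf : WFlow m (kap g1) (muOf W π κ) (enOf W π κ) (CylAS.erwF W π κ (Cw K) δ h₀) (Kw K)
      (4 * δ) x₀ ρ₀ :=
    h.wflow h0 hδ hρ (hρ1.trans (by norm_num)) hg (fun t ht => (le_abs_self _).trans (P.b.b0 t ht))
      P.b P.b1
  have hgeo := geo_as h hc0 hlow
  have hs0 := Real.exp_pos (L0 + t)
  have hexpt : Real.exp L0 * Real.exp t = Real.exp (L0 + t) := (Real.exp_add _ _).symm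
  have het : 2.7 ≤ Real.exp t := by
    have h1 := Real.exp_le_exp.2 ht
    have h2 := Real.exp_one_gt_d9
    linarith
  have hL0s : 2.7 * Real.exp L0 ≤ Real.exp (L0 + t) := by
    rw [← hexpt, mul_comm]
    exact mul_le_mul_of_nonneg_left het (Real.exp_pos _).le
  have hcen : Centre m (kap g1) (muOf W π κ) x (L0 + t) (L0 + t + 1)
      (fun l F => Nav d W π κ g1 x l F) (C5 m K c M) := by
    refine centre_av hfr hτ hd hg hker ?_ (by rw [hM]; exact hM0) (one_le_C5 m K c M) ?_ ?_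
    · refine hτ0.trans ?_
      linarith [Real.exp_pos L0]
    · rw [hM]
      exact (le_max_left _ _).trans (le_max_right _ _)
    · rw [hM, ← div_le_iff₀ hM0]
      exact (le_max_right _ _).trans (le_max_right _ _)
  have hone : Real.exp (L0 + t) ≤ 1 / 17 := by
    have := dist_nonneg (x := x) (y := x₀)
    linarith
  -- the energy
  have he : (enOf W π κ (cyl x (17 * Real.exp (L0 + t)) univ)).toReal ≤
      Cen m cg M * Real.exp (m * (L0 + t)) * Real.exp (-(2 * (L0 + t))) * E := by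
    have h1 := enOf_cyl_le_eea (x := x) (r := 17 * Real.exp (L0 + t)) (l := L0 + t + 4) (ρ := 1 / 3)
      (κ := κ) hfr hτ hd hg P.g0 P.cg0 (by norm_num)
      (fun s hs0 hs => P.gc s hs0 (hs.trans (by linarith [exp_half_ge]))) (by
        rw [Real.exp_add (L0 + t) 4]
        have h2 : Real.exp (L0 + t) * 54 ≤ Real.exp (L0 + t) * Real.exp 4 :=
          mul_le_mul_of_nonneg_left exp_four_ge hs0.le
        linarith)
    rw [hM, ← le_div_iff₀ hM0] at h1
    refine h1.trans ?_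
    have h2 : Real.exp ((m - 2) * (L0 + t + 4)) =
        Real.exp (m * (L0 + t)) * Real.exp (-(2 * (L0 + t))) * Real.exp (4 * (m - 2)) := by
      rw [← Real.exp_add, ← Real.exp_add]; congr 1; ring
    have hcgi : 0 < cg⁻¹ := inv_pos.2 P.cg0
    calc cg⁻¹ * (Real.exp ((m - 2) * (L0 + t + 4)) * eea d W π g x (L0 + t + 4)) / M
        ≤ cg⁻¹ * (Real.exp ((m - 2) * (L0 + t + 4)) * E) / M := by
          refine div_le_div_of_nonneg_right ?_ hM0.le
          exact mul_le_mul_of_nonneg_left (mul_le_mul_of_nonneg_left hEe (Real.exp_pos _).le)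
            hcgi.le
      _ = _ := by
          rw [h2]
          unfold Cen
          ring
  -- mass at the contact centre
  have hmass : Real.exp (-m) * (2 * c * c2) * M ≤
      Nav d W π κ g1 x (L0 + t + 1) (fun _ => (1 : ℝ)) := by
    have h1 := le_Nav (x := x) (r := Real.exp (L0 + t)) (l := L0 + t + 1) hfr hτ hd hg hker (by
      rw [Real.exp_add (L0 + t) 1]
      have h2 := Real.exp_one_gt_d9
      have h3 : Real.exp (L0 + t) * 2.7 ≤ Real.exp (L0 + t) * Real.exp 1 :=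
        mul_le_mul_of_nonneg_left (by linarith) hs0.le
      linarith)
    refine le_trans ?_ h1
    rw [hM]
    refine mul_le_mul_of_nonneg_right ?_ hM0.le
    have h2 : Real.exp (-(m * (L0 + t + 1))) = Real.exp (-m) * Real.exp (-(m * (L0 + t))) := by
      rw [← Real.exp_add]; congr 1; ring
    have h3 : Real.exp (-(m * (L0 + t))) * Real.exp (m * (L0 + t)) = 1 := by
      rw [← Real.exp_add, neg_add_cancel, Real.exp_zero]
    have hc := P.c0
    calc Real.exp (-m) * (2 * c * c2)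
        = Real.exp (-m) * Real.exp (-(m * (L0 + t))) *
          (2 * c * (c2 * Real.exp (m * (L0 + t)))) := by
          linear_combination (-(Real.exp (-m) * (2 * c * c2))) * h3
      _ ≤ Real.exp (-m) * Real.exp (-(m * (L0 + t))) *
          (2 * c * (muOf W π κ (cyl x (Real.exp (L0 + t)) univ)).toReal) := by
          refine mul_le_mul_of_nonneg_left ?_ (by positivity)
          exact mul_le_mul_of_nonneg_left hmas (by positivity)
      _ = _ := by rw [h2]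
  have hΘt : 0 < Θ * t * E := by positivity
  obtain ⟨w, w1, w2, w3⟩ := hnet (m := m) (by simp) hwf hker hCμ hgeo hN1 hN hcen (x := x)
    (L0 := L0) (t := t) (A := A) (Θ := Θ) (Ce := Cen m cg M) (C3 := 1)
    (cm := Real.exp (-m) * (2 * c * c2) * M) (c1 := c1) (Lg := Lg) (E := E) (e3 := E)
    (θw := 3 * Cw K * We_822.CMU m cg (1 / 4) K C1 1 * δ)
    le_rfl le_rfl hdom (enOf_ne_top h _) ht hE hCen zero_le_one hA hΘ
    (by have := Cw_nonneg hK0; positivity) he (by rw [one_mul]) (by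
      intro x' l q _ hl hq _ _ _ hmu
      refine erwF_le (Cw_nonneg hK0) h0 hCμ hmu ?_ ?_ ?_
      · have h1 : Real.exp (2 * l) ≤ (16 * Real.exp (L0 + t)) ^ 2 := by
          have h2 : Real.exp (2 * l) = Real.exp l ^ 2 := by
            rw [← Real.exp_nat_mul]; push_cast; rfl
          rw [h2]
          exact pow_le_pow_left₀ (Real.exp_pos l).le hl 2
        have h3 : Θ * t * E ≤ q ^ 2 := by
          have h4 := pow_le_pow_left₀ (Real.sqrt_nonneg _) hq 2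
          rwa [Real.sq_sqrt hΘt.le] at h4
        calc h₀ ^ 2 * Real.exp (2 * l) ≤ h₀ ^ 2 * (16 * Real.exp (L0 + t)) ^ 2 :=
              mul_le_mul_of_nonneg_left h1 (sq_nonneg _)
          _ = (16 * Real.exp (L0 + t)) ^ 2 * h₀ ^ 2 := by ring
          _ ≤ _ := hwh.trans h3
      · have h2 : Real.exp (2 * l) = Real.exp l ^ 2 := by
          rw [← Real.exp_nat_mul]; push_cast; rfl
        rw [h2]
        have h3 : Real.exp l ≤ 1 := by linarith
        exact pow_le_one₀ (Real.exp_pos l).le h3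
      · exact pow_le_one₀ hh hh1)
    (by
      intro x' l0 l1 lam hx' hl1 hl2 hl0 _ hLg' hlam0 _ hen hlam
      have h1 : Real.exp l1 ≤ 11 * Real.exp (L0 + t) := by
        have h2 := Real.exp_le_exp.2 hl2
        rw [Real.exp_add, Real.exp_add, Real.exp_log (by norm_num)] at h2
        have h3 := Real.exp_one_lt_d9
        have h4 : Real.exp (L0 + t) * Real.exp 1 ≤ Real.exp (L0 + t) * 2.75 :=
          mul_le_mul_of_nonneg_left (by linarith) hs0.le
        linarith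
      have hdx : dist x' x₀ + Real.exp l1 ≤ ρ₀ := by
        have h2 := dist_triangle x' x x₀
        rw [dist_comm x' x] at h2
        linarith
      have hl10 : l1 ≤ 0 := by
        rw [← Real.exp_le_one_iff]
        linarith
      refine hms_as h h0 hδ hh hg P.g0 P.b P.cg0 P.gc hl0 (a := 1 / 4) (by norm_num) hl10
        (hdx.trans hρ) hlam0 hC1 hlam hen (htop x' l1 hdx (by linarith)) ?_
      refine le_trans ?_ hsmall
      have hcgi : 0 < cg⁻¹ := inv_pos.2 P.cg0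
      refine mul_le_mul_of_nonneg_left (by linarith) (by positivity))
    (by have := P.c0; positivity) hmass hLg1 hLg hw1 hw5 hA1 hA2 hA3
  exact ⟨w, w1, w2, w3⟩

end Crest.Agent.R234.Well_761
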