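import Crest.Agent.R234.Well12_761
import Crest.Agent.R234.Ins1_387
import Crest.Agent.R234.Sml3_870
import Crest.Agent.R234.Core4_809
import Crest.Agent.R234.Fldc1_387

/-!
Row 234, VF-N8AV (helper761), file 13: mass bounds of the class, the profile `(1 - t)₊⁴`.
-/

set_option autoImplicit false
set_option linter.unusedSectionVars false

open MeasureTheory Set Function Filter Topology Metric
open Crest.GeometryTopology.Submanifold
open Crest.Agent.R234.Vf_884 Crest.Agent.R234.Ar_870 Crest.Agent.R234.Cy_870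
open Crest.Agent.R234.Wi_870 Crest.Agent.R234.Asl_214 Crest.Agent.R234.Avg_387
open Crest.Agent.R234.Core_809
open scoped ENNReal NNReal InnerProductSpace

noncomputable section

namespace Crest.Agent.R234.Well_761

variable {m n k : ℕ} {π : Euc k →L[ℝ] Euc m} {κ : Euc k →L[ℝ] Euc n} {x₀ : Euc m}
  {R h₀ δ : ℝ} {W : Measure (Euc k × L k)}

/-- **lower mass bound of the cylinders** at the scales above `A h₀` -/
theorem mass_low (m Q : ℕ) (hQ : 1 ≤ Q) {C₀ : ℝ} (hC₀ : 0 ≤ C₀) : ∃ A c : ℝ, 1 ≤ A ∧ 0 < c ∧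
    ∀ {n k : ℕ} {π : Euc k →L[ℝ] Euc m} {κ : Euc k →L[ℝ] Euc n} {W : Measure (Euc k × L k)}
      {N : Euc m → ℝ≥0∞} {h₀ δ : ℝ}, Crs_173.In W π κ N Q C₀ h₀ δ → δ ≤ c → h₀ ^ 2 ≤ c →
      ∫ p, tl π p.2 ∂W ≤ c → ∀ x ∈ closedBall (0 : Euc m) 3, ∀ l : ℝ, A * h₀ ≤ Real.exp l →
      Real.exp l ≤ 1 / 4 → Th_164.om m / 2 * Real.exp (m * l) ≤ We_822.muR W π κ x l := by
  have hom := Th_164.om_pos m
  obtain ⟨A, c, hA, hc, -, hT⟩ := Crs_173.coarse m Q hC₀ (ε := Th_164.om m / 2) (by positivity)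
  refine ⟨A, c, hA, hc, ?_⟩
  intro n k π κ W N h₀ δ h hδ hh hE x hx l hl hl4
  have hfin : IsFiniteMeasure W := ⟨h.cyl.fin⟩
  have hr := Real.exp_pos l
  obtain ⟨h1, -, -⟩ := hT h hδ hh hE x hx (Real.exp l) hr hl hl4
  obtain ⟨r, hrd⟩ : ∃ r, r = Real.exp l := ⟨_, rfl⟩
  rw [← hrd] at h1 hr hl4
  have hB4 : ball x r ⊆ ball (0 : Euc m) 4 := by
    intro y hy
    rw [mem_closedBall_zero_iff] at hx
    rw [mem_ball_iff_norm] at hy
    rw [mem_ball_zero_iff]
    have := norm_add_le (y - x) x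
    rw [sub_add_cancel] at this
    linarith
  have hNi : IntegrableOn (fun y => (N y).toReal) (ball x r) :=
    (h.area.integrableOn h.cyl.sp.hh h.cyl.conc measurableSet_ball).mono_set hB4
  have hci : IntegrableOn (fun _ : Euc m => (Q : ℝ)) (ball x r) :=
    integrableOn_const measure_ball_lt_top.ne
  have h2 : (Q : ℝ) * (Th_164.om m * r ^ m) - Th_164.om m / 2 * r ^ m ≤
      ∫ y in ball x r, (N y).toReal := by
    have h3 : ∫ y in ball x r, ((N y).toReal - (Q : ℝ)) =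
        (∫ y in ball x r, (N y).toReal) - (Q : ℝ) * (Th_164.om m * r ^ m) := by
      rw [integral_sub hNi hci, setIntegral_const, Th_164.vol_ball x hr, smul_eq_mul]
      ring
    have h4 : |∫ y in ball x r, ((N y).toReal - (Q : ℝ))| ≤
        ∫ y in ball x r, |(N y).toReal - (Q : ℝ)| := abs_integral_le_integral_abs
    have h5 := (abs_le.1 (h4.trans h1)).1
    rw [h3] at h5
    linarith
  have hQ1 : (1 : ℝ) ≤ Q := by exact_mod_cast hQ
  have h3 : Th_164.om m / 2 * r ^ m ≤ ∫ y in ball x r, (N y).toReal := by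
    refine le_trans ?_ h2
    have h4 : 0 ≤ Th_164.om m * r ^ m := by positivity
    have h5 := mul_le_mul_of_nonneg_right hQ1 h4
    linarith
  have hlt : ∀ᵐ y ∂(volume.restrict (ball x r)), N y < ⊤ := by
    have h4 := h.area.ae_lt_top h.cyl.sp.hh h.cyl.conc measurableSet_ball
    exact ae_restrict_of_ae_restrict_of_subset hB4 h4
  have h4 : ∫ y in ball x r, (N y).toReal = (∫⁻ y in ball x r, N y).toReal :=
    integral_toReal h.area.meas.aemeasurable hlt
  have h5 : ∫⁻ y in ball x r, N y ≤ W ((fun p : Euc k × L k => π p.1) ⁻¹' ball x r) := by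
    rw [h.area.lintegral_N measurableSet_ball hB4]
    calc ∫⁻ p in (fun p : Euc k × L k => π p.1) ⁻¹' ball x r, ENNReal.ofReal (Jh π p.2) ∂W
        ≤ ∫⁻ _p in (fun p : Euc k × L k => π p.1) ⁻¹' ball x r, 1 ∂W := by
          refine lintegral_mono_ae (ae_restrict_of_ae ?_)
          filter_upwards [h.cyl.conc] with p hp
          rw [ENNReal.ofReal_le_one]
          exact Jh_le_one h.cyl.sp.hh (isPr_of_G hp)
      _ = _ := by rw [setLIntegral_one]
  have h6 : W ((fun p : Euc k × L k => π p.1) ⁻¹' ball x r) ≤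
      muOf W π κ (cyl x (Real.exp l) univ) := by
    have hcm : MeasurableSet (cyl x (Real.exp l) (univ : Set (Euc n))) :=
      Metric.isClosed_closedBall.measurableSet.prod MeasurableSet.univ
    unfold muOf
    rw [Measure.map_apply (measurable_bh π κ) hcm]
    refine measure_mono ?_
    intro p hp
    refine ⟨?_, mem_univ _⟩
    rw [← hrd]
    exact ball_subset_closedBall hp
  have h7 : muOf W π κ (cyl x (Real.exp l) univ) ≠ ⊤ := by
    have hcm : MeasurableSet (cyl x (Real.exp l) (univ : Set (Euc n))) :=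
      Metric.isClosed_closedBall.measurableSet.prod MeasurableSet.univ
    unfold muOf
    rw [Measure.map_apply (measurable_bh π κ) hcm]
    exact measure_ne_top W _
  have h8 : (∫⁻ y in ball x r, N y).toReal ≤ We_822.muR W π κ x l :=
    ENNReal.toReal_mono h7 (h5.trans h6)
  have h9 : Real.exp (m * l) = r ^ m := by
    rw [hrd, ← Real.exp_nat_mul]
  rw [h9]
  rw [h4] at h3
  exact h3.trans h8

/-- **upper mass bound of the cylinders** -/
theorem mass_up {C₀ : ℝ} (h : CylAS W π κ x₀ R h₀ δ)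
    (hub : ∀ (z : Euc k) (r : ℝ), 0 < r → W.real (closedBall z r ×ˢ univ) ≤ C₀ * r ^ m)
    (y : Euc m) {l : ℝ} (hl : h₀ ≤ Real.exp l) :
    We_822.muR W π κ y l ≤ C₀ * 2 ^ m * Real.exp (m * l) := by
  have : IsFiniteMeasure W := ⟨h.fin⟩
  have hr := Real.exp_pos l
  have h1 := hub (ContinuousLinearMap.adjoint π y) (2 * Real.exp l) (by positivity)
  have hcm : MeasurableSet (cyl y (Real.exp l) (univ : Set (Euc n))) :=
    Metric.isClosed_closedBall.measurableSet.prod MeasurableSet.univ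
  have h9 : Real.exp (m * l) = Real.exp l ^ m := by
    rw [← Real.exp_nat_mul]
  have e1 : C₀ * 2 ^ m * Real.exp (m * l) = C₀ * (2 * Real.exp l) ^ m := by
    rw [h9, mul_pow]; ring
  rw [e1]
  refine le_trans ?_ h1
  unfold We_822.muR muOf Measure.real
  rw [Measure.map_apply (measurable_bh π κ) hcm]
  refine ENNReal.toReal_mono (measure_ne_top W _) ?_
  refine measure_mono_ae ?_
  filter_upwards [h.hgt] with p hp hpm
  refine ⟨?_, mem_univ _⟩
  rw [mem_closedBall, dist_eq_norm]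
  have h2 : ContinuousLinearMap.adjoint π (π p.1) + ContinuousLinearMap.adjoint κ (κ p.1) = p.1 :=
    congrArg (fun T : L k => T p.1) h.sp.sum
  have h3 : p.1 - ContinuousLinearMap.adjoint π y =
      ContinuousLinearMap.adjoint π (π p.1 - y) + ContinuousLinearMap.adjoint κ (κ p.1) := by
    nth_rewrite 1 [← h2]
    rw [map_sub]
    abel
  rw [h3]
  have h4 : ‖π p.1 - y‖ ≤ Real.exp l := by
    have h5 : π p.1 ∈ closedBall y (Real.exp l) := hpm.1
    rwa [mem_closedBall_iff_norm] at h5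
  calc _ ≤ ‖ContinuousLinearMap.adjoint π (π p.1 - y)‖ +
        ‖ContinuousLinearMap.adjoint κ (κ p.1)‖ := norm_add_le _ _
    _ ≤ ‖π p.1 - y‖ + ‖κ p.1‖ :=
        add_le_add (norm_adj_pi_apply h.sp _) (norm_adj_kap_apply h.sp _)
    _ ≤ Real.exp l + Real.exp l := add_le_add h4 (hp.trans hl)
    _ = 2 * Real.exp l := by ring

/-- **lower density bound at all radii at once** -/
theorem low_all {Q : ℕ} {D : ℝ} {U : Set (Euc k)} {Dd : VarifoldData m k}
    (h : Cls Q δ D π κ U Dd) (hm : 1 ≤ m) (hD1 : D ≤ 1 / 4) :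
    ∀ᵐ p ∂(part π κ Dd), ∀ r, 0 < r → ‖π p.1‖ + r ≤ 1 →
      ENNReal.ofReal (ome m / 2 ^ m / 4 ^ m * r ^ m) ≤
        part π κ Dd (Metric.closedBall p.1 r ×ˢ univ) := by
  have h1 : ∀ᵐ p ∂(part π κ Dd), ∀ q : ℚ, 0 < (q : ℝ) → (q : ℝ) ≤ 1 / 2 → ‖π p.1 - 0‖ + q ≤ 4 →
      ENNReal.ofReal (ome m / 2 ^ m * (q : ℝ) ^ m) ≤
        part π κ Dd (Metric.closedBall p.1 q ×ˢ univ) := by
    rw [ae_all_iff]
    intro q
    by_cases hq : 0 < (q : ℝ) ∧ (q : ℝ) ≤ 1 / 2
    · filter_upwards [Sml_870.low_part h hm hD1 hq.1 hq.2] with p hp _ _ hp2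
      exact hp hp2
    · exact Eventually.of_forall fun p h1 h2 => absurd ⟨h1, h2⟩ hq
  filter_upwards [h1] with p hp r hr hpr
  obtain ⟨q, hq1, hq2⟩ := exists_rat_btwn (show r / 4 < r / 2 by linarith)
  have hr1 : r ≤ 1 := by linarith [norm_nonneg (π p.1)]
  have hq0 : (0 : ℝ) < q := by linarith
  have h2 := hp q hq0 (by linarith) (by rw [sub_zero]; linarith)
  have hom := ome_pos m
  refine le_trans (ENNReal.ofReal_le_ofReal ?_) (h2.trans (measure_mono ?_))
  · have h3 : (r / 4) ^ m ≤ (q : ℝ) ^ m := pow_le_pow_left₀ (by linarith) hq1.le m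
    have h4 : ome m / 2 ^ m / 4 ^ m * r ^ m = ome m / 2 ^ m * (r / 4) ^ m := by
      rw [div_pow]; ring
    rw [h4]
    exact mul_le_mul_of_nonneg_left h3 (by positivity)
  · exact prod_mono (closedBall_subset_closedBall (by linarith)) subset_rfl

/-! ### the profile -/

theorem bd_w0 : Bd w0.θ w0.θ' 12 where
  b0 t ht := by
    obtain ⟨h1, h2⟩ := Fld_387.mx_le ht
    have h5 := pow_le_one₀ h1 h2 (n := 4)
    have h6 := pow_nonneg h1 4
    change |(max (1 - t) 0) ^ 4| ≤ 12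
    rw [abs_of_nonneg h6]
    linarith
  b1 t ht := Fld_387.w0_bd.b0 t ht
  b2 t ht := by
    obtain ⟨h1, h2⟩ := Fld_387.mx_le ht
    have h5 := pow_le_one₀ h1 h2 (n := 3)
    have h6 := pow_nonneg h1 3
    change |t * (-(4 * (max (1 - t) 0) ^ 3))| ≤ 12
    rcases le_or_gt t 1 with h | h
    · rw [mul_neg, abs_neg, abs_of_nonneg (by positivity)]
      have h7 : t * (4 * (max (1 - t) 0) ^ 3) ≤ 1 * (4 * (max (1 - t) 0) ^ 3) :=
        mul_le_mul_of_nonneg_right h (by positivity)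
      linarith
    · rw [max_eq_right (by linarith)]
      norm_num

theorem exp_half_le : Real.exp (-2 * (1 / 4)) ≤ 2 / 3 := by
  have h1 := Real.add_one_le_exp (2 * (1 / 4) : ℝ)
  have h2 : Real.exp (-2 * (1 / 4)) * Real.exp (2 * (1 / 4)) = 1 := by
    rw [← Real.exp_add]; simp
  have h3 := Real.exp_pos (-2 * (1 / 4))
  have h4 : Real.exp (-2 * (1 / 4)) * (3 / 2) ≤ Real.exp (-2 * (1 / 4)) * Real.exp (2 * (1 / 4)) :=
    mul_le_mul_of_nonneg_left (by linarith) h3.le
  linarith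

/-- the profile facts for `(1 - t)₊⁴` -/
theorem pc0 : PC w0.θ w0.θ' w2 12 1 (1 / 81) where
  pr := prof0
  b := bd_w0
  b1 := Fld_387.w0_bd
  g0 t _ := w0.nonneg t
  c0 := one_pos
  g1c t h0 h1 := by
    change -(4 * (max (1 - t) 0) ^ 3) ≤ -1
    have h2 : max (1 - t) 0 = 1 - t := max_eq_left (by linarith)
    rw [h2]
    have h3 := pow_le_pow_left₀ (by norm_num : (0:ℝ) ≤ 3 / 4) (show 3 / 4 ≤ 1 - t by linarith) 3
    norm_num at h3 ⊢
    linarith
  cg0 := by norm_num
  gc t h0 h1 := by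
    have h4 := exp_half_le
    change 1 / 81 ≤ (max (1 - t) 0) ^ 4
    have h2 : max (1 - t) 0 = 1 - t := max_eq_left (by linarith)
    rw [h2]
    have h3 := pow_le_pow_left₀ (by norm_num : (0:ℝ) ≤ 1 / 3) (show 1 / 3 ≤ 1 - t by linarith) 4
    norm_num at h3 ⊢
    linarith

end Crest.Agent.R234.Well_761
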