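import Crest.Agent.R234.Well13_761
import Crest.Agent.R234.Fldc5_387
import Crest.Agent.R234.Bds6_214

/-!
Row 234, VF-N8AV (helper761), file 14: **`Core_809.NNet`**.
-/

set_option autoImplicit false
set_option linter.unusedSectionVars false

open MeasureTheory Set Function Filter Topology Metric
open Crest.GeometryTopology.Submanifold
open Crest.Agent.R234.Vf_884 Crest.Agent.R234.Ar_870 Crest.Agent.R234.Cy_870
open Crest.Agent.R234.Wi_870 Crest.Agent.R234.Asl_214 Crest.Agent.R234.Avg_387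
open Crest.Agent.R234.Core_809 Crest.Agent.R234.Fld_387
open scoped ENNReal NNReal InnerProductSpace

noncomputable section

namespace Crest.Agent.R234.Well_761

local notation "PX" => Crest.Agent.R234.Par_504.X

/-- the comparisons of powers used by N8 -/
theorem net_num {b c : ℝ} (β Cm : ℝ) (hb : 1 < b) (hb2 : β < 2 * b) (hc : 0 < c) :
    ∀ᶠ Λ : ℝ in atTop, 32 ≤ Λ ∧ PX (-1) 0 Λ ≤ c ∧ PX 0 (-4) Λ ≤ c ∧ Cm * PX (-1 / 2) 0 Λ ≤
      PX (-1 / 2) b Λ ∧ 1 * PX 0 (-b) Λ ≤ 1 / 4 ∧ 1 * PX 0 (β - 2 * b) Λ ≤ 1 ∧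
      PX (-1 / 2) 0 Λ ≤ 1 / 4 := by
  filter_upwards [eventually_ge_atTop (32:ℝ),
    Par_504.ev_small 1 hc (show Par_504.Lt (-1) 0 0 0 from Or.inl (by norm_num)),
    Par_504.ev_small 1 hc (show Par_504.Lt 0 (-4) 0 0 from Or.inr ⟨rfl, by norm_num⟩),
    Par_504.ev_le Cm (show Par_504.Lt (-1 / 2) 0 (-1 / 2) b from Or.inr ⟨rfl, by linarith⟩),
    Par_504.ev_small 1 (show (0:ℝ) < 1 / 4 by norm_num)
      (show Par_504.Lt 0 (-b) 0 0 from Or.inr ⟨rfl, by linarith⟩),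
    Par_504.ev_small 1 one_pos (show Par_504.Lt 0 (β - 2 * b) 0 0 from Or.inr ⟨rfl, by linarith⟩),
    Par_504.ev_small 1 (show (0:ℝ) < 1 / 4 by norm_num)
      (show Par_504.Lt (-1 / 2) 0 0 0 from Or.inl (by norm_num))]
    with Λ h1 h2 h3 h4 h5 h6 h7
  rw [one_mul] at h2 h3 h7
  exact ⟨h1, h2, h3, h4, h5, h6, h7⟩

set_option maxHeartbeats 1000000 in
/-- **the class facts of N8 for a contact situation** -/
theorem exists_netHyp (m n Q : ℕ) (hm : 3 ≤ m) (hQ : 1 ≤ Q) {K cS a : ℝ} (hK : 9 ≤ K)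
    (hcS : 0 < cS) (ha : 1 ≤ a) :
    ∃ c0 c2 C1 CE β l0 : ℝ, 0 < c0 ∧ 0 < c2 ∧ 0 ≤ C1 ∧ 0 ≤ CE ∧
      ∀ X : Sit m n a, IsSit Q K cS X → l0 ≤ Real.log (Lam X.D) →
      NetHyp w0.θ w0.θ' (Md m) c0 c2 C1 CE β (dd m (tauOf a X.D)) X.V X.π X.κ 4 (√X.D) X.δ
        (tauOf a X.D) (Lam X.D) (s0Of m a X.D) (X.cd Q K cS).l (X.cd Q K cS).T
        (X.cd Q K cS).q1 (X.cd Q K cS).Z (X.cd Q K cS).E (X.cd Q K cS).e (X.cd Q K cS).IF := by
  have hm0 : 0 < m := by lia
  obtain ⟨A, C, l1, hA1, hA, hC, hl1, H⟩ := exists_sit m n Q (by lia) hK hcS ha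
  obtain ⟨CV, l2, hCV, hco⟩ := Bds_214.e_coarse (m := m) (by lia) n Q K cS a ha
  obtain ⟨Am, cm, hAm, hcm, hml⟩ := mass_low m Q hQ (Ins_387.C0_nonneg m Q)
  have hcD := cD_pos hm0 hcS
  have hA0 : 0 < A := by linarith
  have hom := Th_164.om_pos m
  have home := ome_pos m
  have hC0 := Ins_387.C0_nonneg m Q
  obtain ⟨b, hbd⟩ : ∃ b : ℝ, b = 100 * (m + 1) * (a + 1) := ⟨_, rfl⟩
  obtain ⟨β, hβd⟩ : ∃ β : ℝ, β = (2 * m + 3) * a + 1 := ⟨_, rfl⟩
  have hmr : (0:ℝ) ≤ m := Nat.cast_nonneg m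
  have hma : 0 ≤ (m:ℝ) * a := by positivity
  have hb1 : 1 < b := by
    rw [hbd]; nlinarith
  have hβb : β < 2 * b := by
    rw [hβd, hbd]; nlinarith
  obtain ⟨l3, hl3, hnum⟩ := exists_l0 ((net_num (b := b) (c := min cm 1) β Am hb1 hβb
    (lt_min hcm one_pos)).and (eventually_ge_atTop (A / cD m cS)))
  refine ⟨ome m / 2 ^ m / 4 ^ m, Th_164.om m / 2, Ins_387.C0 m Q * 2 ^ m,
    Bds_214.Ce m K A * CV, β, max (max l1 l2) (max l3 1), by positivity, by positivity,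
    by positivity, ?_, ?_⟩
  · unfold Bds_214.Ce
    have : 0 ≤ K := by linarith
    positivity
  intro X hX hl
  have hla : l1 ≤ Real.log (Lam X.D) := (le_max_left _ _).trans ((le_max_left _ _).trans hl)
  have hlb : l2 ≤ Real.log (Lam X.D) := (le_max_right _ _).trans ((le_max_left _ _).trans hl)
  have hlc : l3 ≤ Real.log (Lam X.D) := (le_max_left _ _).trans ((le_max_right _ _).trans hl)
  have hld : 1 ≤ Real.log (Lam X.D) := (le_max_right _ _).trans ((le_max_right _ _).trans hl)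
  have hD := hX.D0
  have hD1 := hX.D1
  have hL := Lam_pos hD hD1
  obtain ⟨hok, hD0, hs0, hsT, hT0, hZ⟩ := H X hX hla
  obtain ⟨⟨n1, n2, n3, n4, n5, n6, n7⟩, n8⟩ := hnum _ hL hlc
  obtain ⟨Λ, hΛ⟩ : ∃ Λ, Λ = Lam X.D := ⟨_, rfl⟩
  have hΛ' : Real.log (1 / X.D) = Λ := by rw [hΛ]; rfl
  have hDX : X.D = PX (-1) 0 Λ := by rw [← hΛ']; exact Par_504.D_eq_X hD
  have hsD : √X.D = PX (-1 / 2) 0 Λ := by rw [← hΛ']; exact Par_504.sqrt_D_eq_X hD
  rw [← hΛ] at n1 n2 n3 n4 n5 n6 n7 n8 hL hla hlb hlc hld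
  have hpow : ∀ p : ℝ, Λ ^ p = PX 0 p Λ := fun p => Par_504.rpow_eq_X hL p
  have hs0X : s0Of m a X.D = PX (-1 / 2) b Λ := by
    unfold s0Of
    rw [← hΛ, hpow, hsD, Par_504.X_mul, hbd]
    congr 1 <;> ring
  have hstX : stOf m a X.D = PX 0 (-b) Λ := by
    unfold stOf
    rw [← hΛ, hpow, hbd]
  have hst0 : 0 < stOf m a X.D := by rw [hstX]; exact Par_504.X_pos _ _ _
  have hexpD : Real.exp (-Λ) = X.D := by
    rw [hDX]
    unfold Par_504.X
    congr 1; ring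
  have hsexp : s0Of m a X.D * Real.exp (TOf m a X.D) = stOf m a X.D := by
    unfold TOf
    rw [Real.exp_log (div_pos hst0 hs0)]
    field_simp
  have hδ4 : X.δ ≤ PX 0 (-4) Λ := by
    have := hX.δ1
    rw [← hΛ, hpow] at this
    exact this
  have hδcm : X.δ ≤ cm := hδ4.trans (n3.trans (min_le_left _ _))
  have hDcm : X.D ≤ cm := by
    rw [hDX]
    exact n2.trans (min_le_left _ _)
  have hcyl := Ins_387.cylAS hX.cls hD1
  have hsD0 : 0 < √X.D := Real.sqrt_pos.2 hD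
  have hsDs0 : √X.D ≤ s0Of m a X.D := by
    have h1 : √X.D * 1 ≤ √X.D * Am := mul_le_mul_of_nonneg_left hAm hsD0.le
    rw [hs0X]
    rw [hsD] at h1 ⊢
    linarith
  have hτ0 : 0 < tauOf a X.D := tauOf_pos hD hD1
  -- one centre
  have hpt : ∀ x ∈ X.Z, Bds_214.Pt (da X Q K cS) (CV * X.D) A (D0f m cS a X.D)
      (Real.log (s0Of m a X.D) - 4) (Real.log (s0Of m a X.D) + TOf m a X.D + 5) x := by
    intro x hx
    obtain ⟨h1, h2⟩ := hZ x hx
    have h3 := h1.at' hok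
    have hx1 : ‖x‖ ≤ 1 := by
      have := h1.hT
      have e1 := Real.exp_pos (Real.log (s0Of m a X.D) + TOf m a X.D + 5)
      have e2 : 0 < (da X Q K cS).τ := hok.τ0
      linarith
    exact Bds_214.pt hok.ok h3 hA hD0 (by linarith) hok.δ1
      (fun l h4 h5 => hco X hX (by rw [← hΛ]; exact hlb) x hx1 l h4 h5) h2
  have htop : (X.cd Q K cS).T = TOf m a X.D := rfl
  have hbot : (X.cd Q K cS).l = Real.log Λ := by rw [hΛ]; rfl
  have hdomx : ∀ x ∈ X.Z, ‖x‖ + stOf m a X.D ≤ 1 ∧ stOf m a X.D ≤ 1 := by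
    intro x hx
    have h1 := (hZ x hx).1.hT
    have h2 : stOf m a X.D ≤ Real.exp (Real.log (s0Of m a X.D) + TOf m a X.D + 5) := by
      rw [Real.exp_add, Real.exp_add, Real.exp_log hs0, hsexp]
      exact le_mul_of_one_le_right hst0.le (Real.one_le_exp (by norm_num))
    have h3 : 0 < (da X Q K cS).τ := hok.τ0
    exact ⟨by linarith, by linarith [norm_nonneg x]⟩
  have hst4 : stOf m a X.D ≤ 1 / 4 := by rw [hstX]; linarith
  rw [← hΛ]
  refine
    { as := hcyl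
      R1 := by norm_num
      δ0 := hX.δ0
      δ1 := ?_
      h0 := hsD0.le
      hD := ?_
      cw := cw_dd hτ0
      cM := integral_dd hτ0
      τ0 := hτ0.le
      τr := ?_
      s0 := hs0
      ha0 := by rw [hbot]; exact hld
      low := low_all hX.cls (by lia) ?_
      top := fun y l _ hl => mass_up hcyl (fun z r hr => Ins_387.ubd hX.cls (by lia) z hr) y
        (hsDs0.trans hl)
      mas := ?_
      dom := ?_
      sbot := ?_
      stop := ?_
      E0 := ?_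
      ee := ?_
      el := ?_
      eu := ?_
      hq1 := ?_
      IFe := ?_ }
  · -- δ1
    have h1 : Λ ^ 2 = PX 0 2 Λ := by
      rw [← hpow]; exact (Real.rpow_two Λ).symm
    rw [h1]
    have h2 : X.δ * PX 0 2 Λ ≤ PX 0 (-4) Λ * PX 0 2 Λ :=
      mul_le_mul_of_nonneg_right hδ4 (Par_504.X_nonneg _ _ _)
    refine h2.trans ?_
    rw [Par_504.X_mul]
    have h3 : PX (0 + 0) (-4 + 2) Λ = Λ ^ (-2 : ℝ) := by
      rw [hpow]; congr 1 <;> norm_num
    rw [h3]
    exact Real.rpow_le_one_of_one_le_of_nonpos (by linarith) (by norm_num)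
  · -- hD
    rw [Real.sq_sqrt hD.le, hexpD]
  · -- τr
    have h1 : tauOf a X.D ≤ √X.D := by
      unfold tauOf hOf
      rw [← hΛ]
      have h2 : Λ ^ (-a) ≤ 1 :=
        Real.rpow_le_one_of_one_le_of_nonpos (by linarith) (by linarith)
      have h3 : √X.D * Λ ^ (-a) ≤ √X.D * 1 := mul_le_mul_of_nonneg_left h2 hsD0.le
      have h4 : 0 ≤ Λ ^ (-a) := Real.rpow_nonneg hL.le _
      have h5 : 0 ≤ √X.D * Λ ^ (-a) := by positivity
      linarith
    have h6 : tauOf a X.D ≤ √X.D / 4 := by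
      unfold tauOf hOf
      rw [← hΛ]
      have h2 : Λ ^ (-a) ≤ 1 :=
        Real.rpow_le_one_of_one_le_of_nonpos (by linarith) (by linarith)
      have h3 : √X.D * Λ ^ (-a) ≤ √X.D * 1 := mul_le_mul_of_nonneg_left h2 hsD0.le
      linarith
    linarith
  · -- D ≤ 1/4
    have h1 : √X.D ≤ 1 / 4 := by rw [hsD]; exact n7
    have h2 : X.D = √X.D * √X.D := (Real.mul_self_sqrt hD.le).symm
    rw [h2]
    nlinarith
  · -- mas
    intro x hx l h1 h2
    rw [htop, hsexp] at h2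
    have hx3 : x ∈ closedBall (0 : Euc m) 3 := by
      rw [mem_closedBall_zero_iff]
      have := (hdomx x hx).1
      linarith
    have hin := Ins_387.in_of_cls hX.cls (by lia) hD1 hX.δ0 X.S
    refine hml hin hδcm (by rw [Real.sq_sqrt hD.le]; exact hDcm) (hX.cls.en.trans hDcm) x hx3 l
      (le_trans ?_ h1) (h2.trans hst4)
    rw [hs0X, hsD]
    exact n4
  · -- dom
    intro x hx
    rw [htop, hsexp]
    exact (hdomx x hx).1
  · -- sbot
    have h1 : Λ ^ 2 = PX 0 2 Λ := by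
      rw [← hpow]; exact (Real.rpow_two Λ).symm
    rw [hexpD, hs0X, hDX, h1, Par_504.X_mul, Par_504.X_pow]
    unfold Par_504.X
    apply Real.exp_le_exp.2
    push_cast
    have h2 : 0 ≤ Real.log Λ := by linarith
    nlinarith
  · -- stop
    rw [htop, hsexp, hstX, hpow, Par_504.X_pow, Par_504.X_mul]
    refine le_trans (le_of_eq ?_) n6
    rw [one_mul]
    congr 1 <;> push_cast <;> ring
  · -- E0
    intro x hx t ht
    have h1 := hpt x hx
    have hc := (hZ x hx).1.ctr hok hA hD0 (by linarith)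
    rw [htop, hbot] at ht
    have e1 : (X.cd Q K cS).E x t = (da X Q K cS).Es x (Real.log (s0Of m a X.D) + t) := by
      rw [add_comm]; rfl
    rw [e1]
    have h2 := h1.Ulow (Real.log (s0Of m a X.D) + t) (by linarith [ht.1]) (by linarith [ht.2])
    have h3 := hc.UE (l := Real.log (s0Of m a X.D) + t) (by linarith [ht.1]) (by linarith [ht.2])
    have h4 : (da X Q K cS).Us x (Real.log (s0Of m a X.D) + t) ≤
        (da X Q K cS).Es x (Real.log (s0Of m a X.D) + t) := h3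
    linarith
  · -- ee
    intro x hx t ht
    have hr := hok.raw (hZ x hx).1.hT
    rw [htop, hbot] at ht
    have e1 : (X.cd Q K cS).e x t = (da X Q K cS).es x (Real.log (s0Of m a X.D) + t) := by
      rw [add_comm]; rfl
    rw [e1]
    exact hr.e_le_es (l := Real.log (s0Of m a X.D) + t) (by linarith [ht.2])
  · -- el
    intro x hx t ht
    have h1 := hpt x hx
    rw [htop, hbot] at ht
    have e1 : (X.cd Q K cS).e x t = (da X Q K cS).es x (Real.log (s0Of m a X.D) + t) := by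
      rw [add_comm]; rfl
    rw [e1, hexpD]
    have h2 := h1.elow (Real.log (s0Of m a X.D) + t) (by linarith [ht.1]) (by linarith [ht.2])
    have hβ : 0 < Λ ^ β := Real.rpow_pos_of_pos hL _
    refine le_trans ?_ (mul_le_mul_of_nonneg_left h2 hβ.le)
    unfold D0f
    rw [← hΛ]
    have h3 : Λ ^ β * Λ ^ (-((2 * m + 3) * a)) = Λ := by
      rw [← Real.rpow_add hL, hβd]
      have : (2 * m + 3) * a + 1 + -((2 * m + 3) * a) = 1 := by ring
      rw [this, Real.rpow_one]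
    have h4 : Λ ^ β * (cD m cS * (Λ ^ (-((2 * m + 3) * a)) * X.D) / A) =
        (Λ ^ β * Λ ^ (-((2 * m + 3) * a))) * cD m cS / A * X.D := by ring
    rw [h4, h3]
    have h5 : 1 ≤ Λ * cD m cS / A := by
      rw [le_div_iff₀ hA0, one_mul]
      rw [div_le_iff₀ hcD] at n8
      exact n8
    exact le_mul_of_one_le_left hD.le h5
  · -- eu
    intro x hx t ht
    have h1 := hpt x hx
    rw [htop, hbot] at ht
    have e1 : (X.cd Q K cS).e x t = (da X Q K cS).es x (Real.log (s0Of m a X.D) + t) := by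
      rw [add_comm]; rfl
    rw [e1, hexpD]
    have h2 := h1.eup (Real.log (s0Of m a X.D) + t) (by linarith [ht.1]) (by linarith [ht.2])
    refine h2.trans (le_of_eq ?_)
    have hKa : (da X Q K cS).K = K := rfl
    rw [hKa]
    ring
  · -- q1
    rw [hexpD]
    have h1 : (X.cd Q K cS).q1 = Λ ^ (2:ℝ) * X.D := by rw [hΛ]; rfl
    rw [h1, Real.rpow_two]
  · -- IF
    intro x _ w t
    change X.aI x w (t + Real.log (s0Of m a X.D)) = _
    rw [add_comm t]
    rfl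

/-- **NNET** : node N8 of the core, literally -/
theorem nnet (m n Q : ℕ) (hm : 3 ≤ m) (hQ : 1 ≤ Q) {K cS a c1 : ℝ} (hK : 9 ≤ K)
    (hcS : 0 < cS) (ha : 1 ≤ a) (hc1 : 0 < c1) : NNet m n Q K cS a c1 := by
  obtain ⟨c0, c2, C1, CE, β, l1, hc0, hc2, hC1, hCE, H⟩ := exists_netHyp m n Q hm hQ hK hcS ha
  intro Θ C3 hΘ
  have hMd : 0 < Md m := Md_pos (by lia)
  obtain ⟨C0, hC0, Λ0, h⟩ := hnet_family m n pc0 hMd hc0 hc2 hC1 hCE β
    (C3 := C3) hc1 hΘ.le
  obtain ⟨l2, hl2, hlam⟩ := exists_l0 (eventually_ge_atTop Λ0)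
  refine ⟨C0, hC0, max l1 l2, ?_⟩
  intro X hX hl
  exact h (Lam X.D) (hlam _ (Lam_pos hX.D0 hX.D1) ((le_max_right _ _).trans hl))
    (H X hX ((le_max_left _ _).trans hl))

end Crest.Agent.R234.Well_761
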