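import Mathlib

/-!
Row 234, VF-WELL (helper761), file 1: multi-well functions of the height variable.
`W` is a real inner product space.  `cut` is a smooth concave function with `cut t = t` for
`t ≤ 1/64` and constant for `1/16 ≤ t`.  `well c q y = q²/2 · cut (|y-c|²/q²)`.
`wells C q = top q - ∑_{c ∈ C} (top q - well c q)`.
-/

set_option autoImplicit false
set_option linter.unusedSectionVars false

open Set Filter Topology MeasureTheory
open scoped ContDiff InnerProductSpace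

noncomputable section

namespace Crest.Agent.R234.Well_761

/-! ### the profile -/

/-- smooth, `1` for `t ≤ 1/64`, `0` for `1/16 ≤ t`, nonincreasing. -/
def eta (t : ℝ) : ℝ := 1 - Real.smoothTransition ((t - 1 / 64) * (64 / 3))

theorem eta_contDiff : ContDiff ℝ ∞ eta := by
  unfold eta
  exact contDiff_const.sub (Real.smoothTransition.contDiff.comp
    ((contDiff_id.sub contDiff_const).mul contDiff_const))

theorem eta_cont : Continuous eta := eta_contDiff.continuous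

theorem eta_nonneg (t : ℝ) : 0 ≤ eta t := by
  unfold eta
  linarith [Real.smoothTransition.le_one ((t - 1 / 64) * (64 / 3))]

theorem eta_le_one (t : ℝ) : eta t ≤ 1 := by
  unfold eta
  linarith [Real.smoothTransition.nonneg ((t - 1 / 64) * (64 / 3))]

theorem eta_eq_one {t : ℝ} (ht : t ≤ 1 / 64) : eta t = 1 := by
  unfold eta
  rw [Real.smoothTransition.zero_of_nonpos (by nlinarith), sub_zero]

theorem eta_eq_zero {t : ℝ} (ht : 1 / 16 ≤ t) : eta t = 0 := by
  unfold eta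
  rw [Real.smoothTransition.one_of_one_le (by linarith), sub_self]

theorem smoothTransition_mono : Monotone Real.smoothTransition := by
  intro x y hxy
  unfold Real.smoothTransition
  have hd : ∀ z : ℝ, 0 < expNegInvGlue z + expNegInvGlue (1 - z) :=
    Real.smoothTransition.pos_denom
  rw [div_le_div_iff₀ (hd x) (hd y)]
  have h1 : expNegInvGlue x ≤ expNegInvGlue y := by
    unfold expNegInvGlue
    split_ifs with h1 h2
    · rfl
    · positivity
    · exact absurd (hxy.trans (by assumption)) (by assumption)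
    · push Not at *
      gcongr
  have h2 : expNegInvGlue (1 - y) ≤ expNegInvGlue (1 - x) := by
    unfold expNegInvGlue
    split_ifs with h1 h2
    · rfl
    · positivity
    · exfalso
      push Not at *
      linarith
    · push Not at *
      have : 1 - y ≤ 1 - x := by linarith
      gcongr
  have h3 := expNegInvGlue.nonneg x
  have h4 := expNegInvGlue.nonneg (1 - x)
  have h5 := expNegInvGlue.nonneg y
  have h6 := expNegInvGlue.nonneg (1 - y)
  nlinarith

theorem eta_anti : Antitone eta := by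
  intro s t hst
  unfold eta
  have := smoothTransition_mono (a := (s - 1 / 64) * (64 / 3)) (b := (t - 1 / 64) * (64 / 3))
    (by linarith)
  linarith

theorem deriv_eta_nonpos (t : ℝ) : deriv eta t ≤ 0 := eta_anti.deriv_nonpos

theorem eta_diff (t : ℝ) : HasDerivAt eta (deriv eta t) t :=
  (eta_contDiff.differentiable (by simp) t).hasDerivAt

theorem deriv_eta_eq_zero_of_lt {t : ℝ} (ht : t < 1 / 64) : deriv eta t = 0 := by
  have h : eta =ᶠ[𝓝 t] fun _ => (1 : ℝ) := by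
    filter_upwards [Iio_mem_nhds ht] with s hs
    exact eta_eq_one (le_of_lt hs)
  rw [h.deriv_eq]; simp

theorem deriv_eta_eq_zero_of_gt {t : ℝ} (ht : 1 / 16 < t) : deriv eta t = 0 := by
  have h : eta =ᶠ[𝓝 t] fun _ => (0 : ℝ) := by
    filter_upwards [Ioi_mem_nhds ht] with s hs
    exact eta_eq_zero (le_of_lt hs)
  rw [h.deriv_eq]; simp

theorem deriv_eta_cont : Continuous (deriv eta) :=
  (eta_contDiff.of_le (by exact_mod_cast le_top)).continuous_deriv_one

theorem deriv_eta_eq_zero_of_le {t : ℝ} (ht : t ≤ 1 / 64) : deriv eta t = 0 := by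
  have hc : IsClosed {s : ℝ | deriv eta s = 0} := isClosed_eq deriv_eta_cont continuous_const
  have hsub : Iio (1 / 64 : ℝ) ⊆ {s : ℝ | deriv eta s = 0} := fun s hs =>
    deriv_eta_eq_zero_of_lt hs
  have := hc.closure_subset_iff.2 hsub
  rw [closure_Iio] at this
  exact this ht

theorem deriv_eta_eq_zero_of_ge {t : ℝ} (ht : 1 / 16 ≤ t) : deriv eta t = 0 := by
  have hc : IsClosed {s : ℝ | deriv eta s = 0} := isClosed_eq deriv_eta_cont continuous_const
  have hsub : Ioi (1 / 16 : ℝ) ⊆ {s : ℝ | deriv eta s = 0} := fun s hs =>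
    deriv_eta_eq_zero_of_gt hs
  have := hc.closure_subset_iff.2 hsub
  rw [closure_Ioi] at this
  exact this ht

/-- a bound for `|eta'|`. -/
theorem exists_deriv_eta_bound : ∃ C : ℝ, 0 ≤ C ∧ ∀ t, -C ≤ deriv eta t := by
  obtain ⟨C, hC⟩ := (isCompact_Icc (a := (1 / 64 : ℝ)) (b := 1 / 16)).exists_bound_of_continuousOn
    deriv_eta_cont.continuousOn
  refine ⟨max C 0, le_max_right _ _, fun t => ?_⟩
  rcases le_total t (1 / 64) with h | h
  · rw [deriv_eta_eq_zero_of_le h]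
    have := le_max_right C 0
    linarith
  rcases le_total (1 / 16) t with h' | h'
  · rw [deriv_eta_eq_zero_of_ge h']
    have := le_max_right C 0
    linarith
  have := hC t ⟨h, h'⟩
  rw [Real.norm_eq_abs] at this
  have h2 := neg_abs_le (deriv eta t)
  have h3 := le_max_left C 0
  linarith

/-- the constant `C₁` with `-C₁ ≤ eta'`. -/
def etaC : ℝ := exists_deriv_eta_bound.choose

theorem etaC_nonneg : 0 ≤ etaC := exists_deriv_eta_bound.choose_spec.1

theorem neg_etaC_le (t : ℝ) : -etaC ≤ deriv eta t := exists_deriv_eta_bound.choose_spec.2 t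

/-- the primitive of `eta`. -/
def cut (t : ℝ) : ℝ := ∫ u in (0 : ℝ)..t, eta u

theorem cut_hasDerivAt (t : ℝ) : HasDerivAt cut (eta t) t :=
  intervalIntegral.integral_hasDerivAt_right (eta_cont.intervalIntegrable _ _)
    eta_cont.aestronglyMeasurable.stronglyMeasurableAtFilter eta_cont.continuousAt

theorem deriv_cut : deriv cut = eta := funext fun t => (cut_hasDerivAt t).deriv

theorem cut_contDiff : ContDiff ℝ ∞ cut := by
  rw [contDiff_infty_iff_deriv]
  refine ⟨fun t => (cut_hasDerivAt t).differentiableAt, ?_⟩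
  rw [deriv_cut]
  exact eta_contDiff

theorem cut_zero : cut 0 = 0 := intervalIntegral.integral_same

theorem cut_mono : Monotone cut :=
  monotone_of_deriv_nonneg (fun t => (cut_hasDerivAt t).differentiableAt)
    fun t => by rw [deriv_cut]; exact eta_nonneg t

theorem cut_nonneg {t : ℝ} (ht : 0 ≤ t) : 0 ≤ cut t := by
  rw [← cut_zero]; exact cut_mono ht

theorem cut_eq_id {t : ℝ} (ht : t ≤ 1 / 64) : cut t = t := by
  unfold cut
  rw [intervalIntegral.integral_congr (g := fun _ => (1 : ℝ))]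
  · simp
  · intro u hu
    have : u ≤ 1 / 64 := by
      rcases le_total 0 t with h | h
      · rw [uIcc_of_le h] at hu
        exact hu.2.trans ht
      · rw [uIcc_of_ge h] at hu
        linarith [hu.2]
    simp only
    exact eta_eq_one this

theorem cut_le_id {t : ℝ} (ht : 0 ≤ t) : cut t ≤ t := by
  have h : cut t ≤ ∫ _u in (0 : ℝ)..t, (1 : ℝ) :=
    intervalIntegral.integral_mono_on ht (eta_cont.intervalIntegrable _ _)
      (continuous_const.intervalIntegrable _ _) fun u _ => eta_le_one u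
  simpa using h

theorem mul_eta_le_cut {t : ℝ} (ht : 0 ≤ t) : t * eta t ≤ cut t := by
  have h : ∫ _u in (0 : ℝ)..t, eta t ≤ cut t :=
    intervalIntegral.integral_mono_on ht (continuous_const.intervalIntegrable _ _)
      (eta_cont.intervalIntegrable _ _) fun u hu => eta_anti hu.2
  simpa using h

/-- the final value. -/
def cutTop : ℝ := cut (1 / 16)

theorem cut_eq_top {t : ℝ} (ht : 1 / 16 ≤ t) : cut t = cutTop := by
  unfold cutTop cut
  rw [← intervalIntegral.integral_add_adjacent_intervals (b := 1 / 16)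
    (eta_cont.intervalIntegrable _ _) (eta_cont.intervalIntegrable _ _)]
  have : ∫ u in (1 / 16 : ℝ)..t, eta u = 0 := by
    rw [intervalIntegral.integral_congr (g := fun _ => (0 : ℝ))]
    · simp
    · intro u hu
      rw [uIcc_of_le ht] at hu
      exact eta_eq_zero hu.1
  rw [this, add_zero]

theorem cut_le_top (t : ℝ) : cut t ≤ cutTop := by
  rcases le_total t (1 / 16) with h | h
  · exact cut_mono h
  · exact (cut_eq_top h).le

theorem cutTop_ge : 1 / 64 ≤ cutTop := by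
  have := cut_mono (show (1 / 64 : ℝ) ≤ 1 / 16 by norm_num)
  rw [cut_eq_id le_rfl] at this
  exact this

theorem cutTop_le : cutTop ≤ 1 / 16 := cut_le_id (by norm_num)

/-! ### one well -/

variable {W : Type*} [NormedAddCommGroup W] [InnerProductSpace ℝ W]

/-- one well. -/
def well (c : W) (q : ℝ) (y : W) : ℝ := q ^ 2 / 2 * cut (‖y - c‖ ^ 2 / q ^ 2)

/-- its gradient. -/
def wellG (c : W) (q : ℝ) (y : W) : W := eta (‖y - c‖ ^ 2 / q ^ 2) • (y - c)

/-- its Hessian. -/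
def wellH (c : W) (q : ℝ) (y : W) : W →L[ℝ] W :=
  eta (‖y - c‖ ^ 2 / q ^ 2) • ContinuousLinearMap.id ℝ W +
    ((2 * deriv eta (‖y - c‖ ^ 2 / q ^ 2) / q ^ 2) • innerSL ℝ (y - c)).smulRight (y - c)

/-- the plateau value. -/
def wellTop (q : ℝ) : ℝ := q ^ 2 / 2 * cutTop

theorem well_contDiff (c : W) (q : ℝ) : ContDiff ℝ ∞ (well c q) := by
  unfold well
  have h1 : ContDiff ℝ ∞ (fun y : W => ‖y - c‖ ^ 2 / q ^ 2) :=
    ((contDiff_id.sub contDiff_const).norm_sq ℝ).div_const _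
  exact contDiff_const.mul (cut_contDiff.comp h1)

theorem wellG_contDiff (c : W) (q : ℝ) : ContDiff ℝ ∞ (wellG c q) := by
  unfold wellG
  have h1 : ContDiff ℝ ∞ (fun y : W => ‖y - c‖ ^ 2 / q ^ 2) :=
    ((contDiff_id.sub contDiff_const).norm_sq ℝ).div_const _
  exact (eta_contDiff.comp h1).smul (contDiff_id.sub contDiff_const)

theorem hasFDerivAt_sq (c : W) (q : ℝ) (y : W) :
    HasFDerivAt (fun y : W => ‖y - c‖ ^ 2 / q ^ 2) ((2 / q ^ 2) • innerSL ℝ (y - c)) y := by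
  have h1 : HasFDerivAt (fun y : W => y - c) (ContinuousLinearMap.id ℝ W) y :=
    (hasFDerivAt_id y).sub_const c
  have h2 : HasFDerivAt (fun y : W => ‖y - c‖ ^ 2) (2 • innerSL ℝ (y - c)) y := by
    have := h1.norm_sq
    simpa using this
  have h3 := h2.const_mul (1 / q ^ 2)
  have e1 : (fun y : W => ‖y - c‖ ^ 2 / q ^ 2) = fun y : W => 1 / q ^ 2 * ‖y - c‖ ^ 2 := by
    funext y; ring
  have e2 : (2 / q ^ 2) • innerSL ℝ (y - c) = (1 / q ^ 2) • (2 • innerSL ℝ (y - c)) := by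
    rw [← Nat.cast_smul_eq_nsmul ℝ, smul_smul]
    congr 1
    push_cast
    ring
  rw [e1, e2]
  exact h3

theorem well_hasFDerivAt (c : W) {q : ℝ} (hq : 0 < q) (y : W) :
    HasFDerivAt (well c q) (innerSL ℝ (wellG c q y)) y := by
  have h1 := (cut_hasDerivAt (‖y - c‖ ^ 2 / q ^ 2)).comp_hasFDerivAt y (hasFDerivAt_sq c q y)
  have h2 := h1.const_mul (q ^ 2 / 2)
  have e : innerSL ℝ (wellG c q y)
      = (q ^ 2 / 2) • (eta (‖y - c‖ ^ 2 / q ^ 2) • ((2 / q ^ 2) • innerSL ℝ (y - c))) := by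
    ext v
    simp only [wellG, innerSL_apply_apply, inner_smul_left, smul_apply, smul_eq_mul,
      RCLike.conj_to_real]
    field_simp
  rw [e]
  exact h2

theorem wellG_hasFDerivAt (c : W) (q : ℝ) (y : W) :
    HasFDerivAt (wellG c q) (wellH c q y) y := by
  have h0 : HasFDerivAt (fun y : W => y - c) (ContinuousLinearMap.id ℝ W) y :=
    (hasFDerivAt_id y).sub_const c
  have h1 := (eta_diff (‖y - c‖ ^ 2 / q ^ 2)).comp_hasFDerivAt y (hasFDerivAt_sq c q y)
  have h2 := h1.smul h0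
  have e : wellH c q y = eta (‖y - c‖ ^ 2 / q ^ 2) • ContinuousLinearMap.id ℝ W +
      (deriv eta (‖y - c‖ ^ 2 / q ^ 2) • ((2 / q ^ 2) • innerSL ℝ (y - c))).smulRight (y - c) := by
    unfold wellH
    rw [smul_smul]
    congr 3
    ring
  rw [e]
  exact h2

theorem wellH_apply (c : W) (q : ℝ) (y v : W) : wellH c q y v =
    eta (‖y - c‖ ^ 2 / q ^ 2) • v +
      (2 * deriv eta (‖y - c‖ ^ 2 / q ^ 2) / q ^ 2 * ⟪y - c, v⟫_ℝ) • (y - c) := by
  simp only [wellH, add_apply, smul_apply, ContinuousLinearMap.smulRight_apply,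
    ContinuousLinearMap.id_apply, innerSL_apply_apply, smul_eq_mul]

theorem wellH_inner (c : W) (q : ℝ) (y v w : W) : ⟪wellH c q y v, w⟫_ℝ =
    eta (‖y - c‖ ^ 2 / q ^ 2) * ⟪v, w⟫_ℝ +
      2 * deriv eta (‖y - c‖ ^ 2 / q ^ 2) / q ^ 2 * (⟪y - c, v⟫_ℝ * ⟪y - c, w⟫_ℝ) := by
  rw [wellH_apply, inner_add_left, inner_smul_left, inner_smul_left]
  simp only [RCLike.conj_to_real]
  ring

theorem wellH_symm (c : W) (q : ℝ) (y v w : W) :
    ⟪wellH c q y v, w⟫_ℝ = ⟪v, wellH c q y w⟫_ℝ := by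
  rw [real_inner_comm (wellH c q y w) v, wellH_inner, wellH_inner, real_inner_comm v w]
  ring

theorem well_nonneg (c : W) (q : ℝ) (y : W) : 0 ≤ well c q y := by
  unfold well
  exact mul_nonneg (by positivity) (cut_nonneg (by positivity))

theorem well_le_top (c : W) (q : ℝ) (y : W) : well c q y ≤ wellTop q := by
  unfold well wellTop
  exact mul_le_mul_of_nonneg_left (cut_le_top _) (by positivity)

theorem wellTop_le (q : ℝ) : wellTop q ≤ q ^ 2 / 32 := by
  unfold wellTop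
  nlinarith [cutTop_le, sq_nonneg q]

theorem wellTop_ge (q : ℝ) : q ^ 2 / 128 ≤ wellTop q := by
  unfold wellTop
  nlinarith [cutTop_ge, sq_nonneg q]

theorem well_le_sq (c : W) {q : ℝ} (hq : 0 < q) (y : W) : well c q y ≤ ‖y - c‖ ^ 2 / 2 := by
  unfold well
  calc q ^ 2 / 2 * cut (‖y - c‖ ^ 2 / q ^ 2) ≤ q ^ 2 / 2 * (‖y - c‖ ^ 2 / q ^ 2) :=
        mul_le_mul_of_nonneg_left (cut_le_id (by positivity)) (by positivity)
    _ = ‖y - c‖ ^ 2 / 2 := by field_simp

/-- `|∇F|² ≤ 2F`. -/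
theorem wellG_sq_le (c : W) {q : ℝ} (hq : 0 < q) (y : W) :
    ‖wellG c q y‖ ^ 2 ≤ 2 * well c q y := by
  unfold wellG well
  rw [norm_smul, mul_pow, Real.norm_eq_abs, sq_abs]
  set t := ‖y - c‖ ^ 2 / q ^ 2 with ht
  have h1 : ‖y - c‖ ^ 2 = q ^ 2 * t := by rw [ht]; field_simp
  have h2 := mul_eta_le_cut (t := t) (by positivity)
  have h3 := eta_le_one t
  have h4 := eta_nonneg t
  have h5 : 0 ≤ t := by positivity
  have h6 : eta t ^ 2 * t ≤ cut t := by
    calc eta t ^ 2 * t = eta t * (t * eta t) := by ring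
      _ ≤ 1 * (t * eta t) := mul_le_mul_of_nonneg_right h3 (by positivity)
      _ ≤ cut t := by rw [one_mul]; exact h2
  rw [h1]
  calc eta t ^ 2 * (q ^ 2 * t) = q ^ 2 * (eta t ^ 2 * t) := by ring
    _ ≤ q ^ 2 * cut t := mul_le_mul_of_nonneg_left h6 (by positivity)
    _ = 2 * (q ^ 2 / 2 * cut t) := by ring

/-- `D²F ≤ 1`. -/
theorem wellH_le (c : W) {q : ℝ} (hq : 0 < q) (y v : W) :
    ⟪wellH c q y v, v⟫_ℝ ≤ eta (‖y - c‖ ^ 2 / q ^ 2) * ‖v‖ ^ 2 := by
  rw [wellH_inner, real_inner_self_eq_norm_sq]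
  have h1 := deriv_eta_nonpos (‖y - c‖ ^ 2 / q ^ 2)
  have h2 : 2 * deriv eta (‖y - c‖ ^ 2 / q ^ 2) / q ^ 2 * (⟪y - c, v⟫_ℝ * ⟪y - c, v⟫_ℝ) ≤ 0 := by
    refine mul_nonpos_of_nonpos_of_nonneg ?_ (mul_self_nonneg _)
    exact div_nonpos_of_nonpos_of_nonneg (by linarith) (by positivity)
  linarith

theorem wellH_le_sq (c : W) {q : ℝ} (hq : 0 < q) (y v : W) :
    ⟪wellH c q y v, v⟫_ℝ ≤ ‖v‖ ^ 2 := by
  refine (wellH_le c hq y v).trans ?_
  exact mul_le_of_le_one_left (by positivity) (eta_le_one _)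

/-- `-C₁/8 ≤ D²F` on the whole space. -/
theorem wellH_ge (c : W) {q : ℝ} (hq : 0 < q) (y v : W) :
    -(etaC / 8) * ‖v‖ ^ 2 ≤ ⟪wellH c q y v, v⟫_ℝ := by
  rw [wellH_inner, real_inner_self_eq_norm_sq]
  set t := ‖y - c‖ ^ 2 / q ^ 2 with ht
  have h0 := eta_nonneg t
  have h1 := neg_etaC_le t
  have h2 := deriv_eta_nonpos t
  have hC := etaC_nonneg
  rcases le_total (1 / 16) t with h | h
  · rw [deriv_eta_eq_zero_of_ge h]
    have : 0 ≤ eta t * ‖v‖ ^ 2 := by positivity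
    have h3 : 0 ≤ etaC * ‖v‖ ^ 2 := by positivity
    simp only [mul_zero, zero_div, zero_mul, add_zero]
    linarith
  · have h3 : ⟪y - c, v⟫_ℝ * ⟪y - c, v⟫_ℝ ≤ ‖y - c‖ ^ 2 * ‖v‖ ^ 2 := by
      have := real_inner_mul_inner_self_le (y - c) v
      rwa [real_inner_self_eq_norm_sq, real_inner_self_eq_norm_sq] at this
    have h4 : ‖y - c‖ ^ 2 = q ^ 2 * t := by rw [ht]; field_simp
    have h5 : ⟪y - c, v⟫_ℝ * ⟪y - c, v⟫_ℝ / q ^ 2 ≤ 1 / 16 * ‖v‖ ^ 2 := by
      rw [div_le_iff₀ (by positivity)]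
      rw [h4] at h3
      have h6 : q ^ 2 * t * ‖v‖ ^ 2 ≤ q ^ 2 * (1 / 16) * ‖v‖ ^ 2 := by gcongr
      linarith
    have h6 : 0 ≤ ⟪y - c, v⟫_ℝ * ⟪y - c, v⟫_ℝ / q ^ 2 := by
      have := mul_self_nonneg ⟪y - c, v⟫_ℝ
      positivity
    have h7 : 2 * deriv eta t / q ^ 2 * (⟪y - c, v⟫_ℝ * ⟪y - c, v⟫_ℝ)
        = 2 * deriv eta t * (⟪y - c, v⟫_ℝ * ⟪y - c, v⟫_ℝ / q ^ 2) := by ring
    rw [h7]
    have h8 : -(2 * etaC) * (⟪y - c, v⟫_ℝ * ⟪y - c, v⟫_ℝ / q ^ 2)
        ≤ 2 * deriv eta t * (⟪y - c, v⟫_ℝ * ⟪y - c, v⟫_ℝ / q ^ 2) :=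
      mul_le_mul_of_nonneg_right (by linarith) h6
    have h9 : 2 * etaC * (⟪y - c, v⟫_ℝ * ⟪y - c, v⟫_ℝ / q ^ 2) ≤ 2 * etaC * (1 / 16 * ‖v‖ ^ 2) :=
      mul_le_mul_of_nonneg_left h5 (by linarith)
    have h10 : 0 ≤ eta t * ‖v‖ ^ 2 := by positivity
    linarith

theorem well_eq_sq {c : W} {q : ℝ} (hq : 0 < q) {y : W} (hy : ‖y - c‖ ≤ q / 8) :
    well c q y = ‖y - c‖ ^ 2 / 2 := by
  have h : ‖y - c‖ ^ 2 / q ^ 2 ≤ 1 / 64 := by
    rw [div_le_iff₀ (by positivity)]
    nlinarith [norm_nonneg (y - c)]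
  unfold well
  rw [cut_eq_id h]
  field_simp

theorem wellG_eq {c : W} {q : ℝ} (hq : 0 < q) {y : W} (hy : ‖y - c‖ ≤ q / 8) :
    wellG c q y = y - c := by
  have h : ‖y - c‖ ^ 2 / q ^ 2 ≤ 1 / 64 := by
    rw [div_le_iff₀ (by positivity)]
    nlinarith [norm_nonneg (y - c)]
  unfold wellG
  rw [eta_eq_one h, one_smul]

theorem wellH_eq {c : W} {q : ℝ} (hq : 0 < q) {y : W} (hy : ‖y - c‖ ≤ q / 8) :
    wellH c q y = ContinuousLinearMap.id ℝ W := by
  have h : ‖y - c‖ ^ 2 / q ^ 2 ≤ 1 / 64 := by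
    rw [div_le_iff₀ (by positivity)]
    nlinarith [norm_nonneg (y - c)]
  unfold wellH
  rw [eta_eq_one h, deriv_eta_eq_zero_of_le h]
  ext v; simp

theorem well_eq_top {c : W} {q : ℝ} (hq : 0 < q) {y : W} (hy : q / 4 ≤ ‖y - c‖) :
    well c q y = wellTop q := by
  have h : 1 / 16 ≤ ‖y - c‖ ^ 2 / q ^ 2 := by
    rw [le_div_iff₀ (by positivity)]
    nlinarith [norm_nonneg (y - c)]
  unfold well wellTop
  rw [cut_eq_top h]

theorem wellG_eq_zero {c : W} {q : ℝ} (hq : 0 < q) {y : W} (hy : q / 4 ≤ ‖y - c‖) :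
    wellG c q y = 0 := by
  have h : 1 / 16 ≤ ‖y - c‖ ^ 2 / q ^ 2 := by
    rw [le_div_iff₀ (by positivity)]
    nlinarith [norm_nonneg (y - c)]
  unfold wellG
  rw [eta_eq_zero h, zero_smul]

theorem wellH_eq_zero {c : W} {q : ℝ} (hq : 0 < q) {y : W} (hy : q / 4 ≤ ‖y - c‖) :
    wellH c q y = 0 := by
  have h : 1 / 16 ≤ ‖y - c‖ ^ 2 / q ^ 2 := by
    rw [le_div_iff₀ (by positivity)]
    nlinarith [norm_nonneg (y - c)]
  unfold wellH
  rw [eta_eq_zero h, deriv_eta_eq_zero_of_ge h]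
  ext v; simp

theorem well_ge {c : W} {q : ℝ} (hq : 0 < q) {y : W} (hy : q / 8 ≤ ‖y - c‖) :
    q ^ 2 / 128 ≤ well c q y := by
  have h : 1 / 64 ≤ ‖y - c‖ ^ 2 / q ^ 2 := by
    rw [le_div_iff₀ (by positivity)]
    nlinarith [norm_nonneg (y - c)]
  have h2 := cut_mono h
  rw [cut_eq_id le_rfl] at h2
  unfold well
  nlinarith [sq_nonneg q]

/-- lower bound of the bump `top - well` near the centre. -/
theorem top_sub_well_ge {c : W} {q : ℝ} (hq : 0 < q) {y : W} (hy : ‖y - c‖ ≤ q / 16) :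
    q ^ 2 * (3 / 512) ≤ wellTop q - well c q y := by
  rw [well_eq_sq hq (by linarith)]
  have := wellTop_ge q
  have h2 : ‖y - c‖ ^ 2 ≤ (q / 16) ^ 2 := by gcongr
  nlinarith


/-! ### several wells -/

/-- the wells with centres `C` and gap `q`. -/
def wells (C : Finset W) (q : ℝ) (y : W) : ℝ := wellTop q - ∑ c ∈ C, (wellTop q - well c q y)

/-- its gradient. -/
def wellsG (C : Finset W) (q : ℝ) (y : W) : W := ∑ c ∈ C, wellG c q y

/-- its Hessian. -/
def wellsH (C : Finset W) (q : ℝ) (y : W) : W →L[ℝ] W := ∑ c ∈ C, wellH c q y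

theorem wells_contDiff (C : Finset W) (q : ℝ) : ContDiff ℝ ∞ (wells C q) := by
  unfold wells
  exact contDiff_const.sub (ContDiff.sum fun c _ => contDiff_const.sub (well_contDiff c q))

theorem wellsG_contDiff (C : Finset W) (q : ℝ) : ContDiff ℝ ∞ (wellsG C q) := by
  unfold wellsG
  exact ContDiff.sum fun c _ => wellG_contDiff c q

theorem wells_hasFDerivAt (C : Finset W) {q : ℝ} (hq : 0 < q) (y : W) :
    HasFDerivAt (wells C q) (innerSL ℝ (wellsG C q y)) y := by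
  have h : HasFDerivAt (fun y => ∑ c ∈ C, (wellTop q - well c q y))
      (∑ c ∈ C, (-innerSL ℝ (wellG c q y))) y :=
    HasFDerivAt.fun_sum fun c _ => (well_hasFDerivAt c hq y).const_sub _
  have h2 := h.const_sub (wellTop q)
  have e : innerSL ℝ (wellsG C q y) = -∑ c ∈ C, (-innerSL ℝ (wellG c q y)) := by
    rw [Finset.sum_neg_distrib, neg_neg, wellsG, map_sum]
  rw [e]
  exact h2

theorem wellsG_hasFDerivAt (C : Finset W) (q : ℝ) (y : W) :
    HasFDerivAt (wellsG C q) (wellsH C q y) y :=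
  HasFDerivAt.fun_sum fun c _ => wellG_hasFDerivAt c q y

theorem wellsH_symm (C : Finset W) (q : ℝ) (y v w : W) :
    ⟪wellsH C q y v, w⟫_ℝ = ⟪v, wellsH C q y w⟫_ℝ := by
  unfold wellsH
  rw [sum_apply, sum_apply, sum_inner, inner_sum]
  exact Finset.sum_congr rfl fun c _ => wellH_symm c q y v w

/-- separated set of centres. -/
def Sep (C : Finset W) (q : ℝ) : Prop := ∀ c ∈ C, ∀ c' ∈ C, c ≠ c' → q ≤ dist c c'

theorem Sep.far {C : Finset W} {q : ℝ} (hq : 0 < q) (h : Sep C q) {c c' : W} (hc : c ∈ C)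
    (hc' : c' ∈ C) (hne : c' ≠ c) {y : W} (hy : ‖y - c‖ ≤ q / 4) : q / 4 ≤ ‖y - c'‖ := by
  have h1 := h c' hc' c hc hne
  have h2 : dist c' c ≤ ‖y - c'‖ + ‖y - c‖ := by
    rw [dist_eq_norm]
    calc ‖c' - c‖ = ‖(y - c) - (y - c')‖ := by congr 1; abel
      _ ≤ ‖y - c‖ + ‖y - c'‖ := norm_sub_le _ _
      _ = _ := add_comm _ _
  linarith

/-- near one centre only this well is active. -/
theorem wells_near {C : Finset W} {q : ℝ} (hq : 0 < q) (h : Sep C q) {c : W} (hc : c ∈ C)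
    {y : W} (hy : ‖y - c‖ ≤ q / 4) :
    wells C q y = well c q y ∧ wellsG C q y = wellG c q y ∧ wellsH C q y = wellH c q y := by
  refine ⟨?_, ?_, ?_⟩
  · unfold wells
    rw [Finset.sum_eq_single_of_mem c hc]
    · ring
    · intro c' hc' hne
      rw [well_eq_top hq (h.far hq hc hc' hne hy), sub_self]
  · unfold wellsG
    rw [Finset.sum_eq_single_of_mem c hc]
    intro c' hc' hne
    exact wellG_eq_zero hq (h.far hq hc hc' hne hy)
  · unfold wellsH
    rw [Finset.sum_eq_single_of_mem c hc]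
    intro c' hc' hne
    exact wellH_eq_zero hq (h.far hq hc hc' hne hy)

/-- far from all centres. -/
theorem wells_far {C : Finset W} {q : ℝ} (hq : 0 < q) {y : W}
    (hy : ∀ c ∈ C, q / 4 ≤ ‖y - c‖) :
    wells C q y = wellTop q ∧ wellsG C q y = 0 ∧ wellsH C q y = 0 := by
  refine ⟨?_, ?_, ?_⟩
  · unfold wells
    rw [Finset.sum_eq_zero, sub_zero]
    intro c hc
    rw [well_eq_top hq (hy c hc), sub_self]
  · exact Finset.sum_eq_zero fun c hc => wellG_eq_zero hq (hy c hc)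
  · exact Finset.sum_eq_zero fun c hc => wellH_eq_zero hq (hy c hc)

theorem wells_cases {C : Finset W} {q : ℝ} (hq : 0 < q) (h : Sep C q) (y : W) :
    (∃ c ∈ C, ‖y - c‖ ≤ q / 4 ∧ wells C q y = well c q y ∧ wellsG C q y = wellG c q y ∧
      wellsH C q y = wellH c q y) ∨
    ((∀ c ∈ C, q / 4 ≤ ‖y - c‖) ∧ wells C q y = wellTop q ∧ wellsG C q y = 0 ∧
      wellsH C q y = 0) := by
  by_cases hy : ∀ c ∈ C, q / 4 ≤ ‖y - c‖
  · exact Or.inr ⟨hy, wells_far hq hy⟩
  · push Not at hy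
    obtain ⟨c, hc, hlt⟩ := hy
    exact Or.inl ⟨c, hc, hlt.le, wells_near hq h hc hlt.le⟩

theorem wellTop_nonneg (q : ℝ) : 0 ≤ wellTop q := by
  have := wellTop_ge q
  have h2 := sq_nonneg q
  linarith

theorem wells_nonneg {C : Finset W} {q : ℝ} (hq : 0 < q) (h : Sep C q) (y : W) :
    0 ≤ wells C q y := by
  rcases wells_cases hq h y with ⟨c, -, -, h1, -⟩ | ⟨-, h1, -⟩
  · rw [h1]; exact well_nonneg c q y
  · rw [h1]; exact wellTop_nonneg q

theorem wells_le_top {C : Finset W} {q : ℝ} (y : W) : wells C q y ≤ wellTop q := by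
  unfold wells
  have : 0 ≤ ∑ c ∈ C, (wellTop q - well c q y) :=
    Finset.sum_nonneg fun c _ => sub_nonneg.2 (well_le_top c q y)
  linarith

theorem wells_le {C : Finset W} {q : ℝ} (y : W) {c : W} (hc : c ∈ C) :
    wells C q y ≤ well c q y := by
  unfold wells
  have : wellTop q - well c q y ≤ ∑ c ∈ C, (wellTop q - well c q y) :=
    Finset.single_le_sum (f := fun c => wellTop q - well c q y)
      (fun c _ => sub_nonneg.2 (well_le_top c q y)) hc
  linarith

theorem wells_le_sq {C : Finset W} {q : ℝ} (hq : 0 < q) (y : W) {c : W} (hc : c ∈ C) :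
    wells C q y ≤ ‖y - c‖ ^ 2 / 2 :=
  (wells_le y hc).trans (well_le_sq c hq y)

theorem wellsG_sq_le {C : Finset W} {q : ℝ} (hq : 0 < q) (h : Sep C q) (y : W) :
    ‖wellsG C q y‖ ^ 2 ≤ 2 * wells C q y := by
  rcases wells_cases hq h y with ⟨c, -, -, h1, h2, -⟩ | ⟨-, h1, h2, -⟩
  · rw [h1, h2]; exact wellG_sq_le c hq y
  · rw [h1, h2, norm_zero]
    have := wellTop_nonneg q
    nlinarith

theorem wellsH_le_sq {C : Finset W} {q : ℝ} (hq : 0 < q) (h : Sep C q) (y v : W) :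
    ⟪wellsH C q y v, v⟫_ℝ ≤ ‖v‖ ^ 2 := by
  rcases wells_cases hq h y with ⟨c, -, -, -, -, h1⟩ | ⟨-, -, -, h1⟩
  · rw [h1]; exact wellH_le_sq c hq y v
  · rw [h1]; simp

theorem wellsH_ge {C : Finset W} {q : ℝ} (hq : 0 < q) (h : Sep C q) (y v : W) :
    -(etaC / 8) * ‖v‖ ^ 2 ≤ ⟪wellsH C q y v, v⟫_ℝ := by
  rcases wells_cases hq h y with ⟨c, -, -, -, -, h1⟩ | ⟨-, -, -, h1⟩
  · rw [h1]; exact wellH_ge c hq y v
  · rw [h1]
    have := etaC_nonneg
    have h3 : 0 ≤ etaC * ‖v‖ ^ 2 := by positivity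
    simp only [zero_apply, inner_zero_left]
    linarith

/-- on the balls of radius `q/8` the function is `|y-c|²/2`. -/
theorem wells_eq_sq {C : Finset W} {q : ℝ} (hq : 0 < q) (h : Sep C q) {c : W} (hc : c ∈ C)
    {y : W} (hy : ‖y - c‖ ≤ q / 8) :
    wells C q y = ‖y - c‖ ^ 2 / 2 ∧ wellsG C q y = y - c ∧
      wellsH C q y = ContinuousLinearMap.id ℝ W := by
  obtain ⟨h1, h2, h3⟩ := wells_near hq h hc (y := y) (by linarith)
  rw [h1, h2, h3]
  exact ⟨well_eq_sq hq hy, wellG_eq hq hy, wellH_eq hq hy⟩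

/-- away from the balls of radius `q/8` the function is `≥ q²/128`. -/
theorem wells_ge {C : Finset W} {q : ℝ} (hq : 0 < q) (h : Sep C q) {y : W}
    (hy : ∀ c ∈ C, q / 8 ≤ ‖y - c‖) : q ^ 2 / 128 ≤ wells C q y := by
  rcases wells_cases hq h y with ⟨c, hc, -, h1, -⟩ | ⟨-, h1, -⟩
  · rw [h1]; exact well_ge hq (hy c hc)
  · rw [h1]; exact wellTop_ge q

/-- `1 - D²F` lives at the crossing heights. -/
theorem one_sub_wellsH {C : Finset W} {q : ℝ} (hq : 0 < q) (h : Sep C q) (y v : W) :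
    0 ≤ ‖v‖ ^ 2 - ⟪wellsH C q y v, v⟫_ℝ ∧
    ‖v‖ ^ 2 - ⟪wellsH C q y v, v⟫_ℝ ≤ (1 + etaC / 8) * ‖v‖ ^ 2 ∧
    ((∃ c ∈ C, ‖y - c‖ ≤ q / 8) → ‖v‖ ^ 2 - ⟪wellsH C q y v, v⟫_ℝ = 0) := by
  refine ⟨by linarith [wellsH_le_sq hq h y v], ?_, ?_⟩
  · have := wellsH_ge hq h y v
    linarith
  · rintro ⟨c, hc, hy⟩
    rw [(wells_eq_sq hq h hc hy).2.2]
    simp

end Crest.Agent.R234.Well_761
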