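import Mathlib

/-!
Row 234, VF-WELL (helper761), file 2: the metric lemma of the wells (pure combinatorics).
`P 0, …, P N` are finite nonempty subsets of a metric space whose separated subsets have at most
`N` points; every point of `P (i+1)` is `δ (i+1)`-close to `P i`; `r i + 2 δ (i+1) ≤ r (i+1)`.
Then for some `i < N` the set `P i` contains `C` with: every point of `P i` is `r i`-close to `C`
and the points of `C` are `r (i+1) - 2 δ (i+1)`-separated.
-/

set_option autoImplicit false

open Set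

namespace Crest.Agent.R234.Well_761

variable {X : Type*} [PseudoMetricSpace X]

/-- separated finite set. -/
def SepD (C : Finset X) (q : ℝ) : Prop := ∀ c ∈ C, ∀ c' ∈ C, c ≠ c' → q ≤ dist c c'

/-- there is a separated subset of cardinality `n`. -/
def HasSep (P : Set X) (r : ℝ) (n : ℕ) : Prop :=
  ∃ C : Finset X, (C : Set X) ⊆ P ∧ C.card = n ∧ SepD C r

theorem SepD.mono {C : Finset X} {q q' : ℝ} (h : SepD C q) (hq : q' ≤ q) : SepD C q' :=
  fun c hc c' hc' hne => hq.trans (h c hc c' hc' hne)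

theorem HasSep.mono {P : Set X} {r r' : ℝ} {n : ℕ} (h : HasSep P r n) (hr : r' ≤ r) :
    HasSep P r' n := by
  obtain ⟨C, h1, h2, h3⟩ := h
  exact ⟨C, h1, h2, h3.mono hr⟩

/-- transport of separated sets. -/
theorem HasSep.transport {P P' : Set X} {r δ : ℝ} {n : ℕ} (h : HasSep P' r n)
    (hr : 0 < r - 2 * δ) (hc : ∀ p' ∈ P', ∃ p ∈ P, dist p p' ≤ δ) :
    HasSep P (r - 2 * δ) n := by
  classical
  obtain ⟨C, h1, h2, h3⟩ := h
  have hf : ∀ c : X, ∃ p : X, c ∈ C → p ∈ P ∧ dist p c ≤ δ := by
    intro c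
    by_cases hcC : c ∈ C
    · obtain ⟨p, hp, hd⟩ := hc c (h1 hcC)
      exact ⟨p, fun _ => ⟨hp, hd⟩⟩
    · exact ⟨c, fun h => absurd h hcC⟩
  choose f hf using hf
  have hd : ∀ c ∈ C, ∀ c' ∈ C, c ≠ c' → r - 2 * δ ≤ dist (f c) (f c') := by
    intro c hcC c' hc'C hne
    have e1 := h3 c hcC c' hc'C hne
    have e2 := (hf c hcC).2
    have e3 := (hf c' hc'C).2
    have e4 : dist c c' ≤ dist c (f c) + dist (f c) (f c') + dist (f c') c' :=
      dist_triangle4 _ _ _ _
    rw [dist_comm c (f c)] at e4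
    linarith
  have hinj : Set.InjOn f C := by
    intro c hcC c' hc'C heq
    by_contra hne
    have := hd c hcC c' hc'C hne
    rw [heq, dist_self] at this
    linarith
  refine ⟨C.image f, ?_, ?_, ?_⟩
  · intro x hx
    rw [Finset.coe_image] at hx
    obtain ⟨c, hcC, rfl⟩ := hx
    exact (hf c hcC).1
  · rw [Finset.card_image_of_injOn hinj, h2]
  · intro x hx y hy hne
    rw [Finset.mem_image] at hx hy
    obtain ⟨c, hcC, rfl⟩ := hx
    obtain ⟨c', hc'C, rfl⟩ := hy
    exact hd c hcC c' hc'C fun h => hne (by rw [h])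

open Classical in
/-- the separation number, at most `N` by convention. -/
noncomputable def sepN (P : Set X) (N : ℕ) (r : ℝ) : ℕ :=
  Nat.findGreatest (fun n => HasSep P r n) N

theorem sepN_le (P : Set X) (N : ℕ) (r : ℝ) : sepN P N r ≤ N := by
  classical
  unfold sepN
  exact Nat.findGreatest_le N

theorem hasSep_zero (P : Set X) (r : ℝ) : HasSep P r 0 :=
  ⟨∅, by simp, rfl, fun c hc => by simp at hc⟩

theorem hasSep_sepN (P : Set X) (N : ℕ) (r : ℝ) : HasSep P r (sepN P N r) := by
  classical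
  unfold sepN
  exact Nat.findGreatest_spec (P := fun n => HasSep P r n) (m := 0) (Nat.zero_le _)
    (hasSep_zero P r)

theorem le_sepN {P : Set X} {N : ℕ} {r : ℝ} {n : ℕ} (h : HasSep P r n) (hn : n ≤ N) :
    n ≤ sepN P N r := by
  classical
  unfold sepN
  exact Nat.le_findGreatest hn h

theorem sepN_pos {P : Set X} {N : ℕ} {r : ℝ} (hP : P.Nonempty) (hN : 1 ≤ N) :
    1 ≤ sepN P N r := by
  obtain ⟨p, hp⟩ := hP
  refine le_sepN ⟨{p}, by simpa using hp, by simp, ?_⟩ hN
  intro c hc c' hc' hne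
  simp only [Finset.mem_singleton] at hc hc'
  exact absurd (hc.trans hc'.symm) hne

/-- **metric lemma**. -/
theorem exists_run {N : ℕ} (P : ℕ → Set X) (r δ : ℕ → ℝ)
    (hne : ∀ i ≤ N, (P i).Nonempty) (hN : 1 ≤ N) (hr0 : 0 < r 0)
    (hcard : ∀ i ≤ N, ∀ n, HasSep (P i) (r i) n → n ≤ N)
    (hδ : ∀ i < N, ∀ p' ∈ P (i + 1), ∃ p ∈ P i, dist p p' ≤ δ (i + 1))
    (hr : ∀ i < N, r i + 2 * δ (i + 1) ≤ r (i + 1)) :
    ∃ i < N, ∃ C : Finset X, (C : Set X) ⊆ P i ∧ C.Nonempty ∧ C.card ≤ N ∧
      (∀ p ∈ P i, ∃ c ∈ C, dist p c < r i) ∧ SepD C (r (i + 1) - 2 * δ (i + 1)) := by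
  classical
  have hrpos : ∀ i ≤ N, 0 < r i := by
    intro i
    induction i with
    | zero => intro _; exact hr0
    | succ i ih =>
      intro hi
      have h1 := ih (by omega)
      have h2 := hr i (by omega)
      obtain ⟨p', hp'⟩ := hne (i + 1) hi
      obtain ⟨p, -, hd⟩ := hδ i (by omega) p' hp'
      have : 0 ≤ δ (i + 1) := dist_nonneg.trans hd
      linarith
  -- the separation numbers
  set n : ℕ → ℕ := fun i => sepN (P i) N (r i) with hn
  have h1 : ∀ i ≤ N, 1 ≤ n i := fun i hi => sepN_pos (hne i hi) hN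
  have h2 : ∀ i, n i ≤ N := fun i => sepN_le _ _ _
  -- some step does not decrease
  have h3 : ∃ i < N, n i ≤ n (i + 1) := by
    by_contra hcon
    push Not at hcon
    have h4 : ∀ i ≤ N, n i + i ≤ N := by
      intro i
      induction i with
      | zero => intro _; simpa using h2 0
      | succ i ih =>
        intro hi
        have e1 := ih (by omega)
        have e2 := hcon i (by omega)
        omega
    have h5 := h4 N le_rfl
    have h6 := h1 N le_rfl
    omega
  obtain ⟨i, hi, hle⟩ := h3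
  have hpos : 0 < r (i + 1) - 2 * δ (i + 1) := by
    have := hr i hi
    have := hrpos i hi.le
    linarith
  obtain ⟨C, hC1, hC2, hC3⟩ := (hasSep_sepN (P (i + 1)) N (r (i + 1))).transport hpos (hδ i hi)
  have hC4 : SepD C (r i) := hC3.mono (by linarith [hr i hi])
  have hC5 : n i ≤ C.card := by rw [hC2]; exact hle
  refine ⟨i, hi, C, hC1, ?_, ?_, ?_, hC3⟩
  · rw [← Finset.card_pos, hC2]
    exact h1 (i + 1) hi
  · rw [hC2]; exact h2 (i + 1)
  · intro p hp
    by_contra hcon
    push Not at hcon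
    have hpC : p ∉ C := by
      intro h
      have := hcon p h
      rw [dist_self] at this
      linarith [hrpos i hi.le]
    have h7 : HasSep (P i) (r i) (C.card + 1) := by
      refine ⟨insert p C, ?_, Finset.card_insert_of_notMem hpC, ?_⟩
      · rw [Finset.coe_insert]
        exact Set.insert_subset hp hC1
      · intro c hc c' hc' hne'
        rw [Finset.mem_insert] at hc hc'
        rcases hc with rfl | hc <;> rcases hc' with rfl | hc'
        · exact absurd rfl hne'
        · exact hcon c' hc'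
        · rw [dist_comm]; exact hcon c hc
        · exact hC4 c hc c' hc' hne'
    have h8 := le_sepN h7 (hcard i hi.le _ h7)
    have h9 : sepN (P i) N (r i) = n i := rfl
    rw [h9] at h8
    omega

end Crest.Agent.R234.Well_761
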