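import Crest.Agent.R234.Well1_761
import Crest.Agent.R234.Well2_761

/-!
Row 234, VF-WELL (helper761), file 3: the flow of heights, abstract form.
`mu`, `en` are measures on `H × W` (base × heights): mass and tilt energy.
`nu m κ mu x l F = e^{-ml} ∫ κ(|x'-x| e^{-l}) F(y) dmu(x',y)`.
-/

set_option autoImplicit false
set_option linter.unusedSectionVars false

open Set Filter Topology MeasureTheory Metric
open scoped ContDiff InnerProductSpace ENNReal

noncomputable section

namespace Crest.Agent.R234.Well_761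

variable {H : Type*} [PseudoMetricSpace H] [MeasurableSpace H] [OpensMeasurableSpace H]
variable {W : Type*} [NormedAddCommGroup W] [InnerProductSpace ℝ W] [MeasurableSpace W]
  [OpensMeasurableSpace W]

/-- the cylinder over a closed ball with heights in `S`. -/
def cyl (x : H) (s : ℝ) (S : Set W) : Set (H × W) := closedBall x s ×ˢ S

/-- the averaged height functional. -/
def nu (m : ℕ) (κ : ℝ → ℝ) (mu : Measure (H × W)) (x : H) (l : ℝ) (F : W → ℝ) : ℝ :=
  Real.exp (-(m * l)) * ∫ z, κ (dist z.1 x * Real.exp (-l)) * F z.2 ∂mu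

/-- admissible kernels. -/
structure Ker (κ : ℝ → ℝ) (Kκ cκ : ℝ) : Prop where
  meas : Measurable κ
  nonneg : ∀ t, 0 ≤ κ t
  le : ∀ t, κ t ≤ Kκ
  zero : ∀ t, 1 ≤ t → κ t = 0
  ge : ∀ t, 0 ≤ t → t ≤ 1 / 2 → cκ ≤ κ t
  cpos : 0 < cκ

variable {m : ℕ} {κ : ℝ → ℝ} {Kκ cκ : ℝ} {mu en : Measure (H × W)}

theorem Ker.Kpos (hκ : Ker κ Kκ cκ) : 0 < Kκ :=
  hκ.cpos.trans_le ((hκ.ge 0 le_rfl (by norm_num)).trans (hκ.le 0))

theorem cyl_meas (x : H) (s : ℝ) {S : Set W} (hS : MeasurableSet S) :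
    MeasurableSet (cyl x s S) := measurableSet_closedBall.prod hS

/-- the kernel vanishes off the cylinder. -/
theorem ker_zero (hκ : Ker κ Kκ cκ) {x : H} {l : ℝ} {z : H × W}
    (hz : z ∉ cyl x (Real.exp l) (univ : Set W)) : κ (dist z.1 x * Real.exp (-l)) = 0 := by
  have h : Real.exp l < dist z.1 x := by
    by_contra hcon
    push Not at hcon
    exact hz ⟨mem_closedBall.2 hcon, trivial⟩
  refine hκ.zero _ ?_
  rw [Real.exp_neg, ← div_eq_mul_inv, le_div_iff₀ (Real.exp_pos l), one_mul]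
  exact h.le

theorem kerF_meas (hκ : Ker κ Kκ cκ) (x : H) (l : ℝ) {F : W → ℝ} (hF : Measurable F) :
    Measurable fun z : H × W => κ (dist z.1 x * Real.exp (-l)) * F z.2 := by
  have h1 : Measurable fun z : H × W => dist z.1 x :=
    (measurable_dist_const x).comp measurable_fst
  exact (hκ.meas.comp (h1.mul_const _)).mul (hF.comp measurable_snd)
where
  measurable_dist_const (x : H) : Measurable fun y : H => dist y x :=
    (continuous_id.dist continuous_const).measurable

theorem kerF_integrable (hκ : Ker κ Kκ cκ) {x : H} {l : ℝ} {F : W → ℝ} (hF : Measurable F)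
    {M : ℝ} (hM : ∀ y, |F y| ≤ M) (hfin : mu (cyl x (Real.exp l) univ) ≠ ⊤) :
    Integrable (fun z : H × W => κ (dist z.1 x * Real.exp (-l)) * F z.2) mu := by
  have h1 : IntegrableOn (fun z : H × W => κ (dist z.1 x * Real.exp (-l)) * F z.2)
      (cyl x (Real.exp l) univ) mu := by
    refine IntegrableOn.of_bound (lt_top_iff_ne_top.2 hfin)
      (kerF_meas hκ x l hF).aestronglyMeasurable (Kκ * M) (ae_of_all _ fun z => ?_)
    rw [Real.norm_eq_abs, abs_mul, abs_of_nonneg (hκ.nonneg _)]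
    exact mul_le_mul (hκ.le _) (hM _) (abs_nonneg _) hκ.Kpos.le
  refine (integrableOn_iff_integrable_of_support_subset ?_).1 h1
  intro z hz
  by_contra hcon
  apply hz
  simp only
  rw [ker_zero hκ hcon, zero_mul]

theorem nu_neg (x : H) (l : ℝ) (F : W → ℝ) :
    nu m κ mu x l (fun y => -F y) = -nu m κ mu x l F := by
  unfold nu
  simp only [mul_neg, integral_neg]

theorem nu_nonneg (hκ : Ker κ Kκ cκ) (x : H) (l : ℝ) {F : W → ℝ} (hF : ∀ y, 0 ≤ F y) :
    0 ≤ nu m κ mu x l F := by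
  unfold nu
  exact mul_nonneg (Real.exp_pos _).le
    (integral_nonneg fun z => mul_nonneg (hκ.nonneg _) (hF _))

/-- change of the centre. -/
theorem nu_centre (hκ : Ker κ Kκ cκ) {x x' : H} {l l' : ℝ} {F : W → ℝ} (hFm : Measurable F)
    (hF : ∀ y, 0 ≤ F y) {M : ℝ} (hM : ∀ y, F y ≤ M)
    (hfin : mu (cyl x' (Real.exp l') univ) ≠ ⊤)
    (hsub : Real.exp l + dist x x' ≤ Real.exp l' / 2) :
    nu m κ mu x l F ≤ Kκ / cκ * Real.exp (m * (l' - l)) * nu m κ mu x' l' F := by
  have hM' : ∀ y, |F y| ≤ M := fun y => by rw [abs_of_nonneg (hF y)]; exact hM y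
  have hfin2 : mu (cyl x (Real.exp l) univ) ≠ ⊤ := by
    refine ne_top_of_le_ne_top hfin (measure_mono ?_)
    refine prod_mono (closedBall_subset_closedBall' ?_) le_rfl
    have := Real.exp_pos l'
    linarith
  have key : ∫ z, κ (dist z.1 x * Real.exp (-l)) * F z.2 ∂mu ≤
      Kκ / cκ * ∫ z, κ (dist z.1 x' * Real.exp (-l')) * F z.2 ∂mu := by
    rw [← integral_const_mul]
    refine integral_mono (kerF_integrable hκ hFm hM' hfin2)
      ((kerF_integrable hκ hFm hM' hfin).const_mul _) fun z => ?_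
    simp only
    by_cases hz : z ∈ cyl x (Real.exp l) (univ : Set W)
    · have h1 : dist z.1 x' * Real.exp (-l') ≤ 1 / 2 := by
        have h2 : dist z.1 x ≤ Real.exp l := mem_closedBall.1 hz.1
        have h3 : dist z.1 x' ≤ dist z.1 x + dist x x' := dist_triangle _ _ _
        rw [Real.exp_neg, ← div_eq_mul_inv, div_le_iff₀ (Real.exp_pos l')]
        linarith
      have h4 := hκ.ge _ (mul_nonneg dist_nonneg (Real.exp_pos _).le) h1
      have h5 : κ (dist z.1 x * Real.exp (-l)) ≤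
          Kκ / cκ * κ (dist z.1 x' * Real.exp (-l')) := by
        calc κ (dist z.1 x * Real.exp (-l)) ≤ Kκ := hκ.le _
          _ = Kκ / cκ * cκ := by field_simp [hκ.cpos.ne']
          _ ≤ _ := mul_le_mul_of_nonneg_left h4 (div_nonneg hκ.Kpos.le hκ.cpos.le)
      calc κ (dist z.1 x * Real.exp (-l)) * F z.2
          ≤ Kκ / cκ * κ (dist z.1 x' * Real.exp (-l')) * F z.2 :=
            mul_le_mul_of_nonneg_right h5 (hF _)
        _ = _ := by ring
    · rw [ker_zero hκ hz, zero_mul]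
      exact mul_nonneg (div_nonneg hκ.Kpos.le hκ.cpos.le)
        (mul_nonneg (hκ.nonneg _) (hF _))
  unfold nu
  have e1 : Real.exp (-(m * l)) = Real.exp (m * (l' - l)) * Real.exp (-(m * l')) := by
    rw [← Real.exp_add]; congr 1; ring
  rw [e1]
  calc Real.exp (m * (l' - l)) * Real.exp (-(m * l')) *
        ∫ z, κ (dist z.1 x * Real.exp (-l)) * F z.2 ∂mu
      ≤ Real.exp (m * (l' - l)) * Real.exp (-(m * l')) *
        (Kκ / cκ * ∫ z, κ (dist z.1 x' * Real.exp (-l')) * F z.2 ∂mu) :=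
        mul_le_mul_of_nonneg_left key (by positivity)
    _ = _ := by ring

/-- the heights of `T` over a ball. -/
def Ht (T : Set (H × W)) (x : H) (D : ℝ) : Set W := {y | ∃ x' : H, (x', y) ∈ T ∧ dist x' x ≤ D}

/-- upper bound of the functional by the mass. -/
theorem nu_le (hκ : Ker κ Kκ cκ) {T : Set (H × W)} (hT : mu Tᶜ = 0) {x : H} {l : ℝ}
    {F : W → ℝ} (hFm : Measurable F) {M : ℝ} (hM : ∀ y, |F y| ≤ M) {a : ℝ} (ha : 0 ≤ a)
    (hF : ∀ y ∈ Ht T x (Real.exp l), F y ≤ a) {Cμ : ℝ} (hC0 : 0 ≤ Cμ)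
    (hmass : mu (cyl x (Real.exp l) univ) ≤ ENNReal.ofReal (Cμ * Real.exp (m * l))) :
    nu m κ mu x l F ≤ a * Kκ * Cμ := by
  have hfin : mu (cyl x (Real.exp l) univ) ≠ ⊤ :=
    ne_top_of_le_ne_top ENNReal.ofReal_ne_top hmass
  have hTae : ∀ᵐ z ∂mu, z ∈ T := by
    rw [ae_iff]; exact hT
  have h1 : ∫ z, κ (dist z.1 x * Real.exp (-l)) * F z.2 ∂mu ≤
      ∫ z in cyl x (Real.exp l) (univ : Set W), (Kκ * a) ∂mu := by
    rw [← integral_indicator (cyl_meas x _ MeasurableSet.univ)]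
    refine integral_mono_ae (kerF_integrable hκ hFm hM hfin) ?_ ?_
    · have h0 : IntegrableOn (fun _ : H × W => Kκ * a) (cyl x (Real.exp l) univ) mu :=
        integrableOn_const hfin
      exact h0.integrable_indicator (cyl_meas x _ MeasurableSet.univ)
    · filter_upwards [hTae] with z hz
      by_cases hzc : z ∈ cyl x (Real.exp l) (univ : Set W)
      · rw [indicator_of_mem hzc]
        have h2 : F z.2 ≤ a := hF _ ⟨z.1, hz, mem_closedBall.1 hzc.1⟩
        calc κ (dist z.1 x * Real.exp (-l)) * F z.2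
            ≤ κ (dist z.1 x * Real.exp (-l)) * a := mul_le_mul_of_nonneg_left h2 (hκ.nonneg _)
          _ ≤ Kκ * a := mul_le_mul_of_nonneg_right (hκ.le _) ha
      · rw [indicator_of_notMem hzc, ker_zero hκ hzc, zero_mul]
  have h2 : ∫ z in cyl x (Real.exp l) (univ : Set W), (Kκ * a) ∂mu ≤
      Cμ * Real.exp (m * l) * (Kκ * a) := by
    rw [setIntegral_const, smul_eq_mul]
    refine mul_le_mul_of_nonneg_right ?_ (mul_nonneg hκ.Kpos.le ha)
    exact ENNReal.toReal_le_of_le_ofReal (by positivity) hmass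
  unfold nu
  calc Real.exp (-(m * l)) * ∫ z, κ (dist z.1 x * Real.exp (-l)) * F z.2 ∂mu
      ≤ Real.exp (-(m * l)) * (Cμ * Real.exp (m * l) * (Kκ * a)) :=
        mul_le_mul_of_nonneg_left (h1.trans h2) (Real.exp_pos _).le
    _ = (Real.exp (-(m * l)) * Real.exp (m * l)) * (a * Kκ * Cμ) := by ring
    _ = a * Kκ * Cμ := by rw [← Real.exp_add]; simp

/-- lower bound of the functional at a point of the support. -/
theorem nu_ge (hκ : Ker κ Kκ cκ) {x x' : H} {p : W} {l : ℝ} {F : W → ℝ} (hFm : Measurable F)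
    {M : ℝ} (hM : ∀ y, |F y| ≤ M) (hF0 : ∀ y, 0 ≤ F y) {b : ℝ} (hb : 0 ≤ b)
    (hF : ∀ y ∈ closedBall p (Real.exp l / 4), b ≤ F y)
    (hx : dist x' x ≤ Real.exp l / 4) {c0 : ℝ} (hc0 : 0 ≤ c0)
    (hfin : mu (cyl x (Real.exp l) univ) ≠ ⊤)
    (hmass : ENNReal.ofReal (c0 * (Real.exp l / 4) ^ m) ≤
      mu (cyl x' (Real.exp l / 4) (closedBall p (Real.exp l / 4)))) :
    b * cκ * (c0 / 4 ^ m) ≤ nu m κ mu x l F := by
  set B := cyl x' (Real.exp l / 4) (closedBall p (Real.exp l / 4)) with hB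
  have hBm : MeasurableSet B := cyl_meas _ _ measurableSet_closedBall
  have hsub : B ⊆ cyl x (Real.exp l) univ := by
    rintro z ⟨hz1, hz2⟩
    refine ⟨?_, trivial⟩
    rw [mem_closedBall] at hz1 ⊢
    have := dist_triangle z.1 x' x
    have := Real.exp_pos l
    linarith
  have hfinB : mu B ≠ ⊤ := ne_top_of_le_ne_top hfin (measure_mono hsub)
  have h1 : ∫ _z in B, (cκ * b) ∂mu ≤ ∫ z, κ (dist z.1 x * Real.exp (-l)) * F z.2 ∂mu := by
    rw [← integral_indicator hBm]
    refine integral_mono ?_ (kerF_integrable hκ hFm hM hfin) fun z => ?_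
    · have h0 : IntegrableOn (fun _ : H × W => cκ * b) B mu := integrableOn_const hfinB
      exact h0.integrable_indicator hBm
    · by_cases hz : z ∈ B
      · simp only [indicator_of_mem hz]
        have h2 : dist z.1 x * Real.exp (-l) ≤ 1 / 2 := by
          have h3 : dist z.1 x' ≤ Real.exp l / 4 := mem_closedBall.1 hz.1
          have h4 := dist_triangle z.1 x' x
          rw [Real.exp_neg, ← div_eq_mul_inv, div_le_iff₀ (Real.exp_pos l)]
          linarith
        have h5 := hκ.ge _ (mul_nonneg dist_nonneg (Real.exp_pos _).le) h2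
        exact mul_le_mul h5 (hF _ hz.2) hb (hκ.nonneg _)
      · simp only [indicator_of_notMem hz]
        exact mul_nonneg (hκ.nonneg _) (hF0 _)
  have h2 : c0 * (Real.exp l / 4) ^ m * (cκ * b) ≤ ∫ _z in B, (cκ * b) ∂mu := by
    rw [setIntegral_const, smul_eq_mul]
    refine mul_le_mul_of_nonneg_right ?_ (mul_nonneg hκ.cpos.le hb)
    exact (ENNReal.ofReal_le_iff_le_toReal hfinB).1 hmass
  unfold nu
  calc b * cκ * (c0 / 4 ^ m) = Real.exp (-(m * l)) * (c0 * (Real.exp l / 4) ^ m * (cκ * b)) := by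
        rw [div_pow, ← Real.exp_nat_mul]
        have : Real.exp (-(m * l)) * Real.exp (m * l) = 1 := by
          rw [← Real.exp_add]; simp
        calc b * cκ * (c0 / 4 ^ m) = 1 * (b * cκ * (c0 / 4 ^ m)) := by ring
          _ = Real.exp (-(m * l)) * Real.exp (m * l) * (b * cκ * (c0 / 4 ^ m)) := by rw [this]
          _ = _ := by ring
    _ ≤ _ := mul_le_mul_of_nonneg_left (h2.trans h1) (Real.exp_pos _).le

/-- if a nonnegative function vanishes on the heights of `T` over the ball, the functional is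
zero. -/
theorem nu_eq_zero (hκ : Ker κ Kκ cκ) {T : Set (H × W)} (hT : mu Tᶜ = 0) {x : H} {l : ℝ}
    {F : W → ℝ} (hF : ∀ y ∈ Ht T x (Real.exp l), F y = 0) : nu m κ mu x l F = 0 := by
  have hTae : ∀ᵐ z ∂mu, z ∈ T := by
    rw [ae_iff]; exact hT
  have h1 : ∫ z, κ (dist z.1 x * Real.exp (-l)) * F z.2 ∂mu = 0 := by
    rw [integral_eq_zero_of_ae]
    filter_upwards [hTae] with z hz
    by_cases hzc : z ∈ cyl x (Real.exp l) (univ : Set W)
    · rw [hF _ ⟨z.1, hz, mem_closedBall.1 hzc.1⟩, mul_zero]; rfl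
    · rw [ker_zero hκ hzc, zero_mul]; rfl
  unfold nu
  rw [h1, mul_zero]

end Crest.Agent.R234.Well_761
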