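import Crest.Agent.R234.Well6_761
import Crest.Agent.R234.Vit1_534

/-!
Row 234, VF-WELL (helper761), file 7: existence of good centres, THEOREM NET (wells at one scale),
comparison for averaged centres.
-/

set_option autoImplicit false
set_option linter.unusedSectionVars false

open Set Filter Topology MeasureTheory Metric Module
open scoped ContDiff InnerProductSpace ENNReal

noncomputable section

namespace Crest.Agent.R234.Well_761

section good

variable {H : Type*} [NormedAddCommGroup H] [NormedSpace ℝ H] [FiniteDimensional ℝ H]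
  [MeasurableSpace H] [BorelSpace H]
variable {W : Type*} [MeasurableSpace W]

/-- a good centre: the maximal function of the tilt is bounded by the mean. -/
theorem exists_good (m : ℕ) (hm : finrank ℝ H = m) (en : Measure (H × W)) (x : H) {s : ℝ}
    (hs : 0 < s) (hfin : en (cyl x (17 * s) univ) ≠ ⊤) :
    ∃ x', dist x x' ≤ s / 16 ∧ ∀ ρ, 0 < ρ → ρ ≤ 16 * s →
      (en (cyl x' ρ univ)).toReal ≤
        2 * 80 ^ m * (en (cyl x (17 * s) univ)).toReal / s ^ m * ρ ^ m := by
  classical
  set f : Measure H := en.map Prod.fst with hf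
  have hfcyl : ∀ (z : H) (r : ℝ), f (closedBall z r) = en (cyl z r univ) := by
    intro z r
    rw [hf, Measure.map_apply measurable_fst measurableSet_closedBall]
    congr 1
    ext p
    simp [cyl]
  set B := closedBall x (17 * s) with hB
  set e0 : ℝ := (en (cyl x (17 * s) univ)).toReal with he0
  set lam : ℝ := 2 * 80 ^ m * e0 / s ^ m with hlam
  have hlam0 : 0 ≤ lam := by
    have : 0 ≤ e0 := ENNReal.toReal_nonneg
    positivity
  have hsub : ∀ x', dist x x' ≤ s / 16 → ∀ ρ, ρ ≤ 16 * s → closedBall x' ρ ⊆ B := by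
    intro x' hx' ρ hρ
    refine closedBall_subset_closedBall' ?_
    rw [dist_comm]
    linarith
  by_contra hcon
  push Not at hcon
  choose! ρ hρ using hcon
  set A := closedBall x (s / 16) with hA
  have hAm : ∀ z ∈ A, dist x z ≤ s / 16 := by
    intro z hz
    rw [dist_comm]
    exact mem_closedBall.1 hz
  -- the mass of the large ball is positive
  have hx0 := hρ x (by rw [dist_self]; positivity)
  have hfinz : ∀ z ∈ A, ∀ r, r ≤ 16 * s → en (cyl z r univ) ≠ ⊤ := by
    intro z hz r hr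
    refine ne_top_of_le_ne_top hfin (measure_mono ?_)
    exact prod_mono (hsub z (hAm z hz) r hr) le_rfl
  have hpos : 0 < e0 := by
    by_contra h0
    push Not at h0
    have h00 : e0 = 0 := le_antisymm h0 ENNReal.toReal_nonneg
    have h1 : en (cyl x (17 * s) univ) = 0 := by
      rcases (ENNReal.toReal_eq_zero_iff _).1 h00 with h | h
      · exact h
      · exact absurd h hfin
    have h2 : en (cyl x (ρ x) univ) = 0 :=
      measure_mono_null (prod_mono (hsub x (by rw [dist_self]; positivity) _ hx0.2.1) le_rfl) h1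
    have h3 := hx0.2.2
    rw [h2] at h3
    simp only [ENNReal.toReal_zero] at h3
    have h4 : 0 ≤ 2 * 80 ^ m * e0 / s ^ m * ρ x ^ m := by
      have := hx0.1.le
      positivity
    linarith
  have key := Vit_534.proj_le (X := H) (L := H) (Measure.addHaar) f A B ρ (16 * s)
    (fun z hz => (hρ z (hAm z hz)).2.1) (fun z hz => (hρ z (hAm z hz)).1)
    (ENNReal.ofReal lam) ?_ (fun z hz => hsub z (hAm z hz) _ (hρ z (hAm z hz)).2.1) 1 id
    LipschitzWith.id
  · rw [image_id, hm] at key
    have h1 : (Measure.addHaar : Measure H) A = ENNReal.ofReal ((s / 16) ^ m) *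
        (Measure.addHaar : Measure H) (ball 0 1) := by
      rw [hA, Measure.addHaar_closedBall _ _ (by positivity), hm]
    have h2 : f B = ENNReal.ofReal e0 := by
      rw [hB, hfcyl, he0, ENNReal.ofReal_toReal hfin]
    rw [h1, h2] at key
    set v := (Measure.addHaar : Measure H) (ball 0 1) with hv
    have hv0 : v ≠ 0 := (measure_ball_pos _ _ one_pos).ne'
    have hvt : v ≠ ⊤ := measure_ball_lt_top.ne
    have h3 : ENNReal.ofReal (lam * (s / 16) ^ m) * v ≤ ENNReal.ofReal (5 ^ m * e0) * v := by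
      calc ENNReal.ofReal (lam * (s / 16) ^ m) * v
          = ENNReal.ofReal lam * (ENNReal.ofReal ((s / 16) ^ m) * v) := by
            rw [ENNReal.ofReal_mul hlam0, mul_assoc]
        _ ≤ ENNReal.ofReal ((5 * (1 : NNReal)) ^ m) * v * ENNReal.ofReal e0 := key
        _ = ENNReal.ofReal (5 ^ m * e0) * v := by
            rw [ENNReal.ofReal_mul (by positivity)]
            simp only [NNReal.coe_one, mul_one]
            ring
    have h4 : ENNReal.ofReal (lam * (s / 16) ^ m) ≤ ENNReal.ofReal (5 ^ m * e0) :=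
      (ENNReal.mul_le_mul_iff_left hv0 hvt).1 h3
    rw [ENNReal.ofReal_le_ofReal_iff (by positivity)] at h4
    have h5 : lam * (s / 16) ^ m = 2 * (5 ^ m * e0) := by
      rw [hlam, div_pow]
      have : (80 : ℝ) ^ m = 5 ^ m * 16 ^ m := by rw [← mul_pow]; norm_num
      rw [this]
      field_simp
    rw [h5] at h4
    have : 0 < 5 ^ m * e0 := by positivity
    linarith
  · intro z hz
    have h1 := hρ z (hAm z hz)
    rw [hm, hfcyl, ← ENNReal.ofReal_mul hlam0]
    refine (ENNReal.ofReal_le_iff_le_toReal (hfinz z hz _ h1.2.1)).2 ?_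
    exact h1.2.2.le

end good

variable {H : Type*} [PseudoMetricSpace H] [MeasurableSpace H] [OpensMeasurableSpace H]
variable {W : Type*} [NormedAddCommGroup W] [InnerProductSpace ℝ W] [MeasurableSpace W]
  [BorelSpace W]

variable {m : ℕ} {κ : ℝ → ℝ} {Kκ cκ : ℝ} {mu en : Measure (H × W)}
  {R : H → ℝ → ℝ} {er : H → ℝ → ℝ → ℝ} {K : ℝ} {x₀ : H} {ρ₀ : ℝ}

/-- **THEOREM NET**: wells at one scale. -/
theorem net {erw : H → ℝ → ℝ → ℝ} {θ₁ θw : ℝ} (hwf : WFlow m κ mu en erw K θ₁ x₀ ρ₀)
    (hκ : Ker κ Kκ cκ)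
    {T : Set (H × W)} {Cμ c0 : ℝ} (hg : Geo m mu T c0 x₀ ρ₀)
    {n : ℕ} (hn1 : 1 ≤ n) (hn : 2 ^ m * Cμ / c0 ≤ n)
    {x : H} {lmin lmax : ℝ} {N : ℝ → (W → ℝ) → ℝ} {C₅ : ℝ}
    (hN : Centre m κ mu x lmin lmax N C₅) {x' : H} {τ r₀ A lam θ a₁ a₂ : ℝ}
    (hA : 1 ≤ A) (hr₀ : 0 < r₀) (hrs : r₀ ≤ Real.exp τ)
    (hdist : dist x x' ≤ Real.exp τ / 4) (hmin : lmin ≤ τ) (hmax : τ + 1 ≤ lmax)
    (hgood : ∀ q, r₀ ≤ q →
      Good m mu en er Cμ x₀ ρ₀ x' (Real.log (r₀ / 16)) (τ + 1 + Real.log 4) lam θ q)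
    (hlam : 0 ≤ lam) (hθw : 0 ≤ θw)
    (herw : ∀ q, r₀ ≤ q → ∀ l ∈ Icc (Real.log (r₀ / 16)) (τ + 1 + Real.log 4),
      erw x' l q ≤ θw * q ^ 2)
    (hθ₁ : θ₁ * (τ + 1 + Real.log 4 - Real.log (r₀ / 16)) ≤ 1)
    (h1 : K * lam * (Real.exp (2 * (τ + 1 + Real.log 4)) / 2) ≤ a₁ * r₀ ^ 2)
    (h2 : (K * lam + θw) * (τ + 1 + Real.log 4 - Real.log (r₀ / 16)) ≤ a₂)
    (hne : (Ht T x' (r₀ / 16)).Nonempty) :
    ∃ j < n, ∃ C : Finset W, (C : Set W) ⊆ Ht T x' (r₀ / 16) ∧ C.Nonempty ∧ C.card ≤ n ∧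
      Sep C (A ^ (j + 1) * r₀) ∧
      (∀ l ∈ Icc τ (τ + 1), N l (wells C (A ^ (j + 1) * r₀)) ≤
        C₅ * (3 * (Kκ * Cμ / 2 * (A ^ j * r₀) ^ 2 + a₁ * r₀ ^ 2 +
          a₂ * (A ^ (j + 1) * r₀) ^ 2))) := by
  have hC₅ : 0 < C₅ := lt_of_lt_of_le one_pos hN.C1
  have hlog4 : 0 < Real.log 4 := Real.log_pos (by norm_num)
  have hexp4 : Real.exp (Real.log 4) = 4 := Real.exp_log (by norm_num)
  have hA0 : 0 < A := lt_of_lt_of_le one_pos hA
  have hAj : ∀ j : ℕ, r₀ ≤ A ^ j * r₀ := fun j =>
    le_mul_of_one_le_left hr₀.le (one_le_pow₀ hA)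
  obtain ⟨i, hi, C, hC1, hC2, hC3, hC4, hC5⟩ := exists_run (N := n)
    (fun _ => Ht T x' (r₀ / 16)) (fun j => A ^ j * r₀) (fun _ => 0) (fun _ _ => hne) hn1
    (by simpa using hr₀)
    (by
      intro i hi k hk
      have hri := hAj i
      have h5 : 2 * (r₀ / 16) ≤ Real.exp (τ + 1 + Real.log 4) := by
        rw [Real.exp_add, hexp4, Real.exp_add]
        have h7 : 1 ≤ Real.exp 1 := Real.one_le_exp (by norm_num)
        have h8 := Real.exp_pos τ
        nlinarith
      have h7 := card_heights hg (D := r₀ / 16) (r := A ^ i * r₀) (by positivity)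
        (by linarith) (hgood r₀ le_rfl) h5 hk
      exact_mod_cast h7.trans hn)
    (fun i _ p' hp' => ⟨p', hp', by rw [dist_self]⟩)
    (by
      intro i hi
      have : A ^ i * r₀ ≤ A ^ (i + 1) * r₀ :=
        mul_le_mul_of_nonneg_right (pow_le_pow_right₀ hA (Nat.le_succ i)) hr₀.le
      simpa using this)
  set q := A ^ (i + 1) * r₀ with hqdef
  have hq : 0 < q := by positivity
  have hsep : Sep C q := by
    intro c hc c' hc' hne'
    have := hC5 c hc c' hc' hne'
    simpa using this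
  refine ⟨i, hi, C, hC1, hC2, hC3, hsep, fun l hl => ?_⟩
  have hDi : 0 < r₀ / 16 := by positivity
  have g3 := hgood q (hAj _)
  have hexpl : Real.exp τ ≤ Real.exp l := Real.exp_le_exp.2 hl.1
  have e1 := hN.le_nu x' l (wells C q) (q ^ 2) (hmin.trans hl.1) (hl.2.trans hmax)
    (by linarith) (test_wells hq hsep).meas (wells_nonneg hq hsep)
    (fun y => (le_abs_self _).trans ((test_wells hq hsep).bF y))
  have hlogD3 : Real.log (r₀ / 16) ≤ l + Real.log 4 := by
    rw [Real.log_le_iff_le_exp hDi, Real.exp_add, hexp4]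
    linarith
  have g4 : Good m mu en er Cμ x₀ ρ₀ x' (Real.log (r₀ / 16)) (l + Real.log 4) lam θ q :=
    g3.mono le_rfl (by linarith [hl.2]) hlogD3
  have e2 := wells_small hwf hκ hg hDi hq g4 hlam hθw
    (fun l' hl' => herw q (hAj _) l' ⟨hl'.1, by linarith [hl'.2, hl.2]⟩) hsep (r := A ^ i * r₀)
    (fun y hy => by
      obtain ⟨c, hc, hd⟩ := hC4 y hy
      exact ⟨c, hc, hd.le⟩)
  have hKl : 0 ≤ K * lam := mul_nonneg hwf.K0 hlam
  have e3 : K * lam * (Real.exp (2 * (l + Real.log 4)) / 2) ≤ a₁ * r₀ ^ 2 := by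
    refine le_trans ?_ h1
    have := Real.exp_le_exp.2 (show 2 * (l + Real.log 4) ≤ 2 * (τ + 1 + Real.log 4) by
      linarith [hl.2])
    exact mul_le_mul_of_nonneg_left (by linarith) hKl
  have e4 : (K * lam + θw) * (l + Real.log 4 - Real.log (r₀ / 16)) * q ^ 2 ≤ a₂ * q ^ 2 := by
    refine mul_le_mul_of_nonneg_right (le_trans ?_ h2) (sq_nonneg _)
    exact mul_le_mul_of_nonneg_left (by linarith [hl.2]) (by linarith)
  refine e1.trans (mul_le_mul_of_nonneg_left ?_ hC₅.le)
  have e7 : Real.exp (θ₁ * (l + Real.log 4 - Real.log (r₀ / 16))) ≤ 3 := by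
    have h6 : θ₁ * (l + Real.log 4 - Real.log (r₀ / 16)) ≤ 1 :=
      (mul_le_mul_of_nonneg_left (by linarith [hl.2]) hwf.θ0).trans hθ₁
    have h7 := Real.exp_le_exp.2 h6
    have h8 := Real.exp_one_lt_d9
    linarith
  have e6 : 0 ≤ (A ^ i * r₀) ^ 2 / 2 * Kκ * Cμ +
      K * lam * (Real.exp (2 * (l + Real.log 4)) / 2) +
      (K * lam + θw) * (l + Real.log 4 - Real.log (r₀ / 16)) * q ^ 2 := by
    have h6 := hκ.Kpos
    have h7 := g4.Cpos
    have h8 : 0 ≤ l + Real.log 4 - Real.log (r₀ / 16) := by linarith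
    positivity
  refine e2.trans ((mul_le_mul_of_nonneg_right e7 e6).trans ?_)
  have e5 : (A ^ i * r₀) ^ 2 / 2 * Kκ * Cμ = Kκ * Cμ / 2 * (A ^ i * r₀) ^ 2 := by ring
  linarith

/-! ### averaged centres -/

/-- averages of `nu` over centres close to `x` are comparable with `nu`. -/
theorem Centre.avg [SecondCountableTopology H] [SFinite mu] (hκ : Ker κ Kκ cκ)
    {T : Set (H × W)} (hT : mu Tᶜ = 0) {x : H} {lmin lmax τ₀ : ℝ} (w : Measure H)
    [IsProbabilityMeasure w] (hw : ∀ᵐ z ∂w, dist z x ≤ τ₀) (hτ₀ : τ₀ ≤ Real.exp lmin / 4)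
    (hfin : mu (cyl x (8 * Real.exp lmax) univ) ≠ ⊤) :
    Centre m κ mu x lmin lmax (fun l F => ∫ z, nu m κ mu z l F ∂w)
      (Kκ / cκ * Real.exp (m * Real.log 4)) := by
  have hlog4 : 0 < Real.log 4 := Real.log_pos (by norm_num)
  have hexp4 : Real.exp (Real.log 4) = 4 := Real.exp_log (by norm_num)
  have hKc : 1 ≤ Kκ / cκ := by
    rw [le_div_iff₀ hκ.cpos, one_mul]
    exact (hκ.ge 0 le_rfl (by norm_num)).trans (hκ.le 0)
  have hτlmin := hτ₀
  -- integrability in the centre
  have hint : ∀ l F M, lmin ≤ l → l ≤ lmax + Real.log 4 → Measurable F → (∀ y, 0 ≤ F y) →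
      (∀ y, F y ≤ M) → Integrable (fun z => nu m κ mu z l F) w := by
    intro l F M hl1 hl2 hFm hF0 hFM
    have hmeas : StronglyMeasurable fun z : H =>
        ∫ p, κ (dist p.1 z * Real.exp (-l)) * F p.2 ∂mu := by
      have h1 : Measurable fun q : H × (H × W) =>
          κ (dist q.2.1 q.1 * Real.exp (-l)) * F q.2.2 := by
        have h2 : Measurable fun q : H × (H × W) => dist q.2.1 q.1 :=
          (measurable_fst.comp measurable_snd).dist measurable_fst
        exact (hκ.meas.comp (h2.mul_const _)).mul (hFm.comp (measurable_snd.comp measurable_snd))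
      exact h1.stronglyMeasurable.integral_prod_right
    have hmeas2 : AEStronglyMeasurable (fun z => nu m κ mu z l F) w :=
      (hmeas.const_mul _).aestronglyMeasurable
    refine Integrable.of_bound hmeas2 (M * Kκ *
      (Real.exp (-(m * l)) * (mu (cyl x (8 * Real.exp lmax) univ)).toReal)) ?_
    filter_upwards [hw] with z hz
    have hM0 : 0 ≤ M := (hF0 0).trans (hFM 0)
    rw [Real.norm_eq_abs, abs_of_nonneg (nu_nonneg hκ z l hF0)]
    refine Well_761.nu_le hκ hT hFm (M := M) (fun y => by rw [abs_of_nonneg (hF0 y)]; exact hFM y)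
      hM0 (fun y _ => hFM y) (mul_nonneg (Real.exp_pos _).le ENNReal.toReal_nonneg) ?_
    have h3 : Real.exp l ≤ 4 * Real.exp lmax := by
      have := Real.exp_le_exp.2 hl2
      rw [Real.exp_add, hexp4] at this
      linarith
    have h5 : Real.exp lmin ≤ 4 * Real.exp lmax := (Real.exp_le_exp.2 hl1).trans h3
    have h6 : Real.exp (-(m * l)) * (mu (cyl x (8 * Real.exp lmax) univ)).toReal *
        Real.exp (m * l) = (mu (cyl x (8 * Real.exp lmax) univ)).toReal := by
      have : Real.exp (-(m * l)) * Real.exp (m * l) = 1 := by rw [← Real.exp_add]; simp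
      calc _ = (mu (cyl x (8 * Real.exp lmax) univ)).toReal *
            (Real.exp (-(m * l)) * Real.exp (m * l)) := by ring
        _ = _ := by rw [this, mul_one]
    rw [h6, ENNReal.ofReal_toReal hfin]
    refine measure_mono (prod_mono (closedBall_subset_closedBall' ?_) le_rfl)
    have := Real.exp_pos lmax
    linarith
  refine ⟨?_, ?_, ?_⟩
  · have h1 : 1 ≤ Real.exp (m * Real.log 4) :=
      Real.one_le_exp (mul_nonneg (Nat.cast_nonneg m) hlog4.le)
    nlinarith
  · intro x' l F M hl1 hl2 hd hFm hF0 hFM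
    have hfin : mu (cyl x' (Real.exp (l + Real.log 4)) univ) ≠ ⊤ := by
      refine ne_top_of_le_ne_top hfin
        (measure_mono (prod_mono (closedBall_subset_closedBall' ?_) le_rfl))
      rw [Real.exp_add, hexp4, dist_comm x' x]
      have h3 := Real.exp_le_exp.2 hl2
      have := Real.exp_pos l
      linarith
    have h1 : ∀ᵐ z ∂w, nu m κ mu z l F ≤ Kκ / cκ * Real.exp (m * Real.log 4) *
        nu m κ mu x' (l + Real.log 4) F := by
      filter_upwards [hw] with z hz
      have h2 := nu_centre (m := m) hκ (x := z) (x' := x') (l := l) (l' := l + Real.log 4)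
        hFm hF0 hFM hfin (by
          rw [Real.exp_add, hexp4]
          have h5 := dist_triangle z x x'
          have h6 := Real.exp_le_exp.2 hl1
          have := Real.exp_pos l
          linarith)
      rwa [add_sub_cancel_left] at h2
    calc ∫ z, nu m κ mu z l F ∂w
        ≤ ∫ _z, Kκ / cκ * Real.exp (m * Real.log 4) * nu m κ mu x' (l + Real.log 4) F ∂w :=
          integral_mono_ae (hint l F M hl1 (by linarith) hFm hF0 hFM) (integrable_const _) h1
      _ = _ := by simp
  · intro x' l F M hl1 hl2 hd hFm hF0 hFM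
    have h1 : ∀ᵐ z ∂w, nu m κ mu x' l F ≤ Kκ / cκ * Real.exp (m * Real.log 4) *
        nu m κ mu z (l + Real.log 4) F := by
      filter_upwards [hw] with z hz
      have hfin : mu (cyl z (Real.exp (l + Real.log 4)) univ) ≠ ⊤ := by
        refine ne_top_of_le_ne_top hfin
          (measure_mono (prod_mono (closedBall_subset_closedBall' ?_) le_rfl))
        rw [Real.exp_add, hexp4]
        have h3 := Real.exp_le_exp.2 hl2
        have h6 := Real.exp_le_exp.2 hl1
        have := Real.exp_pos l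
        linarith
      have h2 := nu_centre (m := m) hκ (x := x') (x' := z) (l := l) (l' := l + Real.log 4)
        hFm hF0 hFM hfin (by
          rw [Real.exp_add, hexp4]
          have h5 := dist_triangle x' x z
          rw [dist_comm x' x, dist_comm x z] at h5
          have h6 := Real.exp_le_exp.2 hl1
          have := Real.exp_pos l
          linarith)
      rwa [add_sub_cancel_left] at h2
    have hint2 := hint (l + Real.log 4) F M (by linarith) (by linarith) hFm hF0 hFM
    calc nu m κ mu x' l F = ∫ _z, nu m κ mu x' l F ∂w := by simp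
      _ ≤ ∫ z, Kκ / cκ * Real.exp (m * Real.log 4) * nu m κ mu z (l + Real.log 4) F ∂w :=
          integral_mono_ae (integrable_const _) (hint2.const_mul _) h1
      _ = _ := integral_const_mul _ _

end Crest.Agent.R234.Well_761
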