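import Crest.Agent.R234.Well8_761

/-!
Row 234, VF-WELL (helper761), file 9: N8 (wells at one scale) in the literal form used by the core.
-/

set_option autoImplicit false
set_option linter.unusedSectionVars false

open Set Filter Topology MeasureTheory Metric Module
open scoped ContDiff InnerProductSpace ENNReal

noncomputable section

namespace Crest.Agent.R234.Well_761

variable {H : Type*} [NormedAddCommGroup H] [NormedSpace ℝ H] [FiniteDimensional ℝ H]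
  [MeasurableSpace H] [BorelSpace H]
variable {W : Type*} [NormedAddCommGroup W] [InnerProductSpace ℝ W] [MeasurableSpace W]
  [BorelSpace W]

variable {m : ℕ} {κ : ℝ → ℝ} {Kκ cκ : ℝ} {mu en : Measure (H × W)}
  {K : ℝ} {x₀ : H} {ρ₀ : ℝ}

/-- there are heights over a small ball of a good centre (only `WFlow`). -/
theorem heights_nonempty' {erw er : H → ℝ → ℝ → ℝ} {θ₁ θw : ℝ}
    (hwf : WFlow m κ mu en erw K θ₁ x₀ ρ₀) (hκ : Ker κ Kκ cκ)
    {T : Set (H × W)} {Cμ c0 : ℝ} (hg : Geo m mu T c0 x₀ ρ₀) {x : H} {D l lam θ q q' c : ℝ}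
    (hD : 0 < D) (hq : 0 < q) (hx : Good m mu en er Cμ x₀ ρ₀ x (Real.log D) l lam θ q')
    (hlam : 0 ≤ lam) (hθw : 0 ≤ θw)
    (herw : ∀ l' ∈ Icc (Real.log D) l, erw x l' q ≤ θw * q ^ 2)
    (hc0 : 0 ≤ c) (hc : c ≤ nu m κ mu x l (fun _ => (1 : ℝ)))
    (herr : Real.exp (θ₁ * (l - Real.log D)) * (K * lam * (Real.exp (2 * l) / 2) +
      (K * lam + θw) * (l - Real.log D) * q ^ 2) < c * q ^ 2 / 128) : (Ht T x D).Nonempty := by
  by_contra hcon
  rw [not_nonempty_iff_eq_empty] at hcon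
  have h1 := wells_small hwf hκ hg hD hq hx hlam hθw herw (C := ∅) (r := 0)
    (fun c hc => absurd hc (Finset.notMem_empty c))
    (fun y hy => by rw [hcon] at hy; exact absurd hy (notMem_empty y))
  have h2 : wells (∅ : Finset W) q = fun _ => wellTop q * (1 : ℝ) := by
    funext y
    simp [wells]
  rw [h2, nu_const_mul] at h1
  have h3 : c * q ^ 2 / 128 ≤ wellTop q * nu m κ mu x l (fun _ => (1 : ℝ)) := by
    calc c * q ^ 2 / 128 = q ^ 2 / 128 * c := by ring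
      _ ≤ wellTop q * nu m κ mu x l (fun _ => (1 : ℝ)) :=
          mul_le_mul (wellTop_ge q) hc hc0 (wellTop_nonneg q)
  have h4 : (0 : ℝ) ^ 2 / 2 * Kκ * Cμ = 0 := by ring
  rw [h4, zero_add] at h1
  linarith

set_option maxHeartbeats 1000000 in
/-- **N8**: wells at one scale, literal form. -/
theorem hnet (hm : finrank ℝ H = m)
    {erw : H → ℝ → ℝ → ℝ} {θ₁ θw : ℝ} (hwf : WFlow m κ mu en erw K θ₁ x₀ ρ₀) (hκ : Ker κ Kκ cκ)
    {S : Set (H × W)} {Cμ c0 : ℝ} (hCμ : 0 ≤ Cμ) (hg : Geo m mu S c0 x₀ ρ₀)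
    {n : ℕ} (hn1 : 1 ≤ n) (hn : 2 ^ m * Cμ / c0 ≤ n)
    {x : H} {lmin lmax : ℝ} {N : ℝ → (W → ℝ) → ℝ} {C₅ : ℝ}
    (hN : Centre m κ mu x lmin lmax N C₅)
    {L0 t A Θ Ce C3 cm c1 Lg E e3 : ℝ}
    (hlmin : lmin ≤ L0 + t) (hlmax : L0 + t + 1 ≤ lmax)
    (hdom : dist x x₀ + 17 * Real.exp (L0 + t) ≤ ρ₀)
    (hfin : en (cyl x (17 * Real.exp (L0 + t)) univ) ≠ ⊤)
    (ht : 1 ≤ t) (hE : 0 < E) (hCe : 0 ≤ Ce) (hC3 : 0 ≤ C3) (hA : 1 ≤ A) (hΘ : 0 < Θ)
    (hθw : 0 ≤ θw)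
    -- the energy at the scale `t`
    (he : (en (cyl x (17 * Real.exp (L0 + t)) univ)).toReal ≤
      Ce * Real.exp (m * (L0 + t)) * Real.exp (-(2 * (L0 + t))) * e3)
    (he3 : e3 ≤ C3 * E)
    -- the errors
    (herw : ∀ x' l q, dist x x' ≤ Real.exp (L0 + t) → Real.exp l ≤ 16 * Real.exp (L0 + t) →
      √(Θ * t * E) ≤ q → √(Θ * t * E) ≤ 16 * Real.exp l →
      (en (cyl x' (Real.exp l) univ)).toReal ≤ Real.exp (m * l) →
      (en (cyl x' (Real.exp l) univ)).toReal * Real.exp (2 * l) ≤ q ^ 2 * Real.exp (m * l) →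
      mu (cyl x' (Real.exp l) univ) ≤ ENNReal.ofReal (Cμ * Real.exp (m * l)) →
      erw x' l q ≤ θw * q ^ 2)
    -- mass at good centres
    (hms : ∀ x' l0 l1 lam, dist x x' ≤ Real.exp l1 / 64 → L0 + t ≤ l1 →
      l1 ≤ L0 + t + 1 + Real.log 4 → l0 ≤ l1 → √(Θ * t * E) ≤ 16 * Real.exp l0 →
      l1 + 1 / 4 - l0 ≤ 2 * Lg → 0 ≤ lam → lam ≤ 1 →
      (∀ l ∈ Icc l0 (l1 + 1 / 4),
        (en (cyl x' (Real.exp l) univ)).toReal ≤ lam * Real.exp (m * l)) →
      lam * (l1 + 1 / 4 - l0) ≤ 1 →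
      ∀ l ∈ Icc l0 l1, mu (cyl x' (Real.exp l) univ) ≤ ENNReal.ofReal (Cμ * Real.exp (m * l)))
    -- mass at the contact centre
    (hcm : 0 ≤ cm) (hmass : cm ≤ N (L0 + t + 1) (fun _ => (1 : ℝ)))
    -- the window
    (hLg1 : 1 ≤ Lg)
    (hLg : Real.log (64 * Real.exp (L0 + t + 1) / √(Θ * t * E)) ≤ Lg)
    (hw1 : Θ * t * E * Lg ≤ Real.exp (2 * (L0 + t))) (hw5 : θ₁ * Lg ≤ 1)
    -- the constants
    (hA1 : 3 * C₅ * (Kκ * Cμ / (2 * A ^ 2) + 60 * K * (2 * 80 ^ m * Ce * C3 / Θ) +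
      (K * (2 * 80 ^ m * Ce * C3 / Θ) + θw * Lg)) ≤ c1 / 2)
    (hA2 : 128 * (2 * 80 ^ m * Ce * C3) ≤ Θ)
    (hA3 : 3 * (60 * K * (2 * 80 ^ m * Ce * C3 / Θ) +
      (K * (2 * 80 ^ m * Ce * C3 / Θ) + θw * Lg)) < cm / C₅ / 128) :
    ∃ w : WCfg W, Θ * t * E ≤ w.q ^ 2 ∧ w.q ^ 2 ≤ A ^ (2 * n) * (Θ * t * E) ∧
      ∀ l ∈ Icc (L0 + t) (L0 + t + 1), 2 * N l (wells w.C w.q) ≤ c1 * w.q ^ 2 := by
  have hC₅ : 0 < C₅ := lt_of_lt_of_le one_pos hN.C1
  have hlog4 : 0 < Real.log 4 := Real.log_pos (by norm_num)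
  have hexp4 : Real.exp (Real.log 4) = 4 := Real.exp_log (by norm_num)
  have hK := hwf.K0
  have hA0 : 0 < A := lt_of_lt_of_le one_pos hA
  obtain ⟨s, hs⟩ : ∃ s : ℝ, s = Real.exp (L0 + t) := ⟨_, rfl⟩
  have hs0 : 0 < s := by rw [hs]; exact Real.exp_pos _
  obtain ⟨r, hr⟩ : ∃ r : ℝ, r = √(Θ * t * E) := ⟨_, rfl⟩
  have hΘt : 0 < Θ * t * E := by positivity
  have hr0 : 0 < r := by rw [hr]; exact Real.sqrt_pos.2 hΘt
  have hr2 : r ^ 2 = Θ * t * E := by rw [hr]; exact Real.sq_sqrt hΘt.le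
  have hs2 : 0 < s ^ 2 := pow_pos hs0 2
  have hsm : 0 < s ^ m := pow_pos hs0 m
  have hse : Real.exp (2 * (L0 + t)) = s ^ 2 := by
    rw [hs, ← Real.exp_nat_mul]; push_cast; rfl
  rw [hse, ← hr2] at hw1
  have hrs : r ≤ s := by
    have h2 : r ^ 2 ≤ r ^ 2 * Lg := le_mul_of_one_le_right (sq_nonneg _) hLg1
    exact (pow_le_pow_iff_left₀ hr0.le hs0.le two_ne_zero).1 (h2.trans hw1)
  -- the good centre
  rw [← hs] at hfin hdom
  obtain ⟨x', hx1, hx2⟩ := exists_good m hm en x hs0 hfin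
  obtain ⟨lam, hlam⟩ : ∃ lam : ℝ, lam =
      2 * 80 ^ m * (en (cyl x (17 * s) univ)).toReal / s ^ m := ⟨_, rfl⟩
  have hlam0 : 0 ≤ lam := by
    have : 0 ≤ (en (cyl x (17 * s) univ)).toReal := ENNReal.toReal_nonneg
    rw [hlam]; positivity
  obtain ⟨B, hB⟩ : ∃ B : ℝ, B = 2 * 80 ^ m * Ce * C3 / Θ := ⟨_, rfl⟩
  rw [← hB] at hA1 hA3
  have hB0 : 0 ≤ B := by rw [hB]; positivity
  have hB1 : B ≤ 1 / 128 := by
    rw [hB, div_le_iff₀ hΘ]; linarith
  have hlams : lam * s ^ 2 ≤ B * r ^ 2 := by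
    have h2 : Real.exp (m * (L0 + t)) = s ^ m := by rw [hs, ← Real.exp_nat_mul]
    have h3 : Real.exp (-(2 * (L0 + t))) = 1 / s ^ 2 := by
      rw [Real.exp_neg, hse, one_div]
    rw [h2, h3, ← hs] at he
    have h4 : lam * s ^ 2 = 2 * 80 ^ m *
        ((en (cyl x (17 * s) univ)).toReal * (s ^ 2 / s ^ m)) := by
      rw [hlam]; field_simp
    have h6 : (en (cyl x (17 * s) univ)).toReal * (s ^ 2 / s ^ m) ≤
        Ce * s ^ m * (1 / s ^ 2) * e3 * (s ^ 2 / s ^ m) :=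
      mul_le_mul_of_nonneg_right he (by positivity)
    have h7 : Ce * s ^ m * (1 / s ^ 2) * e3 * (s ^ 2 / s ^ m) = Ce * e3 := by
      calc _ = Ce * e3 * (s ^ m / s ^ m) * (s ^ 2 / s ^ 2) := by ring
        _ = _ := by rw [div_self hsm.ne', div_self hs2.ne', mul_one, mul_one]
    rw [h7] at h6
    have h8 : E ≤ r ^ 2 / Θ := by
      rw [hr2, le_div_iff₀ hΘ]
      have : E * Θ * 1 ≤ E * Θ * t := mul_le_mul_of_nonneg_left ht (by positivity)
      linarith
    calc lam * s ^ 2 = 2 * 80 ^ m *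
          ((en (cyl x (17 * s) univ)).toReal * (s ^ 2 / s ^ m)) := h4
      _ ≤ 2 * 80 ^ m * (Ce * e3) := mul_le_mul_of_nonneg_left h6 (by positivity)
      _ ≤ 2 * 80 ^ m * (Ce * (C3 * (r ^ 2 / Θ))) := by
          refine mul_le_mul_of_nonneg_left ?_ (by positivity)
          refine mul_le_mul_of_nonneg_left ?_ hCe
          exact he3.trans (mul_le_mul_of_nonneg_left h8 hC3)
      _ = B * r ^ 2 := by rw [hB]; ring
  have hlam1 : lam ≤ 1 := by
    have h3 : r ^ 2 ≤ s ^ 2 := pow_le_pow_left₀ hr0.le hrs 2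
    have h4 : B * r ^ 2 ≤ 1 * s ^ 2 := mul_le_mul (by linarith) h3 (sq_nonneg _) zero_le_one
    exact le_of_mul_le_mul_right (by linarith only [hlams, h4] : lam * s ^ 2 ≤ 1 * s ^ 2) hs2
  obtain ⟨T1, hT1⟩ : ∃ T1 : ℝ, T1 = L0 + t + 1 + Real.log 4 := ⟨_, rfl⟩
  have hexpT : Real.exp T1 = 4 * (s * Real.exp 1) := by
    rw [hT1, Real.exp_add, hexp4, Real.exp_add, ← hs]; ring
  have he1 : Real.exp 1 < 2.72 := by
    have := Real.exp_one_lt_d9
    linarith
  have he1' : 1 ≤ Real.exp 1 := Real.one_le_exp (by norm_num)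
  have hexpT2 : Real.exp T1 ≤ 11 * s := by rw [hexpT]; nlinarith only [hs0, he1, mul_pos hs0 (sub_pos.2 he1)]
  have hlogT : T1 - Real.log (r / 16) ≤ Lg := by
    refine le_trans (le_of_eq ?_) hLg
    rw [← hr, Real.log_div (by positivity) hr0.ne', Real.log_mul (by norm_num)
      (Real.exp_pos _).ne', Real.log_exp, Real.log_div hr0.ne' (by norm_num), hT1]
    have h5 : Real.log 64 = Real.log 4 + Real.log 16 := by
      rw [← Real.log_mul (by norm_num) (by norm_num)]; norm_num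
    rw [h5]; ring
  have hle : Real.log (r / 16) ≤ T1 := by
    rw [Real.log_le_iff_le_exp (by positivity), hexpT]
    nlinarith only [hrs, hs0, hr0, mul_nonneg hs0.le (sub_nonneg.2 he1')]
  have hen : ∀ l ∈ Icc (Real.log (r / 16)) (T1 + 1 / 4),
      (en (cyl x' (Real.exp l) univ)).toReal ≤ lam * Real.exp (m * l) := by
    intro l hl
    have h3 := hx2 (Real.exp l) (Real.exp_pos l) (by
      have h4 := Real.exp_le_exp.2 hl.2
      rw [Real.exp_add] at h4
      have h5 : Real.exp (1 / 4 : ℝ) ≤ 4 / 3 := by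
        have h6 := Real.exp_bound_div_one_sub_of_interval (x := 1 / 4) (by norm_num) (by norm_num)
        norm_num at h6 ⊢
        exact h6
      have h7 : Real.exp T1 * Real.exp (1 / 4 : ℝ) ≤ 11 * s * (4 / 3) :=
        mul_le_mul hexpT2 h5 (Real.exp_pos _).le (by positivity)
      linarith)
    rw [← Real.exp_nat_mul, ← hlam] at h3
    exact h3
  have hKl : lam * Lg ≤ B := by
    have h3 : lam ≤ B * r ^ 2 / s ^ 2 := by
      rw [le_div_iff₀ hs2]; exact hlams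
    calc lam * Lg ≤ B * r ^ 2 / s ^ 2 * Lg := mul_le_mul_of_nonneg_right h3 (by linarith)
      _ = B * (r ^ 2 * Lg / s ^ 2) := by ring
      _ ≤ B * 1 := by
          refine mul_le_mul_of_nonneg_left ?_ hB0
          rw [div_le_one hs2]; exact hw1
      _ = B := mul_one B
  have hmass' : ∀ l ∈ Icc (Real.log (r / 16)) T1,
      mu (cyl x' (Real.exp l) univ) ≤ ENNReal.ofReal (Cμ * Real.exp (m * l)) := by
    refine hms x' _ _ lam ?_ (by linarith) (by linarith) hle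
      (by rw [Real.exp_log (by positivity), ← hr]; linarith) (by linarith) hlam0 hlam1 hen ?_
    · rw [hexpT]
      nlinarith only [hx1, hs0, mul_nonneg hs0.le (sub_nonneg.2 he1')]
    · have h3 : T1 + 1 / 4 - Real.log (r / 16) ≤ 2 * Lg := by linarith
      calc lam * (T1 + 1 / 4 - Real.log (r / 16)) ≤ lam * (2 * Lg) :=
            mul_le_mul_of_nonneg_left h3 hlam0
        _ = 2 * (lam * Lg) := by ring
        _ ≤ 2 * B := by linarith
        _ ≤ 1 := by linarith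
  have hsize : ∀ q, r ≤ q → ∀ l ∈ Icc (Real.log (r / 16)) T1, erw x' l q ≤ θw * q ^ 2 := by
    intro q hq l hl
    have h3 := hen l ⟨hl.1, by linarith [hl.2]⟩
    have h4 : Real.exp l ≤ 11 * s := (Real.exp_le_exp.2 hl.2).trans hexpT2
    have h5 : r / 16 ≤ Real.exp l := by
      rw [← Real.log_le_iff_le_exp (by positivity)]
      exact hl.1
    refine herw x' l q ?_ ?_ ?_ ?_ ?_ ?_ (hmass' l hl)
    · rw [← hs]; linarith
    · rw [← hs]; linarith
    · rw [← hr]; exact hq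
    · rw [← hr]; linarith
    · refine h3.trans ?_
      have := Real.exp_pos (m * l)
      exact mul_le_of_le_one_left this.le hlam1
    · have h6 : Real.exp (2 * l) ≤ 128 * s ^ 2 := by
        have h7 : Real.exp (2 * l) = Real.exp l ^ 2 := by
          rw [← Real.exp_nat_mul]; push_cast; rfl
        rw [h7]
        calc Real.exp l ^ 2 ≤ (11 * s) ^ 2 := pow_le_pow_left₀ (Real.exp_pos l).le h4 2
          _ ≤ 128 * s ^ 2 := by nlinarith only [hs2]
      have h8 : lam * Real.exp (2 * l) ≤ q ^ 2 := by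
        calc lam * Real.exp (2 * l) ≤ lam * (128 * s ^ 2) :=
              mul_le_mul_of_nonneg_left h6 hlam0
          _ = 128 * (lam * s ^ 2) := by ring
          _ ≤ 128 * (B * r ^ 2) := mul_le_mul_of_nonneg_left hlams (by norm_num)
          _ ≤ 128 * (1 / 128 * r ^ 2) := by
              refine mul_le_mul_of_nonneg_left ?_ (by norm_num)
              exact mul_le_mul_of_nonneg_right hB1 (sq_nonneg _)
          _ = r ^ 2 := by ring
          _ ≤ q ^ 2 := pow_le_pow_left₀ hr0.le hq 2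
      calc (en (cyl x' (Real.exp l) univ)).toReal * Real.exp (2 * l)
          ≤ lam * Real.exp (m * l) * Real.exp (2 * l) :=
            mul_le_mul_of_nonneg_right h3 (Real.exp_pos _).le
        _ = lam * Real.exp (2 * l) * Real.exp (m * l) := by ring
        _ ≤ q ^ 2 * Real.exp (m * l) := mul_le_mul_of_nonneg_right h8 (Real.exp_pos _).le
  have hgood : ∀ q, r ≤ q →
      Good m mu en erw Cμ x₀ ρ₀ x' (Real.log (r / 16)) T1 lam θw q := by
    intro q hq
    refine ⟨hle, ?_, fun l hl => hen l ⟨hl.1, by linarith [hl.2]⟩, hsize q hq, hCμ, hmass'⟩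
    have h4 := dist_triangle x' x x₀
    rw [dist_comm x' x] at h4
    linarith
  have h1 : K * lam * (Real.exp (2 * T1) / 2) ≤ 60 * K * B * r ^ 2 := by
    have h2 : Real.exp (2 * T1) ≤ 120 * s ^ 2 := by
      have h7 : Real.exp (2 * T1) = Real.exp T1 ^ 2 := by
        rw [← Real.exp_nat_mul]; push_cast; rfl
      rw [h7, hexpT]
      have h8 : 0 ≤ Real.exp 1 := by linarith
      have h9 : Real.exp 1 ^ 2 ≤ 7.5 := by nlinarith only [he1, h8]
      calc (4 * (s * Real.exp 1)) ^ 2 = 16 * s ^ 2 * Real.exp 1 ^ 2 := by ring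
        _ ≤ 16 * s ^ 2 * 7.5 := mul_le_mul_of_nonneg_left h9 (by positivity)
        _ = 120 * s ^ 2 := by ring
    calc K * lam * (Real.exp (2 * T1) / 2) ≤ K * lam * (120 * s ^ 2 / 2) :=
          mul_le_mul_of_nonneg_left (by linarith) (mul_nonneg hK hlam0)
      _ = 60 * K * (lam * s ^ 2) := by ring
      _ ≤ 60 * K * (B * r ^ 2) := mul_le_mul_of_nonneg_left hlams (by positivity)
      _ = _ := by ring
  have hlognn : 0 ≤ T1 - Real.log (r / 16) := by linarith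
  have h2 : (K * lam + θw) * (T1 - Real.log (r / 16)) ≤ K * B + θw * Lg := by
    have h3 : K * lam * (T1 - Real.log (r / 16)) ≤ K * B := by
      calc K * lam * (T1 - Real.log (r / 16)) ≤ K * lam * Lg :=
            mul_le_mul_of_nonneg_left hlogT (mul_nonneg hK hlam0)
        _ = K * (lam * Lg) := by ring
        _ ≤ K * B := mul_le_mul_of_nonneg_left hKl hK
    have h4 : θw * (T1 - Real.log (r / 16)) ≤ θw * Lg := mul_le_mul_of_nonneg_left hlogT hθw
    rw [add_mul]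
    linarith
  have hθ₁ : θ₁ * (T1 - Real.log (r / 16)) ≤ 1 :=
    (mul_le_mul_of_nonneg_left hlogT hwf.θ0).trans hw5
  have hex3 : Real.exp (θ₁ * (T1 - Real.log (r / 16))) ≤ 3 := by
    have h7 := Real.exp_le_exp.2 hθ₁
    linarith
  have hne : (Ht S x' (r / 16)).Nonempty := by
    have e1 := hN.le_nu x' (L0 + t + 1) (fun _ => (1 : ℝ)) 1 (by linarith) hlmax
      (by
        rw [Real.exp_add, ← hs]
        nlinarith only [hx1, hs0, mul_nonneg hs0.le (sub_nonneg.2 he1')])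
      measurable_const (fun _ => zero_le_one) (fun _ => le_rfl)
    have e3' : cm / C₅ ≤ nu m κ mu x' T1 (fun _ : W => (1 : ℝ)) := by
      rw [div_le_iff₀ hC₅, hT1]; linarith
    refine heights_nonempty' hwf hκ hg (by positivity) hr0 (hgood r le_rfl) hlam0 hθw
      (hsize r le_rfl) (by positivity) e3' ?_
    have e4 : 0 ≤ K * lam * (Real.exp (2 * T1) / 2) +
        (K * lam + θw) * (T1 - Real.log (r / 16)) * r ^ 2 := by positivity
    have e5 := mul_le_mul_of_nonneg_right h2 (sq_nonneg r)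
    calc Real.exp (θ₁ * (T1 - Real.log (r / 16))) * (K * lam * (Real.exp (2 * T1) / 2) +
          (K * lam + θw) * (T1 - Real.log (r / 16)) * r ^ 2)
        ≤ 3 * (K * lam * (Real.exp (2 * T1) / 2) +
          (K * lam + θw) * (T1 - Real.log (r / 16)) * r ^ 2) :=
          mul_le_mul_of_nonneg_right hex3 e4
      _ ≤ 3 * (60 * K * B * r ^ 2 + (K * B + θw * Lg) * r ^ 2) := by linarith
      _ = 3 * (60 * K * B + (K * B + θw * Lg)) * r ^ 2 := by ring
      _ < cm / C₅ / 128 * r ^ 2 := mul_lt_mul_of_pos_right hA3 (by positivity)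
      _ = cm / C₅ * r ^ 2 / 128 := by ring
  subst hT1
  obtain ⟨j, hj, C, hC1, hC2, hC3', hC4, hC5⟩ := net hwf hκ hg hn1 hn hN (x' := x')
    (τ := L0 + t) (r₀ := r) (A := A) (a₁ := 60 * K * B) (a₂ := K * B + θw * Lg) (θ := θw)
    (er := erw) hA hr0
    (by rw [← hs]; exact hrs) (by rw [← hs]; linarith) hlmin hlmax hgood hlam0 hθw
    (fun q hq l hl => hsize q hq l hl) hθ₁ h1 h2 hne
  have hAj : 1 ≤ A ^ (j + 1) := one_le_pow₀ hA
  have hq0 : 0 < A ^ (j + 1) * r := by positivity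
  refine ⟨⟨C, A ^ (j + 1) * r, hq0, hC4⟩, ?_, ?_, ?_⟩
  · rw [← hr2]
    exact pow_le_pow_left₀ hr0.le (le_mul_of_one_le_left hr0.le hAj) 2
  · simp only
    rw [mul_pow, hr2, ← pow_mul]
    refine mul_le_mul_of_nonneg_right ?_ hΘt.le
    exact pow_le_pow_right₀ hA (by lia)
  · intro l hl
    have h3 := hC5 l hl
    simp only
    set q := A ^ (j + 1) * r with hq
    have h4 : (A ^ j * r) ^ 2 = q ^ 2 / A ^ 2 := by
      rw [hq]; field_simp; ring
    have h5 : r ^ 2 ≤ q ^ 2 :=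
      pow_le_pow_left₀ hr0.le (le_mul_of_one_le_left hr0.le hAj) 2
    have h6 : Kκ * Cμ / 2 * (A ^ j * r) ^ 2 + 60 * K * B * r ^ 2 + (K * B + θw * Lg) * q ^ 2 ≤
        (Kκ * Cμ / (2 * A ^ 2) + 60 * K * B + (K * B + θw * Lg)) * q ^ 2 := by
      rw [h4]
      have h7 : 60 * K * B * r ^ 2 ≤ 60 * K * B * q ^ 2 :=
        mul_le_mul_of_nonneg_left h5 (by positivity)
      have h8 : Kκ * Cμ / 2 * (q ^ 2 / A ^ 2) = Kκ * Cμ / (2 * A ^ 2) * q ^ 2 := by
        field_simp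
      rw [h8]
      linarith
    have h9 : C₅ * (3 * (Kκ * Cμ / 2 * (A ^ j * r) ^ 2 + 60 * K * B * r ^ 2 +
        (K * B + θw * Lg) * q ^ 2)) ≤ c1 / 2 * q ^ 2 := by
      calc C₅ * (3 * (Kκ * Cμ / 2 * (A ^ j * r) ^ 2 + 60 * K * B * r ^ 2 +
            (K * B + θw * Lg) * q ^ 2))
          ≤ C₅ * (3 * ((Kκ * Cμ / (2 * A ^ 2) + 60 * K * B + (K * B + θw * Lg)) * q ^ 2)) := by
            refine mul_le_mul_of_nonneg_left ?_ hC₅.le
            linarith
        _ = 3 * C₅ * (Kκ * Cμ / (2 * A ^ 2) + 60 * K * B + (K * B + θw * Lg)) * q ^ 2 := by ring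
        _ ≤ _ := mul_le_mul_of_nonneg_right hA1 (sq_nonneg _)
    linarith

end Crest.Agent.R234.Well_761
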