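import Crest.Agent.R234.Wi1_870

/-!
# Row 234, VF-WELLINST, part 2 (helper870)

Bounds: Cauchy-Schwarz `|e_F| ≤ √ν(|dF|²) √R`, one-sided bound of `e_F` by the tilt energy over the
heights in `S`, bound of the error of (W3) by the tilt energy over the heights in `S`.
-/

set_option autoImplicit false

open MeasureTheory Set Function Filter Topology
open Crest.GeometryTopology.Submanifold
open Crest.Agent.R234.Vf_884 Crest.Agent.R234.Ar_870 Crest.Agent.R234.Cy_870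
open scoped ENNReal NNReal InnerProductSpace

noncomputable section

namespace Crest.Agent.R234.Wi_870

variable {m n k : ℕ}

/-! ### traces -/

theorem tr_quad {κ : Euc k →L[ℝ] Euc n} {P : L k} (hP : IsPr P) (A : L n) :
    tr (A ∘L Shh κ P) =
      ∑ i, ⟪κ (P (EuclideanSpace.basisFun (Fin k) ℝ i)),
        A (κ (P (EuclideanSpace.basisFun (Fin k) ℝ i)))⟫_ℝ := by
  have h1 : A ∘L Shh κ P = (A ∘L κ ∘L P) ∘L (P ∘L ContinuousLinearMap.adjoint κ) := by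
    have h2 : P ∘L P = P := hP.1
    unfold Shh
    calc A ∘L κ ∘L P ∘L ContinuousLinearMap.adjoint κ =
        A ∘L κ ∘L (P ∘L P) ∘L ContinuousLinearMap.adjoint κ := by rw [h2]
      _ = _ := rfl
  rw [h1, ← tr_cyc, tr_apply, LinearMap.trace_eq_sum_inner _ (EuclideanSpace.basisFun (Fin k) ℝ)]
  refine Finset.sum_congr rfl fun i _ => ?_
  set e := EuclideanSpace.basisFun (Fin k) ℝ i with he
  change ⟪e, P (ContinuousLinearMap.adjoint κ (A (κ (P e))))⟫_ℝ = _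
  rw [← ContinuousLinearMap.adjoint_inner_left, hP.2, ContinuousLinearMap.adjoint_inner_right]

theorem tr_quad_nonpos {κ : Euc k →L[ℝ] Euc n} {P : L k} (hP : IsPr P) {A : L n}
    (hA : ∀ v, ⟪A v, v⟫_ℝ ≤ 0) : tr (A ∘L Shh κ P) ≤ 0 := by
  rw [tr_quad hP]
  refine Finset.sum_nonpos fun i _ => ?_
  rw [real_inner_comm]
  exact hA _

theorem tr_quad_le {π : Euc k →L[ℝ] Euc m} {κ : Euc k →L[ℝ] Euc n} (hs : Split π κ) {P : L k}
    (hP : P ∈ G m k) {A : L n} {B : ℝ} (hA : ‖A‖ ≤ B) :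
    tr (A ∘L Shh κ P) ≤ B * tl π P := by
  have hPr := isPr_of_G hP
  have h1 := tr_quad hPr (ContinuousLinearMap.id ℝ (Euc n)) (κ := κ)
  rw [ContinuousLinearMap.id_comp, tr_Svv hs hP] at h1
  rw [tr_quad hPr, h1, Finset.mul_sum]
  refine Finset.sum_le_sum fun i _ => ?_
  set v := κ (P (EuclideanSpace.basisFun (Fin k) ℝ i)) with hv
  calc ⟪v, A v⟫_ℝ ≤ ‖v‖ * ‖A v‖ := real_inner_le_norm _ _
    _ ≤ ‖v‖ * (B * ‖v‖) := by
        refine mul_le_mul_of_nonneg_left ?_ (norm_nonneg _)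
        exact (A.le_opNorm v).trans (mul_le_mul_of_nonneg_right hA (norm_nonneg _))
    _ = B * ⟪v, ContinuousLinearMap.id ℝ (Euc n) v⟫_ℝ := by
        rw [ContinuousLinearMap.id_apply, real_inner_self_eq_norm_sq]; ring

variable {π : Euc k →L[ℝ] Euc m} {κ : Euc k →L[ℝ] Euc n} {x : Euc m} {L₀ h₀ : ℝ}
  {V : Measure (Euc k × L k)} {g g1 g2 : ℝ → ℝ}
  {F : Euc n → ℝ} {dF : Euc n → Euc n} {H : Euc n → L n}

/-! ### Cauchy-Schwarz -/

/-- `ν(|dF|²)` with the kernel `-2 g'` -/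
def nuG (V : Measure (Euc k × L k)) (π : Euc k →L[ℝ] Euc m) (κ : Euc k →L[ℝ] Euc n) (x : Euc m)
    (f : Euc n → ℝ) (g1 : ℝ → ℝ) (l : ℝ) : ℝ :=
  Real.exp (-m * l) *
    ∫ p, f (κ p.1) * (-2 * g1 (Real.exp (-2 * l) * ‖π p.1 - x‖ ^ 2)) ∂V

theorem abs_eF_sub_le (h : Fr V π κ x L₀) (hh : Hgt V π κ x L₀ h₀) (hF : C2w F dF H)
    (hg : Prof g g1 g2) {l : ℝ} (hl : l ≤ L₀) :
    |eF V π κ x H g l - Real.exp ((2 - m) * l) * FV V (X2 π κ x dF g l)| ≤
      Real.sqrt (nuG V π κ x (fun y => ‖dF y‖ ^ 2) g1 l) * Real.sqrt (RR V π x g1 l) := by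
  have hsq : (eF V π κ x H g l - Real.exp ((2 - m) * l) * FV V (X2 π κ x dF g l)) ^ 2 ≤
      nuG V π κ x (fun y => ‖dF y‖ ^ 2) g1 l * RR V π x g1 l := by
    rw [eF_eq h hh hF hg.k0 hl]
    have hnm : AEStronglyMeasurable (fun p : Euc k × L k => ‖dF (κ p.1)‖ ^ 2) V :=
      ((hF.contdF.comp (κ.continuous.comp continuous_fst)).norm.pow 2).aestronglyMeasurable
    obtain ⟨C1, hC1⟩ := exists_bd h hh (c := fun q => ‖dF q.1‖ ^ 2)
      ((hF.contdF.comp continuous_fst).norm.pow 2)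
    obtain ⟨C2, hC2⟩ := cM_bd h hh hF
    have i1 := h.integrable_c hnm hC1 hg.k1 hl
    have i2 := h.integrable_c (continuous_qf π x).aestronglyMeasurable h.qf_bound hg.k1 hl
    have i3 := h.integrable_c (continuous_cM hF π κ x).aestronglyMeasurable hC2 hg.k1 hl
    set A := ∫ p, ‖dF (κ p.1)‖ ^ 2 * g1 (Real.exp (-2 * l) * ‖π p.1 - x‖ ^ 2) ∂V with hA
    set Bq := ∫ p, qf π p.2 (π p.1 - x) * g1 (Real.exp (-2 * l) * ‖π p.1 - x‖ ^ 2) ∂V with hB
    set M := MM V π κ x dF g1 l with hM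
    have key : ∀ t : ℝ, 0 ≤ (-A) * (t * t) + 2 * M * t + (-Bq) := by
      intro t
      have h1 : (-A) * (t * t) + 2 * M * t + (-Bq) =
          ∫ p, ((-(t * t)) * (‖dF (κ p.1)‖ ^ 2 * g1 (Real.exp (-2 * l) * ‖π p.1 - x‖ ^ 2)) +
            (2 * t) * (cM π κ x dF p * g1 (Real.exp (-2 * l) * ‖π p.1 - x‖ ^ 2)) +
            (-1) * (qf π p.2 (π p.1 - x) * g1 (Real.exp (-2 * l) * ‖π p.1 - x‖ ^ 2)) +
            0 * (qf π p.2 (π p.1 - x) * g1 (Real.exp (-2 * l) * ‖π p.1 - x‖ ^ 2))) ∂V := by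
        rw [int4 i1 i3 i2 i2]
        rw [← hA, ← hB]
        unfold MM at hM
        rw [← hM]
        ring
      rw [h1]
      refine integral_nonneg_of_ae ?_
      filter_upwards [h.conc] with p hp
      have hneg : 0 ≤ -g1 (Real.exp (-2 * l) * ‖π p.1 - x‖ ^ 2) := by
        have := hg.anti (Real.exp (-2 * l) * ‖π p.1 - x‖ ^ 2) (by positivity)
        linarith
      have h2 : (0:ℝ) ≤ (t * t) * ‖dF (κ p.1)‖ ^ 2 - 2 * t * cM π κ x dF p +
          qf π p.2 (π p.1 - x) := by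
        have h4 := norm_Svh_sq_le h.sp (isPr_of_G hp) (π p.1 - x)
        have h5 : ‖t • dF (κ p.1) - Svh π κ p.2 (π p.1 - x)‖ ^ 2 =
            (t * t) * ‖dF (κ p.1)‖ ^ 2 - 2 * t * cM π κ x dF p +
              ‖Svh π κ p.2 (π p.1 - x)‖ ^ 2 := by
          rw [norm_sub_sq_real, inner_smul_left, norm_smul, mul_pow, Real.norm_eq_abs, sq_abs]
          unfold cM
          simp only [RCLike.conj_to_real]
          ring
        have h6 : 0 ≤ ‖t • dF (κ p.1) - Svh π κ p.2 (π p.1 - x)‖ ^ 2 := by positivity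
        linarith
      have h7 := mul_nonneg hneg h2
      simp only [Pi.zero_apply]
      nlinarith
    have hd := discrim_le_zero key
    unfold discrim at hd
    have eI : nuG V π κ x (fun y => ‖dF y‖ ^ 2) g1 l = Real.exp (-m * l) * (-2 * A) := by
      unfold nuG
      rw [int_c4 V (fun p => ‖dF (κ p.1)‖ ^ 2)
        (fun p => g1 (Real.exp (-2 * l) * ‖π p.1 - x‖ ^ 2)) (-2)]
    have eR : RR V π x g1 l = Real.exp (-m * l) * (-2 * Bq) := by
      unfold RR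
      rw [int_c4 V (fun p => qf π p.2 (π p.1 - x))
        (fun p => g1 (Real.exp (-2 * l) * ‖π p.1 - x‖ ^ 2)) (-2)]
    rw [eI, eR]
    have hE : 0 ≤ Real.exp (-m * l) ^ 2 := by positivity
    nlinarith
  have h0 : 0 ≤ nuG V π κ x (fun y => ‖dF y‖ ^ 2) g1 l := by
    unfold nuG
    refine mul_nonneg (Real.exp_pos _).le (integral_nonneg fun p => ?_)
    have := hg.anti (Real.exp (-2 * l) * ‖π p.1 - x‖ ^ 2) (by positivity)
    have h1 : 0 ≤ -2 * g1 (Real.exp (-2 * l) * ‖π p.1 - x‖ ^ 2) := by linarith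
    simp only [Pi.zero_apply]
    positivity
  rw [← Real.sqrt_mul h0]
  exact Real.abs_le_sqrt hsq

/-! ### localisation in the height -/

/-- tilt energy (not normalised) of the open base ball of radius `e^l` over the heights in `S` -/
def tS (V : Measure (Euc k × L k)) (π : Euc k →L[ℝ] Euc m) (κ : Euc k →L[ℝ] Euc n) (x : Euc m)
    (l : ℝ) (S : Set (Euc n)) : ℝ :=
  ∫ p in {p | ‖π p.1 - x‖ ^ 2 < Real.exp (2 * l) ∧ κ p.1 ∈ S}, tl π p.2 ∂V

theorem measurableSet_tS (π : Euc k →L[ℝ] Euc m) (κ : Euc k →L[ℝ] Euc n) (x : Euc m) (l : ℝ)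
    {S : Set (Euc n)} (hS : MeasurableSet S) :
    MeasurableSet {p : Euc k × L k | ‖π p.1 - x‖ ^ 2 < Real.exp (2 * l) ∧ κ p.1 ∈ S} :=
  (measurableSet_base π x l).inter ((κ.continuous.comp continuous_fst).measurable hS)

theorem integrableOn_tl (h : Fr V π κ x L₀) :
    IntegrableOn (fun p => tl π p.2) {p | ‖π p.1 - x‖ ^ 2 < Real.exp (2 * L₀)} V := by
  refine IntegrableOn.of_bound h.fin (aestronglyMeasurable_tl π V).restrict m ?_
  filter_upwards [ae_restrict_of_ae h.tl_bound, ae_restrict_mem (measurableSet_base π x L₀)]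
    with p hp hp2
  exact hp hp2

theorem integrableOn_tS (h : Fr V π κ x L₀) {l : ℝ} (hl : l ≤ L₀) (S : Set (Euc n)) :
    IntegrableOn (fun p => tl π p.2)
      {p | ‖π p.1 - x‖ ^ 2 < Real.exp (2 * l) ∧ κ p.1 ∈ S} V := by
  refine (integrableOn_tl h).mono_set fun p hp => lt_of_lt_of_le hp.1 ?_
  exact Real.exp_le_exp.2 (by linarith)

theorem one_le_of_not {l : ℝ} {ρ : ℝ} (hρ : ¬ ρ < Real.exp (2 * l)) :
    1 ≤ Real.exp (-2 * l) * ρ := by
  calc (1:ℝ) = Real.exp (-2 * l) * Real.exp (2 * l) := by rw [← Real.exp_add]; simp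
    _ ≤ _ := mul_le_mul_of_nonneg_left (not_lt.1 hρ) (Real.exp_pos _).le

/-- upper bound of a kernel integral: coefficient `≤ C tl` over heights in `S`, `≤ 0` elsewhere -/
theorem ker_le_S (h : Fr V π κ x L₀) {l : ℝ} (hl : l ≤ L₀) {S : Set (Euc n)}
    (hS : MeasurableSet S) {c : Euc k × L k → ℝ} {f : ℝ → ℝ} {C K : ℝ}
    (hi : Integrable (fun p => c p * f (Real.exp (-2 * l) * ‖π p.1 - x‖ ^ 2)) V)
    (hc : ∀ᵐ p ∂V, κ p.1 ∈ S → c p * f (Real.exp (-2 * l) * ‖π p.1 - x‖ ^ 2) ≤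
      C * tl π p.2 * K)
    (hc' : ∀ᵐ p ∂V, κ p.1 ∉ S → c p * f (Real.exp (-2 * l) * ‖π p.1 - x‖ ^ 2) ≤ 0)
    (hf0 : ∀ t, 1 ≤ t → f t = 0) :
    ∫ p, c p * f (Real.exp (-2 * l) * ‖π p.1 - x‖ ^ 2) ∂V ≤ C * K * tS V π κ x l S := by
  have hM := measurableSet_tS π κ x l hS
  unfold tS
  rw [← integral_const_mul, ← integral_indicator hM]
  have hI : IntegrableOn (fun p : Euc k × L k => C * K * tl π p.2)
      {p | ‖π p.1 - x‖ ^ 2 < Real.exp (2 * l) ∧ κ p.1 ∈ S} V :=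
    (integrableOn_tS h hl S).const_mul (C * K)
  refine integral_mono_ae hi (hI.integrable_indicator hM) ?_
  filter_upwards [hc, hc'] with p h1 h2
  by_cases hp : p ∈ {p : Euc k × L k | ‖π p.1 - x‖ ^ 2 < Real.exp (2 * l) ∧ κ p.1 ∈ S}
  · rw [indicator_of_mem hp]
    have := h1 hp.2
    linarith
  · rw [indicator_of_notMem hp]
    by_cases h3 : κ p.1 ∈ S
    · have h4 : ¬ ‖π p.1 - x‖ ^ 2 < Real.exp (2 * l) := fun h5 => hp ⟨h5, h3⟩
      rw [hf0 _ (one_le_of_not h4), mul_zero]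
    · exact h2 h3

theorem eF_le_S (h : Fr V π κ x L₀) (hh : Hgt V π κ x L₀ h₀) (hF : C2w F dF H)
    (hg : Prof g g1 g2) {K B : ℝ} (hg0 : ∀ t, 0 ≤ t → 0 ≤ g t) (hK : ∀ t, 0 ≤ t → g t ≤ K)
    (hB : ∀ y, ‖H y‖ ≤ B) {S : Set (Euc n)} (hS : MeasurableSet S)
    (hoff : ∀ y, y ∉ S → ∀ v, ⟪H y v, v⟫_ℝ ≤ 0) {l : ℝ} (hl : l ≤ L₀) :
    eF V π κ x H g l ≤ Real.exp ((2 - m) * l) * (B * K * tS V π κ x l S) := by
  have hB0 : 0 ≤ B := (norm_nonneg _).trans (hB 0)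
  have hK0 : 0 ≤ K := (hg0 0 le_rfl).trans (hK 0 le_rfl)
  obtain ⟨C1, hC1⟩ := trH_bd h hh hF
  have i1 := h.integrable_c (trH_cont hF κ).aestronglyMeasurable hC1 hg.k0 hl
  unfold eF
  refine mul_le_mul_of_nonneg_left ?_ (Real.exp_pos _).le
  refine ker_le_S h hl hS i1 ?_ ?_ hg.k0.zero
  · filter_upwards [h.conc] with p hp _
    have h1 := tr_quad_le h.sp hp (hB (κ p.1))
    have h2 := hg0 (Real.exp (-2 * l) * ‖π p.1 - x‖ ^ 2) (by positivity)
    have h3 := hK (Real.exp (-2 * l) * ‖π p.1 - x‖ ^ 2) (by positivity)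
    have h4 := tl_nonneg h.sp.hh (isPr_of_G hp)
    exact (mul_le_mul_of_nonneg_right h1 h2).trans
      (mul_le_mul_of_nonneg_left h3 (mul_nonneg hB0 h4))
  · filter_upwards [h.conc] with p hp hnS
    have h1 := tr_quad_nonpos (κ := κ) (isPr_of_G hp) (hoff _ hnS)
    have h2 := hg0 (Real.exp (-2 * l) * ‖π p.1 - x‖ ^ 2) (by positivity)
    exact mul_nonpos_of_nonpos_of_nonneg h1 h2

/-- absolute value version -/
theorem abs_ker_le_S (h : Fr V π κ x L₀) {l : ℝ} (hl : l ≤ L₀) {S : Set (Euc n)}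
    (hS : MeasurableSet S) {c : Euc k × L k → ℝ} {f : ℝ → ℝ} {C : ℝ}
    (hc : ∀ᵐ p ∂V, κ p.1 ∈ S → |c p * f (Real.exp (-2 * l) * ‖π p.1 - x‖ ^ 2)| ≤
      C * tl π p.2)
    (hc' : ∀ᵐ p ∂V, κ p.1 ∉ S → c p * f (Real.exp (-2 * l) * ‖π p.1 - x‖ ^ 2) = 0)
    (hf0 : ∀ t, 1 ≤ t → f t = 0) :
    |∫ p, c p * f (Real.exp (-2 * l) * ‖π p.1 - x‖ ^ 2) ∂V| ≤ C * tS V π κ x l S := by
  have hM := measurableSet_tS π κ x l hS
  unfold tS
  rw [← integral_const_mul, ← integral_indicator hM, ← Real.norm_eq_abs]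
  have hI : IntegrableOn (fun p : Euc k × L k => C * tl π p.2)
      {p | ‖π p.1 - x‖ ^ 2 < Real.exp (2 * l) ∧ κ p.1 ∈ S} V :=
    (integrableOn_tS h hl S).const_mul C
  refine norm_integral_le_of_norm_le (hI.integrable_indicator hM) ?_
  filter_upwards [hc, hc'] with p h1 h2
  rw [Real.norm_eq_abs]
  by_cases hp : p ∈ {p : Euc k × L k | ‖π p.1 - x‖ ^ 2 < Real.exp (2 * l) ∧ κ p.1 ∈ S}
  · rw [indicator_of_mem hp]
    exact h1 hp.2
  · rw [indicator_of_notMem hp]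
    by_cases h3 : κ p.1 ∈ S
    · have h4 : ¬ ‖π p.1 - x‖ ^ 2 < Real.exp (2 * l) := fun h5 => hp ⟨h5, h3⟩
      rw [hf0 _ (one_le_of_not h4), mul_zero, abs_zero]
    · rw [h2 h3, abs_zero]

theorem abs_err3_le_S (h : Fr V π κ x L₀) (hg : Prof g g1 g2) {K A : ℝ}
    (hK1 : ∀ t, 0 ≤ t → |g1 t| ≤ K) (hK2 : ∀ t, 0 ≤ t → |t * g2 t| ≤ K)
    (hA : ∀ y, |F y| ≤ A) {S : Set (Euc n)} (hS : MeasurableSet S)
    (hoff : ∀ y, y ∉ S → F y = 0) {l : ℝ} (hl : l ≤ L₀) :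
    |err3 V π κ x F g1 g2 l| ≤ 12 * K * A * Real.exp (-m * l) * tS V π κ x l S := by
  have hA0 : 0 ≤ A := (abs_nonneg _).trans (hA 0)
  have hK0 : 0 ≤ K := (abs_nonneg _).trans (hK1 0 le_rfl)
  set T := tS V π κ x l S with hT
  have e1 : |∫ p, (F (κ p.1) * tl π p.2) * g1 (Real.exp (-2 * l) * ‖π p.1 - x‖ ^ 2) ∂V| ≤
      A * K * T := by
    refine abs_ker_le_S h hl hS ?_ ?_ hg.k1.zero
    · filter_upwards [h.conc] with p hp _
      have h1 := tl_nonneg h.sp.hh (isPr_of_G hp)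
      rw [abs_mul, abs_mul, abs_of_nonneg h1]
      calc |F (κ p.1)| * tl π p.2 * |g1 (Real.exp (-2 * l) * ‖π p.1 - x‖ ^ 2)|
          ≤ A * tl π p.2 * K :=
            mul_le_mul (mul_le_mul_of_nonneg_right (hA _) h1) (hK1 _ (by positivity))
              (abs_nonneg _) (mul_nonneg hA0 h1)
        _ = A * K * tl π p.2 := by ring
    · refine Eventually.of_forall fun p hp => ?_
      rw [hoff _ hp, zero_mul, zero_mul]
  have e2 : |∫ p, (F (κ p.1) * qf π p.2 (π p.1 - x)) *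
      g2 (Real.exp (-2 * l) * ‖π p.1 - x‖ ^ 2) ∂V| ≤ A * K * Real.exp (2 * l) * T := by
    refine abs_ker_le_S h hl hS ?_ ?_ hg.k1.zero'
    · filter_upwards [h.conc] with p hp _
      have hPr := isPr_of_G hp
      have h1 := tl_nonneg h.sp.hh hPr
      have hq0 := qf_nonneg h.sp.hh hPr (π p.1 - x)
      have hq := qf_le_tl h.sp hp (π p.1 - x)
      set ρ := ‖π p.1 - x‖ ^ 2 with hρ
      have hρ0 : 0 ≤ ρ := by positivity
      have h2 := hK2 (Real.exp (-2 * l) * ρ) (by positivity)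
      rw [abs_mul, abs_mul, abs_of_nonneg hq0]
      have h3 : ρ * |g2 (Real.exp (-2 * l) * ρ)| ≤ Real.exp (2 * l) * K := by
        have h4 : ρ * |g2 (Real.exp (-2 * l) * ρ)| =
            Real.exp (2 * l) * |(Real.exp (-2 * l) * ρ) * g2 (Real.exp (-2 * l) * ρ)| := by
          rw [abs_mul, abs_of_nonneg (mul_nonneg (Real.exp_pos (-2 * l)).le hρ0), ← mul_assoc,
            ← mul_assoc, ← Real.exp_add]
          simp
        rw [h4]
        exact mul_le_mul_of_nonneg_left h2 (Real.exp_pos _).le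
      calc |F (κ p.1)| * qf π p.2 (π p.1 - x) * |g2 (Real.exp (-2 * l) * ρ)|
          ≤ A * (ρ * tl π p.2) * |g2 (Real.exp (-2 * l) * ρ)| := by
            refine mul_le_mul_of_nonneg_right ?_ (abs_nonneg _)
            exact mul_le_mul (hA _) hq hq0 hA0
        _ = A * tl π p.2 * (ρ * |g2 (Real.exp (-2 * l) * ρ)|) := by ring
        _ ≤ A * tl π p.2 * (Real.exp (2 * l) * K) :=
            mul_le_mul_of_nonneg_left h3 (mul_nonneg hA0 h1)
        _ = A * K * Real.exp (2 * l) * tl π p.2 := by ring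
    · refine Eventually.of_forall fun p hp => ?_
      rw [hoff _ hp, zero_mul, zero_mul]
  unfold err3
  rw [abs_mul, abs_mul, abs_of_pos (by norm_num : (0:ℝ) < 4), abs_of_pos (Real.exp_pos _)]
  have e3 : |(∫ p, (F (κ p.1) * tl π p.2) * g1 (Real.exp (-2 * l) * ‖π p.1 - x‖ ^ 2) ∂V)
      + 2 * Real.exp (-2 * l) * (∫ p, (F (κ p.1) * qf π p.2 (π p.1 - x)) *
            g2 (Real.exp (-2 * l) * ‖π p.1 - x‖ ^ 2) ∂V)| ≤ A * K * T + 2 * (A * K * T) := by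
    refine (abs_add_le _ _).trans (add_le_add e1 ?_)
    rw [abs_mul, abs_of_pos (by positivity)]
    calc 2 * Real.exp (-2 * l) * |∫ p, (F (κ p.1) * qf π p.2 (π p.1 - x)) *
            g2 (Real.exp (-2 * l) * ‖π p.1 - x‖ ^ 2) ∂V|
        ≤ 2 * Real.exp (-2 * l) * (A * K * Real.exp (2 * l) * T) :=
          mul_le_mul_of_nonneg_left e2 (by positivity)
      _ = 2 * (A * K * T) * (Real.exp (-2 * l) * Real.exp (2 * l)) := by ring
      _ = 2 * (A * K * T) := by rw [← Real.exp_add]; simp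
  calc 4 * Real.exp (-m * l) * |(∫ p, (F (κ p.1) * tl π p.2) *
          g1 (Real.exp (-2 * l) * ‖π p.1 - x‖ ^ 2) ∂V)
      + 2 * Real.exp (-2 * l) * (∫ p, (F (κ p.1) * qf π p.2 (π p.1 - x)) *
            g2 (Real.exp (-2 * l) * ‖π p.1 - x‖ ^ 2) ∂V)|
      ≤ 4 * Real.exp (-m * l) * (A * K * T + 2 * (A * K * T)) :=
        mul_le_mul_of_nonneg_left e3 (by positivity)
    _ = _ := by ring

end Crest.Agent.R234.Wi_870
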