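import Crest.Agent.R234.Wi4_870
import Crest.Agent.R234.Well5_761

/-!
# Row 234, VF-WFLOW, part 1 (helper870)

`WFlow` (Well5_761) for a general measure with frames at all centres, first variation terms bounded by
`herw`.
-/

set_option autoImplicit false

open MeasureTheory Set Function Filter Topology
open Crest.GeometryTopology.Submanifold
open Crest.Agent.R234.Vf_884 Crest.Agent.R234.Ar_870 Crest.Agent.R234.Cy_870
open scoped ENNReal NNReal InnerProductSpace ContDiff

noncomputable section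

namespace Crest.Agent.R234.Wi_870

variable {m n k : ℕ} {π : Euc k →L[ℝ] Euc m} {κ : Euc k →L[ℝ] Euc n} {x₀ : Euc m} {h₀ ρ₀ : ℝ}
  {V : Measure (Euc k × L k)} {g g1 g2 : ℝ → ℝ}

/-- **the instance of `WFlow`** -/
theorem wflow_of (hfr : ∀ x L, Fr V π κ x L) (hh : ∀ x L, Hgt V π κ x L h₀)
    (hg : Prof g g1 g2) {Kg K : ℝ} (hg0 : ∀ t, 0 ≤ t → 0 ≤ g t) (hKg : ∀ t, 0 ≤ t → g t ≤ Kg)
    (hK1 : ∀ t, 0 ≤ t → |g1 t| ≤ K) (hK2 : ∀ t, 0 ≤ t → |t * g2 t| ≤ K)
    {erw : Euc m → ℝ → ℝ → ℝ} {K2 θ₁ : ℝ} (hK20 : 0 ≤ K2) (hθ : 0 ≤ θ₁)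
    (herw : ∀ x l, dist x x₀ + Real.exp l ≤ ρ₀ → ∀ (C : Finset (Euc n)) (q : ℝ), 0 < q →
      Well_761.Sep C q →
      2 * Real.exp (-m * l) * |FV V (X3 π κ x (Well_761.wells C q) g1 l)| +
        Real.exp ((2 - m) * l) * |FV V (X2 π κ x (Well_761.wellsG C q) g l)| ≤
      K2 * (Real.exp (2 * l) + q ^ 2) * Real.exp (-(m * l)) *
        (enOf V π κ (Well_761.cyl x (Real.exp l) univ)).toReal +
      θ₁ * Well_761.nu m (kap g1) (muOf V π κ) x l (Well_761.wells C q) + erw x l q) :
    Well_761.WFlow m (kap g1) (muOf V π κ) (enOf V π κ) erw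
      (Kg * (1 + Well_761.etaC / 8) + 6 * K + K2) θ₁ x₀ ρ₀ where
  K0 := by
    have h1 := (hg0 0 le_rfl).trans (hKg 0 le_rfl)
    have h2 : 0 ≤ K := (abs_nonneg _).trans (hK1 0 le_rfl)
    have h3 := Well_761.etaC_nonneg
    positivity
  θ0 := hθ
  flow := by
    intro x l hx C q hq hC
    have hT := Well_761.test_wells hq hC
    have hF := test_c2w hT
    have hfr' := hfr x (l + 1)
    have hh' := hh x (l + 1)
    have hl : l < l + 1 := by linarith
    have h1 := (hasDerivAt_IF hfr' hh' hF hg hl).div_const 2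
    have hKg0 : 0 ≤ Kg := (hg0 0 le_rfl).trans (hKg 0 le_rfl)
    have hK0 : 0 ≤ K := (abs_nonneg _).trans (hK1 0 le_rfl)
    have hB0 : 0 ≤ 1 + Well_761.etaC / 8 := by
      have := Well_761.etaC_nonneg; linarith
    have hfun : (fun l => Well_761.nu m (kap g1) (muOf V π κ) x l (Well_761.wells C q)) =
        fun l => IF V π κ x (Well_761.wells C q) g1 l / 2 := by
      funext l'
      rw [nu_eq hg V π κ x l' hT.meas, IF_eq_nuG]
    have hers := herw x l hx C q hq hC
    have hexp : Real.exp (-m * l) = Real.exp (-(m * l)) := by congr 1; ring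
    have hexp2 : Real.exp ((2 - m) * l) = Real.exp (2 * l) * Real.exp (-(m * l)) := by
      rw [← Real.exp_add]; congr 1; ring
    refine ⟨_, by rw [hfun]; exact h1, ?_⟩
    have e1 := eF_le_S hfr' hh' hF hg hg0 hKg hT.bA MeasurableSet.univ
      (fun y hy => (hy (mem_univ y)).elim) hl.le
    have e2 := abs_err3_le_S hfr' hg hK1 hK2 hT.bF MeasurableSet.univ
      (fun y hy => (hy (mem_univ y)).elim) hl.le
    have e3 := tS_le_en hfr' hl (S := (univ : Set (Euc n))) MeasurableSet.univ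
    set E := (enOf V π κ (Well_761.cyl x (Real.exp l) univ)).toReal with hE
    have hE0 : 0 ≤ E := ENNReal.toReal_nonneg
    have e5 : Real.exp ((2 - m) * l) * ((1 + Well_761.etaC / 8) * Kg * tS V π κ x l univ) ≤
        Real.exp ((2 - m) * l) * ((1 + Well_761.etaC / 8) * Kg * E) := by
      gcongr
    have e6 : err3 V π κ x (Well_761.wells C q) g1 g2 l / 2 ≤
        6 * K * q ^ 2 * Real.exp (-(m * l)) * E := by
      have e7 : 12 * K * q ^ 2 * Real.exp (-m * l) * tS V π κ x l univ ≤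
          12 * K * q ^ 2 * Real.exp (-m * l) * E :=
        mul_le_mul_of_nonneg_left e3 (by positivity)
      have e8 := le_abs_self (err3 V π κ x (Well_761.wells C q) g1 g2 l)
      rw [← hexp]
      linarith
    have e9 : Real.exp ((2 - m) * l) * ((1 + Well_761.etaC / 8) * Kg * E) +
        6 * K * q ^ 2 * Real.exp (-(m * l)) * E ≤
        (Kg * (1 + Well_761.etaC / 8) + 6 * K) * (Real.exp (2 * l) + q ^ 2) *
          Real.exp (-(m * l)) * E := by
      rw [hexp2]
      have h2 : 0 ≤ Kg * (1 + Well_761.etaC / 8) * q ^ 2 * Real.exp (-(m * l)) * E := by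
        positivity
      have h3 : 0 ≤ 6 * K * Real.exp (2 * l) * Real.exp (-(m * l)) * E := by positivity
      nlinarith
    have e10 : -(Real.exp ((2 - m) * l) * FV V (X2 π κ x (Well_761.wellsG C q) g l)) ≤
        Real.exp ((2 - m) * l) * |FV V (X2 π κ x (Well_761.wellsG C q) g l)| := by
      have := neg_abs_le (FV V (X2 π κ x (Well_761.wellsG C q) g l))
      have hP := Real.exp_pos ((2 - m) * l)
      nlinarith
    have e11 : 2 * Real.exp (-m * l) * FV V (X3 π κ x (Well_761.wells C q) g1 l) ≤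
        2 * Real.exp (-m * l) * |FV V (X3 π κ x (Well_761.wells C q) g1 l)| := by
      have hP := Real.exp_pos (-m * l)
      exact mul_le_mul_of_nonneg_left (le_abs_self _) (by positivity)
    have e12 : (Kg * (1 + Well_761.etaC / 8) + 6 * K + K2) * (Real.exp (2 * l) + q ^ 2) *
        Real.exp (-(m * l)) * E =
        (Kg * (1 + Well_761.etaC / 8) + 6 * K) * (Real.exp (2 * l) + q ^ 2) *
          Real.exp (-(m * l)) * E +
        K2 * (Real.exp (2 * l) + q ^ 2) * Real.exp (-(m * l)) * E := by ring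
    rw [e12]
    linarith

end Crest.Agent.R234.Wi_870
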