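import Crest.Agent.R234.MgDefs4_570
import Crest.Agent.R234.Th2_186

/-!
# Row 234, node F2-WJ (helper186), file 1: the bridge from `CylStat`, `u` to `HStat`, `GD`
-/

set_option autoImplicit false

open MeasureTheory Filter Topology Set
open scoped ENNReal NNReal ContDiff InnerProductSpace
open Crest.GeometryTopology.Submanifold Crest.Agent.R234.Vf_884
open Crest.Agent.R234.Ell1_3 (gop ginv dns)
open Crest.Agent.R234.Cy_870 (Split tr_cyc CylStat)
open Crest.Agent.R234.Ibp_937 (tr_eb)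
open Crest.Agent.R234.MG_570 (TG)
open Crest.Agent.R234.Mx5_397 (msop)
open Crest.Agent.R234.Sel1_570 Crest.Agent.R234.Sel2_570 Crest.Agent.R234.Th_186
open Crest.Agent.R234.Pt_615 (HStat HBase)

noncomputable section

namespace Crest.Agent.R234.Wj_186

variable {m n k : ℕ} {π : Euc k →L[ℝ] Euc m} {ρ : Euc k →L[ℝ] Euc n} {u : Euc m → Euc n}

local notation "adj" => ContinuousLinearMap.adjoint
local notation "eb" => stdOrthonormalBasis ℝ (Euc m)

/-- horizontal projection -/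
def Hp (π : Euc k →L[ℝ] Euc m) : L k := adj π ∘L π

/-- the graph map -/
def wg (π : Euc k →L[ℝ] Euc m) (ρ : Euc k →L[ℝ] Euc n) (u : Euc m → Euc n) (z : Euc k) : Euc k :=
  adj ρ (u (π z))

theorem Hp_apply (z : Euc k) : Hp π z = adj π (π z) := rfl

theorem pi_Hp (h : Split π ρ) (z : Euc k) : π (Hp π z) = π z := by
  rw [Hp_apply, hh_apply h]

theorem gd (h : Split π ρ) (hu : ContDiff ℝ 3 u) : GD (Hp π) (wg π ρ u) where
  idem := by
    ext1 z
    exact congrArg (adj π) (hh_apply h (π z))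
  sa := by
    rw [ContinuousLinearMap.star_eq_adjoint, Hp, ContinuousLinearMap.adjoint_comp,
      ContinuousLinearMap.adjoint_adjoint]
  smooth := (adj ρ).contDiff.comp (hu.comp π.contDiff)
  hor z := by rw [wg, pi_Hp h, wg]
  ver z := by rw [wg, Hp_apply, hv_apply h, map_zero]

theorem Bz_eq (hu : ContDiff ℝ 3 u) (z : Euc k) :
    Bz (wg π ρ u) z = adj ρ ∘L fderiv ℝ u (π z) ∘L π := by
  have h1 : HasFDerivAt u (fderiv ℝ u (π z)) (π z) :=
    (hu.differentiable (by norm_num) (π z)).hasFDerivAt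
  exact ((adj ρ).hasFDerivAt.comp z (h1.comp z π.hasFDerivAt)).fderiv

theorem TZ_eq (hu : ContDiff ℝ 3 u) (z : Euc k) :
    TZ (Hp π) (wg π ρ u) z = TG π ρ u (π z) := by
  rw [TZ, Bz_eq hu]; rfl

theorem ht_eq (h : Split π ρ) (z : Euc k) :
    ht (Hp π) (wg π ρ u) z = adj ρ (ρ z - u (π z)) := by
  have h1 : z - Hp π z = adj ρ (ρ z) := by
    rw [Hp_apply, sub_eq_iff_eq_add', sum_apply' h]
  rw [ht, h1, map_sub]; rfl

theorem norm_ht (h : Split π ρ) (z : Euc k) :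
    ‖ht (Hp π) (wg π ρ u) z‖ = ‖ρ z - u (π z)‖ := by
  rw [ht_eq h, norm_adj_rho h]

theorem tr_H (h : Split π ρ) : tr (Hp π) = m := by
  rw [Hp, tr_cyc, h.hh, tr_one]

theorem norm_Hp_le (h : Split π ρ) : ‖Hp π‖ ≤ 1 := by
  refine ContinuousLinearMap.opNorm_le_bound _ zero_le_one fun z => ?_
  rw [Hp_apply, norm_adj_pi h, one_mul]
  exact norm_pi_le h z

theorem norm_rho_le (h : Split π ρ) (z : Euc k) : ‖ρ z‖ ≤ ‖z‖ := by
  have h1 := h.norm_sq z
  have h2 : ‖ρ z‖ ^ 2 ≤ ‖z‖ ^ 2 := by nlinarith [sq_nonneg ‖π z‖]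
  exact abs_le_of_sq_le_sq' h2 (norm_nonneg _) |>.2

theorem k_eq (h : Split π ρ) : (k : ℝ) = m + n := by
  have h1 := congrArg (fun A : L k => tr A) h.sum
  simp only [map_add] at h1
  rw [tr_cyc, h.hh, tr_cyc, h.vv, tr_one, tr_one, tr_one] at h1
  exact h1.symm

theorem hstat {W : Measure (Euc k × L k)} {R : ℝ} (hW : CylStat W π ρ 0 R 1) :
    HStat m (Hp π) {y | ‖π y‖ < R} W where
  conc := hW.conc
  bdd := by
    refine ⟨R + 1, ?_⟩
    filter_upwards [hW.base, hW.hgt] with p h1 h2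
    rw [sub_zero] at h1
    calc ‖p.1‖ = ‖adj π (π p.1) + adj ρ (ρ p.1)‖ := by rw [sum_apply' hW.sp]
      _ ≤ ‖adj π (π p.1)‖ + ‖adj ρ (ρ p.1)‖ := norm_add_le _ _
      _ ≤ R + 1 := by rw [norm_adj_pi hW.sp, norm_adj_rho hW.sp]; gcongr
  stat X hX h0 := hW.stat X hX fun p hp => h0 p (by
    rw [sub_zero] at hp
    simp only [mem_ofPred_eq, not_lt, pi_Hp hW.sp]
    exact hp)

theorem fderiv_Bz (hu : ContDiff ℝ 3 u) (z v : Euc k) :
    fderiv ℝ (Bz (wg π ρ u)) z v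
      = adj ρ ∘L (fderiv ℝ (fderiv ℝ u) (π z) (π v)) ∘L π := by
  have h0 : ContDiff ℝ 2 (fderiv ℝ u) := hu.fderiv_right (by norm_num)
  have h1 : HasFDerivAt (fderiv ℝ u) (fderiv ℝ (fderiv ℝ u) (π z)) (π z) :=
    (h0.differentiable (by norm_num) (π z)).hasFDerivAt
  have h2 : HasFDerivAt (fun y : Euc k => fderiv ℝ u (π y))
      (fderiv ℝ (fderiv ℝ u) (π z) ∘L π) z := h1.comp z π.hasFDerivAt
  have h3 : HasFDerivAt (fun y : Euc k => adj ρ ∘L (fderiv ℝ u (π y) ∘L π))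
      (((ContinuousLinearMap.compL ℝ (Euc k) (Euc n) (Euc k)) (adj ρ)) ∘L
        (((ContinuousLinearMap.compL ℝ (Euc k) (Euc m) (Euc n)).flip π) ∘L
          (fderiv ℝ (fderiv ℝ u) (π z) ∘L π))) z :=
    ((ContinuousLinearMap.compL ℝ (Euc k) (Euc n) (Euc k)) (adj ρ)).hasFDerivAt.comp z
      (((ContinuousLinearMap.compL ℝ (Euc k) (Euc m) (Euc n)).flip π).hasFDerivAt.comp z h2)
  have h4 : Bz (wg π ρ u) = fun y : Euc k => adj ρ ∘L (fderiv ℝ u (π y) ∘L π) := by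
    funext y; exact Bz_eq hu y
  rw [h4, h3.fderiv]
  rfl

/-- the second fundamental operator -/
theorem AA_eq (h : Split π ρ) (hu : ContDiff ℝ 3 u) (z e v : Euc k) :
    AA (wg π ρ u) z e v = adj π (adj (fderiv ℝ (fderiv ℝ u) (π z) (π v)) (ρ e)) := by
  refine ext_inner_right ℝ fun v' => ?_
  rw [(gd h hu).AA_inner]
  have h1 : fderiv ℝ (fderiv ℝ (wg π ρ u)) z v v' = fderiv ℝ (Bz (wg π ρ u)) z v v' := rfl
  rw [h1, fderiv_Bz hu, ContinuousLinearMap.adjoint_inner_left,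
    ContinuousLinearMap.adjoint_inner_left]
  have h2 : (adj ρ ∘L (fderiv ℝ (fderiv ℝ u) (π z) (π v)) ∘L π) v'
      = adj ρ (fderiv ℝ (fderiv ℝ u) (π z) (π v) (π v')) := rfl
  rw [h2, ContinuousLinearMap.adjoint_inner_right]

/-- trace against the tangent projection of an operator `π† S π` -/
theorem tr_TZ (h : Split π ρ) (hu : ContDiff ℝ 3 u) (z : Euc k) (S : L m) :
    tr ((adj π ∘L S ∘L π) ∘L TZ (Hp π) (wg π ρ u) z)
      = ∑ i, ⟪S (ginv (fderiv ℝ u (π z)) (eb i)), eb i⟫_ℝ := by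
  rw [TZ_eq hu, TG_eq h]
  set q := fderiv ℝ u (π z) with hq
  have h1 : (adj π ∘L S ∘L π) ∘L Tq π ρ q = (adj π ∘L S ∘L ginv q) ∘L adj (Fq π ρ q) := by
    ext1 v
    show adj π (S (π (Fq π ρ q (ginv q (adj (Fq π ρ q) v))))) = _
    rw [pi_Fq h]; rfl
  rw [h1, tr_cyc, tr_eb]
  refine Finset.sum_congr rfl fun i _ => ?_
  have e1 : (adj (Fq π ρ q) ∘L (adj π ∘L S ∘L ginv q)) (eb i)
      = adj (Fq π ρ q) (adj π (S (ginv q (eb i)))) := rfl
  rw [e1, ContinuousLinearMap.adjoint_inner_right, ContinuousLinearMap.adjoint_inner_right,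
    pi_Fq h, real_inner_comm]

/-- the second fundamental operator on the base -/
def Sx (u : Euc m → Euc n) (π : Euc k →L[ℝ] Euc m) (ρ : Euc k →L[ℝ] Euc n) (z e : Euc k) : L m :=
  π ∘L AA (wg π ρ u) z e ∘L adj π

theorem Sx_apply (h : Split π ρ) (hu : ContDiff ℝ 3 u) (z e : Euc k) (x : Euc m) :
    Sx u π ρ z e x = adj (fderiv ℝ (fderiv ℝ u) (π z) x) (ρ e) := by
  have h1 : Sx u π ρ z e x = π (AA (wg π ρ u) z e (adj π x)) := rfl
  rw [h1, AA_eq h hu, hh_apply h, hh_apply h]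

theorem AA_Sx (h : Split π ρ) (hu : ContDiff ℝ 3 u) (z e : Euc k) :
    AA (wg π ρ u) z e = adj π ∘L Sx u π ρ z e ∘L π := by
  ext1 v
  have h1 : (adj π ∘L Sx u π ρ z e ∘L π) v = adj π (Sx u π ρ z e (π v)) := rfl
  rw [h1, Sx_apply h hu, AA_eq h hu]

theorem min_of (h : Split π ρ) (hu : ContDiff ℝ 3 u) {z : Euc k} (hz : msop u (π z) = 0) :
    Min (Hp π) (wg π ρ u) z := by
  intro e
  have h1 : tr (AA (wg π ρ u) z e * TZ (Hp π) (wg π ρ u) z)
      = tr ((adj π ∘L Sx u π ρ z e ∘L π) ∘L TZ (Hp π) (wg π ρ u) z) := by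
    rw [← AA_Sx h hu]; rfl
  rw [h1, tr_TZ h hu]
  have h2 : ∀ i, ⟪Sx u π ρ z e (ginv (fderiv ℝ u (π z)) (eb i)), eb i⟫_ℝ
      = ⟪ρ e, fderiv ℝ (fderiv ℝ u) (π z) (ginv (fderiv ℝ u (π z)) (eb i)) (eb i)⟫_ℝ := fun i => by
    rw [Sx_apply h hu, ContinuousLinearMap.adjoint_inner_left]
  simp only [h2]
  rw [← inner_sum]
  have h3 : ∑ i, fderiv ℝ (fderiv ℝ u) (π z) (ginv (fderiv ℝ u (π z)) (eb i)) (eb i)
      = msop u (π z) := rfl
  rw [h3, hz, inner_zero_right]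

end Crest.Agent.R234.Wj_186
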