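import Crest.Agent.R234.Wj4_186
import Crest.Agent.R234.Cto_161

/-!
# Row 234, node F2-WJ (helper186), file 2: the Caccioppoli inequality with uniform constants
-/

set_option autoImplicit false
set_option maxSynthPendingDepth 3

open MeasureTheory Filter Topology Set
open scoped ENNReal NNReal ContDiff InnerProductSpace
open Crest.GeometryTopology.Submanifold Crest.Agent.R234.Vf_884
open Crest.Agent.R234.Cy_870 (Split tr_cyc CylStat)
open Crest.Agent.R234.MG_570 (TG)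
open Crest.Agent.R234.Mx5_397 (msop)
open Crest.Agent.R234.Sel1_570 Crest.Agent.R234.Sel2_570 Crest.Agent.R234.Th_186
open Crest.Agent.R234.Pt_615 (HStat HBase)
open Crest.Agent.R234.Cto_161 (ct ct_bound ct_one ct_zero ct_smooth ct_nonneg ct_le_one)

noncomputable section

namespace Crest.Agent.R234.Wj_186

variable {m n k : ℕ} {π : Euc k →L[ℝ] Euc m} {ρ : Euc k →L[ℝ] Euc n} {u φ : Euc m → Euc n}

local notation "adj" => ContinuousLinearMap.adjoint

/-! ### bounds of the normal frame -/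

theorem norm_one_sub_Hp (h : Split π ρ) : ‖(1 : L k) - Hp π‖ ≤ 1 := by
  refine ContinuousLinearMap.opNorm_le_bound _ zero_le_one fun z => ?_
  have e : ((1 : L k) - Hp π) z = adj ρ (ρ z) := by
    have : ((1 : L k) - Hp π) z = z - Hp π z := rfl
    rw [this, Hp_apply, sub_eq_iff_eq_add', sum_apply' h]
  rw [e, norm_adj_rho h, one_mul]
  exact norm_rho_le h z

theorem norm_nu_le (h : Split π ρ) {B : L k} (hB : ‖B‖ ≤ 1) : ‖nu (Hp π) B‖ ≤ 2 := by
  rw [nu]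
  refine (_root_.norm_sub_le _ _).trans ?_
  have := norm_one_sub_Hp h
  rw [norm_star']
  linarith

theorem norm_KK_le {B : L k} (hB : ‖B‖ ≤ 1) : ‖KK B‖ ≤ 2 := by
  rw [KK]
  refine (_root_.norm_sub_le _ _).trans ?_
  have h1 : ‖(1 : L k)‖ ≤ 1 := ContinuousLinearMap.norm_id_le
  have h2 : ‖B * gI B * star B‖ ≤ 1 * 1 * 1 := by
    refine (norm_mul_le _ _).trans ?_
    rw [norm_star']
    gcongr
    refine (norm_mul_le _ _).trans ?_
    gcongr
    exact norm_gI_le B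
  linarith

theorem norm_KK_sub {B B' : L k} (h : ‖B‖ ≤ 1) (h' : ‖B'‖ ≤ 1) :
    ‖KK B - KK B'‖ ≤ 4 * ‖B - B'‖ := by
  have e1 : KK B - KK B'
      = -((B - B') * gI B * star B + B' * (gI B - gI B') * star B + B' * gI B' * star (B - B')) := by
    rw [KK, KK, ssub]
    nr570
  rw [e1, norm_neg]
  have b4 : ‖gI B - gI B'‖ ≤ 2 * ‖B - B'‖ := norm_gI_sub h h'
  have c1 : ‖(B - B') * gI B * star B‖ ≤ ‖B - B'‖ * 1 * 1 := by
    refine (norm_mul_le _ _).trans ?_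
    rw [norm_star']
    gcongr
    refine (norm_mul_le _ _).trans ?_
    gcongr
    exact norm_gI_le B
  have c2 : ‖B' * (gI B - gI B') * star B‖ ≤ 1 * (2 * ‖B - B'‖) * 1 := by
    refine (norm_mul_le _ _).trans ?_
    rw [norm_star']
    gcongr
    refine (norm_mul_le _ _).trans ?_
    gcongr
  have c3 : ‖B' * gI B' * star (B - B')‖ ≤ 1 * 1 * ‖B - B'‖ := by
    refine (norm_mul_le _ _).trans ?_
    rw [norm_star']
    gcongr
    refine (norm_mul_le _ _).trans ?_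
    gcongr
    exact norm_gI_le B'
  calc _ ≤ ‖(B - B') * gI B * star B‖ + ‖B' * (gI B - gI B') * star B‖
        + ‖B' * gI B' * star (B - B')‖ := norm_add₃_le
    _ ≤ ‖B - B'‖ * 1 * 1 + 1 * (2 * ‖B - B'‖) * 1 + 1 * 1 * ‖B - B'‖ := by gcongr
    _ = _ := by ring

theorem norm_NN_le (h : Split π ρ) (hu : U3 u) (z : Euc k) :
    ‖NN (Hp π) (wg π ρ u) z‖ ≤ 4 := by
  have hB := norm_Bz_le h hu z
  calc ‖NN (Hp π) (wg π ρ u) z‖ ≤ ‖nu (Hp π) (Bz (wg π ρ u) z)‖ * ‖KK (Bz (wg π ρ u) z)‖ :=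
        norm_mul_le _ _
    _ ≤ 2 * 2 := by
        gcongr
        · exact norm_nu_le h hB
        · exact norm_KK_le hB
    _ = 4 := by norm_num

theorem lip_NN (h : Split π ρ) (hu : U3 u) (z z' : Euc k) :
    ‖NN (Hp π) (wg π ρ u) z - NN (Hp π) (wg π ρ u) z'‖ ≤ 10 * ‖z - z'‖ := by
  set B := Bz (wg π ρ u) z with hB
  set B' := Bz (wg π ρ u) z' with hB'
  have b1 : ‖B‖ ≤ 1 := norm_Bz_le h hu z
  have b2 : ‖B'‖ ≤ 1 := norm_Bz_le h hu z'
  have b3 : ‖B - B'‖ ≤ ‖z - z'‖ := lip_Bz h hu z z'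
  have e1 : NN (Hp π) (wg π ρ u) z - NN (Hp π) (wg π ρ u) z'
      = (nu (Hp π) B - nu (Hp π) B') * KK B + nu (Hp π) B' * (KK B - KK B') := by
    show nu (Hp π) B * KK B - nu (Hp π) B' * KK B' = _
    nr570
  have b5 : ‖nu (Hp π) B - nu (Hp π) B'‖ ≤ ‖B - B'‖ := by
    have e2 : nu (Hp π) B - nu (Hp π) B' = -star (B - B') := by
      rw [nu, nu, ssub]; abel
    rw [e2, norm_neg, norm_star']
  rw [e1]
  calc _ ≤ ‖(nu (Hp π) B - nu (Hp π) B') * KK B‖ + ‖nu (Hp π) B' * (KK B - KK B')‖ :=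
        norm_add_le _ _
    _ ≤ ‖B - B'‖ * 2 + 2 * (4 * ‖B - B'‖) := by
        refine add_le_add ((norm_mul_le _ _).trans ?_) ((norm_mul_le _ _).trans ?_)
        · gcongr
          exact norm_KK_le b1
        · gcongr
          · exact norm_nu_le h b2
          · exact norm_KK_sub b1 b2
    _ ≤ 10 * ‖z - z'‖ := by linarith

theorem norm_fderiv_NN_le (h : Split π ρ) (hu : U3 u) (z : Euc k) :
    ‖fderiv ℝ (NN (Hp π) (wg π ρ u)) z‖ ≤ 10 := by
  have h1 : LipschitzWith ⟨10, by norm_num⟩ (NN (Hp π) (wg π ρ u)) :=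
    LipschitzWith.of_dist_le_mul fun z z' => by
      rw [dist_eq_norm, dist_eq_norm]
      exact lip_NN h hu z z'
  exact norm_fderiv_le_of_lipschitz ℝ h1

/-! ### the cut-off -/

/-- gradient of the cut-off -/
def Gc (π : Euc k →L[ℝ] Euc m) (r R : ℝ) (z : Euc k) : Euc k :=
  adj π ((InnerProductSpace.toDual ℝ (Euc m)).symm (fderiv ℝ (ct r R : Euc m → ℝ) (π z)))

theorem cf (h : Split π ρ) {r R : ℝ} (hr : 0 ≤ r) (hR : r < R) :
    CF (Hp π) {y | ‖π y‖ < R} (fun z => ct r R (π z)) (Gc π r R) where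
  der z := by
    have h1 : HasFDerivAt (ct r R : Euc m → ℝ) (fderiv ℝ (ct r R : Euc m → ℝ) (π z)) (π z) :=
      ((ct_smooth r R).differentiable (by simp) (π z)).hasFDerivAt
    refine (h1.comp z π.hasFDerivAt).congr_fderiv ?_
    ext1 v
    rw [ContinuousLinearMap.comp_apply, innerSL_apply_apply, Gc,
      ContinuousLinearMap.adjoint_inner_left, InnerProductSpace.toDual_symm_apply]
  smooth := ((ct_smooth r R).of_le (by exact_mod_cast le_top)).comp π.contDiff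
  zero z hz := by
    simp only [mem_ofPred_eq, not_lt, pi_Hp h] at hz
    exact ct_zero hr hR hz
  contG := by
    have h1 : Continuous fun x : Euc m => fderiv ℝ (ct r R : Euc m → ℝ) x :=
      (ct_smooth r R).continuous_fderiv (by simp)
    exact (adj π).continuous.comp ((InnerProductSpace.toDual ℝ (Euc m)).symm.continuous.comp
      (h1.comp π.continuous))

theorem norm_Gc (h : Split π ρ) (r R : ℝ) (z : Euc k) :
    ‖Gc π r R z‖ = ‖iteratedFDeriv ℝ 1 (ct r R : Euc m → ℝ) (π z)‖ := by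
  rw [Gc, norm_adj_pi h, LinearIsometryEquiv.norm_map, ← norm_iteratedFDeriv_fderiv (n := 0),
    norm_iteratedFDeriv_zero]

/-- **CACCIOPPOLI**, uniform constants -/
theorem cacc_tau (m n : ℕ) : ∃ C : ℝ, 0 < C ∧ ∀ (k : ℕ) (W : Measure (Euc k × L k))
    (π : Euc k →L[ℝ] Euc m) (ρ : Euc k →L[ℝ] Euc n) (h Λ r R : ℝ) (u : Euc m → Euc n),
    0 < r → r < R → R ≤ 7 / 4 → 0 ≤ h → CylStat W π ρ 0 R 1 → W univ ≤ ENNReal.ofReal Λ → 0 ≤ Λ →
    U3 u → (∀ x ∈ Metric.ball (0 : Euc m) R, msop u x = 0) →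
    (∀ᵐ q ∂W, ‖ρ q.1 - u (π q.1)‖ ≤ h) →
    ∃ et : Euc m → ℝ, Continuous et ∧ (∀ x, ‖x‖ ≤ r → et x = 1) ∧ (∀ x, 0 ≤ et x ∧ et x ≤ 1) ∧
      ∫ p, et (π p.1) ^ 2 * tau (TG π ρ u (π p.1)) p.2 ∂W ≤ C * Λ * h ^ 2 / (R - r) ^ 2 := by
  obtain ⟨C1, hC1, hct⟩ := ct_bound (F := Euc m) 1
  refine ⟨256 * C1 ^ 2 + 1600 * (m + n) ^ 2, by positivity, ?_⟩
  intro k W π ρ h Λ r R u hr hR hR7 hh0 hW hΛ hΛ0 hu hmin hh
  have : IsFiniteMeasure W := ⟨hW.fin⟩
  have hs := hW.sp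
  have hbase := (hstat hW).toHBase
  have hd : 0 < R - r := sub_pos.2 hR
  have hd2 : (R - r) ^ 2 ≤ 4 := by nlinarith
  have hη := cf hs hr.le hR
  have key := GD.cacc (gd hs hu.sm) (tr_H hs) (hstat hW) hη (fun z hz => min_of hs hu.sm (hmin _ (by
    rw [mem_ball_zero_iff]
    by_contra hcon
    exact hz (ct_zero hr.le hR (not_lt.1 hcon)))))
  have hctc : Continuous (ct r R : Euc m → ℝ) := (ct_smooth r R).continuous
  refine ⟨ct r R, hctc, fun x hx => ct_one hr.le hR hx,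
    fun x => ⟨ct_nonneg r R x, ct_le_one r R x⟩, ?_⟩
  have e1 : ∫ p, ct r R (π p.1) ^ 2 * tau (TG π ρ u (π p.1)) p.2 ∂W
      = ∫ p, ct r R (π p.1) ^ 2 * tau (TZ (Hp π) (wg π ρ u) p.1) p.2 ∂W := by
    simp only [TZ_eq hu.sm]
  rw [e1]
  refine key.trans ?_
  have hWr : W.real univ ≤ Λ := by
    rw [Measure.real]
    exact ENNReal.toReal_le_of_le_ofReal hΛ0 hΛ
  set K := (256 * C1 ^ 2 + 400 * (m + n) ^ 2 * (R - r) ^ 2) / (R - r) ^ 2 * h ^ 2 with hK
  have cG : Continuous fun p : Euc k × L k => Gc π r R p.1 := hη.contG.comp continuous_fst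
  have cη : Continuous fun p : Euc k × L k => ct r R (π p.1) :=
    hη.smooth.continuous.comp continuous_fst
  have cN : Continuous fun p : Euc k × L k => NN (Hp π) (wg π ρ u) p.1 :=
    (gd hs hu.sm).contDiff_NN.continuous.comp continuous_fst
  have cD : Continuous fun p : Euc k × L k => fderiv ℝ (NN (Hp π) (wg π ρ u)) p.1 :=
    (gd hs hu.sm).continuous_DNN.comp continuous_fst
  have cf' : Continuous fun p : Euc k × L k => ht (Hp π) (wg π ρ u) p.1 :=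
    (gd hs hu.sm).continuous_ht.comp continuous_fst
  have cDn : Continuous fun p : Euc k × L k => ‖fderiv ℝ (NN (Hp π) (wg π ρ u)) p.1‖ :=
    (continuous_norm (E := Euc k →L[ℝ] L k)).comp cD
  have i3 : Integrable (fun p : Euc k × L k => (16 * ‖Gc π r R p.1‖ ^ 2 *
      ‖NN (Hp π) (wg π ρ u) p.1‖ ^ 2 + 4 * ct r R (π p.1) ^ 2 * k ^ 2 *
      ‖fderiv ℝ (NN (Hp π) (wg π ρ u)) p.1‖ ^ 2) * ‖ht (Hp π) (wg π ρ u) p.1‖ ^ 2) W := by
    refine integrable_of_cont' hbase ?_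
    exact (((continuous_const.mul (cG.norm.pow 2)).mul (cN.norm.pow 2)).add
      (((continuous_const.mul (cη.pow 2)).mul continuous_const).mul (cDn.pow 2))).mul
      (cf'.norm.pow 2)
  calc ∫ p, (16 * ‖Gc π r R p.1‖ ^ 2 *
      ‖NN (Hp π) (wg π ρ u) p.1‖ ^ 2 + 4 * ct r R (π p.1) ^ 2 * k ^ 2 *
      ‖fderiv ℝ (NN (Hp π) (wg π ρ u)) p.1‖ ^ 2) * ‖ht (Hp π) (wg π ρ u) p.1‖ ^ 2 ∂W
      ≤ ∫ _p, K ∂W := by
        refine integral_mono_ae i3 (integrable_const _) ?_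
        filter_upwards [hh] with p hp
        have a1 : ‖Gc π r R p.1‖ ≤ C1 / (R - r) := by
          rw [norm_Gc hs]
          have := hct r R hr.le hR 1 le_rfl (π p.1)
          rwa [pow_one] at this
        have a2 : ‖NN (Hp π) (wg π ρ u) p.1‖ ≤ 4 := norm_NN_le hs hu _
        have a3 : ‖fderiv ℝ (NN (Hp π) (wg π ρ u)) p.1‖ ≤ 10 := norm_fderiv_NN_le hs hu _
        have a4 : ct r R (π p.1) ^ 2 ≤ 1 := pow_le_one₀ (ct_nonneg _ _ _) (ct_le_one _ _ _)
        have a5 : ‖ht (Hp π) (wg π ρ u) p.1‖ ≤ h := by rw [norm_ht hs]; exact hp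
        have a6 : 0 ≤ ‖fderiv ℝ (NN (Hp π) (wg π ρ u)) p.1‖ :=
          ContinuousLinearMap.opNorm_nonneg _
        have a7 : (k : ℝ) = m + n := k_eq hs
        calc (16 * ‖Gc π r R p.1‖ ^ 2 *
            ‖NN (Hp π) (wg π ρ u) p.1‖ ^ 2 + 4 * ct r R (π p.1) ^ 2 * k ^ 2 *
            ‖fderiv ℝ (NN (Hp π) (wg π ρ u)) p.1‖ ^ 2) * ‖ht (Hp π) (wg π ρ u) p.1‖ ^ 2
            ≤ (16 * (C1 / (R - r)) ^ 2 * 4 ^ 2 + 4 * 1 * k ^ 2 * 10 ^ 2) * h ^ 2 := by
              gcongr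
          _ = K := by
              rw [hK, a7]
              field_simp
              ring
    _ = W.real univ * K := by rw [integral_const, smul_eq_mul]
    _ ≤ Λ * K := by
        have : 0 ≤ K := by positivity
        gcongr
    _ ≤ Λ * ((256 * C1 ^ 2 + 1600 * (m + n) ^ 2) / (R - r) ^ 2 * h ^ 2) := by
        rw [hK]
        have a8 : 256 * C1 ^ 2 + 400 * (m + n : ℝ) ^ 2 * (R - r) ^ 2
            ≤ 256 * C1 ^ 2 + 1600 * (m + n) ^ 2 := by
          have : 0 ≤ (m + n : ℝ) ^ 2 := by positivity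
          nlinarith
        gcongr
    _ = _ := by ring

end Crest.Agent.R234.Wj_186
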