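import Crest.Agent.R234.Wj1_186
import Crest.Agent.R234.Ibp2_937

/-!
# Row 234, node F2-WJ (helper186), file 3: the integrand of the weak Jacobi inequality is `lopT`
-/

set_option autoImplicit false

open MeasureTheory Filter Topology Set
open scoped ENNReal NNReal ContDiff InnerProductSpace
open Crest.GeometryTopology.Submanifold Crest.Agent.R234.Vf_884
open Crest.Agent.R234.Ell1_3 (gop ginv dns adjL)
open Crest.Agent.R234.Cy_870 (Split tr_cyc CylStat)
open Crest.Agent.R234.Ibp_937 (tr_eb)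
open Crest.Agent.R234.MG_570 (TG Psi lopT)
open Crest.Agent.R234.Mx5_397 (msop)
open Crest.Agent.R234.Sel1_570 Crest.Agent.R234.Sel2_570 Crest.Agent.R234.Th_186
open Crest.Agent.R234.Pt_615 (HStat HBase)

noncomputable section

namespace Crest.Agent.R234.Wj_186

variable {m n k : ℕ} {π : Euc k →L[ℝ] Euc m} {ρ : Euc k →L[ℝ] Euc n} {u : Euc m → Euc n}

local notation "adj" => ContinuousLinearMap.adjoint
local notation "eb" => stdOrthonormalBasis ℝ (Euc m)

/-! ### `gI` -/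

theorem norm_gI_le (B : L k) : ‖gI B‖ ≤ 1 := Sw_733.norm_ginv_le (F := Euc k) (V := Euc k) B

theorem norm_star' (B : L k) : ‖star B‖ = ‖B‖ := norm_star B

theorem norm_gI_sub {B B' : L k} (h : ‖B‖ ≤ 1) (h' : ‖B'‖ ≤ 1) :
    ‖gI B - gI B'‖ ≤ 2 * ‖B - B'‖ := by
  have e : gI B - gI B' = gI B * (star B' * (B' - B) + star (B' - B) * B) * gI B' := by
    have e1 : star B' * (B' - B) + star (B' - B) * B = star B' * B' - star B * B := by
      rw [ssub]
      nr570
    have e2 : star B' * B' - star B * B = (1 + star B' * B') - (1 + star B * B) := by abel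
    rw [e1, e2, mul_sub, gI_mul, sub_mul, mul_assoc, mul_gI, mul_one, one_mul]
  have h1 : ‖star B' * (B' - B) + star (B' - B) * B‖ ≤ 2 * ‖B - B'‖ := by
    refine (norm_add_le _ _).trans ?_
    have a1 : ‖star B' * (B' - B)‖ ≤ 1 * ‖B - B'‖ := by
      refine (norm_mul_le _ _).trans ?_
      rw [norm_star', norm_sub_rev B' B]
      gcongr
    have a2 : ‖star (B' - B) * B‖ ≤ ‖B - B'‖ * 1 := by
      refine (norm_mul_le _ _).trans ?_
      rw [norm_star', norm_sub_rev B' B]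
      gcongr
    linarith
  rw [e]
  calc ‖gI B * (star B' * (B' - B) + star (B' - B) * B) * gI B'‖
      ≤ ‖gI B‖ * ‖star B' * (B' - B) + star (B' - B) * B‖ * ‖gI B'‖ :=
        (norm_mul_le _ _).trans (by gcongr; exact norm_mul_le _ _)
    _ ≤ 1 * (2 * ‖B - B'‖) * 1 := by
        gcongr
        · exact norm_gI_le B
        · exact norm_gI_le B'
    _ = _ := by ring

theorem gI_adj (h : Split π ρ) (q : Euc m →L[ℝ] Euc n) (x : Euc m) :
    gI (adj ρ ∘L q ∘L π) (adj π x) = adj π (ginv q x) := by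
  set B : L k := adj ρ ∘L q ∘L π with hB
  have hBs : star B = adj π ∘L adj q ∘L ρ := by
    rw [ContinuousLinearMap.star_eq_adjoint, hB, ContinuousLinearMap.adjoint_comp,
      ContinuousLinearMap.adjoint_comp, ContinuousLinearMap.adjoint_adjoint]
    rfl
  have h1 : ∀ x : Euc m, (1 + star B * B : L k) (adj π x) = adj π (gop q x) := by
    intro x
    have e1 : (1 + star B * B : L k) (adj π x) = adj π x + star B (B (adj π x)) := rfl
    have e2 : B (adj π x) = adj ρ (q (π (adj π x))) := rfl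
    have e3 : ∀ y, star B y = adj π (adj q (ρ y)) := fun y => by rw [hBs]; rfl
    have e4 : gop q x = x + adj q (q x) := rfl
    rw [e1, e2, e3, hh_apply h, vv_apply h, e4, map_add]
  have h2 : ∀ x : Euc m, gI B (adj π (gop q x)) = adj π x := by
    intro x
    have := congrArg (fun A : L k => A (adj π x)) (gI_mul B)
    have e : gI B ((1 + star B * B : L k) (adj π x)) = adj π x := this
    rwa [h1] at e
  have := h2 (ginv q x)
  rwa [Ibp_937.gop_ginv_apply] at this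

/-- `QQ` on vertical vectors -/
theorem QQ_eq (h : Split π ρ) (hu : ContDiff ℝ 3 u) (z : Euc k) (e y : Euc n) :
    QQ (wg π ρ u) z (adj ρ e) (adj ρ y)
      = adj π (adj (fderiv ℝ (fderiv ℝ u) (π z) (ginv (fderiv ℝ u (π z))
          (adj (fderiv ℝ u (π z)) y))) e) := by
  have h1 : QQ (wg π ρ u) z (adj ρ e) (adj ρ y)
      = AA (wg π ρ u) z (adj ρ e) (gI (Bz (wg π ρ u) z) (star (Bz (wg π ρ u) z) (adj ρ y))) := rfl
  have h2 : star (Bz (wg π ρ u) z) (adj ρ y) = adj π (adj (fderiv ℝ u (π z)) y) := by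
    rw [Bz_eq hu, ContinuousLinearMap.star_eq_adjoint, ContinuousLinearMap.adjoint_comp,
      ContinuousLinearMap.adjoint_comp, ContinuousLinearMap.adjoint_adjoint]
    show adj π (adj (fderiv ℝ u (π z)) (ρ (adj ρ y))) = _
    rw [vv_apply h]
  rw [h1, h2, Bz_eq hu, gI_adj h, AA_eq h hu, hh_apply h, vv_apply h]

/-! ### the test functions -/

variable {φ : Euc m → Euc n}

/-- component of the test field -/
def ph (π : Euc k →L[ℝ] Euc m) (φ : Euc m → Euc n) (e : Euc n) (z : Euc k) : ℝ := ⟪φ (π z), e⟫_ℝ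

/-- its gradient -/
def Gp (π : Euc k →L[ℝ] Euc m) (φ : Euc m → Euc n) (e : Euc n) (z : Euc k) : Euc k :=
  adj π (adjL (fderiv ℝ φ (π z)) e)

theorem hasFDerivAt_ph (hφ : ContDiff ℝ 2 φ) (e : Euc n) (z : Euc k) :
    HasFDerivAt (ph π φ e) (innerSL ℝ (Gp π φ e z)) z := by
  have h1 : HasFDerivAt φ (fderiv ℝ φ (π z)) (π z) :=
    (hφ.differentiable (by norm_num) (π z)).hasFDerivAt
  have h2 : HasFDerivAt (fun z => φ (π z)) (fderiv ℝ φ (π z) ∘L π) z := h1.comp z π.hasFDerivAt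
  refine (h2.inner ℝ (hasFDerivAt_const e z)).congr_fderiv ?_
  ext1 v
  rw [ContinuousLinearMap.comp_apply, fderivInnerCLM_apply, innerSL_apply_apply, Gp,
    ContinuousLinearMap.adjoint_inner_left, Ell1_3.adjL_apply,
    ContinuousLinearMap.adjoint_inner_left]
  simp
  rw [real_inner_comm]

theorem contDiff_ph (hφ : ContDiff ℝ 2 φ) (e : Euc n) : ContDiff ℝ 2 (ph π φ e) :=
  (hφ.comp π.contDiff).inner ℝ contDiff_const

theorem contDiff_Gp (hφ : ContDiff ℝ 2 φ) (e : Euc n) : ContDiff ℝ 1 (Gp π φ e) := by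
  have h1 : ContDiff ℝ 1 (fderiv ℝ φ) := hφ.fderiv_right (by norm_num)
  have h2 : ContDiff ℝ 1 fun z : Euc k => adjL (fderiv ℝ φ (π z)) :=
    (adjL (F := Euc m) (V := Euc n)).contDiff.comp (h1.comp π.contDiff)
  exact (adj π).contDiff.comp (h2.clm_apply contDiff_const)

theorem fderiv_Gp (hφ : ContDiff ℝ 2 φ) (e : Euc n) (z v : Euc k) :
    fderiv ℝ (Gp π φ e) z v = adj π (adjL (fderiv ℝ (fderiv ℝ φ) (π z) (π v)) e) := by
  have h1 : ContDiff ℝ 1 (fderiv ℝ φ) := hφ.fderiv_right (by norm_num)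
  have h2 : HasFDerivAt (fderiv ℝ φ) (fderiv ℝ (fderiv ℝ φ) (π z)) (π z) :=
    (h1.differentiable one_ne_zero (π z)).hasFDerivAt
  have h3 : HasFDerivAt (fun z : Euc k => adjL (fderiv ℝ φ (π z)))
      ((adjL (F := Euc m) (V := Euc n)) ∘L (fderiv ℝ (fderiv ℝ φ) (π z) ∘L π)) z :=
    (adjL (F := Euc m) (V := Euc n)).hasFDerivAt.comp z (h2.comp z π.hasFDerivAt)
  have h4 : HasFDerivAt (Gp π φ e) _ z :=
    (adj π).hasFDerivAt.comp z (h3.clm_apply (hasFDerivAt_const e z))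
  rw [h4.fderiv]
  simp

/-- a `C¹` function which vanishes off the open ball has vanishing derivative there -/
theorem fderiv_zero_of' {G : Type*} [NormedAddCommGroup G] [NormedSpace ℝ G] {r : ℝ} (hr : 0 < r)
    {Y : Euc m → G} (hY : ContDiff ℝ 1 Y)
    (h0 : ∀ x, r ≤ ‖x‖ → Y x = 0) {x : Euc m} (hx : r ≤ ‖x‖) : fderiv ℝ Y x = 0 := by
  have hgt : ∀ y : Euc m, r < ‖y‖ → fderiv ℝ Y y = 0 := by
    intro y hy
    have : Y =ᶠ[𝓝 y] fun _ => 0 := by
      have ho : IsOpen {y : Euc m | r < ‖y‖} := isOpen_lt continuous_const continuous_norm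
      filter_upwards [ho.mem_nhds hy] with z hz
      exact h0 z (le_of_lt hz)
    rw [this.fderiv_eq]
    exact fderiv_const_apply (0 : G)
  have hc : Continuous fun t : ℝ => fderiv ℝ Y (t • x) :=
    (hY.continuous_fderiv one_ne_zero).comp (continuous_id.smul continuous_const)
  have h1 : Tendsto (fun t : ℝ => fderiv ℝ Y (t • x)) (𝓝[>] 1) (𝓝 (fderiv ℝ Y x)) := by
    have := (hc.tendsto 1).mono_left (nhdsWithin_le_nhds (s := Ioi 1))
    simpa using this
  have h2 : Tendsto (fun t : ℝ => fderiv ℝ Y (t • x)) (𝓝[>] 1) (𝓝 0) := by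
    refine tendsto_const_nhds.congr' ?_
    filter_upwards [self_mem_nhdsWithin] with t ht
    rw [hgt]
    have ht' : (1 : ℝ) < t := ht
    rw [norm_smul, Real.norm_eq_abs, abs_of_pos (by linarith)]
    have : 0 < ‖x‖ := hr.trans_le hx
    nlinarith
  exact tendsto_nhds_unique h1 h2

theorem tf (h : Split π ρ) (hφ : ContDiff ℝ 2 φ) {r R : ℝ} (hr : 0 < r) (hR : r < R)
    (h0 : ∀ x, r ≤ ‖x‖ → φ x = 0) (e : Euc n) :
    TF (Hp π) {y | ‖π y‖ < R} (ph π φ e) (Gp π φ e) where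
  der z := hasFDerivAt_ph hφ e z
  smooth := (contDiff_ph hφ e).of_le (by norm_num)
  smoothG := contDiff_Gp hφ e
  zero z hz := by
    simp only [mem_ofPred_eq, not_lt, pi_Hp h] at hz
    rw [ph, h0 _ (hR.le.trans hz), inner_zero_left]
  zeroG z hz := by
    simp only [mem_ofPred_eq, not_lt, pi_Hp h] at hz
    rw [Gp, fderiv_zero_of' hr (hφ.of_le (by norm_num)) h0 (hR.le.trans hz), map_zero]
    simp

/-! ### the integrand -/

/-- the integrand of `GD.weak_jacobi` -/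
def Fi (π : Euc k →L[ℝ] Euc m) (ρ : Euc k →L[ℝ] Euc n) (u φ : Euc m → Euc n) (e : Euc n)
    (z : Euc k) : ℝ :=
  ⟪ht (Hp π) (wg π ρ u) z, adj ρ e⟫_ℝ * tr (fderiv ℝ (Gp π φ e) z * TZ (Hp π) (wg π ρ u) z)
    + 2 * tr ((fderiv ℝ (fun z => ph π φ e z • QQ (wg π ρ u) z (adj ρ e)) z).flip
        (ht (Hp π) (wg π ρ u) z) * TZ (Hp π) (wg π ρ u) z)

theorem first_part (h : Split π ρ) (hu : ContDiff ℝ 3 u) (hφ : ContDiff ℝ 2 φ) (e : Euc n)
    (z : Euc k) :
    ⟪ht (Hp π) (wg π ρ u) z, adj ρ e⟫_ℝ * tr (fderiv ℝ (Gp π φ e) z * TZ (Hp π) (wg π ρ u) z)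
      = ∑ i, ⟪ρ z - u (π z), e⟫_ℝ * ⟪e, fderiv ℝ (fderiv ℝ φ) (π z)
          (ginv (fderiv ℝ u (π z)) (eb i)) (eb i)⟫_ℝ := by
  set S : L m := ((adjL (F := Euc m) (V := Euc n)).flip e) ∘L (fderiv ℝ (fderiv ℝ φ) (π z)) with hS
  have hSx : ∀ x, S x = adj (fderiv ℝ (fderiv ℝ φ) (π z) x) e := fun x => rfl
  have h1 : fderiv ℝ (Gp π φ e) z = adj π ∘L S ∘L π := by
    ext1 v
    rw [fderiv_Gp hφ]; rfl
  have h2 : tr (fderiv ℝ (Gp π φ e) z * TZ (Hp π) (wg π ρ u) z)
      = tr ((adj π ∘L S ∘L π) ∘L TZ (Hp π) (wg π ρ u) z) := by rw [h1]; rfl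
  rw [h2, tr_TZ h hu, ht_eq h, ContinuousLinearMap.adjoint_inner_right, vv_apply h,
    Finset.mul_sum]
  refine Finset.sum_congr rfl fun i _ => ?_
  rw [hSx, ContinuousLinearMap.adjoint_inner_left]

theorem second_sum (h : Split π ρ) (hu : ContDiff ℝ 3 u) (hφ : ContDiff ℝ 2 φ) (z : Euc k)
    {ι : Type*} [Fintype ι] (b : OrthonormalBasis ι ℝ (Euc n)) (y : Euc n) :
    ∑ α, tr ((fderiv ℝ (fun z => ph π φ (b α) z • QQ (wg π ρ u) z (adj ρ (b α))) z).flip
        (adj ρ y) * TZ (Hp π) (wg π ρ u) z)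
      = ∑ i, ⟪fderiv ℝ (fun x => Psi u φ x y) (π z)
          (ginv (fderiv ℝ u (π z)) (eb i)), eb i⟫_ℝ := by
  have hPs : ContDiff ℝ 1 fun x => Psi u φ x y := by
    simp only [Ibp_937.Psi_eq]
    exact (((Ibp_937.contDiff_Aop hu).clm_apply contDiff_const).clm_apply
      (hφ.of_le (by norm_num)))
  have hc : ∀ α, ContDiff ℝ 1 fun z => ph π φ (b α) z • QQ (wg π ρ u) z (adj ρ (b α)) := fun α =>
    ((contDiff_ph hφ (b α)).of_le (by norm_num)).smul ((gd h hu).contDiff_QQ _)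
  -- the sum of the fields
  have hsum : ∀ z : Euc k, ∑ α, (ph π φ (b α) z • QQ (wg π ρ u) z (adj ρ (b α))) (adj ρ y)
      = adj π (Psi u φ (π z) y) := by
    intro z
    have e1 : ∀ α, (ph π φ (b α) z • QQ (wg π ρ u) z (adj ρ (b α))) (adj ρ y)
        = adj π (adj (fderiv ℝ (fderiv ℝ u) (π z) (ginv (fderiv ℝ u (π z))
          (adj (fderiv ℝ u (π z)) y))) (⟪φ (π z), b α⟫_ℝ • b α)) := by
      intro α
      rw [smul_apply, QQ_eq h hu, map_smul, map_smul, ph]
    simp only [e1]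
    rw [← map_sum, ← map_sum]
    have e2 : ∑ α, ⟪φ (π z), b α⟫_ℝ • b α = φ (π z) := by
      conv_rhs => rw [← b.sum_repr' (φ (π z))]
      refine Finset.sum_congr rfl fun α _ => ?_
      rw [real_inner_comm]
    rw [e2]; rfl
  have hD : ∀ v : Euc k, ∑ α, (fderiv ℝ (fun z => ph π φ (b α) z •
      QQ (wg π ρ u) z (adj ρ (b α))) z).flip (adj ρ y) v
      = adj π (fderiv ℝ (fun x => Psi u φ x y) (π z) (π v)) := by
    intro v
    have h1 : HasFDerivAt (fun z => ∑ α, (ph π φ (b α) z • QQ (wg π ρ u) z (adj ρ (b α)))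
        (adj ρ y)) (∑ α, (fderiv ℝ (fun z => ph π φ (b α) z •
      QQ (wg π ρ u) z (adj ρ (b α))) z).flip (adj ρ y)) z := by
      refine HasFDerivAt.fun_sum fun α _ => ?_
      have h2 : HasFDerivAt (fun z => ph π φ (b α) z • QQ (wg π ρ u) z (adj ρ (b α))) _ z :=
        ((hc α).differentiable one_ne_zero z).hasFDerivAt
      refine (h2.clm_apply (hasFDerivAt_const (adj ρ y) z)).congr_fderiv ?_
      ext1 v
      simp
    have h3 : HasFDerivAt (fun z => adj π (Psi u φ (π z) y))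
        (adj π ∘L (fderiv ℝ (fun x => Psi u φ x y) (π z) ∘L π)) z :=
      (adj π).hasFDerivAt.comp z (((hPs.differentiable one_ne_zero (π z)).hasFDerivAt).comp z
        π.hasFDerivAt)
    simp only [hsum] at h1
    have h4 := congrArg (fun A : L k => A v) (h1.unique h3)
    simpa [sum_apply] using h4
  have hop : ∑ α, (fderiv ℝ (fun z => ph π φ (b α) z •
      QQ (wg π ρ u) z (adj ρ (b α))) z).flip (adj ρ y)
      = adj π ∘L (fderiv ℝ (fun x => Psi u φ x y) (π z)) ∘L π := by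
    ext1 v
    rw [sum_apply, hD]; rfl
  rw [← tr_TZ h hu, ← hop, ← map_sum]
  congr 1
  exact (Finset.sum_mul _ _ _).symm

/-- **the sum of the integrands is `lopT`** -/
theorem sum_Fi (h : Split π ρ) (hu : ContDiff ℝ 3 u) (hφ : ContDiff ℝ 2 φ) (z : Euc k)
    {ι : Type*} [Fintype ι] (b : OrthonormalBasis ι ℝ (Euc n)) :
    ∑ α, Fi π ρ u φ (b α) z = lopT u φ (π z) (ρ z - u (π z)) := by
  unfold Fi lopT
  rw [Finset.sum_add_distrib]
  congr 1
  · simp only [first_part h hu hφ]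
    rw [Finset.sum_comm]
    refine Finset.sum_congr rfl fun i _ => ?_
    rw [b.sum_inner_mul_inner, real_inner_comm]
  · rw [← Finset.mul_sum, ht_eq h, second_sum h hu hφ]

end Crest.Agent.R234.Wj_186
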