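import Crest.Agent.R234.Wj3_186

/-!
# Row 234, node F2-WJ (helper186), file 4: bounds of the coefficients, the weak Jacobi inequality
-/

set_option autoImplicit false
set_option maxSynthPendingDepth 3

open MeasureTheory Filter Topology Set
open scoped ENNReal NNReal ContDiff InnerProductSpace
open Crest.GeometryTopology.Submanifold Crest.Agent.R234.Vf_884
open Crest.Agent.R234.Ell1_3 (gop ginv dns adjL)
open Crest.Agent.R234.Cy_870 (Split tr_cyc CylStat)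
open Crest.Agent.R234.MG_570 (TG Psi lopT)
open Crest.Agent.R234.Mx5_397 (msop)
open Crest.Agent.R234.Sel1_570 Crest.Agent.R234.Sel2_570 Crest.Agent.R234.Th_186
open Crest.Agent.R234.Pt_615 (HStat HBase)

noncomputable section

namespace Crest.Agent.R234.Wj_186

variable {m n k : ℕ} {π : Euc k →L[ℝ] Euc m} {ρ : Euc k →L[ℝ] Euc n} {u φ : Euc m → Euc n}

local notation "adj" => ContinuousLinearMap.adjoint
local notation "eb" => stdOrthonormalBasis ℝ (Euc m)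

/-- `C³` bounds of `u` -/
structure U3 (u : Euc m → Euc n) : Prop where
  sm : ContDiff ℝ 3 u
  d1 : ∀ x, ‖fderiv ℝ u x‖ ≤ 1
  d2 : ∀ x, ‖fderiv ℝ (fderiv ℝ u) x‖ ≤ 1
  d3 : ∀ x, ‖fderiv ℝ (fderiv ℝ (fderiv ℝ u)) x‖ ≤ 1

theorem adj_pi_norm (h : Split π ρ) (x : Euc m) : ‖adj π x‖ = ‖x‖ := norm_adj_pi h x

theorem norm_Bz_le (h : Split π ρ) (hu : U3 u) (z : Euc k) : ‖Bz (wg π ρ u) z‖ ≤ 1 := by
  rw [Bz_eq hu.sm]
  refine ContinuousLinearMap.opNorm_le_bound _ zero_le_one fun v => ?_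
  show ‖adj ρ (fderiv ℝ u (π z) (π v))‖ ≤ _
  rw [norm_adj_rho h]
  calc ‖fderiv ℝ u (π z) (π v)‖ ≤ ‖fderiv ℝ u (π z)‖ * ‖π v‖ := ContinuousLinearMap.le_opNorm _ _
    _ ≤ 1 * ‖v‖ := by
        gcongr
        · exact hu.d1 _
        · exact norm_pi_le h v

theorem lip_fderiv {G : Type*} [NormedAddCommGroup G] [NormedSpace ℝ G] {f : Euc m → G} {C : ℝ}
    (hf : Differentiable ℝ f) (hC : ∀ x, ‖fderiv ℝ f x‖ ≤ C) (x y : Euc m) :
    ‖f x - f y‖ ≤ C * ‖x - y‖ :=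
  convex_univ.norm_image_sub_le_of_norm_fderiv_le (fun x _ => hf x) (fun x _ => hC x)
    (mem_univ y) (mem_univ x)

theorem lip_Du (hu : U3 u) (x y : Euc m) : ‖fderiv ℝ u x - fderiv ℝ u y‖ ≤ ‖x - y‖ := by
  have h1 : ContDiff ℝ 2 (fderiv ℝ u) := hu.sm.fderiv_right (by norm_num)
  have := lip_fderiv (h1.differentiable (by norm_num)) hu.d2 x y
  rwa [one_mul] at this

theorem lip_D2u (hu : U3 u) (x y : Euc m) :
    ‖fderiv ℝ (fderiv ℝ u) x - fderiv ℝ (fderiv ℝ u) y‖ ≤ ‖x - y‖ := by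
  have h1 : ContDiff ℝ 2 (fderiv ℝ u) := hu.sm.fderiv_right (by norm_num)
  have h2 : ContDiff ℝ 1 (fderiv ℝ (fderiv ℝ u)) := h1.fderiv_right (by norm_num)
  have := lip_fderiv (h2.differentiable (by norm_num)) hu.d3 x y
  rwa [one_mul] at this

theorem norm_pi_sub_le (h : Split π ρ) (z z' : Euc k) : ‖π z - π z'‖ ≤ ‖z - z'‖ := by
  rw [← map_sub]; exact norm_pi_le h _

theorem lip_Bz (h : Split π ρ) (hu : U3 u) (z z' : Euc k) :
    ‖Bz (wg π ρ u) z - Bz (wg π ρ u) z'‖ ≤ ‖z - z'‖ := by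
  rw [Bz_eq hu.sm, Bz_eq hu.sm]
  refine ContinuousLinearMap.opNorm_le_bound _ (norm_nonneg _) fun v => ?_
  show ‖adj ρ (fderiv ℝ u (π z) (π v)) - adj ρ (fderiv ℝ u (π z') (π v))‖ ≤ _
  rw [← map_sub, norm_adj_rho h, ← sub_apply]
  calc ‖(fderiv ℝ u (π z) - fderiv ℝ u (π z')) (π v)‖
      ≤ ‖fderiv ℝ u (π z) - fderiv ℝ u (π z')‖ * ‖π v‖ := ContinuousLinearMap.le_opNorm _ _
    _ ≤ ‖z - z'‖ * ‖v‖ := by
        gcongr
        · exact (lip_Du hu _ _).trans (norm_pi_sub_le h z z')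
        · exact norm_pi_le h v

theorem norm_adj' (q : Euc m →L[ℝ] Euc n) : ‖adj q‖ = ‖q‖ := LinearIsometryEquiv.norm_map _ q

theorem norm_AA_le (h : Split π ρ) (hu : U3 u) (z e : Euc k) :
    ‖AA (wg π ρ u) z e‖ ≤ ‖e‖ := by
  refine ContinuousLinearMap.opNorm_le_bound _ (norm_nonneg _) fun v => ?_
  rw [AA_eq h hu.sm, norm_adj_pi h]
  calc ‖adj (fderiv ℝ (fderiv ℝ u) (π z) (π v)) (ρ e)‖
      ≤ ‖adj (fderiv ℝ (fderiv ℝ u) (π z) (π v))‖ * ‖ρ e‖ := ContinuousLinearMap.le_opNorm _ _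
    _ ≤ (1 * ‖v‖) * ‖e‖ := by
        rw [norm_adj']
        gcongr
        · refine (ContinuousLinearMap.le_opNorm _ _).trans ?_
          gcongr
          · exact hu.d2 _
          · exact norm_pi_le h v
        · exact norm_rho_le h e
    _ = ‖e‖ * ‖v‖ := by ring

theorem lip_AA (h : Split π ρ) (hu : U3 u) (e z z' : Euc k) :
    ‖AA (wg π ρ u) z e - AA (wg π ρ u) z' e‖ ≤ ‖e‖ * ‖z - z'‖ := by
  refine ContinuousLinearMap.opNorm_le_bound _ (by positivity) fun v => ?_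
  rw [sub_apply, AA_eq h hu.sm, AA_eq h hu.sm, ← map_sub, norm_adj_pi h]
  have e1 : adj (fderiv ℝ (fderiv ℝ u) (π z) (π v)) (ρ e)
      - adj (fderiv ℝ (fderiv ℝ u) (π z') (π v)) (ρ e)
      = adj ((fderiv ℝ (fderiv ℝ u) (π z) - fderiv ℝ (fderiv ℝ u) (π z')) (π v)) (ρ e) := by
    rw [sub_apply, map_sub]; rfl
  rw [e1]
  calc ‖adj ((fderiv ℝ (fderiv ℝ u) (π z) - fderiv ℝ (fderiv ℝ u) (π z')) (π v)) (ρ e)‖
      ≤ ‖adj ((fderiv ℝ (fderiv ℝ u) (π z) - fderiv ℝ (fderiv ℝ u) (π z')) (π v))‖ * ‖ρ e‖ :=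
        ContinuousLinearMap.le_opNorm _ _
    _ ≤ (‖z - z'‖ * ‖v‖) * ‖e‖ := by
        rw [norm_adj']
        gcongr
        · refine (ContinuousLinearMap.le_opNorm _ _).trans ?_
          gcongr
          · exact (lip_D2u hu _ _).trans (norm_pi_sub_le h z z')
          · exact norm_pi_le h v
        · exact norm_rho_le h e
    _ = ‖e‖ * ‖z - z'‖ * ‖v‖ := by ring

theorem norm_QQ_le (h : Split π ρ) (hu : U3 u) (z e : Euc k) :
    ‖QQ (wg π ρ u) z e‖ ≤ ‖e‖ := by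
  rw [QQ]
  calc ‖AA (wg π ρ u) z e * gI (Bz (wg π ρ u) z) * star (Bz (wg π ρ u) z)‖
      ≤ ‖AA (wg π ρ u) z e‖ * ‖gI (Bz (wg π ρ u) z)‖ * ‖star (Bz (wg π ρ u) z)‖ :=
        (norm_mul_le _ _).trans (by gcongr; exact norm_mul_le _ _)
    _ ≤ ‖e‖ * 1 * 1 := by
        rw [norm_star']
        gcongr
        · exact norm_AA_le h hu z e
        · exact norm_gI_le _
        · exact norm_Bz_le h hu z
    _ = ‖e‖ := by ring

theorem lip_QQ (h : Split π ρ) (hu : U3 u) (e z z' : Euc k) :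
    ‖QQ (wg π ρ u) z e - QQ (wg π ρ u) z' e‖ ≤ 4 * ‖e‖ * ‖z - z'‖ := by
  set A := AA (wg π ρ u) z e with hA
  set A' := AA (wg π ρ u) z' e with hA'
  set B := Bz (wg π ρ u) z with hB
  set B' := Bz (wg π ρ u) z' with hB'
  have e1 : QQ (wg π ρ u) z e - QQ (wg π ρ u) z' e
      = (A - A') * gI B * star B + A' * (gI B - gI B') * star B + A' * gI B' * star (B - B') := by
    rw [QQ, QQ, ssub]
    nr570
  have b1 : ‖B‖ ≤ 1 := norm_Bz_le h hu z
  have b2 : ‖B'‖ ≤ 1 := norm_Bz_le h hu z'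
  have b3 : ‖B - B'‖ ≤ ‖z - z'‖ := lip_Bz h hu z z'
  have b4 : ‖gI B - gI B'‖ ≤ 2 * ‖z - z'‖ := (norm_gI_sub b1 b2).trans (by linarith)
  have b5 : ‖A - A'‖ ≤ ‖e‖ * ‖z - z'‖ := lip_AA h hu e z z'
  have b6 : ‖A'‖ ≤ ‖e‖ := norm_AA_le h hu z' e
  have c1 : ‖(A - A') * gI B * star B‖ ≤ ‖e‖ * ‖z - z'‖ * 1 * 1 := by
    refine (norm_mul_le _ _).trans ?_
    rw [norm_star']
    gcongr
    refine (norm_mul_le _ _).trans ?_
    gcongr
    exact norm_gI_le B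
  have c2 : ‖A' * (gI B - gI B') * star B‖ ≤ ‖e‖ * (2 * ‖z - z'‖) * 1 := by
    refine (norm_mul_le _ _).trans ?_
    rw [norm_star']
    gcongr
    refine (norm_mul_le _ _).trans ?_
    gcongr
  have c3 : ‖A' * gI B' * star (B - B')‖ ≤ ‖e‖ * 1 * ‖z - z'‖ := by
    refine (norm_mul_le _ _).trans ?_
    rw [norm_star']
    gcongr
    refine (norm_mul_le _ _).trans ?_
    gcongr
    exact norm_gI_le B'
  rw [e1]
  calc _ ≤ ‖(A - A') * gI B * star B‖ + ‖A' * (gI B - gI B') * star B‖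
        + ‖A' * gI B' * star (B - B')‖ := norm_add₃_le
    _ ≤ ‖e‖ * ‖z - z'‖ * 1 * 1 + ‖e‖ * (2 * ‖z - z'‖) * 1 + ‖e‖ * 1 * ‖z - z'‖ := by gcongr
    _ = _ := by ring

theorem norm_fderiv_QQ_le (h : Split π ρ) (hu : U3 u) (e z : Euc k) :
    ‖fderiv ℝ (fun z => QQ (wg π ρ u) z e) z‖ ≤ 4 * ‖e‖ := by
  have h1 : LipschitzWith ⟨4 * ‖e‖, by positivity⟩ fun z => QQ (wg π ρ u) z e :=
    LipschitzWith.of_dist_le_mul fun z z' => by
      rw [dist_eq_norm, dist_eq_norm]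
      exact lip_QQ h hu e z z'
  exact norm_fderiv_le_of_lipschitz ℝ h1

/-- bounds of the test field -/
structure P2 (φ : Euc m → Euc n) (r B : ℝ) : Prop where
  sm : ContDiff ℝ 2 φ
  b0 : ∀ x, ‖φ x‖ ≤ B
  b1 : ∀ x, ‖fderiv ℝ φ x‖ ≤ B
  b2 : ∀ x, ‖fderiv ℝ (fderiv ℝ φ) x‖ ≤ B
  z : ∀ x, r ≤ ‖x‖ → φ x = 0

theorem P2.nonneg {r B : ℝ} (h : P2 φ r B) : 0 ≤ B := (norm_nonneg _).trans (h.b0 0)

theorem norm_Gp_le (h : Split π ρ) {r B : ℝ} (hφ : P2 φ r B) (e : Euc n) (z : Euc k) :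
    ‖Gp π φ e z‖ ≤ B * ‖e‖ := by
  rw [Gp, norm_adj_pi h, Ell1_3.adjL_apply]
  refine (ContinuousLinearMap.le_opNorm _ _).trans ?_
  rw [norm_adj']
  gcongr
  exact hφ.b1 _

theorem abs_ph_le {r B : ℝ} (hφ : P2 φ r B) (e : Euc n) (z : Euc k) :
    |ph π φ e z| ≤ B * ‖e‖ := by
  rw [ph]
  refine (abs_real_inner_le_norm _ _).trans ?_
  gcongr
  exact hφ.b0 _

theorem norm_fderiv_Gp_le (h : Split π ρ) {r B : ℝ} (hφ : P2 φ r B) (e : Euc n) (z : Euc k) :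
    ‖fderiv ℝ (Gp π φ e) z‖ ≤ B * ‖e‖ := by
  refine ContinuousLinearMap.opNorm_le_bound _
    (mul_nonneg hφ.nonneg (norm_nonneg _)) fun v => ?_
  rw [fderiv_Gp hφ.sm, norm_adj_pi h, Ell1_3.adjL_apply]
  refine (ContinuousLinearMap.le_opNorm _ _).trans ?_
  rw [norm_adj']
  calc ‖fderiv ℝ (fderiv ℝ φ) (π z) (π v)‖ * ‖e‖ ≤ (B * ‖v‖) * ‖e‖ := by
        gcongr
        refine (ContinuousLinearMap.le_opNorm _ _).trans ?_
        gcongr
        · exact hφ.nonneg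
        · exact hφ.b2 _
        · exact norm_pi_le h v
    _ = _ := by ring

theorem norm_fderiv_phQQ_le (h : Split π ρ) (hu : U3 u) {r B : ℝ} (hφ : P2 φ r B) (e : Euc n)
    (z : Euc k) :
    ‖fderiv ℝ (fun z => ph π φ e z • QQ (wg π ρ u) z (adj ρ e)) z‖ ≤ 5 * B * ‖e‖ ^ 2 := by
  have hB := hφ.nonneg
  have h1 : HasFDerivAt (fun z => QQ (wg π ρ u) z (adj ρ e))
      (fderiv ℝ (fun z => QQ (wg π ρ u) z (adj ρ e)) z) z :=
    (((gd h hu.sm).contDiff_QQ (adj ρ e)).differentiable one_ne_zero z).hasFDerivAt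
  have h2 : HasFDerivAt (fun z => ph π φ e z • QQ (wg π ρ u) z (adj ρ e)) _ z :=
    (hasFDerivAt_ph (π := π) hφ.sm e z).smul h1
  rw [h2.fderiv]
  have a1 : ‖ph π φ e z • fderiv ℝ (fun z => QQ (wg π ρ u) z (adj ρ e)) z‖
      ≤ (B * ‖e‖) * (4 * ‖e‖) := by
    rw [norm_smul, Real.norm_eq_abs]
    gcongr
    · exact abs_ph_le hφ e z
    · have := norm_fderiv_QQ_le h hu (adj ρ e) z
      rwa [norm_adj_rho h] at this
  have a2 : ‖(innerSL ℝ (Gp π φ e z)).smulRight (QQ (wg π ρ u) z (adj ρ e))‖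
      ≤ (B * ‖e‖) * ‖e‖ := by
    rw [ContinuousLinearMap.norm_smulRight_apply, innerSL_apply_norm]
    gcongr
    · exact norm_Gp_le h hφ e z
    · have := norm_QQ_le h hu z (adj ρ e)
      rwa [norm_adj_rho h] at this
  calc _ ≤ ‖ph π φ e z • fderiv ℝ (fun z => QQ (wg π ρ u) z (adj ρ e)) z‖
        + ‖(innerSL ℝ (Gp π φ e z)).smulRight (QQ (wg π ρ u) z (adj ρ e))‖ := norm_add_le _ _
    _ ≤ (B * ‖e‖) * (4 * ‖e‖) + (B * ‖e‖) * ‖e‖ := add_le_add a1 a2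
    _ = _ := by ring

/-- the integrands vanish off the closed ball -/
theorem near_zero {r B : ℝ} (hφ : P2 φ r B) (e : Euc n) {z : Euc k}
    (hz : r < ‖π z‖) : (∀ᶠ y in 𝓝 z, ph π φ e y = 0) ∧ (∀ᶠ y in 𝓝 z, Gp π φ e y = 0) := by
  have ho : IsOpen {y : Euc k | r < ‖π y‖} := isOpen_lt continuous_const π.continuous.norm
  have ho' : IsOpen {x : Euc m | r < ‖x‖} := isOpen_lt continuous_const continuous_norm
  constructor
  · filter_upwards [ho.mem_nhds hz] with y hy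
    have hy' : r < ‖π y‖ := hy
    rw [ph, hφ.z _ hy'.le, inner_zero_left]
  · filter_upwards [ho.mem_nhds hz] with y hy
    have hy' : r < ‖π y‖ := hy
    have : φ =ᶠ[𝓝 (π y)] fun _ => 0 := by
      filter_upwards [ho'.mem_nhds hy'] with x hx
      have hx' : r < ‖x‖ := hx
      exact hφ.z _ hx'.le
    rw [Gp, this.fderiv_eq, fderiv_const_apply (0 : Euc n), map_zero]
    simp

theorem continuous_Fi (h : Split π ρ) (hu : ContDiff ℝ 3 u) (hφ : ContDiff ℝ 2 φ) (e : Euc n) :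
    Continuous (Fi π ρ u φ e) := by
  have cf : Continuous fun z : Euc k => ht (Hp π) (wg π ρ u) z := (gd h hu).continuous_ht
  have cDG : Continuous fun z : Euc k => fderiv ℝ (Gp π φ e) z :=
    (contDiff_Gp hφ e).continuous_fderiv (by norm_num)
  have cY : Continuous fun z : Euc k =>
      fderiv ℝ (fun z => ph π φ e z • QQ (wg π ρ u) z (adj ρ e)) z :=
    (((contDiff_ph hφ e).of_le (by norm_num)).smul
      ((gd h hu).contDiff_QQ (adj ρ e))).continuous_fderiv (by norm_num)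
  have cT : Continuous fun z : Euc k => TZ (Hp π) (wg π ρ u) z := (gd h hu).contDiff_TT.continuous
  have cflip : Continuous fun z : Euc k =>
      (fderiv ℝ (fun z => ph π φ e z • QQ (wg π ρ u) z (adj ρ e)) z).flip
        (ht (Hp π) (wg π ρ u) z) :=
    ((ContinuousLinearMap.flipₗᵢ ℝ (Euc k) (Euc k) (Euc k)).continuous.comp cY).clm_apply cf
  unfold Fi
  exact ((cf.inner continuous_const).mul (tr.continuous.comp (cDG.mul cT))).add
    (continuous_const.mul (tr.continuous.comp (cflip.mul cT)))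

/-- **one component** -/
theorem comp_le {W : Measure (Euc k × L k)} [IsFiniteMeasure W] {r R B : ℝ} (hr : 0 < r)
    (hR : r < R) (hW : CylStat W π ρ 0 R 1) (hu : U3 u) (hφ : P2 φ r B)
    (hmin : ∀ x ∈ Metric.ball (0 : Euc m) R, msop u x = 0) {et : Euc m → ℝ} (hc : Continuous et)
    (h1 : ∀ x, ‖x‖ ≤ r → et x = 1) {e : Euc n} (he : ‖e‖ = 1) :
    |∫ p, Fi π ρ u φ e p.1 ∂W| ≤ ∫ p, et (π p.1) ^ 2 * (k * (B + 2 * (5 * B)) *
      ‖ht (Hp π) (wg π ρ u) p.1‖ ^ 2 + (k * (B + 2 * (5 * B)) + 4 * k * B) *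
        tau (TZ (Hp π) (wg π ρ u) p.1) p.2) ∂W := by
  have h := hW.sp
  have hB := hφ.nonneg
  have hae : ‖adj ρ e‖ = 1 := by rw [norm_adj_rho h, he]
  refine GD.weak_jacobi (gd h hu.sm) (tr_H h) (hstat hW) (η := fun z => et (π z))
    (tf h hφ.sm hr hR hφ.z e) (adj ρ e) ?_ (hc.comp π.continuous) ?_ ?_ ?_
  · intro z hz
    refine min_of h hu.sm (hmin _ ?_)
    rw [mem_ball_zero_iff]
    by_contra hcon
    exact hz (by rw [ph, hφ.z _ (hR.le.trans (not_lt.1 hcon)), inner_zero_left])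
  · intro z
    rw [hae, one_mul]
    by_cases hz : ‖π z‖ ≤ r
    · rw [h1 _ hz]
      have := norm_fderiv_Gp_le h hφ e z
      rw [he] at this
      linarith
    · have h2 := (near_zero hφ e (not_le.1 hz)).2
      have h3 : fderiv ℝ (Gp π φ e) z = 0 := by
        have : Gp π φ e =ᶠ[𝓝 z] fun _ => 0 := h2
        rw [this.fderiv_eq]; exact fderiv_const_apply (0 : Euc k)
      rw [h3, norm_zero]
      positivity
  · intro z
    by_cases hz : ‖π z‖ ≤ r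
    · rw [h1 _ hz]
      have := norm_fderiv_phQQ_le h hu hφ e z
      rw [he] at this
      linarith
    · have h2 := (near_zero hφ e (not_le.1 hz)).1
      have h3 : fderiv ℝ (fun z => ph π φ e z • QQ (wg π ρ u) z (adj ρ e)) z = 0 := by
        have : (fun z => ph π φ e z • QQ (wg π ρ u) z (adj ρ e)) =ᶠ[𝓝 z] fun _ => 0 := by
          filter_upwards [h2] with y hy
          rw [hy]
          exact zero_smul ℝ (QQ (wg π ρ u) y (adj ρ e))
        rw [this.fderiv_eq]; exact fderiv_const_apply (0 : L k)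
      rw [h3]
      have : ‖(0 : Euc k →L[ℝ] L k)‖ = 0 := ContinuousLinearMap.opNorm_zero
      rw [this]
      positivity
  · intro z
    by_cases hz : ‖π z‖ ≤ r
    · rw [h1 _ hz]
      calc |ph π φ e z| * ‖AA (wg π ρ u) z (adj ρ e)‖ ≤ (B * ‖e‖) * ‖adj ρ e‖ := by
            gcongr
            · exact abs_ph_le hφ e z
            · exact norm_AA_le h hu z _
        _ = B * 1 ^ 2 := by rw [hae, he]; ring
    · have : ph π φ e z = 0 := by
        rw [ph, hφ.z _ (not_le.1 hz).le, inner_zero_left]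
      rw [this, abs_zero, zero_mul]
      positivity

/-- **WEAK JACOBI, all components** -/
theorem weak_lopT {W : Measure (Euc k × L k)} {r R B h₀ Λ E : ℝ} (hr : 0 < r)
    (hR : r < R) (hW : CylStat W π ρ 0 R 1) (hΛ : W univ ≤ ENNReal.ofReal Λ) (hΛ0 : 0 ≤ Λ)
    (hu : U3 u) (hφ : P2 φ r B)
    (hmin : ∀ x ∈ Metric.ball (0 : Euc m) R, msop u x = 0)
    (hh : ∀ᵐ q ∂W, ‖ρ q.1 - u (π q.1)‖ ≤ h₀) {et : Euc m → ℝ} (hc : Continuous et)
    (h1 : ∀ x, ‖x‖ ≤ r → et x = 1) (h01 : ∀ x, 0 ≤ et x ∧ et x ≤ 1)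
    (hE : ∫ p, et (π p.1) ^ 2 * tau (TG π ρ u (π p.1)) p.2 ∂W ≤ E) :
    |∫ p, lopT u φ (π p.1) (ρ p.1 - u (π p.1)) ∂W|
      ≤ n * (15 * k * B * (Λ * h₀ ^ 2 + E)) := by
  have : IsFiniteMeasure W := ⟨hW.fin⟩
  have h := hW.sp
  have hB := hφ.nonneg
  set b := EuclideanSpace.basisFun (Fin n) ℝ with hb
  have hbase := (hstat hW).toHBase
  have hint : ∀ α, Integrable (fun p : Euc k × L k => Fi π ρ u φ (b α) p.1) W := fun α =>
    integrable_of_cont' hbase ((continuous_Fi h hu.sm hφ.sm (b α)).comp continuous_fst)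
  have e1 : ∫ p, lopT u φ (π p.1) (ρ p.1 - u (π p.1)) ∂W = ∑ α, ∫ p, Fi π ρ u φ (b α) p.1 ∂W := by
    rw [← integral_finsetSum _ fun α _ => hint α]
    refine integral_congr_ae (Eventually.of_forall fun p => ?_)
    simp only
    rw [sum_Fi h hu.sm hφ.sm]
  have iτ : Integrable (fun p : Euc k × L k =>
      et (π p.1) ^ 2 * tau (TZ (Hp π) (wg π ρ u) p.1) p.2) W :=
    integrable_of_cont' hbase ((((hc.comp π.continuous).comp continuous_fst).pow 2).mul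
      (gd h hu.sm).continuous_tau)
  have ih : Integrable (fun p : Euc k × L k =>
      et (π p.1) ^ 2 * ‖ht (Hp π) (wg π ρ u) p.1‖ ^ 2) W :=
    integrable_of_cont' hbase ((((hc.comp π.continuous).comp continuous_fst).pow 2).mul
      (((gd h hu.sm).continuous_ht.comp continuous_fst).norm.pow 2))
  have hWr : W.real univ ≤ Λ := by
    rw [Measure.real]
    exact ENNReal.toReal_le_of_le_ofReal hΛ0 hΛ
  have hhb : ∫ p, et (π p.1) ^ 2 * ‖ht (Hp π) (wg π ρ u) p.1‖ ^ 2 ∂W ≤ Λ * h₀ ^ 2 := by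
    calc ∫ p, et (π p.1) ^ 2 * ‖ht (Hp π) (wg π ρ u) p.1‖ ^ 2 ∂W
        ≤ ∫ _p, 1 * h₀ ^ 2 ∂W := by
          refine integral_mono_ae ih (integrable_const _) ?_
          filter_upwards [hh] with p hp
          have a1 : et (π p.1) ^ 2 ≤ 1 := pow_le_one₀ (h01 _).1 (h01 _).2
          have a2 : ‖ht (Hp π) (wg π ρ u) p.1‖ ^ 2 ≤ h₀ ^ 2 := by
            rw [norm_ht h]
            exact pow_le_pow_left₀ (norm_nonneg _) hp 2
          exact mul_le_mul a1 a2 (by positivity) zero_le_one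
      _ = W.real univ * h₀ ^ 2 := by rw [integral_const, smul_eq_mul, one_mul]
      _ ≤ Λ * h₀ ^ 2 := by gcongr
  have hτ : ∫ p, et (π p.1) ^ 2 * tau (TZ (Hp π) (wg π ρ u) p.1) p.2 ∂W ≤ E := by
    simpa only [TZ_eq hu.sm] using hE
  have k0 : (0 : ℝ) ≤ k := Nat.cast_nonneg k
  have hone : ∀ α, |∫ p, Fi π ρ u φ (b α) p.1 ∂W| ≤ 15 * k * B * (Λ * h₀ ^ 2 + E) := by
    intro α
    have hα : ‖b α‖ = 1 := b.norm_eq_one α
    refine (comp_le hr hR hW hu hφ hmin hc h1 hα).trans ?_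
    have e2 : ∀ p : Euc k × L k, et (π p.1) ^ 2 * (k * (B + 2 * (5 * B)) *
      ‖ht (Hp π) (wg π ρ u) p.1‖ ^ 2 + (k * (B + 2 * (5 * B)) + 4 * k * B) *
        tau (TZ (Hp π) (wg π ρ u) p.1) p.2)
        = 11 * k * B * (et (π p.1) ^ 2 * ‖ht (Hp π) (wg π ρ u) p.1‖ ^ 2)
          + 15 * k * B * (et (π p.1) ^ 2 * tau (TZ (Hp π) (wg π ρ u) p.1) p.2) := fun p => by ring
    simp only [e2]
    rw [integral_add (ih.const_mul _) (iτ.const_mul _), integral_const_mul, integral_const_mul]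
    have a0 : 0 ≤ k * B := mul_nonneg k0 hB
    have a1 : 0 ≤ Λ * h₀ ^ 2 := by positivity
    nlinarith [mul_le_mul_of_nonneg_left hhb a0, mul_le_mul_of_nonneg_left hτ a0,
      mul_nonneg a0 a1]
  rw [e1]
  refine (Finset.abs_sum_le_sum_abs _ _).trans ?_
  calc ∑ α, |∫ p, Fi π ρ u φ (b α) p.1 ∂W| ≤ ∑ _α : Fin n, 15 * k * B * (Λ * h₀ ^ 2 + E) :=
        Finset.sum_le_sum fun α _ => hone α
    _ = n * (15 * k * B * (Λ * h₀ ^ 2 + E)) := by simp

end Crest.Agent.R234.Wj_186
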