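import Crest.Agent.R234.Mx3_397

/-!
# Row 234 (helper161): dilations of the Wiener algebra

`dil t : X F N →L X F N`, `ev (dil t a) x = ev a (t • x)`, `‖dil t a‖ = ∫ wt N (t • ξ) ‖a ξ‖ ≤ ‖a‖`
for `0 < t ≤ 1`.
-/

set_option autoImplicit false
set_option linter.unusedSectionVars false

open MeasureTheory Complex Filter Real
open scoped ContDiff FourierTransform Topology InnerProductSpace SchwartzMap

noncomputable section

namespace Crest.Agent.R234.Zm_161

open Crest.Agent.R086.Wie Crest.Agent.R234.Mx1_397 Crest.Agent.R234.Mx2_397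
open Crest.Agent.R234.Mx3_397

variable {F : Type*} [NormedAddCommGroup F] [InnerProductSpace ℝ F] [FiniteDimensional ℝ F]
  [MeasurableSpace F] [BorelSpace F]

/-- the dilation of a density -/
def dl (t : ℝ) (a : F → ℂ) (ζ : F) : ℂ :=
  (((t ^ Module.finrank ℝ F)⁻¹ : ℝ) : ℂ) * a (t⁻¹ • ζ)

theorem wt_smul_le (N : ℕ) {t : ℝ} (ht : 0 < t) (ht1 : t ≤ 1) (ξ : F) :
    wt N (t • ξ) ≤ wt N ξ := by
  unfold wt
  rw [norm_smul, Real.norm_of_nonneg ht.le]
  have := norm_nonneg ξ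
  gcongr
  nlinarith

theorem integral_dl {E : Type*} [NormedAddCommGroup E] [NormedSpace ℝ E] {t : ℝ} (ht : 0 < t)
    (g : F → E) : ∫ ζ, (t ^ Module.finrank ℝ F)⁻¹ • g (t⁻¹ • ζ) = ∫ ξ, g ξ := by
  rw [integral_smul, Measure.integral_comp_inv_smul_of_nonneg _ _ ht.le, smul_smul,
    inv_mul_cancel₀ (by positivity), one_smul]

theorem norm_dl {t : ℝ} (ht : 0 < t) (a : F → ℂ) (ζ : F) :
    ‖dl t a ζ‖ = (t ^ Module.finrank ℝ F)⁻¹ * ‖a (t⁻¹ • ζ)‖ := by
  unfold dl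
  rw [norm_mul, Complex.norm_real, Real.norm_of_nonneg (by positivity)]

theorem wt_norm_dl (N : ℕ) {t : ℝ} (ht : 0 < t) (a : F → ℂ) (ζ : F) :
    wt N ζ * ‖dl t a ζ‖ = (t ^ Module.finrank ℝ F)⁻¹ •
      (fun ξ => wt N (t • ξ) * ‖a ξ‖) (t⁻¹ • ζ) := by
  rw [norm_dl ht, smul_eq_mul]
  simp only [smul_smul, mul_inv_cancel₀ ht.ne', one_smul]
  ring

theorem aesm_dl {t : ℝ} (ht : 0 < t) {a : F → ℂ} (ha : Integrable a) :
    AEStronglyMeasurable (dl t a) (volume : Measure F) := by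
  have := (ha.comp_smul (inv_ne_zero ht.ne')).aestronglyMeasurable
  exact this.const_mul _

theorem int_wt_smul {N : ℕ} {t : ℝ} (ht : 0 < t) (ht1 : t ≤ 1) {a : F → ℂ} (ha : WInt N a) :
    Integrable (fun ξ => wt N (t • ξ) * ‖a ξ‖) := by
  have hm : Measurable fun ξ : F => wt N (t • ξ) :=
    ((continuous_wt N).comp (continuous_const_smul t)).measurable
  refine ha.norm_int.mono (hm.aestronglyMeasurable.mul
    ha.integrable.aestronglyMeasurable.norm) (Eventually.of_forall fun ξ => ?_)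
  rw [Real.norm_of_nonneg (mul_nonneg (wt_nonneg _ _) (norm_nonneg _)), wtV_apply,
    Real.norm_of_nonneg (mul_nonneg (wt_nonneg _ _) (norm_nonneg _))]
  exact mul_le_mul_of_nonneg_right (wt_smul_le N ht ht1 ξ) (norm_nonneg _)

theorem wint_dl {N : ℕ} {t : ℝ} (ht : 0 < t) (ht1 : t ≤ 1) {a : F → ℂ} (ha : WInt N a) :
    WInt N (dl t a) := by
  rw [WInt, gint_iff (aesm_dl ht ha.integrable)]
  have h := ((int_wt_smul ht ht1 ha).comp_smul (inv_ne_zero ht.ne')).smul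
    (t ^ Module.finrank ℝ F)⁻¹
  refine h.congr (Eventually.of_forall fun ζ => ?_)
  simp only [wtV_apply, Pi.smul_apply]
  exact (wt_norm_dl N ht a ζ).symm

theorem int_dl {N : ℕ} {t : ℝ} (ht : 0 < t) (a : F → ℂ) :
    ∫ ζ, wt N ζ * ‖dl t a ζ‖ = ∫ ξ, wt N (t • ξ) * ‖a ξ‖ := by
  rw [← integral_dl ht (fun ξ => wt N (t • ξ) * ‖a ξ‖)]
  exact integral_congr_ae (Eventually.of_forall fun ζ => wt_norm_dl N ht a ζ)

/-- the dilation operator -/
def dil (N : ℕ) (t : ℝ) (ht : 0 < t) (ht1 : t ≤ 1) : X F N →L[ℂ] X F N :=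
  XG.lift (fun a => dl t a) (fun a ha => wint_dl ht ht1 ha)
    (fun a b _ _ => Eventually.of_forall fun x => by simp only [dl]; ring)
    (fun c a _ => Eventually.of_forall fun x => by simp only [dl]; ring)
    (fun a b _ h => by
      have h1 := (Measure.quasiMeasurePreserving_smul (μ := (volume : Measure F))
        (inv_ne_zero ht.ne')).ae_eq_comp h
      filter_upwards [h1] with x hx
      simp only [dl]
      have : a (t⁻¹ • x) = b (t⁻¹ • x) := hx
      rw [this]) 1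
    (fun a ha => by
      simp only [wtV_apply]
      rw [int_dl ht, one_mul]
      refine integral_mono (int_wt_smul ht ht1 ha) ha.norm_int fun ξ => ?_
      exact mul_le_mul_of_nonneg_right (wt_smul_le N ht ht1 ξ) (norm_nonneg _))

theorem den_dil {N : ℕ} {t : ℝ} (ht : 0 < t) (ht1 : t ≤ 1) (a : X F N) :
    XG.den (dil N t ht ht1 a) =ᵐ[volume] dl t (XG.den a) := XG.den_lift _ _ _ _ _ _ _ a

theorem norm_dil {N : ℕ} {t : ℝ} (ht : 0 < t) (ht1 : t ≤ 1) (a : X F N) :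
    ‖dil N t ht ht1 a‖ = ∫ ξ, wt N (t • ξ) * ‖XG.den a ξ‖ := by
  rw [XG.norm_eq, ← int_dl ht]
  refine integral_congr_ae ((den_dil ht ht1 a).mono fun ξ hξ => ?_)
  simp only [hξ, wtV_apply]

theorem norm_dil_le {N : ℕ} {t : ℝ} (ht : 0 < t) (ht1 : t ≤ 1) (a : X F N) :
    ‖dil N t ht ht1 a‖ ≤ ‖a‖ := by
  rw [norm_dil, XG.norm_eq]
  refine integral_mono (int_wt_smul ht ht1 (XG.gint_den a)) (XG.gint_den a).norm_int fun ξ => ?_
  exact mul_le_mul_of_nonneg_right (wt_smul_le N ht ht1 ξ) (norm_nonneg _)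

theorem ev_dil {N : ℕ} {t : ℝ} (ht : 0 < t) (ht1 : t ≤ 1) (a : X F N) (x : F) :
    ev (dil N t ht ht1 a) x = ev a (t • x) := by
  rw [ev_eq, ev_eq, ← integral_dl ht (fun ξ => chr (t • x) ξ * XG.den a ξ)]
  refine integral_congr_ae ((den_dil ht ht1 a).mono fun ξ hξ => ?_)
  simp only [hξ, dl]
  rw [Complex.real_smul]
  have h1 : chr (t • x) (t⁻¹ • ξ) = chr x ξ := by
    unfold chr
    rw [inner_smul_left, inner_smul_right, ← mul_assoc]
    simp [ht.ne']
  rw [h1]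
  ring

theorem star_dil {N : ℕ} {t : ℝ} (ht : 0 < t) (ht1 : t ≤ 1) (a : X F N) :
    star (dil N t ht ht1 a) = dil N t ht ht1 (star a) := by
  refine XG.ext ?_
  have h0 := (Measure.quasiMeasurePreserving_smul (μ := (volume : Measure F))
        (inv_ne_zero ht.ne')).ae (XG.den_star a)
  filter_upwards [XG.den_star (dil N t ht ht1 a), XG.ae_neg (den_dil ht ht1 a),
    den_dil ht ht1 (star a), h0] with ξ h1 h2 h3 h4
  rw [h1, h2, h3]
  unfold dl
  rw [h4, map_mul, Complex.conj_ofReal, smul_neg]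

end Crest.Agent.R234.Zm_161
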