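import Crest.Agent.R234.Zm1_161
import Crest.Agent.R234.Cto_161

/-!
# Row 234 (helper161): the zoom of the Wiener algebra without loss

`zoom`: for a real `a : X F N`, `2 ≤ N`, `0 < t ≤ 1`, the function
`η(x) (u(tx) - u(0) - Du(0)(tx))` (`u = Re ev a`) has Wiener norm `≤ C t² ‖a‖`.
-/

set_option autoImplicit false
set_option linter.unusedSectionVars false

open MeasureTheory Complex Filter Real
open scoped ContDiff FourierTransform Topology InnerProductSpace SchwartzMap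

noncomputable section

namespace Crest.Agent.R234.Zm_161

open Crest.Agent.R086.Wie Crest.Agent.R234.Mx1_397 Crest.Agent.R234.Mx2_397
open Crest.Agent.R234.Mx3_397

variable {F : Type*} [NormedAddCommGroup F] [InnerProductSpace ℝ F] [FiniteDimensional ℝ F]
  [MeasurableSpace F] [BorelSpace F]

/-! ### a sharper bound of the derivatives -/

theorem norm_iteratedFDeriv_ev_le' {N : ℕ} (a : X F N) {n : ℕ} (hn : n ≤ N) (x : F) :
    ‖iteratedFDeriv ℝ n (fun x => ev a x) x‖ ≤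
      (2 * π) ^ n * ∫ ξ, ‖ξ‖ ^ n * ‖XG.den a ξ‖ := by
  have h2 : (fun x => ev a x) = fun x : F => 𝓕 (XG.den a) (-x) := by
    funext y
    unfold ev
    rw [Real.fourierInv_eq_fourier_neg]
  have h7 : ‖iteratedFDeriv ℝ n (fun x : F => 𝓕 (XG.den a) (-x)) x‖
      = ‖iteratedFDeriv ℝ n (𝓕 (XG.den a)) (-x)‖ :=
    (LinearIsometryEquiv.neg ℝ (E := F)).norm_iteratedFDeriv_comp_right (𝓕 (XG.den a)) x n
  rw [h2, h7,
    Real.iteratedFDeriv_fourier (N := (N : ℕ∞))
      (fun n hn => integrable_norm_pow a (by exact_mod_cast hn))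
      (XG.integrable_den a).aestronglyMeasurable (by exact_mod_cast hn)]
  refine (VectorFourier.norm_fourierIntegral_le_integral_norm _ _ _ _ _).trans ?_
  have hp : (0 : ℝ) ≤ (2 * π) ^ n := by positivity
  rw [← integral_const_mul]
  refine integral_mono_of_nonneg (Eventually.of_forall fun ξ => norm_nonneg _)
    ((integrable_norm_pow a hn).const_mul _) (Eventually.of_forall fun ξ => ?_)
  simp only
  refine (VectorFourier.norm_fourierPowSMulRight_le _ _ _ _).trans ?_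
  have h3 : ‖innerSL ℝ (E := F)‖ ≤ 1 := norm_innerSL_le _
  have h4 : (2 * π * ‖innerSL ℝ (E := F)‖) ^ n ≤ (2 * π) ^ n := by
    have hp' := Real.pi_pos
    refine pow_le_pow_left₀ (by positivity) ?_ n
    nlinarith [norm_nonneg (innerSL ℝ (E := F))]
  rw [mul_assoc]
  exact mul_le_mul_of_nonneg_right h4 (by positivity)

/-! ### Taylor remainder of order two -/

/-- the first order Taylor polynomial -/
def tay (h : F → ℝ) (x : F) : ℝ := h 0 + fderiv ℝ h 0 x

theorem tay_smooth (h : F → ℝ) : ContDiff ℝ ∞ (tay h) := by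
  unfold tay
  exact contDiff_const.add (fderiv ℝ h 0).contDiff

theorem rem_bound {h : F → ℝ} (hs : ContDiff ℝ ∞ h) {A : ℝ} (hA : 0 ≤ A) {K : ℕ}
    (hb : ∀ j, 2 ≤ j → j ≤ max K 2 → ∀ x, ‖iteratedFDeriv ℝ j h x‖ ≤ A) :
    ∀ j ≤ K, ∀ x ∈ Metric.ball (0 : F) 2,
      ‖iteratedFDeriv ℝ j (fun x => h x - tay h x) x‖ ≤ 4 * A := by
  have hd : Differentiable ℝ h := hs.differentiable (by simp)
  have hd1 : ContDiff ℝ ∞ (fderiv ℝ h) := hs.fderiv_right (by simp)
  have hdd : Differentiable ℝ (fderiv ℝ h) := hd1.differentiable (by simp)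
  have h2 : ∀ x, ‖fderiv ℝ (fderiv ℝ h) x‖ ≤ A := fun x => by
    have := hb 2 le_rfl (le_max_right _ _) x
    rw [← norm_iteratedFDeriv_fderiv, ← norm_iteratedFDeriv_fderiv, norm_iteratedFDeriv_zero]
      at this
    exact this
  have hL : ∀ x y, ‖fderiv ℝ h x - fderiv ℝ h y‖ ≤ A * ‖x - y‖ := fun x y =>
    Convex.norm_image_sub_le_of_norm_fderiv_le (𝕜 := ℝ) (s := Set.univ)
      (fun z _ => hdd z) (fun z _ => h2 z) convex_univ (Set.mem_univ y) (Set.mem_univ x)
  have hfd : ∀ x, HasFDerivAt (fun x => h x - tay h x) (fderiv ℝ h x - fderiv ℝ h 0) x :=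
    fun x => by
      have h5 : HasFDerivAt (tay h) (fderiv ℝ h 0) x := by
        unfold tay
        exact (fderiv ℝ h 0).hasFDerivAt.const_add (h 0)
      exact (hd x).hasFDerivAt.sub h5
  have hfd' : fderiv ℝ (fun x => h x - tay h x) = fun x => fderiv ℝ h x - fderiv ℝ h 0 :=
    funext fun x => (hfd x).fderiv
  intro j hj x hx
  rw [mem_ball_zero_iff] at hx
  rcases j with _ | j
  · rw [norm_iteratedFDeriv_zero]
    have h6 : ‖(h x - tay h x) - (h 0 - tay h 0)‖ ≤ (2 * A) * ‖x - 0‖ := by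
      refine Convex.norm_image_sub_le_of_norm_hasFDerivWithin_le (𝕜 := ℝ)
        (s := Metric.ball (0 : F) 2) (f' := fun x => fderiv ℝ h x - fderiv ℝ h 0)
        (fun z _ => (hfd z).hasFDerivWithinAt) (fun z hz => ?_) (convex_ball 0 2)
        (by simp) (by simpa using hx)
      rw [mem_ball_zero_iff] at hz
      refine (hL z 0).trans ?_
      rw [sub_zero]
      nlinarith
    have h7 : h 0 - tay h 0 = 0 := by simp [tay]
    rw [h7, sub_zero, sub_zero] at h6
    refine h6.trans ?_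
    nlinarith
  · rw [← norm_iteratedFDeriv_fderiv, hfd']
    rcases j with _ | j
    · rw [norm_iteratedFDeriv_zero]
      refine (hL x 0).trans ?_
      rw [sub_zero]
      nlinarith
    · rw [← norm_iteratedFDeriv_fderiv]
      have h8 : (fderiv ℝ fun x => fderiv ℝ h x - fderiv ℝ h 0) = fderiv ℝ (fderiv ℝ h) := by
        funext y
        exact fderiv_sub_const _
      rw [h8, norm_iteratedFDeriv_fderiv, norm_iteratedFDeriv_fderiv]
      refine (hb (j + 1 + 1) (by omega) (hj.trans (le_max_left _ _)) x).trans ?_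
      linarith

/-! ### low and high frequencies -/

/-- low frequencies -/
def lo (t : ℝ) (ξ : F) : ℂ := if t * ‖ξ‖ ≤ 1 then 1 else 0

/-- high frequencies -/
def hi (t : ℝ) (ξ : F) : ℂ := if t * ‖ξ‖ ≤ 1 then 0 else 1

theorem measurable_lo (t : ℝ) : Measurable (lo t : F → ℂ) :=
  Measurable.ite (measurableSet_le (measurable_norm.const_mul t) measurable_const)
    measurable_const measurable_const

theorem measurable_hi (t : ℝ) : Measurable (hi t : F → ℂ) :=
  Measurable.ite (measurableSet_le (measurable_norm.const_mul t) measurable_const)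
    measurable_const measurable_const

theorem lo_add_hi (t : ℝ) (ξ : F) : lo t ξ + hi t ξ = 1 := by
  unfold lo hi
  split_ifs <;> simp

theorem lo_symm (t : ℝ) (ξ : F) : lo t (-ξ) = (starRingEnd ℂ) (lo t ξ) := by
  unfold lo
  rw [norm_neg]
  split_ifs <;> simp

theorem hi_symm (t : ℝ) (ξ : F) : hi t (-ξ) = (starRingEnd ℂ) (hi t ξ) := by
  unfold hi
  rw [norm_neg]
  split_ifs <;> simp

theorem lo_hC {t : ℝ} (ht : 0 < t) (M N : ℕ) (ξ : F) :
    ‖lo t ξ‖ * wt M ξ ≤ (1 + t⁻¹) ^ M * wt N ξ := by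
  have h1 := one_le_wt N ξ
  unfold lo
  split_ifs with h
  · rw [norm_one, one_mul]
    have h2 : ‖ξ‖ ≤ t⁻¹ := by
      rw [← one_div, le_div_iff₀ ht]
      linarith
    calc wt M ξ = (1 + ‖ξ‖) ^ M * 1 := by rw [mul_one]; rfl
      _ ≤ (1 + t⁻¹) ^ M * wt N ξ := by
        refine mul_le_mul (pow_le_pow_left₀ (by positivity) (by linarith) _) h1 zero_le_one
          (by positivity)
  · rw [norm_zero, zero_mul]
    have := wt_nonneg N ξ
    positivity

theorem hi_hC (t : ℝ) (N : ℕ) (ξ : F) :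
    ‖hi t ξ‖ * wt N ξ ≤ 1 * wt N ξ := by
  have h1 := wt_nonneg N ξ
  unfold hi
  split_ifs with h
  · rw [norm_zero, zero_mul, one_mul]; exact h1
  · rw [norm_one]

/-- low frequency part, in every class -/
def loX {N : ℕ} (M : ℕ) (t : ℝ) (ht : 0 < t) : X F N →L[ℂ] X F M :=
  mlt (lo t) (measurable_lo t) ((1 + t⁻¹) ^ M) (lo_hC ht M N)

/-- high frequency part -/
def hiX (N : ℕ) (t : ℝ) : X F N →L[ℂ] X F N :=
  mlt (hi t) (measurable_hi t) 1 (hi_hC t N)

theorem den_loX {N : ℕ} (M : ℕ) {t : ℝ} (ht : 0 < t) (a : X F N) :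
    XG.den (loX M t ht a) =ᵐ[volume] fun ξ => lo t ξ * XG.den a ξ := den_mlt _ _ a

theorem den_hiX {N : ℕ} (t : ℝ) (a : X F N) :
    XG.den (hiX N t a) =ᵐ[volume] fun ξ => hi t ξ * XG.den a ξ := den_mlt _ _ a

theorem loX_add_hiX {N : ℕ} {t : ℝ} (ht : 0 < t) (a : X F N) : loX N t ht a + hiX N t a = a := by
  refine XG.ext ?_
  filter_upwards [XG.den_add (loX N t ht a) (hiX N t a), den_loX N ht a, den_hiX t a]
    with ξ h1 h2 h3
  rw [h1, h2, h3, ← add_mul, lo_add_hi, one_mul]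

theorem ev_loX {N : ℕ} (M : ℕ) {t : ℝ} (ht : 0 < t) (a : X F N) (x : F) :
    ev (loX M t ht a) x = ev (loX N t ht a) x :=
  ev_congr ((den_loX M ht a).trans (den_loX N ht a).symm) x

theorem star_loX {N : ℕ} (M : ℕ) {t : ℝ} (ht : 0 < t) (a : X F N) :
    star (loX M t ht a) = loX M t ht (star a) := mlt_star _ _ (lo_symm t) a

theorem star_hiX {N : ℕ} (t : ℝ) (a : X F N) :
    star (hiX N t a) = hiX N t (star a) := mlt_star _ _ (hi_symm t) a

/-- the low frequency part gains `t^k` in all derivatives of order `≥ k` -/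
theorem lo_bound {N k : ℕ} (hk : k ≤ N) {t : ℝ} (ht : 0 < t) (ht1 : t ≤ 1) (a : X F N) (j : ℕ)
    (hj : k ≤ j) (x : F) :
    ‖iteratedFDeriv ℝ j (fun y => ev (dil j t ht ht1 (loX j t ht a)) y) x‖
      ≤ (2 * π) ^ j * (t ^ k * ‖a‖) := by
  refine (norm_iteratedFDeriv_ev_le' _ le_rfl x).trans ?_
  refine mul_le_mul_of_nonneg_left ?_ (by positivity)
  have h1 : ∫ ζ : F, ‖ζ‖ ^ j * ‖XG.den (dil j t ht ht1 (loX j t ht a)) ζ‖
      = ∫ ξ : F, ‖t • ξ‖ ^ j * ‖lo t ξ * XG.den a ξ‖ := by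
    rw [← integral_dl ht (fun ξ => ‖t • ξ‖ ^ j * ‖lo t ξ * XG.den a ξ‖)]
    have h0 := (Measure.quasiMeasurePreserving_smul (μ := (volume : Measure F))
        (inv_ne_zero ht.ne')).ae (den_loX j ht a)
    refine integral_congr_ae ?_
    filter_upwards [den_dil ht ht1 (loX j t ht a), h0] with ζ h2 h3
    rw [h2, norm_dl ht, h3, smul_smul, mul_inv_cancel₀ ht.ne', one_smul, smul_eq_mul]
    ring
  rw [h1, XG.norm_eq, ← integral_const_mul]
  refine integral_mono_of_nonneg (Eventually.of_forall fun ξ => by positivity)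
    ((XG.gint_den a).norm_int.const_mul _) (Eventually.of_forall fun ξ => ?_)
  simp only [wtV_apply]
  have hw : ‖ξ‖ ^ k ≤ wt N ξ := by
    unfold wt
    calc ‖ξ‖ ^ k ≤ (1 + ‖ξ‖) ^ k := by gcongr; linarith
      _ ≤ (1 + ‖ξ‖) ^ N := pow_le_pow_right₀ (by linarith [norm_nonneg ξ]) hk
  unfold lo
  split_ifs with h
  · rw [one_mul, norm_smul, Real.norm_of_nonneg ht.le]
    have h4 : (t * ‖ξ‖) ^ j ≤ (t * ‖ξ‖) ^ k := pow_le_pow_of_le_one (by positivity) h hj
    calc (t * ‖ξ‖) ^ j * ‖XG.den a ξ‖ ≤ (t * ‖ξ‖) ^ k * ‖XG.den a ξ‖ := by gcongr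
      _ = t ^ k * (‖ξ‖ ^ k * ‖XG.den a ξ‖) := by ring
      _ ≤ t ^ k * (wt N ξ * ‖XG.den a ξ‖) := by gcongr
  · rw [zero_mul, norm_zero, mul_zero]
    have := wt_nonneg N ξ
    positivity

/-- the high frequency part gains `t^k`, `k ≤ N` -/
theorem hi_bound {N k : ℕ} (hk : k ≤ N) {t : ℝ} (ht : 0 < t) (ht1 : t ≤ 1) (a : X F N) :
    ‖dil N t ht ht1 (hiX N t a)‖ ≤ 2 ^ N * t ^ k * ‖a‖ := by
  have h1 : ∫ ξ, wt N (t • ξ) * ‖XG.den (hiX N t a) ξ‖
      = ∫ ξ, wt N (t • ξ) * ‖hi t ξ * XG.den a ξ‖ :=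
    integral_congr_ae ((den_hiX t a).mono fun ξ hξ => by simp only [hξ])
  rw [norm_dil, h1, XG.norm_eq, ← integral_const_mul]
  refine integral_mono_of_nonneg (Eventually.of_forall fun ξ =>
    mul_nonneg (wt_nonneg _ _) (norm_nonneg _))
    ((XG.gint_den a).norm_int.const_mul _) (Eventually.of_forall fun ξ => ?_)
  simp only [wtV_apply]
  unfold hi
  split_ifs with h
  · rw [zero_mul, norm_zero, mul_zero]
    have := wt_nonneg N ξ
    positivity
  · rw [one_mul, ← mul_assoc]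
    refine mul_le_mul_of_nonneg_right ?_ (norm_nonneg _)
    unfold wt
    rw [norm_smul, Real.norm_of_nonneg ht.le]
    have h2 : 1 ≤ t * ‖ξ‖ := (not_le.1 h).le
    have h3 : 1 + t * ‖ξ‖ ≤ 2 * (t * (1 + ‖ξ‖)) := by nlinarith
    have h4 : t ^ N ≤ t ^ k := pow_le_pow_of_le_one ht.le ht1 hk
    calc (1 + t * ‖ξ‖) ^ N ≤ (2 * (t * (1 + ‖ξ‖))) ^ N := by gcongr
      _ = 2 ^ N * t ^ N * (1 + ‖ξ‖) ^ N := by rw [mul_pow, mul_pow]; ring
      _ ≤ 2 ^ N * t ^ k * (1 + ‖ξ‖) ^ N := by gcongr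

/-! ### affine functions -/

theorem tay_bound (h : F → ℝ) (j : ℕ) {x : F} (hx : x ∈ Metric.ball (0 : F) 2) :
    ‖iteratedFDeriv ℝ j (tay h) x‖ ≤ ‖h 0‖ + 2 * ‖fderiv ℝ h 0‖ := by
  rw [mem_ball_zero_iff] at hx
  have h5 : fderiv ℝ (tay h) = fun _ => fderiv ℝ h 0 := by
    funext y
    unfold tay
    exact ((fderiv ℝ h 0).hasFDerivAt.const_add (h 0)).fderiv
  rcases j with _ | j
  · rw [norm_iteratedFDeriv_zero]
    unfold tay
    refine (norm_add_le _ _).trans (add_le_add le_rfl ?_)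
    refine ((fderiv ℝ h 0).le_opNorm x).trans ?_
    have := norm_nonneg (fderiv ℝ h 0)
    nlinarith
  · rw [← norm_iteratedFDeriv_fderiv, h5]
    rcases j with _ | j
    · rw [norm_iteratedFDeriv_zero]
      have := norm_nonneg (fderiv ℝ h 0)
      have := norm_nonneg (h 0)
      linarith
    · rw [iteratedFDeriv_const_of_ne (by omega)]
      simp only [Pi.zero_apply, norm_zero]
      positivity

end Crest.Agent.R234.Zm_161
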