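import Crest.Agent.R234.Zm2_161

/-!
# Row 234 (helper161): the zoom of the Wiener algebra without loss, conclusion

`zoom2`: `‖η (u(t·) - u(0) - Du(0)(t·))‖ ≤ C t² ‖a‖`, `zoom1`: `‖η (u(t·) - u(0))‖ ≤ C t ‖a‖`
(`u = Re ev a`), `zoom`: both at an arbitrary centre.
-/

set_option autoImplicit false
set_option linter.unusedSectionVars false

open MeasureTheory Complex Filter Real
open scoped ContDiff FourierTransform Topology InnerProductSpace SchwartzMap

noncomputable section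

namespace Crest.Agent.R234.Zm_161

open Crest.Agent.R086.Wie Crest.Agent.R234.Mx1_397 Crest.Agent.R234.Mx2_397
open Crest.Agent.R234.Mx3_397

variable {F : Type*} [NormedAddCommGroup F] [InnerProductSpace ℝ F] [FiniteDimensional ℝ F]
  [MeasurableSpace F] [BorelSpace F]

/-- the low frequency function at scale `t` -/
def fL {N : ℕ} (t : ℝ) (ht : 0 < t) (ht1 : t ≤ 1) (a : X F N) (y : F) : ℝ :=
  (ev (dil N t ht ht1 (loX N t ht a)) y).re

/-- the high frequency function at scale `t` -/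
def fH {N : ℕ} (t : ℝ) (ht : 0 < t) (ht1 : t ≤ 1) (a : X F N) (y : F) : ℝ :=
  (ev (dil N t ht ht1 (hiX N t a)) y).re

theorem fL_eq {N : ℕ} {t : ℝ} (ht : 0 < t) (ht1 : t ≤ 1) (a : X F N) (j : ℕ) :
    fL t ht ht1 a = fun y => (ev (dil j t ht ht1 (loX j t ht a)) y).re := by
  funext y
  unfold fL
  rw [ev_dil, ev_dil, ev_loX]
  congr 1
  exact (ev_loX j ht a (t • y)).symm

theorem fL_add_fH {N : ℕ} {t : ℝ} (ht : 0 < t) (ht1 : t ≤ 1) (a : X F N) (y : F) :
    fL t ht ht1 a y + fH t ht ht1 a y = (ev a (t • y)).re := by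
  unfold fL fH
  rw [ev_dil, ev_dil, ← Complex.add_re, ← ev_add, loX_add_hiX]

theorem reCLM_norm_iter {f : F → ℂ} {n : ℕ} (hf : ContDiff ℝ n f) {j : ℕ} (hj : j ≤ n) (x : F) :
    ‖iteratedFDeriv ℝ j (fun y => (f y).re) x‖ ≤ ‖iteratedFDeriv ℝ j f x‖ := by
  have h := Complex.reCLM.norm_iteratedFDeriv_comp_left (hf.contDiffAt (x := x)) (n := j)
    (by exact_mod_cast hj)
  rw [Complex.reCLM_norm, one_mul] at h
  exact h

theorem fL_smooth {N : ℕ} {t : ℝ} (ht : 0 < t) (ht1 : t ≤ 1) (a : X F N) :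
    ContDiff ℝ ∞ (fL t ht ht1 a) := by
  rw [contDiff_infty]
  intro j
  rw [fL_eq ht ht1 a j]
  exact Complex.reCLM.contDiff.comp (contDiff_ev _)

theorem fL_bound {N k : ℕ} (hk : k ≤ N) {t : ℝ} (ht : 0 < t) (ht1 : t ≤ 1) (a : X F N) (j : ℕ)
    (hj : k ≤ j) (x : F) :
    ‖iteratedFDeriv ℝ j (fL t ht ht1 a) x‖ ≤ (2 * π) ^ j * (t ^ k * ‖a‖) := by
  rw [fL_eq ht ht1 a j]
  exact (reCLM_norm_iter (contDiff_ev _) le_rfl x).trans (lo_bound hk ht ht1 a j hj x)

theorem fH_smooth {N : ℕ} {t : ℝ} (ht : 0 < t) (ht1 : t ≤ 1) (a : X F N) :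
    ContDiff ℝ N (fH t ht ht1 a) := Complex.reCLM.contDiff.comp (contDiff_ev _)

theorem fH_zero {N k : ℕ} (hk : k ≤ N) {t : ℝ} (ht : 0 < t) (ht1 : t ≤ 1) (a : X F N) (x : F) :
    ‖fH t ht ht1 a x‖ ≤ 2 ^ N * t ^ k * ‖a‖ := by
  unfold fH
  refine (Complex.abs_re_le_norm _).trans ((norm_ev_le _ _).trans (hi_bound hk ht ht1 a))

theorem fH_one {N k : ℕ} (hk : k ≤ N) (hN : 1 ≤ N) {t : ℝ} (ht : 0 < t) (ht1 : t ≤ 1)
    (a : X F N) (x : F) :
    ‖fderiv ℝ (fH t ht ht1 a) x‖ ≤ 2 * π * (2 ^ N * t ^ k * ‖a‖) := by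
  have h := (reCLM_norm_iter (contDiff_ev (dil N t ht ht1 (hiX N t a))) hN x).trans
    (norm_iteratedFDeriv_ev_le _ hN x)
  rw [← norm_iteratedFDeriv_zero (𝕜 := ℝ) (f := fderiv ℝ (fH t ht ht1 a)),
    norm_iteratedFDeriv_fderiv]
  refine h.trans ?_
  rw [pow_one]
  exact mul_le_mul_of_nonneg_left (hi_bound hk ht ht1 a) (by positivity)

theorem pow_two_pi_le {j K : ℕ} (h : j ≤ K) : (2 * π) ^ j ≤ (2 * π) ^ K :=
  pow_le_pow_right₀ (by linarith [Real.pi_gt_three]) h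

theorem star_cutmul {N : ℕ} {η : F → ℝ} (hη : IsCut η) {e : X F N} (he : star e = e) :
    star (toX N (toS η hη.compact hη.smooth) * e) = toX N (toS η hη.compact hη.smooth) * e := by
  rw [star_mul, he, star_toX_toS, mul_comm]

/-- the zoom at the centre `0`, second order -/
theorem zoom2 {N : ℕ} (hN : 2 ≤ N) {η : F → ℝ} (hη : IsCut η) : ∃ C : ℝ, 1 ≤ C ∧
    ∀ (a : X F N), star a = a → ∀ t : ℝ, 0 < t → t ≤ 1 → ∃ a' : X F N, star a' = a' ∧
      ‖a'‖ ≤ C * t ^ 2 * ‖a‖ ∧ ∀ x, ev a' x = ((η x * ((ev a (t • x)).re - (ev a 0).re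
        - fderiv ℝ (fun y => (ev a y).re) 0 (t • x)) : ℝ) : ℂ) := by
  obtain ⟨K, C, hC0, hC⟩ := exists_cutX_bound (F := F) N hη
  set χ : X F N := toX N (toS η hη.compact hη.smooth) with hχ
  have hπ := Real.pi_pos
  refine ⟨1 + C * (4 * (2 * π) ^ (max K 2)) + ‖χ‖ * 2 ^ N + C * ((1 + 4 * π) * 2 ^ N),
    ?_, fun a ha t ht ht1 => ?_⟩
  · have : 0 ≤ C * (4 * (2 * π) ^ (max K 2)) + ‖χ‖ * 2 ^ N + C * ((1 + 4 * π) * 2 ^ N) := by
      positivity
    linarith
  have hL := fL_smooth ht ht1 a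
  have hw : ContDiff ℝ ∞ fun x => fL t ht ht1 a x - tay (fL t ht ht1 a) x :=
    hL.sub (tay_smooth _)
  have hT : ContDiff ℝ ∞ (tay (fH t ht ht1 a)) := tay_smooth _
  set e : X F N := dil N t ht ht1 (hiX N t a) with he
  have hes : star e = e := by rw [he, star_dil, star_hiX, ha]
  refine ⟨cutX N hη (hw.contDiffOn (s := Metric.ball 0 2)) + χ * e
      - cutX N hη (hT.contDiffOn (s := Metric.ball 0 2)), ?_, ?_, fun x => ?_⟩
  · rw [star_sub, star_add, star_cutX, star_cutX, star_cutmul hη hes]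
  · have h1 : ‖cutX N hη (hw.contDiffOn (s := Metric.ball 0 2))‖
        ≤ C * (4 * ((2 * π) ^ (max K 2) * (t ^ 2 * ‖a‖))) := by
      refine hC _ _ _ (by positivity) (rem_bound hL (by positivity) fun j h2 hj x => ?_)
      refine (fL_bound hN ht ht1 a j h2 x).trans ?_
      exact mul_le_mul_of_nonneg_right (pow_two_pi_le hj) (by positivity)
    have h2 : ‖χ * e‖ ≤ ‖χ‖ * (2 ^ N * t ^ 2 * ‖a‖) :=
      (norm_mul_le _ _).trans (mul_le_mul_of_nonneg_left (hi_bound hN ht ht1 a) (norm_nonneg _))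
    have h3 : ‖cutX N hη (hT.contDiffOn (s := Metric.ball 0 2))‖
        ≤ C * ((1 + 4 * π) * (2 ^ N * t ^ 2 * ‖a‖)) := by
      refine hC _ _ _ (by positivity) fun j _ x hx => (tay_bound _ j hx).trans ?_
      have h4 := fH_zero hN ht ht1 a 0
      have h5 := fH_one hN (by omega) ht ht1 a 0
      linarith
    calc ‖cutX N hη (hw.contDiffOn (s := Metric.ball 0 2)) + χ * e
          - cutX N hη (hT.contDiffOn (s := Metric.ball 0 2))‖
        ≤ ‖cutX N hη (hw.contDiffOn (s := Metric.ball 0 2))‖ + ‖χ * e‖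
          + ‖cutX N hη (hT.contDiffOn (s := Metric.ball 0 2))‖ :=
          (norm_sub_le _ _).trans (add_le_add (norm_add_le _ _) le_rfl)
      _ ≤ C * (4 * ((2 * π) ^ (max K 2) * (t ^ 2 * ‖a‖))) + ‖χ‖ * (2 ^ N * t ^ 2 * ‖a‖)
          + C * ((1 + 4 * π) * (2 ^ N * t ^ 2 * ‖a‖)) := by gcongr
      _ = (C * (4 * (2 * π) ^ (max K 2)) + ‖χ‖ * 2 ^ N + C * ((1 + 4 * π) * 2 ^ N))
          * t ^ 2 * ‖a‖ := by ring
      _ ≤ _ := by
        have : 0 ≤ t ^ 2 * ‖a‖ := by positivity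
        nlinarith
  · rw [ev_sub, ev_add, ev_mul, ev_cutX, ev_cutX, ev_toX, toS_apply]
    have h1 : ev e x = ((fH t ht ht1 a x : ℝ) : ℂ) := (ev_real hes x).symm
    rw [h1]
    have hg : Differentiable ℝ fun y => (ev a y).re :=
      (Complex.reCLM.contDiff.comp ((contDiff_ev a).of_le (m := 1)
        (by exact_mod_cast (by omega : 1 ≤ N)))).differentiable (by simp)
    have hH1 : DifferentiableAt ℝ (fH t ht ht1 a) 0 :=
      ((fH_smooth ht ht1 a).of_le (m := 1) (by exact_mod_cast (by omega : 1 ≤ N))).differentiable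
        (by simp) 0
    have hL1 : DifferentiableAt ℝ (fL t ht ht1 a) 0 := hL.differentiable (by simp) 0
    have h2 : fderiv ℝ (fL t ht ht1 a) 0 x + fderiv ℝ (fH t ht ht1 a) 0 x
        = fderiv ℝ (fun y => (ev a y).re) 0 (t • x) := by
      have h3 : (fun y => fL t ht ht1 a y + fH t ht ht1 a y) = fun y => (ev a (t • y)).re :=
        funext fun y => fL_add_fH ht ht1 a y
      have h4 : fderiv ℝ (fun y => fL t ht ht1 a y + fH t ht ht1 a y) 0
          = fderiv ℝ (fL t ht ht1 a) 0 + fderiv ℝ (fH t ht ht1 a) 0 := fderiv_fun_add hL1 hH1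
      rw [← add_apply, ← h4, h3]
      have h5 : HasFDerivAt (fun y : F => t • y) (t • ContinuousLinearMap.id ℝ F) 0 :=
        (hasFDerivAt_id 0).const_smul t
      have h6 : HasFDerivAt (fun y => (ev a y).re) (fderiv ℝ (fun y => (ev a y).re) 0)
          (t • (0 : F)) := by
        rw [smul_zero]
        exact (hg 0).hasFDerivAt
      have h7 := (h6.comp (0 : F) h5).fderiv
      have h8 : fderiv ℝ (fun y => (ev a (t • y)).re) 0
          = (fderiv ℝ (fun y => (ev a y).re) 0).comp (t • ContinuousLinearMap.id ℝ F) := h7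
      rw [h8]
      rfl
    have h9 := fL_add_fH ht ht1 a x
    have h10 := fL_add_fH ht ht1 a 0
    rw [smul_zero] at h10
    rw [← h2, ← h9, ← h10]
    unfold tay
    push_cast
    ring

/-- the zoom at the centre `0`, first order -/
theorem zoom1 {N : ℕ} (hN : 1 ≤ N) {η : F → ℝ} (hη : IsCut η) : ∃ C : ℝ, 1 ≤ C ∧
    ∀ (a : X F N), star a = a → ∀ t : ℝ, 0 < t → t ≤ 1 → ∃ a' : X F N, star a' = a' ∧
      ‖a'‖ ≤ C * t * ‖a‖ ∧ ∀ x, ev a' x = ((η x * ((ev a (t • x)).re - (ev a 0).re) : ℝ) : ℂ) := by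
  obtain ⟨K, C, hC0, hC⟩ := exists_cutX_bound (F := F) N hη
  set χ : X F N := toX N (toS η hη.compact hη.smooth) with hχ
  have hχs : star χ = χ := star_toX_toS N _ _ _
  have hπ := Real.pi_pos
  refine ⟨1 + C * (4 * (2 * π) ^ (max K 1)) + ‖χ‖ * 2 ^ N + 2 ^ N * ‖χ‖,
    ?_, fun a ha t ht ht1 => ?_⟩
  · have : 0 ≤ C * (4 * (2 * π) ^ (max K 1)) + ‖χ‖ * 2 ^ N + 2 ^ N * ‖χ‖ := by
      positivity
    linarith
  have hL := fL_smooth ht ht1 a
  have hw : ContDiff ℝ ∞ fun x => fL t ht ht1 a x - fL t ht ht1 a 0 := hL.sub contDiff_const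
  set e : X F N := dil N t ht ht1 (hiX N t a) with he
  have hes : star e = e := by rw [he, star_dil, star_hiX, ha]
  have hA : 0 ≤ (2 * π) ^ (max K 1) * (t ^ 1 * ‖a‖) := by positivity
  have hb : ∀ j, 1 ≤ j → j ≤ max K 1 → ∀ x,
      ‖iteratedFDeriv ℝ j (fL t ht ht1 a) x‖ ≤ (2 * π) ^ (max K 1) * (t ^ 1 * ‖a‖) :=
    fun j h1 hj x => (fL_bound hN ht ht1 a j h1 x).trans
      (mul_le_mul_of_nonneg_right (pow_two_pi_le hj) (by positivity))
  refine ⟨cutX N hη (hw.contDiffOn (s := Metric.ball 0 2)) + χ * e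
      - ((fH t ht ht1 a 0 : ℝ) : ℂ) • χ, ?_, ?_, fun x => ?_⟩
  · rw [star_sub, star_add, star_cutX, star_cutmul hη hes, star_smul, hχs]
    simp only [RCLike.star_def, Complex.conj_ofReal]
    rfl
  · have h1 : ‖cutX N hη (hw.contDiffOn (s := Metric.ball 0 2))‖
        ≤ C * (4 * ((2 * π) ^ (max K 1) * (t ^ 1 * ‖a‖))) := by
      refine hC _ _ _ (by positivity) fun j hj x hx => ?_
      rw [mem_ball_zero_iff] at hx
      rcases j with _ | j
      · rw [norm_iteratedFDeriv_zero]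
        have h2 := Convex.norm_image_sub_le_of_norm_fderiv_le (𝕜 := ℝ) (f := fL t ht ht1 a)
          (C := (2 * π) ^ (max K 1) * (t ^ 1 * ‖a‖)) (s := Set.univ)
          (fun z _ => hL.differentiable (by simp) z) (fun z _ => by
            have := hb 1 le_rfl (le_max_right _ _) z
            rwa [← norm_iteratedFDeriv_fderiv, norm_iteratedFDeriv_zero] at this)
          convex_univ (Set.mem_univ 0) (Set.mem_univ x)
        rw [sub_zero] at h2
        refine h2.trans ?_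
        nlinarith
      · have h3 : (fun x => fL t ht ht1 a x - fL t ht ht1 a 0)
            = fun x => fL t ht ht1 a x + -(fL t ht ht1 a 0) := by
          funext y; ring
        rw [← norm_iteratedFDeriv_fderiv]
        have h4 : fderiv ℝ (fun x => fL t ht ht1 a x - fL t ht ht1 a 0)
            = fderiv ℝ (fL t ht ht1 a) := by
          funext y
          exact fderiv_sub_const _
        rw [h4, norm_iteratedFDeriv_fderiv]
        refine (hb (j + 1) (by omega) (hj.trans (le_max_left _ _)) x).trans ?_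
        linarith
    have h2 : ‖χ * e‖ ≤ ‖χ‖ * (2 ^ N * t ^ 1 * ‖a‖) :=
      (norm_mul_le _ _).trans (mul_le_mul_of_nonneg_left (hi_bound hN ht ht1 a) (norm_nonneg _))
    have h3 : ‖((fH t ht ht1 a 0 : ℝ) : ℂ) • χ‖ ≤ 2 ^ N * t ^ 1 * ‖a‖ * ‖χ‖ := by
      rw [norm_smul, Complex.norm_real]
      exact mul_le_mul_of_nonneg_right (fH_zero hN ht ht1 a 0) (norm_nonneg _)
    calc ‖cutX N hη (hw.contDiffOn (s := Metric.ball 0 2)) + χ * e
          - ((fH t ht ht1 a 0 : ℝ) : ℂ) • χ‖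
        ≤ ‖cutX N hη (hw.contDiffOn (s := Metric.ball 0 2))‖ + ‖χ * e‖
          + ‖((fH t ht ht1 a 0 : ℝ) : ℂ) • χ‖ :=
          (norm_sub_le _ _).trans (add_le_add (norm_add_le _ _) le_rfl)
      _ ≤ C * (4 * ((2 * π) ^ (max K 1) * (t ^ 1 * ‖a‖))) + ‖χ‖ * (2 ^ N * t ^ 1 * ‖a‖)
          + 2 ^ N * t ^ 1 * ‖a‖ * ‖χ‖ := by gcongr
      _ = (C * (4 * (2 * π) ^ (max K 1)) + ‖χ‖ * 2 ^ N + 2 ^ N * ‖χ‖)
          * t * ‖a‖ := by ring
      _ ≤ _ := by
        have : 0 ≤ t * ‖a‖ := by positivity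
        nlinarith
  · rw [ev_sub, ev_add, ev_mul, ev_smul, ev_cutX, ev_toX, toS_apply]
    have h1 : ev e x = ((fH t ht ht1 a x : ℝ) : ℂ) := (ev_real hes x).symm
    rw [h1]
    have h9 := fL_add_fH ht ht1 a x
    have h10 := fL_add_fH ht ht1 a 0
    rw [smul_zero] at h10
    rw [← h9, ← h10]
    push_cast
    ring

/-! ### an arbitrary centre -/

/-- the translation operator -/
def tw (N : ℕ) (z : F) : X F N →L[ℂ] X F N :=
  mlt (chr z) (continuous_chr z).measurable 1 (fun ξ => by rw [norm_chr])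

theorem norm_tw_le {N : ℕ} (z : F) (a : X F N) : ‖tw N z a‖ ≤ ‖a‖ := by
  have := norm_mlt_le (M := N) (N := N) (continuous_chr z).measurable
    (C := 1) (fun ξ => by rw [norm_chr]) zero_le_one a
  rwa [one_mul] at this

theorem ev_tw {N : ℕ} (z : F) (a : X F N) (x : F) : ev (tw N z a) x = ev a (z + x) := by
  unfold tw
  rw [ev_mlt, ev_eq]
  refine integral_congr_ae (Eventually.of_forall fun ξ => ?_)
  simp only
  rw [← mul_assoc]
  congr 1
  unfold chr
  rw [inner_add_right, AddChar.map_add_eq_mul, Circle.coe_mul, mul_comm]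

theorem star_tw {N : ℕ} (z : F) (a : X F N) : star (tw N z a) = tw N z (star a) := by
  refine mlt_star _ _ (fun ξ => ?_) a
  rw [← chr_neg_conj z ξ, Complex.conj_conj]

/-- the fixed cut-off, `= 1` on `‖x‖ ≤ 3/2` -/
def chi0 (x : F) : ℝ := Cto_161.ct (3 / 2) (7 / 4) x

theorem chi0_isCut : IsCut (chi0 : F → ℝ) :=
  Cto_161.ct_isCut (by norm_num) (by norm_num) (by norm_num)

theorem chi0_one {x : F} (hx : ‖x‖ ≤ 3 / 2) : chi0 x = 1 :=
  Cto_161.ct_one (by norm_num) (by norm_num) hx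

/-- **ZOOM of the Wiener algebra without loss, any centre** -/
theorem zoom (N : ℕ) {η : F → ℝ} (hη : IsCut η) : ∃ C : ℝ, 1 ≤ C ∧
    ∀ (z : F) (t : ℝ), 0 < t → t ≤ 1 → ∀ a : X F (N + 2), star a = a →
      (∃ a' : X F (N + 2), star a' = a' ∧ ‖a'‖ ≤ C * t ^ 2 * ‖a‖ ∧ ∀ x,
        ev a' x = ((η x * ((ev a (z + t • x)).re - (ev a z).re
          - fderiv ℝ (fun y => (ev a y).re) z (t • x)) : ℝ) : ℂ)) ∧
      ∃ a' : X F (N + 2), star a' = a' ∧ ‖a'‖ ≤ C * t * ‖a‖ ∧ ∀ x,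
        ev a' x = ((η x * ((ev a (z + t • x)).re - (ev a z).re) : ℝ) : ℂ) := by
  obtain ⟨C1, hC1, h1⟩ := zoom1 (F := F) (N := N + 2) (by omega) hη
  obtain ⟨C2, hC2, h2⟩ := zoom2 (F := F) (N := N + 2) (by omega) hη
  refine ⟨max C1 C2, hC1.trans (le_max_left _ _), fun z t ht ht1 a ha => ?_⟩
  have hs : star (tw (N + 2) z a) = tw (N + 2) z a := by rw [star_tw, ha]
  have hn := norm_tw_le z a
  constructor
  · obtain ⟨a', h3, h4, h5⟩ := h2 (tw (N + 2) z a) hs t ht ht1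
    refine ⟨a', h3, h4.trans ?_, fun x => ?_⟩
    · gcongr
      exact le_max_right _ _
    · rw [h5, ev_tw, ev_tw, add_zero]
      have h6 : (fun y => (ev (tw (N + 2) z a) y).re) = fun y => (ev a (z + y)).re := by
        funext y
        rw [ev_tw]
      have h7 : fderiv ℝ (fun y => (ev a (z + y)).re) 0 = fderiv ℝ (fun y => (ev a y).re) z := by
        have := fderiv_comp_add_left (𝕜 := ℝ) (f := fun y => (ev a y).re) (x := (0 : F)) z
        rw [add_zero] at this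
        exact this
      rw [h6, h7]
  · obtain ⟨a', h3, h4, h5⟩ := h1 (tw (N + 2) z a) hs t ht ht1
    refine ⟨a', h3, h4.trans ?_, fun x => ?_⟩
    · gcongr
      exact le_max_left _ _
    · rw [h5, ev_tw, ev_tw, add_zero]

end Crest.Agent.R234.Zm_161
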